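import Vale.Agent.P205.Defs

/-! P205: parametric interval integrals and elementary properties of `Bd`. -/

open scoped ContDiff Topology
open Set Filter Real MeasureTheory

noncomputable section
namespace Vale.Agent.P205.MeanAux

section Par
variable {E : Type} [NormedAddCommGroup E] [NormedSpace ℝ E] {V : Set E}

omit [NormedSpace ℝ E] in
theorem slice_cont {F : Type} [NormedAddCommGroup F] {H : E × ℝ → F}
    (hH : ContinuousOn H (V ×ˢ univ)) {z : E} (hz : z ∈ V) : Continuous fun s => H (z, s) :=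
  hH.comp_continuous (Continuous.prodMk_right z) fun _ => ⟨hz, trivial⟩

theorem smooth_fderiv {F : Type} [NormedAddCommGroup F] [NormedSpace ℝ F] {H : E → F}
    (hV : IsOpen V) (hH : ContDiffOn ℝ ∞ H V) : ContDiffOn ℝ ∞ (fderiv ℝ H) V :=
  hH.fderiv_of_isOpen hV (le_of_eq rfl)

theorem smooth_dir {F : Type} [NormedAddCommGroup F] [NormedSpace ℝ F] {H : E → F}
    (hV : IsOpen V) (hH : ContDiffOn ℝ ∞ H V) (v : E) :
    ContDiffOn ℝ ∞ (fun p => fderiv ℝ H p v) V :=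
  (smooth_fderiv hV hH).clm_apply contDiffOn_const

theorem diffAt {F : Type} [NormedAddCommGroup F] [NormedSpace ℝ F] {H : E → F}
    (hV : IsOpen V) (hH : ContDiffOn ℝ ∞ H V) {z : E} (hz : z ∈ V) : DifferentiableAt ℝ H z :=
  (hH.contDiffAt (hV.mem_nhds hz)).differentiableAt (by simp)

theorem hasFDerivAt_slice {F : Type} [NormedAddCommGroup F] [NormedSpace ℝ F] {H : E × ℝ → F}
    {z : E} {s : ℝ} (h : DifferentiableAt ℝ H (z, s)) :
    HasFDerivAt (fun z => H (z, s))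
      ((fderiv ℝ H (z, s)).comp (ContinuousLinearMap.inl ℝ E ℝ)) z :=
  h.hasFDerivAt.comp z (hasFDerivAt_prodMk_left z s)

theorem fderiv_slice {F : Type} [NormedAddCommGroup F] [NormedSpace ℝ F] {H : E × ℝ → F}
    {z : E} {s : ℝ} (h : DifferentiableAt ℝ H (z, s)) (X : E) :
    fderiv ℝ H (z, s) (X, 0) = fderiv ℝ (fun z => H (z, s)) z X := by
  rw [(hasFDerivAt_slice h).fderiv]
  rfl

theorem hasDerivAt_slice {F : Type} [NormedAddCommGroup F] [NormedSpace ℝ F] {H : E × ℝ → F}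
    {z : E} {s : ℝ} (h : DifferentiableAt ℝ H (z, s)) :
    HasDerivAt (fun s => H (z, s)) (fderiv ℝ H (z, s) (0, 1)) s :=
  h.hasFDerivAt.comp_hasDerivAt s ((hasDerivAt_const s z).prodMk (hasDerivAt_id s))

variable [FiniteDimensional ℝ E]

theorem par_hasFDerivAt {F : Type} [NormedAddCommGroup F] [NormedSpace ℝ F] {H : E × ℝ → F}
    (hV : IsOpen V) (hH : ContDiffOn ℝ ∞ H (V ×ˢ univ)) (a b : ℝ) {z : E} (hz : z ∈ V) :
    HasFDerivAt (fun z => ∫ s in a..b, H (z, s))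
      (∫ s in a..b, (fderiv ℝ H (z, s)).comp (ContinuousLinearMap.inl ℝ E ℝ)) z := by
  have hW : IsOpen (V ×ˢ (univ : Set ℝ)) := hV.prod isOpen_univ
  have := FiniteDimensional.proper_real E
  obtain ⟨r, hr, hrV⟩ := Metric.nhds_basis_closedBall.mem_iff.1 (hV.mem_nhds hz)
  have hc : ContinuousOn (fun p => (fderiv ℝ H p).comp (ContinuousLinearMap.inl ℝ E ℝ))
      (V ×ˢ univ) := ((smooth_fderiv hW hH).clm_comp contDiffOn_const).continuousOn
  obtain ⟨C, hC⟩ := ((isCompact_closedBall z r).prod (isCompact_uIcc (a := a) (b := b))).exists_bound_of_continuousOn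
    (hc.mono (prod_mono hrV (subset_univ _)))
  refine intervalIntegral.hasFDerivAt_integral_of_dominated_of_fderiv_le (μ := volume)
    (F := fun z s => H (z, s))
    (F' := fun z s => (fderiv ℝ H (z, s)).comp (ContinuousLinearMap.inl ℝ E ℝ))
    (bound := fun _ => C) (Metric.closedBall_mem_nhds z hr) ?_ ?_ ?_ ?_ ?_ ?_
  · filter_upwards [hV.mem_nhds hz] with y hy
    exact (slice_cont hH.continuousOn hy).aestronglyMeasurable
  · exact (slice_cont hH.continuousOn hz).intervalIntegrable _ _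
  · exact (slice_cont hc hz).aestronglyMeasurable
  · exact Eventually.of_forall fun s hs y hy => hC (y, s) ⟨hy, uIoc_subset_uIcc hs⟩
  · exact intervalIntegrable_const
  · exact Eventually.of_forall fun s _ y hy => hasFDerivAt_slice (diffAt hW hH ⟨hrV hy, trivial⟩)

theorem par_contDiffOn_nat (hV : IsOpen V) (a b : ℝ) (n : ℕ) :
    ∀ {F : Type} [NormedAddCommGroup F] [NormedSpace ℝ F] {H : E × ℝ → F},
      ContDiffOn ℝ ∞ H (V ×ˢ univ) → ContDiffOn ℝ n (fun z => ∫ s in a..b, H (z, s)) V := by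
  induction n with
  | zero =>
    intro F _ _ H hH
    exact contDiffOn_zero.2 fun z hz =>
      (par_hasFDerivAt hV hH a b hz).continuousAt.continuousWithinAt
  | succ n ih =>
    intro F _ _ H hH
    rw [Nat.cast_succ, contDiffOn_succ_iff_fderiv_of_isOpen hV]
    refine ⟨fun z hz => (par_hasFDerivAt hV hH a b hz).differentiableAt.differentiableWithinAt,
      fun h => absurd h (by simp), ?_⟩
    refine (ih (H := fun p => (fderiv ℝ H p).comp (ContinuousLinearMap.inl ℝ E ℝ))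
      ((smooth_fderiv (hV.prod isOpen_univ) hH).clm_comp contDiffOn_const)).congr fun z hz => ?_
    exact (par_hasFDerivAt hV hH a b hz).fderiv

theorem par_contDiffOn {F : Type} [NormedAddCommGroup F] [NormedSpace ℝ F] {H : E × ℝ → F}
    (hV : IsOpen V) (hH : ContDiffOn ℝ ∞ H (V ×ˢ univ)) (a b : ℝ) :
    ContDiffOn ℝ ∞ (fun z => ∫ s in a..b, H (z, s)) V :=
  contDiffOn_infty.2 fun n => par_contDiffOn_nat hV a b n hH

theorem par_fderiv {F : Type} [NormedAddCommGroup F] [NormedSpace ℝ F] [CompleteSpace F]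
    {H : E × ℝ → F} (hV : IsOpen V) (hH : ContDiffOn ℝ ∞ H (V ×ˢ univ)) (a b : ℝ) {z : E}
    (hz : z ∈ V) (X : E) : fderiv ℝ (fun z => ∫ s in a..b, H (z, s)) z X =
      ∫ s in a..b, fderiv ℝ H (z, s) (X, 0) := by
  have hc : ContinuousOn (fun p => (fderiv ℝ H p).comp (ContinuousLinearMap.inl ℝ E ℝ))
      (V ×ˢ univ) :=
    ((smooth_fderiv (hV.prod isOpen_univ) hH).clm_comp contDiffOn_const).continuousOn
  rw [(par_hasFDerivAt hV hH a b hz).fderiv,
    ContinuousLinearMap.intervalIntegral_apply ((slice_cont hc hz).intervalIntegrable _ _)]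
  rfl

/-- primitive in the last variable -/
def prim {F : Type} [NormedAddCommGroup F] [NormedSpace ℝ F] (H : E × ℝ → F) (p : E × ℝ) : F :=
  ∫ s in (0:ℝ)..p.2, H (p.1, s)

theorem prim_contDiffOn {F : Type} [NormedAddCommGroup F] [NormedSpace ℝ F] {H : E × ℝ → F}
    (hV : IsOpen V) (hH : ContDiffOn ℝ ∞ H (V ×ˢ univ)) :
    ContDiffOn ℝ ∞ (prim H) (V ×ˢ univ) := by
  have h1 : ContDiffOn ℝ ∞ (fun q : (E × ℝ) × ℝ => H (q.1.1, q.1.2 * q.2))
      ((V ×ˢ univ) ×ˢ univ) :=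
    hH.comp (by fun_prop) fun q hq => ⟨hq.1.1, trivial⟩
  have h2 := par_contDiffOn (hV.prod isOpen_univ) h1 0 1
  refine (contDiffOn_snd.smul h2).congr fun p _ => ?_
  have := intervalIntegral.smul_integral_comp_mul_left (a := 0) (b := 1)
    (fun s => H (p.1, s)) p.2
  rw [mul_zero, mul_one] at this
  exact this.symm

theorem prim_fderiv {F : Type} [NormedAddCommGroup F] [NormedSpace ℝ F] [CompleteSpace F]
    {H : E × ℝ → F} (hV : IsOpen V) (hH : ContDiffOn ℝ ∞ H (V ×ˢ univ)) {z : E} (hz : z ∈ V)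
    (t : ℝ) (X : E) :
    fderiv ℝ (prim H) (z, t) (X, 0) = ∫ s in (0:ℝ)..t, fderiv ℝ H (z, s) (X, 0) := by
  rw [fderiv_slice (diffAt (hV.prod isOpen_univ) (prim_contDiffOn hV hH) ⟨hz, trivial⟩)]
  exact par_fderiv hV hH 0 t hz X

theorem prim_fderiv_t {F : Type} [NormedAddCommGroup F] [NormedSpace ℝ F] [CompleteSpace F]
    {H : E × ℝ → F} (hV : IsOpen V) (hH : ContDiffOn ℝ ∞ H (V ×ˢ univ)) {z : E} (hz : z ∈ V)
    (t : ℝ) : fderiv ℝ (prim H) (z, t) (0, 1) = H (z, t) :=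
  (hasDerivAt_slice (diffAt (hV.prod isOpen_univ) (prim_contDiffOn hV hH) ⟨hz, trivial⟩)).unique
    ((slice_cont hH.continuousOn hz).integral_hasStrictDerivAt 0 t).hasDerivAt
end Par

section Bd
variable {E F : Type} [NormedAddCommGroup E] [NormedSpace ℝ E]
  [NormedAddCommGroup F] [NormedSpace ℝ F] {k : ℕ} {v : Fin k → E} {S : Set E} {σ σ' : E → ℝ}

theorem bd_zero_of {n : ℕ} {f : E → F} (h : Bd v S σ n f) :
    ∀ p ∈ S, ContDiffAt ℝ ∞ f p ∧ ‖f p‖ ≤ σ p := by
  cases n with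
  | zero => exact h
  | succ n => exact h.1

theorem bd_congr (hS : IsOpen S) (n : ℕ) : ∀ {f g : E → F}, (∀ p ∈ S, g p = f p) →
    Bd v S σ n f → Bd v S σ n g := by
  have key : ∀ {f g : E → F}, (∀ p ∈ S, g p = f p) → ∀ p ∈ S, g =ᶠ[𝓝 p] f :=
    fun h p hp => by filter_upwards [hS.mem_nhds hp] with q hq using h q hq
  have k0 : ∀ {f g : E → F}, (∀ p ∈ S, g p = f p) →
      (∀ p ∈ S, ContDiffAt ℝ ∞ f p ∧ ‖f p‖ ≤ σ p) → ∀ p ∈ S, ContDiffAt ℝ ∞ g p ∧ ‖g p‖ ≤ σ p :=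
    fun h hf p hp => ⟨(hf p hp).1.congr_of_eventuallyEq (key h p hp), h p hp ▸ (hf p hp).2⟩
  induction n with
  | zero => exact fun h hf => k0 h hf
  | succ n ih =>
    exact fun h hf => ⟨k0 h hf.1, fun d => ih (fun p hp => by rw [(key h p hp).fderiv_eq]) (hf.2 d)⟩

theorem bd_mono (h : ∀ p ∈ S, σ p ≤ σ' p) (n : ℕ) : ∀ {f : E → F},
    Bd v S σ n f → Bd v S σ' n f := by
  induction n with
  | zero => exact fun hf p hp => ⟨(hf p hp).1, (hf p hp).2.trans (h p hp)⟩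
  | succ n ih =>
    exact fun hf => ⟨fun p hp => ⟨(hf.1 p hp).1, (hf.1 p hp).2.trans (h p hp)⟩, fun d => ih (hf.2 d)⟩

theorem bd_pred (n : ℕ) : ∀ {f : E → F}, Bd v S σ (n + 1) f → Bd v S σ n f := by
  induction n with
  | zero => exact fun hf => hf.1
  | succ n ih => exact fun hf => ⟨hf.1, fun d => ih (hf.2 d)⟩

theorem bd_zero (h : ∀ p ∈ S, 0 ≤ σ p) (n : ℕ) : Bd v S σ n fun _ => (0 : F) := by
  induction n with
  | zero => exact fun p hp => ⟨contDiffAt_const, by simpa using h p hp⟩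
  | succ n ih => exact ⟨fun p hp => ⟨contDiffAt_const, by simpa using h p hp⟩, fun d => by simpa⟩

theorem bd_sub (hS : IsOpen S) (n : ℕ) : ∀ {f g : E → F}, Bd v S σ n f → Bd v S σ' n g →
    Bd v S (fun p => σ p + σ' p) n fun p => f p - g p := by
  have k0 : ∀ {f g : E → F}, (∀ p ∈ S, ContDiffAt ℝ ∞ f p ∧ ‖f p‖ ≤ σ p) →
      (∀ p ∈ S, ContDiffAt ℝ ∞ g p ∧ ‖g p‖ ≤ σ' p) →
      ∀ p ∈ S, ContDiffAt ℝ ∞ (fun p => f p - g p) p ∧ ‖f p - g p‖ ≤ σ p + σ' p :=
    fun hf hg p hp => ⟨(hf p hp).1.sub (hg p hp).1,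
      (norm_sub_le _ _).trans (add_le_add (hf p hp).2 (hg p hp).2)⟩
  induction n with
  | zero => exact fun hf hg => k0 hf hg
  | succ n ih =>
    intro f g hf hg
    refine ⟨k0 hf.1 hg.1, fun d => bd_congr hS n (fun p hp => ?_)
      (ih (hf.2 d) (hg.2 d))⟩
    rw [fderiv_fun_sub ((hf.1 p hp).1.differentiableAt (by simp))
      ((hg.1 p hp).1.differentiableAt (by simp))]
    rfl
end Bd

end Vale.Agent.P205.MeanAux
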