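import Vale.Agent.P205.CoreAuxD

/-! P205, core step: jets of the corrugation. -/

open scoped ContDiff InnerProductSpace Topology
open Set Filter Real

noncomputable section
namespace Vale.Agent.P205
open CoreA

theorem fderiv_Vv {f e e' : P2 → R4} {r : P2 → ℝ} {ψ : P3 → ℝ} {z : P3}
    (hf : DifferentiableAt ℝ (dv f) z.1) (he : DifferentiableAt ℝ e z.1)
    (he' : DifferentiableAt ℝ e' z.1) (hr : DifferentiableAt ℝ r z.1)
    (hψ : DifferentiableAt ℝ ψ z) (v : P3) :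
    fderiv ℝ (fun z : P3 => Vv f e e' r z.1 (ψ z)) z v =
      fderiv ℝ (Bp f e e') z.1 v.1 +
        fderiv ℝ r z.1 v.1 • nPar (e z.1) (e' z.1) (cos (ψ z)) (sin (ψ z)) +
        r z.1 • nPar (fderiv ℝ e z.1 v.1) (fderiv ℝ e' z.1 v.1) (cos (ψ z)) (sin (ψ z)) +
        (r z.1 * fderiv ℝ ψ z v) • nPer (e z.1) (e' z.1) (cos (ψ z)) (sin (ψ z)) := by
  have hB : DifferentiableAt ℝ (Bp f e e') z.1 :=
    (hf.sub ((hf.inner ℝ he).smul he)).sub ((hf.inner ℝ he').smul he')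
  have h := (hasFDerivAt_lift hB).fun_add ((hasFDerivAt_lift hr).fun_smul
    ((hψ.hasFDerivAt.cos.fun_smul (hasFDerivAt_lift he)).fun_add
      (hψ.hasFDerivAt.sin.fun_smul (hasFDerivAt_lift he'))))
  refine (DFunLike.congr_fun h.fderiv v).trans ?_
  simp only [add_apply, smul_apply, ContinuousLinearMap.smulRight_apply,
    ContinuousLinearMap.comp_apply, ContinuousLinearMap.coe_fst', nPar, nPer, smul_eq_mul]
  module

theorem fderiv_smul' {E F : Type} [NormedAddCommGroup E] [NormedSpace ℝ E] [NormedAddCommGroup F]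
    [NormedSpace ℝ F] {f : E → F} {z : E} (hf : DifferentiableAt ℝ f z) (c : ℝ) (v : E) :
    fderiv ℝ (fun z => c • f z) z v = c • fderiv ℝ f z v := by
  rw [fderiv_fun_const_smul hf]
  rfl

section Ev
variable {U : Set P2} {μ : ℝ} {Z W : P3 → R4} {x : P2}

/-- the corrugation -/
def yOf (μ : ℝ) (Z : P3 → R4) (x : P2) : R4 := μ⁻¹ • Z (x, μ * x.2)
/-- the remainder in the `v`-derivative -/
def rOf (μ : ℝ) (Z W : P3 → R4) (z : P3) : R4 := pv Z z + μ • pt (fun z => Z z - W z) z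

variable (hU : IsOpen U) (hμ : μ ≠ 0) (hZ : ∀ x ∈ U, ∀ t, ContDiffAt ℝ ∞ Z (x, t))
  (hW : ∀ x ∈ U, ∀ t, ContDiffAt ℝ ∞ W (x, t)) (hx : x ∈ U)

include hZ hx in
theorem du_yOf : du (yOf μ Z) x = μ⁻¹ • pu Z (x, μ * x.2) :=
  (du_ev (Z := fun z => μ⁻¹ • Z z) ((dA (hZ x hx _)).fun_const_smul _)).trans
    (fderiv_smul' (dA (hZ x hx _)) _ _)

include hμ hZ hx in
theorem dv_yOf : dv (yOf μ Z) x = μ⁻¹ • pv Z (x, μ * x.2) + pt Z (x, μ * x.2) := by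
  refine (dv_ev (Z := fun z => μ⁻¹ • Z z) ((dA (hZ x hx _)).fun_const_smul _)).trans ?_
  rw [pv, pt, fderiv_smul' (dA (hZ x hx _)), fderiv_smul' (dA (hZ x hx _)), smul_inv_smul₀ hμ]
  rfl

include hμ hZ hW hx in
theorem dv_yOf' : dv (yOf μ Z) x = pt W (x, μ * x.2) + μ⁻¹ • rOf μ Z W (x, μ * x.2) := by
  rw [dv_yOf hμ hZ hx, rOf, smul_add, inv_smul_smul₀ hμ, pt, pt, pt,
    fderiv_fun_sub (dA (hZ x hx _)) (dA (hW x hx _)), sub_apply]
  abel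

include hZ hW hx in
theorem sm_rOf (t : ℝ) : ContDiffAt ℝ ∞ (rOf μ Z W) (x, t) :=
  (cA (hZ x hx t) _).add ((cA ((hZ x hx t).sub (hW x hx t)) _).const_smul μ)

include hU hZ hx in
theorem dudu_yOf : du (du (yOf μ Z)) x = μ⁻¹ • pu (pu Z) (x, μ * x.2) := by
  rw [du, fderiv_congr_open hU (fun y hy => du_yOf hZ hy) hx]
  exact du_yOf (Z := pu Z) (fun x hx t => cA (hZ x hx t) _) hx

include hU hμ hZ hW hx in
theorem dudv_yOf : du (dv (yOf μ Z)) x =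
    pu (pt W) (x, μ * x.2) + μ⁻¹ • pu (rOf μ Z W) (x, μ * x.2) := by
  have h1 : DifferentiableAt ℝ (pt W) (x, μ * x.2) := dA (cA (hW x hx _) _)
  have h2 := dA (sm_rOf (μ := μ) hZ hW hx (μ * x.2))
  rw [du, fderiv_congr_open hU (fun y hy => dv_yOf' hμ hZ hW hy) hx]
  exact (du_ev (Z := fun z => pt W z + μ⁻¹ • rOf μ Z W z)
    (h1.fun_add (h2.fun_const_smul _))).trans (fderiv_add_smul h1 h2 _ _)

include hU hμ hZ hW hx in
theorem dvdv_yOf : dv (dv (yOf μ Z)) x = μ • pt (pt W) (x, μ * x.2) + (pv (pt W) (x, μ * x.2) +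
    μ⁻¹ • pv (rOf μ Z W) (x, μ * x.2) + pt (rOf μ Z W) (x, μ * x.2)) := by
  have h1 : DifferentiableAt ℝ (pt W) (x, μ * x.2) := dA (cA (hW x hx _) _)
  have h2 := dA (sm_rOf (μ := μ) hZ hW hx (μ * x.2))
  rw [dv, fderiv_congr_open hU (fun y hy => dv_yOf' hμ hZ hW hy) hx]
  refine (dv_ev (Z := fun z => pt W z + μ⁻¹ • rOf μ Z W z)
    (h1.fun_add (h2.fun_const_smul _))).trans ?_
  rw [pv, fderiv_add_smul h1 h2, pt, fderiv_add_smul h1 h2, smul_add, smul_inv_smul₀ hμ]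
  change pv (pt W) _ + μ⁻¹ • pv (rOf μ Z W) _ + (μ • pt (pt W) _ + pt (rOf μ Z W) _) = _
  abel
end Ev

namespace Core
variable {ι : Type} {L : ℝ} {K : Set Q3} {X : Core ι K} (P : Pat L K) {i : ι} {x : P2}

theorem fderiv_ptW (hK : IsCompact K) (hx : x ∈ X.U i) (t : ℝ) (v : P3) :
    fderiv ℝ (dv (X.f i)) x v.1 + fderiv ℝ (pt (X.W P i)) (x, t) v =
      fderiv ℝ (fun z : P3 => Vv (X.f i) (X.e i) (X.e' i) (X.r i) z.1 (X.ψ P i z)) (x, t) v := by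
  rw [← fderiv_congr_open (X.open3 i) (fun z hz => V_eq P hK hz.1 z.2) (x := (x, t)) ⟨hx, trivial⟩]
  exact (DFunLike.congr_fun ((hasFDerivAt_lift (z := (x, t)) (dA (X.H2_B.sm hx))).fun_add
    (dA ((X.H_W P hK).pt.sm hx t)).hasFDerivAt).fderiv v).symm

theorem pu_V (hK : IsCompact K) (hx : x ∈ X.U i) (t : ℝ) :
    du (dv (X.f i)) x + pu (pt (X.W P i)) (x, t) =
      Xi (X.f i) (X.e i) (X.e' i) (X.r i) x (X.ψ P i (x, t)) + (X.r i x * pu (X.ψ P i) (x, t)) •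
        nPer (X.e i x) (X.e' i x) (cos (X.ψ P i (x, t))) (sin (X.ψ P i (x, t))) :=
  (fderiv_ptW P hK hx t ((1, 0), 0)).trans (fderiv_Vv (z := (x, t)) (dA (X.H2_B.sm hx))
    (dA (X.H2_e.sm hx)) (dA (X.H2_e'.sm hx)) (dA (X.H2_r.sm hx)) (dA ((X.H_ψ P hK).sm hx t)) _)

theorem pt_V (hK : IsCompact K) (hx : x ∈ X.U i) (t : ℝ) :
    pt (pt (X.W P i)) (x, t) = (X.r i x * pt (X.ψ P i) (x, t)) •
        nPer (X.e i x) (X.e' i x) (cos (X.ψ P i (x, t))) (sin (X.ψ P i (x, t))) := by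
  have h := (fderiv_ptW P hK hx t ((0, 0), 1)).trans (fderiv_Vv (z := (x, t)) (dA (X.H2_B.sm hx))
    (dA (X.H2_e.sm hx)) (dA (X.H2_e'.sm hx)) (dA (X.H2_r.sm hx)) (dA ((X.H_ψ P hK).sm hx t)) _)
  simp only [Prod.mk_zero_zero, map_zero, zero_add, zero_smul, nPar, smul_zero, add_zero] at h
  exact h

theorem fderiv_ψ (hx : x ∈ X.U i) (t : ℝ) (v : P3) : fderiv ℝ (X.ψ P i) (x, t) v =
    X.w i x * fderiv ℝ P.Γ (X.arg i (x, t)) (fderiv ℝ (X.q i) x v.1, X.Θ i * v.1.1, v.2) +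
      P.Γ (X.arg i (x, t)) * fderiv ℝ (X.w i) x v.1 := by
  have h := (hasFDerivAt_lift (z := (x, t)) (dA (X.H2_w.sm hx))).fun_mul
    (fderiv_comp_arg (z := (x, t)) hx (P.dΓ (q_mem hx)))
  refine (DFunLike.congr_fun h.fderiv v).trans ?_
  simp only [add_apply, smul_apply, ContinuousLinearMap.comp_apply, ContinuousLinearMap.coe_fst',
    smul_eq_mul, X.fderiv_arg (z := (x, t)) hx]

theorem psi1_le {b : ℕ} (hb : 10 ≤ b) : ∀ᶠ C : ℝ in atTop, ∀ i, ∀ x ∈ X.U i, ∀ t,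
    |pu (X.ψ P i) (x, t)| ≤ L * |du (X.w i) x| + C * X.lam i ^ b * |pt (X.ψ P i) (x, t)| := by
  obtain ⟨C0, hC0⟩ := P.dbd
  have h1 : X.H 10 fun i z => C0 • ((du (X.q i) z.1, X.Θ i) : Q3 × ℝ) :=
    T.const_smul (T.prod (X.H2_q.du.lift.mono X.hlam (by norm_num))
      (T.const _ fun i _ _ => (abs_of_pos (X.Θ_pos i)).le)) C0
  filter_upwards [h1.ev X.hlam hb] with C hC i x hx t
  have h2 := hC0 _ (q_mem hx) (X.Θ i * x.1) t (du (X.q i) x, X.Θ i)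
  have h3 := hC i (x, t) ⟨hx, trivial⟩
  rw [norm_smul] at h3
  have h4 : C0 * ‖((du (X.q i) x, X.Θ i) : Q3 × ℝ)‖ ≤ C * X.lam i ^ b :=
    (mul_le_mul_of_nonneg_right (le_abs_self C0) (norm_nonneg _)).trans h3
  have h5 := h2.trans (mul_le_mul_of_nonneg_right h4 (abs_nonneg _))
  have h6 := P.bd _ (P.hK (q_mem hx)) (X.Θ i * x.1) t
  rw [pu, pt, fderiv_ψ P hx, fderiv_ψ P hx]
  simp only [Prod.mk_zero_zero, map_zero, mul_zero, add_zero, mul_one]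
  refine (abs_add_le _ _).trans ?_
  rw [add_comm, abs_mul, abs_mul, abs_mul, mul_left_comm]
  exact add_le_add (mul_le_mul_of_nonneg_right h6 (abs_nonneg _))
    (mul_le_mul_of_nonneg_left h5 (abs_nonneg _))

end Core
end Vale.Agent.P205
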