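import Vale.Agent.P205.Defs

/-! P205: linear algebra in four-space and local surface geometry. -/

open scoped ContDiff InnerProductSpace Topology
open Set Filter Real

noncomputable section
namespace Vale.Agent.P205

section Lin
variable {a b c ξ η : R4}

theorem geoL_inner (a b : R4) : ⟪a, b⟫_ℝ = a 0 * b 0 + a 1 * b 1 + a 2 * b 2 + a 3 * b 3 := by
  simp only [PiLp.inner_apply, Fin.sum_univ_four, RCLike.inner_apply, conj_trivial]
  ring

theorem geoL_cross (a b c : R4) : ⟪cross3 a b c, cross3 a b c⟫_ℝ = gram3 a b c := by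
  simp only [gram3, geoL_inner, cross3]
  simp
  ring

theorem geoL_basis (p q r s : ℝ) (a b : R4) :
    gram2 (p • a + q • b) (r • a + s • b) = (p * s - q * r) ^ 2 * gram2 a b := by
  simp only [gram2, inner_add_left, inner_add_right, real_inner_smul_left, real_inner_smul_right,
    real_inner_comm a b]
  ring

theorem geoL_add1 (a a' b c : R4) : cross3 (a + a') b c = cross3 a b c + cross3 a' b c := by
  ext i
  fin_cases i <;> simp [cross3] <;> ring

theorem geoL_add2 (a b b' c : R4) : cross3 a (b + b') c = cross3 a b c + cross3 a b' c := by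
  ext i
  fin_cases i <;> simp [cross3] <;> ring

theorem geoL_add3 (a b c c' : R4) : cross3 a b (c + c') = cross3 a b c + cross3 a b c' := by
  ext i
  fin_cases i <;> simp [cross3] <;> ring

theorem geoL_smul1 (t : ℝ) (a b c : R4) : cross3 (t • a) b c = t • cross3 a b c := by
  ext i
  fin_cases i <;> simp [cross3] <;> ring

theorem geoL_smul2 (t : ℝ) (a b c : R4) : cross3 a (t • b) c = t • cross3 a b c := by
  ext i
  fin_cases i <;> simp [cross3] <;> ring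

theorem geoL_smul3 (t : ℝ) (a b c : R4) : cross3 a b (t • c) = t • cross3 a b c := by
  ext i
  fin_cases i <;> simp [cross3] <;> ring

theorem gram2_nonneg (a b : R4) : 0 ≤ gram2 a b := by
  have := real_inner_mul_inner_self_le a b
  rw [gram2]
  nlinarith

theorem gram3_nonneg (a b c : R4) : 0 ≤ gram3 a b c := by
  rw [← geoL_cross]
  exact real_inner_self_nonneg

theorem gram2_pos_iff : 0 < gram2 a b ↔ ∀ x y : ℝ, x • a + y • b = 0 → x = 0 ∧ y = 0 := by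
  constructor
  · intro h x y hxy
    have h1 := congrArg (fun v => ⟪v, a⟫_ℝ) hxy
    have h2 := congrArg (fun v => ⟪v, b⟫_ℝ) hxy
    simp only [inner_add_left, real_inner_smul_left, inner_zero_left, real_inner_comm a b] at h1 h2
    have h3 : x * gram2 a b = 0 := by
      rw [gram2]
      linear_combination ⟪b, b⟫_ℝ * h1 - ⟪a, b⟫_ℝ * h2
    have h4 : y * gram2 a b = 0 := by
      rw [gram2]
      linear_combination ⟪a, a⟫_ℝ * h2 - ⟪a, b⟫_ℝ * h1
    exact ⟨(mul_eq_zero.1 h3).resolve_right h.ne', (mul_eq_zero.1 h4).resolve_right h.ne'⟩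
  · intro h
    refine (gram2_nonneg a b).lt_of_ne fun h0 => ?_
    have h1 : ⟪b, b⟫_ℝ • a + (-⟪a, b⟫_ℝ) • b = 0 := by
      rw [← inner_self_eq_zero (𝕜 := ℝ)]
      simp only [inner_add_left, inner_add_right, real_inner_smul_left, real_inner_smul_right,
        real_inner_comm a b]
      rw [gram2] at h0
      linear_combination (-⟪b, b⟫_ℝ) * h0
    have h2 : b = 0 := inner_self_eq_zero.1 (h _ _ h1).1
    exact one_ne_zero (h 0 1 (by simp [h2])).2

theorem gram3_swap12 (a b c : R4) : gram3 a b c = gram3 b a c := by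
  simp only [gram3, real_inner_comm a b]
  ring

theorem gram3_swap23 (a b c : R4) : gram3 a b c = gram3 a c b := by
  simp only [gram3, real_inner_comm b c]
  ring

theorem gram3_le (a b c : R4) : gram3 a b c ≤ gram2 a b * ‖c‖ ^ 2 := by
  have h := real_inner_self_nonneg (x := ⟪b, c⟫_ℝ • a - ⟪a, c⟫_ℝ • b)
  simp only [inner_sub_left, inner_sub_right, real_inner_smul_left, real_inner_smul_right,
    real_inner_comm a b] at h
  rw [gram3, gram2, ← real_inner_self_eq_norm_sq]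
  linarith

theorem gram2_le (a b : R4) : gram2 a b ≤ ‖a‖ ^ 2 * ‖b‖ ^ 2 := by
  rw [gram2, real_inner_self_eq_norm_sq, real_inner_self_eq_norm_sq]
  linarith [sq_nonneg ⟪a, b⟫_ℝ]

theorem inner_perp_left (h : gram2 a b ≠ 0) (ξ : R4) : ⟪perp a b ξ, a⟫_ℝ = 0 := by
  simp only [perp, inner_sub_left, real_inner_smul_left, real_inner_comm a b]
  field_simp
  simp only [gram2]
  ring

theorem inner_perp_right (h : gram2 a b ≠ 0) (ξ : R4) : ⟪perp a b ξ, b⟫_ℝ = 0 := by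
  simp only [perp, inner_sub_left, real_inner_smul_left]
  field_simp
  simp only [gram2]
  ring

theorem perp_add (a b ξ η : R4) : perp a b (ξ + η) = perp a b ξ + perp a b η := by
  simp only [perp, inner_add_left]
  match_scalars <;> ring

theorem perp_smul (a b ξ : R4) (s : ℝ) : perp a b (s • ξ) = s • perp a b ξ := by
  simp only [perp, real_inner_smul_left]
  match_scalars <;> ring

theorem perp_left (h : gram2 a b ≠ 0) : perp a b a = 0 := by
  have h1 : (⟪b, b⟫_ℝ * ⟪a, a⟫_ℝ - ⟪a, b⟫_ℝ * ⟪a, b⟫_ℝ) / gram2 a b = 1 := by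
    rw [div_eq_one_iff_eq h, gram2]
    ring
  rw [perp, h1, mul_comm, sub_self, zero_div, one_smul, zero_smul, sub_self, sub_zero]

theorem perp_right (h : gram2 a b ≠ 0) : perp a b b = 0 := by
  have h1 : (⟪a, a⟫_ℝ * ⟪b, b⟫_ℝ - ⟪a, b⟫_ℝ * ⟪a, b⟫_ℝ) / gram2 a b = 1 := by
    rw [div_eq_one_iff_eq h, gram2]
    ring
  rw [perp, real_inner_comm a b, h1, mul_comm, sub_self, zero_div, one_smul, zero_smul, sub_zero,
    sub_self]

theorem perp_of_orth (ha : ⟪ξ, a⟫_ℝ = 0) (hb : ⟪ξ, b⟫_ℝ = 0) : perp a b ξ = ξ := by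
  simp [perp, ha, hb]

theorem perp_eq_zero_iff (h : gram2 a b ≠ 0) : perp a b ξ = 0 ↔ ∃ x y : ℝ, ξ = x • a + y • b := by
  constructor
  · intro h0
    rw [perp, sub_sub, sub_eq_zero] at h0
    exact ⟨_, _, h0⟩
  · rintro ⟨x, y, rfl⟩
    rw [perp_add, perp_smul, perp_smul, perp_left h, perp_right h, smul_zero, smul_zero, add_zero]

theorem inner_perp_perp (h : gram2 a b ≠ 0) (ξ η : R4) :
    ⟪perp a b ξ, perp a b η⟫_ℝ = ⟪perp a b ξ, η⟫_ℝ := by
  conv_lhs => rw [perp.eq_1 a b η]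
  rw [inner_sub_right, inner_sub_right, real_inner_smul_right, real_inner_smul_right,
    inner_perp_left h, inner_perp_right h, mul_zero, mul_zero, sub_zero, sub_zero]

theorem inner_perp_of_orth (ξ : R4) (ha : ⟪η, a⟫_ℝ = 0) (hb : ⟪η, b⟫_ℝ = 0) :
    ⟪perp a b ξ, η⟫_ℝ = ⟪ξ, η⟫_ℝ := by
  rw [real_inner_comm] at ha hb
  rw [perp, inner_sub_left, inner_sub_left, real_inner_smul_left, real_inner_smul_left, ha, hb,
    mul_zero, mul_zero, sub_zero, sub_zero]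

theorem inner_perp_eq (h : gram2 a b ≠ 0) (ξ η : R4) :
    ⟪perp a b ξ, perp a b η⟫_ℝ = ⟪ξ, η⟫_ℝ
      - tanp ⟪a, a⟫_ℝ ⟪a, b⟫_ℝ ⟪b, b⟫_ℝ ⟪ξ, a⟫_ℝ ⟪ξ, b⟫_ℝ ⟪η, a⟫_ℝ ⟪η, b⟫_ℝ := by
  rw [inner_perp_perp h, perp, inner_sub_left, inner_sub_left, real_inner_smul_left,
    real_inner_smul_left, tanp, gram2, real_inner_comm η a, real_inner_comm η b]
  ring

theorem norm_perp_le (h : gram2 a b ≠ 0) (ξ : R4) : ‖perp a b ξ‖ ≤ ‖ξ‖ := by
  have h1 := inner_perp_perp h ξ ξ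
  rw [real_inner_self_eq_norm_mul_norm] at h1
  have h2 := real_inner_le_norm (perp a b ξ) ξ
  rcases (norm_nonneg (perp a b ξ)).eq_or_lt with h0 | h0
  · rw [← h0]
    exact norm_nonneg _
  · exact le_of_mul_le_mul_left (h1.trans_le h2) h0

/-- `perp` only depends on the plane -/
theorem perp_basis {p q r s : ℝ} (h : gram2 a b ≠ 0) (hd : p * s - q * r ≠ 0) (ξ : R4) :
    perp (p • a + q • b) (r • a + s • b) ξ = perp a b ξ := by
  have h' : gram2 (p • a + q • b) (r • a + s • b) ≠ 0 := by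
    rw [geoL_basis]
    exact mul_ne_zero (pow_ne_zero 2 hd) h
  have h1 : ∀ x y : ℝ, perp (p • a + q • b) (r • a + s • b) (x • a + y • b) = 0 := fun x y => by
    refine (perp_eq_zero_iff h').2 ⟨(x * s - y * r) / (p * s - q * r),
      (y * p - x * q) / (p * s - q * r), ?_⟩
    have e1 : x = (x * s - y * r) / (p * s - q * r) * p + (y * p - x * q) / (p * s - q * r) * r := by
      rw [div_mul_eq_mul_div, div_mul_eq_mul_div, ← add_div, eq_div_iff hd]
      ring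
    have e2 : y = (x * s - y * r) / (p * s - q * r) * q + (y * p - x * q) / (p * s - q * r) * s := by
      rw [div_mul_eq_mul_div, div_mul_eq_mul_div, ← add_div, eq_div_iff hd]
      ring
    conv_lhs => rw [e1, e2]
    module
  obtain ⟨x, y, h2⟩ : ∃ x y : ℝ, ξ = perp a b ξ + (x • a + y • b) :=
    ⟨_, _, by rw [perp, sub_sub, sub_add_cancel]⟩
  conv_lhs => rw [h2]
  rw [perp_add, h1, add_zero]
  refine perp_of_orth ?_ ?_ <;>
    rw [inner_add_right, real_inner_smul_right, real_inner_smul_right, inner_perp_left h,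
      inner_perp_right h, mul_zero, mul_zero, add_zero]

theorem gram2_basis (p q r s : ℝ) (a b : R4) :
    gram2 (p • a + q • b) (r • a + s • b) = (p * s - q * r) ^ 2 * gram2 a b := by
  exact geoL_basis p q r s a b

theorem gram3_eq (h : gram2 a b ≠ 0) (c : R4) : gram3 a b c = gram2 a b * ‖perp a b c‖ ^ 2 := by
  rw [← real_inner_self_eq_norm_sq, inner_perp_eq h, tanp, gram3, real_inner_comm a c,
    real_inner_comm b c]
  rw [gram2] at h ⊢
  field_simp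
  ring

theorem inner_cross3_1 (a b c : R4) : ⟪cross3 a b c, a⟫_ℝ = 0 := by
  simp only [geoL_inner, cross3]
  simp
  ring

theorem inner_cross3_2 (a b c : R4) : ⟪cross3 a b c, b⟫_ℝ = 0 := by
  simp only [geoL_inner, cross3]
  simp
  ring

theorem inner_cross3_3 (a b c : R4) : ⟪cross3 a b c, c⟫_ℝ = 0 := by
  simp only [geoL_inner, cross3]
  simp
  ring

theorem norm_cross3_sq (a b c : R4) : ‖cross3 a b c‖ ^ 2 = gram3 a b c := by
  rw [← real_inner_self_eq_norm_sq, geoL_cross]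

/-- `cross3` is the diagonal of a continuous trilinear map -/
theorem exists_cross3_clm : ∃ B : R4 →L[ℝ] R4 →L[ℝ] R4 →L[ℝ] R4,
    ∀ a b c, B a b c = cross3 a b c := by
  let B₂ : R4 → R4 →L[ℝ] R4 →L[ℝ] R4 := fun a => LinearMap.toContinuousLinearMap
    { toFun := fun b => LinearMap.toContinuousLinearMap
        { toFun := cross3 a b
          map_add' := geoL_add3 a b
          map_smul' := fun t c => geoL_smul3 t a b c }
      map_add' := fun b b' => ContinuousLinearMap.ext fun c => geoL_add2 a b b' c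
      map_smul' := fun t b => ContinuousLinearMap.ext fun c => geoL_smul2 t a b c }
  have hB : ∀ a b c, B₂ a b c = cross3 a b c := fun _ _ _ => rfl
  refine ⟨LinearMap.toContinuousLinearMap
    { toFun := B₂
      map_add' := fun a a' => ContinuousLinearMap.ext fun b => ContinuousLinearMap.ext fun c => ?_
      map_smul' := fun t a => ContinuousLinearMap.ext fun b => ContinuousLinearMap.ext fun c =>
        ?_ }, hB⟩
  · rw [_root_.add_apply, _root_.add_apply, hB, hB, hB, geoL_add1]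
  · rw [_root_.smul_apply, _root_.smul_apply, hB, hB, geoL_smul1,
      RingHom.id_apply]

theorem contDiff_cross3 : ContDiff ℝ ∞ (fun z : R4 × R4 × R4 => cross3 z.1 z.2.1 z.2.2) := by
  obtain ⟨B, hB⟩ := exists_cross3_clm
  simp only [← hB]
  exact ((B.contDiff.comp contDiff_fst).clm_apply contDiff_snd.fst).clm_apply contDiff_snd.snd

theorem contDiff_gram2 : ContDiff ℝ ∞ (fun z : R4 × R4 => gram2 z.1 z.2) := by
  exact ((contDiff_fst.inner ℝ contDiff_fst).mul (contDiff_snd.inner ℝ contDiff_snd)).sub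
    ((contDiff_fst.inner ℝ contDiff_snd).pow 2)

theorem contDiff_gram3 : ContDiff ℝ ∞ (fun z : R4 × R4 × R4 => gram3 z.1 z.2.1 z.2.2) := by
  have h1 : ContDiff ℝ ∞ fun z : R4 × R4 × R4 => z.1 := contDiff_fst
  have h2 : ContDiff ℝ ∞ fun z : R4 × R4 × R4 => z.2.1 := contDiff_snd.fst
  have h3 : ContDiff ℝ ∞ fun z : R4 × R4 × R4 => z.2.2 := contDiff_snd.snd
  exact ((((((h1.inner ℝ h1).mul (h2.inner ℝ h2)).mul (h3.inner ℝ h3)).add
    (((contDiff_const.mul (h1.inner ℝ h2)).mul (h2.inner ℝ h3)).mul (h1.inner ℝ h3))).sub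
    ((h1.inner ℝ h1).mul ((h2.inner ℝ h3).pow 2))).sub
    ((h2.inner ℝ h2).mul ((h1.inner ℝ h3).pow 2))).sub
    ((h3.inner ℝ h3).mul ((h1.inner ℝ h2).pow 2))

theorem contDiffAt_perp (h : gram2 a b ≠ 0) (ξ : R4) :
    ContDiffAt ℝ ∞ (fun z : R4 × R4 × R4 => perp z.1 z.2.1 z.2.2) (a, b, ξ) := by
  have h1 : ContDiff ℝ ∞ fun z : R4 × R4 × R4 => z.1 := contDiff_fst
  have h2 : ContDiff ℝ ∞ fun z : R4 × R4 × R4 => z.2.1 := contDiff_snd.fst
  have h3 : ContDiff ℝ ∞ fun z : R4 × R4 × R4 => z.2.2 := contDiff_snd.snd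
  have hg : ContDiffAt ℝ ∞ (fun z : R4 × R4 × R4 => gram2 z.1 z.2.1) (a, b, ξ) :=
    (contDiff_gram2.comp (h1.prodMk h2)).contDiffAt
  exact (h3.contDiffAt.sub (((((h2.inner ℝ h2).mul (h3.inner ℝ h1)).sub
    ((h1.inner ℝ h2).mul (h3.inner ℝ h2))).contDiffAt.div hg h).smul h1.contDiffAt)).sub
    (((((h1.inner ℝ h1).mul (h3.inner ℝ h2)).sub
    ((h1.inner ℝ h2).mul (h3.inner ℝ h1))).contDiffAt.div hg h).smul h2.contDiffAt)

/-- the quadratic identity behind all curve invariants -/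
theorem quad_identity (a b c : R4) (p q : ℝ) :
    ⟪a, p ^ 2 • a + (2 * p * q) • b + q ^ 2 • c⟫_ℝ * ‖a‖ ^ 2
      = ⟪a, p • a + q • b⟫_ℝ ^ 2
        + q ^ 2 * (‖a‖ ^ 2 * ‖b‖ ^ 2 - ⟪a, b⟫_ℝ ^ 2 + (⟪a, c⟫_ℝ - ‖b‖ ^ 2) * ‖a‖ ^ 2) := by
  simp only [inner_add_right, real_inner_smul_right, real_inner_self_eq_norm_sq]
  ring
end Lin

section Surf
variable {F : Type} [NormedAddCommGroup F] [NormedSpace ℝ F]

theorem surf_split (X : P2) : X = X.1 • ((1, 0) : P2) + X.2 • ((0, 1) : P2) := by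
  ext <;> simp

theorem fderiv_eq_du_dv (f : P2 → F) (x X : P2) :
    fderiv ℝ f x X = X.1 • du f x + X.2 • dv f x := by
  conv_lhs => rw [surf_split X]
  rw [map_add, map_smul, map_smul]
  rfl

theorem surf_two {f : P2 → F} {x : P2} (h : ContDiffAt ℝ ∞ f x) : ContDiffAt ℝ 2 f x :=
  h.of_le (WithTop.coe_le_coe.2 (le_top : ((2 : ℕ) : ℕ∞) ≤ ⊤))

theorem surf_ev {f : P2 → F} {x : P2} (h : ContDiffAt ℝ ∞ f x) :
    ∀ᶠ y in 𝓝 x, ContDiffAt ℝ 2 f y := (surf_two h).eventually (by simp)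

theorem surf_dfd {f : P2 → F} {x : P2} (h : ContDiffAt ℝ 2 f x) :
    DifferentiableAt ℝ (fderiv ℝ f) x :=
  (h.fderiv_right (m := 1) (by norm_num)).differentiableAt (by norm_num)

theorem surf_dd {f : P2 → F} {x : P2} (h : ContDiffAt ℝ 2 f x) (X Y : P2) :
    dd f x X Y = fderiv ℝ (fderiv ℝ f) x X Y := by
  unfold dd
  rw [fderiv_clm_apply (surf_dfd h) (differentiableAt_const _)]
  simp

theorem surf_dapp {f : P2 → F} {x : P2} (h : ContDiffAt ℝ 2 f x) (Y : P2) :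
    DifferentiableAt ℝ (fun y => fderiv ℝ f y Y) x :=
  (surf_dfd h).clm_apply (differentiableAt_const _)

theorem surf_symm {f : P2 → F} {x : P2} (h : ContDiffAt ℝ 2 f x) :
    dv (du f) x = du (dv f) x := by
  have h1 := h.isSymmSndFDerivAt (by simp) ((0, 1) : P2) (1, 0)
  rw [← surf_dd h, ← surf_dd h] at h1
  exact h1

theorem dd_eq {f : P2 → F} {x : P2} (h : ContDiffAt ℝ ∞ f x) (X Y : P2) :
    dd f x X Y = (X.1 * Y.1) • du (du f) x + (X.1 * Y.2 + X.2 * Y.1) • du (dv f) x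
      + (X.2 * Y.2) • dv (dv f) x := by
  have h2 := surf_two h
  have e1 : du (du f) x = fderiv ℝ (fderiv ℝ f) x (1, 0) (1, 0) := surf_dd h2 _ _
  have e2 : du (dv f) x = fderiv ℝ (fderiv ℝ f) x (1, 0) (0, 1) := surf_dd h2 _ _
  have e3 : dv (dv f) x = fderiv ℝ (fderiv ℝ f) x (0, 1) (0, 1) := surf_dd h2 _ _
  have e4 : du (dv f) x = fderiv ℝ (fderiv ℝ f) x (0, 1) (1, 0) :=
    (surf_symm h2).symm.trans (surf_dd h2 _ _)
  rw [surf_dd h2]
  conv_lhs => rw [surf_split X, surf_split Y]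
  simp only [map_add, map_smul, add_apply, smul_apply]
  rw [← e1, ← e2, ← e3, ← e4]
  module

theorem dd_eq_iterated {f : P2 → F} {x : P2} (h : ContDiffAt ℝ ∞ f x) (X Y : P2) :
    dd f x X Y = iteratedFDeriv ℝ 2 f x ![X, Y] := by
  rw [iteratedFDeriv_two_apply, surf_dd (surf_two h)]
  rfl

theorem surf_norm_le (f : P2 → F) (x X : P2) (hX : ‖X‖ = 1) :
    ‖fderiv ℝ f x X‖ ≤ ‖iteratedFDeriv ℝ 1 f x‖ := by
  rw [← norm_iteratedFDeriv_fderiv, norm_iteratedFDeriv_zero]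
  exact ((fderiv ℝ f x).le_opNorm X).trans (by rw [hX, mul_one])

theorem norm_du_le (f : P2 → F) (x : P2) : ‖du f x‖ ≤ ‖iteratedFDeriv ℝ 1 f x‖ :=
  surf_norm_le f x _ (by simp)

theorem norm_dv_le (f : P2 → F) (x : P2) : ‖dv f x‖ ≤ ‖iteratedFDeriv ℝ 1 f x‖ :=
  surf_norm_le f x _ (by simp)

theorem surf_iter_le {f : P2 → F} {x : P2} (h : ContDiffAt ℝ ∞ f x) (m : ℕ) (X : P2)
    (hX : ‖X‖ = 1) :
    ‖iteratedFDeriv ℝ m (fun y => fderiv ℝ f y X) x‖ ≤ ‖iteratedFDeriv ℝ (m + 1) f x‖ := by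
  have h1 : ContDiffAt ℝ ∞ (fderiv ℝ f) x := h.fderiv_right (by simp)
  have h2 := norm_iteratedFDeriv_clm_apply_const (c := X) (n := m) h1 (by exact_mod_cast le_top)
  rwa [hX, one_mul, norm_iteratedFDeriv_fderiv] at h2

theorem norm_iter_du_le {f : P2 → F} {x : P2} (h : ContDiffAt ℝ ∞ f x) (m : ℕ) :
    ‖iteratedFDeriv ℝ m (du f) x‖ ≤ ‖iteratedFDeriv ℝ (m + 1) f x‖ :=
  surf_iter_le h m _ (by simp)

theorem norm_iter_dv_le {f : P2 → F} {x : P2} (h : ContDiffAt ℝ ∞ f x) (m : ℕ) :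
    ‖iteratedFDeriv ℝ m (dv f) x‖ ≤ ‖iteratedFDeriv ℝ (m + 1) f x‖ :=
  surf_iter_le h m _ (by simp)

theorem contDiffAt_du {f : P2 → F} {x : P2} (h : ContDiffAt ℝ ∞ f x) :
    ContDiffAt ℝ ∞ (du f) x :=
  (h.fderiv_right (m := ∞) (by simp)).clm_apply contDiffAt_const

theorem contDiffAt_dv {f : P2 → F} {x : P2} (h : ContDiffAt ℝ ∞ f x) :
    ContDiffAt ℝ ∞ (dv f) x :=
  (h.fderiv_right (m := ∞) (by simp)).clm_apply contDiffAt_const

theorem surf_du_ev {f g : P2 → F} {x : P2} (h : g =ᶠ[𝓝 x] f) : du g =ᶠ[𝓝 x] du f :=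
  (h.fderiv (𝕜 := ℝ)).mono fun _ hy => congrArg (fun L : P2 →L[ℝ] F => L (1, 0)) hy

theorem surf_dv_ev {f g : P2 → F} {x : P2} (h : g =ᶠ[𝓝 x] f) : dv g =ᶠ[𝓝 x] dv f :=
  (h.fderiv (𝕜 := ℝ)).mono fun _ hy => congrArg (fun L : P2 →L[ℝ] F => L (0, 1)) hy

variable {f : P2 → R4} {x : P2}

theorem II_uu (h : ContDiffAt ℝ ∞ f x) : II f x (1, 0) (1, 0) = nrm f x (du (du f) x) :=
  (fun _ => rfl) h

theorem II_uv (h : ContDiffAt ℝ ∞ f x) : II f x (1, 0) (0, 1) = nrm f x (du (dv f) x) :=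
  (fun _ => rfl) h

theorem II_vv (h : ContDiffAt ℝ ∞ f x) : II f x (0, 1) (0, 1) = nrm f x (dv (dv f) x) :=
  (fun _ => rfl) h

theorem II_eq (h : ContDiffAt ℝ ∞ f x) (X Y : P2) :
    II f x X Y = (X.1 * Y.1) • II f x (1, 0) (1, 0) + (X.1 * Y.2 + X.2 * Y.1) • II f x (1, 0) (0, 1)
      + (X.2 * Y.2) • II f x (0, 1) (0, 1) := by
  rw [II_uu h, II_uv h, II_vv h, II, dd_eq h]
  simp only [nrm, perp_add, perp_smul]

theorem Gram_eq (h : ContDiffAt ℝ ∞ f x) (hd : det2 f x ≠ 0) :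
    Gram f x = det2 f x * ‖II f x (1, 0) (1, 0)‖ ^ 2 := by
  rw [II_uu h]
  exact gram3_eq hd _

theorem det2_eq (f : P2 → R4) (x : P2) : det2 f x = fE f x * fG f x - fF f x ^ 2 := rfl

theorem det2_pos_iff : 0 < det2 f x ↔ Function.Injective (fderiv ℝ f x) := by
  rw [det2, gram2_pos_iff, injective_iff_map_eq_zero]
  constructor
  · intro h X hX
    rw [fderiv_eq_du_dv] at hX
    exact Prod.ext (h _ _ hX).1 (h _ _ hX).2
  · intro h a b hab
    have h1 := h (a, b) (by rw [fderiv_eq_du_dv]; exact hab)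
    exact ⟨congrArg Prod.fst h1, congrArg Prod.snd h1⟩

theorem nrm_eq_zero_iff (hd : det2 f x ≠ 0) (ξ : R4) :
    nrm f x ξ = 0 ↔ ∃ X : P2, ξ = fderiv ℝ f x X := by
  rw [nrm, perp_eq_zero_iff hd]
  constructor
  · rintro ⟨a, b, h⟩
    exact ⟨(a, b), by rw [fderiv_eq_du_dv]; exact h⟩
  · rintro ⟨X, h⟩
    exact ⟨X.1, X.2, by rw [h, fderiv_eq_du_dv]⟩

theorem surf_comp {ψ : P2 → P2} {y : P2} (hψ : DifferentiableAt ℝ ψ y)
    (hf : DifferentiableAt ℝ f (ψ y)) :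
    du (f ∘ ψ) y = (du ψ y).1 • du f (ψ y) + (du ψ y).2 • dv f (ψ y) ∧
      dv (f ∘ ψ) y = (dv ψ y).1 • du f (ψ y) + (dv ψ y).2 • dv f (ψ y) := by
  rw [← fderiv_eq_du_dv, ← fderiv_eq_du_dv, du, dv, fderiv_comp y hf hψ]
  exact ⟨rfl, rfl⟩

/-- change of coordinates -/
theorem det2_comp {ψ : P2 → P2} {y : P2} (hψ : DifferentiableAt ℝ ψ y)
    (hf : DifferentiableAt ℝ f (ψ y)) :
    det2 (f ∘ ψ) y = ((du ψ y).1 * (dv ψ y).2 - (du ψ y).2 * (dv ψ y).1) ^ 2 * det2 f (ψ y) := by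
  rw [det2, (surf_comp hψ hf).1, (surf_comp hψ hf).2, gram2_basis, det2]

theorem nrm_comp {ψ : P2 → P2} {y : P2} (hψ : DifferentiableAt ℝ ψ y)
    (hf : DifferentiableAt ℝ f (ψ y)) (hd : det2 (f ∘ ψ) y ≠ 0) (ξ : R4) :
    nrm (f ∘ ψ) y ξ = nrm f (ψ y) ξ := by
  rw [det2_comp hψ hf] at hd
  rw [nrm, (surf_comp hψ hf).1, (surf_comp hψ hf).2]
  exact perp_basis (right_ne_zero_of_mul hd)
    (fun h => left_ne_zero_of_mul hd (by rw [h]; norm_num)) ξ

theorem II_comp {ψ : P2 → P2} {y : P2} (hψ : ContDiffAt ℝ ∞ ψ y)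
    (hf : ContDiffAt ℝ ∞ f (ψ y)) (hd : det2 (f ∘ ψ) y ≠ 0) (X Y : P2) :
    II (f ∘ ψ) y X Y = II f (ψ y) (fderiv ℝ ψ y X) (fderiv ℝ ψ y Y) := by
  have h1 := hψ.differentiableAt (by simp)
  have h2 := hf.differentiableAt (by simp)
  have e1 : (fun z => fderiv ℝ (f ∘ ψ) z Y) =ᶠ[𝓝 y]
      fun z => fderiv ℝ f (ψ z) (fderiv ℝ ψ z Y) := by
    filter_upwards [surf_ev hψ, hψ.continuousAt.eventually (surf_ev hf)] with z hz hz'
    rw [fderiv_comp z (hz'.differentiableAt (by norm_num)) (hz.differentiableAt (by norm_num))]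
    rfl
  have e2 : dd (f ∘ ψ) y X Y = dd f (ψ y) (fderiv ℝ ψ y X) (fderiv ℝ ψ y Y) +
      fderiv ℝ f (ψ y) (dd ψ y X Y) := by
    have h3 := (((surf_dfd (surf_two hf)).hasFDerivAt.comp y h1.hasFDerivAt).clm_apply
      (surf_dapp (surf_two hψ) Y).hasFDerivAt).fderiv
    rw [surf_dd (surf_two hf), dd, e1.fderiv_eq]
    exact (congrArg (fun L : P2 →L[ℝ] R4 => L X) h3).trans (add_comm _ _)
  have hd' : det2 f (ψ y) ≠ 0 := by
    rw [det2_comp h1 h2] at hd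
    exact right_ne_zero_of_mul hd
  have e3 : perp (du f (ψ y)) (dv f (ψ y)) (fderiv ℝ f (ψ y) (dd ψ y X Y)) = 0 :=
    (nrm_eq_zero_iff hd' _).2 ⟨_, rfl⟩
  rw [II, nrm_comp h1 h2 hd, e2, nrm, perp_add, e3, add_zero]
  rfl

theorem jets_congr {g : P2 → R4} (h : g =ᶠ[𝓝 x] f) :
    du g x = du f x ∧ dv g x = dv f x ∧ du (du g) x = du (du f) x ∧ du (dv g) x = du (dv f) x ∧
      dv (dv g) x = dv (dv f) x ∧ (∀ X Y, II g x X Y = II f x X Y) ∧ (∀ ξ, nrm g x ξ = nrm f x ξ) ∧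
      det2 g x = det2 f x ∧ Gram g x = Gram f x ∧ Gs g x = Gs f x ∧ kt g x = kt f x := by
  have h1 := (surf_du_ev h).eq_of_nhds
  have h2 := (surf_dv_ev h).eq_of_nhds
  have h3 := (surf_du_ev (surf_du_ev h)).eq_of_nhds
  have h4 : ∀ ξ, nrm g x ξ = nrm f x ξ := fun ξ => by rw [nrm, h1, h2, nrm]
  have h5 : ∀ X Y, II g x X Y = II f x X Y := fun X Y => by
    have e : (fun y => fderiv ℝ g y Y) =ᶠ[𝓝 x] fun y => fderiv ℝ f y Y :=
      (h.fderiv (𝕜 := ℝ)).mono fun _ hy => congrArg (fun L : P2 →L[ℝ] R4 => L Y) hy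
    rw [II, h4, dd, e.fderiv_eq]
    rfl
  refine ⟨h1, h2, h3, (surf_du_ev (surf_dv_ev h)).eq_of_nhds,
    (surf_dv_ev (surf_dv_ev h)).eq_of_nhds, h5, h4, ?_, ?_, ?_, ?_⟩
  · rw [det2, h1, h2, det2]
  · rw [Gram, h1, h2, h3, Gram]
  · rw [Gs, h5, h5, h5, Gs]
  · simp only [kt, fE, fF, h1, h2, h3]

theorem surf_du_inner {g k : P2 → R4} (hg : DifferentiableAt ℝ g x)
    (hk : DifferentiableAt ℝ k x) :
    du (fun y => ⟪g y, k y⟫_ℝ) x = ⟪g x, du k x⟫_ℝ + ⟪du g x, k x⟫_ℝ :=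
  fderiv_inner_apply ℝ hg hk _

theorem surf_dv_inner {g k : P2 → R4} (hg : DifferentiableAt ℝ g x)
    (hk : DifferentiableAt ℝ k x) :
    dv (fun y => ⟪g y, k y⟫_ℝ) x = ⟪g x, dv k x⟫_ℝ + ⟪dv g x, k x⟫_ℝ :=
  fderiv_inner_apply ℝ hg hk _

theorem surf_first (h : ContDiffAt ℝ 2 f x) :
    du (fE f) x = 2 * ⟪du (du f) x, du f x⟫_ℝ ∧ dv (fE f) x = 2 * ⟪du (dv f) x, du f x⟫_ℝ ∧
      du (fF f) x = ⟪du (dv f) x, du f x⟫_ℝ + ⟪du (du f) x, dv f x⟫_ℝ ∧
      dv (fF f) x = ⟪dv (dv f) x, du f x⟫_ℝ + ⟪du (dv f) x, dv f x⟫_ℝ ∧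
      du (fG f) x = 2 * ⟪du (dv f) x, dv f x⟫_ℝ ∧ dv (fG f) x = 2 * ⟪dv (dv f) x, dv f x⟫_ℝ := by
  have h1 : DifferentiableAt ℝ (du f) x := surf_dapp h _
  have h2 : DifferentiableAt ℝ (dv f) x := surf_dapp h _
  refine ⟨(surf_du_inner h1 h1).trans ?_, (surf_dv_inner h1 h1).trans ?_,
    (surf_du_inner h1 h2).trans ?_, (surf_dv_inner h1 h2).trans ?_,
    (surf_du_inner h2 h2).trans ?_, (surf_dv_inner h2 h2).trans ?_⟩
  · rw [real_inner_comm, two_mul]
  · rw [surf_symm h, real_inner_comm, two_mul]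
  · rw [real_inner_comm]
  · rw [surf_symm h, real_inner_comm]
  · rw [real_inner_comm, two_mul]
  · rw [real_inner_comm, two_mul]

theorem kt_eq (h : ContDiffAt ℝ ∞ f x) : kt f x = ktil (fE f) (fF f) x := by
  obtain ⟨h1, h2, h3, -⟩ := surf_first (surf_two h)
  rw [kt, ktil, h1, h2, h3]
  ring

theorem G2_pos_of_kt (h : kt f x ≠ 0) : 0 < G2 f x := by
  rw [G2, gram2_pos_iff]
  intro a b hab
  have h1 := congrArg (fun z => ⟪z, du f x⟫_ℝ) hab
  have h2 := congrArg (fun z => ⟪z, dv f x⟫_ℝ) hab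
  simp only [inner_add_left, real_inner_smul_left, inner_zero_left] at h1 h2
  have hb : b = 0 := by
    apply mul_left_cancel₀ h
    rw [kt, fE, fF]
    linear_combination ⟪du f x, du f x⟫_ℝ * h2 - ⟪du f x, dv f x⟫_ℝ * h1
  refine ⟨?_, hb⟩
  apply mul_left_cancel₀ h
  rw [hb] at h1 h2
  rw [kt, fE, fF]
  linear_combination ⟪du (du f) x, dv f x⟫_ℝ * h1 - ⟪du (du f) x, du f x⟫_ℝ * h2

theorem surf_du_two {g : P2 → ℝ} (hg : DifferentiableAt ℝ g x) :
    du (fun y => 2 * g y) x = 2 * du g x := by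
  rw [du, fderiv_const_mul hg]
  rfl

theorem surf_dv_two {g : P2 → ℝ} (hg : DifferentiableAt ℝ g x) :
    dv (fun y => 2 * g y) x = 2 * dv g x := by
  rw [dv, fderiv_const_mul hg]
  rfl

theorem surf_du_add {g k : P2 → ℝ} (hg : DifferentiableAt ℝ g x) (hk : DifferentiableAt ℝ k x) :
    du (fun y => g y + k y) x = du g x + du k x := by
  rw [du, fderiv_fun_add hg hk]
  rfl

theorem surf_second (h : ContDiffAt ℝ ∞ f x) :
    du (dv (fF f)) x - dv (dv (fE f)) x / 2 - du (du (fG f)) x / 2 =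
      ⟪du (du f) x, dv (dv f) x⟫_ℝ - ⟪du (dv f) x, du (dv f) x⟫_ℝ := by
  have hu := (contDiffAt_du h).differentiableAt (by simp)
  have hv := (contDiffAt_dv h).differentiableAt (by simp)
  have huv := (contDiffAt_du (contDiffAt_dv h)).differentiableAt (by simp)
  have hvv := (contDiffAt_dv (contDiffAt_dv h)).differentiableAt (by simp)
  have e1 : dv (fF f) =ᶠ[𝓝 x] fun y => ⟪dv (dv f) y, du f y⟫_ℝ + ⟪du (dv f) y, dv f y⟫_ℝ :=
    (surf_ev h).mono fun y hy => (surf_first hy).2.2.2.1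
  have e2 : dv (fE f) =ᶠ[𝓝 x] fun y => 2 * ⟪du (dv f) y, du f y⟫_ℝ :=
    (surf_ev h).mono fun y hy => (surf_first hy).2.1
  have e3 : du (fG f) =ᶠ[𝓝 x] fun y => 2 * ⟪du (dv f) y, dv f y⟫_ℝ :=
    (surf_ev h).mono fun y hy => (surf_first hy).2.2.2.2.1
  rw [(surf_du_ev e1).eq_of_nhds, (surf_dv_ev e2).eq_of_nhds, (surf_du_ev e3).eq_of_nhds,
    surf_du_add (hvv.inner ℝ hu) (huv.inner ℝ hv), surf_dv_two (huv.inner ℝ hu),
    surf_du_two (huv.inner ℝ hv), surf_du_inner hvv hu, surf_du_inner huv hv,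
    surf_dv_inner huv hu, surf_symm (surf_two h), surf_symm (surf_two (contDiffAt_dv h)),
    real_inner_comm (dv (dv f) x)]
  ring

/-- theorema egregium -/
theorem Gs_eq (h : ContDiffAt ℝ ∞ f x) (hd : det2 f x ≠ 0) :
    Gs f x = kap (fE f) (fF f) (fG f) x := by
  obtain ⟨h1, h2, h3, h4, h5, h6⟩ := surf_first (surf_two h)
  rw [Gs, kap, surf_second h, II_uu h, II_uv h, II_vv h, ← real_inner_self_eq_norm_sq, nrm, nrm,
    nrm, inner_perp_eq hd, inner_perp_eq hd, h1, h2, h3, h4, h5, h6]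
  simp only [tanp, fE, fF, fG]
  ring

theorem kap_congr {E F G E' F' G' : P2 → ℝ} (hE : E' =ᶠ[𝓝 x] E) (hF : F' =ᶠ[𝓝 x] F)
    (hG : G' =ᶠ[𝓝 x] G) : kap E' F' G' x = kap E F G x := by
  rw [kap, kap, (surf_du_ev (surf_dv_ev hF)).eq_of_nhds, (surf_dv_ev (surf_dv_ev hE)).eq_of_nhds,
    (surf_du_ev (surf_du_ev hG)).eq_of_nhds, hE.eq_of_nhds, hF.eq_of_nhds, hG.eq_of_nhds,
    (surf_du_ev hE).eq_of_nhds, (surf_dv_ev hE).eq_of_nhds, (surf_du_ev hF).eq_of_nhds,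
    (surf_dv_ev hF).eq_of_nhds, (surf_du_ev hG).eq_of_nhds, (surf_dv_ev hG).eq_of_nhds]

theorem ktil_congr {E F E' F' : P2 → ℝ} (hE : E' =ᶠ[𝓝 x] E) (hF : F' =ᶠ[𝓝 x] F) :
    ktil E' F' x = ktil E F x := by
  rw [ktil, ktil, hE.eq_of_nhds, hF.eq_of_nhds, (surf_du_ev hE).eq_of_nhds,
    (surf_dv_ev hE).eq_of_nhds, (surf_du_ev hF).eq_of_nhds]

theorem continuousAt_kap {E F G : P2 → ℝ} (hE : ContDiffAt ℝ ∞ E x) (hF : ContDiffAt ℝ ∞ F x)
    (hG : ContDiffAt ℝ ∞ G x) (hd : E x * G x - F x ^ 2 ≠ 0) : ContinuousAt (kap E F G) x := by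
  have h1 := hE.continuousAt
  have h2 := hF.continuousAt
  have h3 := hG.continuousAt
  have h4 := (contDiffAt_du hE).continuousAt
  have h5 := (contDiffAt_dv hE).continuousAt
  have h6 := (contDiffAt_du hF).continuousAt
  have h7 := (contDiffAt_dv hF).continuousAt
  have h8 := (contDiffAt_du hG).continuousAt
  have h9 := (contDiffAt_dv hG).continuousAt
  have h10 := (contDiffAt_du (contDiffAt_dv hF)).continuousAt
  have h11 := (contDiffAt_dv (contDiffAt_dv hE)).continuousAt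
  have h12 := (contDiffAt_du (contDiffAt_du hG)).continuousAt
  unfold kap tanp
  exact (((h10.sub (h11.div_const 2)).sub (h12.div_const 2)).sub
    (ContinuousAt.div (by fun_prop) (by fun_prop) hd)).add
      (ContinuousAt.div (by fun_prop) (by fun_prop) hd)

/-- adding the fourth power of a function that vanishes at `x` does not change the curvature -/
theorem kap_add_flat {E F G ρ : P2 → ℝ} (hG : ContDiffAt ℝ ∞ G x) (hρ : ContDiffAt ℝ ∞ ρ x)
    (h0 : ρ x = 0) : kap E F (fun y => G y + ρ y ^ 4) x = kap E F G x := by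
  have key : ∀ y X, ContDiffAt ℝ 2 G y → ContDiffAt ℝ 2 ρ y →
      fderiv ℝ (fun y => G y + ρ y ^ 4) y X = fderiv ℝ G y X + 4 * ρ y ^ 3 * fderiv ℝ ρ y X := by
    intro y X h1 h2
    have h3 := ((h1.differentiableAt (by norm_num)).hasFDerivAt.add
      ((h2.differentiableAt (by norm_num)).hasFDerivAt.pow 4)).fderiv
    refine (congrArg (fun L : P2 →L[ℝ] ℝ => L X) h3).trans ?_
    simp
  have e1 : du (fun y => G y + ρ y ^ 4) =ᶠ[𝓝 x] fun y => du G y + 4 * ρ y ^ 3 * du ρ y := by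
    filter_upwards [surf_ev hG, surf_ev hρ] with y h1 h2
    exact key y _ h1 h2
  have e2 : dv (fun y => G y + ρ y ^ 4) x = dv G x := by
    refine (key x _ (surf_two hG) (surf_two hρ)).trans ?_
    simp [h0, dv]
  have e3 : du (fun y => G y + ρ y ^ 4) x = du G x := by
    rw [e1.eq_of_nhds]
    simp [h0]
  have e4 : du (du fun y => G y + ρ y ^ 4) x = du (du G) x := by
    have h1 := (hρ.differentiableAt (by simp)).hasFDerivAt
    have h2 := ((contDiffAt_du hρ).differentiableAt (by simp)).hasFDerivAt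
    have h3 := ((contDiffAt_du hG).differentiableAt (by simp)).hasFDerivAt
    have h4 := (h3.add (((h1.pow 3).const_mul 4).mul h2)).fderiv
    rw [(surf_du_ev e1).eq_of_nhds]
    refine (congrArg (fun L : P2 →L[ℝ] ℝ => L (1, 0)) h4).trans ?_
    simp [h0, du]
  rw [kap, kap, e2, e3, e4]
  simp [h0]
end Surf

end Vale.Agent.P205
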