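import Vale.Agent.P205.PatA

/-! P205: positive densities with vanishing moments. -/

open scoped ContDiff Topology
open Set Filter Real

noncomputable section
namespace Vale.Agent.P205.Pt

/-- primitive of `F ∘ cos` -/
def P (F : ℝ → ℝ) (x : ℝ) : ℝ := ∫ y in (0 : ℝ)..x, F (cos y)

theorem P_comb {f f1 f2 f3 f4 : ℝ → ℝ} {a b c d x : ℝ}
    (h : ∀ s, f s = a * f1 s + b * f2 s + c * f3 s + d * f4 s)
    (h1 : Continuous f1) (h2 : Continuous f2)
    (h3 : Continuous f3) (h4 : Continuous f4) :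
    P f x = a * P f1 x + b * P f2 x + c * P f3 x + d * P f4 x := by
  simp (disch := (apply Continuous.intervalIntegrable; fun_prop)) only [P, h,
    intervalIntegral.integral_add, intervalIntegral.integral_const_mul]

theorem P_three {f f1 f2 f3 : ℝ → ℝ} {a b c x : ℝ} (h : ∀ s, f s = a * f1 s + b * f2 s + c * f3 s)
    (h1 : Continuous f1) (h2 : Continuous f2)
    (h3 : Continuous f3) : P f x = a * P f1 x + b * P f2 x + c * P f3 x := by
  simpa using P_comb (d := 0) (x := x) (by simpa using h) h1 h2 h3 h1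

theorem P_two {f f1 f2 : ℝ → ℝ} {a b x : ℝ} (h : ∀ s, f s = a * f1 s + b * f2 s)
    (h1 : Continuous f1) (h2 : Continuous f2) :
    P f x = a * P f1 x + b * P f2 x := by
  simpa using P_three (c := 0) (x := x) (by simpa using h) h1 h2 h1

theorem P_deriv {F : ℝ → ℝ} (h : Continuous F) (x : ℝ) : HasDerivAt (P F) (F (cos x)) x :=
  ((h.comp continuous_cos).integral_hasStrictDerivAt 0 x).hasDerivAt

theorem P_neg (F : ℝ → ℝ) (x : ℝ) : P F (-x) = -P F x := by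
  have := intervalIntegral.integral_comp_neg (a := 0) (b := x) fun y => F (cos y)
  simp only [cos_neg, neg_zero] at this
  rw [P, P, this, intervalIntegral.integral_symm]

theorem P_per {F : ℝ → ℝ} (h : Continuous F) (x : ℝ) : P F (x + 2 * π) = P F x + P F (2 * π) := by
  have := Function.Periodic.intervalIntegral_add_eq_add (f := fun y => F (cos y)) (T := 2 * π)
    (fun y => by simp) 0 x fun _ _ => (h.comp continuous_cos).intervalIntegrable _ _
  rwa [zero_add] at this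

theorem P_pos {F : ℝ → ℝ} (h : Continuous F) (h0 : ∀ s, 0 ≤ F s) {σ : ℝ} (hσ : σ ∈ Icc (-1 : ℝ) 1)
    (h1 : 0 < F σ) : 0 < P F (2 * π) :=
  intervalIntegral.integral_pos two_pi_pos (h.comp continuous_cos).continuousOn
    (fun _ _ => h0 _) ⟨arccos σ, ⟨arccos_nonneg _, by linarith [arccos_le_pi σ, pi_pos]⟩,
      by rwa [cos_arccos hσ.1 hσ.2]⟩

theorem P_smooth {E : Type} [NormedAddCommGroup E] [NormedSpace ℝ E] {F : E × ℝ → ℝ}
    (h : ContDiff ℝ ∞ F) : ContDiff ℝ ∞ fun z : E × ℝ => P (fun s => F (z.1, s)) z.2 :=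
  contDiff_prim (H := fun z => F (z.1, cos z.2)) (h.comp (by fun_prop))

theorem P_smooth' {F : Q3 × ℝ → ℝ} (h : ContDiff ℝ ∞ F) :
    ContDiff ℝ ∞ fun q => P (fun s => F (q, s)) (2 * π) :=
  (P_smooth h).comp (f := fun q => (q, 2 * π)) (by fun_prop)

def g1 (L : ℝ) (z : Q3 × ℝ) : ℝ := sn z.1.1 (L * z.2) - z.1.2.1
def g2 (L : ℝ) (z : Q3 × ℝ) : ℝ := cn z.1.1 (L * z.2) - z.1.2.2

variable {L : ℝ}

@[fun_prop] theorem g1_smooth : ContDiff ℝ ∞ (g1 L) :=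
  (contDiff_sn.comp (f := fun z : Q3 × ℝ => (z.1.1, L * z.2)) (by fun_prop)).sub (by fun_prop)

@[fun_prop] theorem g2_smooth : ContDiff ℝ ∞ (g2 L) :=
  (contDiff_cn.comp (f := fun z : Q3 × ℝ => (z.1.1, L * z.2)) (by fun_prop)).sub (by fun_prop)

@[fun_prop] theorem g1_cont : Continuous (g1 L) := g1_smooth.continuous

@[fun_prop] theorem g2_cont : Continuous (g2 L) := g2_smooth.continuous

/-- moments of positive densities -/
def Mom (L : ℝ) (q : Q3) : Set (ℝ × ℝ) :=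
  {v | ∃ ρ : ℝ → ℝ, ContDiff ℝ ∞ ρ ∧ (∀ s, 0 < ρ s) ∧
    v = (P (fun s => ρ s * g1 L (q, s)) (2 * π), P (fun s => ρ s * g2 L (q, s)) (2 * π))}

theorem convex_Mom (q : Q3) : Convex ℝ (Mom L q) := by
  rintro _ ⟨ρ, h1, h2, rfl⟩ _ ⟨ρ', k1, k2, rfl⟩ a b ha hb hab
  have := h1.continuous
  have := k1.continuous
  refine ⟨fun s => a * ρ s + b * ρ' s, by fun_prop,
    fun s => convex_Ioi (𝕜 := ℝ) (0 : ℝ) (h2 s) (k2 s) ha hb hab, ?_⟩
  simp only [Prod.smul_mk, Prod.mk_add_mk, smul_eq_mul, Prod.mk.injEq]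
  constructor <;> symm <;> exact P_two (fun s => by ring) (by fun_prop) (by fun_prop)

theorem dense_Mom {q : Q3} (hq : q ∈ Om L) : Dense (Mom L q) := by
  intro v
  by_contra hv
  obtain ⟨f, u, h1, h2⟩ := geometric_hahn_banach_closed_point (convex_Mom q).closure
    isClosed_closure hv
  have hf : ∀ a b, f (a, b) = f (1, 0) * a + f (0, 1) * b := fun a b => by
    rw [show (a, b) = a • ((1 : ℝ), (0 : ℝ)) + b • ((0 : ℝ), (1 : ℝ)) by simp, map_add, map_smul,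
      map_smul, smul_eq_mul, smul_eq_mul, mul_comm a, mul_comm b]
  obtain ⟨σ, hσ, h3⟩ := hq (f (1, 0), f (0, 1)) fun h => by
    have h4 := h1 _ (subset_closure ⟨fun _ => 1, contDiff_const, fun _ => one_pos, rfl⟩)
    simp only [Prod.mk_eq_zero] at h
    rw [hf, h.1, h.2] at h4 h2
    linarith
  obtain ⟨h, hh⟩ : ∃ h : ℝ → ℝ, h = fun s => f (1, 0) * g1 L (q, s) + f (0, 1) * g2 L (q, s) :=
    ⟨_, rfl⟩
  have h4 : ContDiff ℝ ∞ h := hh ▸ by fun_prop
  have h5 : ContDiff ℝ ∞ fun s => expNegInvGlue (h s) := expNegInvGlue.contDiff.comp h4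
  have c4 := h4.continuous
  have c5 := h5.continuous
  have h6 : 0 < h σ := hh ▸ h3
  have h7 : 0 < P (fun s => expNegInvGlue (h s) * h s) (2 * π) :=
    P_pos (by fun_prop) (fun s => by
      rcases le_total (h s) 0 with h | h
      · rw [expNegInvGlue.zero_of_nonpos h, zero_mul]
      · exact mul_nonneg (expNegInvGlue.nonneg _) h) hσ
      (mul_pos (expNegInvGlue.pos_of_pos h6) h6)
  obtain ⟨N, hN⟩ : ∃ N, N = |u - P h (2 * π)| / P (fun s => expNegInvGlue (h s) * h s) (2 * π) :=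
    ⟨_, rfl⟩
  have h8 := h1 _ (subset_closure ⟨fun s => 1 + N * expNegInvGlue (h s), by fun_prop,
    fun s => add_pos_of_pos_of_nonneg one_pos (mul_nonneg (hN ▸ by positivity)
      (expNegInvGlue.nonneg _)), rfl⟩)
  have h9 : P (fun s => 1 * h s + N * (expNegInvGlue (h s) * h s)) (2 * π) = _ :=
    P_two (a := f (1, 0)) (b := f (0, 1))
      (f1 := fun s => (1 + N * expNegInvGlue (h s)) * g1 L (q, s))
      (f2 := fun s => (1 + N * expNegInvGlue (h s)) * g2 L (q, s)) (fun s => by rw [hh]; ring)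
      (by fun_prop) (by fun_prop)
  rw [hf, ← h9, P_two (fun _ => rfl) (by fun_prop) (by fun_prop), hN, div_mul_cancel₀ _ h7.ne'] at h8
  linarith [le_abs_self (u - P h (2 * π))]

/-- densities with vanishing moments that are positive over `U` -/
structure Dens (L : ℝ) (U : Set Q3) (r : Q3 × ℝ → ℝ) : Prop where
  op : IsOpen U
  sm : ContDiff ℝ ∞ r
  nn : ∀ z, 0 ≤ r z
  pos : ∀ q ∈ U, ∀ s, 0 < r (q, s)
  m1 : ∀ q, P (fun s => r (q, s) * g1 L (q, s)) (2 * π) = 0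
  m2 : ∀ q, P (fun s => r (q, s) * g2 L (q, s)) (2 * π) = 0

theorem dens_of {ρ1 ρ2 ρ3 : ℝ → ℝ} (s1 : ContDiff ℝ ∞ ρ1) (s2 : ContDiff ℝ ∞ ρ2)
    (s3 : ContDiff ℝ ∞ ρ3) (p1 : ∀ s, 0 < ρ1 s) (p2 : ∀ s, 0 < ρ2 s) (p3 : ∀ s, 0 < ρ3 s)
    {d1 d2 d3 : Q3 → ℝ} (t1 : ContDiff ℝ ∞ d1) (t2 : ContDiff ℝ ∞ d2) (t3 : ContDiff ℝ ∞ d3)
    (h : ∀ q, ∀ g ∈ ({g1 L, g2 L} : Set (Q3 × ℝ → ℝ)),
      d1 q * P (fun s => ρ1 s * g (q, s)) (2 * π) + d2 q * P (fun s => ρ2 s * g (q, s)) (2 * π) +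
        d3 q * P (fun s => ρ3 s * g (q, s)) (2 * π) = 0) :
    ∃ r, Dens L {q | 0 < d1 q ∧ 0 < d2 q ∧ 0 < d3 q} r := by
  obtain ⟨χ, hχ⟩ : ∃ χ : Q3 → ℝ, χ = fun q =>
    expNegInvGlue (d1 q) * expNegInvGlue (d2 q) * expNegInvGlue (d3 q) := ⟨_, rfl⟩
  have sχ : ContDiff ℝ ∞ χ := hχ ▸ ((expNegInvGlue.contDiff.comp t1).mul
    (expNegInvGlue.contDiff.comp t2)).mul (expNegInvGlue.contDiff.comp t3)
  have hp : ∀ q s, 0 < d1 q ∧ 0 < d2 q ∧ 0 < d3 q →
      0 < χ q * (d1 q * ρ1 s + d2 q * ρ2 s + d3 q * ρ3 s) := fun q s ⟨k1, k2, k3⟩ => by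
    have := expNegInvGlue.pos_of_pos k1
    have := expNegInvGlue.pos_of_pos k2
    have := expNegInvGlue.pos_of_pos k3
    have := p1 s
    have := p2 s
    have := p3 s
    rw [hχ]
    positivity
  have := s1.continuous
  have := s2.continuous
  have := s3.continuous
  have hm : ∀ q, ∀ g ∈ ({g1 L, g2 L} : Set (Q3 × ℝ → ℝ)), Continuous g →
      P (fun s => χ q * (d1 q * ρ1 s + d2 q * ρ2 s + d3 q * ρ3 s) * g (q, s)) (2 * π) = 0 :=
    fun q g hg hc => by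
      rw [P_three (a := χ q * d1 q) (b := χ q * d2 q) (c := χ q * d3 q)
        (f1 := fun s => ρ1 s * g (q, s)) (f2 := fun s => ρ2 s * g (q, s))
        (f3 := fun s => ρ3 s * g (q, s)) (fun s => by ring) (by fun_prop) (by fun_prop) (by fun_prop)]
      linear_combination χ q * h q g hg
  refine ⟨fun z => χ z.1 * (d1 z.1 * ρ1 z.2 + d2 z.1 * ρ2 z.2 + d3 z.1 * ρ3 z.2),
    (isOpen_lt continuous_const t1.continuous).inter ((isOpen_lt continuous_const
      t2.continuous).inter (isOpen_lt continuous_const t3.continuous)), by fun_prop, fun z => ?_,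
    fun q hq s => hp q s hq, fun q => hm q _ (.inl rfl) g1_cont, fun q => hm q _ (.inr rfl) g2_cont⟩
  by_cases hz : 0 < d1 z.1 ∧ 0 < d2 z.1 ∧ 0 < d3 z.1
  · exact (hp _ _ hz).le
  · simp only [not_and_or, not_lt] at hz
    rcases hz with k | k | k <;> simp [hχ, expNegInvGlue.zero_of_nonpos k]

theorem dens_loc {q₀ : Q3} (hq : q₀ ∈ Om L) : ∃ U r, q₀ ∈ U ∧ Dens L U r := by
  have hd := dense_Mom hq
  have ho : IsOpen {v : (ℝ × ℝ) × (ℝ × ℝ) × (ℝ × ℝ) | 0 < v.2.1.1 * v.2.2.2 - v.2.1.2 * v.2.2.1 ∧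
      0 < v.2.2.1 * v.1.2 - v.2.2.2 * v.1.1 ∧ 0 < v.1.1 * v.2.1.2 - v.1.2 * v.2.1.1} := by
    refine IsOpen.and ?_ (IsOpen.and ?_ ?_) <;> exact isOpen_lt continuous_const (by fun_prop)
  obtain ⟨⟨v1, v2, v3⟩, k, ⟨ρ1, s1, p1, rfl⟩, ⟨ρ2, s2, p2, rfl⟩, ρ3, s3, p3, rfl⟩ :=
    (hd.prod (hd.prod hd)).inter_open_nonempty _ ho
      ⟨((1, 0), (0, 1), (-1, -1)), by norm_num, by norm_num, by norm_num⟩
  have sX : ∀ {ρ : ℝ → ℝ}, ContDiff ℝ ∞ ρ →
      ContDiff ℝ ∞ fun q => P (fun s => ρ s * g1 L (q, s)) (2 * π) := fun h =>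
    P_smooth' (F := fun z => _ * g1 L z) ((h.comp contDiff_snd).mul g1_smooth)
  have sY : ∀ {ρ : ℝ → ℝ}, ContDiff ℝ ∞ ρ →
      ContDiff ℝ ∞ fun q => P (fun s => ρ s * g2 L (q, s)) (2 * π) := fun h =>
    P_smooth' (F := fun z => _ * g2 L z) ((h.comp contDiff_snd).mul g2_smooth)
  obtain ⟨r, hr⟩ := dens_of (L := L) s1 s2 s3 p1 p2 p3
    (((sX s2).mul (sY s3)).sub ((sY s2).mul (sX s3)))
    (((sX s3).mul (sY s1)).sub ((sY s3).mul (sX s1)))
    (((sX s1).mul (sY s2)).sub ((sY s1).mul (sX s2))) (by rintro q g (rfl | rfl) <;> ring)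
  exact ⟨_, r, k, hr⟩

theorem dens_compact {K : Set Q3} (hK : IsCompact K) (hKO : K ⊆ Om L) :
    ∃ U r, K ⊆ U ∧ Dens L U r := by
  refine hK.induction_on (p := fun S => ∃ U r, S ⊆ U ∧ Dens L U r)
    ⟨∅, fun _ => 0, subset_rfl, isOpen_empty, contDiff_const, fun _ => le_rfl, by simp,
      by simp [P], by simp [P]⟩ (fun _ _ h ⟨U, r, h1, h2⟩ => ⟨U, r, h.trans h1, h2⟩) ?_
    fun q hq => ?_
  · rintro S S' ⟨U, r, h1, h2⟩ ⟨U', r', k1, k2⟩
    have := h2.sm.continuous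
    have := k2.sm.continuous
    refine ⟨U ∪ U', fun z => r z + r' z, union_subset_union h1 k1, h2.op.union k2.op,
      h2.sm.add k2.sm, fun z => add_nonneg (h2.nn z) (k2.nn z), fun q hq s => hq.elim
        (fun hq => add_pos_of_pos_of_nonneg (h2.pos q hq s) (k2.nn _))
        fun hq => add_pos_of_nonneg_of_pos (h2.nn _) (k2.pos q hq s), fun q => ?_, fun q => ?_⟩
    · rw [P_two (a := 1) (b := 1) (f1 := fun s => r (q, s) * g1 L (q, s))
        (f2 := fun s => r' (q, s) * g1 L (q, s)) (fun s => by ring) (by fun_prop) (by fun_prop), h2.m1, k2.m1]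
      norm_num
    · rw [P_two (a := 1) (b := 1) (f1 := fun s => r (q, s) * g2 L (q, s))
        (f2 := fun s => r' (q, s) * g2 L (q, s)) (fun s => by ring) (by fun_prop) (by fun_prop), h2.m2, k2.m2]
      norm_num
  · obtain ⟨U, r, h1, h2⟩ := dens_loc (hKO hq)
    exact ⟨U, mem_nhdsWithin_of_mem_nhds (h2.op.mem_nhds h1), U, r, subset_rfl, h2⟩

end Vale.Agent.P205.Pt
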