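import Vale.Agent.P205.PatB
import Vale.Agent.P205.PatC

/-! P205: existence of the universal pattern (see BLUEPRINT, module D). -/

open scoped ContDiff InnerProductSpace Topology
open Set Filter Real

noncomputable section
namespace Vale.Agent.P205

namespace Pt
variable {L : ℝ} {U : Set Q3} {r : Q3 × ℝ → ℝ}

theorem deriv_zero {F F' : ℝ → ℝ} {a b : ℝ} (h : ∀ s, HasDerivAt F (F' s) s)
    (h0 : ∀ s ∈ Ioo a b, F s = 0) : ∀ s ∈ Ioo a b, F' s = 0 := fun s hs =>
  (h s).unique ((hasDerivAt_const s 0).congr_of_eventuallyEq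
    (eventually_of_mem (Ioo_mem_nhds hs.1 hs.2) h0))

theorem indep {A B c0 c1 c2 w : ℝ} (h : ∀ s ∈ Ioo (-1 : ℝ) 1,
    A * exp s + B * exp (-s) + c0 + c1 * sn w (L * s) + c2 * cn w (L * s) = 0) :
    A = 0 ∧ B = 0 := by
  have e1 : ∀ s, HasDerivAt (fun s => exp (-s)) (-exp (-s)) s := fun s => by
    simpa using (hasDerivAt_neg s).exp
  have l : ∀ s, HasDerivAt (fun s => L * s) L s := fun s => by
    simpa using (hasDerivAt_id s).const_mul L
  have e2 : ∀ s, HasDerivAt (fun s => sn w (L * s)) (cos (w * (L * s)) * L) s := fun s =>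
    (hasDerivAt_sn w _).comp s (l s)
  have e3 : ∀ s, HasDerivAt (fun s => cn w (L * s)) (sn w (L * s) * L) s := fun s =>
    (hasDerivAt_cn w _).comp s (l s)
  have e4 : ∀ s, HasDerivAt (fun s => cos (w * (L * s))) (-(w * sn w (L * s)) * (w * L)) s :=
    fun s => mul_sn w _ ▸ ((l s).const_mul w).cos
  have h1 := deriv_zero (fun s => ((((((hasDerivAt_exp s).const_mul A).add
    ((e1 s).const_mul B)).add_const c0).add ((e2 s).const_mul c1)).add ((e3 s).const_mul c2))) h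
  have h2 := deriv_zero (fun s => (((((hasDerivAt_exp s).const_mul A).add
    ((e1 s).neg.const_mul B)).add (((e4 s).mul_const L).const_mul c1)).add
      (((e2 s).mul_const L).const_mul c2))) h1
  have h3 := deriv_zero (fun s => (((((hasDerivAt_exp s).const_mul A).add
    ((e1 s).neg.neg.const_mul B)).add ((((((e2 s).const_mul w).neg).mul_const
      (w * L)).mul_const L).const_mul c1)).add ((((e4 s).mul_const L).mul_const L).const_mul c2))) h2
  have h4 : ∀ s ∈ Ioo (-1 : ℝ) 1, A * exp s - B * exp (-s) = 0 := fun s hs =>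
    (mul_eq_zero.1 (by linear_combination h3 s hs + (w * L) ^ 2 * h1 s hs)).resolve_left
      (by positivity : (1 + (w * L) ^ 2 : ℝ) ≠ 0)
  have h5 : A = B := by simpa [sub_eq_zero] using h4 0 (by norm_num)
  have h6 := h4 (1 / 2) (by norm_num)
  have h7 : exp (-(1 / 2)) < exp (1 / 2) := exp_lt_exp.2 (by norm_num)
  rw [← h5, ← mul_sub] at h6
  have h8 := (mul_eq_zero.1 h6).resolve_right (sub_pos.2 h7).ne'
  exact ⟨h8, h5 ▸ h8⟩

/-- weighted integral -/
def ip (r u : Q3 × ℝ → ℝ) (q : Q3) : ℝ := P (fun s => r (q, s) * u (q, s)) (2 * π)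

theorem Dens.ip_sm (h : Dens L U r) {u : Q3 × ℝ → ℝ} (hu : ContDiff ℝ ∞ u) :
    ContDiff ℝ ∞ (ip r u) := P_smooth' (h.sm.mul hu)

/-- the Gram determinant -/
def gr (L : ℝ) (r : Q3 × ℝ → ℝ) (q : Q3) : ℝ :=
  ip r (fun z => g1 L z * g1 L z) q * ip r (fun z => g2 L z * g2 L z) q -
    ip r (fun z => g1 L z * g2 L z) q ^ 2

theorem Dens.mass_pos (h : Dens L U r) {q : Q3} (hq : q ∈ U) : 0 < ip r (fun _ => 1) q :=
  have := h.sm.continuous
  P_pos (by fun_prop) (fun s => by simpa using h.nn _) (σ := 0) (by norm_num)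
    (by simpa using h.pos q hq 0)

theorem Dens.gr_ne (h : Dens L U r) {q : Q3} (hq : q ∈ U) (hq' : q ∈ Om L) : gr L r q ≠ 0 := by
  have := h.sm.continuous
  have k : ∀ l : ℝ × ℝ, l ≠ 0 → 0 < l.1 ^ 2 * ip r (fun z => g1 L z * g1 L z) q +
      2 * l.1 * l.2 * ip r (fun z => g1 L z * g2 L z) q +
        l.2 ^ 2 * ip r (fun z => g2 L z * g2 L z) q := fun l hl => by
    obtain ⟨σ, h1, h2⟩ := hq' l hl
    have h3 := P_pos (F := fun s => r (q, s) * (l.1 * g1 L (q, s) + l.2 * g2 L (q, s)) ^ 2)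
      (by fun_prop) (fun s => mul_nonneg (h.nn _) (sq_nonneg _)) h1
      (mul_pos (h.pos q hq σ) (pow_pos h2 2))
    exact h3.trans_eq (P_three (fun s => by ring) (by fun_prop) (by fun_prop) (by fun_prop))
  intro h0
  have h1 := k (0, 1) (by simp)
  have h2 := k (ip r (fun z => g2 L z * g2 L z) q, -ip r (fun z => g1 L z * g2 L z) q)
    fun h => by simp only [Prod.mk_eq_zero] at h; simp [h.1] at h1
  refine h2.ne' ?_
  rw [gr] at h0
  linear_combination ip r (fun z => g2 L z * g2 L z) q * h0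

theorem Dens.proj (h : Dens L U r) {φ : ℝ → ℝ} (hφ : ContDiff ℝ ∞ φ) :
    ∃ k : Q3 × ℝ → ℝ, ContDiff ℝ ∞ k ∧ ∀ q, (∀ u ∈ ({fun _ => 1, g1 L, g2 L} : Set (Q3 × ℝ → ℝ)),
      ip r (fun z => k z * u z) q = 0) ∧ ∃ c0 c1 c2, ∀ s, k (q, s) =
        ip r (fun _ => 1) q * gr L r q * φ s + c0 + c1 * g1 L (q, s) + c2 * g2 L (q, s) := by
  have := h.sm.continuous
  have := hφ.continuous
  have s0 := h.ip_sm (u := fun _ => 1) contDiff_const
  have s11 := h.ip_sm (u := fun z => g1 L z * g1 L z) (by fun_prop)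
  have s12 := h.ip_sm (u := fun z => g1 L z * g2 L z) (by fun_prop)
  have s22 := h.ip_sm (u := fun z => g2 L z * g2 L z) (by fun_prop)
  have t0 := h.ip_sm (u := fun z => φ z.2 * 1) (by fun_prop)
  have t1 := h.ip_sm (u := fun z => φ z.2 * g1 L z) (by fun_prop)
  have t2 := h.ip_sm (u := fun z => φ z.2 * g2 L z) (by fun_prop)
  have sg : ContDiff ℝ ∞ (gr L r) := (s11.mul s22).sub (s12.pow 2)
  obtain ⟨c0, h0⟩ : ∃ c0, c0 = fun q => -(gr L r q * ip r (fun z => φ z.2 * 1) q) := ⟨_, rfl⟩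
  obtain ⟨c1, h1⟩ : ∃ c1, c1 = fun q => -(ip r (fun _ => 1) q *
    (ip r (fun z => g2 L z * g2 L z) q * ip r (fun z => φ z.2 * g1 L z) q -
      ip r (fun z => g1 L z * g2 L z) q * ip r (fun z => φ z.2 * g2 L z) q)) := ⟨_, rfl⟩
  obtain ⟨c2, h2⟩ : ∃ c2, c2 = fun q => -(ip r (fun _ => 1) q *
    (ip r (fun z => g1 L z * g1 L z) q * ip r (fun z => φ z.2 * g2 L z) q -
      ip r (fun z => g1 L z * g2 L z) q * ip r (fun z => φ z.2 * g1 L z) q)) := ⟨_, rfl⟩
  have u0 : ContDiff ℝ ∞ c0 := h0 ▸ by fun_prop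
  have u1 : ContDiff ℝ ∞ c1 := h1 ▸ by fun_prop
  have u2 : ContDiff ℝ ∞ c2 := h2 ▸ by fun_prop
  refine ⟨fun z => ip r (fun _ => 1) z.1 * gr L r z.1 * φ z.2 + c0 z.1 + c1 z.1 * g1 L z +
    c2 z.1 * g2 L z, by fun_prop, fun q => ⟨?_, _, _, _, fun s => rfl⟩⟩
  have m1 : ip r (g1 L) q = 0 := h.m1 q
  have m2 : ip r (g2 L) q = 0 := h.m2 q
  rintro u (rfl | rfl | rfl)
  · refine Eq.trans (b := ip r (fun _ => 1) q * gr L r q * ip r (fun z => φ z.2 * 1) q +
      c0 q * ip r (fun _ => 1) q + c1 q * ip r (g1 L) q + c2 q * ip r (g2 L) q)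
      (P_comb (fun s => by ring) (by fun_prop) (by fun_prop) (by fun_prop) (by fun_prop)) ?_
    rw [m1, m2, h0]
    ring
  · refine Eq.trans (b := ip r (fun _ => 1) q * gr L r q * ip r (fun z => φ z.2 * g1 L z) q +
      c0 q * ip r (g1 L) q + c1 q * ip r (fun z => g1 L z * g1 L z) q +
        c2 q * ip r (fun z => g1 L z * g2 L z) q) (P_comb (fun s => by ring) (by fun_prop) (by fun_prop) (by fun_prop) (by fun_prop)) ?_
    rw [m1, h1, h2, gr]
    ring
  · refine Eq.trans (b := ip r (fun _ => 1) q * gr L r q * ip r (fun z => φ z.2 * g2 L z) q +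
      c0 q * ip r (g2 L) q + c1 q * ip r (fun z => g1 L z * g2 L z) q +
        c2 q * ip r (fun z => g2 L z * g2 L z) q) (P_comb (fun s => by ring) (by fun_prop) (by fun_prop) (by fun_prop) (by fun_prop)) ?_
    rw [m2, h1, h2, gr]
    ring

theorem Dens.pre (h : Dens L U r) {K : Set Q3} (hK : IsCompact K) (hKU : K ⊆ U) (hKO : K ⊆ Om L) :
    ∃ O T A B ρ, K ⊆ O ∧ Pre L O T A B ρ := by
  obtain ⟨k3, s3, h3⟩ := h.proj contDiff_exp
  obtain ⟨k4, s4, h4⟩ := h.proj (φ := fun s => exp (-s)) (by fun_prop)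
  have := h.sm
  have := h.sm.continuous
  have := s3.continuous
  have := s4.continuous
  obtain ⟨R, hR⟩ := hK.isBounded.subset_ball 0
  obtain ⟨C, hC⟩ := ((isCompact_closedBall (0 : Q3) R).prod
    (isCompact_Icc (a := (-1 : ℝ)) (b := 1))).bddAbove_image
    (f := fun z => |k3 z| + |k4 z|) (by fun_prop)
  obtain ⟨η, hη, hη'⟩ : ∃ η : ℝ, 0 < η ∧ η * C < 1 := ⟨1 / (|C| + 1), by positivity, by
    rw [one_div, inv_mul_lt_one₀ (by positivity)]
    linarith [le_abs_self C]⟩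
  obtain ⟨σ, hσ⟩ : ∃ σ : (Q3 × ℝ) × ℝ → ℝ, σ = fun z => r (z.1.1, z.2) *
    (1 + η * (cos z.1.2 * k3 (z.1.1, z.2) + sin z.1.2 * k4 (z.1.1, z.2))) := ⟨_, rfl⟩
  have sσ : ContDiff ℝ ∞ σ := hσ ▸ by fun_prop
  have cσ := sσ.continuous
  obtain ⟨c, hc⟩ : ∃ c : Q3 → ℝ, c = fun q => 2 * π / ip r (fun _ => 1) q := ⟨_, rfl⟩
  have cp : ∀ q ∈ U, 0 < c q := fun q hq => hc ▸ div_pos two_pi_pos (h.mass_pos hq)
  obtain ⟨F, hF⟩ : ∃ F : (Q3 × ℝ → ℝ) → Z → ℝ, F = fun u z =>
    c z.1 * P (fun s => σ ((z.1, z.2.1), s) * u (z.1, s)) z.2.2 := ⟨_, rfl⟩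
  have sF : ∀ u, ContDiff ℝ ∞ u →
      ContDiffOn ℝ ∞ (F u) ((U ∩ Om L ∩ Metric.ball 0 R) ×ˢ univ) := fun u hu => by
    rw [hF, hc]
    exact (contDiffOn_const.div ((h.ip_sm contDiff_const).comp contDiff_fst).contDiffOn
      fun z hz => (h.mass_pos hz.1.1.1).ne').mul ((P_smooth (F := fun z => σ z * u (z.1.1, z.2))
        (by fun_prop)).comp (f := fun z : Z => ((z.1, z.2.1), z.2.2)) (by fun_prop)).contDiffOn
  have dF : ∀ u, Continuous u → ∀ q θ x, HasDerivAt (fun y => F u (q, θ, y))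
      (c q * σ ((q, θ), cos x) * u (q, cos x)) x := fun u hu q θ x => by
    rw [hF, mul_assoc]
    exact (P_deriv (F := fun s => σ ((q, θ), s) * u (q, s)) (by fun_prop) x).const_mul (c q)
  have eF : ∀ u, Continuous u → ∀ q θ x, F u (q, θ, x) = c q * (P (fun s => r (q, s) * u (q, s)) x
      + η * (cos θ * P (fun s => r (q, s) * (k3 (q, s) * u (q, s))) x
      + sin θ * P (fun s => r (q, s) * (k4 (q, s) * u (q, s))) x)) := fun u hu q θ x => by
    simp only [hF, hσ]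
    rw [P_three (a := 1) (b := η * cos θ) (c := η * sin θ) (f1 := fun s => r (q, s) * u (q, s))
      (f2 := fun s => r (q, s) * (k3 (q, s) * u (q, s)))
      (f3 := fun s => r (q, s) * (k4 (q, s) * u (q, s))) (fun s => by ring) (by fun_prop) (by fun_prop) (by fun_prop)]
    ring
  have pF : ∀ u ∈ ({fun _ => 1, g1 L, g2 L} : Set (Q3 × ℝ → ℝ)), Continuous u → ∀ q θ x,
      F u (q, θ, x + 2 * π) = F u (q, θ, x) + c q * ip r u q := fun u hu hu' q θ x => by
    have e1 := eF u hu' q θ (2 * π)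
    have e3 : P (fun s => r (q, s) * (k3 (q, s) * u (q, s))) (2 * π) = 0 := (h3 q).1 u hu
    have e4 : P (fun s => r (q, s) * (k4 (q, s) * u (q, s))) (2 * π) = 0 := (h4 q).1 u hu
    rw [e3, e4, mul_zero, mul_zero, add_zero, mul_zero, add_zero] at e1
    rw [ip, ← e1]
    simp only [hF]
    rw [P_per (by fun_prop), mul_add]
  have θF : ∀ u q θ x, F u (q, θ + 2 * π, x) = F u (q, θ, x) := fun u q θ x => by
    simp only [hF, hσ, cos_add_two_pi, sin_add_two_pi]
  have oF : ∀ u q θ x, F u (q, θ, -x) = -F u (q, θ, x) := fun u q θ x => by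
    simp only [hF, P_neg, mul_neg]
  refine ⟨U ∩ Om L ∩ Metric.ball 0 R, F fun _ => 1, fun z => -F (g2 L) z, F (g1 L),
    fun z => c z.1 * σ ((z.1, z.2.1), cos z.2.2), subset_inter (subset_inter hKU hKO) hR,
    (h.op.inter (isOpen_Om L)).inter Metric.isOpen_ball, fun q hq => hq.1.2, sF _ contDiff_const,
    (sF _ g2_smooth).neg, sF _ g1_smooth, fun q hq θ x => mul_pos (cp q hq.1.1) ?_,
    fun q _ θ x => by simpa using dF (fun _ => 1) continuous_const q θ x,
    fun q _ θ x => (dF _ g2_cont q θ x).neg.congr_deriv (by simp only [g2]; ring),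
    fun q _ θ x => dF _ g1_cont q θ x, fun q _ θ x => by simp only [θF, and_self],
    fun q hq θ x => ⟨?_, ?_, ?_⟩, fun q _ θ x => by simp only [oF, and_self], fun q hq θ => ?_⟩
  · rw [hσ]
    refine mul_pos (h.pos q hq.1.1 _) ?_
    have e1 := hC ⟨(q, cos x), ⟨Metric.ball_subset_closedBall hq.2, cos_mem_Icc x⟩, rfl⟩
    have e2 := neg_abs_le (cos θ * k3 (q, cos x))
    have e3 := neg_abs_le (sin θ * k4 (q, cos x))
    have e4 := mul_le_of_le_one_left (abs_nonneg (k3 (q, cos x))) (abs_cos_le_one θ)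
    have e5 := mul_le_of_le_one_left (abs_nonneg (k4 (q, cos x))) (abs_sin_le_one θ)
    rw [abs_mul] at e2 e3
    have e6 : -C ≤ cos θ * k3 (q, cos x) + sin θ * k4 (q, cos x) := by
      simp only at e1
      linarith
    nlinarith
  · rw [pF _ (.inl rfl) continuous_const, hc]
    simp only [div_mul_cancel₀ _ (h.mass_pos hq.1.1).ne']
  · simp only [pF _ (.inr (.inr rfl)) g2_cont, show ip r (g2 L) q = 0 from h.m2 q, mul_zero,
      add_zero]
  · simp only [pF _ (.inr (.inl rfl)) g1_cont, show ip r (g1 L) q = 0 from h.m1 q, mul_zero,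
      add_zero]
  · by_contra hn
    push Not at hn
    have e1 : ∀ x ∈ Ioo 0 π, -sin θ * P (fun s => r (q, s) * (k3 (q, s) * 1)) x +
        cos θ * P (fun s => r (q, s) * (k4 (q, s) * 1)) x = 0 := fun x hx => by
      by_contra h0
      refine hn x _ (sin_pos_of_mem_Ioo hx).ne'
        (mul_ne_zero (cp q hq.1.1).ne' (mul_ne_zero hη.ne' h0)) ?_
      simp only [eF _ continuous_const]
      exact (((((hasDerivAt_cos θ).mul_const _).add ((hasDerivAt_sin θ).mul_const _)).const_mul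
        η).const_add _).const_mul _
    have e2 := deriv_zero (fun x => ((P_deriv (by fun_prop) x).const_mul _).add
      ((P_deriv (by fun_prop) x).const_mul _)) e1
    obtain ⟨-, a0, a1, a2, e3⟩ := h3 q
    obtain ⟨-, b0, b1, b2, e4⟩ := h4 q
    have e5 := mul_ne_zero (h.mass_pos hq.1.1).ne' (h.gr_ne hq.1.1 hq.1.2)
    generalize ip r (fun _ => 1) q * gr L r q = D at e3 e4 e5
    obtain ⟨e6, e7⟩ := indep (L := L) (w := q.1) (A := -sin θ * D) (B := cos θ * D)
      (c0 := -sin θ * (a0 - a1 * q.2.1 - a2 * q.2.2) + cos θ * (b0 - b1 * q.2.1 - b2 * q.2.2))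
      (c1 := -sin θ * a1 + cos θ * b1) (c2 := -sin θ * a2 + cos θ * b2) fun s hs => by
        have e8 := e2 (arccos s) ⟨arccos_pos.2 hs.2, arccos_lt_pi.2 hs.1⟩
        rw [cos_arccos hs.1.le hs.2.le, e3, e4] at e8
        refine mul_left_cancel₀ (h.pos q hq.1.1 s).ne' ?_
        simp only [g1, g2] at e8
        linear_combination e8
    exact e5 (by linear_combination -sin θ * e6 + cos θ * e7 - D * sin_sq_add_cos_sq θ)

end Pt

theorem exists_pat {L : ℝ} (hL : 0 < L) {K : Set Q3} (hK : IsCompact K) (hKO : K ⊆ Om L) :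
    Nonempty (Pat L K) := by
  obtain ⟨U, r, h1, h2⟩ := Pt.dens_compact hK hKO
  obtain ⟨O, T, A, B, ρ, h3, h4⟩ := h2.pre hK h1 hKO
  exact h4.pat hL hK h3

end Vale.Agent.P205
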