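import Vale.Agent.P205.WKB
import Vale.Agent.P205.Pattern
import Vale.Agent.P205.Geo
import Vale.Agent.P205.CoreAuxE

/-! P205: the core corrugation step (see BLUEPRINT, module E). -/

open scoped ContDiff InnerProductSpace Topology
open Set Filter Real

noncomputable section
namespace Vale.Agent.P205
open CoreA

namespace Core
variable {ι : Type} {L : ℝ} {K : Set Q3}

/-- restriction of the family -/
def reindex (X : Core ι K) {ι' : Type} (φ : ι' → ι) : Core ι' K where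
  U := fun j => X.U (φ j)
  lam := fun j => X.lam (φ j)
  f := fun j => X.f (φ j)
  a := fun j => X.a (φ j)
  r := fun j => X.r (φ j)
  e := fun j => X.e (φ j)
  e' := fun j => X.e' (φ j)
  γ1 := fun j => X.γ1 (φ j)
  γ2 := fun j => X.γ2 (φ j)
  hU := fun j => X.hU (φ j)
  hlam := fun j => X.hlam (φ j)
  hf := fun j => X.hf (φ j)
  hA := X.hA.reindex φ
  hB := X.hB.reindex φ
  hG := fun j => X.hG (φ j)
  he := X.he.reindex φ
  he' := X.he'.reindex φ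
  unit := fun j => X.unit (φ j)
  orth := fun j => X.orth (φ j)
  ha := ⟨fun j => X.ha.1 (φ j), X.ha.2.reindex φ⟩
  hr := ⟨fun j => X.hr.1 (φ j), X.hr.2.reindex φ⟩
  hrl := fun j => X.hrl (φ j)
  hr2 := fun j => X.hr2 (φ j)
  hγ := fun j => X.hγ (φ j)
  hK := fun j => X.hK (φ j)
  hγ1 := X.hγ1.reindex φ
  hγ2 := X.hγ2.reindex φ

variable {X : Core ι K} {μ : ι → ℝ} {D b : ℕ}

theorem err_ev {M : ℕ} {E : ι → P3 → ℝ} (hb : 10 * D ≤ b) (hμ : ∀ i, 0 < μ i)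
    (h : Gr X.U (fun i => (μ i)⁻¹) X.Θ X.w M (D * M) 1 E) :
    ∀ᶠ C : ℝ in atTop, ∀ i, ∀ x ∈ X.U i, ∀ t, |E i (x, t)| ≤ C * (X.lam i ^ b / μ i) ^ M := by
  obtain ⟨C, hC0, hC⟩ := T.bound h
  filter_upwards [eventually_ge_atTop C] with C' hC' i x hx t
  have h0 := hμ i
  have h1 := X.lam_pos i
  have h2 := w_pos hx
  refine (hC i (x, t) ⟨hx, trivial⟩).trans (mul_le_mul hC' ?_ (by
    have := X.Θ_pos i
    positivity) (hC0.trans hC'))
  rw [pow_one, pow_mul, ← mul_pow, ← div_eq_inv_mul, Θ, ← pow_mul]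
  refine (mul_le_of_le_one_right (by positivity) (w_le hx)).trans ?_
  gcongr
  exact X.hlam i

theorem norm_inv_smul_le {v : R4} {m c : ℝ} (hm : 0 < m) (h : ‖v‖ ≤ c) : ‖m⁻¹ • v‖ ≤ c / m := by
  rw [norm_smul, Real.norm_of_nonneg (inv_pos.2 hm).le, ← div_eq_inv_mul]
  gcongr

theorem finish (P : Pat L K) (hK : IsCompact K) (hb : 10 * D + 31 ≤ b)
    (hμ : ∀ i, X.lam i ^ b ≤ μ i) {M : ℕ} {Z : ι → P3 → R4} (W : WKB ι)
    (hY : Gr X.U (fun i => (μ i)⁻¹) X.Θ X.w 1 D 1 fun i z => Z i z - X.W P i z)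
    (e1 : W.f = X.f) (e2 : W.ε = fun i => (μ i)⁻¹) (e3 : W.a2 = fun i x => X.a i x ^ 2)
    (h1 : Gr X.U (fun i => (μ i)⁻¹) X.Θ X.w M (D * M) 1 (W.E1 Z))
    (h2 : Gr X.U (fun i => (μ i)⁻¹) X.Θ X.w M (D * M) 1 (W.E2 Z))
    (h3 : Gr X.U (fun i => (μ i)⁻¹) X.Θ X.w M (D * M) 1 (W.E3 Z)) :
    ∃ (C : ℝ) (Cs : ℕ → ℝ) (y : ι → P2 → R4), 0 ≤ C ∧ (∀ m, 0 ≤ Cs m) ∧ ∀ i,
      ContDiffOn ℝ ∞ (y i) (X.U i) ∧
      (∀ m : ℕ, ∀ x ∈ X.U i,
        ‖iteratedFDeriv ℝ m (y i) x‖ ≤ Cs m * X.a i x * X.lam i ^ b * μ i ^ m / μ i) ∧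
      (∀ x ∈ X.U i, ErrAt (X.f i) (fun x => X.f i x + y i x) (X.a i x ^ 2) x
        (C * (X.lam i ^ b / μ i) ^ M)) ∧
      ∀ x ∈ X.U i, JetAt L (X.f i) (X.e i) (X.e' i) (X.a i) (X.r i) (y i) x (μ i)
        (C * X.lam i ^ b) := by
  have hle : ∀ i, ∀ n ≤ b, X.lam i ^ n ≤ μ i := fun i n hn =>
    (pow_le_pow_right₀ (X.hlam i) hn).trans (hμ i)
  have hμ0 : ∀ i, 0 < μ i := fun i => (pow_pos (X.lam_pos i) b).trans_le (hμ i)
  have hΘD : ∀ i, (μ i)⁻¹ ^ 1 * X.Θ i ^ D ≤ 1 := fun i => by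
    rw [pow_one, ← div_eq_inv_mul, div_le_one (hμ0 i), Θ, ← pow_mul]
    exact hle i _ (by omega)
  have hY1 : T (fam3 X.U X.Θ) (fun i z => X.w i z.1) fun i z => Z i z - X.W P i z :=
    T.mono hY 1 zero_le_one fun i z hz => by
      rw [pow_one (X.w i z.1)]
      exact mul_le_mul_of_nonneg_right (hΘD i) (w_pos hz.1).le
  have hZa : T (fam3 X.U X.Θ) (fun i z => X.a i z.1 * X.lam i ^ b) Z := by
    have k1 : T (fam3 X.U X.Θ) (fun i z => X.a i z.1 * X.lam i ^ b) (X.W P) :=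
      ((X.ha.fam2_mono fun i => ⟨X.lam_pos i, X.lam_le_Θ i⟩).lift.2.smul
        ((X.H_W0 P hK).mono X.hlam (Nat.zero_le b)))
    have k2 := hY1.mono (σ' := fun i z => X.a i z.1 * X.lam i ^ b) 1 zero_le_one fun i z hz => by
      rw [one_mul, w, div_eq_mul_inv]
      exact mul_le_mul_of_nonneg_left ((inv_r_le hz.1).trans
        (le_self_pow₀ (X.hlam i) (by omega))) (a_pos hz.1).le
    simpa only [add_sub_cancel] using k1.add k2
  have hZ : X.H 1 Z := by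
    have k2 : X.H 1 fun i z => Z i z - X.W P i z := hY1.mono 1 zero_le_one fun i z hz => by
      rw [one_mul, pow_one]
      exact (w_le hz.1).trans (X.hlam i)
    simpa only [add_sub_cancel] using (X.H_W P hK).add k2
  have hR : X.H (10 * D + 11) fun i => rOf (μ i) (Z i) (X.W P i) := by
    refine (hZ.pv.mono X.hlam (by omega)).add (((T.pt hY).fam_smul μ).mono 1 zero_le_one
      fun i z hz => ?_)
    rw [abs_of_pos (hμ0 i), pow_one, pow_one, one_mul, ← mul_assoc, ← mul_assoc,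
      mul_inv_cancel₀ (hμ0 i).ne', one_mul, Θ, ← pow_mul]
    exact (mul_le_of_le_one_right (pow_pos (X.lam_pos i) _).le (w_le hz.1)).trans
      (pow_le_pow_right₀ (X.hlam i) (by omega))
  have hy : T (fam2 X.U μ) (fun i x => |(μ i)⁻¹| * (X.a i x * X.lam i ^ b))
      fun i => yOf (μ i) (Z i) :=
    (T.eval (σ := fun i x => X.a i x * X.lam i ^ b) hZa μ
      fun i => ⟨X.Θ_pos i, hle i 10 (by omega)⟩).fam_smul fun i => (μ i)⁻¹
  choose Cs hCs hCs' using hy.to_iter hμ0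
  have hS : X.H (10 * D + 21) fun i z => pv (pt (X.W P i)) z +
      (μ i)⁻¹ • pv (rOf (μ i) (Z i) (X.W P i)) z + pt (rOf (μ i) (Z i) (X.W P i)) z := by
    refine (((X.H_W P hK).pt.pv.mono X.hlam (by omega)).add ((T.fam_smul hR.pv
      fun i => (μ i)⁻¹).mono 1 zero_le_one fun i z _ => ?_)).add (hR.pt.mono X.hlam (by omega))
    rw [abs_of_pos (inv_pos.2 (hμ0 i))]
    exact mul_le_mul_of_nonneg_right (inv_le_one_of_one_le₀ ((pow_zero _).symm.trans_le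
      (hle i 0 (Nat.zero_le b)))) (pow_pos (X.lam_pos i) _).le
  obtain ⟨C, ⟨hC0, c1, c2, c3⟩, ⟨c4, c5, c6⟩, c7, c8, c9, c10⟩ :=
    (((eventually_ge_atTop (0 : ℝ)).and ((err_ev (b := b) (by omega) hμ0 h1).and
      ((err_ev (b := b) (by omega) hμ0 h2).and (err_ev (b := b) (by omega) hμ0 h3)))).and
    (((psi1_le (X := X) P (b := b) (by omega)).and
      (((X.H_ψ P hK).pu.ev X.hlam (n := b) (by omega)).and
        (hZ.pu.ev X.hlam (n := b) (by omega)))).and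
      ((hZ.pu.pu.ev X.hlam (n := b) (by omega)).and ((hR.ev X.hlam (n := b) (by omega)).and
        ((hR.pu.ev X.hlam (n := b) (by omega)).and (hS.ev X.hlam (n := b) (by omega))))))).exists
  refine ⟨C, Cs, fun i => yOf (μ i) (Z i), hC0, hCs, fun i => ⟨fun x hx =>
    (hy.smooth i hx).contDiffWithinAt, fun m x hx => (hCs' m i x hx).trans_eq ?_,
    fun x hx => ?_, fun x hx => ?_⟩⟩
  · rw [abs_of_pos (inv_pos.2 (hμ0 i))]
    ring
  · have sZ : ∀ x ∈ X.U i, ∀ t, ContDiffAt ℝ ∞ (Z i) (x, t) := fun x hx t => hZ.sm hx t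
    have d1 : DifferentiableAt ℝ (X.f i) x := dA ((X.hf i).contDiffAt ((X.hU i).mem_nhds hx))
    have d2 : DifferentiableAt ℝ (yOf (μ i) (Z i)) x := dA (hy.smooth i hx)
    have a1 : du (fun x => X.f i x + yOf (μ i) (Z i) x) x =
        du (X.f i) x + (μ i)⁻¹ • pu (Z i) (x, μ i * x.2) := by
      rw [← du_yOf sZ hx, du, fderiv_fun_add d1 d2]
      rfl
    have a2 : dv (fun x => X.f i x + yOf (μ i) (Z i) x) x =
        dv (X.f i) x + (μ i)⁻¹ • pv (Z i) (x, μ i * x.2) + pt (Z i) (x, μ i * x.2) := by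
      rw [add_assoc, ← dv_yOf (hμ0 i).ne' sZ hx, dv, fderiv_fun_add d1 d2]
      rfl
    have b1 := c1 i x hx (μ i * x.2)
    have b2 := c2 i x hx (μ i * x.2)
    have b3 := c3 i x hx (μ i * x.2)
    simp only [WKB.E1, WKB.E2, WKB.E3, e1, e2, e3] at b1 b2 b3
    simp only [ErrAt, fE, fF, fG, a1, a2, real_inner_self_eq_norm_sq]
    exact ⟨b1, b2, b3⟩
  · have sZ : ∀ x ∈ X.U i, ∀ t, ContDiffAt ℝ ∞ (Z i) (x, t) := fun x hx t => hZ.sm hx t
    have sW : ∀ x ∈ X.U i, ∀ t, ContDiffAt ℝ ∞ (X.W P i) (x, t) := fun x hx t =>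
      (X.H_W P hK).sm hx t
    have hz : (x, μ i * x.2) ∈ (fam3 X.U X.Θ).S i := ⟨hx, trivial⟩
    refine ⟨X.ψ P i (x, μ i * x.2), pu (X.ψ P i) (x, μ i * x.2), pt (X.ψ P i) (x, μ i * x.2),
      ?_, c4 i x hx _, c5 i _ hz, ?_, ?_, ?_, ?_, ?_⟩
    · rw [ψ, abs_mul, abs_of_pos (w_pos hx)]
      exact mul_le_mul_of_nonneg_left (P.bd _ (P.hK (q_mem hx)) _ _) (w_pos hx).le
    · rw [du_yOf sZ hx]
      exact norm_inv_smul_le (hμ0 i) (c6 i _ hz)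
    · rw [dudu_yOf (X.hU i) sZ hx]
      exact norm_inv_smul_le (hμ0 i) (c7 i _ hz)
    · rw [dv_yOf' (hμ0 i).ne' sZ sW hx, ← V_eq P hK hx, ← add_assoc, add_sub_cancel_left]
      exact norm_inv_smul_le (hμ0 i) (c8 i _ hz)
    · rw [dudv_yOf (X.hU i) (hμ0 i).ne' sZ sW hx, ← pu_V P hK hx, ← add_assoc, add_sub_cancel_left]
      exact norm_inv_smul_le (hμ0 i) (c9 i _ hz)
    · rw [dvdv_yOf (X.hU i) (hμ0 i).ne' sZ sW hx, pt_V P hK hx, smul_smul, ← mul_assoc,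
        add_sub_cancel_left]
      exact c10 i _ hz
end Core

theorem core : ∃ b : ℕ, 1 ≤ b ∧ ∀ (L : ℝ) (K : Set Q3), 0 < L → IsCompact K → K ⊆ Om L →
    ∀ (ι : Type) (X : Core ι K) (μ : ι → ℝ), (∀ i, X.lam i ^ b ≤ μ i) → ∀ M : ℕ,
    ∃ (lam0 C : ℝ) (Cs : ℕ → ℝ) (y : ι → P2 → R4), 0 ≤ C ∧ (∀ m, 0 ≤ Cs m) ∧
      ∀ i, lam0 ≤ X.lam i →
        ContDiffOn ℝ ∞ (y i) (X.U i) ∧
        (∀ m : ℕ, ∀ x ∈ X.U i,
          ‖iteratedFDeriv ℝ m (y i) x‖ ≤ Cs m * X.a i x * X.lam i ^ b * μ i ^ m / μ i) ∧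
        (∀ x ∈ X.U i, ErrAt (X.f i) (fun x => X.f i x + y i x) (X.a i x ^ 2) x
          (C * (X.lam i ^ b / μ i) ^ M)) ∧
        ∀ x ∈ X.U i, JetAt L (X.f i) (X.e i) (X.e' i) (X.a i) (X.r i) (y i) x (μ i)
          (C * X.lam i ^ b) := by
  obtain ⟨D, hD⟩ := wkb
  refine ⟨10 * D + 31, by omega, fun L K hL hK hKO ι X μ hμ M => ?_⟩
  obtain ⟨P⟩ := exists_pat hL hK hKO
  obtain ⟨c1, hc1, h12⟩ := X.gram12 P hK
  obtain ⟨lam0, c2, hc2, h34⟩ := X.gram34 P hK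
  let X' : Core {i // lam0 ≤ X.lam i} K := X.reindex Subtype.val
  have hμ' : ∀ i, X'.lam i ^ (10 * D + 31) ≤ μ i.1 := fun i => hμ i.1
  let W := Core.toWKB (X := X') P hK (lt_min hc1 hc2)
    (fun i x hx t => (min_le_left _ _).trans (h12 i.1 x hx t))
    (fun i x hx t => (min_le_right _ _).trans (h34 i.1 i.2 x hx t)) (fun i => μ i.1)
    fun i => (one_le_pow₀ (X.hlam i.1)).trans (hμ i.1)
  obtain ⟨Z, -, hY, h1, h2, h3⟩ := hD _ W (fun i => by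
    have h0 : 0 < μ i.1 := (pow_pos (X.lam_pos i.1) _).trans_le (hμ i.1)
    change (μ i.1)⁻¹ * (X.lam i.1 ^ 10) ^ D ≤ 1
    rw [← div_eq_inv_mul, div_le_one h0, ← pow_mul]
    exact (pow_le_pow_right₀ (X.hlam i.1) (by omega)).trans (hμ i.1)) M
  obtain ⟨C, Cs, y, hC, hCs, h⟩ := Core.finish (X := X') P hK le_rfl hμ' W hY rfl rfl rfl h1 h2 h3
  classical
  refine ⟨lam0, C, Cs, fun i => if hi : lam0 ≤ X.lam i then y ⟨i, hi⟩ else 0, hC, hCs,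
    fun i hi => ?_⟩
  simp only [dif_pos hi]
  exact h ⟨i, hi⟩

end Vale.Agent.P205
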