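import Vale.Agent.P205.Mean

/-! P205, core step: dual functions, Gram determinants, parity, evaluation at the fast phase. -/

open scoped ContDiff InnerProductSpace Topology
open Set Filter Real

noncomputable section
namespace Vale.Agent.P205.CoreA

section Calc
variable {F : Type} [NormedAddCommGroup F] [NormedSpace ℝ F]

theorem dA {E : Type} [NormedAddCommGroup E] [NormedSpace ℝ E] {f : E → F} {z : E}
    (h : ContDiffAt ℝ ∞ f z) : DifferentiableAt ℝ f z := h.differentiableAt (by simp)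

theorem cA {E : Type} [NormedAddCommGroup E] [NormedSpace ℝ E] {f : E → F} {z : E}
    (h : ContDiffAt ℝ ∞ f z) (v : E) : ContDiffAt ℝ ∞ (fun y => fderiv ℝ f y v) z :=
  (h.fderiv_right (m := ∞) (by simp)).clm_apply contDiffAt_const

theorem fderiv_congr_open {E : Type} [NormedAddCommGroup E] [NormedSpace ℝ E] {f g : E → F}
    {U : Set E} (hU : IsOpen U) (h : ∀ y ∈ U, f y = g y) {x : E} (hx : x ∈ U) :
    fderiv ℝ f x = fderiv ℝ g x :=
  Filter.EventuallyEq.fderiv_eq (Filter.eventually_of_mem (hU.mem_nhds hx) h)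

theorem fderiv_refl {U : Set P2} (hU : IsOpen U) {f : P3 → F} (s : ℝ)
    (h : ∀ x ∈ U, ∀ t, f (x, -t) = s • f (x, t)) {x : P2} (hx : x ∈ U) (t : ℝ)
    (h1 : DifferentiableAt ℝ f (x, t)) (h2 : DifferentiableAt ℝ f (x, -t)) (v : P2) (τ : ℝ) :
    fderiv ℝ f (x, -t) (v, -τ) = s • fderiv ℝ f (x, t) (v, τ) := by
  have e1 : HasFDerivAt (fun z : P3 => f (z.1, -z.2))
      ((fderiv ℝ f (x, -t)).comp ((ContinuousLinearMap.fst ℝ P2 ℝ).prod
        (-ContinuousLinearMap.snd ℝ P2 ℝ))) (x, t) :=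
    HasFDerivAt.comp (x, t) (g := f) (f := fun z : P3 => (z.1, -z.2)) h2.hasFDerivAt
      (hasFDerivAt_fst.prodMk hasFDerivAt_snd.neg)
  have e2 : HasFDerivAt (fun z : P3 => s • f z) (s • fderiv ℝ f (x, t)) (x, t) :=
    h1.hasFDerivAt.const_smul s
  have e3 := fderiv_congr_open (hU.prod isOpen_univ) (f := fun z : P3 => f (z.1, -z.2))
    (g := fun z : P3 => s • f z) (fun y hy => h y.1 hy.1 y.2) (x := (x, t)) ⟨hx, trivial⟩
  rw [e1.fderiv, e2.fderiv] at e3
  exact DFunLike.congr_fun e3 (v, τ)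

theorem pu_refl {U : Set P2} (hU : IsOpen U) {f : P3 → F} (s : ℝ)
    (h : ∀ x ∈ U, ∀ t, f (x, -t) = s • f (x, t))
    (hd : ∀ x ∈ U, ∀ t, DifferentiableAt ℝ f (x, t)) {x : P2} (hx : x ∈ U) (t : ℝ) :
    pu f (x, -t) = s • pu f (x, t) := by
  have := fderiv_refl hU s h hx t (hd x hx t) (hd x hx _) (1, 0) 0
  rwa [neg_zero] at this

theorem pt_refl {U : Set P2} (hU : IsOpen U) {f : P3 → F} (s : ℝ)
    (h : ∀ x ∈ U, ∀ t, f (x, -t) = s • f (x, t))
    (hd : ∀ x ∈ U, ∀ t, DifferentiableAt ℝ f (x, t)) {x : P2} (hx : x ∈ U) (t : ℝ) :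
    pt f (x, -t) = (-s) • pt f (x, t) := by
  have h1 := fderiv_refl hU s h hx t (hd x hx t) (hd x hx _) (0, 0) (-1)
  rw [neg_neg] at h1
  have h2 : (((0, 0), -1) : P3) = -((0, 0), 1) := by simp
  rw [h2, map_neg, smul_neg, ← neg_smul] at h1
  exact h1

theorem fderiv_ev {Z : P3 → F} {μ : ℝ} {x : P2} (h : DifferentiableAt ℝ Z (x, μ * x.2)) (v : P2) :
    fderiv ℝ (fun x : P2 => Z (x, μ * x.2)) x v = fderiv ℝ Z (x, μ * x.2) (v, μ * v.2) := by
  have e1 : HasFDerivAt (fun x : P2 => Z (x, μ * x.2))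
      ((fderiv ℝ Z (x, μ * x.2)).comp ((ContinuousLinearMap.id ℝ P2).prod
        (μ • ContinuousLinearMap.snd ℝ ℝ ℝ))) x :=
    HasFDerivAt.comp x (g := Z) (f := fun x : P2 => (x, μ * x.2)) h.hasFDerivAt
      ((hasFDerivAt_id x).prodMk (hasFDerivAt_snd.const_mul μ))
  rw [e1.fderiv]
  rfl

theorem du_ev {Z : P3 → F} {μ : ℝ} {x : P2} (h : DifferentiableAt ℝ Z (x, μ * x.2)) :
    du (fun x : P2 => Z (x, μ * x.2)) x = pu Z (x, μ * x.2) := by
  rw [du, fderiv_ev h, pu]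
  simp

theorem dv_ev {Z : P3 → F} {μ : ℝ} {x : P2} (h : DifferentiableAt ℝ Z (x, μ * x.2)) :
    dv (fun x : P2 => Z (x, μ * x.2)) x = pv Z (x, μ * x.2) + μ • pt Z (x, μ * x.2) := by
  rw [dv, fderiv_ev h, pv, pt, ← map_smul, ← map_add]
  simp

theorem hasFDerivAt_lift {f : P2 → F} {z : P3} (h : DifferentiableAt ℝ f z.1) :
    HasFDerivAt (fun z : P3 => f z.1)
      ((fderiv ℝ f z.1).comp (ContinuousLinearMap.fst ℝ P2 ℝ)) z :=
  HasFDerivAt.comp z h.hasFDerivAt hasFDerivAt_fst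

theorem fderiv_add_smul {E : Type} [NormedAddCommGroup E] [NormedSpace ℝ E] {f g : E → F} {z : E}
    (hf : DifferentiableAt ℝ f z) (hg : DifferentiableAt ℝ g z) (c : ℝ) (v : E) :
    fderiv ℝ (fun z => f z + c • g z) z v = fderiv ℝ f z v + c • fderiv ℝ g z v := by
  rw [(hf.hasFDerivAt.fun_add (hg.hasFDerivAt.fun_const_smul c)).fderiv]
  rfl

theorem fderiv_per {E : Type} [NormedAddCommGroup E] [NormedSpace ℝ E] {f : E → F} {S : Set E}
    (hS : IsOpen S) {c : E} (h : ∀ y ∈ S, f (y + c) = f y) {y : E} (hy : y ∈ S) :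
    fderiv ℝ f (y + c) = fderiv ℝ f y := by
  rw [← fderiv_comp_add_right]
  exact fderiv_congr_open hS h hy
end Calc

section Gram

def gE (p q : P3 → ℝ) : P3 → ℝ := tmean fun z => p z * q z
def gD (p q : P3 → ℝ) (z : P3) : ℝ := gE p p z * gE q q z - gE p q z ^ 2
/-- the function dual to `p` in the span of `p` and `q` -/
def dl (p q : P3 → ℝ) (z : P3) : ℝ := (gE q q z * p z - gE p q z * q z) / gD p q z

theorem gE_comm (p q : P3 → ℝ) : gE p q = gE q p := by
  simp only [gE, mul_comm]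

theorem gD_comm (p q : P3 → ℝ) : gD p q = gD q p := by
  funext z
  rw [gD, gD, gE_comm p q, mul_comm]

theorem tmean_lin {F f g : P3 → ℝ} {x : P2} (A B : ℝ) (hf : Continuous fun t => f (x, t))
    (hg : Continuous fun t => g (x, t)) (h : ∀ s, F (x, s) = A * f (x, s) + B * g (x, s)) (t : ℝ) :
    tmean F (x, t) = A * tmean f (x, t) + B * tmean g (x, t) := by
  simp only [tmean, h, smul_eq_mul]
  rw [intervalIntegral.integral_add ((hf.const_mul A).intervalIntegrable _ _)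
    ((hg.const_mul B).intervalIntegrable _ _), intervalIntegral.integral_const_mul,
    intervalIntegral.integral_const_mul]
  ring

theorem tmean_dl {p q h : P3 → ℝ} {x : P2} (hp : Continuous fun t => p (x, t))
    (hq : Continuous fun t => q (x, t)) (hh : Continuous fun t => h (x, t)) (t : ℝ) :
    tmean (fun z => dl p q z * h z) (x, t) =
      (gE q q (x, t) * gE p h (x, t) - gE p q (x, t) * gE q h (x, t)) / gD p q (x, t) := by
  rw [tmean_lin (f := fun z => p z * h z) (g := fun z => q z * h z)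
    (gE q q (x, t) / gD p q (x, t)) (-gE p q (x, t) / gD p q (x, t)) (hp.mul hh) (hq.mul hh)]
  · change _ * gE p h (x, t) + _ * gE q h (x, t) = _
    ring
  · intro s
    change (gE q q (x, t) * p (x, s) - gE p q (x, t) * q (x, s)) / gD p q (x, t) * h (x, s) = _
    ring

theorem tmean_dl_self {p q : P3 → ℝ} {x : P2} (hp : Continuous fun t => p (x, t))
    (hq : Continuous fun t => q (x, t)) (t : ℝ) (h : gD p q (x, t) ≠ 0) :
    tmean (fun z => dl p q z * p z) (x, t) = 1 := by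
  rw [tmean_dl hp hq hp, div_eq_one_iff_eq h, gD, gE_comm q p]
  ring

theorem tmean_dl_other {p q : P3 → ℝ} {x : P2} (hp : Continuous fun t => p (x, t))
    (hq : Continuous fun t => q (x, t)) (t : ℝ) :
    tmean (fun z => dl p q z * q z) (x, t) = 0 := by
  rw [tmean_dl hp hq hq, mul_comm, sub_self, zero_div]

theorem cont_dl {p q : P3 → ℝ} {x : P2} (hp : Continuous fun t => p (x, t))
    (hq : Continuous fun t => q (x, t)) : Continuous fun t => dl p q (x, t) :=
  ((hp.const_mul (gE q q (x, 0))).sub (hq.const_mul (gE p q (x, 0)))).div_const (gD p q (x, 0))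

theorem dl_of {p q : P3 → ℝ} {x : P2} {s t c : ℝ} (hp : p (x, s) = c * p (x, t))
    (hq : q (x, s) = c * q (x, t)) : dl p q (x, s) = c * dl p q (x, t) := by
  change (gE q q (x, t) * p (x, s) - gE p q (x, t) * q (x, s)) / gD p q (x, t) = _
  rw [hp, hq, dl]
  ring

theorem T_one_mul {E ι : Type} [NormedAddCommGroup E] [NormedSpace ℝ E] {k : ℕ} {X : Fam ι E k}
    {f g : ι → E → ℝ} (hf : T X (fun _ _ => 1) f) (hg : T X (fun _ _ => 1) g) :
    T X (fun _ _ => 1) fun i z => f i z * g i z := by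
  simpa only [mul_one] using hf.mul hg

theorem T_dl {ι : Type} {U : ι → Set P2} {Θ : ι → ℝ} (hU : ∀ i, IsOpen (U i))
    {p q : ι → P3 → ℝ} (hp : T (fam3 U Θ) (fun _ _ => 1) p) (hq : T (fam3 U Θ) (fun _ _ => 1) q)
    {c : ℝ} (hc : 0 < c) (h : ∀ i, ∀ x ∈ U i, ∀ t, c ≤ gD (p i) (q i) (x, t)) :
    T (fam3 U Θ) (fun _ _ => 1) fun i => dl (p i) (q i) := by
  have g : ∀ {p q : ι → P3 → ℝ}, T (fam3 U Θ) (fun _ _ => 1) p → T (fam3 U Θ) (fun _ _ => 1) q →
      T (fam3 U Θ) (fun _ _ => 1) fun i => gE (p i) (q i) := fun hp hq =>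
    T.tmean (σ := fun _ _ => 1) hU (T_one_mul hp hq)
  have h1 : T (fam3 U Θ) (fun _ _ => 1) fun i => gD (p i) (q i) := by
    have := (T_one_mul (g hp hp) (g hq hq)).sub (T_one_mul (g hp hq) (g hp hq))
    simp only [← pow_two] at this
    exact this
  have h2 : LT (fam3 U Θ) fun i => gD (p i) (q i) :=
    LT.of_T h1 (fun i z hz => hc.trans_le (h i z.1 hz.1 z.2)) c⁻¹ (by positivity) fun i z hz => by
      rw [← div_eq_inv_mul, le_div_iff₀ hc, one_mul]
      exact h i z.1 hz.1 z.2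
  refine (((T_one_mul (g hq hq) hp).sub (T_one_mul (g hp hq) hq)).div_LT h2).mono c⁻¹
    (by positivity) fun i z hz => ?_
  rw [mul_one, one_div]
  exact inv_anti₀ hc (h i z.1 hz.1 z.2)

theorem gram_lower {K : Set Q3} (hK : IsCompact K) {p q : Q3 × ℝ × ℝ → ℝ}
    (hp : ContinuousOn p (K ×ˢ univ)) (hq : ContinuousOn q (K ×ˢ univ))
    (per : ∀ y ∈ K, ∀ θ t, p (y, θ + 2 * π, t) = p (y, θ, t) ∧ q (y, θ + 2 * π, t) = q (y, θ, t))
    (pert : ∀ y ∈ K, ∀ θ t, p (y, θ, t + 2 * π) = p (y, θ, t) ∧ q (y, θ, t + 2 * π) = q (y, θ, t))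
    (ind : ∀ y ∈ K, ∀ θ a b : ℝ, (∀ t, a * p (y, θ, t) + b * q (y, θ, t) = 0) → a = 0 ∧ b = 0) :
    ∃ η c : ℝ, 0 < η ∧ 0 < c ∧ ∀ y ∈ K, ∀ (θ : ℝ) (f g : P3 → ℝ) (x : P2),
      Continuous (fun t => f (x, t)) → Continuous (fun t => g (x, t)) →
      (∀ t, f (x, t) = p (y, θ, t)) → (∀ t, |g (x, t) - q (y, θ, t)| ≤ η) →
      ∀ t, c ≤ gD f g (x, t) := by
  have : CompactSpace K := isCompact_iff_compactSpace.1 hK
  have hp' : Continuous fun s : K × ℝ × ℝ => p (s.1, s.2) :=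
    hp.comp_continuous (by fun_prop) fun s => ⟨s.1.2, trivial⟩
  have hq' : Continuous fun s : K × ℝ × ℝ => q (s.1, s.2) :=
    hq.comp_continuous (by fun_prop) fun s => ⟨s.1.2, trivial⟩
  let φ : K × ℝ × (ℝ × ℝ) → ℝ → ℝ := fun s t =>
    (s.2.2.1 * p (s.1, s.2.1, t) + s.2.2.2 * q (s.1, s.2.1, t)) ^ 2
  have hφ : Continuous φ.uncurry := by
    have h1 : Continuous fun s : (K × ℝ × (ℝ × ℝ)) × ℝ => ((s.1.1, s.1.2.1, s.2) : K × ℝ × ℝ) := by
      fun_prop
    exact (((by fun_prop : Continuous fun s : (K × ℝ × (ℝ × ℝ)) × ℝ => s.1.2.2.1).mul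
      (hp'.comp h1)).add ((by fun_prop : Continuous fun s : (K × ℝ × (ℝ × ℝ)) × ℝ =>
        s.1.2.2.2).mul (hq'.comp h1))).pow 2
  have hφt : ∀ s, Continuous (φ s) := fun s => hφ.comp (Continuous.prodMk_right s)
  have hS : IsCompact ((univ : Set K) ×ˢ Icc 0 (2 * π) ×ˢ Metric.sphere (0 : ℝ × ℝ) 1) :=
    isCompact_univ.prod (isCompact_Icc.prod (isCompact_sphere _ _))
  obtain ⟨m, hm, hm'⟩ := hS.exists_forall_le'
    (intervalIntegral.continuous_parametric_intervalIntegral_of_continuous'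
      (μ := MeasureTheory.volume) hφ 0 (2 * π)).continuousOn (a := 0) (by
      rintro ⟨y, θ, a, b⟩ ⟨-, -, hab⟩
      refine intervalIntegral.integral_pos two_pi_pos (hφt _).continuousOn
        (fun t _ => sq_nonneg _) ?_
      by_contra hcon
      push Not at hcon
      have h1 := ind y y.2 θ a b fun t => by
        have hper : Function.Periodic (fun t => a * p (y, θ, t) + b * q (y, θ, t)) (2 * π) :=
          fun t => by simp only [(pert y y.2 θ t).1, (pert y y.2 θ t).2]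
        obtain ⟨s, hs, e⟩ := hper.exists_mem_Ico₀ two_pi_pos t
        exact e.trans (pow_eq_zero_iff two_ne_zero |>.1
          (le_antisymm (hcon s (Ico_subset_Icc_self hs)) (sq_nonneg _)))
      rw [h1.1, h1.2] at hab
      simp at hab)
  refine ⟨√(m / (8 * π)), (m / (8 * π)) ^ 2, by positivity, by positivity, ?_⟩
  intro y hy θ f g x hf hg e1 e2 t
  obtain ⟨l, hl⟩ : ∃ l, l = m / (8 * π) := ⟨_, rfl⟩
  have hl0 : 0 < l := by rw [hl]; positivity
  rw [← hl] at e2 ⊢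
  have key : ∀ a b : ℝ, ‖(a, b)‖ = 1 →
      l ≤ a ^ 2 * gE f f (x, t) + 2 * a * b * gE f g (x, t) + b ^ 2 * gE g g (x, t) := by
    intro a b hab
    have hper : Function.Periodic (fun θ => fun t => (p (y, θ, t), q (y, θ, t))) (2 * π) :=
      fun θ => funext fun t => by simp only [(per y hy θ t).1, (per y hy θ t).2]
    obtain ⟨θ', hθ, e⟩ := hper.exists_mem_Ico₀ two_pi_pos θ
    have h1 := hm' (⟨y, hy⟩, θ', a, b) ⟨trivial, Ico_subset_Icc_self hθ, by simpa using hab⟩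
    have hb : b ^ 2 ≤ 1 := by
      have : |b| ≤ 1 := hab ▸ norm_snd_le (a, b)
      exact (sq_le_one_iff_abs_le_one b).2 this
    have c1 : Continuous fun t => 2 * (a * f (x, t) + b * g (x, t)) ^ 2 :=
      (((hf.const_mul a).add (hg.const_mul b)).pow 2).const_mul 2
    have h2 : ∫ t in (0 : ℝ)..(2 * π), φ (⟨y, hy⟩, θ', a, b) t ≤
        ∫ t in (0 : ℝ)..(2 * π), (2 * (a * f (x, t) + b * g (x, t)) ^ 2 + 2 * l) := by
      refine intervalIntegral.integral_mono_on two_pi_pos.le ((hφt _).intervalIntegrable _ _)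
        ((c1.add continuous_const).intervalIntegrable _ _) fun s _ => ?_
      have e3 := congrFun e s
      simp only [Prod.mk.injEq] at e3
      change (a * p (y, θ', s) + b * q (y, θ', s)) ^ 2 ≤ _
      rw [← e3.1, ← e3.2, ← e1]
      have h3 : (g (x, s) - q (y, θ, s)) ^ 2 ≤ l := by
        rw [← sq_abs, ← Real.sq_sqrt hl0.le]
        exact pow_le_pow_left₀ (abs_nonneg _) (e2 s) 2
      have h4 : b ^ 2 * (g (x, s) - q (y, θ, s)) ^ 2 ≤ 1 * l :=
        mul_le_mul hb h3 (sq_nonneg _) zero_le_one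
      nlinarith [sq_nonneg (a * f (x, s) + b * g (x, s) + b * (g (x, s) - q (y, θ, s)))]
    rw [intervalIntegral.integral_add (c1.intervalIntegrable _ _)
      (continuous_const.intervalIntegrable _ _), intervalIntegral.integral_const_mul,
      intervalIntegral.integral_const] at h2
    have h5 : tmean (fun z => (a * f z + b * g z) ^ 2) (x, t) =
        a ^ 2 * gE f f (x, t) + 2 * a * b * gE f g (x, t) + b ^ 2 * gE g g (x, t) := by
      rw [tmean_lin (f := fun z => a ^ 2 * (f z * f z) + 2 * a * b * (f z * g z))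
        (g := fun z => g z * g z) 1 (b ^ 2)
        (((hf.mul hf).const_mul _).add ((hf.mul hg).const_mul _)) (hg.mul hg) (fun s => by ring),
        tmean_lin (f := fun z => f z * f z) (g := fun z => f z * g z) (a ^ 2) (2 * a * b)
        (hf.mul hf) (hf.mul hg) (fun s => rfl), one_mul]
      rfl
    rw [← h5, tmean, smul_eq_mul, ← div_eq_inv_mul, le_div_iff₀ two_pi_pos]
    have h6 : m = 8 * π * l := by rw [hl]; field_simp
    simp only [smul_eq_mul, sub_zero] at h2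
    linarith [h1.trans h2]
  have k1 := key 0 1 (by simp)
  obtain ⟨E, hE⟩ : ∃ E, E = gE f f (x, t) := ⟨_, rfl⟩
  obtain ⟨F, hF⟩ : ∃ F, F = gE f g (x, t) := ⟨_, rfl⟩
  obtain ⟨G, hG⟩ : ∃ G, G = gE g g (x, t) := ⟨_, rfl⟩
  rw [gD]
  simp only [← hE, ← hF, ← hG] at key k1 ⊢
  have hG0 : l ≤ G := by linarith
  obtain ⟨n, hn⟩ : ∃ n, n = ‖(G, -F)‖ := ⟨_, rfl⟩
  have hn1 : G ≤ n := hn ▸ (le_abs_self G).trans (norm_fst_le (G, -F))
  have hn0 : 0 < n := by linarith
  have k2 := key (n⁻¹ * G) (n⁻¹ * -F) (by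
    have : ((n⁻¹ * G, n⁻¹ * -F) : ℝ × ℝ) = n⁻¹ • (G, -F) := rfl
    rw [this, norm_smul, ← hn, Real.norm_of_nonneg (by positivity), inv_mul_cancel₀ hn0.ne'])
  have k3 : l * n ^ 2 ≤ G * (E * G - F ^ 2) := by
    have := mul_le_mul_of_nonneg_right k2 (sq_nonneg n)
    refine this.trans_eq ?_
    field_simp
    ring
  have k4 : G * (l * G) ≤ G * (E * G - F ^ 2) := by
    refine le_trans ?_ k3
    nlinarith [mul_le_mul hn1 hn1 (by linarith) hn0.le]
  have k5 := le_of_mul_le_mul_left k4 (by linarith)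
  nlinarith
end Gram

end Vale.Agent.P205.CoreA
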