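import Vale.Agent.P205.Defs

/-! P205: the functions `sn`, `cn` and membership in `Om`. -/

open scoped ContDiff InnerProductSpace Topology
open Set Filter Real

noncomputable section
namespace Vale.Agent.P205

theorem contDiff_sinc : ContDiff ℝ ∞ Real.sinc := by
  refine contDiff_iff_contDiffAt.2 fun x => ?_
  by_cases hx : x = 0
  · obtain ⟨p, hp⟩ := Real.analyticAt_sin (x := 0)
    rw [hx, sinc_eq_dslope]
    exact hp.has_fpower_series_dslope_fslope.analyticAt.contDiffAt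
  · refine (contDiff_sin.contDiffAt.div contDiffAt_id hx).congr_of_eventuallyEq ?_
    filter_upwards [isOpen_ne.mem_nhds hx] with y hy using sinc_of_ne_zero hy

theorem contDiff_sn : ContDiff ℝ ∞ (fun z : ℝ × ℝ => sn z.1 z.2) :=
  contDiff_snd.mul (contDiff_sinc.comp (contDiff_fst.mul contDiff_snd))

theorem contDiff_cn : ContDiff ℝ ∞ (fun z : ℝ × ℝ => cn z.1 z.2) :=
  ((contDiff_snd.pow 2).div_const 2).mul
    ((contDiff_sinc.comp ((contDiff_fst.mul contDiff_snd).div_const 2)).pow 2)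

theorem omAux_sinc (x : ℝ) : x * sinc x = sin x := by
  by_cases hx : x = 0
  · simp [hx]
  · rw [sinc_of_ne_zero hx, mul_div_cancel₀ _ hx]

theorem mul_sn (w x : ℝ) : w * sn w x = sin (w * x) := by
  rw [sn, ← mul_assoc, omAux_sinc]

theorem sq_mul_cn (w x : ℝ) : w ^ 2 * cn w x = 1 - cos (w * x) := by
  have h := cos_two_mul (w * x / 2)
  rw [mul_div_cancel₀ _ two_ne_zero, cos_sq', ← omAux_sinc] at h
  rw [h, cn]
  ring

theorem sn_zero (x : ℝ) : sn 0 x = x := by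
  simp [sn]

theorem cn_zero (x : ℝ) : cn 0 x = x ^ 2 / 2 := by
  simp [cn]

theorem hasDerivAt_sn (w x : ℝ) : HasDerivAt (sn w) (cos (w * x)) x := by
  by_cases hw : w = 0
  · rw [hw, funext sn_zero, zero_mul, cos_zero]
    exact hasDerivAt_id' x
  · have e : sn w = fun x => sin (w * x) / w := funext fun x => by
      rw [← mul_sn, mul_div_cancel_left₀ _ hw]
    rw [e]
    refine ((((hasDerivAt_id' x).const_mul w).sin).div_const w).congr_deriv ?_
    field_simp

theorem hasDerivAt_cn (w x : ℝ) : HasDerivAt (cn w) (sn w x) x := by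
  by_cases hw : w = 0
  · rw [hw, funext cn_zero, sn_zero]
    exact ((hasDerivAt_pow 2 x).div_const 2).congr_deriv (by simp)
  · have e : cn w = fun x => (1 - cos (w * x)) / w ^ 2 := funext fun x => by
      rw [← sq_mul_cn, mul_div_cancel_left₀ _ (pow_ne_zero 2 hw)]
    rw [e]
    refine (((((hasDerivAt_id' x).const_mul w).cos).const_sub 1).div_const (w ^ 2)).congr_deriv ?_
    rw [← mul_sn]
    field_simp

theorem isOpen_Om (L : ℝ) : IsOpen (Om L) := by
  refine isOpen_iff_mem_nhds.2 fun q hq => ?_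
  have h := (isCompact_sphere (0 : ℝ × ℝ) 1).eventually_forall_of_forall_eventually (x₀ := q)
    (P := fun q l => ∃ σ ∈ Icc (-1 : ℝ) 1,
      0 < l.1 * (sn q.1 (L * σ) - q.2.1) + l.2 * (cn q.1 (L * σ) - q.2.2)) fun l hl => by
      obtain ⟨σ, hσ, h⟩ := hq l (Metric.ne_of_mem_sphere hl one_ne_zero)
      have c1 : Continuous fun z : Q3 × ℝ × ℝ => sn z.1.1 (L * σ) :=
        contDiff_sn.continuous.comp (continuous_fst.fst.prodMk continuous_const)
      have c2 : Continuous fun z : Q3 × ℝ × ℝ => cn z.1.1 (L * σ) :=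
        contDiff_cn.continuous.comp (continuous_fst.fst.prodMk continuous_const)
      have c : Continuous fun z : Q3 × ℝ × ℝ => z.2.1 * (sn z.1.1 (L * σ) - z.1.2.1) +
          z.2.2 * (cn z.1.1 (L * σ) - z.1.2.2) := by fun_prop
      filter_upwards [(isOpen_lt continuous_const c).mem_nhds (x := (q, l)) h] with z hz
      exact ⟨σ, hσ, hz⟩
  filter_upwards [h] with q hq l hl
  have hn : 0 < ‖l‖⁻¹ := inv_pos.2 (norm_pos_iff.2 hl)
  obtain ⟨σ, hσ, h⟩ := hq (‖l‖⁻¹ • l) (by simp [norm_smul, hl])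
  refine ⟨σ, hσ, pos_of_mul_pos_right ?_ hn.le⟩
  simpa only [Prod.smul_fst, Prod.smul_snd, smul_eq_mul, mul_assoc, ← mul_add] using h

theorem omAux_of {L w γ1 γ2 : ℝ} (hw : 0 < w) (hL : 0 < w * L)
    (h : ∀ A B : ℝ, A ≠ 0 ∨ B ≠ 0 → ∃ θ, |θ| ≤ w * L ∧
      A * (w * γ1) + B * (1 - w ^ 2 * γ2) < A * sin θ + B * cos θ) : (w, γ1, γ2) ∈ Om L := by
  intro l hl
  obtain ⟨θ, hθ, h⟩ := h (l.1 * w) (-l.2) (by
    by_contra hc
    simp only [not_or, not_not, mul_eq_zero, hw.ne', or_false, neg_eq_zero] at hc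
    exact hl (Prod.ext hc.1 hc.2))
  refine ⟨θ / (w * L), abs_le.1 (by rw [abs_div, abs_of_pos hL, div_le_one hL]; exact hθ),
    pos_of_mul_pos_right ?_ (sq_nonneg w)⟩
  have e : w * (L * (θ / (w * L))) = θ := by rw [← mul_assoc, mul_div_cancel₀ _ hL.ne']
  have h1 := mul_sn w (L * (θ / (w * L)))
  have h2 := sq_mul_cn w (L * (θ / (w * L)))
  rw [e] at h1 h2
  dsimp only
  linear_combination h - l.1 * w * h1 - l.2 * h2

/-- the arc is the whole circle and the point `(1 - w ^ 2 γ₂, w γ₁)` is inside the disc -/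
theorem mem_Om_full {L w γ1 γ2 : ℝ} (hw : 0 < w) (hL : π ≤ w * L)
    (h : (1 - w ^ 2 * γ2) ^ 2 + (w * γ1) ^ 2 < 1) : (w, γ1, γ2) ∈ Om L := by
  refine omAux_of hw (pi_pos.trans_le hL) fun A B hAB =>
    ⟨Complex.arg ⟨B, A⟩, (Complex.abs_arg_le_pi _).trans hL, ?_⟩
  have h0 : 0 < ‖(⟨B, A⟩ : ℂ)‖ := norm_pos_iff.2 fun h => by
    simp only [Complex.ext_iff, Complex.zero_re, Complex.zero_im] at h
    tauto
  have h1 : _ = A := Complex.norm_mul_sin_arg ⟨B, A⟩
  have h2 : _ = B := Complex.norm_mul_cos_arg ⟨B, A⟩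
  generalize Complex.arg ⟨B, A⟩ = θ at *
  generalize ‖(⟨B, A⟩ : ℂ)‖ = r at *
  generalize 1 - w ^ 2 * γ2 = X at *
  generalize w * γ1 = Y at *
  have h3 : sin θ * Y + cos θ * X < sin θ * sin θ + cos θ * cos θ := by
    nlinarith [sin_sq_add_cos_sq θ, sq_nonneg (sin θ - Y), sq_nonneg (cos θ - X)]
  rw [← h1, ← h2]
  linarith [mul_lt_mul_of_pos_left h3 h0]

/-- the point has distance `√(1 - w ^ 2)` from the centre and angle `b`, `|b| ≤ w`; use the three
points of the arc with angles `b` and `b ± 3 w` -/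
theorem mem_Om_arc {L w γ1 γ2 b : ℝ} (hw : 0 < w) (hw1 : w ≤ 1) (hL : 4 ≤ L) (hb : |b| ≤ w)
    (h2 : 1 - w ^ 2 * γ2 = √(1 - w ^ 2) * cos b) (h1 : w * γ1 = √(1 - w ^ 2) * sin b) :
    (w, γ1, γ2) ∈ Om L := by
  refine omAux_of hw (by positivity) fun A B hAB => ?_
  have hw2 : 0 < w ^ 2 := by positivity
  have hw3 : w ^ 2 ≤ 1 := pow_le_one₀ hw.le hw1
  have r1 : √(1 - w ^ 2) < 1 := (sqrt_lt' one_pos).2 (by linarith)
  have h3 : 3 * w < π := by linarith [pi_gt_three]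
  have r2 : cos (3 * w) < √(1 - w ^ 2) := by
    refine lt_of_lt_of_le ?_ (le_sqrt_of_sq_le (x := 1 - w ^ 2) (by nlinarith))
    refine (cos_le_one_sub_mul_cos_sq (by rw [abs_of_pos (by positivity)]; exact h3.le)).trans_lt ?_
    have : 1 / 8 < 2 / π ^ 2 := by
      rw [div_lt_div_iff₀ (by norm_num) (by positivity)]
      nlinarith [pi_lt_four, pi_pos]
    nlinarith
  have r3 : 0 < sin (3 * w) := sin_pos_of_pos_of_lt_pi (by positivity) h3
  have hwL : 4 * w ≤ w * L := by nlinarith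
  rw [h1, h2]
  generalize √(1 - w ^ 2) = ρ at *
  obtain ⟨b1, b2⟩ := abs_le.1 hb
  by_cases hP : 0 < A * sin b + B * cos b
  · exact ⟨b, by linarith, by nlinarith⟩
  push Not at hP
  rcases lt_trichotomy (A * cos b - B * sin b) 0 with hQ | hQ | hQ
  · refine ⟨b - 3 * w, abs_le.2 ⟨by linarith, by linarith⟩, ?_⟩
    rw [sin_sub, cos_sub]
    nlinarith [mul_pos_of_neg_of_neg hQ (neg_neg_of_pos r3),
      mul_nonneg_of_nonpos_of_nonpos hP (sub_nonpos.2 r2.le)]
  · refine ⟨b - 3 * w, abs_le.2 ⟨by linarith, by linarith⟩, ?_⟩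
    have hP' : A * sin b + B * cos b < 0 := hP.lt_of_ne fun h0 => hAB.elim
      (fun h => h (by linear_combination sin b * h0 + cos b * hQ - A * sin_sq_add_cos_sq b))
      fun h => h (by linear_combination cos b * h0 - sin b * hQ - B * sin_sq_add_cos_sq b)
    rw [sin_sub, cos_sub]
    linear_combination mul_pos_of_neg_of_neg hP' (sub_neg.2 r2) + sin (3 * w) * hQ
  · refine ⟨b + 3 * w, abs_le.2 ⟨by linarith, by linarith⟩, ?_⟩
    rw [sin_add, cos_add]
    nlinarith [mul_pos hQ r3, mul_nonneg_of_nonpos_of_nonpos hP (sub_nonpos.2 r2.le)]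

theorem mem_Om_center {L w : ℝ} (hw : 0 ≤ w) (hw1 : w ≤ 1) (hL : 4 ≤ L) :
    (w, (0:ℝ), (1 + √(1 - w ^ 2))⁻¹) ∈ Om L := by
  rcases hw.eq_or_lt with rfl | hw
  · intro l hl
    simp only [sn_zero, cn_zero, ne_eq, OfNat.ofNat_ne_zero, not_false_eq_true, zero_pow, sub_zero,
      sqrt_one]
    have hL2 : 0 < L ^ 2 / 2 - (1 + 1)⁻¹ := by nlinarith
    by_cases h2 : l.2 < 0
    · exact ⟨0, by norm_num, by norm_num; linarith⟩
    push Not at h2
    rcases lt_trichotomy l.1 0 with h1 | h1 | h1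
    · exact ⟨-1, by norm_num, by nlinarith [mul_nonneg h2 hL2.le]⟩
    · have h3 : 0 < l.2 := h2.lt_of_ne fun h => hl (Prod.ext h1 h.symm)
      exact ⟨1, by norm_num, by rw [h1, zero_mul, zero_add, mul_one]; exact mul_pos h3 hL2⟩
    · exact ⟨1, by norm_num, by nlinarith [mul_nonneg h2 hL2.le]⟩
  · refine mem_Om_arc (b := 0) hw hw1 hL (by simpa using hw.le) ?_ (by simp)
    have h := sq_sqrt (show 0 ≤ 1 - w ^ 2 by nlinarith)
    have h0 : 0 < 1 + √(1 - w ^ 2) := by positivity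
    rw [cos_zero, mul_one]
    field_simp
    linear_combination -h

end Vale.Agent.P205
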