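import Vale.Agent.P205.CoreAuxA
import Vale.Agent.P205.Om

/-! P205, core step: the leading term of the corrugation and its tameness. -/

open scoped ContDiff InnerProductSpace Topology
open Set Filter Real

noncomputable section
namespace Vale.Agent.P205
open CoreA

section H
variable {E F G : Type} [NormedAddCommGroup E] [NormedSpace ℝ E] [NormedAddCommGroup F]
  [NormedSpace ℝ F] [NormedAddCommGroup G] [NormedSpace ℝ G] {k : ℕ} {ι : Type} {X : Fam ι E k}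
  {lam : ι → ℝ} {m n : ℕ}

/-- tame with weight a power of `lam` -/
def HT (X : Fam ι E k) (lam : ι → ℝ) (n : ℕ) (f : ι → E → F) : Prop :=
  T X (fun i _ => lam i ^ n) f

theorem HT.zero_iff {f : ι → E → F} : HT X lam 0 f ↔ T X (fun _ _ => 1) f := by
  simp only [HT, pow_zero]

theorem HT.one_iff {f : ι → E → F} : HT X lam 1 f ↔ T X (fun i _ => lam i) f := by
  simp only [HT, pow_one]

theorem HT.mono {f : ι → E → F} (h : HT X lam m f) (hl : ∀ i, 1 ≤ lam i) (hmn : m ≤ n) :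
    HT X lam n f :=
  T.mono h 1 zero_le_one fun i _ _ => by
    rw [one_mul]
    exact pow_le_pow_right₀ (hl i) hmn

theorem HT.add {f g : ι → E → F} (hf : HT X lam n f) (hg : HT X lam n g) :
    HT X lam n fun i z => f i z + g i z := T.add hf hg

theorem HT.sub {f g : ι → E → F} (hf : HT X lam n f) (hg : HT X lam n g) :
    HT X lam n fun i z => f i z - g i z := T.sub hf hg

theorem HT.neg {f : ι → E → F} (hf : HT X lam n f) : HT X lam n fun i z => -f i z := T.neg hf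

theorem HT.mul {f g : ι → E → ℝ} (hf : HT X lam m f) (hg : HT X lam n g) :
    HT X lam (m + n) fun i z => f i z * g i z := by
  simpa only [HT, pow_add] using T.mul hf hg

theorem HT.smul {f : ι → E → ℝ} {g : ι → E → F} (hf : HT X lam m f) (hg : HT X lam n g) :
    HT X lam (m + n) fun i z => f i z • g i z := by
  simpa only [HT, pow_add] using T.smul hf hg

theorem HT.inner {f g : ι → E → R4} (hf : HT X lam m f) (hg : HT X lam n g) :
    HT X lam (m + n) fun i z => ⟪f i z, g i z⟫_ℝ := by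
  simpa only [HT, pow_add] using T.inner hf hg

theorem HT.app {f : ι → E → F →L[ℝ] G} {g : ι → E → F} (hf : HT X lam m f) (hg : HT X lam n g) :
    HT X lam (m + n) fun i z => f i z (g i z) := by
  simpa only [HT, pow_add, ContinuousLinearMap.id_apply] using
    T.bilin (ContinuousLinearMap.id ℝ (F →L[ℝ] G)) hf hg

theorem HT.smooth {f : ι → E → F} (h : HT X lam n f) (i : ι) {p : E} (hp : p ∈ X.S i) :
    ContDiffAt ℝ ∞ (f i) p := T.smooth h i hp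

theorem HT.ev {f : ι → E → F} (h : HT X lam m f) (hl : ∀ i, 1 ≤ lam i) (hmn : m ≤ n) :
    ∀ᶠ C : ℝ in atTop, ∀ i, ∀ z ∈ X.S i, ‖f i z‖ ≤ C * lam i ^ n := by
  obtain ⟨C, -, hC⟩ := T.bound (h.mono hl hmn)
  filter_upwards [eventually_ge_atTop C] with C' hC' i z hz
  exact (hC i z hz).trans (mul_le_mul_of_nonneg_right hC' (pow_nonneg (by linarith [hl i]) _))

theorem HT.of_LT {f : ι → E → ℝ} (h : LT X f) (hb : ∀ i, ∀ z ∈ X.S i, f i z ≤ lam i ^ n) :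
    HT X lam n f :=
  T.mono h.2 1 zero_le_one fun i z hz => by
    rw [one_mul]
    exact hb i z hz
end H

namespace Core
variable {ι : Type} {L : ℝ} {K : Set Q3} (X : Core ι K) (P : Pat L K)

def Θ (i : ι) : ℝ := X.lam i ^ 10
def w (i : ι) (x : P2) : ℝ := X.a i x / X.r i x
def q (i : ι) (x : P2) : Q3 := (X.w i x, X.γ1 i x, X.γ2 i x)
def arg (i : ι) (z : P3) : Q3 × ℝ × ℝ := (X.q i z.1, X.Θ i * z.1.1, z.2)
def ψ (i : ι) (z : P3) : ℝ := X.w i z.1 * P.Γ (X.arg i z)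
def cc (i : ι) (z : P3) : ℝ := cos (X.ψ P i z)
def sh (i : ι) (z : P3) : ℝ := sn (X.w i z.1) (P.Γ (X.arg i z))
def W0 (i : ι) (z : P3) : R4 :=
  (X.w i z.1 * P.a (X.arg i z)) • X.e i z.1 + P.b (X.arg i z) • X.e' i z.1
def W (i : ι) (z : P3) : R4 := X.a i z.1 • X.W0 P i z
def nq (i : ι) (z : P3) : R4 :=
  nPer (X.e i z.1) (X.e' i z.1) (X.cc P i z) (X.w i z.1 * X.sh P i z)
def p3 (i : ι) (z : P3) : ℝ := ⟪X.nq P i z, X.W0 P i z⟫_ℝ
def p4 (i : ι) (z : P3) : ℝ := (X.Θ i)⁻¹ * ⟪X.nq P i z, pu (X.W0 P i) z⟫_ℝ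

/-- tame on the cylinder at scale `Θ` -/
abbrev H {F : Type} [NormedAddCommGroup F] [NormedSpace ℝ F] (n : ℕ) (f : ι → P3 → F) : Prop :=
  HT (fam3 X.U X.Θ) X.lam n f
/-- tame on the plane at scale `lam` -/
abbrev H2 {F : Type} [NormedAddCommGroup F] [NormedSpace ℝ F] (n : ℕ) (f : ι → P2 → F) : Prop :=
  HT (fam2 X.U X.lam) X.lam n f

theorem lam_pos (i : ι) : 0 < X.lam i := zero_lt_one.trans_le (X.hlam i)
theorem Θ_pos (i : ι) : 0 < X.Θ i := pow_pos (X.lam_pos i) _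
theorem one_le_Θ (i : ι) : 1 ≤ X.Θ i := one_le_pow₀ (X.hlam i)
theorem lam_le_Θ (i : ι) : X.lam i ≤ X.Θ i := le_self_pow₀ (X.hlam i) (by norm_num)
theorem open3 (i : ι) : IsOpen ((fam3 X.U X.Θ).S i) := (X.hU i).prod isOpen_univ

variable {F : Type} [NormedAddCommGroup F] [NormedSpace ℝ F] {n : ℕ}

variable {X} in
theorem H2.lift {f : ι → P2 → F} (h : X.H2 n f) : X.H n fun i z => f i z.1 :=
  T.lift (σ := fun i _ => X.lam i ^ n) (T.fam2_mono h fun i => ⟨X.lam_pos i, X.lam_le_Θ i⟩)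

variable {X} in
theorem H2.du {f : ι → P2 → F} (h : X.H2 n f) : X.H2 (n + 1) fun i => du (f i) := by
  simpa only [HT, pow_succ'] using T.du h X.lam_pos

variable {X} in
theorem H.pu {f : ι → P3 → F} (h : X.H n f) : X.H (n + 10) fun i => pu (f i) := by
  have := T.pu h X.Θ_pos
  simp only [Θ, ← pow_add, add_comm 10 n] at this
  exact this

variable {X} in
theorem H.pv {f : ι → P3 → F} (h : X.H n f) : X.H (n + 10) fun i => pv (f i) := by
  have := T.pv h X.Θ_pos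
  simp only [Θ, ← pow_add, add_comm 10 n] at this
  exact this

variable {X} in
theorem H.pt {f : ι → P3 → F} (h : X.H n f) : X.H n fun i => pt (f i) := T.pt h

variable {X} in
theorem H.sm {f : ι → P3 → F} (h : X.H n f) {i : ι} {x : P2} (hx : x ∈ X.U i) (t : ℝ) :
    ContDiffAt ℝ ∞ (f i) (x, t) := h.smooth i ⟨hx, trivial⟩

variable {X} in
theorem H.cont {f : ι → P3 → F} (h : X.H n f) {i : ι} {x : P2} (hx : x ∈ X.U i) :
    Continuous fun t => f i (x, t) :=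
  continuous_iff_continuousAt.2 fun t =>
    ContinuousAt.comp (f := fun t : ℝ => (x, t)) (h.sm hx t).continuousAt (by fun_prop)

variable {X} in
theorem H2.sm {f : ι → P2 → F} (h : X.H2 n f) {i : ι} {x : P2} (hx : x ∈ X.U i) :
    ContDiffAt ℝ ∞ (f i) x := h.smooth i hx

section Pointwise
variable {X} {i : ι} {x : P2}

theorem a_pos (hx : x ∈ X.U i) : 0 < X.a i x := X.ha.pos i hx
theorem r_pos (hx : x ∈ X.U i) : 0 < X.r i x := X.hr.pos i hx
theorem a_le_r (hx : x ∈ X.U i) : X.a i x ≤ X.r i x := by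
  refine (pow_le_pow_iff_left₀ (a_pos hx).le (r_pos hx).le two_ne_zero).1 ?_
  rw [X.hr2 i x hx]
  nlinarith [sq_nonneg ⟪dv (X.f i) x, X.e i x⟫_ℝ, sq_nonneg ⟪dv (X.f i) x, X.e' i x⟫_ℝ]
theorem w_pos (hx : x ∈ X.U i) : 0 < X.w i x := div_pos (a_pos hx) (r_pos hx)
theorem w_le (hx : x ∈ X.U i) : X.w i x ≤ 1 := (div_le_one (r_pos hx)).2 (a_le_r hx)
theorem r_mul_w (hx : x ∈ X.U i) : X.r i x * X.w i x = X.a i x :=
  mul_div_cancel₀ _ (r_pos hx).ne'
theorem q_mem (hx : x ∈ X.U i) : X.q i x ∈ K := X.hK i x hx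
theorem inv_r_le (hx : x ∈ X.U i) : (X.r i x)⁻¹ ≤ X.lam i :=
  inv_le_of_inv_le₀ (X.lam_pos i) (X.hrl i x hx).1
end Pointwise

theorem LT_w : LT (fam2 X.U X.lam) X.w := X.ha.div X.hr
theorem H2_w : X.H2 0 X.w := HT.of_LT X.LT_w fun _ _ hx => (w_le hx).trans_eq (pow_zero _).symm
theorem H2_r : X.H2 1 X.r := HT.of_LT X.hr fun i x hx => by
  rw [pow_one]
  exact (X.hrl i x hx).2
theorem H2_a : X.H2 1 X.a := HT.of_LT X.ha fun i x hx => by
  rw [pow_one]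
  exact (a_le_r hx).trans (X.hrl i x hx).2
theorem H2_ri : X.H2 1 fun i x => (X.r i x)⁻¹ := HT.of_LT X.hr.inv fun i x hx => by
  rw [pow_one]
  exact inv_r_le hx
theorem H2_e : X.H2 0 X.e := HT.zero_iff.2 X.he
theorem H2_e' : X.H2 0 X.e' := HT.zero_iff.2 X.he'
theorem H2_q : X.H2 0 X.q :=
  HT.zero_iff.2 ((HT.zero_iff.1 X.H2_w).prod (X.hγ1.prod X.hγ2))
theorem H2_A : X.H2 1 fun i => du (X.f i) := HT.one_iff.2 X.hA
theorem H2_B : X.H2 1 fun i => dv (X.f i) := HT.one_iff.2 X.hB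
theorem H2_κ : X.H2 1 fun i x => du (X.a i) x / X.a i x :=
  ((T.du X.ha.2 X.lam_pos).div_LT X.ha).mono 1 zero_le_one fun i x hx => by
    rw [mul_div_cancel_right₀ _ (a_pos hx).ne', one_mul, pow_one]

theorem hasFDerivAt_arg {i : ι} {z : P3} (hz : z.1 ∈ X.U i) :
    HasFDerivAt (X.arg i) (((fderiv ℝ (X.q i) z.1).comp (ContinuousLinearMap.fst ℝ P2 ℝ)).prod
      ((X.Θ i • (ContinuousLinearMap.fst ℝ ℝ ℝ).comp (ContinuousLinearMap.fst ℝ P2 ℝ)).prod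
        (ContinuousLinearMap.snd ℝ P2 ℝ))) z :=
  (hasFDerivAt_lift (dA (X.H2_q.sm hz))).prodMk
    (((HasFDerivAt.comp z hasFDerivAt_fst hasFDerivAt_fst).const_mul (X.Θ i)).prodMk
      hasFDerivAt_snd)

theorem fderiv_arg {i : ι} {z : P3} (hz : z.1 ∈ X.U i) (v : P3) :
    fderiv ℝ (X.arg i) z v = (fderiv ℝ (X.q i) z.1 v.1, X.Θ i * v.1.1, v.2) := by
  rw [(X.hasFDerivAt_arg hz).fderiv]
  rfl

theorem sm_arg {i : ι} {z : P3} (hz : z.1 ∈ X.U i) : ContDiffAt ℝ ∞ (X.arg i) z :=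
  (X.H2_q.lift.smooth i (p := z) ⟨hz, trivial⟩).prodMk (by fun_prop)

theorem H_comp {Φ : Q3 × ℝ × ℝ → F} (h : BdOn Φ (K ×ˢ univ)) :
    X.H 0 fun i z => Φ (X.arg i z) := by
  refine HT.zero_iff.2 (T.comp h (fun i z hz => ⟨q_mem hz.1, trivial⟩)
    (fun i z hz => X.sm_arg hz.1) fun d => ?_)
  have h1 := (HT.zero_iff.1 X.H2_q.lift).deriv d
  have h2 : T (fam3 X.U X.Θ) (fun _ _ => 1) fun i _ =>
      ((X.Θ i * ((fam3 X.U X.Θ).v i d).1.1, ((fam3 X.U X.Θ).v i d).2) : ℝ × ℝ) := by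
    refine T.const _ fun i _ _ => ?_
    have := (X.Θ_pos i).ne'
    fin_cases d <;> simp [fam3, this]
  refine (h1.prod h2).congr_open X.open3 fun i z hz => ?_
  rw [X.fderiv_arg hz.1, (hasFDerivAt_lift (dA (X.H2_q.sm hz.1))).fderiv]
  rfl

variable (hK : IsCompact K)
include hK

theorem _root_.Vale.Agent.P205.Pat.bdΓ : BdOn P.Γ (K ×ˢ univ) :=
  BdOn.periodic P.hO hK P.hK P.smΓ (fun y hy θ t => (P.perθ y hy θ t).1)
    fun y hy θ t => (P.pert y hy θ t).1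
theorem _root_.Vale.Agent.P205.Pat.bda : BdOn P.a (K ×ˢ univ) :=
  BdOn.periodic P.hO hK P.hK P.sma (fun y hy θ t => (P.perθ y hy θ t).2.1)
    fun y hy θ t => (P.pert y hy θ t).2.1
theorem _root_.Vale.Agent.P205.Pat.bdb : BdOn P.b (K ×ˢ univ) :=
  BdOn.periodic P.hO hK P.hK P.smb (fun y hy θ t => (P.perθ y hy θ t).2.2)
    fun y hy θ t => (P.pert y hy θ t).2.2

theorem H_Γ : X.H 0 fun i z => P.Γ (X.arg i z) := X.H_comp (P.bdΓ hK)
theorem H_pa : X.H 0 fun i z => P.a (X.arg i z) := X.H_comp (P.bda hK)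
theorem H_pb : X.H 0 fun i z => P.b (X.arg i z) := X.H_comp (P.bdb hK)
theorem H_ψ : X.H 0 (X.ψ P) := X.H2_w.lift.mul (X.H_Γ P hK)
theorem H_cc : X.H 0 (X.cc P) :=
  HT.zero_iff.2 (T.comp' bdOn_cos (fun _ _ _ => trivial) (HT.zero_iff.1 (X.H_ψ P hK)))

theorem H_two {Φ : ℝ × ℝ → ℝ} (h : ContDiff ℝ ∞ Φ) :
    X.H 0 fun i z => Φ (X.w i z.1, P.Γ (X.arg i z)) :=
  HT.zero_iff.2 (T.comp' (K := Icc 0 1 ×ˢ Icc (-L) L)
    (BdOn.of_compact (isCompact_Icc.prod isCompact_Icc) fun _ _ => h.contDiffAt)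
    (fun _ _ hz => ⟨⟨(w_pos hz.1).le, w_le hz.1⟩, abs_le.1 (P.bd _ (P.hK (q_mem hz.1)) _ _)⟩)
    ((HT.zero_iff.1 X.H2_w.lift).prod (HT.zero_iff.1 (X.H_Γ P hK))))

theorem H_sh : X.H 0 (X.sh P) := X.H_two P hK contDiff_sn
theorem H_cn : X.H 0 fun i z => cn (X.w i z.1) (P.Γ (X.arg i z)) := X.H_two P hK contDiff_cn
theorem H_W0 : X.H 0 (X.W0 P) :=
  ((X.H2_w.lift.mul (X.H_pa P hK)).smul X.H2_e.lift).add ((X.H_pb P hK).smul X.H2_e'.lift)
theorem H_W : X.H 1 (X.W P) := X.H2_a.lift.smul (X.H_W0 P hK)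
theorem H_nq : X.H 0 (X.nq P) :=
  ((X.H2_w.lift.mul (X.H_sh P hK)).neg.smul X.H2_e.lift).add ((X.H_cc P hK).smul X.H2_e'.lift)
theorem H_p3 : X.H 0 (X.p3 P) := (X.H_nq P hK).inner (X.H_W0 P hK)
theorem H_p4 : X.H 0 (X.p4 P) :=
  (T.fam_smul ((X.H_nq P hK).inner (X.H_W0 P hK).pu) fun i => (X.Θ i)⁻¹).mono 1 zero_le_one
    fun i _ _ => by
      rw [abs_of_pos (inv_pos.2 (X.Θ_pos i)), pow_zero, one_mul]
      exact (inv_mul_cancel₀ (X.Θ_pos i).ne').le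

end Core
end Vale.Agent.P205
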