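import Vale.Agent.P205.CoreAuxB

/-! P205, core step: identities for the leading term and lower bounds of Gram determinants. -/

open scoped ContDiff InnerProductSpace Topology
open Set Filter Real

noncomputable section
namespace Vale.Agent.P205
open CoreA

theorem inner_frame {e e' : R4} (h : ‖e‖ = 1 ∧ ‖e'‖ = 1 ∧ ⟪e, e'⟫_ℝ = 0) (x y x' y' : ℝ) :
    ⟪x • e + y • e', x' • e + y' • e'⟫_ℝ = x * x' + y * y' := by
  have h3 : ⟪e', e⟫_ℝ = 0 := by rw [real_inner_comm, h.2.2]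
  simp only [inner_add_left, inner_add_right, real_inner_smul_left, real_inner_smul_right,
    real_inner_self_eq_norm_sq, h.1, h.2.1, h.2.2, h3]
  ring

theorem inner_add_frame {e e' : R4} (h : ‖e‖ = 1 ∧ ‖e'‖ = 1 ∧ ⟪e, e'⟫_ℝ = 0) (B : R4)
    (x y x' y' : ℝ) : ⟪B + (x • e + y • e'), x' • e + y' • e'⟫_ℝ =
      x' * (⟪B, e⟫_ℝ + x) + y' * (⟪B, e'⟫_ℝ + y) := by
  rw [inner_add_left, inner_frame h, inner_add_right, real_inner_smul_right, real_inner_smul_right]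
  ring

theorem norm_add_frame {e e' : R4} (h : ‖e‖ = 1 ∧ ‖e'‖ = 1 ∧ ⟪e, e'⟫_ℝ = 0) (B : R4)
    (x y : ℝ) : ‖B + (x • e + y • e')‖ ^ 2 =
      ‖B‖ ^ 2 + 2 * (x * ⟪B, e⟫_ℝ + y * ⟪B, e'⟫_ℝ) + (x ^ 2 + y ^ 2) := by
  rw [norm_add_sq_real, ← real_inner_self_eq_norm_sq (x • e + y • e'), inner_frame h,
    inner_add_right, real_inner_smul_right, real_inner_smul_right]
  ring

namespace Pat
variable {L : ℝ} {K : Set Q3} (P : Pat L K)

def g1 (y : Q3 × ℝ × ℝ) : ℝ := cos (y.1.1 * P.Γ y)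
def g2 (y : Q3 × ℝ × ℝ) : ℝ := sn y.1.1 (P.Γ y)
def g3 (y : Q3 × ℝ × ℝ) : ℝ := P.g1 y * P.b y - y.1.1 ^ 2 * P.g2 y * P.a y
def g4 (y : Q3 × ℝ × ℝ) : ℝ :=
  P.g1 y * fderiv ℝ P.b y (0, 1, 0) - y.1.1 ^ 2 * P.g2 y * fderiv ℝ P.a y (0, 1, 0)

theorem sub : K ×ˢ (univ : Set (ℝ × ℝ)) ⊆ P.O ×ˢ univ := prod_mono P.hK le_rfl
theorem opn : IsOpen (P.O ×ˢ (univ : Set (ℝ × ℝ))) := P.hO.prod isOpen_univ

theorem cont1 : ContinuousOn P.g1 (K ×ˢ univ) :=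
  continuous_cos.comp_continuousOn
    ((by fun_prop : Continuous fun y : Q3 × ℝ × ℝ => y.1.1).continuousOn.mul
      (P.smΓ.continuousOn.mono P.sub))

theorem cont2 : ContinuousOn P.g2 (K ×ˢ univ) :=
  contDiff_sn.continuous.comp_continuousOn
    ((by fun_prop : Continuous fun y : Q3 × ℝ × ℝ => y.1.1).continuousOn.prodMk
      (P.smΓ.continuousOn.mono P.sub))

theorem cont3 : ContinuousOn P.g3 (K ×ˢ univ) :=
  (P.cont1.mul (P.smb.continuousOn.mono P.sub)).sub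
    (((by fun_prop : Continuous fun y : Q3 × ℝ × ℝ => y.1.1 ^ 2).continuousOn.mul P.cont2).mul
      (P.sma.continuousOn.mono P.sub))

theorem cont4 : ContinuousOn P.g4 (K ×ˢ univ) :=
  (P.cont1.mul (((P.smb.continuousOn_fderiv_of_isOpen P.opn (by simp)).mono P.sub).clm_apply
    continuousOn_const)).sub
    (((by fun_prop : Continuous fun y : Q3 × ℝ × ℝ => y.1.1 ^ 2).continuousOn.mul P.cont2).mul
      (((P.sma.continuousOn_fderiv_of_isOpen P.opn (by simp)).mono P.sub).clm_apply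
        continuousOn_const))

theorem per_all {c : ℝ × ℝ} (h : ∀ y ∈ P.O ×ˢ (univ : Set (ℝ × ℝ)),
      P.Γ (y + (0, c)) = P.Γ y ∧ P.a (y + (0, c)) = P.a y ∧ P.b (y + (0, c)) = P.b y)
    {y : Q3 × ℝ × ℝ} (hy : y.1 ∈ K) :
    (P.g1 (y + (0, c)) = P.g1 y ∧ P.g2 (y + (0, c)) = P.g2 y) ∧
      P.g3 (y + (0, c)) = P.g3 y ∧ P.g4 (y + (0, c)) = P.g4 y := by
  have hy' : y ∈ P.O ×ˢ (univ : Set (ℝ × ℝ)) := ⟨P.hK hy, trivial⟩
  have e : (y + (0, c)).1.1 = y.1.1 := by simp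
  have h1 : P.g1 (y + (0, c)) = P.g1 y := by rw [g1, g1, e, (h y hy').1]
  have h2 : P.g2 (y + (0, c)) = P.g2 y := by rw [g2, g2, e, (h y hy').1]
  refine ⟨⟨h1, h2⟩, ?_, ?_⟩
  · rw [g3, g3, e, h1, h2, (h y hy').2.1, (h y hy').2.2]
  · rw [g4, g4, e, h1, h2, fderiv_per P.opn (fun y hy => (h y hy).2.1) hy',
      fderiv_per P.opn (fun y hy => (h y hy).2.2) hy']

theorem per_θ {y : Q3} (hy : y ∈ K) (θ t : ℝ) :
    (P.g1 (y, θ + 2 * π, t) = P.g1 (y, θ, t) ∧ P.g2 (y, θ + 2 * π, t) = P.g2 (y, θ, t)) ∧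
      P.g3 (y, θ + 2 * π, t) = P.g3 (y, θ, t) ∧ P.g4 (y, θ + 2 * π, t) = P.g4 (y, θ, t) := by
  have h := P.per_all (c := (2 * π, 0)) (y := (y, θ, t)) (by
    rintro ⟨y, θ, t⟩ hy
    simpa only [Prod.mk_add_mk, add_zero] using P.perθ y hy.1 θ t) hy
  simpa only [Prod.mk_add_mk, add_zero] using h

theorem per_t {y : Q3} (hy : y ∈ K) (θ t : ℝ) :
    (P.g1 (y, θ, t + 2 * π) = P.g1 (y, θ, t) ∧ P.g2 (y, θ, t + 2 * π) = P.g2 (y, θ, t)) ∧
      P.g3 (y, θ, t + 2 * π) = P.g3 (y, θ, t) ∧ P.g4 (y, θ, t + 2 * π) = P.g4 (y, θ, t) := by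
  have h := P.per_all (c := (0, 2 * π)) (y := (y, θ, t)) (by
    rintro ⟨y, θ, t⟩ hy
    simpa only [Prod.mk_add_mk, add_zero] using P.pert y hy.1 θ t) hy
  simpa only [Prod.mk_add_mk, add_zero] using h

theorem dΓ {y : Q3 × ℝ × ℝ} (hy : y.1 ∈ K) : DifferentiableAt ℝ P.Γ y :=
  dA (P.smΓ.contDiffAt (P.opn.mem_nhds ⟨P.hK hy, trivial⟩))
theorem da' {y : Q3 × ℝ × ℝ} (hy : y.1 ∈ K) : DifferentiableAt ℝ P.a y :=
  dA (P.sma.contDiffAt (P.opn.mem_nhds ⟨P.hK hy, trivial⟩))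
theorem db' {y : Q3 × ℝ × ℝ} (hy : y.1 ∈ K) : DifferentiableAt ℝ P.b y :=
  dA (P.smb.contDiffAt (P.opn.mem_nhds ⟨P.hK hy, trivial⟩))
end Pat

namespace Core
variable {ι : Type} {L : ℝ} {K : Set Q3} (X : Core ι K) (P : Pat L K) {i : ι} {x : P2}

section Sym
variable {X}

theorem per_ψ (i : ι) : Per (X.U i) (X.ψ P i) := fun _ hx t =>
  congrArg (_ * ·) (P.pert _ (P.hK (q_mem hx)) _ t).1
theorem per_cc (i : ι) : Per (X.U i) (X.cc P i) := fun x hx t =>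
  congrArg cos (per_ψ P i x hx t)
theorem per_sh (i : ι) : Per (X.U i) (X.sh P i) := fun _ hx t =>
  congrArg (sn _) (P.pert _ (P.hK (q_mem hx)) _ t).1
theorem per_W0 (i : ι) : Per (X.U i) (X.W0 P i) := fun _ hx t => by
  simp only [W0, arg, (P.pert _ (P.hK (q_mem hx)) _ t).2.1, (P.pert _ (P.hK (q_mem hx)) _ t).2.2]
theorem per_W (i : ι) : Per (X.U i) (X.W P i) := fun x hx t =>
  congrArg (_ • ·) (per_W0 P i x hx t)
theorem per_nq (i : ι) : Per (X.U i) (X.nq P i) := fun x hx t => by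
  simp only [nq, per_cc P i x hx t, per_sh P i x hx t]
theorem per_p3 (i : ι) : Per (X.U i) (X.p3 P i) := fun x hx t => by
  simp only [p3, per_nq P i x hx t, per_W0 P i x hx t]
theorem per_p4 (i : ι) : Per (X.U i) (X.p4 P i) := fun x hx t => by
  simp only [p4, per_nq P i x hx t, (per_W0 P i).pu (X.hU i) x hx t]

theorem ev_cc (hx : x ∈ X.U i) (t : ℝ) : X.cc P i (x, -t) = X.cc P i (x, t) :=
  congrArg (fun s => cos (_ * s)) (P.par _ (P.hK (q_mem hx)) _ t).1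
theorem ev_sh (hx : x ∈ X.U i) (t : ℝ) : X.sh P i (x, -t) = X.sh P i (x, t) :=
  congrArg (sn _) (P.par _ (P.hK (q_mem hx)) _ t).1
theorem ev_nq (hx : x ∈ X.U i) (t : ℝ) : X.nq P i (x, -t) = X.nq P i (x, t) := by
  simp only [nq, ev_cc P hx t, ev_sh P hx t]
theorem od_W0 (hx : x ∈ X.U i) (t : ℝ) : X.W0 P i (x, -t) = (-1 : ℝ) • X.W0 P i (x, t) := by
  simp only [W0, arg, (P.par _ (P.hK (q_mem hx)) _ t).2.1, (P.par _ (P.hK (q_mem hx)) _ t).2.2]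
  module
theorem od_W (hx : x ∈ X.U i) (t : ℝ) : X.W P i (x, -t) = (-1 : ℝ) • X.W P i (x, t) := by
  simp only [W, od_W0 P hx t]
  module
theorem od_p3 (hx : x ∈ X.U i) (t : ℝ) : X.p3 P i (x, -t) = -1 * X.p3 P i (x, t) := by
  simp only [p3, od_W0 P hx t, ev_nq P hx t, real_inner_smul_right]
theorem od_p4 (hK : IsCompact K) (hx : x ∈ X.U i) (t : ℝ) :
    X.p4 P i (x, -t) = -1 * X.p4 P i (x, t) := by
  simp only [p4, ev_nq P hx t, real_inner_smul_right, pu_refl (X.hU i) (-1)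
    (fun x hx t => od_W0 P hx t) (fun x hx t => dA ((X.H_W0 P hK).sm hx t)) hx t]
  ring

theorem w_mul_sh (i : ι) (z : P3) : X.w i z.1 * X.sh P i z = sin (X.ψ P i z) := mul_sn _ _

theorem pt_W (hK : IsCompact K) (hx : x ∈ X.U i) (t : ℝ) : pt (X.W P i) (x, t) =
    (X.r i x * cos (X.ψ P i (x, t)) - ⟪dv (X.f i) x, X.e i x⟫_ℝ) • X.e i x +
      (X.r i x * sin (X.ψ P i (x, t)) - ⟪dv (X.f i) x, X.e' i x⟫_ℝ) • X.e' i x := by
  have hq := P.hK (q_mem hx)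
  have h := ((((P.da _ hq (X.Θ i * x.1) t).const_mul (X.w i x)).smul_const (X.e i x)).add
    ((P.db _ hq (X.Θ i * x.1) t).smul_const (X.e' i x))).const_smul (X.a i x)
  rw [pt_eq_of_hasDerivAt (dA ((X.H_W P hK).sm hx t)) h, (X.hγ i x hx).1, (X.hγ i x hx).2,
    ← w_mul_sh P i (x, t), smul_add, smul_smul, smul_smul]
  have h1 : cos (X.ψ P i (x, t)) = 1 - X.w i x ^ 2 * cn (X.w i x) (P.Γ (X.arg i (x, t))) := by
    rw [sq_mul_cn, sub_sub_cancel]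
    rfl
  have h2 := r_mul_w hx
  refine congrArg₂ (· + ·) (congrArg (· • X.e i x) ?_) (congrArg (· • X.e' i x) ?_)
  · rw [h1, ← h2]
    change _ * (_ * (X.γ2 i x - cn (X.w i x) (P.Γ (X.arg i (x, t))))) =
      _ - _ * (1 - (X.r i x * X.w i x / X.r i x) ^ 2 * _)
    rw [mul_div_cancel_left₀ _ (r_pos hx).ne']
    ring
  · rw [← h2]
    change _ * (X.sh P i (x, t) - X.γ1 i x) = _
    ring

theorem V_eq (hK : IsCompact K) (hx : x ∈ X.U i) (t : ℝ) : dv (X.f i) x + pt (X.W P i) (x, t) =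
    Vv (X.f i) (X.e i) (X.e' i) (X.r i) x (X.ψ P i (x, t)) := by
  rw [pt_W P hK hx, Vv, Bp, nPar]
  module

theorem pu_W (hK : IsCompact K) (hx : x ∈ X.U i) (t : ℝ) : pu (X.W P i) (x, t) =
    X.a i x • pu (X.W0 P i) (x, t) + du (X.a i) x • X.W0 P i (x, t) := by
  have h := (hasFDerivAt_lift (z := (x, t)) (dA (X.H2_a.sm hx))).fun_smul
    (dA ((X.H_W0 P hK).sm hx t)).hasFDerivAt
  exact DFunLike.congr_fun h.fderiv ((1, 0), 0)

theorem fderiv_comp_arg {Φ : Q3 × ℝ × ℝ → ℝ} {z : P3} (hz : z.1 ∈ X.U i)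
    (h : DifferentiableAt ℝ Φ (X.arg i z)) :
    HasFDerivAt (fun z => Φ (X.arg i z)) ((fderiv ℝ Φ (X.arg i z)).comp (fderiv ℝ (X.arg i) z)) z :=
  HasFDerivAt.comp z h.hasFDerivAt (dA (X.sm_arg hz)).hasFDerivAt
end Sym

/-- the slow part of the `u`-derivative of `W0` -/
def Sv (i : ι) (z : P3) : R4 :=
  ((du (X.w i) z.1 * P.a (X.arg i z) +
      X.w i z.1 * fderiv ℝ P.a (X.arg i z) (du (X.q i) z.1, 0)) • X.e i z.1 +
    (X.w i z.1 * P.a (X.arg i z)) • du (X.e i) z.1) +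
  (fderiv ℝ P.b (X.arg i z) (du (X.q i) z.1, 0) • X.e' i z.1 +
    P.b (X.arg i z) • du (X.e' i) z.1)

theorem H_Sv (hK : IsCompact K) : X.H 1 (X.Sv P) := by
  have h1 : X.H 1 fun i z => ((du (X.q i) z.1, 0) : Q3 × ℝ × ℝ) :=
    T.clm X.H2_q.du.lift (ContinuousLinearMap.inl ℝ Q3 (ℝ × ℝ))
  exact ((((X.H2_w.du.lift.mul (X.H_pa P hK)).add (X.H2_w.lift.mul
    ((X.H_comp (P.bda hK).fderiv).app h1))).smul X.H2_e.lift).add
    ((X.H2_w.lift.mul (X.H_pa P hK)).smul X.H2_e.du.lift)).add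
    ((((X.H_comp (P.bdb hK).fderiv).app h1).smul X.H2_e'.lift).add
      ((X.H_pb P hK).smul X.H2_e'.du.lift))

variable {X} in
theorem pu_W0 {z : P3} (hz : z.1 ∈ X.U i) : pu (X.W0 P i) z = X.Sv P i z +
    X.Θ i • ((X.w i z.1 * fderiv ℝ P.a (X.arg i z) (0, 1, 0)) • X.e i z.1 +
      fderiv ℝ P.b (X.arg i z) (0, 1, 0) • X.e' i z.1) := by
  have h := (((hasFDerivAt_lift (dA (X.H2_w.sm hz))).fun_mul
    (fderiv_comp_arg hz (P.da' (q_mem hz)))).fun_smul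
    (hasFDerivAt_lift (dA (X.H2_e.sm hz)))).fun_add
    ((fderiv_comp_arg hz (P.db' (q_mem hz))).fun_smul (hasFDerivAt_lift (dA (X.H2_e'.sm hz))))
  have h1 : fderiv ℝ (X.arg i) z ((1, 0), 0) = (du (X.q i) z.1, 0) + X.Θ i • (0, 1, 0) := by
    rw [X.fderiv_arg hz]
    simp [du]
  refine (DFunLike.congr_fun h.fderiv ((1, 0), 0)).trans ?_
  simp only [add_apply, smul_apply,
    ContinuousLinearMap.smulRight_apply, ContinuousLinearMap.comp_apply,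
    ContinuousLinearMap.coe_fst', h1, map_add, map_smul, Sv, du, smul_eq_mul]
  module

variable {X} in
theorem p3_eq (hx : x ∈ X.U i) (t : ℝ) : X.p3 P i (x, t) = P.g3 (X.q i x, X.Θ i * x.1, t) := by
  rw [p3, nq, nPer, W0, inner_frame (X.unit i x hx)]
  change -(X.w i x * X.sh P i (x, t)) * (X.w i x * P.a (X.arg i (x, t))) +
    X.cc P i (x, t) * P.b (X.arg i (x, t)) = X.cc P i (x, t) * P.b (X.arg i (x, t)) -
      X.w i x ^ 2 * X.sh P i (x, t) * P.a (X.arg i (x, t))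
  ring

variable {X} in
theorem p4_eq (hx : x ∈ X.U i) (t : ℝ) : X.p4 P i (x, t) - P.g4 (X.q i x, X.Θ i * x.1, t) =
    (X.Θ i)⁻¹ * ⟪X.nq P i (x, t), X.Sv P i (x, t)⟫_ℝ := by
  rw [p4, pu_W0 P (z := (x, t)) hx, inner_add_right, real_inner_smul_right, mul_add,
    inv_mul_cancel_left₀ (X.Θ_pos i).ne', add_sub_assoc, add_eq_left, nq, nPer,
    inner_frame (X.unit i x hx)]
  change -(X.w i x * X.sh P i (x, t)) * (X.w i x * fderiv ℝ P.a (X.arg i (x, t)) (0, 1, 0)) +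
    X.cc P i (x, t) * fderiv ℝ P.b (X.arg i (x, t)) (0, 1, 0) -
      (X.cc P i (x, t) * fderiv ℝ P.b (X.arg i (x, t)) (0, 1, 0) -
      X.w i x ^ 2 * X.sh P i (x, t) * fderiv ℝ P.a (X.arg i (x, t)) (0, 1, 0)) = 0
  ring

theorem gram12 (hK : IsCompact K) : ∃ c : ℝ, 0 < c ∧
    ∀ i, ∀ x ∈ X.U i, ∀ t, c ≤ gD (X.cc P i) (X.sh P i) (x, t) := by
  obtain ⟨η, c, hη, hc, h⟩ := gram_lower hK P.cont1 P.cont2 (fun y hy θ t => (P.per_θ hy θ t).1)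
    (fun y hy θ t => (P.per_t hy θ t).1) fun y hy θ a b h => P.ind1 y (P.hK hy) θ a b h
  refine ⟨c, hc, fun i x hx => h _ (q_mem hx) (X.Θ i * x.1) _ _ x ((X.H_cc P hK).cont hx)
    ((X.H_sh P hK).cont hx) (fun t => rfl) fun t => ?_⟩
  exact (abs_eq_zero.2 (sub_self _)).trans_le hη.le

theorem gram34 (hK : IsCompact K) : ∃ lam0 c : ℝ, 0 < c ∧
    ∀ i, lam0 ≤ X.lam i → ∀ x ∈ X.U i, ∀ t, c ≤ gD (X.p3 P i) (X.p4 P i) (x, t) := by
  obtain ⟨η, c, hη, hc, h⟩ := gram_lower hK P.cont3 P.cont4 (fun y hy θ t => (P.per_θ hy θ t).2)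
    (fun y hy θ t => (P.per_t hy θ t).2) fun y hy θ a b h => P.ind2 y (P.hK hy) θ a b h
  obtain ⟨C, hC, hb⟩ := T.bound ((X.H_nq P hK).inner (X.H_Sv P hK))
  refine ⟨C / η, c, hc, fun i hi x hx => h _ (q_mem hx) (X.Θ i * x.1) _ _ x
    ((X.H_p3 P hK).cont hx) ((X.H_p4 P hK).cont hx) (p3_eq P hx) fun t => ?_⟩
  have h0 := X.Θ_pos i
  have h1 := X.lam_pos i
  rw [p4_eq P hx, abs_mul, abs_of_pos (inv_pos.2 h0), ← div_eq_inv_mul, div_le_iff₀ h0]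
  refine (hb i (x, t) ⟨hx, trivial⟩).trans ?_
  rw [div_le_iff₀ hη] at hi
  calc C * X.lam i ^ (0 + 1) ≤ X.lam i * η * X.lam i ^ (0 + 1) := by gcongr
    _ = η * X.lam i ^ 2 := by ring
    _ ≤ η * X.Θ i := mul_le_mul_of_nonneg_left (pow_le_pow_right₀ (X.hlam i) (by norm_num)) hη.le

end Core
end Vale.Agent.P205
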