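import Vale.Agent.P205.CoreAuxC

/-! P205, core step: the data of the asymptotic expansion. -/

open scoped ContDiff InnerProductSpace Topology
open Set Filter Real

noncomputable section
namespace Vale.Agent.P205
open CoreA

namespace Core
variable {ι : Type} {L : ℝ} {K : Set Q3} (X : Core ι K) (P : Pat L K) {i : ι} {x : P2}

def α (i : ι) (x : P2) : R4 := (G2 (X.f i) x)⁻¹ •
  (⟪du (du (X.f i)) x, du (du (X.f i)) x⟫_ℝ • du (X.f i) x -
    ⟪du (X.f i) x, du (du (X.f i)) x⟫_ℝ • du (du (X.f i)) x)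
def β (i : ι) (x : P2) : R4 := (G2 (X.f i) x)⁻¹ •
  (⟪du (X.f i) x, du (X.f i) x⟫_ℝ • du (du (X.f i)) x -
    ⟪du (X.f i) x, du (du (X.f i)) x⟫_ℝ • du (X.f i) x)
def k4 (i : ι) (z : P3) : ℝ := (X.r i z.1)⁻¹ * ((X.Θ i)⁻¹ * dl (X.p4 P i) (X.p3 P i) z)
def k3 (i : ι) (z : P3) : ℝ := (X.r i z.1)⁻¹ * dl (X.p3 P i) (X.p4 P i) z -
  du (X.a i) z.1 / X.a i z.1 * X.k4 P i z
def kk : Fin 4 → ι → P3 → ℝ :=
  ![fun i => dl (X.cc P i) (X.sh P i), fun i => dl (X.sh P i) (X.cc P i), X.k3 P, X.k4 P]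
def t3 (i : ι) (z : P3) : ℝ := ⟪X.nq P i z, X.W P i z⟫_ℝ / X.w i z.1
def t4 (i : ι) (z : P3) : ℝ := ⟪X.nq P i z, pu (X.W P i) z⟫_ℝ / X.w i z.1

theorem G2_pos (hx : x ∈ X.U i) : 0 < G2 (X.f i) x :=
  (inv_pos.2 (X.lam_pos i)).trans_le (X.hG i x hx)

theorem H_Gi : X.H 1 fun i z => (G2 (X.f i) z.1)⁻¹ := by
  have h1 : X.H2 6 fun i => G2 (X.f i) := by
    have := ((X.H2_A.inner X.H2_A).mul (X.H2_A.du.inner X.H2_A.du)).sub
      ((X.H2_A.inner X.H2_A.du).mul (X.H2_A.inner X.H2_A.du))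
    simp only [← pow_two] at this
    exact this
  have h2 : LT (fam2 X.U X.Θ) fun i => G2 (X.f i) :=
    LT.of_lower h1 (fun i => X.lam i ^ 7) (fun i => one_le_pow₀ (X.hlam i))
      (fun i => ⟨X.lam_pos i, by
        rw [← pow_succ]
        exact pow_le_pow_right₀ (X.hlam i) (by norm_num)⟩)
      fun i x hx => ⟨X.G2_pos hx, by
        have h0 := X.lam_pos i
        refine le_trans (le_of_eq ?_) (mul_le_mul_of_nonneg_left (X.hG i x hx) (by positivity))
        field_simp⟩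
  refine HT.of_LT h2.inv.lift fun i z hz => ?_
  rw [pow_one]
  exact inv_le_of_inv_le₀ (X.lam_pos i) (X.hG i z.1 hz.1)

theorem H_α : X.H 6 fun i z => X.α i z.1 :=
  X.H_Gi.smul (H2.lift (((X.H2_A.du.inner X.H2_A.du).smul X.H2_A).sub
    ((X.H2_A.inner X.H2_A.du).smul X.H2_A.du)))

theorem H_β : X.H 5 fun i z => X.β i z.1 :=
  X.H_Gi.smul (H2.lift (((X.H2_A.inner X.H2_A).smul X.H2_A.du).sub
    ((X.H2_A.inner X.H2_A.du).smul X.H2_A)))

theorem dual_αβ (hx : x ∈ X.U i) :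
    ⟪X.α i x, du (X.f i) x⟫_ℝ = 1 ∧ ⟪X.α i x, du (du (X.f i)) x⟫_ℝ = 0 ∧
    ⟪X.β i x, du (X.f i) x⟫_ℝ = 0 ∧ ⟪X.β i x, du (du (X.f i)) x⟫_ℝ = 1 := by
  have h := (X.G2_pos hx).ne'
  simp only [α, β, real_inner_smul_left, inner_sub_left,
    real_inner_comm (du (X.f i) x) (du (du (X.f i)) x)]
  refine ⟨?_, by ring, by ring, ?_⟩ <;>
  · rw [inv_mul_eq_one₀ h, G2, gram2]
    ring

variable {F : Type} [NormedAddCommGroup F] [NormedSpace ℝ F] {n : ℕ} {ε : ι → ℝ}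

variable {X} in
theorem H.gr0 {f : ι → P3 → F} (h : X.H n f) (hn : n ≤ 10) : Gr X.U ε X.Θ X.w 0 1 0 f :=
  T.mono (h.mono X.hlam hn) 1 zero_le_one fun i z _ => by simp [Θ]

variable {X} in
theorem H.gr1 {f g : ι → P3 → F} (h : X.H n f) (hn : n ≤ 10)
    (hg : ∀ i, ∀ x ∈ X.U i, ∀ t, g i (x, t) = X.w i x • f i (x, t)) :
    Gr X.U ε X.Θ X.w 0 1 1 g := by
  have h1 : LT (fam3 X.U X.Θ) fun i z => X.w i z.1 :=
    (X.LT_w.fam2_mono fun i => ⟨X.lam_pos i, X.lam_le_Θ i⟩).lift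
  exact ((h1.2.smul (h.mono X.hlam hn)).mono 1 zero_le_one fun i z _ => by
    simp [Θ, mul_comm]).congr_open X.open3 fun i z hz => hg i z.1 hz.1 z.2

variable {X} in
theorem t3_eq (hx : x ∈ X.U i) (t : ℝ) : X.t3 P i (x, t) = X.r i x * X.p3 P i (x, t) := by
  rw [t3, W, real_inner_smul_right, ← r_mul_w hx, p3]
  have := (w_pos hx).ne'
  field_simp

variable {X} in
theorem t4_eq (hK : IsCompact K) (hx : x ∈ X.U i) (t : ℝ) : X.t4 P i (x, t) =
    du (X.a i) x / X.a i x * X.r i x * X.p3 P i (x, t) + X.r i x * X.Θ i * X.p4 P i (x, t) := by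
  rw [t4, pu_W P hK hx, inner_add_right, real_inner_smul_right, real_inner_smul_right, p3, p4,
    ← r_mul_w hx]
  have := (w_pos hx).ne'
  have := (r_pos hx).ne'
  have := (X.Θ_pos i).ne'
  field_simp
  ring

theorem tmean_eo {f g : P3 → ℝ} {s : ℝ} (hs : s ^ 2 = 1)
    (hf : ∀ t, f (x, t + 2 * π) = f (x, t)) (hg : ∀ t, g (x, t + 2 * π) = g (x, t))
    (ef : ∀ t, f (x, -t) = s * f (x, t)) (eg : ∀ t, g (x, -t) = -s * g (x, t)) (t : ℝ) :
    tmean (fun z => f z * g z) (x, t) = 0 :=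
  tmean_odd (fun t => by rw [hf, hg]) (fun t => by
    rw [ef, eg]
    linear_combination (-f (x, t) * g (x, t)) * hs) t

section Dual
variable {X} (hK : IsCompact K) {c : ℝ} (hc : 0 < c)
  (h12 : ∀ i, ∀ x ∈ X.U i, ∀ t, c ≤ gD (X.cc P i) (X.sh P i) (x, t))
  (h34 : ∀ i, ∀ x ∈ X.U i, ∀ t, c ≤ gD (X.p3 P i) (X.p4 P i) (x, t))
include hK hc

include h34 in
theorem H_k4 : X.H 1 (X.k4 P) := by
  have h1 := T_dl X.hU (HT.zero_iff.1 (X.H_p4 P hK)) (HT.zero_iff.1 (X.H_p3 P hK)) hc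
    fun i x hx t => gD_comm _ _ ▸ h34 i x hx t
  refine X.H2_ri.lift.mul (n := 0) (HT.zero_iff.2 ((h1.fam_smul fun i => (X.Θ i)⁻¹).mono 1
    zero_le_one fun i _ _ => ?_))
  rw [abs_of_pos (inv_pos.2 (X.Θ_pos i)), mul_one, mul_one]
  exact inv_le_one_of_one_le₀ (X.one_le_Θ i)

include h34 in
theorem H_k3 : X.H 2 (X.k3 P) :=
  ((X.H2_ri.lift.mul (HT.zero_iff.2 (T_dl X.hU (HT.zero_iff.1 (X.H_p3 P hK))
    (HT.zero_iff.1 (X.H_p4 P hK)) hc h34))).mono X.hlam (by norm_num)).sub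
    (X.H2_κ.lift.mul (H_k4 P hK hc h34))

include h12 h34 in
theorem H_kk (j : Fin 4) : X.H 2 (X.kk P j) := by
  fin_cases j
  · exact (HT.zero_iff.2 (T_dl X.hU (HT.zero_iff.1 (X.H_cc P hK))
      (HT.zero_iff.1 (X.H_sh P hK)) hc h12)).mono X.hlam (by norm_num)
  · exact (HT.zero_iff.2 (T_dl X.hU (HT.zero_iff.1 (X.H_sh P hK))
      (HT.zero_iff.1 (X.H_cc P hK)) hc fun i x hx t => gD_comm _ _ ▸ h12 i x hx t)).mono X.hlam
      (by norm_num)
  · exact H_k3 P hK hc h34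
  · exact (H_k4 P hK hc h34).mono X.hlam (by norm_num)

omit hK hc in
theorem per_dl {U : Set P2} {p q : P3 → ℝ} (hp : Per U p) (hq : Per U q) : Per U (dl p q) :=
  fun x hx t => (dl_of (c := 1) (by rw [one_mul, hp x hx]) (by rw [one_mul, hq x hx])).trans
    (one_mul _)

omit hK hc in
theorem per_k4 (i : ι) : Per (X.U i) (X.k4 P i) := fun x hx t => by
  simp only [k4, per_dl (per_p4 P i) (per_p3 P i) x hx t]

omit hK hc in
theorem per_k3 (i : ι) : Per (X.U i) (X.k3 P i) := fun x hx t => by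
  simp only [k3, per_dl (per_p3 P i) (per_p4 P i) x hx t, per_k4 P i x hx t]

omit hK hc in
theorem per_kk (j : Fin 4) (i : ι) : Per (X.U i) (X.kk P j i) := by
  fin_cases j
  exacts [per_dl (per_cc P i) (per_sh P i), per_dl (per_sh P i) (per_cc P i), per_k3 P i,
    per_k4 P i]

include h12 h34 in
theorem dual_kk (j l : Fin 4) (hx : x ∈ X.U i) (t : ℝ) :
    tmean (fun z => X.kk P j i z * ![X.cc P i z, X.sh P i z, X.t3 P i z, X.t4 P i z] l) (x, t) =
      if j = l then 1 else 0 := by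
  have c1 := (X.H_cc P hK).cont hx
  have c2 := (X.H_sh P hK).cont hx
  have c3 := (X.H_p3 P hK).cont hx
  have c4 := (X.H_p4 P hK).cont hx
  have e1 : ∀ t, X.cc P i (x, -t) = 1 * X.cc P i (x, t) := fun t => by rw [one_mul, ev_cc P hx]
  have e2 : ∀ t, X.sh P i (x, -t) = 1 * X.sh P i (x, t) := fun t => by rw [one_mul, ev_sh P hx]
  have e3 := od_p3 P hx
  have e4 := od_p4 P hK hx
  have f3 : ∀ t, X.t3 P i (x, -t) = -1 * X.t3 P i (x, t) := fun t => by
    rw [t3_eq P hx, t3_eq P hx, e3]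
    ring
  have f4 : ∀ t, X.t4 P i (x, -t) = -1 * X.t4 P i (x, t) := fun t => by
    rw [t4_eq P hK hx, t4_eq P hK hx, e3, e4]
    ring
  have g4 : ∀ t, X.k4 P i (x, -t) = -1 * X.k4 P i (x, t) := fun t => by
    simp only [k4, dl_of (e4 t) (e3 t)]
    ring
  have g3 : ∀ t, X.k3 P i (x, -t) = -1 * X.k3 P i (x, t) := fun t => by
    simp only [k3, dl_of (e3 t) (e4 t), g4]
    ring
  have e1' : ∀ t, X.cc P i (x, -t) = - -1 * X.cc P i (x, t) := fun t => by rw [neg_neg, e1]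
  have e2' : ∀ t, X.sh P i (x, -t) = - -1 * X.sh P i (x, t) := fun t => by rw [neg_neg, e2]
  have p3' : ∀ t, X.t3 P i (x, t + 2 * π) = X.t3 P i (x, t) := fun t => by
    rw [t3_eq P hx, t3_eq P hx, per_p3 P i x hx]
  have p4' : ∀ t, X.t4 P i (x, t + 2 * π) = X.t4 P i (x, t) := fun t => by
    rw [t4_eq P hK hx, t4_eq P hK hx, per_p3 P i x hx, per_p4 P i x hx]
  have n12 := (hc.trans_le (h12 i x hx t)).ne'
  have n34 := (hc.trans_le (h34 i x hx t)).ne'
  have m33 := tmean_dl_self c3 c4 t n34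
  have m34 := tmean_dl_other c3 c4 t
  have m44 := tmean_dl_self c4 c3 t (gD_comm _ _ ▸ n34)
  have m43 := tmean_dl_other c4 c3 t
  have d3 := cont_dl c3 c4
  have d4 := cont_dl c4 c3
  have r0 := (r_pos hx).ne'
  have Θ0 := (X.Θ_pos i).ne'
  have a43 : tmean (fun z => X.k4 P i z * X.t3 P i z) (x, t) = 0 := by
    rw [tmean_lin (f := fun z => dl (X.p4 P i) (X.p3 P i) z * X.p3 P i z)
      (g := fun z => dl (X.p4 P i) (X.p3 P i) z * X.p4 P i z) (X.Θ i)⁻¹ 0 (d4.mul c3) (d4.mul c4)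
      (fun s => by simp only [k4, t3_eq P hx]; field_simp; ring), m43, m44]
    ring
  have a44 : tmean (fun z => X.k4 P i z * X.t4 P i z) (x, t) = 1 := by
    rw [tmean_lin (f := fun z => dl (X.p4 P i) (X.p3 P i) z * X.p3 P i z)
      (g := fun z => dl (X.p4 P i) (X.p3 P i) z * X.p4 P i z)
      (du (X.a i) x / X.a i x * (X.Θ i)⁻¹) 1 (d4.mul c3) (d4.mul c4)
      (fun s => by simp only [k4, t4_eq P hK hx]; field_simp), m43, m44]
    ring
  have ck4 := (H_k4 P hK hc h34).cont hx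
  have ct3 : Continuous fun t => X.t3 P i (x, t) := by
    simp only [t3_eq P hx]
    exact c3.const_mul _
  have ct4 : Continuous fun t => X.t4 P i (x, t) := by
    simp only [t4_eq P hK hx]
    exact (c3.const_mul _).add (c4.const_mul _)
  have a33 : tmean (fun z => X.k3 P i z * X.t3 P i z) (x, t) = 1 := by
    rw [tmean_lin (f := fun z => dl (X.p3 P i) (X.p4 P i) z * X.p3 P i z)
      (g := fun z => X.k4 P i z * X.t3 P i z) 1 (-(du (X.a i) x / X.a i x)) (d3.mul c3)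
      (ck4.mul ct3) (fun s => by simp only [k3, t3_eq P hx]; field_simp; ring), m33, a43]
    ring
  have a34 : tmean (fun z => X.k3 P i z * X.t4 P i z) (x, t) = 0 := by
    rw [tmean_lin (f := fun z => dl (X.p3 P i) (X.p4 P i) z * X.t4 P i z)
      (g := fun z => X.k4 P i z * X.t4 P i z) (X.r i x)⁻¹ (-(du (X.a i) x / X.a i x)) (d3.mul ct4)
      (ck4.mul ct4) (fun s => by simp only [k3]; ring), a44,
      tmean_lin (f := fun z => dl (X.p3 P i) (X.p4 P i) z * X.p3 P i z)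
      (g := fun z => dl (X.p3 P i) (X.p4 P i) z * X.p4 P i z) (du (X.a i) x / X.a i x * X.r i x)
      (X.r i x * X.Θ i) (d3.mul c3) (d3.mul c4)
      (fun s => by simp only [t4_eq P hK hx]; ring), m33, m34]
    field_simp
    ring
  have q1 := per_dl (per_cc P i) (per_sh P i) x hx
  have q2 := per_dl (per_sh P i) (per_cc P i) x hx
  fin_cases j <;> fin_cases l
  · exact tmean_dl_self c1 c2 t n12
  · exact tmean_dl_other c1 c2 t
  · exact tmean_eo (one_pow 2) q1 p3' (fun t => dl_of (e1 t) (e2 t)) f3 t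
  · exact tmean_eo (one_pow 2) q1 p4' (fun t => dl_of (e1 t) (e2 t)) f4 t
  · exact tmean_dl_other c2 c1 t
  · exact tmean_dl_self c2 c1 t (gD_comm _ _ ▸ n12)
  · exact tmean_eo (one_pow 2) q2 p3' (fun t => dl_of (e2 t) (e1 t)) f3 t
  · exact tmean_eo (one_pow 2) q2 p4' (fun t => dl_of (e2 t) (e1 t)) f4 t
  · exact tmean_eo neg_one_sq (per_k3 P i x hx) (per_cc P i x hx) g3 e1' t
  · exact tmean_eo neg_one_sq (per_k3 P i x hx) (per_sh P i x hx) g3 e2' t
  · exact a33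
  · exact a34
  · exact tmean_eo neg_one_sq (per_k4 P i x hx) (per_cc P i x hx) g4 e1' t
  · exact tmean_eo neg_one_sq (per_k4 P i x hx) (per_sh P i x hx) g4 e2' t
  · exact a43
  · exact a44

/-- the data of the expansion -/
def toWKB (μ : ι → ℝ) (hμ : ∀ i, 1 ≤ μ i) : WKB ι where
  U := X.U
  ε := fun i => (μ i)⁻¹
  Θ := X.Θ
  w := X.w
  f := X.f
  a2 := fun i x => X.a i x ^ 2
  r := X.r
  α := X.α
  β := X.β
  e := X.e
  e' := X.e'
  W := X.W P
  c := X.cc P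
  sh := X.sh P
  k := X.kk P
  hU := X.hU
  hε := fun i => ⟨inv_pos.2 (zero_lt_one.trans_le (hμ i)), inv_le_one_of_one_le₀ (hμ i)⟩
  hΘ := X.one_le_Θ
  hw1 := fun _ _ hx => w_le hx
  hw := (X.LT_w.fam2_mono fun i => ⟨X.lam_pos i, X.lam_le_Θ i⟩).lift
  hf := X.hf
  hA := X.H2_A.lift.gr0 (by norm_num)
  hB := X.H2_B.lift.gr0 (by norm_num)
  hα := X.H_α.gr0 (by norm_num)
  hβ := X.H_β.gr0 (by norm_num)
  he := X.H2_e.lift.gr0 (by norm_num)
  he' := X.H2_e'.lift.gr0 (by norm_num)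
  hr0 := fun _ _ hx => (r_pos hx).ne'
  hr := X.H2_ri.lift.gr0 (by norm_num)
  dual := fun _ _ hx => X.dual_αβ hx
  orth := X.orth
  hW := H.gr1 (X.H2_r.lift.smul (X.H_W0 P hK)) (by norm_num) fun i x hx t => by
    rw [smul_smul, mul_comm, r_mul_w hx]
    rfl
  perW := per_W P
  orthW := fun i x hx t => by
    obtain ⟨h1, h2, h3, h4⟩ := X.orth i x hx
    simp only [W, W0, real_inner_smul_left, inner_add_left, h1, h2, h3, h4, mul_zero, add_zero,
      and_self]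
  meanW := fun i x hx t => tmean_odd (per_W P i x hx)
    (fun t => by rw [od_W P hx, neg_one_smul]) t
  meanWW := fun i x hx t => tmean_odd
    (fun t => by
      simp only [(per_W P i).pu (X.hU i) x hx t, (per_W P i).pt (X.hU i) x hx t])
    (fun t => by
      simp only [pu_refl (X.hU i) (-1) (fun x hx t => od_W P hx t)
        (fun x hx t => dA ((X.H_W P hK).sm hx t)) hx t, pt_refl (X.hU i) (-1)
        (fun x hx t => od_W P hx t) (fun x hx t => dA ((X.H_W P hK).sm hx t)) hx t,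
        neg_neg, one_smul, neg_one_smul, inner_neg_left]) t
  normV := fun i x hx t => by
    rw [pt_W P hK hx, norm_add_frame (X.unit i x hx)]
    linear_combination X.hr2 i x hx + X.r i x ^ 2 * sin_sq_add_cos_sq (X.ψ P i (x, t))
  hc := H.gr1 (X.H2_w.lift.mul (X.H_cn P hK)).neg (by norm_num) fun i x _ t => by
    have h := sq_mul_cn (X.w i x) (P.Γ (X.arg i (x, t)))
    change cos (X.w i x * P.Γ (X.arg i (x, t))) - 1 =
      X.w i x * -(X.w i x * cn (X.w i x) (P.Γ (X.arg i (x, t))))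
    linear_combination h
  hsh := (X.H_sh P hK).gr0 (by norm_num)
  perc := fun i => ⟨per_cc P i, per_sh P i⟩
  Vpar := fun i x hx t => by
    rw [pt_W P hK hx, nPar, nPer, inner_add_frame (X.unit i x hx),
      inner_add_frame (X.unit i x hx), w_mul_sh P i (x, t), cc]
    constructor
    · linear_combination X.r i x * sin_sq_add_cos_sq (X.ψ P i (x, t))
    · ring
  hk := fun j => (H_kk P hK hc h12 h34 j).gr0 (by norm_num)
  perk := per_kk P
  dualk := fun j l _ _ hx t => dual_kk P hK hc h12 h34 j l hx t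
end Dual

end Core
end Vale.Agent.P205
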