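import Vale.Agent.P205.Defs

/-! P205: an involution of a compact topological one-manifold with finitely many fixed points has an
even number of them. Cover `Y` by the interiors of finitely many closed arcs `φ.symm '' [a, b]`; let
`V` be the finite set of end points and fixed points, made invariant under `σ`. The components of the
complement of `V` (edges) are open sub-arcs of the arcs; each edge has exactly two points of `V` in its
closure and each point of `V` lies in the closure of exactly two edges, so there are as many edges as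
points of `V`. `σ` permutes the edges without fixing one (an involution of an open interval has a
fixed point), so this number is even; `σ` acts freely on `V` minus the fixed points. -/

open scoped ContDiff InnerProductSpace Topology
open Set Filter Real

noncomputable section
namespace Vale.Agent.P205

namespace EvenAux

theorem even_of_invol {α : Type*} {s : Set α} (hs : s.Finite) (g : α → α) (h1 : ∀ a ∈ s, g a ∈ s)
    (h2 : ∀ a ∈ s, g a ≠ a) (h3 : ∀ a ∈ s, g (g a) = a) : Even s.ncard := by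
  have h4 : ∑ _x ∈ hs.toFinset, (1 : ZMod 2) = 0 :=
    Finset.sum_involution (fun a _ => g a) (fun _ _ => rfl)
      (fun a ha _ => h2 a (hs.mem_toFinset.1 ha))
      (fun a ha => hs.mem_toFinset.2 (h1 a (hs.mem_toFinset.1 ha)))
      (fun a ha => h3 a (hs.mem_toFinset.1 ha))
  rw [Set.ncard_eq_toFinset_card s hs, ← ZMod.natCast_eq_zero_iff_even]
  simpa using h4

variable {Y : Type*} [TopologicalSpace Y]

/-- A parametrized arc whose open sub-arcs are open. -/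
structure Arc (ψ : ℝ → Y) (a b : ℝ) : Prop where
  cont : ContinuousOn ψ (Icc a b)
  inj : InjOn ψ (Icc a b)
  opn : ∀ c d, a ≤ c → d ≤ b → IsOpen (ψ '' Ioo c d)

/-- An open arc with end points in `V` and no other point in `V`. -/
structure Edge (V : Set Y) (ψ : ℝ → Y) (c d : ℝ) : Prop where
  lt : c < d
  cont : ContinuousOn ψ (Icc c d)
  inj : InjOn ψ (Icc c d)
  opn : IsOpen (ψ '' Ioo c d)
  left : ψ c ∈ V
  right : ψ d ∈ V
  mid : ∀ t ∈ Ioo c d, ψ t ∉ V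

/-- The set of edges. -/
def edges (V : Set Y) : Set (Set Y) := {E | ∃ ψ c d, Edge V ψ c d ∧ E = ψ '' Ioo c d}

variable {V : Set Y}

theorem exists_arc {y : Y} (φ : OpenPartialHomeomorph Y ℝ) (hy : y ∈ φ.source) :
    ∃ ψ a b, Arc ψ a b ∧ y ∈ ψ '' Ioo a b := by
  obtain ⟨a, b, -, h1, h2⟩ := exists_Icc_mem_subset_of_mem_nhds
    (φ.open_target.mem_nhds (φ.map_source hy))
  refine ⟨φ.symm, a, b, ⟨φ.continuousOn_symm.mono h2, φ.symm.injOn.mono h2, fun c d hc hd =>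
    φ.isOpen_image_symm_of_subset_target isOpen_Ioo
      ((Ioo_subset_Icc_self.trans (Icc_subset_Icc hc hd)).trans h2)⟩, φ y, ?_, φ.left_inv hy⟩
  rw [← interior_Icc]
  exact mem_interior_iff_mem_nhds.2 h1

theorem Edge.map {σ : Y → Y} (hσ : Continuous σ) (hinv : Function.Involutive σ)
    (hV : ∀ y ∈ V, σ y ∈ V) {ψ : ℝ → Y} {c d : ℝ} (h : Edge V ψ c d) : Edge V (σ ∘ ψ) c d where
  lt := h.lt
  cont := hσ.comp_continuousOn h.cont
  inj := hinv.injective.comp_injOn h.inj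
  opn := by
    rw [image_comp, hinv.image_eq_preimage_symm]
    exact h.opn.preimage hσ
  left := hV _ h.left
  right := hV _ h.right
  mid t ht hm := h.mid t ht (hinv (ψ t) ▸ hV _ hm)

variable [T2Space Y]

theorem Edge.closure_eq {ψ : ℝ → Y} {c d : ℝ} (h : Edge V ψ c d) :
    closure (ψ '' Ioo c d) = ψ '' Icc c d := by
  refine Subset.antisymm (closure_minimal (image_mono Ioo_subset_Icc_self)
    (isCompact_Icc.image_of_continuousOn h.cont).isClosed) ?_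
  rw [← closure_Ioo h.lt.ne]
  exact ContinuousOn.image_closure (by rw [closure_Ioo h.lt.ne]; exact h.cont)

theorem Edge.mem_iff {ψ : ℝ → Y} {c d : ℝ} (h : Edge V ψ c d) {v : Y} :
    (v ∈ V ∧ v ∈ closure (ψ '' Ioo c d)) ↔ v = ψ c ∨ v = ψ d := by
  rw [h.closure_eq]
  constructor
  · rintro ⟨hv, t, ht, rfl⟩
    rcases eq_endpoints_or_mem_Ioo_of_mem_Icc ht with rfl | rfl | h1
    · exact Or.inl rfl
    · exact Or.inr rfl
    · exact absurd hv (h.mid t h1)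
  · rintro (rfl | rfl)
    · exact ⟨h.left, c, left_mem_Icc.2 h.lt.le, rfl⟩
    · exact ⟨h.right, d, right_mem_Icc.2 h.lt.le, rfl⟩

theorem Edge.subset {ψ ψ' : ℝ → Y} {c d c' d' : ℝ} (h : Edge V ψ c d) (h' : Edge V ψ' c' d')
    (hne : (ψ '' Ioo c d ∩ ψ' '' Ioo c' d').Nonempty) : ψ '' Ioo c d ⊆ ψ' '' Ioo c' d' := by
  refine IsPreconnected.subset_left_of_subset_union h'.opn
    (isClosed_closure (s := ψ' '' Ioo c' d')).isOpen_compl
    (disjoint_compl_right.mono_left subset_closure) ?_ hne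
    (isPreconnected_Ioo.image _ (h.cont.mono Ioo_subset_Icc_self))
  rintro _ ⟨t, ht, rfl⟩
  by_cases h1 : ψ t ∈ closure (ψ' '' Ioo c' d')
  · rw [h'.closure_eq] at h1
    obtain ⟨s, hs, e⟩ := h1
    rcases eq_endpoints_or_mem_Ioo_of_mem_Icc hs with rfl | rfl | h2
    · exact absurd (e ▸ h'.left) (h.mid t ht)
    · exact absurd (e ▸ h'.right) (h.mid t ht)
    · exact Or.inl ⟨s, h2, e⟩
  · exact Or.inr h1

theorem Edge.eq {ψ ψ' : ℝ → Y} {c d c' d' : ℝ} (h : Edge V ψ c d) (h' : Edge V ψ' c' d')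
    (hne : (ψ '' Ioo c d ∩ ψ' '' Ioo c' d').Nonempty) : ψ '' Ioo c d = ψ' '' Ioo c' d' :=
  (h.subset h' hne).antisymm (h'.subset h (by rwa [inter_comm]))

theorem Edge.exists_fixed {σ : Y → Y} (hσ : Continuous σ) (hinv : Function.Involutive σ)
    {ψ : ℝ → Y} {c d : ℝ} (h : Edge V ψ c d) (he : σ '' (ψ '' Ioo c d) = ψ '' Ioo c d) :
    ∃ t ∈ Ioo c d, σ (ψ t) = ψ t := by
  have h1 : ∀ t ∈ Ioo c d, ∃ s ∈ Ioo c d, ψ s = σ (ψ t) := fun t ht =>
    he.le (mem_image_of_mem σ (mem_image_of_mem ψ ht))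
  choose! g hg hg' using h1
  have h2 : Topology.IsClosedEmbedding (fun t : Icc c d => ψ t) :=
    (continuousOn_iff_continuous_domRestrict.1 h.cont).isClosedEmbedding
      fun s t e => Subtype.ext (h.inj s.2 t.2 e)
  have h3 : Continuous fun t : Ioo c d => (⟨g t, Ioo_subset_Icc_self (hg t t.2)⟩ : Icc c d) := by
    refine h2.isInducing.continuous_iff.2 ?_
    have h4 := hσ.comp
      (continuousOn_iff_continuous_domRestrict.1 (h.cont.mono Ioo_subset_Icc_self))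
    exact h4.congr fun t => (hg' t t.2).symm
  have h4 : ContinuousOn g (Ioo c d) :=
    continuousOn_iff_continuous_domRestrict.2 (continuous_subtype_val.comp h3)
  obtain ⟨t, ht⟩ := nonempty_Ioo.2 h.lt
  have h5 : g (g t) = t := h.inj (Ioo_subset_Icc_self (hg _ (hg t ht))) (Ioo_subset_Icc_self ht)
    (by rw [hg' _ (hg t ht), hg' t ht, hinv])
  have h6 : ∃ x ∈ Ioo c d, id x = g x := by
    rcases le_total t (g t) with h7 | h7
    · exact isPreconnected_Ioo.intermediate_value₂ ht (hg t ht) continuousOn_id h4 h7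
        (h5.le.trans h7)
    · exact isPreconnected_Ioo.intermediate_value₂ (hg t ht) ht continuousOn_id h4
        (h7.trans h5.ge) h7
  obtain ⟨x, hx, e⟩ := h6
  exact ⟨x, hx, by rw [← hg' x hx, ← e, id]⟩

theorem two_edges (hV : V.Finite) {ψ : ℝ → Y} {a b t : ℝ} (h : Arc ψ a b) (ha : ψ a ∈ V)
    (hb : ψ b ∈ V) (ht : t ∈ Ioo a b) (hv : ψ t ∈ V) :
    ∃ E₁ E₂, E₁ ≠ E₂ ∧ ∀ E, (E ∈ edges V ∧ ψ t ∈ closure E) ↔ E = E₁ ∨ E = E₂ := by
  have hfin : (Icc a b ∩ ψ ⁻¹' V).Finite :=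
    Finite.of_finite_image (hV.subset (image_subset_iff.2 inter_subset_right))
      (h.inj.mono inter_subset_left)
  obtain ⟨c, ⟨⟨hc1, hc2⟩, hc3⟩, hc4⟩ := exists_max_image ((Icc a b ∩ ψ ⁻¹' V) ∩ Iio t) id
    (hfin.subset inter_subset_left) ⟨a, ⟨⟨le_rfl, ht.1.le.trans ht.2.le⟩, ha⟩, ht.1⟩
  obtain ⟨d, ⟨⟨hd1, hd2⟩, hd3⟩, hd4⟩ := exists_min_image ((Icc a b ∩ ψ ⁻¹' V) ∩ Ioi t) id
    (hfin.subset inter_subset_left) ⟨b, ⟨⟨ht.1.le.trans ht.2.le, le_rfl⟩, hb⟩, ht.2⟩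
  have hct : c < t := hc3
  have htd : t < d := hd3
  have e1 : Edge V ψ c t :=
    ⟨hct, h.cont.mono (Icc_subset_Icc hc1.1 ht.2.le), h.inj.mono (Icc_subset_Icc hc1.1 ht.2.le),
      h.opn _ _ hc1.1 ht.2.le, hc2, hv, fun s hs hm => (hc4 s ⟨⟨⟨hc1.1.trans hs.1.le,
        hs.2.le.trans ht.2.le⟩, hm⟩, hs.2⟩).not_gt hs.1⟩
  have e2 : Edge V ψ t d :=
    ⟨htd, h.cont.mono (Icc_subset_Icc ht.1.le hd1.2), h.inj.mono (Icc_subset_Icc ht.1.le hd1.2),
      h.opn _ _ ht.1.le hd1.2, hv, hd2, fun s hs hm => (hd4 s ⟨⟨⟨ht.1.le.trans hs.1.le,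
        hs.2.le.trans hd1.2⟩, hm⟩, hs.1⟩).not_gt hs.2⟩
  refine ⟨ψ '' Ioo c t, ψ '' Ioo t d, fun e => ?_, fun E => ⟨?_, ?_⟩⟩
  · obtain ⟨s, hs⟩ := nonempty_Ioo.2 hct
    obtain ⟨s', hs', e'⟩ := e.le (mem_image_of_mem ψ hs)
    have := h.inj ⟨ht.1.le.trans hs'.1.le, hs'.2.le.trans hd1.2⟩
      ⟨hc1.1.trans hs.1.le, hs.2.le.trans ht.2.le⟩ e'
    linarith [hs.2, hs'.1]
  · rintro ⟨⟨ψ', c', d', h', rfl⟩, hcl⟩
    obtain ⟨_, ⟨s, hs, rfl⟩, s', hs', e⟩ :=
      mem_closure_iff.1 hcl _ (h.opn c d hc1.1 hd1.2) ⟨t, ⟨hct, htd⟩, rfl⟩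
    rcases lt_trichotomy s t with h1 | rfl | h1
    · exact Or.inl (h'.eq e1 ⟨_, ⟨s', hs', e⟩, s, ⟨hs.1, h1⟩, rfl⟩)
    · exact absurd (e ▸ hv) (h'.mid s' hs')
    · exact Or.inr (h'.eq e2 ⟨_, ⟨s', hs', e⟩, s, ⟨h1, hs.2⟩, rfl⟩)
  · rintro (rfl | rfl)
    · exact ⟨⟨ψ, c, t, e1, rfl⟩, (e1.mem_iff.2 (Or.inr rfl)).2⟩
    · exact ⟨⟨ψ, t, d, e2, rfl⟩, (e2.mem_iff.2 (Or.inl rfl)).2⟩

theorem card_edges (hV : V.Finite)
    (h : ∀ v ∈ V, ∃ E₁ E₂, E₁ ≠ E₂ ∧ ∀ E, (E ∈ edges V ∧ v ∈ closure E) ↔ E = E₁ ∨ E = E₂) :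
    (edges V).Finite ∧ V.ncard = (edges V).ncard := by
  classical
  have hE : (edges V).Finite := by
    refine (hV.biUnion (t := fun v => {E | E ∈ edges V ∧ v ∈ closure E}) fun v hv => ?_).subset ?_
    · obtain ⟨E₁, E₂, -, h1⟩ := h v hv
      exact (toFinite {E₁, E₂}).subset fun E hE => (h1 E).1 hE
    · rintro _ ⟨ψ, c, d, h1, rfl⟩
      exact mem_iUnion₂.2 ⟨ψ c, h1.left, ⟨ψ, c, d, h1, rfl⟩, (h1.mem_iff.2 (Or.inl rfl)).2⟩
  refine ⟨hE, ?_⟩
  have h1 := Finset.card_mul_eq_card_mul (s := hV.toFinset) (t := hE.toFinset) (m := 2) (n := 2)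
    (fun v E => v ∈ closure E) (fun v hv => ?_) (fun E hE' => ?_)
  · rw [Set.ncard_eq_toFinset_card _ hV, Set.ncard_eq_toFinset_card _ hE]
    omega
  · obtain ⟨E₁, E₂, h2, h3⟩ := h v (hV.mem_toFinset.1 hv)
    refine Finset.card_eq_two.2 ⟨E₁, E₂, h2, Finset.ext fun E => ?_⟩
    rw [Finset.mem_bipartiteAbove, hE.mem_toFinset, h3, Finset.mem_insert, Finset.mem_singleton]
  · obtain ⟨ψ, c, d, h2, rfl⟩ := hE.mem_toFinset.1 hE'
    refine Finset.card_eq_two.2 ⟨ψ c, ψ d, fun e => h2.lt.ne (h2.inj (left_mem_Icc.2 h2.lt.le)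
      (right_mem_Icc.2 h2.lt.le) e), Finset.ext fun v => ?_⟩
    rw [Finset.mem_bipartiteBelow, hV.mem_toFinset, h2.mem_iff, Finset.mem_insert,
      Finset.mem_singleton]

end EvenAux

open EvenAux in
theorem even_fixed {Y : Type*} [TopologicalSpace Y] [CompactSpace Y] [T2Space Y]
    (harc : ∀ y : Y, ∃ φ : OpenPartialHomeomorph Y ℝ, y ∈ φ.source) {σ : Y → Y}
    (hσ : Continuous σ) (hinv : Function.Involutive σ) (hfin : {y | σ y = y}.Finite) :
    Even {y | σ y = y}.ncard := by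
  have h1 : ∀ y : Y, ∃ ψ a b, Arc ψ a b ∧ y ∈ ψ '' Ioo a b := fun y =>
    (harc y).elim fun φ hy => exists_arc φ hy
  choose ψ a b hA hy using h1
  obtain ⟨s, -, hs⟩ := isCompact_univ.elim_nhds_subcover (fun y => ψ y '' Ioo (a y) (b y))
    fun y _ => ((hA y).opn _ _ le_rfl le_rfl).mem_nhds (hy y)
  set V₀ : Set Y := {y | σ y = y} ∪ ((fun y => ψ y (a y)) '' s ∪ (fun y => ψ y (b y)) '' s)
  have hV₀ : V₀.Finite := hfin.union ((s.finite_toSet.image _).union (s.finite_toSet.image _))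
  set V := V₀ ∪ σ '' V₀
  have hV : V.Finite := hV₀.union (hV₀.image _)
  have hσV : ∀ y ∈ V, σ y ∈ V := by
    rintro y (h | ⟨x, hx, rfl⟩)
    · exact Or.inr ⟨y, h, rfl⟩
    · exact Or.inl (by rwa [hinv])
  have hF : {y | σ y = y} ⊆ V := fun y h => Or.inl (Or.inl h)
  obtain ⟨hE, hcard⟩ := card_edges hV fun v hv => by
    obtain ⟨y, hys, t, ht, rfl⟩ := mem_iUnion₂.1 (hs (mem_univ v))
    exact two_edges hV (hA y) (Or.inl (Or.inr (Or.inl ⟨y, hys, rfl⟩)))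
      (Or.inl (Or.inr (Or.inr ⟨y, hys, rfl⟩))) ht hv
  have h2 : Even (edges V).ncard := by
    refine even_of_invol hE (fun E => σ '' E) ?_ ?_ fun E _ => ?_
    · rintro _ ⟨χ, c, d, h, rfl⟩
      exact ⟨σ ∘ χ, c, d, h.map hσ hinv hσV, (image_comp _ _ _).symm⟩
    · rintro _ ⟨χ, c, d, h, rfl⟩ e
      obtain ⟨t, ht, h3⟩ := h.exists_fixed hσ hinv e
      exact h.mid t ht (hF h3)
    · rw [← image_comp, hinv.comp_self, image_id]
  have h3 : Even (V \ {y | σ y = y}).ncard :=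
    even_of_invol (hV.subset sdiff_subset) σ
      (fun y h => ⟨hσV y h.1, fun e => h.2 (hinv.injective e)⟩) (fun y h => h.2)
      fun y _ => hinv y
  have h4 := Set.ncard_sdiff_add_ncard_of_subset hF hV
  rw [← hcard, ← h4] at h2
  exact (Nat.even_add.1 h2).1 h3

end Vale.Agent.P205
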