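import Vale.Agent.P205.S1

/-! P205, I4: pointwise derivative bounds used in one stage. -/

open scoped ContDiff InnerProductSpace Topology Manifold
open Set Filter Real

noncomputable section
namespace Vale.Agent.P205

section BA
variable {V V' W : Type} [NormedAddCommGroup V] [NormedSpace ℝ V] [NormedAddCommGroup V']
  [NormedSpace ℝ V'] [NormedAddCommGroup W] [NormedSpace ℝ W]

/-- smooth at `x`, with derivatives of order at most `m` bounded by `σ` at `x` -/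
def BA (m : ℕ) (f : P2 → V) (x : P2) (σ : ℝ) : Prop :=
  ContDiffAt ℝ ∞ f x ∧ ∀ j ≤ m, ‖iteratedFDeriv ℝ j f x‖ ≤ σ

theorem BA.nonneg {m : ℕ} {f : P2 → V} {x : P2} {σ : ℝ} (h : BA m f x σ) : 0 ≤ σ :=
  (norm_nonneg _).trans (h.2 0 (Nat.zero_le _))

theorem BA.mono {m : ℕ} {f : P2 → V} {x : P2} {σ τ : ℝ} (h : BA m f x σ) (hστ : σ ≤ τ) :
    BA m f x τ := ⟨h.1, fun j hj => (h.2 j hj).trans hστ⟩

theorem BA.of_le {m m' : ℕ} {f : P2 → V} {x : P2} {σ : ℝ} (h : BA m f x σ) (hm : m' ≤ m) :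
    BA m' f x σ := ⟨h.1, fun j hj => h.2 j (hj.trans hm)⟩

theorem BA.congr {m : ℕ} {f g : P2 → V} {x : P2} {σ : ℝ} (h : BA m f x σ) (he : g =ᶠ[𝓝 x] f) :
    BA m g x σ :=
  ⟨h.1.congr_of_eventuallyEq he, fun j hj => by
    rw [(he.iteratedFDeriv ℝ j).eq_of_nhds]; exact h.2 j hj⟩

theorem BA.add {m : ℕ} {f g : P2 → V} {x : P2} {σ τ : ℝ} (h1 : BA m f x σ) (h2 : BA m g x τ) :
    BA m (fun y => f y + g y) x (σ + τ) := by
  refine ⟨h1.1.add h2.1, fun j hj => ?_⟩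
  have hn : (j : WithTop ℕ∞) ≤ ∞ := mod_cast le_top
  rw [fun_iteratedFDeriv_add_apply (h1.1.of_le hn) (h2.1.of_le hn)]
  exact (norm_add_le _ _).trans (add_le_add (h1.2 j hj) (h2.2 j hj))

theorem BA.sub {m : ℕ} {f g : P2 → V} {x : P2} {σ τ : ℝ} (h1 : BA m f x σ) (h2 : BA m g x τ) :
    BA m (fun y => f y - g y) x (σ + τ) := by
  refine ⟨h1.1.sub h2.1, fun j hj => ?_⟩
  have hn : (j : WithTop ℕ∞) ≤ ∞ := mod_cast le_top
  rw [fun_iteratedFDeriv_sub_apply (h1.1.of_le hn) (h2.1.of_le hn)]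
  exact (norm_sub_le _ _).trans (add_le_add (h1.2 j hj) (h2.2 j hj))

theorem BA.cmul {m : ℕ} {f : P2 → ℝ} {x : P2} {σ : ℝ} (h1 : BA m f x σ) (s : ℝ) :
    BA m (fun y => s * f y) x (|s| * σ) := by
  refine ⟨contDiffAt_const.mul h1.1, fun j hj => ?_⟩
  have hn : (j : WithTop ℕ∞) ≤ ∞ := mod_cast le_top
  have := iteratedFDeriv_const_smul_apply' (a := s) (h1.1.of_le hn)
  simp only [smul_eq_mul] at this
  rw [this, norm_smul, Real.norm_eq_abs]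
  exact mul_le_mul_of_nonneg_left (h1.2 j hj) (abs_nonneg _)

theorem BA.bil (B : V →L[ℝ] V' →L[ℝ] W) (hB : ‖B‖ ≤ 1) {m : ℕ} {f : P2 → V} {g : P2 → V'} {x : P2}
    {σ τ : ℝ} (h1 : BA m f x σ) (h2 : BA m g x τ) :
    BA m (fun y => B (f y) (g y)) x (2 ^ m * σ * τ) := by
  refine ⟨(B.contDiff.contDiffAt.comp x h1.1).clm_apply h2.1, fun n hm => ?_⟩
  have hn : (n : WithTop ℕ∞) ≤ ∞ := mod_cast le_top
  obtain ⟨t, ht, hgt⟩ := h2.1.contDiffOn hn (by simp)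
  obtain ⟨s, hs, hfs⟩ := h1.1.contDiffOn hn (by simp)
  have hx : x ∈ interior (s ∩ t) := mem_interior_iff_mem_nhds.2 (inter_mem hs ht)
  have hσ := h1.nonneg
  have hτ := h2.nonneg
  rw [← iteratedFDerivWithin_of_isOpen n isOpen_interior hx]
  refine (B.norm_iteratedFDerivWithin_le_of_bilinear_of_le_one
    (hfs.mono (interior_subset.trans inter_subset_left))
    (hgt.mono (interior_subset.trans inter_subset_right)) isOpen_interior.uniqueDiffOn hx le_rfl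
    hB).trans ?_
  calc _ ≤ ∑ i ∈ Finset.range (n + 1), (n.choose i : ℝ) * σ * τ := by
        refine Finset.sum_le_sum fun i hi => ?_
        have hi' := Finset.mem_range_succ_iff.1 hi
        rw [iteratedFDerivWithin_of_isOpen i isOpen_interior hx,
          iteratedFDerivWithin_of_isOpen (n - i) isOpen_interior hx]
        exact mul_le_mul (mul_le_mul_of_nonneg_left (h1.2 i (hi'.trans hm)) (Nat.cast_nonneg _))
          (h2.2 _ ((Nat.sub_le _ _).trans hm)) (norm_nonneg _) (by positivity)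
    _ = 2 ^ n * σ * τ := by
        rw [← Finset.sum_mul, ← Finset.sum_mul, ← Nat.cast_sum, Nat.sum_range_choose]
        push_cast; ring
    _ ≤ 2 ^ m * σ * τ := by
        have : (2 : ℝ) ^ n ≤ 2 ^ m := pow_le_pow_right₀ one_le_two hm
        gcongr

theorem BA.mul {m : ℕ} {f g : P2 → ℝ} {x : P2} {σ τ : ℝ} (h1 : BA m f x σ) (h2 : BA m g x τ) :
    BA m (fun y => f y * g y) x (2 ^ m * σ * τ) :=
  BA.bil (ContinuousLinearMap.mul ℝ ℝ) (ContinuousLinearMap.opNorm_mul_le _ _) h1 h2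

theorem BA.inner {m : ℕ} {f g : P2 → R4} {x : P2} {σ τ : ℝ} (h1 : BA m f x σ) (h2 : BA m g x τ) :
    BA m (fun y => ⟪f y, g y⟫_ℝ) x (2 ^ m * σ * τ) :=
  BA.bil (innerSL ℝ) (norm_innerSL_le ℝ) h1 h2

theorem BA.dir {m : ℕ} {f : P2 → V} {x : P2} {σ : ℝ} (h : BA (m + 1) f x σ) {X : P2}
    (hX : ‖X‖ ≤ 1) : BA m (fun y => fderiv ℝ f y X) x σ := by
  have h1 : ContDiffAt ℝ ∞ (fderiv ℝ f) x := h.1.fderiv_right (m := ∞) le_rfl
  refine ⟨h1.clm_apply contDiffAt_const, fun j hj => ?_⟩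
  have hn : (j : WithTop ℕ∞) ≤ ∞ := mod_cast le_top
  refine (norm_iteratedFDeriv_clm_apply_const h1 hn).trans ?_
  rw [norm_iteratedFDeriv_fderiv]
  exact (mul_le_mul hX (h.2 _ (Nat.succ_le_succ hj)) (norm_nonneg _) zero_le_one).trans
    (one_mul _).le

theorem BA.efg {m : ℕ} {f : P2 → R4} {x : P2} {σ : ℝ} (h : BA (m + 1) f x σ) (l : Q3) :
    BA m (fun y => l.1 * fE f y + l.2.1 * fF f y + l.2.2 * fG f y) x
      ((|l.1| + |l.2.1| + |l.2.2|) * (2 ^ m * σ * σ)) := by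
  have hu : BA m (du f) x σ := h.dir (X := (1, 0)) (by simp [Prod.norm_def])
  have hv : BA m (dv f) x σ := h.dir (X := (0, 1)) (by simp [Prod.norm_def])
  refine ((((hu.inner hu).cmul l.1).add ((hu.inner hv).cmul l.2.1)).add
    ((hv.inner hv).cmul l.2.2)).mono (le_of_eq ?_)
  ring
end BA

variable {M : Type*} [TopologicalSpace M] [ChartedSpace E2 M] [IsManifold 𝓘(ℝ, E2) ∞ M]

theorem Lf_sub (c : Ch M) (l : Q3) (h h' : Ten M) (x : P2) :
    Lf c l (h - h') x = Lf c l h x - Lf c l h' x := by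
  simp only [Lf, cE, cF, cG, cmp_sub]; ring

theorem Lf_smul (c : Ch M) (l : Q3) (s : ℝ) (h : Ten M) (x : P2) :
    Lf c l (s • h) x = s * Lf c l h x := by
  simp only [Lf, cE, cF, cG, cmp_smul]; ring

theorem Good.lf {h : Ten M} (hh : Good h) (c : Ch M) (l : Q3) {x : P2} (hx : x ∈ c.e.target) :
    ContDiffAt ℝ ∞ (Lf c l h) x := by
  obtain ⟨h1, h2, h3⟩ := hh.cEFG c hx
  exact ((contDiffAt_const.mul h1).add (contDiffAt_const.mul h2)).add (contDiffAt_const.mul h3)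

theorem BA.lf_pull {F : M → R4} (hF : Sm F) (c : Ch M) (l : Q3) {x : P2} (hx : x ∈ c.e.target)
    {m : ℕ} {σ : ℝ} (h : ∀ j ≤ m + 1, ‖iteratedFDeriv ℝ j (loc c F) x‖ ≤ σ) :
    BA m (Lf c l (pull F)) x ((|l.1| + |l.2.1| + |l.2.2|) * (2 ^ m * σ * σ)) := by
  refine (BA.efg ⟨hF.locAt c hx, h⟩ l).congr ?_
  filter_upwards [c.e.open_target.mem_nhds hx] with y hy
  obtain ⟨h1, h2, h3⟩ := cEFG_pull c hF hy
  simp only [Lf, h1, h2, h3]

/-- the functionals are controlled by the metric size -/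
theorem SAt.lf_small {g : Ten M} (hg : Good g) (hp : PosD g) (A : SAt g) : ∃ C1 : ℝ, 0 < C1 ∧
    ∀ (h : Ten M), Symm h → ∀ σ : ℝ, 0 ≤ σ → Small g h σ → ∀ γ i, ∀ x ∈ tsupport (A.χ' γ i),
      |Lf (A.c γ i) (A.l γ i) h x| ≤ C1 * σ := by
  have H : ∀ s : A.Γ × Fin 3, ∃ C1 : ℝ, 0 ≤ C1 ∧ ∀ (h : Ten M), Symm h → ∀ σ : ℝ, 0 ≤ σ →
      Small g h σ → ∀ x ∈ tsupport (A.χ' s.1 s.2),
        |Lf (A.c s.1 s.2) (A.l s.1 s.2) h x| ≤ C1 * σ := by
    rintro ⟨γ, i⟩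
    obtain ⟨-, h2, h3, -⟩ := A.smχ' γ i
    obtain ⟨C, hC, H⟩ := chart_of_small hg hp (A.c γ i) h2.isCompact h3
    refine ⟨(|(A.l γ i).1| + |(A.l γ i).2.1| + |(A.l γ i).2.2|) * C, by positivity,
      fun h hs σ hσ hsm x hx => ?_⟩
    obtain ⟨e1, e2, e3⟩ := H h hs x hx σ hσ (hsm _)
    have a1 := mul_le_mul_of_nonneg_left e1 (abs_nonneg (A.l γ i).1)
    have a2 := mul_le_mul_of_nonneg_left e2 (abs_nonneg (A.l γ i).2.1)
    have a3 := mul_le_mul_of_nonneg_left e3 (abs_nonneg (A.l γ i).2.2)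
    rw [← abs_mul] at a1 a2 a3
    refine ((abs_add_le _ _).trans (add_le_add (abs_add_le _ _) le_rfl)).trans ?_
    linarith
  choose C hC H using H
  refine ⟨∑ s, C s + 1, by have := Finset.sum_nonneg (s := Finset.univ) fun s _ => hC s; linarith,
    fun h hs σ hσ hsm γ i x hx => (H (γ, i) h hs σ hσ hsm x hx).trans ?_⟩
  have := Finset.single_le_sum (f := C) (fun s _ => hC s) (Finset.mem_univ (γ, i))
  exact mul_le_mul_of_nonneg_right (by linarith) hσ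

/-- uniform bounds for the functionals applied to the metric -/
theorem SAt.lf_bound {g : Ten M} (hg : Good g) (A : SAt g) (m : ℕ) : ∃ C : ℝ, 0 ≤ C ∧
    ∀ γ i, |(A.l γ i).1| + |(A.l γ i).2.1| + |(A.l γ i).2.2| ≤ C ∧
      ∀ x ∈ tsupport (A.χ' γ i), BA m (Lf (A.c γ i) (A.l γ i) g) x C := by
  have H : ∀ s : A.Γ × Fin 3, ∃ C : ℝ, 0 ≤ C ∧
      |(A.l s.1 s.2).1| + |(A.l s.1 s.2).2.1| + |(A.l s.1 s.2).2.2| ≤ C ∧
      ∀ x ∈ tsupport (A.χ' s.1 s.2), BA m (Lf (A.c s.1 s.2) (A.l s.1 s.2) g) x C := by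
    rintro ⟨γ, i⟩
    obtain ⟨-, h2, h3, -⟩ := A.smχ' γ i
    obtain ⟨σ, hσ, H⟩ := man1_bound h2.isCompact (fun x hx => hg.lf (A.c γ i) (A.l γ i) (h3 hx)) m
    refine ⟨max σ (|(A.l γ i).1| + |(A.l γ i).2.1| + |(A.l γ i).2.2|),
      le_max_of_le_left (zero_le_one.trans hσ), le_max_right _ _, fun x hx =>
      ⟨hg.lf _ _ (h3 hx), fun j hj => le_max_of_le_left (H j hj x hx)⟩⟩
  choose C hC H using H
  refine ⟨∑ s, C s, Finset.sum_nonneg fun s _ => hC s, fun γ i => ?_⟩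
  have := Finset.single_le_sum (f := C) (fun s _ => hC s) (Finset.mem_univ (γ, i))
  exact ⟨(H (γ, i)).1.trans this, fun x hx => ((H (γ, i)).2 x hx).mono this⟩

/-- derivative bounds for the coefficient functions of a stage -/
theorem SAt.beta_bound {g : Ten M} (hg : Good g) (A : SAt g) (K : ℕ) : ∃ C : ℝ, 0 ≤ C ∧
    ∀ (lam δ δ' : ℝ) (N : ℕ) (F : M → R4) (om : M → ℝ), 1 ≤ lam → C ≤ lam → (lam ^ N)⁻¹ ≤ δ →
      0 ≤ δ' → δ' ≤ 1 → (∀ j ≤ K + 1, A.NB j F (lam ^ (j + 1))) →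
      (∀ j ≤ K + 1, A.NB j om (lam ^ (j + 1))) → ∀ γ i, ∀ j ≤ K, ∀ x ∈ tsupport (A.χ' γ i),
        ‖iteratedFDeriv ℝ j (fun y => loc (A.c γ i) om y *
          (δ⁻¹ * Lf (A.c γ i) (A.l γ i) ((1 - δ') • g - pull F) y)) x‖ ≤
            (lam ^ 3) ^ (j + (N + 2)) := by
  obtain ⟨C0, hC0, H0⟩ := A.lf_bound hg K
  refine ⟨2 * 2 ^ K * 2 ^ K * C0, by positivity,
    fun lam δ δ' N F om h1 hC hδ hδ0 hδ1 hF hom γ i j hj x hx => ?_⟩
  have hxt := (A.smχ' γ i).2.2.1 hx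
  have hl : 0 < lam := by linarith
  have hδp : 0 < δ := lt_of_lt_of_le (by positivity) hδ
  have b1 : BA j (loc (A.c γ i) om) x (lam ^ (j + 1)) :=
    ⟨(hom 0 (Nat.zero_le _)).1.locAt _ hxt, fun r hr => (hom j (by omega)).2 γ i r hr x hx⟩
  have b2 := BA.lf_pull (hF 0 (Nat.zero_le _)).1 (A.c γ i) (A.l γ i) hxt (m := j)
    fun r hr => (hF (j + 1) (by omega)).2 γ i r hr x hx
  have b3 := (((H0 γ i).2 x hx).of_le hj).cmul (1 - δ')
  have b4 := b1.mul (((b3.sub b2).congr (g := Lf (A.c γ i) (A.l γ i) ((1 - δ') • g - pull F))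
    (Eventually.of_forall fun y => by simp only [Lf_sub, Lf_smul])).cmul δ⁻¹)
  refine (b4.2 j le_rfl).trans ?_
  have e1 : |δ⁻¹| ≤ lam ^ N := by
    rw [abs_of_pos (inv_pos.2 hδp)]
    exact inv_le_of_inv_le₀ (by positivity) hδ
  have e2 : |1 - δ'| ≤ 1 := abs_le.2 ⟨by linarith, by linarith⟩
  have e3 : (2 : ℝ) ^ j ≤ 2 ^ K := pow_le_pow_right₀ one_le_two hj
  have e4 := (H0 γ i).1
  have e5 : (1 : ℝ) ≤ 2 ^ K * lam ^ (j + 1 + 1) * lam ^ (j + 1 + 1) :=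
    one_le_mul_of_one_le_of_one_le (one_le_mul_of_one_le_of_one_le (one_le_pow₀ one_le_two)
      (one_le_pow₀ h1)) (one_le_pow₀ h1)
  calc _ ≤ 2 ^ K * lam ^ (j + 1) * (lam ^ N * (1 * C0 +
          C0 * (2 ^ K * lam ^ (j + 1 + 1) * lam ^ (j + 1 + 1)))) := by gcongr
    _ ≤ 2 ^ K * lam ^ (j + 1) * (lam ^ N * (2 ^ K * lam ^ (j + 1 + 1) * lam ^ (j + 1 + 1) * C0 +
          C0 * (2 ^ K * lam ^ (j + 1 + 1) * lam ^ (j + 1 + 1)))) := by gcongr
    _ = (2 * 2 ^ K * 2 ^ K * C0) * lam ^ (3 * j + 5 + N) := by ring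
    _ ≤ lam * lam ^ (3 * j + 5 + N) := by gcongr
    _ = lam ^ (3 * j + 6 + N) := by ring
    _ ≤ lam ^ (3 * (j + (N + 2))) := pow_le_pow_right₀ h1 (by omega)
    _ = _ := pow_mul _ _ _

omit [TopologicalSpace M] [ChartedSpace E2 M] [IsManifold 𝓘(ℝ, E2) ∞ M] in
theorem small_self {g : Ten M} (hp : PosD g) : Small g g 1 := fun p X => by
  by_cases hX : X = 0
  · simp [hX]
  · rw [abs_of_pos (hp p X hX), one_mul]

/-- range of the coefficient functions of a stage -/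
theorem beta_range {c0 c1 C1 δ δ' η o a e : ℝ} (hc0 : 0 < c0) (hc1 : 0 < c1) (hC1 : 0 < C1)
    (hη : η ≤ c1 / (4 * C1)) (h0 : 0 < δ') (h1 : δ' ≤ δ / 2) (ho : c0 ≤ o ∧ o ≤ c0⁻¹)
    (ha : c1 ≤ a) (ha' : |a| ≤ C1 * 1) (he : |e| ≤ C1 * (η * δ)) :
    min 1 (min (c0 * c1 / 4) (c0 / (C1 + c1 / 4))) ≤ o * (δ⁻¹ * ((δ - δ') * a - e)) ∧
      o * (δ⁻¹ * ((δ - δ') * a - e)) ≤ (min 1 (min (c0 * c1 / 4) (c0 / (C1 + c1 / 4))))⁻¹ := by
  have hδ : 0 < δ := by linarith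
  have e1 : C1 * (η * δ) ≤ c1 / 4 * δ := by
    have : C1 * η ≤ c1 / 4 := by
      rw [le_div_iff₀ (by positivity)] at hη
      linarith
    calc C1 * (η * δ) = C1 * η * δ := by ring
      _ ≤ _ := by gcongr
  obtain ⟨e2, e3⟩ := abs_le.1 (he.trans e1)
  have e4 := (abs_le.1 ha').2
  have l1 : c1 / 4 ≤ δ⁻¹ * ((δ - δ') * a - e) := by
    rw [le_inv_mul_iff₀ hδ]
    have : δ / 2 * c1 ≤ (δ - δ') * a := mul_le_mul (by linarith) ha hc1.le (by linarith)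
    linarith
  have l2 : δ⁻¹ * ((δ - δ') * a - e) ≤ C1 + c1 / 4 := by
    rw [inv_mul_le_iff₀ hδ]
    have : (δ - δ') * a ≤ δ * C1 := mul_le_mul (by linarith) (by linarith) (by linarith) hδ.le
    linarith
  constructor
  · refine (min_le_right _ _).trans ((min_le_left _ _).trans ?_)
    calc c0 * c1 / 4 = c0 * (c1 / 4) := by ring
      _ ≤ _ := mul_le_mul ho.1 l1 (by positivity) (by linarith)
  · have p1 : 0 < min 1 (min (c0 * c1 / 4) (c0 / (C1 + c1 / 4))) := by positivity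
    refine le_trans ?_ (inv_anti₀ p1 ((min_le_right _ _).trans (min_le_right _ _)))
    calc _ ≤ c0⁻¹ * (C1 + c1 / 4) :=
          mul_le_mul ho.2 l2 (le_trans (by positivity) l1) (by positivity)
      _ = _ := by rw [inv_div]; field_simp

omit [IsManifold 𝓘(ℝ, E2) ∞ M] in
/-- the slots of a stage add up to the tensor `k` -/
theorem SAt.slots_sum {g : Ten M} (A : SAt g) {k : Ten M} (hk : Symm k) {δ : ℝ} (hδ : δ ≠ 0)
    {m : ℕ} (hm : 1 ≤ m) {ρ : A.Γ → M → ℝ} {om : M → ℝ}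
    (hs : ∀ p, ∑ γ, ρ γ p ^ (2 * m) * om p = 1) (hA : ∀ γ p, ρ γ p ≠ 0 → p ∈ A.A γ) :
    ∑ s : A.Γ × Fin 3, (fun p => (δ * ρ s.1 p ^ (2 * m) *
      (loc (A.c s.1 s.2) om ((A.c s.1 s.2).e p) *
        (δ⁻¹ * Lf (A.c s.1 s.2) (A.l s.1 s.2) k ((A.c s.1 s.2).e p)))) •
          prim (fun _ => 1) (vco (A.c s.1 s.2)) p : Ten M) = k := by
  funext p
  refine ContinuousLinearMap.ext fun X => ContinuousLinearMap.ext fun Y => ?_
  have e : k p X Y = ∑ γ, (ρ γ p ^ (2 * m) * om p) * k p X Y := by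
    rw [← Finset.sum_mul, hs p, one_mul]
  rw [Finset.sum_apply, Fintype.sum_prod_type, e]
  simp only [_root_.sum_apply, _root_.smul_apply, smul_eq_mul]
  refine Finset.sum_congr rfl fun γ _ => ?_
  by_cases h : ρ γ p = 0
  · have : 2 * m ≠ 0 := by omega
    simp [h, this]
  · have hp := hA γ p h
    have e' := congrArg (fun T : E2 →L[ℝ] E2 →L[ℝ] ℝ => T X Y) (A.decomp γ k hk p hp)
    simp only [_root_.sum_apply, _root_.smul_apply, smul_eq_mul] at e'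
    rw [e', Finset.mul_sum]
    refine Finset.sum_congr rfl fun i _ => ?_
    rw [loc, (A.c γ i).e.left_inv (A.subA γ i hp)]
    field_simp

end Vale.Agent.P205
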