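import Vale.Agent.P205.S3
import Vale.Agent.P205.S4Aux

/-! P205, I4: one stage (BLUEPRINT, module I). -/

open scoped ContDiff InnerProductSpace Topology Manifold
open Set Filter Real

noncomputable section
namespace Vale.Agent.P205

theorem s4_sqrt {lam δ : ℝ} {n : ℕ} (h : 0 < lam) (hδ : δ ≤ (lam ^ (2 * n))⁻¹) :
    √δ ≤ (lam ^ n)⁻¹ :=
  Real.sqrt_le_iff.2 ⟨by positivity, by rwa [inv_pow, ← pow_mul, mul_comm]⟩

theorem s4_grow {lam μ a : ℝ} (j : ℕ) (h : 2 ≤ lam) (hμ : lam ^ 3 ≤ μ) (ha : a ≤ 1 / 2) :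
    lam ^ (j + 1) + a * μ ^ (j + 1) ≤ μ ^ (j + 1) := by
  have h1 : 1 ≤ lam := by linarith
  have e1 : lam ^ (j + 1) * 2 ≤ μ ^ (j + 1) := by
    calc lam ^ (j + 1) * 2 ≤ lam ^ (j + 1) * lam := by gcongr
      _ = lam ^ (j + 2) := by ring
      _ ≤ lam ^ (3 * (j + 1)) := pow_le_pow_right₀ h1 (by omega)
      _ = (lam ^ 3) ^ (j + 1) := pow_mul _ _ _
      _ ≤ _ := by gcongr
  have e2 : 0 ≤ μ ^ (j + 1) := le_trans (by positivity) e1
  have := mul_le_mul_of_nonneg_right ha e2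
  linarith

theorem s4_eps {lam μ r : ℝ} {B : ℕ} (h : 1 ≤ lam) (hμ0 : 0 ≤ μ) (hμ : μ ≤ lam ^ B)
    (hr : r ≤ (lam ^ (8 * B + 17))⁻¹) : r * μ ^ (2 + 1) ≤ (lam ^ 17)⁻¹ := by
  have hl : 0 < lam := by linarith
  calc r * μ ^ (2 + 1) ≤ (lam ^ (8 * B + 17))⁻¹ * (lam ^ B) ^ (2 + 1) := by gcongr
    _ ≤ (lam ^ (8 * B + 17))⁻¹ * lam ^ (8 * B) := by
        rw [← pow_mul]
        exact mul_le_mul_of_nonneg_left (pow_le_pow_right₀ h (by omega)) (by positivity)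
    _ = _ := by rw [pow_add]; field_simp

variable {M : Type*} [TopologicalSpace M] [ChartedSpace E2 M] [IsManifold 𝓘(ℝ, E2) ∞ M]
  [T2Space M] [CompactSpace M]

theorem stage {g : Ten M} (hg : Good g) (hp : PosD g) (A : SAt g) : ∃ (B N1 : ℕ) (η : ℝ),
    1 ≤ B ∧ 0 < η ∧ η ≤ 1 ∧ ∀ c0 : ℝ, 0 < c0 → ∀ N : ℕ,
      ∃ (K m : ℕ) (C : ℕ → ℝ) (lam0 : ℝ), 1 ≤ m ∧ (∀ j, 0 ≤ C j) ∧
      ∀ (lam δ δ' : ℝ) (F : M → R4) (ρ : A.Γ → M → ℝ) (om : M → ℝ), lam0 ≤ lam →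
        (lam ^ N)⁻¹ ≤ δ → δ ≤ (lam ^ N1)⁻¹ → 0 < δ' → δ' ≤ δ / 2 →
        (∀ j ≤ K, A.NB j F (lam ^ (j + 1))) → (∀ γ, ∀ j ≤ K, A.NB j (ρ γ) (lam ^ (j + 1))) →
        (∀ j ≤ K, A.NB j om (lam ^ (j + 1))) → (∀ γ p, |ρ γ p| ≤ 1) →
        (∀ p, c0 ≤ om p ∧ om p ≤ c0⁻¹) → (∀ p, ∑ γ, ρ γ p ^ (2 * m) * om p = 1) →
        (∀ γ p, ρ γ p ≠ 0 → p ∈ A.A γ ∧ ∀ i, 2 * lam⁻¹ ≤ A.gr F γ i p) →
        Small g (pull F - (1 - δ) • g) (η * δ) →
        ∃ Y : M → R4, (∀ j, A.NB j Y (C j * √δ * lam ^ (B * (j + 1)))) ∧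
          Small g (pull (F + Y) - (1 - δ') • g) (lam ^ N)⁻¹ := by
  classical
  obtain ⟨b, hb, hstep⟩ := step_on hg hp A
  obtain ⟨C1, hC1, hsm⟩ := A.lf_small hg hp
  obtain ⟨Cg, hCg, hlip⟩ := A.gr_lip
  have hc1 := A.c1pos
  obtain ⟨J, hJ⟩ : ∃ J : ℕ, J = Fintype.card (A.Γ × Fin 3) := ⟨_, rfl⟩
  have hbJ : 1 ≤ b ^ J := Nat.one_le_pow _ _ hb
  refine ⟨3 * b ^ J, 2 * (8 * (3 * b ^ J) + 17), min 1 (A.c1 / (4 * C1)), by omega, by positivity,
    min_le_left _ _, fun c0 hc0 N => ?_⟩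
  obtain ⟨K, m, C, lam0, hm, hC, H⟩ := hstep
    (min 1 (min (c0 * A.c1 / 4) (c0 / (C1 + A.c1 / 4)))) (by positivity) (min_le_left _ _) (N + 2)
  obtain ⟨Cβ, hCβ, hβ⟩ := A.beta_bound hg K
  have hS : 0 ≤ ∑ j ∈ Finset.range (K + 1), C j := Finset.sum_nonneg fun j _ => hC j
  have hC2 := hC 2
  refine ⟨K + 2, m, fun j => J * C j, |lam0| + 2 + Cβ + 2 * J * ∑ j ∈ Finset.range (K + 1), C j +
    Cg * (J * C 2) + J * C 2 + J, hm, fun j => mul_nonneg (Nat.cast_nonneg _) (hC j), ?_⟩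
  intro lam δ δ' F ρ om hl hδN hδ1 hδ'0 hδ' hF hρ hom hρ1 hom1 hsum hgr herr
  have p1 : 0 ≤ 2 * (J : ℝ) * ∑ j ∈ Finset.range (K + 1), C j := by positivity
  have p2 : 0 ≤ Cg * (J * C 2) := by positivity
  have p3 : 0 ≤ (J : ℝ) * C 2 := by positivity
  have p4 : 0 ≤ (J : ℝ) := by positivity
  have p5 := abs_nonneg lam0
  have p6 := le_abs_self lam0
  have hl2 : 2 ≤ lam := by linarith
  have hl1 : 1 ≤ lam := by linarith
  have hl0 : 0 < lam := by linarith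
  have hδ : 0 < δ := by linarith
  have hsq := s4_sqrt hl0 hδ1
  have hsq1 : √δ ≤ lam⁻¹ := hsq.trans (inv_anti₀ hl0 (le_self_pow₀ hl1 (by omega)))
  have hδle : δ ≤ 1 := hδ1.trans (inv_le_one_of_one_le₀ (one_le_pow₀ hl1))
  have hsF : Sm F := (hF 0 (Nat.zero_le _)).1
  have hso : Sm om := (hom 0 (Nat.zero_le _)).1
  obtain ⟨k, hk⟩ : ∃ k : Ten M, k = (1 - δ') • g - pull F := ⟨_, rfl⟩
  have hkg : Good k := hk ▸ (hg.smul _).sub (good_pull hsF)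
  obtain ⟨β, hβd⟩ : ∃ β : A.Γ → Fin 3 → P2 → ℝ, β = fun γ i y => loc (A.c γ i) om y *
    (δ⁻¹ * Lf (A.c γ i) (A.l γ i) k y) := ⟨_, rfl⟩
  have β1 : ∀ γ i, ContDiffOn ℝ ∞ (β γ i) (A.c γ i).e.target := fun γ i x hx => by
    rw [hβd]
    exact ((hso.locAt _ hx).mul (contDiffAt_const.mul (hkg.lf _ _ hx))).contDiffWithinAt
  have β2 : ∀ γ i, ∀ j ≤ K, ∀ x ∈ tsupport (A.χ' γ i),
      ‖iteratedFDeriv ℝ j (β γ i) x‖ ≤ (lam ^ 3) ^ (j + (N + 2)) := by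
    rw [hβd, hk]
    exact hβ lam δ δ' N F om hl1 (by linarith) hδN hδ'0.le (by linarith)
      (fun j hj => hF j (by omega)) (fun j hj => hom j (by omega))
  have β3 : ∀ γ i, ∀ x ∈ tsupport (A.χ' γ i),
      min 1 (min (c0 * A.c1 / 4) (c0 / (C1 + A.c1 / 4))) ≤ β γ i x ∧
        β γ i x ≤ (min 1 (min (c0 * A.c1 / 4) (c0 / (C1 + A.c1 / 4))))⁻¹ := fun γ i x hx => by
    have e : β γ i x = om ((A.c γ i).e.symm x) * (δ⁻¹ * ((δ - δ') * Lf (A.c γ i) (A.l γ i) g x -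
        Lf (A.c γ i) (A.l γ i) (pull F - (1 - δ) • g) x)) := by
      simp only [hβd, hk, loc, Lf_sub, Lf_smul]; ring
    rw [e]
    exact beta_range hc0 hc1 hC1 (min_le_right _ _) hδ'0 hδ' (hom1 _) (A.Lpos γ i x hx)
      (hsm g hg.1 1 zero_le_one (small_self hp) γ i x hx)
      (hsm _ ((good_pull hsF).sub (hg.smul _)).1 _ (by positivity) herr γ i x hx)
  obtain ⟨T, hT⟩ : ∃ T : A.Γ × Fin 3 → Ten M, T = fun s p => (δ * ρ s.1 p ^ (2 * m) *
    β s.1 s.2 ((A.c s.1 s.2).e p)) • prim (fun _ => 1) (vco (A.c s.1 s.2)) p := ⟨_, rfl⟩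
  have hTs : ∑ s, T s = k := by
    rw [hT, hβd]
    exact A.slots_sum hkg.1 hδ.ne' hm hsum fun γ p h => (hgr γ p h).1
  have key : ∀ S : Finset (A.Γ × Fin 3), ∃ Y : M → R4,
      (∀ j, A.NB j Y (S.card * C j * √δ * (lam ^ (3 * b ^ S.card)) ^ (j + 1))) ∧
      Small g (pull (F + Y) - pull F - ∑ s ∈ S, T s) (S.card * ((lam ^ 3) ^ (N + 2))⁻¹) := by
    intro S
    induction S using Finset.induction_on with
    | empty =>
      refine ⟨0, fun j => (SAt.nb_zero A j).mono A (by simp), fun p X => ?_⟩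
      rw [add_zero, Finset.sum_empty, Finset.card_empty, Nat.cast_zero, zero_mul, zero_mul]
      show |pull F p X X - pull F p X X - 0| ≤ 0
      rw [sub_self, sub_self, abs_zero]
    | insert a S ha ih =>
      obtain ⟨Y, hY, hE⟩ := ih
      have hcard : S.card ≤ J := hJ ▸ S.card_le_univ
      have hcard' : (S.card : ℝ) ≤ J := by exact_mod_cast hcard
      have hbs : 1 ≤ b ^ S.card := Nat.one_le_pow _ _ hb
      obtain ⟨μ, hμ⟩ : ∃ μ, μ = lam ^ (3 * b ^ S.card) := ⟨_, rfl⟩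
      rw [← hμ] at hY
      have m1 : lam ^ 3 ≤ μ := hμ ▸ pow_le_pow_right₀ hl1 (by omega)
      have m2 : lam ≤ μ := (le_self_pow₀ hl1 (by norm_num)).trans m1
      have m3 : μ ≤ lam ^ (3 * b ^ J) := hμ ▸ pow_le_pow_right₀ hl1
        (Nat.mul_le_mul_left _ (Nat.pow_le_pow_right hb hcard))
      have m0 : 0 < μ := by linarith
      have hY2 : A.NB 2 Y (J * C 2 * (lam ^ 17)⁻¹) := (hY 2).mono A (by
        rw [mul_assoc]
        exact mul_le_mul (mul_le_mul_of_nonneg_right hcard' hC2) (s4_eps hl1 m0.le m3 hsq)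
          (by positivity) p3)
      have hε : J * C 2 * (lam ^ 17)⁻¹ ≤ 1 := by
        rw [mul_inv_le_iff₀ (by positivity), one_mul]
        exact le_trans (by linarith) (le_self_pow₀ hl1 (by norm_num))
      obtain ⟨Y', hY', hE'⟩ := H a.1 a.2 μ δ (F + Y) (ρ a.1) (β a.1 a.2) (by linarith) hδ
        (hδ1.trans (inv_anti₀ (by positivity) (by
          calc μ ^ 16 ≤ (lam ^ (3 * b ^ J)) ^ 16 := by gcongr
            _ = lam ^ (3 * b ^ J * 16) := (pow_mul _ _ _).symm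
            _ ≤ _ := pow_le_pow_right₀ hl1 (by omega))))
        (fun j hj => (SAt.NB.add A (hF j (by omega)) (hY j)).mono A (s4_grow j hl2 m1 (by
          have e1 : C j ≤ ∑ j ∈ Finset.range (K + 1), C j :=
            Finset.single_le_sum (f := C) (fun j _ => hC j) (Finset.mem_range_succ_iff.2 hj)
          have e2 := hC j
          calc (S.card : ℝ) * C j * √δ ≤ J * (∑ j ∈ Finset.range (K + 1), C j) * lam⁻¹ := by gcongr
            _ ≤ 1 / 2 := by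
              rw [mul_inv_le_iff₀ hl0]
              linarith)))
        (fun j hj => (hρ a.1 j (by omega)).mono A (by gcongr)) (β1 _ _)
        (fun j hj x hx => (β2 _ _ j hj x hx).trans (by gcongr)) (hρ1 _) (β3 _ _)
        (fun p h => ⟨(hgr _ p h).1, by
          have e1 := (abs_le.1 (hlip F Y (lam ^ (2 + 1)) _ (one_le_pow₀ hl1) hε (hF 2 (by omega))
            hY2 a.1 a.2 p (hgr _ p h).1)).1
          have e2 := (hgr _ p h).2 a.2
          have e3 : Cg * (lam ^ (2 + 1)) ^ 5 * (J * C 2 * (lam ^ 17)⁻¹) ≤ lam⁻¹ := by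
            calc _ = Cg * (J * C 2) * (lam ^ 15 * (lam ^ 17)⁻¹) := by ring
              _ = Cg * (J * C 2) * lam⁻¹ * lam⁻¹ := by field_simp
              _ ≤ lam * lam⁻¹ * lam⁻¹ := by gcongr; linarith
              _ = _ := by field_simp
          have e4 : μ⁻¹ ≤ lam⁻¹ := inv_anti₀ hl0 m2
          linarith⟩)
      rw [Finset.card_insert_of_notMem ha, Finset.sum_insert ha]
      refine ⟨Y + Y', fun j => (SAt.NB.add A (hY j) (hY' j)).mono A ?_, fun p => ?_⟩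
      · have e1 : lam ^ (3 * b ^ (S.card + 1)) = μ ^ b := by
          rw [hμ, ← pow_mul, pow_succ, mul_assoc]
        have e2 : μ ^ (j + 1) ≤ (μ ^ b) ^ (j + 1) := by
          gcongr
          exact le_self_pow₀ (by linarith) (by omega)
        have e3 := hC j
        rw [e1, pow_mul]
        calc _ ≤ S.card * C j * √δ * (μ ^ b) ^ (j + 1) + C j * √δ * (μ ^ b) ^ (j + 1) := by gcongr
          _ = _ := by push_cast; ring
      · have e1 := ((hE' p).add (hE p)).mono hp (τ := ((S.card + 1 : ℕ) : ℝ) *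
          ((lam ^ 3) ^ (N + 2))⁻¹) (by
            have : (μ ^ (N + 2))⁻¹ ≤ ((lam ^ 3) ^ (N + 2))⁻¹ := by gcongr
            push_cast; linarith)
        have e2 : pull (F + (Y + Y')) - pull F - (T a + ∑ s ∈ S, T s) =
            pull (F + Y + Y') - pull (F + Y) - T a + (pull (F + Y) - pull F - ∑ s ∈ S, T s) := by
          rw [add_assoc F]; abel
        rw [e2, hT]
        rw [hT] at e1
        exact e1
  obtain ⟨Y, hY, hE⟩ := key Finset.univ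
  rw [Finset.card_univ, ← hJ] at hY hE
  refine ⟨Y, fun j => (hY j).mono A (le_of_eq ?_), fun p => ?_⟩
  · rw [← pow_mul]
  · have e : pull (F + Y) - pull F - ∑ s, T s = pull (F + Y) - (1 - δ') • g := by
      rw [hTs, hk]; abel
    rw [e] at hE
    refine (hE p).mono hp ?_
    rw [mul_inv_le_iff₀ (by positivity), ← pow_mul, le_inv_mul_iff₀ (by positivity)]
    calc lam ^ N * J ≤ lam ^ N * lam := by gcongr; linarith
      _ = lam ^ (N + 1) := by ring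
      _ ≤ _ := pow_le_pow_right₀ hl1 (by omega)

end Vale.Agent.P205
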