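import Vale.Agent.P205.Defs

/-! P205, I5: the abstract iteration (BLUEPRINT, module I). -/

open scoped ContDiff InnerProductSpace Topology Manifold
open Set Filter Real

noncomputable section
namespace Vale.Agent.P205

theorem it_sqrt {lam : ℝ} (h : 0 < lam) (n : ℕ) : √(lam ^ (2 * n))⁻¹ = (lam ^ n)⁻¹ := by
  rw [mul_comm, pow_mul, ← inv_pow, sqrt_sq (by positivity)]

theorem it_grow {lam a c : ℝ} {B j n : ℕ} (hl : 2 ≤ lam) (hB : 1 ≤ B) (hn : 1 ≤ n) (ha : 1 ≤ a)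
    (hc : c + 1 ≤ lam) : a * lam ^ (j + 1) + c * (lam ^ n)⁻¹ * lam ^ (B * (j + 1)) ≤
      (a + 1) / lam * (lam ^ (B + 1)) ^ (j + 1) := by
  have h1 : 1 ≤ lam := by linarith
  have h0 : 0 < lam := by linarith
  have h2 : c * (lam ^ n)⁻¹ ≤ 1 := by
    rw [← div_eq_mul_inv, div_le_one (by positivity)]
    linarith [le_self_pow₀ h1 (by omega : n ≠ 0)]
  have h3 : lam ^ (j + 1) * lam ≤ (lam ^ (B + 1)) ^ (j + 1) := by
    rw [← pow_succ, ← pow_mul]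
    exact pow_le_pow_right₀ h1 (by nlinarith)
  have h4 : lam ^ (B * (j + 1)) * lam ≤ (lam ^ (B + 1)) ^ (j + 1) := by
    rw [← pow_succ, ← pow_mul]
    exact pow_le_pow_right₀ h1 (by nlinarith)
  have h5 := mul_le_mul_of_nonneg_right h2 (by positivity : 0 ≤ lam ^ (B * (j + 1)) * lam)
  rw [div_mul_eq_mul_div, le_div_iff₀ h0]
  nlinarith

theorem it_small {lam c : ℝ} {B j n : ℕ} (hl : 1 ≤ lam) (hn : B * (j + 1) + 3 ≤ n)
    (hc : c + 1 ≤ lam) : c * (lam ^ n)⁻¹ * lam ^ (B * (j + 1)) ≤ (lam ^ 2)⁻¹ := by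
  have h0 : 0 < lam := by linarith
  have h1 : lam * lam ^ (B * (j + 1)) * lam ^ 2 ≤ lam ^ n := by
    rw [← pow_succ', ← pow_add]
    exact pow_le_pow_right₀ hl (by omega)
  rw [mul_right_comm, ← div_eq_mul_inv, inv_eq_one_div, div_le_div_iff₀ (by positivity)
    (by positivity), one_mul]
  refine le_trans ?_ h1
  gcongr
  linarith

theorem iterate {X : Type*} [AddCommGroup X] (NB : ℕ → X → ℝ → Prop) (Err : X → ℝ → ℝ → Prop)
    (W : ℕ → ℝ → Prop) (x0 : X) (B N1 n0 : ℕ) (η lam0 : ℝ) (K : ℕ → ℕ) (C : ℕ → ℕ → ℝ)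
    (Λ : ℕ → ℝ)
    (nb_mono : ∀ j x σ τ, NB j x σ → σ ≤ τ → NB j x τ)
    (nb_add : ∀ j x y σ τ, NB j x σ → NB j y τ → NB j (x + y) (σ + τ))
    (nb_zero : ∀ j, NB j 0 0)
    (nb_fin : ∀ j j' x σ, NB j x σ → ∃ τ, NB j' x τ)
    (err_mono : ∀ x δ σ τ, Err x δ σ → σ ≤ τ → Err x δ τ)
    (w_mono : ∀ N s t, W N s → s ≤ t → W N t) (w_ex : ∀ N, ∃ s, W N s)
    (hB : 1 ≤ B) (hη : 0 < η) (hη1 : η ≤ 1) (hC : ∀ N j, 0 ≤ C N j)
    (stage : ∀ N lam δ δ' x, Λ N ≤ lam → lam0 ≤ lam → W N lam → (lam ^ N)⁻¹ ≤ δ →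
      δ ≤ (lam ^ N1)⁻¹ → 0 < δ' → δ' ≤ δ / 2 → (∀ j ≤ K N, NB j x (lam ^ (j + 1))) →
      NB 2 (x - x0) (2 * (lam0 ^ 2)⁻¹) → Err x δ (η * δ) →
      ∃ y, (∀ j, NB j y (C N j * √δ * lam ^ (B * (j + 1)))) ∧ Err (x + y) δ' (lam ^ N)⁻¹)
    (hn0 : N1 ≤ 2 * n0) (hn0' : 3 * B + 3 ≤ n0) (hl2 : 2 ≤ lam0) (hlη : η⁻¹ ≤ lam0)
    (s1 : Λ (2 * (B + 1) * (n0 + 1) + 1) ≤ lam0) (s2 : W (2 * (B + 1) * (n0 + 1) + 1) lam0)
    (s3 : ∀ j ≤ K (2 * (B + 1) * (n0 + 1) + 1), NB j x0 (lam0 ^ (j + 1)))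
    (s4 : ∀ j ≤ max (K (2 * (B + 1) * (n0 + 1) + 1)) n0,
      C (2 * (B + 1) * (n0 + 1) + 1) j + 1 ≤ lam0)
    (s5 : Err x0 (lam0 ^ (2 * n0))⁻¹ (η * (lam0 ^ (2 * n0))⁻¹)) :
    ∃ (y : ℕ → X) (δ : ℕ → ℝ), Tendsto δ atTop (𝓝 0) ∧
      (∀ q, Err (x0 + ∑ r ∈ Finset.range q, y r) (δ q) (δ q)) ∧
      (∀ j, ∃ σ : ℕ → ℝ, Summable σ ∧ ∀ᶠ q in atTop, NB j (y q) (σ q)) ∧
      ∃ σ : ℕ → ℝ, Summable σ ∧ (∀ q, NB 2 (y q) (σ q)) ∧ ∑' q, σ q ≤ 2 * (lam0 ^ 2)⁻¹ := by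
  obtain ⟨Nl, hNl⟩ : ∃ Nl : ℕ → ℕ, Nl = fun n => 2 * (B + 1) * (n + 1) + 1 := ⟨_, rfl⟩
  obtain ⟨Rd, hRd⟩ : ∃ Rd : ℕ → ℝ → X → Prop, Rd = fun n lam x => Λ (Nl n) ≤ lam ∧
    W (Nl n) lam ∧ (∀ j ≤ K (Nl n), NB j x (lam ^ (j + 1))) ∧
      ∀ j ≤ max (K (Nl n)) n, C (Nl n) j + 1 ≤ lam := ⟨_, rfl⟩
  obtain ⟨Iv, hIv⟩ : ∃ Iv : ℕ × ℝ × X → Prop, Iv = fun s => n0 ≤ s.1 ∧ lam0 ≤ s.2.1 ∧
    Rd s.1 s.2.1 s.2.2 ∧ Err s.2.2 (s.2.1 ^ (2 * s.1))⁻¹ (η * (s.2.1 ^ (2 * s.1))⁻¹) ∧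
      NB 2 (s.2.2 - x0) (2 * (lam0 ^ 2)⁻¹ - 2 * (s.2.1 ^ 2)⁻¹) := ⟨_, rfl⟩
  have step : ∀ s : {s // Iv s}, ∃ s' : {s // Iv s}, s'.1.2.1 = s.1.2.1 ^ (B + 1) ∧
      s.1.1 ≤ s'.1.1 ∧ ((Rd (s.1.1 + 1) s.1.2.1 s.1.2.2 ∧
        ∀ j ≤ K (Nl (s.1.1 + 1)), C (Nl s.1.1) j + 1 ≤ s.1.2.1) → s'.1.1 = s.1.1 + 1) ∧
      ∀ j, NB j (s'.1.2.2 - s.1.2.2)
        (C (Nl s.1.1) j * (s.1.2.1 ^ s.1.1)⁻¹ * s.1.2.1 ^ (B * (j + 1))) := by
    rintro ⟨⟨n, lam, x⟩, hs⟩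
    have hs' := hs
    rw [hIv] at hs'
    obtain ⟨i1, i2, i3, i4, i5⟩ := hs'
    simp only at i1 i2 i3 i4 i5 ⊢
    have l2 : 2 ≤ lam := hl2.trans i2
    have l1 : 1 ≤ lam := by linarith
    have l0 : 0 < lam := by linarith
    have l3 : lam * lam ≤ lam ^ (B + 1) := by
      rw [← sq]
      exact pow_le_pow_right₀ l1 (by omega)
    have l4 : lam ≤ lam ^ (B + 1) := le_self_pow₀ l1 (by omega)
    obtain ⟨n', k1, k2, k3, k4, k5⟩ : ∃ n', n ≤ n' ∧ n' ≤ n + 1 ∧ ((Rd (n + 1) lam x ∧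
        ∀ j ≤ K (Nl (n + 1)), C (Nl n) j + 1 ≤ lam) → n' = n + 1) ∧ Rd n' lam x ∧
        ∀ j ≤ K (Nl n'), C (Nl n) j + 1 ≤ lam := by
      by_cases h : Rd (n + 1) lam x ∧ ∀ j ≤ K (Nl (n + 1)), C (Nl n) j + 1 ≤ lam
      · exact ⟨n + 1, by omega, le_rfl, fun _ => rfl, h⟩
      · refine ⟨n, le_rfl, by omega, fun h' => absurd h' h, i3, fun j hj => ?_⟩
        rw [hRd] at i3
        exact i3.2.2.2 j (le_max_of_le_left hj)
    rw [hRd] at i3 k4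
    obtain ⟨y, h1, h2⟩ := stage (Nl n) lam (lam ^ (2 * n))⁻¹ ((lam ^ (B + 1)) ^ (2 * n'))⁻¹ x
      i3.1 i2 i3.2.1 (inv_anti₀ (by positivity) (pow_le_pow_right₀ l1 (by rw [hNl]; nlinarith)))
      (inv_anti₀ (by positivity) (pow_le_pow_right₀ l1 (by omega))) (by positivity) (by
        rw [← pow_mul, div_eq_mul_inv, ← mul_inv]
        refine inv_anti₀ (by positivity) (le_trans ?_
          (pow_le_pow_right₀ l1 (by nlinarith : 2 * n + 1 ≤ _)))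
        rw [pow_succ]
        gcongr) i3.2.2.1 (nb_mono _ _ _ _ i5 (by linarith [inv_pos.2 (pow_pos l0 2)])) i4
    simp only [it_sqrt l0] at h1
    refine ⟨⟨(n', lam ^ (B + 1), x + y), ?_⟩, rfl, k1, k3, by simpa using h1⟩
    rw [hIv, hRd]
    refine ⟨i1.trans k1, i2.trans l4, ⟨k4.1.trans l4, w_mono _ _ _ k4.2.1 l4, fun j hj => ?_,
      fun j hj => (k4.2.2.2 j hj).trans l4⟩, err_mono _ _ _ _ h2 ?_, ?_⟩
    · refine nb_mono _ _ _ _ (nb_add _ _ _ _ _ (k4.2.2.1 j hj) (h1 j)) ?_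
      have := it_grow (j := j) l2 hB (by omega : 1 ≤ n) le_rfl (k5 j hj)
      rw [one_mul] at this
      exact this.trans (mul_le_of_le_one_left (by positivity) ((div_le_one l0).2 (by linarith)))
    · rw [← pow_mul, ← inv_inv η, ← mul_inv]
      refine inv_anti₀ (by positivity) (le_trans ?_
        (pow_le_pow_right₀ l1 (by rw [hNl]; nlinarith : (B + 1) * (2 * n') + 1 ≤ _)))
      rw [pow_succ' lam ((B + 1) * (2 * n'))]
      exact mul_le_mul_of_nonneg_right (hlη.trans i2) (by positivity)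
    · rw [add_sub_right_comm]
      refine nb_mono _ _ _ _ (nb_add _ _ _ _ _ i5 (h1 2)) ?_
      have h3 := it_small (B := B) (j := 2) l1 (by omega : _ ≤ n)
        (i3.2.2.2 2 (le_max_of_le_right (by omega)))
      have h4 : 2 * ((lam ^ (B + 1)) ^ 2)⁻¹ ≤ (lam ^ 2)⁻¹ := by
        rw [← div_eq_mul_inv, inv_eq_one_div, div_le_div_iff₀ (by positivity) (by positivity)]
        nlinarith [mul_self_le_mul_self (by positivity) l3, mul_le_mul l2 l2 zero_le_two l0.le,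
          mul_pos l0 l0]
      linarith
  choose f f1 f2 f3 f4 using step
  have h0 : Iv (n0, lam0, x0) := by
    rw [hIv, hRd, hNl]
    exact ⟨le_rfl, le_rfl, ⟨s1, s2, s3, s4⟩, s5, by simpa using nb_zero 2⟩
  obtain ⟨n, lam, x, e0, e1, hI, g1, g2, g3, g4⟩ : ∃ (n : ℕ → ℕ) (lam : ℕ → ℝ) (x : ℕ → X),
      x 0 = x0 ∧ lam 0 = lam0 ∧ (∀ q, Iv (n q, lam q, x q)) ∧
      (∀ q, lam (q + 1) = lam q ^ (B + 1)) ∧ (∀ q, n q ≤ n (q + 1)) ∧
      (∀ q, (Rd (n q + 1) (lam q) (x q) ∧ ∀ j ≤ K (Nl (n q + 1)), C (Nl (n q)) j + 1 ≤ lam q) →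
        n (q + 1) = n q + 1) ∧ ∀ q j, NB j (x (q + 1) - x q)
        (C (Nl (n q)) j * (lam q ^ n q)⁻¹ * lam q ^ (B * (j + 1))) := by
    refine ⟨fun q => (f^[q] ⟨_, h0⟩).1.1, fun q => (f^[q] ⟨_, h0⟩).1.2.1,
      fun q => (f^[q] ⟨_, h0⟩).1.2.2, rfl, rfl, fun q => (f^[q] ⟨_, h0⟩).2, ?_⟩
    simp only [Function.iterate_succ_apply']
    exact ⟨fun _ => f1 _, fun _ => f2 _, fun _ => f3 _, fun _ => f4 _⟩
  rw [hIv] at hI
  simp only [hRd] at hI g3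
  have l2 : ∀ q, 2 ≤ lam q := fun q => hl2.trans (hI q).2.1
  have l1 : ∀ q, 1 ≤ lam q := fun q => one_le_two.trans (l2 q)
  have l0 : ∀ q, 0 < lam q := fun q => one_pos.trans_le (l1 q)
  have l3 : ∀ q, lam0 * 2 ^ q ≤ lam q := fun q => by
    induction q with
    | zero => simp [e1]
    | succ q ih =>
      have : lam q ^ 2 ≤ lam q ^ (B + 1) := pow_le_pow_right₀ (l1 q) (by omega)
      rw [g1, pow_succ]
      nlinarith [l2 q]
  have l4 : ∀ q, (lam q ^ 2)⁻¹ ≤ (lam0 ^ 2)⁻¹ * (1 / 2) ^ q := fun q => by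
    rw [one_div, inv_pow, ← mul_inv]
    refine inv_anti₀ (by positivity) (le_trans ?_ (pow_le_pow_left₀ (by positivity) (l3 q) 2))
    rw [mul_pow]
    gcongr
    exact le_self_pow₀ (one_le_pow₀ one_le_two) two_ne_zero
  have lt : Tendsto lam atTop atTop := tendsto_atTop_mono l3
    ((tendsto_pow_atTop_atTop_of_one_lt one_lt_two).const_mul_atTop (by linarith))
  have hsum : Summable fun q : ℕ => (lam0 ^ 2)⁻¹ * (1 / 2 : ℝ) ^ q :=
    summable_geometric_two.mul_left _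
  have hy : ∀ q j, B * (j + 1) + 3 ≤ n q → NB j (x (q + 1) - x q) ((lam0 ^ 2)⁻¹ * (1 / 2) ^ q) :=
    fun q j h => nb_mono _ _ _ _ (g4 q j) ((it_small (l1 q) h
      ((hI q).2.2.1.2.2.2 j (le_max_of_le_right (by nlinarith)))).trans (l4 q))
  have mono : Monotone n := monotone_nat_of_le_succ g2
  have nt : Tendsto n atTop atTop := by
    refine mono.tendsto_atTop_atTop fun b => ?_
    induction b with
    | zero => exact ⟨0, Nat.zero_le _⟩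
    | succ b ih =>
      obtain ⟨q0, hq0⟩ := ih
      by_contra hn
      push Not at hn
      have hb : ∀ q ≥ q0, n q = b := fun q hq =>
        le_antisymm (Nat.le_of_lt_succ (hn q)) (hq0.trans (mono hq))
      have ev : ∀ j, ∀ᶠ q in atTop, NB j (x q) (lam q ^ (j + 1)) := fun j => by
        obtain ⟨q1, hq1⟩ := eventually_atTop.1
          ((lt.eventually_ge_atTop (C (Nl b) j + 1)).and (eventually_ge_atTop q0))
        obtain ⟨τ, hτ⟩ := nb_fin 0 j _ _ ((hI q1).2.2.1.2.2.1 0 (Nat.zero_le _))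
        have k1 : ∀ q ≥ q1, NB j (x q) (max τ 1 * lam q ^ (j + 1)) →
            NB j (x (q + 1)) ((max τ 1 + 1) / lam q * lam (q + 1) ^ (j + 1)) := fun q hq h => by
          have := nb_add _ _ _ _ _ h (g4 q j)
          rw [add_sub_cancel] at this
          rw [g1]
          exact nb_mono _ _ _ _ this (it_grow (l2 q) hB (by have := (hI q).1; omega)
            (le_max_right _ _) (hb q (hq1 q hq).2 ▸ (hq1 q hq).1))
        have k2 : ∀ q ≥ q1, NB j (x q) (max τ 1 * lam q ^ (j + 1)) := fun q hq => by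
          induction q, hq using Nat.le_induction with
          | base => exact nb_mono _ _ _ _ hτ ((le_max_left τ 1).trans (le_mul_of_one_le_right
              (zero_le_one.trans (le_max_right _ _)) (one_le_pow₀ (l1 _))))
          | succ q hq ih =>
            refine nb_mono _ _ _ _ (k1 q hq ih) (mul_le_mul_of_nonneg_right
              ((div_le_iff₀ (l0 q)).2 ?_) (pow_pos (l0 _) _).le)
            nlinarith [le_max_right τ 1, l2 q]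
        rw [← map_add_atTop_eq_nat 1, eventually_map]
        filter_upwards [lt.eventually_ge_atTop (max τ 1 + 1), eventually_ge_atTop q1] with q h1 h2
        exact nb_mono _ _ _ _ (k1 q h2 (k2 q h2)) (mul_le_of_le_one_left (pow_pos (l0 _) _).le
          ((div_le_one (l0 q)).2 h1))
      obtain ⟨s, hs⟩ := w_ex (Nl (b + 1))
      obtain ⟨q, ⟨⟨⟨⟨h1, h2⟩, h3⟩, h4⟩, h5⟩, h6⟩ := ((((((lt.eventually_ge_atTop
        (Λ (Nl (b + 1)))).and (lt.eventually_ge_atTop s)).and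
        ((eventually_all_finite (finite_Iic (K (Nl (b + 1))))).2 fun j _ => ev j)).and
        ((eventually_all_finite (finite_Iic (max (K (Nl (b + 1))) (b + 1)))).2 fun j _ =>
          lt.eventually_ge_atTop (C (Nl (b + 1)) j + 1))).and
        ((eventually_all_finite (finite_Iic (K (Nl (b + 1))))).2 fun j _ =>
          lt.eventually_ge_atTop (C (Nl b) j + 1))).and (eventually_ge_atTop q0)).exists
      have h7 := g3 q (by
        rw [hb q h6]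
        exact ⟨⟨h1, w_mono _ _ _ hs h2, h3, h4⟩, h5⟩)
      have h8 := hn (q + 1)
      have h9 := hb q h6
      omega
  refine ⟨fun q => x (q + 1) - x q, fun q => (lam q ^ (2 * n q))⁻¹, ?_, fun q => ?_,
    fun j => ⟨_, hsum, (nt.eventually_ge_atTop _).mono fun q h => hy q j h⟩, _, hsum,
    fun q => hy q 2 (by have := (hI q).1; omega), ?_⟩
  · exact (tendsto_atTop_mono (fun q => le_self_pow₀ (l1 q) (by have := (hI q).1; omega))
      lt).inv_tendsto_atTop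
  · rw [Finset.sum_range_sub, e0, add_sub_cancel]
    exact err_mono _ _ _ _ (hI q).2.2.2.1
      (mul_le_of_le_one_left (inv_pos.2 (pow_pos (l0 q) _)).le hη1)
  · rw [tsum_mul_left, tsum_geometric_two, mul_comm]

end Vale.Agent.P205
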