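import Vale.Agent.P205.S2

/-! P205, I6: passing to the limit (use `contDiff_tsum_of_eventually` for `χ' • loc c (y q)`). -/

open scoped ContDiff InnerProductSpace Topology Manifold
open Set Filter Real

noncomputable section
namespace Vale.Agent.P205

variable {M : Type*} [TopologicalSpace M] [ChartedSpace E2 M] [IsManifold 𝓘(ℝ, E2) ∞ M]
  [T2Space M] [CompactSpace M]

omit [IsManifold 𝓘(ℝ, E2) ∞ M] [T2Space M] [CompactSpace M] in
theorem s6_one {g : Ten M} (A : SAt g) (γ : A.Γ) (i : Fin 3) {p : M} (hp : p ∈ A.A γ) :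
    ∀ᶠ x in 𝓝 ((A.c γ i).e p), A.χ' γ i x = 1 :=
  (A.χχ' γ i).filter_mono (nhds_le_nhdsSet (subset_tsupport _ (by
    rw [Function.mem_support, A.χA γ i p hp]; exact one_ne_zero)))

theorem s6_chart {g : Ten M} (A : SAt g) {y : ℕ → M → R4}
    (hall : ∀ j, ∃ σ : ℕ → ℝ, Summable σ ∧ ∀ᶠ q in atTop, A.NB j (y q) (σ q))
    {σ : ℕ → ℝ} (hσ : Summable σ) (h2 : ∀ q, A.NB 2 (y q) (σ q)) (γ : A.Γ) (i : Fin 3) {p : M}
    (hp : p ∈ A.A γ) :
    ContDiffAt ℝ ∞ (loc (A.c γ i) fun p => ∑' q, y q p) ((A.c γ i).e p) ∧ ∀ j ≤ 2,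
      HasSum (fun q => iteratedFDeriv ℝ j (loc (A.c γ i) (y q)) ((A.c γ i).e p))
        (iteratedFDeriv ℝ j (loc (A.c γ i) fun p => ∑' q, y q p) ((A.c γ i).e p)) := by
  have hs := fun q => ((h2 q).1).loc (A.c γ i)
  have hu : ∀ q, ContDiff ℝ ∞ fun x => A.χ' γ i x • loc (A.c γ i) (y q) x := fun q =>
    contDiff_cut _ (A.smχ' γ i).1 (A.smχ' γ i).2.2.1 (hs q)
  have hb : ∀ j, ∃ C : ℝ, ∀ q τ, A.NB j (y q) τ → ∀ l ≤ j, ∀ x,
      ‖iteratedFDeriv ℝ l (fun x => A.χ' γ i x • loc (A.c γ i) (y q) x) x‖ ≤ C * |τ| := fun j => by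
    obtain ⟨C, -, hC⟩ := A.cut_bound (V := R4) γ i j
    exact ⟨C, fun q τ h => hC _ _ (abs_nonneg τ) (hs q) fun l hl x hx =>
      (h.2 γ i l hl x hx).trans (le_abs_self τ)⟩
  choose C hC using hb
  choose τ hτ hτ' using hall
  have h1 := s6_one A γ i hp
  have e1 : (loc (A.c γ i) fun p => ∑' q, y q p) =ᶠ[𝓝 ((A.c γ i).e p)]
      fun x => ∑' q, A.χ' γ i x • loc (A.c γ i) (y q) x := h1.mono fun x hx => by
    simp only [hx, one_smul, loc]
  have e2 : ∀ q j, iteratedFDeriv ℝ j (fun x => A.χ' γ i x • loc (A.c γ i) (y q) x)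
      ((A.c γ i).e p) = iteratedFDeriv ℝ j (loc (A.c γ i) (y q)) ((A.c γ i).e p) := fun q j =>
    (Filter.EventuallyEq.iteratedFDeriv ℝ (h1.mono fun x hx => by
      simp only [hx, one_smul]) j).eq_of_nhds
  refine ⟨(contDiff_tsum_of_eventually (N := ⊤) (v := fun k q => C k * |τ k q|) hu
    (fun k _ => (hτ k).abs.mul_left _) fun k _ => ?_).contDiffAt.congr_of_eventuallyEq e1,
    fun j hj => ?_⟩
  · rw [Nat.cofinite_eq_atTop]
    exact (hτ' k).mono fun q hq => hC k q _ hq k le_rfl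
  · rw [(e1.iteratedFDeriv ℝ j).eq_of_nhds, iteratedFDeriv_tsum_apply (N := 2)
      (v := fun _ q => C 2 * |σ q|) (fun q => (hu q).of_le (by exact_mod_cast le_top))
      (fun _ _ => hσ.abs.mul_left _) (fun k q x hk => hC 2 q _ (h2 q) k (by exact_mod_cast hk) x)
      (by exact_mod_cast hj)]
    simp only [e2]
    exact (Summable.of_norm_bounded hσ fun q => (h2 q).2 γ i j hj _ (A.s2_mem γ i hp)).hasSum

theorem limit_exact {g : Ten M} (hg : Good g) (hp : PosD g) (A : SAt g) {F : M → R4} (hF : Sm F)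
    {y : ℕ → M → R4} {δ : ℕ → ℝ} (hδ : Tendsto δ atTop (𝓝 0))
    (herr : ∀ q, Small g (pull (F + ∑ r ∈ Finset.range q, y r) - (1 - δ q) • g) (δ q))
    (hall : ∀ j, ∃ σ : ℕ → ℝ, Summable σ ∧ ∀ᶠ q in atTop, A.NB j (y q) (σ q))
    {σ : ℕ → ℝ} (hσ : Summable σ) (h2 : ∀ q, A.NB 2 (y q) (σ q)) :
    ∃ Y : M → R4, Sm Y ∧ pull (F + Y) = g ∧ ∀ γ i, ∀ j ≤ 2, ∀ p ∈ A.A γ,
      ‖iteratedFDeriv ℝ j (loc (A.c γ i) Y) ((A.c γ i).e p)‖ ≤ ∑' q, σ q := by
  have hY : Sm fun p => ∑' q, y q p := sm_of_loc fun p => by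
    obtain ⟨γ, h⟩ := A.cov p
    have hA := A.hA γ p (one_pos.trans_le h)
    exact ⟨A.c γ 0, A.subA γ 0 hA, (s6_chart A hall hσ h2 γ 0 hA).1⟩
  refine ⟨_, hY, funext fun p => ?_, fun γ i j hj p hA => ?_⟩
  · obtain ⟨γ, h⟩ := A.cov p
    have hA := A.hA γ p (one_pos.trans_le h)
    have hs := A.subA γ 0 hA
    have h1 := (s6_chart A hall hσ h2 γ 0 hA).2 1 (by norm_num)
    generalize A.c γ 0 = c at hs h1
    have hx := c.e.map_source hs
    have hd : ∀ {G : M → R4}, Sm G → DifferentiableAt ℝ (loc c G) (c.e p) := fun hG =>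
      (hG.locAt c hx).differentiableAt (by simp)
    have hS : ∀ q, Sm (F + ∑ r ∈ Finset.range q, y r) := fun q => by
      have := hF.add (Sm.sum (Finset.range q) fun r _ => (h2 r).1)
      simp only [← Finset.sum_apply] at this
      exact this
    have hFY : Sm (F + fun p => ∑' q, y q p) := hF.add hY
    have h3 : ∀ X, Tendsto (fun q => fderiv ℝ (loc c (F + ∑ r ∈ Finset.range q, y r)) (c.e p) X)
        atTop (𝓝 (fderiv ℝ (loc c (F + fun p => ∑' q, y q p)) (c.e p) X)) := fun X => by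
      have h4 := ((ContinuousMultilinearMap.apply ℝ (fun _ : Fin 1 => P2) R4
        fun _ => X).hasSum h1).tendsto_sum_nat
      simp only [ContinuousMultilinearMap.apply_apply, iteratedFDeriv_one_apply] at h4
      have e1 : loc c (F + fun p => ∑' q, y q p) = loc c F + loc c fun p => ∑' q, y q p := rfl
      have e2 : ∀ q, loc c (F + ∑ r ∈ Finset.range q, y r) =
          loc c F + ∑ r ∈ Finset.range q, loc c (y r) := fun q => by
        funext x
        simp only [loc, Pi.add_apply, Finset.sum_apply]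
      have e3 : ∀ q, fderiv ℝ (loc c (F + ∑ r ∈ Finset.range q, y r)) (c.e p) X =
          fderiv ℝ (loc c F) (c.e p) X +
            ∑ r ∈ Finset.range q, fderiv ℝ (loc c (y r)) (c.e p) X := fun q => by
        rw [e2, fderiv_add (hd hF) (DifferentiableAt.sum fun r _ => hd (h2 r).1),
          fderiv_sum fun r _ => hd (h2 r).1]
        simp
      rw [e1, fderiv_add (hd hF) (hd hY)]
      simp only [e3]
      exact h4.const_add _
    have h5 : ∀ X, cmp c (pull (F + fun p => ∑' q, y q p)) (c.e p) X X = cmp c g (c.e p) X X :=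
      fun X => by
      have h6 := ((h3 X).inner (𝕜 := ℝ) (h3 X)).sub
        ((hδ.const_sub 1).mul_const (cmp c g (c.e p) X X))
      have h7 := le_of_tendsto_of_tendsto' h6.abs (hδ.mul_const (cmp c g (c.e p) X X)) fun q => by
        rw [← cmp_pull c (hS q) hx, ← cmp_smul, ← cmp_sub]
        exact herr q _ _
      rw [zero_mul, sub_zero, one_mul, abs_nonpos_iff, sub_eq_zero] at h7
      rw [cmp_pull c hFY hx, h7]
    have h8 := h5 (1, 1)
    rw [cmp_expand c (symm_pull _), cmp_expand c hg.1] at h8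
    have hE : cE c (pull (F + fun p => ∑' q, y q p)) (c.e p) = cE c g (c.e p) := h5 _
    have hG : cG c (pull (F + fun p => ∑' q, y q p)) (c.e p) = cG c g (c.e p) := h5 _
    exact ten_ext' c (symm_pull _) hg.1 hs hE (by linarith) hG
  · rw [← ((s6_chart A hall hσ h2 γ i hA).2 j hj).tsum_eq]
    exact tsum_of_norm_bounded hσ.hasSum fun q => (h2 q).2 γ i j hj _ (A.s2_mem γ i hA)

end Vale.Agent.P205
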