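import Vale.Agent.P205.S2
import Vale.Agent.P205.S4
import Vale.Agent.P205.S5
import Vale.Agent.P205.S6

/-! P205, I7: a tame family of nondegenerate maps whose metric error is a high negative power can be
corrected to exact solutions (BLUEPRINT, module I). -/

open scoped ContDiff InnerProductSpace Topology Manifold
open Set Filter Real

noncomputable section
namespace Vale.Agent.P205

theorem ex_sqrt {d : ℝ} (h0 : 0 ≤ d) (h1 : d ≤ 1) :
    √(1 - d) ^ 2 = 1 - d ∧ |√(1 - d)| ≤ 1 ∧ |√(1 - d) - 1| ≤ d := by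
  have e1 : √(1 - d) ^ 2 = 1 - d := Real.sq_sqrt (by linarith)
  have e2 := Real.sqrt_nonneg (1 - d)
  have e3 : √(1 - d) ≤ 1 := Real.sqrt_le_one.2 (by linarith)
  exact ⟨e1, abs_le.2 ⟨by linarith, e3⟩, abs_le.2 ⟨by nlinarith, by linarith⟩⟩

theorem ex_fin {μ : ℕ → ℝ} (hμ : Tendsto μ atTop atTop) (a : ℕ → ℝ) (k : ℕ) :
    ∀ᶠ n in atTop, ∀ j ≤ k, a j ≤ μ n := by
  filter_upwards [(Finset.range (k + 1)).eventually_all.2
    fun j _ => hμ.eventually_ge_atTop (a j)] with n hn j hj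
  exact hn j (Finset.mem_range_succ_iff.2 hj)

theorem ex_del {t : ℝ} {n : ℕ} (ht : 1 ≤ t) (hn : 1 ≤ n) :
    0 < ((t ^ 16) ^ (2 * n))⁻¹ ∧ ((t ^ 16) ^ (2 * n))⁻¹ ≤ 1 ∧
      ((t ^ 16) ^ (2 * n))⁻¹ ≤ (t ^ 32)⁻¹ := by
  have h0 : 0 < t := by linarith
  refine ⟨by positivity, inv_le_one_of_one_le₀ (one_le_pow₀ (one_le_pow₀ ht)),
    inv_anti₀ (by positivity) ?_⟩
  rw [← pow_mul]
  exact pow_le_pow_right₀ ht (by omega)

theorem ex_eps {t a c : ℝ} (ht : 1 ≤ t) (ha : |a| ≤ (t ^ 32)⁻¹) :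
    |a| * (c * t ^ (2 + 1)) ≤ |c| * (t ^ 29)⁻¹ := by
  have h0 : 0 < t := by linarith
  have := le_abs_self c
  calc |a| * (c * t ^ (2 + 1)) ≤ |a| * (|c| * t ^ (2 + 1)) := by gcongr
    _ ≤ (t ^ 32)⁻¹ * (|c| * t ^ (2 + 1)) := by gcongr
    _ = _ := by field_simp; ring

variable {M : Type*} [TopologicalSpace M] [ChartedSpace E2 M] [IsManifold 𝓘(ℝ, E2) ∞ M]
  [T2Space M] [CompactSpace M]

omit [IsManifold 𝓘(ℝ, E2) ∞ M] [T2Space M] [CompactSpace M] in
theorem SAt.nb_family {g : Ten M} (A : SAt g) {μ : ℕ → ℝ} {F : ℕ → M → R4} (hμ : ∀ n, 1 ≤ μ n)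
    (hF : ∀ n, Sm (F n))
    (hLB : ∀ (c : Ch M) (K : Set P2), IsCompact K → K ⊆ c.e.target → ∀ m, ∃ C : ℝ, ∀ n,
      LB c K m (F n) (C * μ n ^ (m + 1))) (j : ℕ) :
    ∃ C : ℝ, ∀ n, A.NB j (F n) (C * μ n ^ (j + 1)) := by
  choose C hC using fun s : A.Γ × Fin 3 => hLB (A.c s.1 s.2) _ (A.smχ' s.1 s.2).2.1.isCompact
    (A.smχ' s.1 s.2).2.2.1 j
  refine ⟨∑ s, |C s|, fun n => ⟨hF n, fun γ i r hr x hx => (hC (γ, i) n r hr x hx).trans ?_⟩⟩
  have h1 := Finset.single_le_sum (f := fun s => |C s|) (fun s _ => abs_nonneg _)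
    (Finset.mem_univ (γ, i))
  have h2 := hμ n
  exact mul_le_mul_of_nonneg_right ((le_abs_self _).trans h1) (by positivity)

theorem SAt.w_ex {g : Ten M} (A : SAt g) {F : M → R4} (hF : Sm F) {c' : ℝ} (hc : 0 < c')
    (hs : A.Sel F c') (m K : ℕ) : ∃ s : ℝ, 1 ≤ s ∧ ∀ j ≤ K,
      (∀ γ, A.NB j (A.wroot F c' m γ) (s ^ (j + 1))) ∧ A.NB j (A.wnorm F c') (s ^ (j + 1)) := by
  choose σ h0 hσ using fun γ => A.exists_NB (A.sm_wroot hF c' m γ) K
  obtain ⟨τ, t0, hτ⟩ := A.exists_NB (A.sm_wnorm hF hc hs) K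
  have h1 : 0 ≤ ∑ γ, σ γ := Finset.sum_nonneg fun γ _ => h0 γ
  have h2 : 1 ≤ 1 + τ + ∑ γ, σ γ := by linarith
  refine ⟨_, h2, fun j hj => ⟨fun γ => ((hσ γ).of_le A hj).mono A ?_, (hτ.of_le A hj).mono A ?_⟩⟩
  · have := Finset.single_le_sum (f := σ) (fun γ _ => h0 γ) (Finset.mem_univ γ)
    exact le_trans (by linarith) (le_self_pow₀ h2 (by omega))
  · exact le_trans (by linarith) (le_self_pow₀ h2 (by omega))

theorem exact_family {g : Ten M} (hg : Good g) (hp : PosD g) : ∃ N0 : ℕ,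
    ∀ (μ : ℕ → ℝ) (F : ℕ → M → R4), (∀ n, 1 ≤ μ n) → Tendsto μ atTop atTop → (∀ n, Sm (F n)) →
      (∀ (c : Ch M) (K : Set P2), IsCompact K → K ⊆ c.e.target → ∀ m, ∃ C : ℝ, ∀ n,
        LB c K m (F n) (C * μ n ^ (m + 1))) →
      (∀ p, ∃ (c : Ch M) (W : Set M) (c0 : ℝ), W ∈ 𝓝 p ∧ W ⊆ c.e.source ∧ 0 < c0 ∧
        ∀ᶠ n in atTop, ∀ q ∈ W, c0 ≤ Gram (loc c (F n)) (c.e q)) →
      (∃ C : ℝ, ∀ n, Small g (pull (F n) - g) (C / μ n ^ N0)) →
      ∃ Y : ℕ → M → R4, (∀ᶠ n in atTop, Sm (Y n) ∧ pull (F n + Y n) = g) ∧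
        ∀ (c : Ch M) (K : Set P2), IsCompact K → K ⊆ c.e.target → ∃ C : ℝ, ∀ᶠ n in atTop,
          LB c K 2 (Y n) (C / μ n) := by
  obtain ⟨A⟩ := exists_sat hg hp
  obtain ⟨B, N1, η, hB, hη, hη1, hst⟩ := stage hg hp A
  obtain ⟨n0, hn0⟩ : ∃ n0, n0 = N1 + 3 * B + 3 := ⟨_, rfl⟩
  refine ⟨32 * n0 + 1, fun μ F hμ1 hμ hF hLB hnd ⟨Ce, herr⟩ => ?_⟩
  choose CF hCF using A.nb_family hμ1 hF hLB
  obtain ⟨c', hc', hsel⟩ := A.sel_family hg hp hF hnd fun σ hσ => by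
    filter_upwards [hμ.eventually_ge_atTop (|Ce| / σ)] with n hn p
    refine (herr n p).mono hp ?_
    have h1 := hμ1 n
    rw [div_le_iff₀ hσ] at hn
    rw [div_le_iff₀ (by positivity)]
    calc Ce ≤ μ n * σ := (le_abs_self _).trans hn
      _ ≤ μ n ^ (32 * n0 + 1) * σ := by gcongr; exact le_self_pow₀ h1 (by omega)
      _ = _ := mul_comm _ _
  obtain ⟨c0, hc0, hwn⟩ := A.wnorm_bounds
  choose K m C Λ hm hC H using hst c0 hc0
  obtain ⟨Cg, hCg, hlip⟩ := A.gr_lip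
  obtain ⟨N', hN'⟩ : ∃ N', N' = 2 * (B + 1) * (n0 + 1) + 1 := ⟨_, rfl⟩
  choose Cw hCw using A.weights_tame hμ1 (fun j => ⟨CF j, hCF j⟩) hc' (m N')
  have main : ∀ᶠ n in atTop, ∃ Y : M → R4, Sm Y ∧
      pull ((fun p => √(1 - ((μ n ^ 16) ^ (2 * n0))⁻¹) • F n p) + Y) = g ∧
        ∀ γ i, ∀ j ≤ 2, ∀ p ∈ A.A γ,
          ‖iteratedFDeriv ℝ j (loc (A.c γ i) Y) ((A.c γ i).e p)‖ ≤ 2 * ((μ n ^ 16) ^ 2)⁻¹ := by
    filter_upwards [hsel, hμ.eventually_ge_atTop 2, hμ.eventually_ge_atTop η⁻¹,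
      hμ.eventually_ge_atTop (Λ N'), ex_fin hμ Cw (K N'), ex_fin hμ CF (K N'),
      ex_fin hμ (fun j => C N' j + 1) (max (K N') n0), hμ.eventually_ge_atTop (|Ce| / η),
      hμ.eventually_ge_atTop (Cg * (|CF 2| + 1) ^ 5 * (2 + |CF 2|) / (c' / 4)),
      hμ.eventually_ge_atTop (2 + |CF 2|), hμ.eventually_ge_atTop (2 / (c' / 4))]
      with n e0 e1 e2 e3 e4 e5 e6 e7 e8 e9 e10
    have h1 := hμ1 n
    have h0 : 0 < μ n := by linarith
    have h16 : μ n ≤ μ n ^ 16 := le_self_pow₀ h1 (by norm_num)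
    obtain ⟨d0, d1, d2⟩ := ex_del (n := n0) h1 (by omega)
    obtain ⟨q1, q2, q3⟩ := ex_sqrt d0.le d1
    obtain ⟨s, hs⟩ : ∃ s, s = √(1 - ((μ n ^ 16) ^ (2 * n0))⁻¹) := ⟨_, rfl⟩
    rw [← hs] at q1 q2 q3 ⊢
    have hx0 : Sm fun p => s • F n p := (sm_const s).smul (hF n)
    obtain ⟨y, δ, i1, i2, i3, σ, i4, i5, i6⟩ := iterate (X := M → R4) (fun j x σ => A.NB j x σ)
      (fun x δ σ => Small g (pull x - (1 - δ) • g) σ)
      (fun N t => 1 ≤ t ∧ ∀ j ≤ K N, (∀ γ, A.NB j (A.wroot (F n) c' (m N) γ) (t ^ (j + 1))) ∧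
        A.NB j (A.wnorm (F n) c') (t ^ (j + 1)))
      (fun p => s • F n p) B N1 n0 η (μ n ^ 16) K C Λ (fun j x σ τ h h' => h.mono A h')
      (fun j x y σ τ h h' => SAt.NB.add A h h') (fun j => A.nb_zero j)
      (fun j j' x σ h => (A.exists_NB h.1 j').imp fun _ h => h.2)
      (fun x δ σ τ h h' p => (h p).mono hp h')
      (fun N t t' h h' => by
        have := h.1
        exact ⟨h.1.trans h', fun j hj => ⟨fun γ => ((h.2 j hj).1 γ).mono A (by gcongr),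
          (h.2 j hj).2.mono A (by gcongr)⟩⟩)
      (fun N => A.w_ex (hF n) hc' e0 (m N) (K N)) hB hη hη1 hC
      (fun N lam δ δ' x a1 a2 a3 a4 a5 a6 a7 a8 a9 a10 => by
        refine H N lam δ δ' x (A.wroot (F n) c' (m N)) (A.wnorm (F n) c') a1 a4 a5 a6 a7 a8
          (fun γ j hj => (a3.2 j hj).1 γ) (fun j hj => (a3.2 j hj).2)
          (fun γ p => by
            obtain ⟨b1, b2⟩ := A.wroot_mem (F n) c' (m N) γ p
            exact abs_le.2 ⟨by linarith, b2⟩)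
          (hwn _ _ hc' e0) (A.wsum hc' e0 (hm N)) (fun γ p h => ?_) a10
        obtain ⟨b1, b2⟩ := A.wroot_ne_zero hc' h
        refine ⟨b1, fun i => ?_⟩
        have b3 : A.NB 2 ((x - fun p => s • F n p) + fun p => (s - 1) • F n p)
            ((2 + |CF 2|) * (μ n ^ 29)⁻¹) :=
          (SAt.NB.add A a9 ((hCF 2 n).const_smul A (s - 1))).mono A (by
            have c1 := ex_eps (c := CF 2) h1 (q3.trans d2)
            have c2 : ((μ n ^ 16) ^ 2)⁻¹ ≤ (μ n ^ 29)⁻¹ := by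
              rw [← pow_mul]
              exact inv_anti₀ (by positivity) (pow_le_pow_right₀ h1 (by norm_num))
            linarith)
        have b4 : A.NB 2 (F n) ((|CF 2| + 1) * μ n ^ (2 + 1)) := (hCF 2 n).mono A (by
          have := le_abs_self (CF 2)
          gcongr; linarith)
        have b5 := (abs_le.1 (hlip _ _ _ _ (one_le_mul_of_one_le_of_one_le
          (by have := abs_nonneg (CF 2); linarith) (one_le_pow₀ h1)) (by
            rw [mul_inv_le_iff₀ (by positivity), one_mul]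
            exact e9.trans (le_self_pow₀ h1 (by norm_num))) b4 b3 γ i p b1)).1
        have b6 : F n + ((x - fun p => s • F n p) + fun p => (s - 1) • F n p) = x := by
          funext p
          simp only [Pi.add_apply, Pi.sub_apply, sub_smul, one_smul]
          abel
        rw [b6] at b5
        have b7 : Cg * ((|CF 2| + 1) * μ n ^ (2 + 1)) ^ 5 * ((2 + |CF 2|) * (μ n ^ 29)⁻¹) ≤
            c' / 4 := by
          rw [div_le_iff₀ (by positivity)] at e8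
          calc _ = Cg * (|CF 2| + 1) ^ 5 * (2 + |CF 2|) * (μ n ^ 15 * (μ n ^ 29)⁻¹) := by ring
            _ = Cg * (|CF 2| + 1) ^ 5 * (2 + |CF 2|) * (μ n ^ 14)⁻¹ := by field_simp
            _ ≤ μ n * (c' / 4) * (μ n)⁻¹ := by
              gcongr
              exact le_self_pow₀ h1 (by norm_num)
            _ = _ := by field_simp
        have b8 : 2 * lam⁻¹ ≤ c' / 4 := by
          rw [div_le_iff₀ (by positivity)] at e10
          rw [mul_inv_le_iff₀ (by linarith)]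
          have : μ n * (c' / 4) ≤ lam * (c' / 4) := by gcongr; linarith
          linarith
        have := b2 i
        linarith)
      (by omega) (by omega) (by linarith) (by linarith) (by rw [← hN']; linarith)
      (by
        rw [← hN']
        refine ⟨by linarith, fun j hj => ?_⟩
        have b1 : Cw j * μ n ^ (15 * j) ≤ (μ n ^ 16) ^ (j + 1) := by
          have := e4 j hj
          calc Cw j * μ n ^ (15 * j) ≤ μ n * μ n ^ (15 * j) := by gcongr
            _ = μ n ^ (15 * j + 1) := by ring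
            _ ≤ μ n ^ (16 * (j + 1)) := pow_le_pow_right₀ h1 (by omega)
            _ = _ := pow_mul _ _ _
        exact ⟨fun γ => ((hCw j n e0).1 γ).mono A b1, (hCw j n e0).2.mono A b1⟩)
      (by
        rw [← hN']
        intro j hj
        refine (((hCF j n).mono A (τ := μ n * μ n ^ (j + 1))
          (by have := e5 j hj; gcongr)).const_smul A s).mono A ?_
        calc |s| * (μ n * μ n ^ (j + 1)) ≤ 1 * (μ n * μ n ^ (j + 1)) := by gcongr
          _ = μ n ^ (j + 2) := by ring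
          _ ≤ μ n ^ (16 * (j + 1)) := pow_le_pow_right₀ h1 (by omega)
          _ = _ := pow_mul _ _ _)
      (by rw [← hN']; exact fun j hj => (e6 j hj).trans h16)
      (by
        intro p X
        have b1 := herr n p X
        have b2 : 0 ≤ g p X X := (abs_nonneg _).trans ((small_self hp p X).trans (one_mul _).le)
        rw [pull_const_smul (hF n), q1]
        have b3 : Ce / μ n ^ (32 * n0 + 1) ≤ η * ((μ n ^ 16) ^ (2 * n0))⁻¹ := by
          rw [div_le_iff₀ hη] at e7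
          rw [div_le_iff₀ (by positivity), ← pow_mul]
          calc Ce ≤ μ n * η := (le_abs_self _).trans e7
            _ = _ := by
              rw [show 16 * (2 * n0) = 32 * n0 by ring, pow_succ]
              field_simp
        obtain ⟨d, hd⟩ : ∃ d, d = ((μ n ^ 16) ^ (2 * n0))⁻¹ := ⟨_, rfl⟩
        rw [← hd] at b3 d0 d1 ⊢
        change |pull (F n) p X X - g p X X| ≤ _ at b1
        change |(1 - d) * pull (F n) p X X - (1 - d) * g p X X| ≤ _
        rw [← mul_sub, abs_mul, abs_of_nonneg (by linarith : 0 ≤ 1 - d)]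
        calc _ ≤ 1 * |pull (F n) p X X - g p X X| := by gcongr; linarith
          _ ≤ _ := by rw [one_mul]; exact b1.trans (mul_le_mul_of_nonneg_right b3 b2))
    obtain ⟨Y, hY1, hY2, hY3⟩ := limit_exact hg hp A hx0 i1 i2 i3 i4 i5
    exact ⟨Y, hY1, hY2, fun γ i j hj p hp' => (hY3 γ i j hj p hp').trans i6⟩
  obtain ⟨Y, hY⟩ := main.choice
  refine ⟨fun n p => (√(1 - ((μ n ^ 16) ^ (2 * n0))⁻¹) - 1) • F n p + Y n p, ?_,
    fun c Kc hK hKc => ?_⟩
  · filter_upwards [hY] with n hn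
    refine ⟨((sm_const _).smul (hF n)).add hn.1, ?_⟩
    rw [← hn.2.1]
    congr 1
    funext p
    simp only [Pi.add_apply, sub_smul, one_smul]
    abel
  · obtain ⟨C1, hC1⟩ := hLB c Kc hK hKc 2
    obtain ⟨C2, c2, hC2⟩ := cover_bound (V := R4) (fun γ : A.Γ => A.c γ 0)
      (fun γ => (A.c γ 0).e '' A.A γ)
      (fun γ => ⟨(A.cptA γ).image_of_continuousOn ((A.c γ 0).e.continuousOn.mono (A.subA γ 0)),
        image_subset_iff.2 fun p hp' => (A.c γ 0).e.map_source (A.subA γ 0 hp')⟩)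
      (fun p => by
        obtain ⟨γ, hγ⟩ := A.cov p
        have := A.hA γ p (by linarith)
        exact ⟨γ, A.subA γ 0 this, mem_image_of_mem _ this⟩) c hK hKc 2
    refine ⟨|C1| + C2 * 2, ?_⟩
    filter_upwards [hY] with n hn
    have h1 := hμ1 n
    have h0 : 0 < μ n := by linarith
    obtain ⟨d0, d1, d2⟩ := ex_del (n := n0) h1 (by omega)
    obtain ⟨-, -, q3⟩ := ex_sqrt d0.le d1
    have b1 := LB.add ((sm_const _).smul (hF n)) hn.1 hKc
      (LB.const_smul (hF n) hKc (hC1 n) (√(1 - ((μ n ^ 16) ^ (2 * n0))⁻¹) - 1))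
      (hC2 _ _ hn.1 fun γ j hj x hx => by
        obtain ⟨p, hp', rfl⟩ := hx
        exact hn.2.2 γ 0 j hj p hp')
    intro j hj x hx
    refine (b1 j hj x hx).trans ?_
    have b2 := ex_eps (c := C1) h1 (q3.trans d2)
    have b3 : (μ n ^ 29)⁻¹ ≤ (μ n)⁻¹ := inv_anti₀ h0 (le_self_pow₀ h1 (by norm_num))
    have b4 : ((μ n ^ 16) ^ 2)⁻¹ ≤ (μ n)⁻¹ := by
      rw [← pow_mul]
      exact inv_anti₀ h0 (le_self_pow₀ h1 (by norm_num))
    have b5 := mul_le_mul_of_nonneg_left b3 (abs_nonneg C1)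
    have b6 := mul_le_mul_of_nonneg_left b4 c2
    rw [div_eq_mul_inv]
    linarith

end Vale.Agent.P205
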