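import Vale.Agent.P205.Defs

/-! P205: the easy genericity lemma. Near a zero, the zero set of `Φ` is contained in the image of a
`C¹` map defined on a space of dimension `dim X + dim Λ - dim Y < dim Λ` (implicit function theorem),
so its projection to `Λ` has Hausdorff dimension `< dim Λ`; cover by countably many pieces. -/

open scoped ContDiff InnerProductSpace Topology
open Set Filter Real

noncomputable section
namespace Vale.Agent.P205

open MeasureTheory

theorem generic_avoid {X Λ Y : Type} [NormedAddCommGroup X] [NormedSpace ℝ X]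
    [FiniteDimensional ℝ X] [NormedAddCommGroup Λ] [NormedSpace ℝ Λ] [FiniteDimensional ℝ Λ]
    [NormedAddCommGroup Y] [NormedSpace ℝ Y] [FiniteDimensional ℝ Y]
    [MeasurableSpace Λ] [BorelSpace Λ] (μ : Measure Λ) [μ.IsAddHaarMeasure]
    (hd : Module.finrank ℝ X < Module.finrank ℝ Y) {O : Set (X × Λ)} (hO : IsOpen O)
    {Φ : X × Λ → Y} (hΦ : ContDiffOn ℝ 1 Φ O)
    (hs : ∀ z ∈ O, Φ z = 0 → Function.Surjective (fderiv ℝ Φ z)) :
    μ {l | ∃ x, (x, l) ∈ O ∧ Φ (x, l) = 0} = 0 := by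
  have key : ∀ z ∈ {z ∈ O | Φ z = 0}, ∃ t ∈ 𝓝[{z ∈ O | Φ z = 0}] z, μ (Prod.snd '' t) = 0 := by
    rintro z ⟨hz, hz0⟩
    have hf : HasStrictFDerivAt Φ (fderiv ℝ Φ z) z :=
      (hΦ.contDiffAt (hO.mem_nhds hz)).hasStrictFDerivAt one_ne_zero
    have hr : (fderiv ℝ Φ z).range = ⊤ := LinearMap.range_eq_top.2 (hs z hz hz0)
    obtain ⟨K, s, hsn, hK⟩ := (hf.to_implicitFunction hr).exists_lipschitzOnWith
    have h1 := hf.eq_implicitFunction hr
    have h2 : ∀ᶠ x in 𝓝 z, (hf.implicitToOpenPartialHomeomorph Φ _ hr x).2 ∈ s := by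
      have h3 := ((hf.implicitToOpenPartialHomeomorph Φ _ hr).continuousAt
        (hf.mem_implicitToOpenPartialHomeomorph_source hr)).snd
      refine h3.preimage_mem_nhds ?_
      rw [hf.implicitToOpenPartialHomeomorph_self hr]
      exact hsn
    refine ⟨hf.implicitFunction Φ _ hr (Φ z) '' s, ?_, ?_⟩
    · filter_upwards [mem_nhdsWithin_of_mem_nhds h1, mem_nhdsWithin_of_mem_nhds h2,
        self_mem_nhdsWithin] with x e1 e2 e3
      exact ⟨_, e2, by rw [hz0, ← e3.2]; exact e1⟩
    · have h3 : μ ≪ μH[((Module.finrank ℝ Λ : NNReal) : ℝ)] :=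
        Measure.absolutelyContinuous_isAddHaarMeasure μ μH[(Module.finrank ℝ Λ : ℝ)]
      refine measure_zero_of_dimH_lt h3 (lt_of_le_of_lt ((LipschitzWith.prod_snd.dimH_image_le _).trans
        (hK.dimH_image_le.trans (dimH_mono (subset_univ _)))) ?_)
      have h4 := LinearMap.finrank_range_add_finrank_ker (fderiv ℝ Φ z).toLinearMap
      rw [hr, finrank_top, Module.finrank_prod] at h4
      rw [Real.dimH_univ_eq_finrank]
      exact_mod_cast (by omega : Module.finrank ℝ (fderiv ℝ Φ z).ker < Module.finrank ℝ Λ)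
  choose! t ht ht0 using key
  obtain ⟨c, hc, hcc, hcov⟩ := TopologicalSpace.countable_cover_nhdsWithin ht
  refine measure_mono_null ?_ ((measure_biUnion_null_iff hcc).2 fun z hz => ht0 z (hc hz))
  rintro l ⟨x, hx⟩
  obtain ⟨z, hz, hxz⟩ := mem_iUnion₂.1 (hcov (show (x, l) ∈ {z ∈ O | Φ z = 0} from hx))
  exact mem_iUnion₂.2 ⟨z, hz, _, hxz, rfl⟩

/-- one dimensional Sard: critical values of a `C¹` function on an open subset of the line -/
theorem sard_line {O : Set ℝ} (hO : IsOpen O) {φ : ℝ → ℝ} (hφ : ContDiffOn ℝ 1 φ O) :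
    volume (φ '' {s | s ∈ O ∧ deriv φ s = 0}) = 0 := by
  refine addHaar_image_eq_zero_of_det_fderivWithin_eq_zero volume (f' := fun _ => 0)
    (fun x hx => ?_) (fun _ _ => by simp [ContinuousLinearMap.det])
  have h1 := ((hφ.contDiffAt (hO.mem_nhds hx.1)).differentiableAt one_ne_zero).hasDerivAt
  rw [hx.2] at h1
  simpa using h1.hasFDerivAt.hasFDerivWithinAt

/-- a regular level meets a compact set in finitely many points -/
theorem finite_level {O K : Set ℝ} (hO : IsOpen O) (hK : IsCompact K) (hKO : K ⊆ O) {φ : ℝ → ℝ}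
    (hφ : ContDiffOn ℝ 1 φ O) {c : ℝ} (hc : ∀ s ∈ K, φ s = c → deriv φ s ≠ 0) :
    {s | s ∈ K ∧ φ s = c}.Finite := by
  have h1 : IsClosed (K ∩ φ ⁻¹' {c}) :=
    (hφ.continuousOn.mono hKO).preimage_isClosed_of_isClosed hK.isClosed isClosed_singleton
  by_contra hinf
  obtain ⟨z, hz, hne⟩ := exists_nhds_ne_inf_principal_neBot
    (hK.of_isClosed_subset h1 inter_subset_left) hinf
  have h2 := ((hφ.contDiffAt (hO.mem_nhds (hKO hz.1))).differentiableAt
    one_ne_zero).hasDerivAt.eventually_ne (c := c) (hc z hz.1 hz.2)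
  obtain ⟨x, hx1, hx2⟩ := ((h2.filter_mono inf_le_left).and
    (mem_inf_of_right (mem_principal_self (K ∩ φ ⁻¹' {c})))).exists
  exact hx1 hx2.2

/-- if the critical set is null then every level set is null -/
theorem null_level {O : Set ℝ} (hO : IsOpen O) {φ : ℝ → ℝ} (hφ : ContDiffOn ℝ 1 φ O)
    (h : volume {s | s ∈ O ∧ deriv φ s = 0} = 0) (c : ℝ) : volume {s | s ∈ O ∧ φ s = c} = 0 := by
  have h1 : volume {s | s ∈ O ∧ φ s = c ∧ deriv φ s ≠ 0} = 0 := by
    refine measure_null_of_locally_null _ fun z hz => ⟨{z}, ?_, measure_singleton z⟩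
    have h2 := ((hφ.contDiffAt (hO.mem_nhds hz.1)).differentiableAt
      one_ne_zero).hasDerivAt.eventually_ne (c := c) hz.2.2
    filter_upwards [mem_nhdsWithin_of_mem_nhds (eventually_nhdsWithin_iff.1 h2),
      self_mem_nhdsWithin] with x e1 e2
    exact by_contra fun hx => e1 hx e2.2.1
  refine measure_mono_null (fun s hs => ?_) (measure_union_null h h1)
  by_cases h2 : deriv φ s = 0
  · exact Or.inl ⟨hs.1, h2⟩
  · exact Or.inr ⟨hs.1, hs.2, h2⟩

/-- for all but countably many slopes the critical set of `φ + σ ψ` is null -/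
theorem countable_bad_slope {O : Set ℝ} (hO : IsOpen O) {p q : ℝ → ℝ} (hp : ContinuousOn p O)
    (hq : ContinuousOn q O) (h : ∀ s ∈ O, p s ≠ 0 ∨ q s ≠ 0) :
    {σ : ℝ | volume {s | s ∈ O ∧ p s + σ * q s = 0} ≠ 0}.Countable := by
  have h1 := Measure.countable_meas_pos_of_disjoint_iUnion (μ := volume)
    (As := fun σ : ℝ => {s | s ∈ O ∧ p s + σ * q s = 0}) (fun σ => ?_) (fun σ σ' hne => ?_)
  · simpa only [pos_iff_ne_zero] using h1
  · have h2 : IsOpen (O ∩ (fun s => p s + σ * q s) ⁻¹' {0}ᶜ) :=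
      (hp.add (continuousOn_const.mul hq)).isOpen_inter_preimage hO isOpen_compl_singleton
    have h3 : {s | s ∈ O ∧ p s + σ * q s = 0} = O \ (O ∩ (fun s => p s + σ * q s) ⁻¹' {0}ᶜ) := by
      ext s
      simp only [mem_ofPred_eq, Set.mem_sdiff, mem_inter_iff, mem_preimage, mem_compl_iff,
        mem_singleton_iff]
      tauto
    rw [h3]
    exact hO.measurableSet.diff h2.measurableSet
  · refine disjoint_left.2 fun s h2 h3 => ?_
    have h4 : (σ - σ') * q s = 0 := by linarith [h2.2, h3.2]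
    have h5 : q s = 0 := (mul_eq_zero.1 h4).resolve_left (sub_ne_zero.2 hne)
    have h6 : p s = 0 := by simpa [h5] using h2.2
    exact (h s h2.1).elim (fun e => e h6) fun e => e h5

end Vale.Agent.P205
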