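import Vale.Agent.P205.JDefs

/-! P205, J1: the frame (BLUEPRINT, module J). -/

open scoped ContDiff InnerProductSpace Topology Manifold
open Set Filter Real

noncomputable section
namespace Vale.Agent.P205

theorem isOpen_Q2 : IsOpen {z : R4 × R4 × R4 | Q2 z.1 z.2.1 z.2.2} := by
  rw [isOpen_iff_mem_nhds]
  intro z0 hz
  have hK : IsCompact {w : Q3 | w ∈ Icc (0 : Q3) 1 ∧ w.1 + w.2.1 + w.2.2 = 1} :=
    isCompact_Icc.inter_right (isClosed_eq (by fun_prop) continuous_const)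
  have h := hK.eventually_forall_of_forall_eventually (x₀ := z0)
    (P := fun z w => w.1 • z.1 + w.2.1 • z.2.1 + w.2.2 • z.2.2 ≠ 0) (fun w hw => by
      have hc : Continuous fun y : (R4 × R4 × R4) × Q3 =>
          y.2.1 • y.1.1 + y.2.2.1 • y.1.2.1 + y.2.2.2 • y.1.2.2 := by fun_prop
      refine hc.continuousAt.eventually_ne fun h0 => ?_
      obtain ⟨a, b, c⟩ := hz _ _ _ hw.1.1.1 hw.1.1.2.1 hw.1.1.2.2 h0
      have := hw.2
      rw [a, b, c] at this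
      norm_num at this)
  filter_upwards [h] with z hz' s s' t hs hs' ht h0
  by_contra hcon
  have hp : 0 < s + s' + t := by
    by_contra hn
    exact hcon ⟨by linarith, by linarith, by linarith⟩
  refine hz' (s / (s + s' + t), s' / (s + s' + t), t / (s + s' + t))
    ⟨⟨⟨by positivity, by positivity, by positivity⟩, ?_, ?_, ?_⟩, ?_⟩ ?_
  · exact (div_le_one hp).2 (by linarith)
  · exact (div_le_one hp).2 (by linarith)
  · exact (div_le_one hp).2 (by linarith)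
  · simp only
    field_simp
  · simp only [div_eq_inv_mul, mul_smul]
    rw [← smul_add, ← smul_add, h0, smul_zero]

theorem isOpen_Q3 : IsOpen {z : R4 × R4 × R4 | Q3' z.1 z.2.1 z.2.2} :=
  isOpen_lt continuous_const (by fun_prop)

theorem Q2.symm {η η' n : R4} (h : Q2 η η' n) : Q2 η' η n := by
  intro s s' t hs hs' ht h0
  obtain ⟨a, b, c⟩ := h s' s t hs' hs ht (by rw [← h0]; abel)
  exact ⟨b, a, c⟩

theorem Q2.ne {η η' n : R4} (h : Q2 η η' n) : η ≠ 0 ∧ η' ≠ 0 ∧ n ≠ 0 := by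
  refine ⟨fun h0 => ?_, fun h0 => ?_, fun h0 => ?_⟩
  · exact one_ne_zero (h 1 0 0 zero_le_one le_rfl le_rfl (by simp [h0])).1
  · exact one_ne_zero (h 0 1 0 le_rfl zero_le_one le_rfl (by simp [h0])).2.1
  · exact one_ne_zero (h 0 0 1 le_rfl le_rfl zero_le_one (by simp [h0])).2.2

theorem Q2.combo {η η' n : R4} (h : Q2 η η' n) {θ : ℝ} (h0 : 0 ≤ θ) (h1 : θ ≤ 1) :
    Q2 η η (θ • η' + (1 - θ) • n) := by
  intro s s' t hs hs' ht e
  obtain ⟨a, b, c⟩ := h (s + s') (t * θ) (t * (1 - θ)) (by positivity) (by positivity)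
    (mul_nonneg ht (by linarith)) (by rw [← e]; module)
  exact ⟨by linarith, by linarith, by linarith⟩

theorem Q2.smul {η η' n : R4} (h : Q2 η η' n) {θ : ℝ} (h0 : 0 < θ) : Q2 η η' (θ • n) := by
  intro s s' t hs hs' ht e
  obtain ⟨a, b, c⟩ := h s s' (t * θ) hs hs' (by positivity) (by rw [← e, mul_smul])
  exact ⟨a, b, (mul_eq_zero.1 c).resolve_right h0.ne'⟩

theorem q2_of_inner {η η' n ξ : R4} (h1 : 0 < ⟪η, ξ⟫_ℝ) (h2 : 0 < ⟪η', ξ⟫_ℝ)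
    (h3 : 0 < ⟪n, ξ⟫_ℝ) : Q2 η η' n := by
  intro s s' t hs hs' ht e
  have e' := congrArg (fun z => ⟪z, ξ⟫_ℝ) e
  simp only [inner_add_left, real_inner_smul_left, inner_zero_left] at e'
  have a := mul_nonneg hs h1.le
  have b := mul_nonneg hs' h2.le
  have c := mul_nonneg ht h3.le
  exact ⟨(mul_eq_zero.1 (by linarith)).resolve_right h1.ne',
    (mul_eq_zero.1 (by linarith)).resolve_right h2.ne',
    (mul_eq_zero.1 (by linarith)).resolve_right h3.ne'⟩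

/-- the vector orthogonal to `A`, `K` with the same normal part as `-ξ` -/
def j1P (A B K ξ : R4) : R4 :=
  -perp A K ξ + ((⟪A, A⟫_ℝ * ⟪ξ, K⟫_ℝ - ⟪A, K⟫_ℝ * ⟪ξ, A⟫_ℝ) /
    (⟪A, A⟫_ℝ * ⟪K, B⟫_ℝ - ⟪A, B⟫_ℝ * ⟪K, A⟫_ℝ)) • perp A K B

theorem j1P_ne {A B K ξ : R4} (h1 : gram2 A B ≠ 0)
    (h3 : ⟪A, A⟫_ℝ * ⟪K, B⟫_ℝ - ⟪A, B⟫_ℝ * ⟪K, A⟫_ℝ ≠ 0) (h4 : perp A B ξ ≠ 0) :
    j1P A B K ξ ≠ 0 := by
  intro h0
  apply h4
  rw [perp_eq_zero_iff h1]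
  set t := (⟪A, A⟫_ℝ * ⟪ξ, K⟫_ℝ - ⟪A, K⟫_ℝ * ⟪ξ, A⟫_ℝ) /
    (⟪A, A⟫_ℝ * ⟪K, B⟫_ℝ - ⟪A, B⟫_ℝ * ⟪K, A⟫_ℝ) with ht
  have e : (⟪A, A⟫_ℝ * ⟪ξ, K⟫_ℝ - ⟪A, K⟫_ℝ * ⟪ξ, A⟫_ℝ) / gram2 A K =
      t * ((⟪A, A⟫_ℝ * ⟪B, K⟫_ℝ - ⟪A, K⟫_ℝ * ⟪B, A⟫_ℝ) / gram2 A K) := by
    rw [ht, real_inner_comm K B, real_inner_comm K A, real_inner_comm A B,
      mul_comm ⟪K, A⟫_ℝ ⟪A, B⟫_ℝ, div_mul_div_cancel₀ h3]
  unfold j1P at h0
  rw [← ht] at h0
  unfold perp at h0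
  rw [e] at h0
  refine ⟨(⟪K, K⟫_ℝ * ⟪ξ, A⟫_ℝ - ⟪A, K⟫_ℝ * ⟪ξ, K⟫_ℝ) / gram2 A K -
    t * ((⟪K, K⟫_ℝ * ⟪B, A⟫_ℝ - ⟪A, K⟫_ℝ * ⟪B, K⟫_ℝ) / gram2 A K), t, ?_⟩
  rw [← sub_eq_zero, ← neg_eq_zero, ← h0]
  module

theorem j1P_orth {A B K ξ : R4} (h2 : gram2 A K ≠ 0) :
    ⟪j1P A B K ξ, A⟫_ℝ = 0 ∧ ⟪j1P A B K ξ, K⟫_ℝ = 0 := by
  simp only [j1P, inner_add_left, inner_neg_left, real_inner_smul_left, inner_perp_left h2,
    inner_perp_right h2]
  simp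

theorem j1P_self {A B K : R4} (h2 : gram2 A K ≠ 0) : j1P A B K K =
    (gram2 A K / (⟪A, A⟫_ℝ * ⟪K, B⟫_ℝ - ⟪A, B⟫_ℝ * ⟪K, A⟫_ℝ)) • perp A K B := by
  rw [j1P, perp_right h2, neg_zero, zero_add, gram2, real_inner_comm A K, sq]

theorem j1_perp {A K ξ : P2 → R4} {x : P2} (hA : ContDiffAt ℝ ∞ A x)
    (hK : ContDiffAt ℝ ∞ K x) (hξ : ContDiffAt ℝ ∞ ξ x) (h2 : gram2 (A x) (K x) ≠ 0) :
    ContDiffAt ℝ ∞ (fun y => perp (A y) (K y) (ξ y)) x := by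
  have := ContDiffAt.comp (g := fun z : R4 × R4 × R4 => perp z.1 z.2.1 z.2.2)
    (f := fun y => (A y, K y, ξ y)) x (contDiffAt_perp h2 (ξ x)) (hA.prodMk (hK.prodMk hξ))
  exact this

theorem j1P_smooth {A B K ξ : P2 → R4} {x : P2} (hA : ContDiffAt ℝ ∞ A x)
    (hB : ContDiffAt ℝ ∞ B x) (hK : ContDiffAt ℝ ∞ K x) (hξ : ContDiffAt ℝ ∞ ξ x)
    (h2 : gram2 (A x) (K x) ≠ 0)
    (h3 : ⟪A x, A x⟫_ℝ * ⟪K x, B x⟫_ℝ - ⟪A x, B x⟫_ℝ * ⟪K x, A x⟫_ℝ ≠ 0) :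
    ContDiffAt ℝ ∞ (fun y => j1P (A y) (B y) (K y) (ξ y)) x := by
  have p1 := j1_perp hA hK hξ h2
  have p2 := j1_perp hA hK hB h2
  exact p1.neg.add (((((hA.inner ℝ hA).mul (hξ.inner ℝ hK)).sub
    ((hA.inner ℝ hK).mul (hξ.inner ℝ hA))).div (((hA.inner ℝ hA).mul (hK.inner ℝ hB)).sub
    ((hA.inner ℝ hB).mul (hK.inner ℝ hA))) h3).smul p2)

/-- the orthonormal frame made from a vector orthogonal to `A` and `K` -/
theorem j1_frame {A K z : R4} (h2 : 0 < gram2 A K) (hz : z ≠ 0) (hA : ⟪z, A⟫_ℝ = 0)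
    (hK : ⟪z, K⟫_ℝ = 0) :
    (‖‖z‖⁻¹ • z‖ = 1 ∧ ‖(√(gram2 A K))⁻¹ • cross3 A K (‖z‖⁻¹ • z)‖ = 1 ∧
      ⟪‖z‖⁻¹ • z, (√(gram2 A K))⁻¹ • cross3 A K (‖z‖⁻¹ • z)⟫_ℝ = 0) ∧
    (⟪‖z‖⁻¹ • z, A⟫_ℝ = 0 ∧ ⟪‖z‖⁻¹ • z, K⟫_ℝ = 0 ∧
      ⟪(√(gram2 A K))⁻¹ • cross3 A K (‖z‖⁻¹ • z), A⟫_ℝ = 0 ∧
      ⟪(√(gram2 A K))⁻¹ • cross3 A K (‖z‖⁻¹ • z), K⟫_ℝ = 0) := by
  have e1 : ‖‖z‖⁻¹ • z‖ = 1 := norm_smul_inv_norm (𝕜 := ℝ) hz
  have a1 : ⟪‖z‖⁻¹ • z, A⟫_ℝ = 0 := by rw [real_inner_smul_left, hA, mul_zero]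
  have a2 : ⟪‖z‖⁻¹ • z, K⟫_ℝ = 0 := by rw [real_inner_smul_left, hK, mul_zero]
  set e := ‖z‖⁻¹ • z
  have e2 : ‖cross3 A K e‖ = √(gram2 A K) := by
    rw [← sqrt_sq (norm_nonneg (cross3 A K e)), norm_cross3_sq, gram3_eq h2.ne',
      perp_of_orth a1 a2, e1, one_pow, mul_one]
  refine ⟨⟨e1, ?_, ?_⟩, a1, a2, ?_, ?_⟩
  · rw [norm_smul, e2, norm_inv, Real.norm_eq_abs, abs_of_nonneg (sqrt_nonneg _),
      inv_mul_cancel₀ (sqrt_pos.2 h2).ne']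
  · rw [real_inner_smul_right, real_inner_comm, inner_cross3_3, mul_zero]
  · rw [real_inner_smul_left, inner_cross3_1, mul_zero]
  · rw [real_inner_smul_left, inner_cross3_2, mul_zero]

theorem j1_out {A B K : R4} (h2 : 0 < gram2 A K) {t : ℝ} (ht : 0 < t) (hz : t • perp A K B ≠ 0) :
    ⟪B, (√(gram2 A K))⁻¹ • cross3 A K (‖t • perp A K B‖⁻¹ • t • perp A K B)⟫_ℝ = 0 ∧
      0 < ⟪B, ‖t • perp A K B‖⁻¹ • t • perp A K B⟫_ℝ := by
  have hp : perp A K B ≠ 0 := fun h => hz (by rw [h, smul_zero])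
  constructor
  · rw [geoL_smul3, geoL_smul3, real_inner_smul_right, real_inner_smul_right,
      real_inner_smul_right, ← inner_perp_of_orth B (inner_cross3_1 A K _) (inner_cross3_2 A K _),
      real_inner_comm, inner_cross3_3]
    simp
  · rw [real_inner_smul_right, real_inner_smul_right, real_inner_comm,
      ← inner_perp_perp h2.ne', real_inner_self_eq_norm_sq]
    have := norm_pos_iff.2 hz
    have := norm_pos_iff.2 hp
    positivity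

theorem j1_exists_frame {O Dc In : Set P2} {f n : P2 → R4} (hO : IsOpen O)
    (hf : ContDiffOn ℝ ∞ f O) (hn : ContDiffOn ℝ ∞ n O) (cD : IsCompact Dc) (DO : Dc ⊆ O)
    (oIn : IsOpen In) (InD : In ⊆ Dc)
    (h1 : ∀ x ∈ Dc, 0 < det2 f x ∧ 0 < kt f x ∧ nrm f x (n x) ≠ 0)
    (h2 : ∀ x ∈ Dc, x ∉ In → Q2 (II f x (1, 0) (1, 0)) (II f x (1, 0) (1, 0)) (nrm f x (n x))) :
    ∃ (U Ub Kin : Set P2) (e0 e0' : P2 → R4), IsOpen U ∧ Dc ⊆ U ∧ U ⊆ Ub ∧ IsCompact Ub ∧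
      Ub ⊆ O ∧ IsCompact Kin ∧ Kin ⊆ In ∧
      (∀ x ∈ Ub, ContDiffAt ℝ ∞ e0 x ∧ ContDiffAt ℝ ∞ e0' x) ∧
      (∀ x ∈ Ub, ‖e0 x‖ = 1 ∧ ‖e0' x‖ = 1 ∧ ⟪e0 x, e0' x⟫_ℝ = 0) ∧
      (∀ x ∈ Ub, ⟪e0 x, du f x⟫_ℝ = 0 ∧ ⟪e0 x, du (du f) x⟫_ℝ = 0 ∧
        ⟪e0' x, du f x⟫_ℝ = 0 ∧ ⟪e0' x, du (du f) x⟫_ℝ = 0) ∧
      (∀ x ∈ Ub, 0 < G2 f x ∧ 0 < det2 f x) ∧
      ∀ x ∈ Ub, x ∉ Kin → ⟪dv f x, e0' x⟫_ℝ = 0 ∧ 0 < ⟪dv f x, e0 x⟫_ℝ := by
  have sf : ∀ x ∈ O, ContDiffAt ℝ ∞ f x := fun x hx => hf.contDiffAt (hO.mem_nhds hx)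
  have sn : ∀ x ∈ O, ContDiffAt ℝ ∞ n x := fun x hx => hn.contDiffAt (hO.mem_nhds hx)
  have sA : ∀ x ∈ O, ContDiffAt ℝ ∞ (du f) x := fun x hx => contDiffAt_du (sf x hx)
  have sB : ∀ x ∈ O, ContDiffAt ℝ ∞ (dv f) x := fun x hx => contDiffAt_dv (sf x hx)
  have sK : ∀ x ∈ O, ContDiffAt ℝ ∞ (du (du f)) x := fun x hx => contDiffAt_du (sA x hx)
  have cn : ∀ {ξ : P2 → R4}, ∀ x ∈ Dc, ContDiffAt ℝ ∞ ξ x →
      ContinuousAt (fun y => nrm f y (ξ y)) x := fun {ξ} x hx hξ =>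
    (j1_perp (sA x (DO hx)) (sB x (DO hx)) hξ (h1 x hx).1.ne').continuousAt
  obtain ⟨θ, hθ1, hθ2, hθ3, hθ4, hθ5⟩ := exists_cutoff
    (K := Dc \ interior {x | Q2 (nrm f x (du (du f) x)) (nrm f x (du (du f) x)) (nrm f x (n x))})
    (cD.diff isOpen_interior) oIn (fun x hx => by
      by_contra hI
      refine hx.2 (mem_interior_iff_mem_nhds.2 ?_)
      have c1 := cn x hx.1 (sK x (DO hx.1))
      have c2 := cn x hx.1 (sn x (DO hx.1))
      exact (c1.prodMk (c1.prodMk c2)).preimage_mem_nhds (isOpen_Q2.mem_nhds (h2 x hx.1 hI)))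
  let ξ : P2 → R4 := fun x => (1 - θ x) • du (du f) x + θ x • n x
  have sξ : ∀ x ∈ O, ContDiffAt ℝ ∞ ξ x := fun x hx =>
    ((contDiffAt_const.sub hθ1.contDiffAt).smul (sK x hx)).add (hθ1.contDiffAt.smul (sn x hx))
  have hξ : ∀ x ∈ Dc, nrm f x (ξ x) ≠ 0 := by
    intro x hx h0
    have e : nrm f x (ξ x) = (1 - θ x) • nrm f x (du (du f) x) + θ x • nrm f x (n x) := by
      simp only [ξ, nrm, perp_add, perp_smul]
    rw [e] at h0
    by_cases hq : x ∈ interior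
        {x | Q2 (nrm f x (du (du f) x)) (nrm f x (du (du f) x)) (nrm f x (n x))}
    · obtain ⟨a, -, b⟩ := interior_subset hq (1 - θ x) 0 (θ x) (by linarith [(hθ4 x).2]) le_rfl
        (hθ4 x).1 (by rw [zero_smul, add_zero, h0])
      linarith
    · rw [hθ5.self_of_nhdsSet x ⟨hx, hq⟩, sub_self, zero_smul, zero_add, one_smul] at h0
      exact (h1 x hx).2.2 h0
  obtain ⟨Ub, cU, DU, UW⟩ := exists_compact_between cD (isOpen_interior
    (s := {x | x ∈ O ∧ 0 < det2 f x ∧ 0 < kt f x ∧ nrm f x (ξ x) ≠ 0})) (fun x hx => by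
      refine mem_interior_iff_mem_nhds.2 ?_
      have a := sA x (DO hx)
      have b := sB x (DO hx)
      have k := sK x (DO hx)
      have c1 : ContinuousAt (det2 f) x :=
        (contDiff_gram2.contDiffAt.comp x (a.prodMk b)).continuousAt
      have c2 : ContinuousAt (kt f) x :=
        (((a.inner ℝ a).mul (k.inner ℝ b)).sub ((a.inner ℝ b).mul (k.inner ℝ a))).continuousAt
      filter_upwards [hO.mem_nhds (DO hx), c1.eventually (lt_mem_nhds (h1 x hx).1),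
        c2.eventually (lt_mem_nhds (h1 x hx).2.1),
        (cn x hx (sξ x (DO hx))).eventually_ne (hξ x hx)] with y a1 a2 a3 a4
      exact ⟨a1, a2, a3, a4⟩)
  have hW : ∀ x ∈ Ub, x ∈ O ∧ 0 < det2 f x ∧ 0 < kt f x ∧ nrm f x (ξ x) ≠ 0 :=
    fun x hx => (UW.trans interior_subset) hx
  have hG : ∀ x ∈ Ub, 0 < gram2 (du f x) (du (du f) x) := fun x hx =>
    G2_pos_of_kt (hW x hx).2.2.1.ne'
  let z : P2 → R4 := fun x => j1P (du f x) (dv f x) (du (du f) x) (ξ x)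
  have hz : ∀ x ∈ Ub, z x ≠ 0 := fun x hx =>
    j1P_ne (hW x hx).2.1.ne' (hW x hx).2.2.1.ne' (hW x hx).2.2.2
  have sz : ∀ x ∈ Ub, ContDiffAt ℝ ∞ z x := fun x hx =>
    j1P_smooth (sA x (hW x hx).1) (sB x (hW x hx).1) (sK x (hW x hx).1) (sξ x (hW x hx).1)
      (hG x hx).ne' (hW x hx).2.2.1.ne'
  have fr := fun x hx => j1_frame (hG x hx) (hz x hx) (j1P_orth (hG x hx).ne').1
    (j1P_orth (hG x hx).ne').2
  refine ⟨interior Ub, Ub, tsupport θ, fun x => ‖z x‖⁻¹ • z x,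
    fun x => (√(gram2 (du f x) (du (du f) x)))⁻¹ • cross3 (du f x) (du (du f) x) (‖z x‖⁻¹ • z x),
    isOpen_interior, DU, interior_subset, cU, fun x hx => (hW x hx).1, hθ2, hθ3, fun x hx => ?_,
    fun x hx => (fr x hx).1, fun x hx => (fr x hx).2, fun x hx => ⟨hG x hx, (hW x hx).2.1⟩,
    fun x hx hk => ?_⟩
  · have a := sA x (hW x hx).1
    have k := sK x (hW x hx).1
    have s1 : ContDiffAt ℝ ∞ (fun x => ‖z x‖⁻¹ • z x) x :=
      (((sz x hx).norm ℝ (hz x hx)).inv (norm_ne_zero_iff.2 (hz x hx))).smul (sz x hx)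
    have s2 : ContDiffAt ℝ ∞ (fun x => gram2 (du f x) (du (du f) x)) x :=
      contDiff_gram2.contDiffAt.comp x (a.prodMk k)
    have s3 : ContDiffAt ℝ ∞ (fun x => cross3 (du f x) (du (du f) x) (‖z x‖⁻¹ • z x)) x :=
      contDiff_cross3.contDiffAt.comp x (a.prodMk (k.prodMk s1))
    exact ⟨s1, ((s2.sqrt (hG x hx).ne').inv (sqrt_pos.2 (hG x hx)).ne').smul s3⟩
  · have e : ξ x = du (du f) x := by
      simp only [ξ, image_eq_zero_of_notMem_tsupport hk, sub_zero, one_smul, zero_smul, add_zero]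
    have e2 : z x = (gram2 (du f x) (du (du f) x) / kt f x) •
        perp (du f x) (du (du f) x) (dv f x) := by
      simp only [z]
      rw [e, j1P_self (hG x hx).ne']
      rfl
    have h3 := hz x hx
    simp only
    rw [e2] at h3 ⊢
    exact j1_out (hG x hx) (div_pos (hG x hx) (hW x hx).2.2.1) h3

/-- a function of one variable with small values and derivative one near a null compact set -/
theorem j1_one {T : Set ℝ} (hT : IsCompact T) (hn : MeasureTheory.volume T = 0) {ε : ℝ}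
    (hε : 0 < ε) : ∃ β : ℝ → ℝ, ContDiff ℝ ∞ β ∧ (∀ u, |β u| ≤ ε) ∧
      ∀ᶠ u in 𝓝ˢ T, deriv β u = 1 := by
  obtain ⟨V, hTV, hV, hVε⟩ := T.exists_isOpen_lt_of_lt (μ := MeasureTheory.volume)
    (ENNReal.ofReal ε) (by rw [hn]; exact ENNReal.ofReal_pos.2 hε)
  obtain ⟨χ, h1, h2, h3, h4, h5⟩ := exists_cutoff (K := T ×ˢ {(0 : ℝ)}) (O := V ×ˢ univ)
    (hT.prod isCompact_singleton) (hV.prod isOpen_univ) (prod_mono hTV (subset_univ _))
  have hi : Continuous fun u : ℝ => ((u, 0) : P2) := by fun_prop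
  have hφ : ContDiff ℝ ∞ fun u : ℝ => χ (u, 0) := h1.comp (contDiff_id.prodMk contDiff_const)
  have hd : deriv (fun u : ℝ => ∫ t in (0 : ℝ)..u, χ (t, 0)) = fun u => χ (u, 0) :=
    funext fun u => hφ.continuous.deriv_integral _ _ _
  refine ⟨fun u => ∫ t in (0 : ℝ)..u, χ (t, 0), ?_, fun u => ?_, ?_⟩
  · rw [contDiff_infty_iff_deriv, hd]
    exact ⟨intervalIntegral.differentiable_integral_of_continuous hφ.continuous, hφ⟩
  · have hV0 : ∀ t, t ∉ V → χ (t, 0) = 0 := fun t ht =>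
      image_eq_zero_of_notMem_tsupport fun h => ht (h3 h).1
    have e : ∫ t in uIoc 0 u, χ (t, 0) = ∫ t in uIoc 0 u ∩ V, χ (t, 0) := by
      refine (MeasureTheory.setIntegral_eq_of_subset_of_forall_sdiff_eq_zero measurableSet_uIoc
        inter_subset_left fun t ht => hV0 t fun h => ht.2 ⟨ht.1, h⟩)
    have hm : MeasureTheory.volume (uIoc 0 u ∩ V) < ENNReal.ofReal ε :=
      (MeasureTheory.measure_mono inter_subset_right).trans_lt hVε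
    rw [← Real.norm_eq_abs, intervalIntegral.norm_integral_eq_norm_integral_uIoc, e]
    refine (MeasureTheory.norm_setIntegral_le_of_norm_le_const (C := 1)
      (hm.trans ENNReal.ofReal_lt_top) fun t _ => ?_).trans ?_
    · rw [Real.norm_eq_abs, abs_of_nonneg (h4 _).1]
      exact (h4 _).2
    · rw [one_mul]
      exact ENNReal.toReal_le_of_le_ofReal hε.le hm.le
  · rw [hd, eventually_nhdsSet_iff_forall]
    intro u hu
    exact hi.continuousAt.eventually (eventually_nhdsSet_iff_forall.1 h5 (u, 0) ⟨hu, rfl⟩)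

/-- a function that increases fast in `u` on a compact set with null horizontal slices -/
theorem slicing {S W : Set P2} (hS : IsCompact S) (hW : IsOpen W) (hSW : S ⊆ W)
    (hn : ∀ v0 : ℝ, MeasureTheory.volume {u : ℝ | (u, v0) ∈ S} = 0) (Λ η : ℝ) (hη : 0 < η) :
    ∃ b : P2 → ℝ, ContDiff ℝ ∞ b ∧ HasCompactSupport b ∧ tsupport b ⊆ W ∧ (∀ x, |b x| ≤ η) ∧
      ∀ x ∈ S, Λ ≤ du b x := by
  have hL : 0 < |Λ| + 1 := by positivity
  have hc : ∀ v0 : ℝ, IsCompact {u : ℝ | (u, v0) ∈ S} := fun v0 =>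
    (hS.image continuous_fst).of_isClosed_subset
      (hS.isClosed.preimage (f := fun u : ℝ => ((u, v0) : P2)) (by fun_prop))
      fun u hu => ⟨(u, v0), hu, rfl⟩
  choose β hβ1 hβ2 hβ3 using fun v0 => j1_one (hc v0) (hn v0) (div_pos hη hL)
  have hN : ∀ v0 : ℝ, ∀ᶠ v in 𝓝 v0, ∀ x ∈ S, x.2 = v → deriv (β v0) x.1 = 1 := by
    intro v0
    refine hS.eventually_forall_of_forall_eventually
      (P := fun v x => x.2 = v → deriv (β v0) x.1 = 1) fun x hx => ?_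
    by_cases h : x.2 = v0
    · have h1 := eventually_nhdsSet_iff_forall.1 (hβ3 v0) x.1 (by rw [← h]; exact hx)
      have h2 : ContinuousAt (fun z : ℝ × P2 => z.2.1) (v0, x) := by fun_prop
      exact (h2.eventually h1).mono fun z hz _ => hz
    · have h2 : ContinuousAt (fun z : ℝ × P2 => z.2.2 - z.1) (v0, x) := by fun_prop
      exact (h2.eventually_ne (sub_ne_zero.2 h)).mono fun z hz e => absurd (sub_eq_zero.2 e) hz
  obtain ⟨t, ht⟩ := (hS.image continuous_snd).elim_finite_subcover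
    (fun v0 => interior {v | ∀ x ∈ S, x.2 = v → deriv (β v0) x.1 = 1}) (fun _ => isOpen_interior)
    (fun v _ => mem_iUnion.2 ⟨v, mem_interior_iff_mem_nhds.2 (hN v)⟩)
  obtain ⟨ρ, hρ⟩ := SmoothPartitionOfUnity.exists_isSubordinate (ι := t) 𝓘(ℝ, ℝ)
    (hS.image continuous_snd).isClosed
    (fun v0 => interior {v | ∀ x ∈ S, x.2 = v → deriv (β v0) x.1 = 1}) (fun _ => isOpen_interior)
    (fun v hv => by
      obtain ⟨i, hi, h⟩ := mem_iUnion₂.1 (ht hv)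
      exact mem_iUnion.2 ⟨⟨i, hi⟩, h⟩)
  have hρs : ∀ i, ContDiff ℝ ∞ (ρ i) := fun i => (ρ i).contMDiff.contDiff
  obtain ⟨χ, h1, h2, h3, h4, h5⟩ := exists_cutoff hS hW hSW
  let b1 : P2 → ℝ := fun x => (|Λ| + 1) * ∑ i : t, ρ i x.2 * β i x.1
  have sb : ContDiff ℝ ∞ b1 := contDiff_const.mul (ContDiff.sum fun i _ =>
    ((hρs i).comp contDiff_snd).mul ((hβ1 i).comp contDiff_fst))
  have bb : ∀ x, |b1 x| ≤ η := by
    intro x
    have k1 : ∑ i : t, ρ i x.2 ≤ 1 := by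
      rw [← finsum_eq_sum_of_fintype]
      exact ρ.sum_le_one _
    have k2 : |∑ i : t, ρ i x.2 * β i x.1| ≤ ∑ i : t, ρ i x.2 * (η / (|Λ| + 1)) := by
      refine (Finset.abs_sum_le_sum_abs _ _).trans (Finset.sum_le_sum fun i _ => ?_)
      rw [abs_mul, abs_of_nonneg (ρ.nonneg i _)]
      exact mul_le_mul_of_nonneg_left (hβ2 _ _) (ρ.nonneg i _)
    rw [← Finset.sum_mul] at k2
    have k3 := k2.trans (mul_le_mul_of_nonneg_right k1 (div_pos hη hL).le)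
    rw [one_mul, le_div_iff₀ hL] at k3
    simp only [b1]
    rw [abs_mul, abs_of_pos hL, mul_comm]
    exact k3
  refine ⟨fun x => χ x * b1 x, h1.mul sb, h2.mul_right, (tsupport_mul_subset_left).trans h3,
    fun x => ?_, fun x hx => ?_⟩
  · rw [abs_mul, abs_of_nonneg (h4 x).1]
    exact (mul_le_of_le_one_left (abs_nonneg _) (h4 x).2).trans (bb x)
  · have e : (fun x => χ x * b1 x) =ᶠ[𝓝 x] b1 := by
      filter_upwards [eventually_nhdsSet_iff_forall.1 h5 x hx] with y hy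
      rw [hy, one_mul]
    rw [(surf_du_ev e).eq_of_nhds]
    have d1 : HasDerivAt (fun u : ℝ => b1 (u, x.2)) (du b1 x) x.1 := by
      have a := (sb.differentiable (by simp) (x.1, x.2)).hasFDerivAt
      have c : HasDerivAt (fun u : ℝ => ((u, x.2) : P2)) (1, 0) x.1 :=
        (hasDerivAt_id x.1).prodMk (hasDerivAt_const x.1 x.2)
      exact a.comp_hasDerivAt x.1 c
    have d2 : HasDerivAt (fun u : ℝ => b1 (u, x.2))
        ((|Λ| + 1) * ∑ i : t, ρ i x.2 * deriv (β i) x.1) x.1 :=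
      (HasDerivAt.fun_sum fun (i : t) _ =>
        (((hβ1 i).differentiable (by simp) x.1).hasDerivAt.const_mul (ρ i x.2))).const_mul _
    have k : ∑ i : t, ρ i x.2 * deriv (β i) x.1 = 1 := by
      rw [← ρ.sum_eq_one (mem_image_of_mem _ hx), finsum_eq_sum_of_fintype]
      refine Finset.sum_congr rfl fun i _ => ?_
      by_cases h0 : ρ i x.2 = 0
      · rw [h0, zero_mul]
      · rw [interior_subset (hρ i (subset_tsupport _ h0)) x hx rfl, mul_one]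
    rw [d1.unique d2, k, mul_one]
    linarith [le_abs_self Λ]

variable {M : Type*} [TopologicalSpace M] [ChartedSpace E2 M] [IsManifold 𝓘(ℝ, E2) ∞ M]
  [T2Space M] [CompactSpace M]

theorem exists_fr (c : Ch M) {F ν : M → R4} {a : M → ℝ} {D : Set M} (hF : Sm F) (hν : Sm ν)
    (hi : Imm F) (ht : Transv F ν) (cD : IsCompact D) (hD : D ⊆ c.e.source) (ha : Amp D a)
    (hk : ∀ p ∈ D, 0 < ktM c (pull F) p)
    (hq : ∀ p ∈ frontier D, Q2 (IIm F c c p) (IIm F c c p) (nrmM F c p (ν p))) :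
    ∃ X : Fr, Fits X c F a D := by
  have hDc : IsCompact (c.e '' D) := cD.image_of_continuousOn (c.e.continuousOn.mono hD)
  have hDO : c.e '' D ⊆ c.e.target := by
    rintro _ ⟨p, hp, rfl⟩
    exact c.e.map_source (hD hp)
  have hI : IsOpen (c.e '' interior D) :=
    c.e.isOpen_image_of_subset_source isOpen_interior (interior_subset.trans hD)
  have hν' : ∀ p ∈ D, loc c ν (c.e p) = ν p := fun p hp => by
    unfold loc
    rw [c.e.left_inv (hD hp)]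
  obtain ⟨U, Ub, Kin, e0, e0', k1, k2, k3, k4, k5, k6, k7, k8, k9, k10, k11, k12⟩ :=
    j1_exists_frame c.e.open_target (hF.loc c) (hν.loc c) hDc hDO hI (image_mono interior_subset)
      (by
        rintro _ ⟨p, hp, rfl⟩
        refine ⟨(imm_iff hF c (hD hp)).1 (hi p), ?_, ?_⟩
        · rw [← ktM_pull hF c (hD hp)]
          exact hk p hp
        · rw [hν' p hp]
          exact (transv_iff hF c (hD hp) (hi p) _).1 (ht p))
      (by
        rintro _ ⟨p, hp, rfl⟩ hn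
        have h := hq p ⟨subset_closure hp, fun h => hn (mem_image_of_mem _ h)⟩
        rw [IIm, tr_self c (hD hp)] at h
        rw [hν' p hp]
        exact h)
  refine ⟨⟨c.e.target, loc c F, loc c a, c.e '' D, c.e '' interior D, U, Ub, Kin, e0, e0',
    c.e.open_target, hF.loc c, fun m hm => ?_, hDc, hI, image_mono interior_subset, ?_,
    fun x hx hn => ?_, k1, k2, k3, k4, k5, k6, k7, k8, k9, k10, k11, k12⟩,
    ⟨rfl, rfl, rfl, rfl, rfl⟩⟩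
  · obtain ⟨ρ, h1, h2, h3⟩ := ha.root m hm
    exact ⟨loc c ρ, h1.loc c, fun x _ => ⟨h2 _, h3 _⟩⟩
  · rintro _ ⟨p, hp, rfl⟩
    unfold loc
    rw [c.e.left_inv (hD (interior_subset hp))]
    exact ha.pos p hp
  · exact ha.zero _ fun h => hn ⟨_, h, c.e.right_inv hx⟩

end Vale.Agent.P205
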