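import Vale.Agent.P205.J2AuxB

/-! P205, J2: conversion of the jets. -/

open scoped ContDiff InnerProductSpace Topology Manifold
open Set Filter Real

noncomputable section
namespace Vale.Agent.P205

theorem j2_du_mul {g k : P2 → ℝ} {x : P2} (hg : DifferentiableAt ℝ g x)
    (hk : DifferentiableAt ℝ k x) : du (fun y => g y * k y) x = g x * du k x + k x * du g x := by
  rw [du, fderiv_fun_mul hg hk]
  rfl

theorem j2_d_add {f y : P2 → R4} {x : P2} (hf : DifferentiableAt ℝ f x)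
    (hy : DifferentiableAt ℝ y x) :
    du (fun x => f x + y x) x = du f x + du y x ∧ dv (fun x => f x + y x) x = dv f x + dv y x := by
  rw [du, dv, fderiv_fun_add hf hy]
  exact ⟨rfl, rfl⟩

theorem j2_dd_add {f y : P2 → R4} {x : P2} (hf : ContDiffAt ℝ ∞ f x) (hy : ContDiffAt ℝ ∞ y x) :
    du (du fun x => f x + y x) x = du (du f) x + du (du y) x ∧
      du (dv fun x => f x + y x) x = du (dv f) x + du (dv y) x ∧
      dv (dv fun x => f x + y x) x = dv (dv f) x + dv (dv y) x := by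
  have h1 : ∀ᶠ z in 𝓝 x, du (fun x => f x + y x) z = du f z + du y z ∧
      dv (fun x => f x + y x) z = dv f z + dv y z := by
    filter_upwards [surf_ev hf, surf_ev hy] with z h1 h2
    exact j2_d_add (h1.differentiableAt (by simp)) (h2.differentiableAt (by simp))
  have h2 : du (fun x => f x + y x) =ᶠ[𝓝 x] fun z => du f z + du y z := h1.mono fun _ h => h.1
  have h3 : dv (fun x => f x + y x) =ᶠ[𝓝 x] fun z => dv f z + dv y z := h1.mono fun _ h => h.2
  have a1 := (contDiffAt_du hf).differentiableAt (by simp)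
  have a2 := (contDiffAt_du hy).differentiableAt (by simp)
  have a3 := (contDiffAt_dv hf).differentiableAt (by simp)
  have a4 := (contDiffAt_dv hy).differentiableAt (by simp)
  exact ⟨(surf_du_ev h2).eq_of_nhds.trans (j2_d_add a1 a2).1,
    (surf_du_ev h3).eq_of_nhds.trans (j2_d_add a3 a4).1,
    (surf_dv_ev h3).eq_of_nhds.trans (j2_d_add a3 a4).2⟩

namespace Fr
variable {X : Fr} {c M τ : ℝ} {x : P2} {b : P2 → ℝ}

theorem j2_duaa (τ : ℝ) (x : P2) : du (X.aa τ) x = du X.A x := by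
  rw [du, du]
  exact congrArg (fun L : P2 →L[ℝ] ℝ => L (1, 0)) (fderiv_add_const τ)

theorem j2_durr (hx : x ∈ X.Ub) (hτ : 0 ≤ τ) :
    2 * X.rr τ x * du (X.rr τ) x = du X.gq x + 2 * X.aa τ x * du X.A x := by
  have h1 := (j2_smrr hx hτ).differentiableAt (by simp)
  have h2 := (j2_smaa (X.UO hx) τ).differentiableAt (by simp)
  have h3 : (fun y => X.rr τ y * X.rr τ y) = fun y => X.gq y + X.aa τ y * X.aa τ y :=
    funext fun y => by rw [← sq, ← sq, j2_rsq]
  have h4 := j2_du_mul h1 h1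
  rw [h3, surf_du_add ((j2_smgq hx).differentiableAt (by simp)) (h2.fun_mul h2), j2_du_mul h2 h2,
    j2_duaa] at h4
  linarith

theorem j2_duw (hx : x ∈ X.Ub) (hτ : 0 ≤ τ) :
    X.rr τ x * du (fun y => X.aa τ y / X.rr τ y) x
      = du X.A x - X.aa τ x / X.rr τ x * du (X.rr τ) x := by
  have h0 := j2_rpos hx hτ
  have h1 := j2_smrr hx hτ
  have h2 : ContDiffAt ℝ ∞ (fun y => X.aa τ y / X.rr τ y) x := (j2_smaa (X.UO hx) τ).div h1 h0.ne'
  have h3 : (fun y => X.aa τ y / X.rr τ y * X.rr τ y) =ᶠ[𝓝 x] X.aa τ := by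
    filter_upwards [h1.continuousAt.eventually_ne h0.ne'] with y hy using div_mul_cancel₀ _ hy
  have h4 := j2_du_mul (h2.differentiableAt (by simp)) (h1.differentiableAt (by simp))
  rw [(surf_du_ev h3).eq_of_nhds, j2_duaa] at h4
  linarith

theorem Bds.der (h : X.Bds c M) (hx : x ∈ X.Ub) (hτ : 0 ≤ τ) (hτ1 : τ ≤ 1) :
    |du (X.rr τ) x - du X.r x| ≤ (M / c + 3 * M ^ 2 / c ^ 2) * τ ∧
      |du (fun y => X.aa τ y / X.rr τ y) x| ≤ M / c + 3 * M ^ 2 / c ^ 2 := by
  obtain ⟨u1, -, u3, u4, -⟩ := h.up x hx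
  rw [norm_eq_abs] at u1 u3 u4
  have hc := h.c0
  have hM := h.M1
  have hA := j2_A0 (X.UO hx)
  have r1 := (h.r_bd hx hτ hτ1).1
  have r0 := (h.low x hx).1
  have r2 := j2_r_le hx hτ
  have p1 := hc.trans_le r1
  have p0 := hc.trans_le r0
  have e1 := j2_durr hx hτ
  have e0 := j2_durr hx le_rfl
  have e2 := j2_duw hx hτ
  rw [X.rr_zero] at e0
  simp only [aa, add_zero] at e0 e1
  have n0 : |du X.gq x + 2 * X.A x * du X.A x| ≤ 3 * M ^ 2 := by
    refine (abs_add_le _ _).trans ?_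
    rw [abs_mul, abs_mul, abs_two]
    have : 2 * |X.A x| * |du X.A x| ≤ 2 * M * M := by gcongr
    nlinarith
  have n1 : |du X.gq x + 2 * (X.A x + τ) * du X.A x| ≤ 6 * M ^ 2 := by
    refine (abs_add_le _ _).trans ?_
    rw [abs_mul, abs_mul, abs_two, abs_of_nonneg (add_nonneg hA hτ)]
    have : 2 * (X.A x + τ) * |du X.A x| ≤ 2 * (M + M) * M := by
      gcongr
      · exact (le_abs_self _).trans u1
      · linarith
    nlinarith
  constructor
  · have e3 : du (X.rr τ) x - du X.r x = τ * du X.A x / X.rr τ x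
        - (du X.gq x + 2 * X.A x * du X.A x) * (X.rr τ x - X.r x) / (2 * (X.rr τ x * X.r x)) := by
      field_simp
      linear_combination X.r x * e1 - X.rr τ x * e0
    rw [e3]
    refine (abs_sub _ _).trans ?_
    rw [abs_div, abs_div, abs_mul, abs_mul, abs_of_nonneg hτ, abs_of_pos p1,
      abs_of_nonneg (sub_nonneg.2 r2.1), abs_of_pos (by positivity : 0 < 2 * (X.rr τ x * X.r x))]
    calc _ ≤ τ * M / c + 3 * M ^ 2 * τ / (1 * (c * c)) := by
          gcongr
          · linarith [r2.1]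
          · linarith [r2.2]
          · norm_num
      _ = _ := by ring
  · have e4 : |du (X.rr τ) x| ≤ 3 * M ^ 2 / c := by
      rw [← e1, abs_mul, abs_of_pos (by positivity : 0 < 2 * X.rr τ x)] at n1
      rw [le_div_iff₀ hc]
      nlinarith [abs_nonneg (du (X.rr τ) x)]
    have e5 : |X.aa τ x / X.rr τ x| ≤ 1 := by
      rw [abs_of_nonneg (div_nonneg (show 0 ≤ X.aa τ x from add_nonneg hA hτ) p1.le)]
      exact (div_le_one p1).2 (j2_a_le hx τ)
    have e6 : X.rr τ x * |du (fun y => X.aa τ y / X.rr τ y) x| ≤ M + 1 * (3 * M ^ 2 / c) := by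
      have e7 := congrArg abs e2
      rw [abs_mul, abs_of_pos p1] at e7
      rw [e7]
      refine (abs_sub _ _).trans ?_
      rw [abs_mul]
      gcongr
    calc _ ≤ (M + 1 * (3 * M ^ 2 / c)) / c := by
          rw [le_div_iff₀ hc]
          nlinarith [abs_nonneg (du (fun y => X.aa τ y / X.rr τ y) x)]
      _ = _ := by ring

theorem j2_Bp (X : Fr) (b : P2 → ℝ) : Bp X.f (X.ee b) (X.ee' b) = Bp X.f X.e0 X.e0' := by
  funext x
  simp only [Bp, j2_ee, j2_ee']
  simp only [ee, ee', nPar, nPer, p1, p2]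
  linear_combination (norm := module)
    (sin_sq_add_cos_sq (b x)) • (-(⟪dv X.f x, X.e0 x⟫_ℝ • X.e0 x + ⟪dv X.f x, X.e0' x⟫_ℝ • X.e0' x))

theorem j2_duee (hb : ContDiff ℝ ∞ b) (hx : x ∈ X.Ub) :
    du (X.ee b) x = nPar (du X.e0 x) (du X.e0' x) (cos (b x)) (sin (b x)) + du b x • X.ee' b x ∧
    du (X.ee' b) x = nPer (du X.e0 x) (du X.e0' x) (cos (b x)) (sin (b x)) - du b x • X.ee b x := by
  have h1 := (hb.differentiable (by simp) x).hasFDerivAt
  have h2 := ((X.sme x hx).1.differentiableAt (by simp)).hasFDerivAt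
  have h3 := ((X.sme x hx).2.differentiableAt (by simp)).hasFDerivAt
  have k1 : HasFDerivAt (X.ee b) _ x := (h1.cos.fun_smul h2).fun_add (h1.sin.fun_smul h3)
  have k2 : HasFDerivAt (X.ee' b) _ x := (h1.sin.fun_neg.fun_smul h2).fun_add (h1.cos.fun_smul h3)
  rw [du.eq_1 (X.ee b), du.eq_1 (X.ee' b), k1.fderiv, k2.fderiv]
  simp only [ee, ee', nPar, nPer, du, ContinuousLinearMap.add_apply, ContinuousLinearMap.smul_apply,
    ContinuousLinearMap.smulRight_apply, ContinuousLinearMap.neg_apply, smul_eq_mul]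
  constructor <;> module

theorem j2_Xi (hb : ContDiff ℝ ∞ b) (hx : x ∈ X.Ub) (r : P2 → ℝ) (ψ : ℝ) :
    Xi X.f (X.ee b) (X.ee' b) r x ψ
      = Xi X.f X.e0 X.e0' r x (ψ + b x) + (r x * du b x) • X.m x (ψ + b x) := by
  rw [Xi, Xi, j2_Bp, (j2_duee hb hx).1, (j2_duee hb hx).2]
  simp only [ee, ee', m, nPar, nPer, cos_add, sin_add]
  module

theorem j2_jet (h : X.Bds c M) {L Mb μ P0 P : ℝ} (hL : 0 ≤ L) (hb : ContDiff ℝ ∞ b)
    (hMb : |du b x| ≤ Mb) (hx : x ∈ X.Ub) (hτ : 0 ≤ τ) (hμ : 1 ≤ μ) (hτμ : τ ≤ μ⁻¹)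
    {y : P2 → R4} (hy : ContDiffAt ℝ ∞ y x)
    (hj : JetAt L X.f (X.ee b) (X.ee' b) (X.aa τ) (X.rr τ) y x μ P0)
    (hP : 2 * P0 + (L / c + Mb + 2 * M + 1 + (M / c + 3 * M ^ 2 / c ^ 2)) ≤ P) :
    X.Jet L (L * (M / c + 3 * M ^ 2 / c ^ 2)) b (fun x => X.f x + y x) x μ P := by
  obtain ⟨ψ, ψ1, s, a1, a2, a3, a4, a5, a6, a7, a8⟩ := hj
  have hτ1 : τ ≤ 1 := hτμ.trans (inv_le_one_of_one_le₀ hμ)
  obtain ⟨d1, d2⟩ := h.der hx hτ hτ1
  obtain ⟨-, -, -, -, -, -, u7, u8, u9⟩ := h.up x hx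
  have hc := h.c0
  have hM := h.M1
  have hμ0 : 0 < μ := by linarith
  have hP0 : 0 ≤ P0 := (abs_nonneg _).trans a3
  have hMb0 : 0 ≤ Mb := (abs_nonneg _).trans hMb
  have k1 : 0 ≤ L / c := by positivity
  have k2 : 0 ≤ M / c + 3 * M ^ 2 / c ^ 2 := by positivity
  have hf := j2_smf (X.UO hx)
  have r0 := (h.low x hx).1
  have r2 := j2_r_le hx hτ
  have p0 := hc.trans_le r0
  have p1 := p0.trans_le r2.1
  have hA := j2_A0 (X.UO hx)
  have hPP : P0 / μ ≤ P / μ := by gcongr; linarith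
  have key : ∀ Q, 0 ≤ Q → P0 + Q ≤ P → P0 / μ + Q * τ ≤ P / μ := fun Q h1 h2 =>
    calc P0 / μ + Q * τ ≤ P0 / μ + Q * μ⁻¹ := by gcongr
      _ = (P0 + Q) / μ := by ring
      _ ≤ P / μ := by gcongr
  obtain ⟨b1, b2⟩ := j2_d_add (hf.differentiableAt (by simp)) (hy.differentiableAt (by simp))
  obtain ⟨b3, b4, b5⟩ := j2_dd_add hf hy
  obtain ⟨n1, n2, -⟩ := j2_unit (X.unit x hx) (ψ + b x)
  have m1 : nPar (X.ee b x) (X.ee' b x) (cos ψ) (sin ψ)
      = nPar (X.e0 x) (X.e0' x) (cos (ψ + b x)) (sin (ψ + b x)) := j2_par_par _ _ _ _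
  have m2 : nPer (X.ee b x) (X.ee' b x) (cos ψ) (sin ψ) = X.m x (ψ + b x) := j2_per_par _ _ _ _
  have hd : |ψ1 + du b x| ≤ P0 + Mb := (abs_add_le _ _).trans (add_le_add a3 hMb)
  have hr : |X.rr τ x - X.r x| ≤ τ := by
    rw [abs_of_nonneg (sub_nonneg.2 r2.1)]
    linarith [r2.2]
  refine ⟨hf.add hy, ψ + b x, ψ1 + du b x, s * X.rr τ x / X.r x, ?_, ?_, ?_, ?_, ?_, ?_, ?_, ?_⟩
  · have e1 : X.aa τ x / X.rr τ x ≤ X.w x + τ / c := by
      rw [aa, add_div, w]
      gcongr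
      · exact r2.1
      · exact r0.trans r2.1
    have e2 := key (L / c) k1 (by linarith)
    have e3 : 0 ≤ P0 / μ := by positivity
    calc |ψ + b x| ≤ |ψ| + |b x| := abs_add_le _ _
      _ ≤ (X.w x + τ / c) * L + |b x| := by
          gcongr
          exact a1.trans (by gcongr)
      _ = X.w x * L + |b x| + L / c * τ := by ring
      _ ≤ _ := by linarith
  · rw [add_sub_cancel_right]
    refine a2.trans (add_le_add (by gcongr) ?_)
    have e1 : |s| ≤ |s * X.rr τ x / X.r x| := by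
      rw [abs_div, abs_mul, abs_of_pos p0, abs_of_pos p1, le_div_iff₀ p0]
      gcongr
      exact r2.1
    gcongr
    all_goals linarith
  · linarith
  · rw [b1, add_sub_cancel_left]
    exact a4.trans hPP
  · rw [b3, add_sub_cancel_left]
    exact a5.trans hPP
  · have e1 : dv X.f x + dv y x - X.V x (ψ + b x)
        = (dv X.f x + dv y x - Vv X.f (X.ee b) (X.ee' b) (X.rr τ) x ψ)
          + (X.rr τ x - X.r x) • nPar (X.e0 x) (X.e0' x) (cos (ψ + b x)) (sin (ψ + b x)) := by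
      rw [V, Vv, Vv, j2_Bp, m1]
      module
    rw [b2, e1]
    refine (norm_add_le _ _).trans (le_trans ?_ (key 1 zero_le_one (by linarith)))
    rw [norm_smul, n1, mul_one, one_mul]
    exact add_le_add a6 hr
  · have e1 : du (dv X.f) x + du (dv y) x
          - (X.Ξ x (ψ + b x) + (X.r x * (ψ1 + du b x)) • X.m x (ψ + b x))
        = (du (dv X.f) x + du (dv y) x - (Xi X.f (X.ee b) (X.ee' b) (X.rr τ) x ψ
            + (X.rr τ x * ψ1) • nPer (X.ee b x) (X.ee' b x) (cos ψ) (sin ψ)))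
          + ((du (X.rr τ) x - du X.r x) • nPar (X.e0 x) (X.e0' x) (cos (ψ + b x)) (sin (ψ + b x))
          + (X.rr τ x - X.r x) • (nPar (du X.e0 x) (du X.e0' x) (cos (ψ + b x)) (sin (ψ + b x))
            + (ψ1 + du b x) • X.m x (ψ + b x))) := by
      rw [j2_Xi hb hx, m2, Ξ, Xi, Xi]
      module
    have e2 : ‖nPar (du X.e0 x) (du X.e0' x) (cos (ψ + b x)) (sin (ψ + b x))
        + (ψ1 + du b x) • X.m x (ψ + b x)‖ ≤ M + M + (P0 + Mb) := by
      refine (norm_add_le _ _).trans (add_le_add ((j2_norm_par _ _ _).trans (add_le_add u8 u9)) ?_)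
      rw [norm_smul, m, n2, mul_one]
      exact hd
    rw [b4, e1]
    refine (norm_add_le _ _).trans (le_trans ?_
      (key ((M / c + 3 * M ^ 2 / c ^ 2) + (M + M + (P0 + Mb))) (by positivity) (by linarith)))
    refine add_le_add a7 ((norm_add_le _ _).trans ?_)
    rw [norm_smul, norm_smul, n1, mul_one, add_mul, mul_comm (M + M + (P0 + Mb))]
    exact add_le_add d1 (mul_le_mul hr e2 (norm_nonneg _) hτ)
  · have e1 : μ * X.r x * (s * X.rr τ x / X.r x) = μ * X.rr τ x * s := by field_simp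
    rw [b5, e1, add_sub_assoc, ← m2]
    exact (norm_add_le _ _).trans (by linarith)

end Fr

end Vale.Agent.P205
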