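import Vale.Agent.P205.JDefs
import Vale.Agent.P205.Core
import Vale.Agent.P205.J2AuxC

/-! P205, J2: the large step in the plane (BLUEPRINT, module J). -/

open scoped ContDiff InnerProductSpace Topology Manifold
open Set Filter Real

noncomputable section
namespace Vale.Agent.P205

theorem j2_err_small {f y : P2 → R4} {x : P2} {M s : ℝ} (hf : DifferentiableAt ℝ f x)
    (hy : DifferentiableAt ℝ y x) (hA : ‖du f x‖ ≤ M) (hB : ‖dv f x‖ ≤ M)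
    (hs : ‖iteratedFDeriv ℝ 1 y x‖ ≤ s) : ErrAt f (fun x => f x + y x) 0 x (2 * M * s + s * s) := by
  have hu := (norm_du_le y x).trans hs
  have hv := (norm_dv_le y x).trans hs
  have key : ∀ A B u v : R4, ‖A‖ ≤ M → ‖B‖ ≤ M → ‖u‖ ≤ s → ‖v‖ ≤ s →
      |⟪A + u, B + v⟫_ℝ - ⟪A, B⟫_ℝ| ≤ 2 * M * s + s * s := fun A B u v h1 h2 h3 h4 => by
    have h0 := (norm_nonneg _).trans h1
    have h5 := (norm_nonneg _).trans h3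
    have e1 : |⟪A, v⟫_ℝ| ≤ M * s := (abs_real_inner_le_norm _ _).trans (by gcongr)
    have e2 : |⟪u, B⟫_ℝ| ≤ s * M := (abs_real_inner_le_norm _ _).trans (by gcongr)
    have e3 : |⟪u, v⟫_ℝ| ≤ s * s := (abs_real_inner_le_norm _ _).trans (by gcongr)
    rw [inner_add_left, inner_add_right, inner_add_right, abs_le] at *
    constructor <;> linarith [e1.1, e1.2, e2.1, e2.2, e3.1, e3.2]
  simp only [ErrAt, fE, fF, fG, j2_d_add hf hy, sub_zero]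
  exact ⟨key _ _ _ _ hA hA hu hu, key _ _ _ _ hA hB hu hv, key _ _ _ _ hB hB hv hv⟩

theorem j2_err_in {f g g' : P2 → R4} {x : P2} {A τ σ σ' : ℝ} (h : ErrAt f g ((A + τ) ^ 2) x σ)
    (hg : g' =ᶠ[𝓝 x] g) (h0 : 0 ≤ (2 * A + τ) * τ) (h1 : σ + (2 * A + τ) * τ ≤ σ') :
    ErrAt f g' (A ^ 2) x σ' := by
  obtain ⟨j1, j2, -⟩ := jets_congr hg
  obtain ⟨e1, e2, e3⟩ := h
  have e4 : (A + τ) ^ 2 = A ^ 2 + (2 * A + τ) * τ := by ring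
  simp only [ErrAt, fE, fF, fG, j1, j2, e4, abs_le] at e1 e2 e3 ⊢
  refine ⟨⟨?_, ?_⟩, ⟨?_, ?_⟩, ?_, ?_⟩ <;> linarith [e1.1, e1.2, e2.1, e2.2, e3.1, e3.2]

theorem j2_err_mono {f g : P2 → R4} {a2 σ σ' : ℝ} {x : P2} (h : ErrAt f g a2 x σ)
    (hσ : σ ≤ σ') : ErrAt f g a2 x σ' :=
  ⟨h.1.trans hσ, h.2.1.trans hσ, h.2.2.trans hσ⟩

theorem j2_num1 {θ C M A D : ℝ} (N : ℕ) (hθ : 1 ≤ θ) (hC : 0 ≤ C) (hA : 0 ≤ A) (hM : A ≤ M)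
    (hD : 0 ≤ D) :
    C * (θ / θ ^ 8) ^ (2 * N) + (2 * A + (θ ^ 8)⁻¹ ^ (N + 2)) * (θ ^ 8)⁻¹ ^ (N + 2)
      ≤ (C + (2 * M + 1) + (2 * M * D + D * D)) / (θ ^ 8) ^ N := by
  have h0 : 0 < θ := by linarith
  have hM0 := hA.trans hM
  have hi : (θ ^ 8)⁻¹ ≤ 1 := inv_le_one_of_one_le₀ (one_le_pow₀ hθ)
  have k3 : (θ ^ 8)⁻¹ ^ N ≤ 1 := pow_le_one₀ (by positivity) hi
  have k4 : (θ ^ 8)⁻¹ ^ (N + 2) ≤ (θ ^ 8)⁻¹ ^ N := pow_le_pow_of_le_one (by positivity) hi (by omega)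
  have e4 : C * (θ / θ ^ 8) ^ (2 * N) ≤ C * (θ ^ 8)⁻¹ ^ N := by
    rw [pow_mul]
    gcongr
    rw [div_pow, div_le_iff₀ (by positivity), le_inv_mul_iff₀ (by positivity), ← pow_add, ← pow_mul]
    exact pow_le_pow_right₀ hθ (by norm_num)
  have e7 : (2 * A + (θ ^ 8)⁻¹ ^ (N + 2)) * (θ ^ 8)⁻¹ ^ (N + 2) ≤ (2 * M + 1) * (θ ^ 8)⁻¹ ^ N := by
    gcongr
    linarith
  have k6 : 0 ≤ (2 * M * D + D * D) * (θ ^ 8)⁻¹ ^ N := by positivity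
  rw [div_eq_mul_inv _ ((θ ^ 8) ^ N), ← inv_pow _ N, add_mul, add_mul]
  linarith

theorem j2_num2 {θ D : ℝ} (N : ℕ) (hθ : 1 ≤ θ) (hD : 0 ≤ D) :
    D * (1 * ((0 + (θ ^ 8)⁻¹ ^ (N + 2)) * (θ / θ ^ 8))) * (θ ^ 8) ^ 1 ≤ D * (θ ^ 8)⁻¹ ^ N := by
  have h0 : 0 < θ := by linarith
  have e2 : θ * (θ ^ 8)⁻¹ ^ 2 ≤ 1 := by
    rw [inv_pow, mul_inv_le_iff₀ (by positivity), one_mul, ← pow_mul]
    exact le_self_pow₀ hθ (by norm_num)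
  calc _ = D * (θ ^ 8)⁻¹ ^ N * (θ * (θ ^ 8)⁻¹ ^ 2) := by
        rw [zero_add, pow_one, mul_assoc, mul_assoc, mul_assoc, div_mul_cancel₀ _ (by positivity)]
        ring
    _ ≤ _ := mul_le_of_le_one_right (by positivity) e2

theorem j2_num3 {θ C M D : ℝ} (N : ℕ) (hθ : 1 ≤ θ) (hC : 0 ≤ C) (hM : 0 ≤ M) (hD : 0 ≤ D) :
    2 * M * (D * (θ ^ 8)⁻¹ ^ N) + D * (θ ^ 8)⁻¹ ^ N * (D * (θ ^ 8)⁻¹ ^ N)
      ≤ (C + (2 * M + 1) + (2 * M * D + D * D)) / (θ ^ 8) ^ N := by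
  have h0 : 0 < θ := by linarith
  have k3 : (θ ^ 8)⁻¹ ^ N ≤ 1 :=
    pow_le_one₀ (by positivity) (inv_le_one_of_one_le₀ (one_le_pow₀ hθ))
  have k7 : 0 ≤ (C + (2 * M + 1)) * (θ ^ 8)⁻¹ ^ N := by positivity
  have : D * (θ ^ 8)⁻¹ ^ N * (D * (θ ^ 8)⁻¹ ^ N) ≤ D * (θ ^ 8)⁻¹ ^ N * (D * 1) := by gcongr
  rw [div_eq_mul_inv _ ((θ ^ 8) ^ N), ← inv_pow _ N, add_mul]
  linarith

theorem j2_num4 {θ a A D D' : ℝ} {j : ℕ} (N : ℕ) (hθ : 1 ≤ θ) (hj : j ≤ 2) (hD : D ≤ D')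
    (hD' : 0 ≤ D') (hA0 : 0 ≤ A) (hA : A ≤ ((θ ^ 8) ^ 2)⁻¹) (ha : a = A + (θ ^ 8)⁻¹ ^ (N + 2)) :
    D * (1 * (a * (θ / θ ^ 8))) * (θ ^ 8) ^ j ≤ 2 * D' * θ⁻¹ := by
  have h0 : 0 < θ := by linarith
  have hμ : 1 ≤ θ ^ 8 := one_le_pow₀ hθ
  have e1 : a ≤ 2 * ((θ ^ 8) ^ 2)⁻¹ := by
    have : (θ ^ 8)⁻¹ ^ (N + 2) ≤ (θ ^ 8)⁻¹ ^ 2 :=
      pow_le_pow_of_le_one (by positivity) (inv_le_one_of_one_le₀ hμ) (by omega)
    rw [inv_pow _ 2] at this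
    linarith
  have e0 : 0 ≤ a := by rw [ha]; positivity
  have e3 : (θ ^ 8) ^ j ≤ (θ ^ 8) ^ 2 := pow_le_pow_right₀ hμ hj
  have e4 : θ / θ ^ 8 ≤ θ⁻¹ := by
    rw [div_le_iff₀ (by positivity), le_inv_mul_iff₀ h0, ← sq]
    exact pow_le_pow_right₀ hθ (by norm_num)
  calc _ ≤ D' * (1 * (2 * ((θ ^ 8) ^ 2)⁻¹ * θ⁻¹)) * (θ ^ 8) ^ 2 := by gcongr
    _ = _ := by field_simp

theorem j2_seq (X : Fr) {c M L : ℝ} (hB : X.Bds c M) (hL : 4 ≤ L)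
    (hLK : ∀ x ∈ X.Kin, π ≤ X.w x * L) {b : P2 → ℝ} (hb : ContDiff ℝ ∞ b)
    (hbc : HasCompactSupport b) (hbI : tsupport b ⊆ X.In) (hbw : ∀ x ∈ X.Ub, |b x| ≤ X.w x)
    (N0 : ℕ) : ∃ (θ : ℕ → ℝ) (C : ℝ) (Cs : ℕ → ℝ) (y : ℕ → P2 → R4), (∀ n, 1 ≤ θ n) ∧
      Tendsto θ atTop atTop ∧ 0 ≤ C ∧ (∀ j, 0 ≤ Cs j) ∧ ∀ n, ContDiffOn ℝ ∞ (y n) X.U ∧
        (∀ j : ℕ, ∀ x ∈ X.U, ‖iteratedFDeriv ℝ j (y n) x‖
          ≤ Cs j * X.aa ((θ n ^ 8)⁻¹ ^ (N0 + 2)) x * θ n * (θ n ^ 8) ^ j / θ n ^ 8) ∧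
        (∀ x ∈ X.U, ErrAt X.f (fun x => X.f x + y n x) (X.aa ((θ n ^ 8)⁻¹ ^ (N0 + 2)) x ^ 2) x
          (C * (θ n / θ n ^ 8) ^ (2 * N0))) ∧
        ∀ x ∈ X.U, JetAt L X.f (X.ee b) (X.ee' b) (X.aa ((θ n ^ 8)⁻¹ ^ (N0 + 2)))
          (X.rr ((θ n ^ 8)⁻¹ ^ (N0 + 2))) (y n) x (θ n ^ 8) (C * θ n) := by
  obtain ⟨b0, hb0, H⟩ := Fr.j2_core
  have hc := inv_pos.2 hB.c0
  have hM := hB.M1
  have h1 : ∀ i : ℕ, 1 ≤ (i : ℝ) + (c⁻¹ + M + 1) := fun i => by linarith [i.cast_nonneg (α := ℝ)]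
  obtain ⟨lam0, C, Cs, y, hC, hCs, hy⟩ := H X c M L hB hL hLK b hb hbc hbI hbw (b0 * 8 * (N0 + 2))
    ⟨b0 * 4 * (N0 + 2), by ring⟩ (Nat.mul_pos (by omega) (by omega))
    (fun i => i + (c⁻¹ + M + 1)) (fun i => (((i : ℝ) + (c⁻¹ + M + 1)) ^ b0) ^ 8)
    (fun i => ⟨h1 i, by linarith [i.cast_nonneg (α := ℝ)], by linarith [i.cast_nonneg (α := ℝ)]⟩)
    (fun i => le_self_pow₀ (one_le_pow₀ (h1 i)) (by norm_num)) (2 * N0)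
  refine ⟨fun n => (((n + ⌈lam0⌉₊ : ℕ) : ℝ) + (c⁻¹ + M + 1)) ^ b0, C, Cs, fun n => y (n + ⌈lam0⌉₊),
    fun n => one_le_pow₀ (h1 _), (tendsto_pow_atTop (by omega)).comp (tendsto_atTop_add_const_right
      _ _ (tendsto_natCast_atTop_atTop.comp (tendsto_add_atTop_nat _))), hC, hCs, fun n => ?_⟩
  have h2 := hy (n + ⌈lam0⌉₊) (by
    have := Nat.le_ceil lam0
    push_cast
    linarith [n.cast_nonneg (α := ℝ)])
  rw [pow_mul, pow_mul, inv_pow _ b0, inv_pow _ 8] at h2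
  exact h2

theorem Fr.large (X : Fr) : ∃ L C0 : ℝ, 0 < L ∧ ∀ b : P2 → ℝ, ContDiff ℝ ∞ b →
    HasCompactSupport b → tsupport b ⊆ X.In → (∀ x ∈ X.Ub, |b x| ≤ X.w x) → ∀ N0 : ℕ,
    ∃ (μ P ε : ℕ → ℝ) (y : ℕ → P2 → R4) (K : Set P2), IsCompact K ∧ K ⊆ X.O ∧ Rate μ P ∧
      Tendsto ε atTop (𝓝 0) ∧ (∀ n, ContDiff ℝ ∞ (y n) ∧ ∀ x, x ∉ K → y n x = 0) ∧
      (∀ m : ℕ, ∃ C : ℝ, ∀ n x, ‖iteratedFDeriv ℝ m (y n) x‖ ≤ C * μ n ^ (m + 1)) ∧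
      (∃ C : ℝ, ∀ n, ∀ x ∈ X.O,
        ErrAt X.f (fun x => X.f x + y n x) (X.A x ^ 2) x (C / μ n ^ N0)) ∧
      (∀ n, ∀ x ∈ X.Dc, X.Jet L C0 b (fun x => X.f x + y n x) x (μ n) (P n)) ∧
      ∀ n, ∀ x ∈ X.O, X.A x ≤ (μ n ^ 2)⁻¹ → ∀ j ≤ 2, ‖iteratedFDeriv ℝ j (y n) x‖ ≤ ε n := by
  obtain ⟨c, M, hB⟩ := X.exists_bds
  obtain ⟨L, hL, hLK⟩ := X.exists_L
  refine ⟨L, L * (M / c + 3 * M ^ 2 / c ^ 2), by linarith, fun b hb hbc hbI hbw N0 => ?_⟩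
  obtain ⟨θ, C, Cs, y, hθ, hθt, hC, hCs, hy⟩ := j2_seq X hB hL hLK hb hbc hbI hbw N0
  obtain ⟨κ, hκ, hκc, hκU, -, hκ1⟩ := exists_cutoff X.cD X.oU X.DU
  obtain ⟨Mb, hMb0, hMb⟩ := ((eventually_ge_atTop (0 : ℝ)).and
    (j2_ev_bd X.cU fun x _ => contDiffAt_du hb.contDiffAt)).exists
  have hc := hB.c0
  have hM := hB.M1
  have hL0 : 0 ≤ L := by linarith
  have h0 : ∀ n, 0 < θ n := fun n => one_pos.trans_le (hθ n)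
  have hμ : ∀ n, 1 ≤ θ n ^ 8 := fun n => one_le_pow₀ (hθ n)
  have hμ0 : ∀ n, 0 < θ n ^ 8 := fun n => pow_pos (h0 n) 8
  have hθμ : ∀ n, θ n ≤ θ n ^ 8 := fun n => le_self_pow₀ (hθ n) (by norm_num)
  have hi : ∀ n, (θ n ^ 8)⁻¹ ≤ 1 := fun n => inv_le_one_of_one_le₀ (hμ n)
  have hi0 : ∀ n, 0 < (θ n ^ 8)⁻¹ := fun n => inv_pos.2 (hμ0 n)
  have hτ0 : ∀ n, 0 < (θ n ^ 8)⁻¹ ^ (N0 + 2) := fun n => pow_pos (hi0 n) _
  have hτ : ∀ n j, j ≤ N0 + 2 → (θ n ^ 8)⁻¹ ^ (N0 + 2) ≤ (θ n ^ 8)⁻¹ ^ j := fun n j hj =>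
    pow_le_pow_of_le_one (hi0 n).le (hi n) hj
  have ha0 : ∀ n, ∀ x ∈ X.U, 0 ≤ X.aa ((θ n ^ 8)⁻¹ ^ (N0 + 2)) x := fun n x hx =>
    add_nonneg (Fr.j2_A0 (X.UO (X.UU hx))) (hτ0 n).le
  have hsm : ∀ n, ∀ x ∈ X.U, ContDiffAt ℝ ∞ (y n) x := fun n x hx =>
    (hy n).1.contDiffAt (X.oU.mem_nhds hx)
  have t1 : T (fam2 (fun _ => X.U) fun n => θ n ^ 8)
      (fun n x => X.aa ((θ n ^ 8)⁻¹ ^ (N0 + 2)) x * (θ n / θ n ^ 8)) y :=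
    T.of_iter hμ0 (fun n x hx => mul_nonneg (ha0 n x hx) (div_nonneg (h0 n).le (hμ0 n).le)) hsm
      fun j => ⟨Cs j, fun n x hx => ((hy n).2.1 j x hx).trans (le_of_eq (by ring))⟩
  have t2 : T (fam2 (fun _ => X.U) fun n => θ n ^ 8) (fun _ _ => 1) fun _ => κ :=
    T.fixed X.cU (fun _ _ => hκ.contDiffAt) (fun _ => X.UU) hμ
  have t3 := t2.smul t1
  choose D hD hb' using t3.to_iter hμ0
  have hz : ∀ n, ∀ x ∉ X.U, (fun x => κ x • y n x) =ᶠ[𝓝 x] fun _ => 0 := fun n x hx => by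
    filter_upwards [notMem_tsupport_iff_eventuallyEq.1 fun h => hx (hκU h)] with z hz
    rw [hz, Pi.zero_apply, zero_smul]
  have hz' : ∀ n j, ∀ x ∉ X.U, ‖iteratedFDeriv ℝ j (fun x => κ x • y n x) x‖ = 0 :=
    fun n j x hx => by
      rw [((hz n x hx).iteratedFDeriv ℝ j).eq_of_nhds, iteratedFDeriv_fun_zero, Pi.zero_apply,
        norm_zero]
  have hs : ∀ n, ContDiff ℝ ∞ fun x => κ x • y n x := fun n =>
    contDiff_iff_contDiffAt.2 fun x => by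
      by_cases hx : x ∈ X.U
      · exact t3.smooth n hx
      · exact contDiffAt_const.congr_of_eventuallyEq (hz n x hx)
  have he : ∀ n, ∀ x ∈ X.Dc, (fun x => κ x • y n x) =ᶠ[𝓝 x] y n := fun n x hx => by
    filter_upwards [hκ1.filter_mono (nhds_le_nhdsSet hx)] with z hz
    rw [hz, one_smul]
  have hQ : 1 ≤ L / c + Mb + 2 * M + 1 + (M / c + 3 * M ^ 2 / c ^ 2) := by
    have k1 : 0 ≤ L / c := by positivity
    have k2 : 0 ≤ M / c + 3 * M ^ 2 / c ^ 2 := by positivity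
    linarith
  generalize hQQ : L / c + Mb + 2 * M + 1 + (M / c + 3 * M ^ 2 / c ^ 2) = Q at hQ
  have hD0 := hD 0
  have hD1 := hD 1
  have hD2 := hD 2
  refine ⟨fun n => θ n ^ 8, fun n => (2 * C + Q) * θ n, fun n => 2 * (D 0 + D 1 + D 2) * (θ n)⁻¹,
    fun n x => κ x • y n x, tsupport κ, hκc, hκU.trans (X.UU.trans X.UO),
    ⟨fun n => ⟨hμ n, one_le_mul_of_one_le_of_one_le (by linarith) (hθ n)⟩,
      (tendsto_pow_atTop (by norm_num)).comp hθt, ?_⟩, ?_,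
    fun n => ⟨hs n, fun x hx => by simp only [image_eq_zero_of_notMem_tsupport hx, zero_smul]⟩,
    fun m => ⟨D m * (M + 1), fun n x => ?_⟩,
    ⟨C + (2 * M + 1) + (2 * M * D 1 + D 1 * D 1), fun n x hx => ?_⟩, fun n x hx => ?_,
    fun n x hx hA j hj => ?_⟩
  · have k1 := (((tendsto_pow_atTop (n := 4) (by norm_num)).comp hθt).inv_tendsto_atTop).const_mul
      ((2 * C + Q) ^ 4)
    rw [mul_zero] at k1
    refine k1.congr fun n => ?_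
    have := (h0 n).ne'
    simp only [Pi.inv_apply, Function.comp_apply]
    field_simp
  · simpa using hθt.inv_tendsto_atTop.const_mul (2 * (D 0 + D 1 + D 2))
  · have k0 := hD m
    have k1 := hμ0 n
    by_cases hx : x ∈ X.U
    · refine (hb' m n x hx).trans ?_
      have k2 : X.aa ((θ n ^ 8)⁻¹ ^ (N0 + 2)) x ≤ M + 1 :=
        add_le_add ((le_abs_self _).trans (hB.up x (X.UU hx)).1) (by simpa using hτ n 0 (by omega))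
      have k3 : θ n / θ n ^ 8 ≤ θ n ^ 8 := ((div_le_one k1).2 (hθμ n)).trans (hμ n)
      have k4 := div_nonneg (h0 n).le k1.le
      calc _ ≤ D m * (1 * ((M + 1) * θ n ^ 8)) * (θ n ^ 8) ^ m := by gcongr
        _ = _ := by ring
    · rw [hz' n m x hx]
      positivity
  · have hf := (Fr.j2_smf hx).differentiableAt (by simp)
    by_cases hxD : x ∈ X.Dc
    · have e5 := Fr.j2_A0 hx
      have e6 := hτ0 n
      exact j2_err_in ((hy n).2.2.1 x (X.DU hxD)) ((he n x hxD).mono fun z hz =>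
        congrArg (X.f z + ·) hz) (by positivity)
        (j2_num1 N0 (hθ n) hC e5 ((le_abs_self _).trans (hB.up x (X.UU (X.DU hxD))).1) hD1)
    · have e0 : X.A x = 0 := X.zero x hx fun h => hxD (X.InD h)
      have hyd := (hs n).differentiable (by simp) x
      rw [e0, zero_pow two_ne_zero]
      by_cases hxU : x ∈ X.U
      · obtain ⟨-, -, -, -, u5, u6, -⟩ := hB.up x (X.UU hxU)
        have e1 := hb' 1 n x hxU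
        rw [Fr.aa, e0] at e1
        exact j2_err_mono (j2_err_small hf hyd u5 u6 (e1.trans (j2_num2 N0 (hθ n) hD1)))
          (j2_num3 N0 (hθ n) hC (by linarith) hD1)
      · refine j2_err_mono (j2_err_small hf hyd (le_max_left _ ‖dv X.f x‖) (le_max_right _ _)
          (hz' n 1 x hxU).le) ?_
        have := hμ0 n
        rw [mul_zero, mul_zero, add_zero]
        positivity
  · obtain ⟨j1, j2, j3, j4, j5, -⟩ := jets_congr (he n x hx)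
    refine Fr.j2_jet hB hL0 hb (hMb x (X.UU (X.DU hx))) (X.UU (X.DU hx)) (hτ0 n).le (hμ n)
      (by simpa using hτ n 1 (by omega)) (hs n).contDiffAt (P0 := C * θ n)
      (by simpa only [JetAt, j1, j2, j3, j4, j5] using (hy n).2.2.2 x (X.DU hx)) ?_
    show _ ≤ (2 * C + Q) * θ n
    rw [hQQ, add_mul, mul_assoc]
    exact add_le_add le_rfl (le_mul_of_one_le_right (by linarith) (hθ n))
  · by_cases hxU : x ∈ X.U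
    · refine (hb' j n x hxU).trans (j2_num4 N0 (hθ n) hj ?_ (by linarith) (Fr.j2_A0 hx) hA rfl)
      interval_cases j <;> linarith
    · have k2 := inv_pos.2 (h0 n)
      rw [hz' n j x hxU]
      positivity

end Vale.Agent.P205
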