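import Vale.Agent.P205.JDefs
import Vale.Agent.P205.Core

/-! P205, J2: the input of the core step for the large step. -/

open scoped ContDiff InnerProductSpace Topology Manifold
open Set Filter Real

noncomputable section
namespace Vale.Agent.P205

section Rot
variable {e e' : R4}

theorem j2_inner_par (B e e' : R4) (c s : ℝ) :
    ⟪B, nPar e e' c s⟫_ℝ = c * ⟪B, e⟫_ℝ + s * ⟪B, e'⟫_ℝ := by
  simp only [nPar, inner_add_right, real_inner_smul_right]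

theorem j2_inner_per (B e e' : R4) (c s : ℝ) :
    ⟪B, nPer e e' c s⟫_ℝ = -s * ⟪B, e⟫_ℝ + c * ⟪B, e'⟫_ℝ := by
  simp only [nPer, inner_add_right, real_inner_smul_right]

theorem j2_unit (h : ‖e‖ = 1 ∧ ‖e'‖ = 1 ∧ ⟪e, e'⟫_ℝ = 0) (t : ℝ) :
    ‖nPar e e' (cos t) (sin t)‖ = 1 ∧ ‖nPer e e' (cos t) (sin t)‖ = 1 ∧
      ⟪nPar e e' (cos t) (sin t), nPer e e' (cos t) (sin t)⟫_ℝ = 0 := by
  have h1 : ⟪e, e⟫_ℝ = 1 := by rw [real_inner_self_eq_norm_sq, h.1, one_pow]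
  have h2 : ⟪e', e'⟫_ℝ = 1 := by rw [real_inner_self_eq_norm_sq, h.2.1, one_pow]
  have h3 : ⟪e', e⟫_ℝ = 0 := by rw [real_inner_comm, h.2.2]
  have k : ∀ v : R4, ⟪v, v⟫_ℝ = 1 → ‖v‖ = 1 := fun v hv => by
    rw [real_inner_self_eq_norm_sq] at hv
    exact (pow_eq_one_iff_of_nonneg (norm_nonneg _) two_ne_zero).1 hv
  refine ⟨k _ ?_, k _ ?_, ?_⟩ <;>
    simp only [nPar, nPer, inner_add_left, inner_add_right, real_inner_smul_left,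
      real_inner_smul_right, h1, h2, h3, h.2.2] <;> nlinarith [sin_sq_add_cos_sq t]

theorem j2_par_par (e e' : R4) (ψ b : ℝ) :
    nPar (nPar e e' (cos b) (sin b)) (nPer e e' (cos b) (sin b)) (cos ψ) (sin ψ)
      = nPar e e' (cos (ψ + b)) (sin (ψ + b)) := by
  simp only [nPar, nPer, cos_add, sin_add]
  module

theorem j2_per_par (e e' : R4) (ψ b : ℝ) :
    nPer (nPar e e' (cos b) (sin b)) (nPer e e' (cos b) (sin b)) (cos ψ) (sin ψ)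
      = nPer e e' (cos (ψ + b)) (sin (ψ + b)) := by
  simp only [nPar, nPer, cos_add, sin_add]
  module

theorem j2_norm_par (u v : R4) (t : ℝ) : ‖nPar u v (cos t) (sin t)‖ ≤ ‖u‖ + ‖v‖ := by
  refine (norm_add_le _ _).trans (add_le_add ?_ ?_) <;> rw [norm_smul, norm_eq_abs]
  · exact mul_le_of_le_one_left (norm_nonneg _) (abs_cos_le_one t)
  · exact mul_le_of_le_one_left (norm_nonneg _) (abs_sin_le_one t)
end Rot

namespace Fr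
variable (X : Fr)

def p1 (x : P2) : ℝ := ⟪dv X.f x, X.e0 x⟫_ℝ
def p2 (x : P2) : ℝ := ⟪dv X.f x, X.e0' x⟫_ℝ
def gq (x : P2) : ℝ := X.p1 x ^ 2 + X.p2 x ^ 2
def aa (τ : ℝ) (x : P2) : ℝ := X.A x + τ
def rr (τ : ℝ) (x : P2) : ℝ := √(X.gq x + X.aa τ x ^ 2)
def ee (b : P2 → ℝ) (x : P2) : R4 := nPar (X.e0 x) (X.e0' x) (cos (b x)) (sin (b x))
def ee' (b : P2 → ℝ) (x : P2) : R4 := nPer (X.e0 x) (X.e0' x) (cos (b x)) (sin (b x))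
def g1 (b : P2 → ℝ) (τ : ℝ) (x : P2) : ℝ := ⟪dv X.f x, X.ee' b x⟫_ℝ / X.aa τ x
def g2 (b : P2 → ℝ) (τ : ℝ) (x : P2) : ℝ :=
  (1 - ⟪dv X.f x, X.ee b x⟫_ℝ / X.rr τ x) / (X.aa τ x / X.rr τ x) ^ 2

theorem rr_zero : X.rr 0 = X.r := funext fun x => by simp only [rr, r, gq, p1, p2, aa, add_zero]

variable {X} {x : P2} {τ : ℝ} {b : P2 → ℝ}

theorem j2_smA (hx : x ∈ X.O) : ContDiffAt ℝ ∞ X.A x := by
  obtain ⟨ρ, h1, h2⟩ := X.root 1 le_rfl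
  refine (h1.contDiffAt (X.hO.mem_nhds hx)).congr_of_eventuallyEq ?_
  filter_upwards [X.hO.mem_nhds hx] with y hy
  rw [← (h2 y hy).2, pow_one]

theorem j2_A0 (hx : x ∈ X.O) : 0 ≤ X.A x := by
  obtain ⟨ρ, -, h2⟩ := X.root 1 le_rfl
  rw [← (h2 x hx).2, pow_one]
  exact (h2 x hx).1

theorem j2_smf (hx : x ∈ X.O) : ContDiffAt ℝ ∞ X.f x := X.hf.contDiffAt (X.hO.mem_nhds hx)

theorem j2_smp1 (hx : x ∈ X.Ub) : ContDiffAt ℝ ∞ X.p1 x :=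
  (contDiffAt_dv (j2_smf (X.UO hx))).inner ℝ (X.sme x hx).1

theorem j2_smp2 (hx : x ∈ X.Ub) : ContDiffAt ℝ ∞ X.p2 x :=
  (contDiffAt_dv (j2_smf (X.UO hx))).inner ℝ (X.sme x hx).2

theorem j2_smgq (hx : x ∈ X.Ub) : ContDiffAt ℝ ∞ X.gq x :=
  ((j2_smp1 hx).pow 2).add ((j2_smp2 hx).pow 2)

theorem j2_gq0 (x : P2) : 0 ≤ X.gq x := add_nonneg (sq_nonneg _) (sq_nonneg _)

theorem j2_rad (hx : x ∈ X.Ub) (hτ : 0 ≤ τ) : 0 < X.gq x + X.aa τ x ^ 2 := by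
  by_cases h : x ∈ X.Kin
  · have h1 := X.pos x (X.KIn h)
    have h2 : 0 < X.aa τ x := add_pos_of_pos_of_nonneg h1 hτ
    exact add_pos_of_nonneg_of_pos (j2_gq0 x) (pow_pos h2 2)
  · have h1 : 0 < X.p1 x := (X.out x hx h).2
    exact add_pos_of_pos_of_nonneg (add_pos_of_pos_of_nonneg (pow_pos h1 2) (sq_nonneg _))
      (sq_nonneg _)

theorem j2_rpos (hx : x ∈ X.Ub) (hτ : 0 ≤ τ) : 0 < X.rr τ x := sqrt_pos.2 (j2_rad hx hτ)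

theorem j2_rsq (x : P2) (τ : ℝ) : X.rr τ x ^ 2 = X.gq x + X.aa τ x ^ 2 :=
  sq_sqrt (add_nonneg (j2_gq0 x) (sq_nonneg _))

theorem j2_smaa (hx : x ∈ X.O) (τ : ℝ) : ContDiffAt ℝ ∞ (X.aa τ) x :=
  (j2_smA hx).add contDiffAt_const

theorem j2_smrr (hx : x ∈ X.Ub) (hτ : 0 ≤ τ) : ContDiffAt ℝ ∞ (X.rr τ) x :=
  ((j2_smgq hx).add ((j2_smaa (X.UO hx) τ).pow 2)).sqrt (j2_rad hx hτ).ne'

theorem j2_smr (hx : x ∈ X.Ub) : ContDiffAt ℝ ∞ X.r x := X.rr_zero ▸ j2_smrr hx le_rfl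

theorem j2_r_le (hx : x ∈ X.Ub) (hτ : 0 ≤ τ) : X.r x ≤ X.rr τ x ∧ X.rr τ x ≤ X.r x + τ := by
  have h0 := j2_A0 (X.UO hx)
  have h1 := j2_rsq (X := X) x 0
  have h2 := j2_rpos hx le_rfl
  have h3 : X.A x ≤ X.rr 0 x := by
    refine le_sqrt_of_sq_le ?_
    simp only [aa, add_zero]
    linarith [j2_gq0 (X := X) x]
  rw [← X.rr_zero]
  simp only [aa, add_zero] at h1
  refine ⟨sqrt_le_sqrt ?_, sqrt_le_iff.2 ⟨by linarith, ?_⟩⟩ <;> simp only [aa] <;> nlinarith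

theorem j2_a_le (hx : x ∈ X.Ub) (τ : ℝ) : X.aa τ x ≤ X.rr τ x :=
  le_sqrt_of_sq_le (by linarith [j2_gq0 (X := X) x])

theorem j2_w_le (hx : x ∈ X.Ub) (hτ : 0 ≤ τ) : X.w x ≤ X.aa τ x / X.rr τ x := by
  have h0 := j2_A0 (X.UO hx)
  have h1 := j2_rpos hx le_rfl
  have h2 := j2_rpos hx hτ
  have h3 := (j2_r_le hx hτ).2
  have h4 := j2_a_le hx 0
  rw [w, ← X.rr_zero] at *
  simp only [aa, add_zero] at h4 ⊢
  rw [div_le_div_iff₀ h1 h2]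
  nlinarith

theorem j2_smee (hb : ContDiff ℝ ∞ b) (hx : x ∈ X.Ub) :
    ContDiffAt ℝ ∞ (X.ee b) x ∧ ContDiffAt ℝ ∞ (X.ee' b) x :=
  ⟨(hb.contDiffAt.cos.smul (X.sme x hx).1).add (hb.contDiffAt.sin.smul (X.sme x hx).2),
    (hb.contDiffAt.sin.neg.smul (X.sme x hx).1).add (hb.contDiffAt.cos.smul (X.sme x hx).2)⟩

theorem j2_ee (b : P2 → ℝ) (x : P2) :
    ⟪dv X.f x, X.ee b x⟫_ℝ = cos (b x) * X.p1 x + sin (b x) * X.p2 x := j2_inner_par _ _ _ _ _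

theorem j2_ee' (b : P2 → ℝ) (x : P2) :
    ⟪dv X.f x, X.ee' b x⟫_ℝ = -sin (b x) * X.p1 x + cos (b x) * X.p2 x := j2_inner_per _ _ _ _ _

theorem j2_rot (b : P2 → ℝ) (x : P2) :
    ⟪dv X.f x, X.ee b x⟫_ℝ ^ 2 + ⟪dv X.f x, X.ee' b x⟫_ℝ ^ 2 = X.gq x := by
  rw [j2_ee, j2_ee', gq]
  linear_combination (X.p1 x ^ 2 + X.p2 x ^ 2) * sin_sq_add_cos_sq (b x)

theorem j2_out (hx : x ∈ X.Ub) (hk : x ∉ X.Kin) (hτ : 0 ≤ τ) :
    √(1 - (X.aa τ x / X.rr τ x) ^ 2) = X.p1 x / X.rr τ x := by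
  have h1 : 0 < X.p1 x := (X.out x hx hk).2
  have h2 : X.p2 x = 0 := (X.out x hx hk).1
  have h3 := j2_rpos hx hτ
  have h4 := j2_rsq (X := X) x τ
  rw [sqrt_eq_iff_mul_self_eq_of_pos (div_pos h1 h3)]
  rw [gq, h2] at h4
  field_simp
  linarith

theorem j2_gam (hx : x ∈ X.Ub) (hτ : 0 ≤ τ) (ha : 0 < X.aa τ x) :
    1 - (X.aa τ x / X.rr τ x) ^ 2 * X.g2 b τ x = ⟪dv X.f x, X.ee b x⟫_ℝ / X.rr τ x ∧
      X.aa τ x / X.rr τ x * X.g1 b τ x = ⟪dv X.f x, X.ee' b x⟫_ℝ / X.rr τ x := by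
  have h3 := j2_rpos hx hτ
  rw [g1, g2]
  constructor <;> field_simp
  ring

theorem j2_om {L : ℝ} (hL : 4 ≤ L) (hLK : ∀ x ∈ X.Kin, π ≤ X.w x * L)
    (hbw : ∀ x ∈ X.Ub, |b x| ≤ X.w x) (hx : x ∈ X.In) (hτ : 0 ≤ τ) :
    (X.aa τ x / X.rr τ x, X.g1 b τ x, X.g2 b τ x) ∈ Om L := by
  have hU : x ∈ X.Ub := X.UU (X.DU (X.InD hx))
  have ha : 0 < X.aa τ x := add_pos_of_pos_of_nonneg (X.pos x hx) hτ
  have hr := j2_rpos hU hτ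
  have hw := div_pos ha hr
  obtain ⟨h1, h2⟩ := j2_gam (b := b) hU hτ ha
  by_cases hk : x ∈ X.Kin
  · refine mem_Om_full hw ((hLK x hk).trans ?_) ?_
    · exact mul_le_mul_of_nonneg_right (j2_w_le hU hτ) (by linarith)
    · rw [h1, h2, div_pow, div_pow, ← add_div, j2_rot, div_lt_one (pow_pos hr 2), j2_rsq]
      linarith [pow_pos ha 2]
  · have h3 : X.p2 x = 0 := (X.out x hU hk).1
    refine mem_Om_arc (b := -b x) hw ((div_le_one hr).2 (j2_a_le hU τ)) hL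
      (by rw [abs_neg]; exact (hbw x hU).trans (j2_w_le hU hτ)) ?_ ?_
    · rw [h1, j2_out hU hk hτ, j2_ee, h3, cos_neg]; ring
    · rw [h2, j2_out hU hk hτ, j2_ee', h3, sin_neg]; ring

theorem j2_center (hx : x ∈ X.Ub) (hk : x ∉ X.Kin) (hb : b x = 0) (hτ : 0 < τ) :
    X.g1 b τ x = 0 ∧ X.g2 b τ x = X.rr τ x / (X.rr τ x + X.p1 x) ∧
      X.g2 b τ x = (1 + √(1 - (X.aa τ x / X.rr τ x) ^ 2))⁻¹ := by
  have h1 : 0 < X.p1 x := (X.out x hx hk).2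
  have h2 : X.p2 x = 0 := (X.out x hx hk).1
  have h3 := j2_rpos hx hτ.le
  have h4 := j2_rsq (X := X) x τ
  have ha : 0 < X.aa τ x := add_pos_of_nonneg_of_pos (j2_A0 (X.UO hx)) hτ
  rw [gq, h2] at h4
  have h5 : X.g2 b τ x = X.rr τ x / (X.rr τ x + X.p1 x) := by
    rw [g2, j2_ee, hb, h2, cos_zero, sin_zero]
    field_simp
    linear_combination h4
  refine ⟨by rw [g1, j2_ee', hb, h2]; simp, h5, ?_⟩
  rw [h5, j2_out hx hk hτ.le]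
  field_simp

end Fr

end Vale.Agent.P205
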