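import Vale.Agent.P205.J2Aux

/-! P205, J2: application of the core step. -/

open scoped ContDiff InnerProductSpace Topology Manifold
open Set Filter Real

noncomputable section
namespace Vale.Agent.P205

theorem j2_LT_subset {E : Type} [NormedAddCommGroup E] [NormedSpace ℝ E] {k : ℕ} {ι : Type}
    {X : Fam ι E k} {f : ι → E → ℝ} (h : LT X f) (S' : ι → Set E) (hS : ∀ i, S' i ⊆ X.S i) :
    LT ⟨X.v, S'⟩ f := ⟨fun i p hp => h.1 i p (hS i hp), h.2.subset S' hS⟩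

theorem j2_ev_bd {F : Type} [NormedAddCommGroup F] [NormedSpace ℝ F] {K : Set P2} (hK : IsCompact K)
    {g : P2 → F} (h : ∀ x ∈ K, ContDiffAt ℝ ∞ g x) : ∀ᶠ M in atTop, ∀ x ∈ K, ‖g x‖ ≤ M := by
  obtain ⟨C, hC⟩ := hK.exists_bound_of_continuousOn
    fun x hx => (h x hx).continuousAt.continuousWithinAt
  filter_upwards [eventually_ge_atTop C] with M hM x hx using (hC x hx).trans hM

namespace Fr

/-- uniform bounds on the compact neighbourhood -/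
structure Bds (X : Fr) (c M : ℝ) : Prop where
  c0 : 0 < c
  M1 : 1 ≤ M
  low : ∀ x ∈ X.Ub, c ≤ X.r x ∧ c ≤ G2 X.f x
  up : ∀ x ∈ X.Ub, ‖X.A x‖ ≤ M ∧ ‖X.r x‖ ≤ M ∧ ‖du X.A x‖ ≤ M ∧ ‖du X.gq x‖ ≤ M ∧
    ‖du X.f x‖ ≤ M ∧ ‖dv X.f x‖ ≤ M ∧ ‖dv (dv X.f) x‖ ≤ M ∧ ‖du X.e0 x‖ ≤ M ∧ ‖du X.e0' x‖ ≤ M

theorem exists_bds (X : Fr) : ∃ c M, X.Bds c M := by
  have hf : ∀ x ∈ X.Ub, ContDiffAt ℝ ∞ X.f x := fun x hx => j2_smf (X.UO hx)
  have hA : ∀ x ∈ X.Ub, ContDiffAt ℝ ∞ X.A x := fun x hx => j2_smA (X.UO hx)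
  obtain ⟨c1, h1, h1'⟩ := X.cU.exists_forall_le' (f := X.r) (a := 0)
    (fun x hx => (j2_smr hx).continuousAt.continuousWithinAt)
    fun x hx => X.rr_zero ▸ j2_rpos hx le_rfl
  obtain ⟨c2, h2, h2'⟩ := X.cU.exists_forall_le' (f := G2 X.f) (a := 0)
    (fun x hx => (contDiff_gram2.contDiffAt.comp x ((contDiffAt_du (hf x hx)).prodMk
      (contDiffAt_du (contDiffAt_du (hf x hx))))).continuousAt.continuousWithinAt)
    fun x hx => (X.nd x hx).1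
  obtain ⟨M, m0, m1, m2, m3, m4, m5, m6, m7, m8, m9⟩ := ((eventually_ge_atTop (1 : ℝ)).and
    ((j2_ev_bd X.cU hA).and ((j2_ev_bd X.cU fun x hx => j2_smr hx).and
    ((j2_ev_bd X.cU fun x hx => contDiffAt_du (hA x hx)).and
    ((j2_ev_bd X.cU fun x hx => contDiffAt_du (j2_smgq hx)).and
    ((j2_ev_bd X.cU fun x hx => contDiffAt_du (hf x hx)).and
    ((j2_ev_bd X.cU fun x hx => contDiffAt_dv (hf x hx)).and
    ((j2_ev_bd X.cU fun x hx => contDiffAt_dv (contDiffAt_dv (hf x hx))).and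
    ((j2_ev_bd X.cU fun x hx => contDiffAt_du (X.sme x hx).1).and
    (j2_ev_bd X.cU fun x hx => contDiffAt_du (X.sme x hx).2)))))))))).exists
  exact ⟨min c1 c2, M, lt_min h1 h2, m0, fun x hx =>
    ⟨(min_le_left _ _).trans (h1' x hx), (min_le_right _ _).trans (h2' x hx)⟩,
    fun x hx => ⟨m1 x hx, m2 x hx, m3 x hx, m4 x hx, m5 x hx, m6 x hx, m7 x hx, m8 x hx, m9 x hx⟩⟩

theorem exists_L (X : Fr) : ∃ L : ℝ, 4 ≤ L ∧ ∀ x ∈ X.Kin, π ≤ X.w x * L := by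
  have hU : ∀ x ∈ X.Kin, x ∈ X.Ub := fun x hx => X.UU (X.DU (X.InD (X.KIn hx)))
  have hr : ∀ x ∈ X.Kin, 0 < X.r x := fun x hx => X.rr_zero ▸ j2_rpos (hU x hx) le_rfl
  obtain ⟨c, h1, h2⟩ := X.cK.exists_forall_le' (f := X.w) (a := 0)
    (fun x hx => ((j2_smA (X.UO (hU x hx))).continuousAt.div (j2_smr (hU x hx)).continuousAt
      (hr x hx).ne').continuousWithinAt)
    fun x hx => div_pos (X.pos x (X.KIn hx)) (hr x hx)
  refine ⟨max 4 (π / c), le_max_left _ _, fun x hx => ?_⟩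
  calc π = c * (π / c) := by field_simp
    _ ≤ X.w x * max 4 (π / c) := by
      gcongr
      · exact h1.le.trans (h2 x hx)
      · exact h2 x hx
      · exact le_max_right _ _

variable {X : Fr} {c M τ : ℝ} {x : P2}

theorem Bds.r_bd (h : X.Bds c M) (hx : x ∈ X.Ub) (hτ : 0 ≤ τ) (hτ1 : τ ≤ 1) :
    c ≤ X.rr τ x ∧ X.rr τ x ≤ M + 1 :=
  ⟨(h.low x hx).1.trans (j2_r_le hx hτ).1, (j2_r_le hx hτ).2.trans
    (add_le_add ((le_abs_self _).trans (h.up x hx).2.1) hτ1)⟩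

theorem j2_K {L : ℝ} {b : P2 → ℝ} (hL : 4 ≤ L) (hLK : ∀ x ∈ X.Kin, π ≤ X.w x * L)
    (hb : ContDiff ℝ ∞ b) (hbw : ∀ x ∈ X.Ub, |b x| ≤ X.w x) {K' : Set P2} (hK' : IsCompact K')
    (hKI : K' ⊆ X.In) (hout : ∀ x, x ∉ K' → x ∉ X.Kin ∧ b x = 0) :
    ∃ K : Set Q3, IsCompact K ∧ K ⊆ Om L ∧ ∀ τ, 0 < τ → τ ≤ 1 → ∀ x ∈ X.Ub,
      (X.aa τ x / X.rr τ x, X.g1 b τ x, X.g2 b τ x) ∈ K := by
  refine ⟨(fun w : ℝ => ((w, (0 : ℝ), (1 + √(1 - w ^ 2))⁻¹) : Q3)) '' Icc 0 1 ∪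
    (fun z : P2 × ℝ => ((X.aa z.2 z.1 / X.rr z.2 z.1, X.g1 b z.2 z.1, X.g2 b z.2 z.1) : Q3)) ''
      (K' ×ˢ Icc 0 1), IsCompact.union ?_ ?_, union_subset ?_ ?_, fun τ h0 h1 x hx => ?_⟩
  · exact isCompact_Icc.image (continuous_id.prodMk (continuous_const.prodMk
      (Continuous.inv₀ (by fun_prop) fun _ => by positivity)))
  · refine (hK'.prod isCompact_Icc).image_of_continuousOn fun z hz =>
      ContinuousAt.continuousWithinAt ?_
    have hU : z.1 ∈ X.Ub := X.UU (X.DU (X.InD (hKI hz.1)))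
    have ha : 0 < X.aa z.2 z.1 := add_pos_of_pos_of_nonneg (X.pos _ (hKI hz.1)) hz.2.1
    have hr := j2_rpos hU hz.2.1
    have c1 : ContinuousAt (fun z : P2 × ℝ => X.aa z.2 z.1) z :=
      ((j2_smA (X.UO hU)).continuousAt.comp continuousAt_fst).add continuousAt_snd
    have c2 : ContinuousAt (fun z : P2 × ℝ => X.rr z.2 z.1) z :=
      (((j2_smgq hU).continuousAt.comp continuousAt_fst).add (c1.pow 2)).sqrt
    have c3 := contDiffAt_dv (j2_smf (X.UO hU))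
    have c4 := (c3.inner ℝ (j2_smee hb hU).1).continuousAt.comp (continuousAt_fst (p := z))
    have c5 := (c3.inner ℝ (j2_smee hb hU).2).continuousAt.comp (continuousAt_fst (p := z))
    exact (c1.div c2 hr.ne').prodMk ((c5.div c1 ha.ne').prodMk
      ((continuousAt_const.sub (c4.div c2 hr.ne')).div ((c1.div c2 hr.ne').pow 2)
        (pow_pos (div_pos ha hr) 2).ne'))
  · rintro _ ⟨w, hw, rfl⟩
    exact mem_Om_center hw.1 hw.2 hL
  · rintro _ ⟨z, hz, rfl⟩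
    exact j2_om hL hLK hbw (hKI hz.1) hz.2.1
  · by_cases hk : x ∈ K'
    · exact Or.inr ⟨(x, τ), ⟨hk, h0.le, h1⟩, rfl⟩
    · obtain ⟨e1, -, e2⟩ := j2_center hx (hout x hk).1 (hout x hk).2 h0
      have hr := j2_rpos hx h0.le
      refine Or.inl ⟨X.aa τ x / X.rr τ x, ⟨div_nonneg (add_nonneg (j2_A0 (X.UO hx)) h0.le) hr.le,
        (div_le_one hr).2 (j2_a_le hx τ)⟩, ?_⟩
      rw [e1, e2]

theorem j2_core : ∃ b0 : ℕ, 1 ≤ b0 ∧ ∀ (X : Fr) (c M L : ℝ), X.Bds c M → 4 ≤ L →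
    (∀ x ∈ X.Kin, π ≤ X.w x * L) → ∀ b : P2 → ℝ, ContDiff ℝ ∞ b → HasCompactSupport b →
    tsupport b ⊆ X.In → (∀ x ∈ X.Ub, |b x| ≤ X.w x) → ∀ m : ℕ, Even m → 1 ≤ m →
    ∀ lam μ : ℕ → ℝ, (∀ i, 1 ≤ lam i ∧ c⁻¹ ≤ lam i ∧ M + 1 ≤ lam i) →
    (∀ i, lam i ^ b0 ≤ μ i) → ∀ Mo : ℕ,
    ∃ (lam0 C : ℝ) (Cs : ℕ → ℝ) (y : ℕ → P2 → R4), 0 ≤ C ∧ (∀ j, 0 ≤ Cs j) ∧
      ∀ i, lam0 ≤ lam i → ContDiffOn ℝ ∞ (y i) X.U ∧
        (∀ j : ℕ, ∀ x ∈ X.U, ‖iteratedFDeriv ℝ j (y i) x‖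
          ≤ Cs j * X.aa ((lam i)⁻¹ ^ m) x * lam i ^ b0 * μ i ^ j / μ i) ∧
        (∀ x ∈ X.U, ErrAt X.f (fun x => X.f x + y i x) (X.aa ((lam i)⁻¹ ^ m) x ^ 2) x
          (C * (lam i ^ b0 / μ i) ^ Mo)) ∧
        ∀ x ∈ X.U, JetAt L X.f (X.ee b) (X.ee' b) (X.aa ((lam i)⁻¹ ^ m)) (X.rr ((lam i)⁻¹ ^ m))
          (y i) x (μ i) (C * lam i ^ b0) := by
  obtain ⟨b0, hb0, H⟩ := core
  refine ⟨b0, hb0, fun X c M L hB hL hLK b hb hbc hbI hbw m hm hm1 lam μ hlam hμ Mo => ?_⟩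
  have hK' : IsCompact (X.Kin ∪ tsupport b) := X.cK.union hbc
  have hKI : X.Kin ∪ tsupport b ⊆ X.In := union_subset X.KIn hbI
  have hout : ∀ x, x ∉ X.Kin ∪ tsupport b → x ∉ X.Kin ∧ b x = 0 := fun x hx =>
    ⟨fun h => hx (Or.inl h), image_eq_zero_of_notMem_tsupport fun h => hx (Or.inr h)⟩
  obtain ⟨K, hK, hKO, hmem⟩ := j2_K hL hLK hb hbw hK' hKI hout
  obtain ⟨cA, hcA, hcA'⟩ := hK'.exists_forall_le' (f := X.A) (a := 0)
    (fun x hx => (j2_smA (X.UO (X.UU (X.DU (X.InD (hKI hx)))))).continuousAt.continuousWithinAt)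
    fun x hx => X.pos x (hKI hx)
  have hc := hB.c0
  have hM := hB.M1
  have hτ : ∀ i, 0 < (lam i)⁻¹ ^ m := fun i => pow_pos (inv_pos.2 (by linarith [(hlam i).1])) m
  have hτ1 : ∀ i, (lam i)⁻¹ ^ m ≤ 1 := fun i =>
    pow_le_one₀ (inv_nonneg.2 (by linarith [(hlam i).1])) (inv_le_one_of_one_le₀ (hlam i).1)
  have hrb := fun i x (hx : x ∈ X.U) => hB.r_bd (X.UU hx) (hτ i).le (hτ1 i)
  have fixed : ∀ {F : Type} [NormedAddCommGroup F] [NormedSpace ℝ F] {Φ : P2 → F},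
      (∀ x ∈ X.Ub, ContDiffAt ℝ ∞ Φ x) →
      T (fam2 (fun _ : ℕ => X.U) lam) (fun _ _ => 1) (fun _ => Φ) :=
    fun h => T.fixed X.cU h (fun _ => X.UU) fun i => (hlam i).1
  have hf : ∀ x ∈ X.Ub, ContDiffAt ℝ ∞ X.f x := fun x hx => j2_smf (X.UO hx)
  have ha : LT (fam2 (fun _ : ℕ => X.U) lam) (fun i => X.aa ((lam i)⁻¹ ^ m)) := by
    obtain ⟨ρ, h1, h2⟩ := X.root m hm1
    refine (LT.fam2_flat (Θ := fun _ => 1) (T.fixed X.cU
      (fun x hx => h1.contDiffAt (X.hO.mem_nhds (X.UO hx))) (fun _ => X.UU) fun _ => le_rfl) m hm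
      lam (fun i => (lam i)⁻¹ ^ m) (fun i => (hlam i).1) (fun i => ⟨one_pos, (mul_one _).le⟩)
      fun _ => le_rfl).congr_open (fun _ => X.oU) fun i p hp => ?_
    rw [aa, (h2 p (X.UO (X.UU hp))).2]
  have ta : T (fam2 (fun _ : ℕ => X.U) lam) (fun _ _ => 1) (fun i => X.aa ((lam i)⁻¹ ^ m)) :=
    (fixed fun x hx => j2_smA (X.UO hx)).add
      (T.const _ fun i _ _ => by rw [norm_of_nonneg (hτ i).le]; exact hτ1 i)
  have hr : LT (fam2 (fun _ : ℕ => X.U) lam) (fun i => X.rr ((lam i)⁻¹ ^ m)) := by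
    refine LT.sqrt (LT.of_T ((fixed fun x hx => j2_smgq hx).add
      ((ta.pow 2).mono 1 zero_le_one fun _ _ _ => by simp))
      (fun i p hp => j2_rad (X.UU hp) (hτ i).le) (c⁻¹ ^ 2) (by positivity) fun i p hp => ?_)
    rw [← j2_rsq, ← mul_pow]
    exact one_le_pow₀ ((one_le_inv_mul₀ hc).2 (hrb i p hp).1)
  have tr : T (fam2 (fun _ : ℕ => X.U) lam) (fun _ _ => 1) (fun i => X.rr ((lam i)⁻¹ ^ m)) :=
    hr.2.mono (M + 1) (by linarith) fun i p hp => by simpa using (hrb i p hp).2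
  have s1 : ∀ i, (fun _ : ℕ => X.U ∩ (X.Kin ∪ tsupport b)) i ⊆ (fam2 (fun _ : ℕ => X.U) lam).S i :=
    fun _ => inter_subset_left
  have s2 : ∀ i, (fun _ : ℕ => X.U \ (X.Kin ∪ tsupport b)) i ⊆ (fam2 (fun _ : ℕ => X.U) lam).S i :=
    fun _ => diff_subset
  have s3 : ∀ i, (fam2 (fun _ : ℕ => X.U) lam).S i ⊆ (fun _ : ℕ => X.U ∩ (X.Kin ∪ tsupport b)) i ∪
      (fun _ : ℕ => X.U \ (X.Kin ∪ tsupport b)) i := fun _ => (inter_union_diff _ _).ge
  have o2 : IsOpen (X.U \ (X.Kin ∪ tsupport b)) := X.oU.sdiff hK'.isClosed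
  have low : ∀ i, ∀ p ∈ X.U ∩ (X.Kin ∪ tsupport b), cA ≤ X.aa ((lam i)⁻¹ ^ m) p := fun i p hp =>
    (hcA' p hp.2).trans (le_add_of_nonneg_right (hτ i).le)
  have cen := fun i p (hp : p ∈ X.U \ (X.Kin ∪ tsupport b)) =>
    j2_center (b := b) (X.UU hp.1) (hout p hp.2).1 (hout p hp.2).2 (hτ i)
  have t1 : T (fam2 (fun _ : ℕ => X.U) lam) (fun _ _ => 1) (fun i => X.g1 b ((lam i)⁻¹ ^ m)) := by
    refine T.union _ _ ?_ ?_ s3 fun _ _ _ => zero_le_one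
    · refine (T.div_LT ((fixed fun x hx => (contDiffAt_dv (hf x hx)).inner ℝ
        (j2_smee hb hx).2).subset _ s1) (j2_LT_subset ha _ s1)).mono cA⁻¹ (by positivity)
        fun i p hp => ?_
      rw [mul_one, one_div]
      exact inv_anti₀ hcA (low i p hp)
    · exact (T.const (fun _ => (0 : ℝ)) fun _ _ _ => by simp).congr_open (fun _ => o2)
        fun i p hp => (cen i p hp).1
  have t2 : T (fam2 (fun _ : ℕ => X.U) lam) (fun _ _ => 1) (fun i => X.g2 b ((lam i)⁻¹ ^ m)) := by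
    refine T.union _ _ ?_ ?_ s3 fun _ _ _ => zero_le_one
    · have k1 : T (fam2 (fun _ : ℕ => X.U) lam) (fun _ _ => 1)
          (fun i x => 1 - ⟪dv X.f x, X.ee b x⟫_ℝ / X.rr ((lam i)⁻¹ ^ m) x) :=
        (T.const (fun _ => (1 : ℝ)) fun _ _ _ => by simp).sub ((T.div_LT
          (fixed fun x hx => (contDiffAt_dv (hf x hx)).inner ℝ (j2_smee hb hx).1) hr).mono c⁻¹
          (by positivity) fun i p hp => by
            rw [mul_one, one_div]
            exact inv_anti₀ hc (hrb i p hp).1)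
      refine (T.div_LT (k1.subset _ s1) (j2_LT_subset ((ha.div hr).pow 2) _ s1)).mono
        (((M + 1) / cA) ^ 2) (by positivity) fun i p hp => ?_
      rw [mul_one, one_div, ← inv_pow, inv_div]
      have k2 := hrb i p hp.1
      have k3 := low i p hp
      have k4 := hc.trans_le k2.1
      gcongr
      · exact div_nonneg k4.le (hcA.le.trans k3)
      · exact k2.2
    · have k0 : ∀ i, ∀ p ∈ X.U \ (X.Kin ∪ tsupport b), c ≤ X.rr ((lam i)⁻¹ ^ m) p + X.p1 p :=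
        fun i p hp => (hrb i p hp.1).1.trans
          (le_add_of_nonneg_right (X.out p (X.UU hp.1) (hout p hp.2).1).2.le)
      have k1 := LT.of_T ((tr.add (fixed fun x hx => j2_smp1 hx)).subset _ s2)
        (fun i p hp => hc.trans_le (k0 i p hp)) c⁻¹ (by positivity)
        fun i p hp => (one_le_inv_mul₀ hc).2 (k0 i p hp)
      refine ((T.div_LT (tr.subset _ s2) k1).mono c⁻¹ (by positivity)
        fun i p hp => ?_).congr_open (fun _ => o2) fun i p hp => (cen i p hp).2.1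
      rw [mul_one, one_div]
      exact inv_anti₀ hc (k0 i p hp)
  exact H L K (by linarith) hK hKO ℕ
    { U := fun _ => X.U
      lam := lam
      f := fun _ => X.f
      a := fun i => X.aa ((lam i)⁻¹ ^ m)
      r := fun i => X.rr ((lam i)⁻¹ ^ m)
      e := fun _ => X.ee b
      e' := fun _ => X.ee' b
      γ1 := fun i => X.g1 b ((lam i)⁻¹ ^ m)
      γ2 := fun i => X.g2 b ((lam i)⁻¹ ^ m)
      hU := fun _ => X.oU
      hlam := fun i => (hlam i).1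
      hf := fun _ => X.hf.mono (X.UU.trans X.UO)
      hA := (fixed fun x hx => contDiffAt_du (hf x hx)).mono 1 zero_le_one
        fun i _ _ => by simpa using (hlam i).1
      hB := (fixed fun x hx => contDiffAt_dv (hf x hx)).mono 1 zero_le_one
        fun i _ _ => by simpa using (hlam i).1
      hG := fun i x hx => (inv_le_of_inv_le₀ hc (hlam i).2.1).trans (hB.low x (X.UU hx)).2
      he := fixed fun x hx => (j2_smee hb hx).1
      he' := fixed fun x hx => (j2_smee hb hx).2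
      unit := fun _ x hx => j2_unit (X.unit x (X.UU hx)) _
      orth := fun _ x hx => by
        obtain ⟨k1, k2, k3, k4⟩ := X.orth x (X.UU hx)
        simp only [ee, ee', nPar, nPer, inner_add_left, real_inner_smul_left, k1, k2, k3, k4,
          mul_zero, add_zero, and_self]
      ha := ha
      hr := hr
      hrl := fun i x hx => ⟨(inv_le_of_inv_le₀ hc (hlam i).2.1).trans (hrb i x hx).1,
        (hrb i x hx).2.trans (hlam i).2.2⟩
      hr2 := fun i x _ => by rw [j2_rot, j2_rsq]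
      hγ := fun i x hx => by
        have k1 := ha.pos i hx
        have k2 := hr.pos i hx
        obtain ⟨k3, -⟩ := j2_gam (b := b) (X.UU hx) (hτ i).le k1
        rw [k3, g1]
        exact ⟨(mul_div_cancel₀ _ k2.ne').symm, (mul_div_cancel₀ _ k1.ne').symm⟩
      hK := fun i x hx => hmem _ (hτ i) (hτ1 i) x (X.UU hx)
      hγ1 := t1
      hγ2 := t2 } μ hμ Mo

end Fr

end Vale.Agent.P205
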