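import Vale.Agent.P205.JDefs

/-! P205, J3: algebra of two-jets (BLUEPRINT, module J). -/

open scoped ContDiff InnerProductSpace Topology Manifold
open Set Filter Real

noncomputable section
namespace Vale.Agent.P205

/-- value of the normal quadratic form with coefficients `a, b, c` on `Y, Z` -/
def qf (a b c : R4) (Y Z : P2) : R4 :=
  (Y.1 * Z.1) • a + (Y.1 * Z.2 + Y.2 * Z.1) • b + (Y.2 * Z.2) • c

theorem II_eq_qf {f : P2 → R4} {x : P2} (h : ContDiffAt ℝ ∞ f x) (Y Z : P2) :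
    II f x Y Z = qf (nrm f x (du (du f) x)) (nrm f x (du (dv f) x)) (nrm f x (dv (dv f) x)) Y Z := by
  rw [II_eq h, II_uu h, II_uv h, II_vv h, qf]

theorem qf_gauss (a b c : R4) (Y Z : P2) :
    ⟪qf a b c Y Y, qf a b c Z Z⟫_ℝ - ‖qf a b c Z Y‖ ^ 2
      = (Y.1 * Z.2 - Y.2 * Z.1) ^ 2 * (⟪a, c⟫_ℝ - ‖b‖ ^ 2) := by
  rw [← real_inner_self_eq_norm_sq, ← real_inner_self_eq_norm_sq]
  simp only [qf, inner_add_left, inner_add_right, real_inner_smul_left, real_inner_smul_right,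
    real_inner_comm a b, real_inner_comm a c, real_inner_comm b c]
  ring

/-- Parseval in the normal plane -/
theorem inner_eq_two {p q a m ξ η : R4} (h : 0 < gram2 p q) (ha : ‖a‖ = 1) (hm : ‖m‖ = 1)
    (ham : ⟪a, m⟫_ℝ = 0) (hap : ⟪a, p⟫_ℝ = 0) (haq : ⟪a, q⟫_ℝ = 0) (hmp : ⟪m, p⟫_ℝ = 0)
    (hmq : ⟪m, q⟫_ℝ = 0) (hp : ⟪ξ, p⟫_ℝ = 0) (hq : ⟪ξ, q⟫_ℝ = 0) :
    ⟪ξ, η⟫_ℝ = ⟪ξ, a⟫_ℝ * ⟪η, a⟫_ℝ + ⟪ξ, m⟫_ℝ * ⟪η, m⟫_ℝ := by
  have haa : ⟪a, a⟫_ℝ = 1 := by rw [real_inner_self_eq_norm_sq, ha, one_pow]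
  have hmm : ⟪m, m⟫_ℝ = 1 := by rw [real_inner_self_eq_norm_sq, hm, one_pow]
  have hli : LinearIndependent ℝ ![p, q, a, m] := by
    rw [Fintype.linearIndependent_iff]
    intro g hg
    rw [Fin.sum_univ_four] at hg
    change g 0 • p + g 1 • q + g 2 • a + g 3 • m = 0 at hg
    have h1 := congrArg (fun v => ⟪a, v⟫_ℝ) hg
    have h2 := congrArg (fun v => ⟪m, v⟫_ℝ) hg
    simp only [inner_add_right, real_inner_smul_right, inner_zero_right, haa, hmm, ham, hap, haq,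
      hmp, hmq, real_inner_comm a m, mul_zero, mul_one, zero_add, add_zero] at h1 h2
    rw [h1, h2, zero_smul, zero_smul, add_zero, add_zero] at hg
    have h3 := gram2_pos_iff.1 h _ _ hg
    intro i
    fin_cases i
    exacts [h3.1, h3.2, h1, h2]
  have h0 : ξ = ⟪ξ, a⟫_ℝ • a + ⟪ξ, m⟫_ℝ • m := by
    refine InnerProductSpace.ext_inner_right_basis
      (basisOfLinearIndependentOfCardEqFinrank hli (by simp)) fun i => ?_
    rw [coe_basisOfLinearIndependentOfCardEqFinrank, inner_add_left, real_inner_smul_left,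
      real_inner_smul_left]
    fin_cases i
    · change ⟪ξ, p⟫_ℝ = _ * ⟪a, p⟫_ℝ + _ * ⟪m, p⟫_ℝ
      rw [hp, hap, hmp]; ring
    · change ⟪ξ, q⟫_ℝ = _ * ⟪a, q⟫_ℝ + _ * ⟪m, q⟫_ℝ
      rw [hq, haq, hmq]; ring
    · change ⟪ξ, a⟫_ℝ = _ * ⟪a, a⟫_ℝ + _ * ⟪m, a⟫_ℝ
      rw [haa, real_inner_comm a m, ham]; ring
    · change ⟪ξ, m⟫_ℝ = _ * ⟪a, m⟫_ℝ + _ * ⟪m, m⟫_ℝ
      rw [hmm, ham]; ring
  conv_lhs => rw [h0]
  rw [inner_add_left, real_inner_smul_left, real_inner_smul_left, real_inner_comm η a,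
    real_inner_comm η m]

/-- consequences of an antipodal position; `m` is a unit vector orthogonal to `a` -/
theorem antipodal {a b c m : R4} (ha : a ≠ 0) (hm : ‖m‖ = 1) (ham : ⟪a, m⟫_ℝ = 0) {Y : P2}
    (h : ¬ Q2 (qf a b c Y Y) (qf a b c Y Y) a) :
    2 * Y.1 * Y.2 * ⟪b, m⟫_ℝ + Y.2 ^ 2 * ⟪c, m⟫_ℝ = 0 ∧
      (Y.1 * ‖a‖ ^ 2 + Y.2 * ⟪a, b⟫_ℝ) ^ 2
        + Y.2 ^ 2 * (⟪b, m⟫_ℝ ^ 2 + (⟪a, c⟫_ℝ - ‖b‖ ^ 2)) * ‖a‖ ^ 2 ≤ 0 := by
  simp only [Q2, not_forall] at h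
  obtain ⟨s, s', t, hs, hs', ht, he, hn⟩ := h
  have hpos : 0 < s + s' := by
    refine (add_nonneg hs hs').lt_of_ne fun h0 => hn ?_
    have e1 : s = 0 := by linarith
    have e2 : s' = 0 := by linarith
    rw [e1, e2, zero_smul, zero_add, zero_add] at he
    exact ⟨e1, e2, (smul_eq_zero.1 he).resolve_right ha⟩
  rw [← add_smul] at he
  have h1 := congrArg (fun v => ⟪v, m⟫_ℝ) he
  have h2 := congrArg (fun v => ⟪a, v⟫_ℝ) he
  simp only [qf, inner_add_left, inner_add_right, real_inner_smul_left, real_inner_smul_right,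
    inner_zero_left, inner_zero_right, ham, real_inner_self_eq_norm_sq] at h1 h2
  constructor
  · refine (mul_eq_zero.1 (?_ : (s + s') * _ = 0)).resolve_left hpos.ne'
    linear_combination h1
  · have h3 : Y.1 * Y.1 * ‖a‖ ^ 2 + (Y.1 * Y.2 + Y.2 * Y.1) * ⟪a, b⟫_ℝ + Y.2 * Y.2 * ⟪a, c⟫_ℝ ≤ 0 := by
      by_contra h4
      have h5 := mul_pos hpos (not_le.1 h4)
      have h6 : 0 ≤ t * ‖a‖ ^ 2 := by positivity
      linarith
    have h4 := gram3_nonneg a b m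
    simp only [gram3, ham, real_inner_self_eq_norm_sq, hm] at h4
    have h5 := mul_nonpos_of_nonpos_of_nonneg h3 (sq_nonneg ‖a‖)
    have h6 := mul_nonneg (sq_nonneg Y.2) h4
    nlinarith

theorem j3_scale (a b c : R4) {Y Z : P2} (hY : Y.2 ≠ 0) (hZ : Z.2 ≠ 0) :
    qf a b c Y Z = (Y.2 * Z.2) • qf a b c (Y.1 / Y.2, 1) (Z.1 / Z.2, 1) := by
  simp only [qf]
  match_scalars <;> field_simp

theorem j3_inner (a b c : R4) (z : ℝ) :
    ⟪a, qf a b c (z, 1) (z, 1)⟫_ℝ = ‖z • a + b‖ ^ 2 + (⟪a, c⟫_ℝ - ‖b‖ ^ 2) := by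
  simp only [qf, ← real_inner_self_eq_norm_sq, inner_add_left, inner_add_right,
    real_inner_smul_left, real_inner_smul_right, real_inner_comm a b]
  ring

theorem j3_fin {a b c : R4} {y z R W : ℝ} (hκ : |⟪a, c⟫_ℝ - ‖b‖ ^ 2| ≤ R) (hW : ‖z • a + b‖ ≤ W)
    (hR : R ≤ W ^ 2) (he : 2 * |y - z| * W < ‖qf a b c (z, 1) (z, 1)‖) :
    Q3' (qf a b c (y, 1) (y, 1)) (qf a b c (z, 1) (z, 1)) (qf a b c (z, 1) (y, 1)) := by
  have h1 : qf a b c (z, 1) (y, 1) = qf a b c (z, 1) (z, 1) + (y - z) • (z • a + b) := by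
    simp only [qf]
    match_scalars <;> ring
  rw [Q3', qf_gauss, h1, inner_add_right, real_inner_smul_right, real_inner_self_eq_norm_sq]
  simp only [mul_one, one_mul]
  have h2 := abs_real_inner_le_norm (qf a b c (z, 1) (z, 1)) (z • a + b)
  generalize qf a b c (z, 1) (z, 1) = η at he h2 ⊢
  have hW0 : 0 ≤ W := (norm_nonneg _).trans hW
  have hd := abs_nonneg (y - z)
  have hdW : 0 ≤ |y - z| * W := mul_nonneg hd hW0
  have he0 : 0 < ‖η‖ := by linarith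
  have h3 : |(y - z) * ⟪η, z • a + b⟫_ℝ| ≤ ‖η‖ ^ 2 / 2 := by
    rw [abs_mul]
    calc |y - z| * |⟪η, z • a + b⟫_ℝ| ≤ |y - z| * (‖η‖ * W) := by
          gcongr
          exact h2.trans (mul_le_mul_of_nonneg_left hW he0.le)
      _ ≤ ‖η‖ ^ 2 / 2 := by nlinarith
  have h4 : (‖η‖ ^ 2 / 2) ^ 2 ≤ (‖η‖ ^ 2 + (y - z) * ⟪η, z • a + b⟫_ℝ) ^ 2 :=
    pow_le_pow_left₀ (by positivity) (by linarith [(abs_le.1 h3).1]) 2
  have h5 : (|y - z| * W) ^ 2 < (‖η‖ / 2) ^ 2 := pow_lt_pow_left₀ (by linarith) hdW two_ne_zero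
  rw [mul_pow, sq_abs] at h5
  have h6 : -((y - z) ^ 2 * W ^ 2) ≤ (y - z) ^ 2 * (⟪a, c⟫_ℝ - ‖b‖ ^ 2) := by
    rw [← mul_neg]
    exact mul_le_mul_of_nonneg_left (by linarith [(abs_le.1 hκ).1]) (sq_nonneg _)
  have h7 : 0 < (‖η‖ ^ 2 / 4 + (y - z) ^ 2 * (⟪a, c⟫_ℝ - ‖b‖ ^ 2)) * ‖η‖ ^ 2 :=
    mul_pos (by nlinarith) (by positivity)
  nlinarith

theorem j3_norm (y z : ℝ) {α0 R : ℝ} (hα : 0 < α0) :
    ∃ D0 M0 : ℝ, 0 < D0 ∧ 0 < M0 ∧ ∀ a b c m : R4, ‖m‖ = 1 → ⟪a, m⟫_ℝ = 0 →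
      α0 ≤ ‖a‖ → ‖a‖ ≤ R → ‖b‖ ≤ R / α0 + |⟪b, m⟫_ℝ| → |⟪a, c⟫_ℝ - ‖b‖ ^ 2| ≤ R →
      (D0 ≤ |⟪b, m⟫_ℝ| ∨ M0 * (1 + ⟪b, m⟫_ℝ ^ 2) ≤ |⟪c, m⟫_ℝ|) →
      Q2 (qf a b c (y, 1) (y, 1)) (qf a b c (z, 1) (z, 1)) a ∧
        Q3' (qf a b c (y, 1) (y, 1)) (qf a b c (z, 1) (z, 1)) (qf a b c (z, 1) (y, 1)) := by
  rcases lt_or_ge R α0 with hR | hR
  · exact ⟨1, 1, one_pos, one_pos, fun a b c m _ _ h1 h2 => absurd (h1.trans h2) (not_le.2 hR)⟩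
  have hR0 : 0 < R := hα.trans_le hR
  obtain ⟨D0, hD0⟩ : ∃ D0, D0 = 2 * |y - z| * R + R + 1 := ⟨_, rfl⟩
  obtain ⟨W, hW⟩ : ∃ W, W = |z| * R + (R / α0 + D0) := ⟨_, rfl⟩
  have hδ : 0 ≤ 2 * |y - z| * R := by positivity
  have hD1 : R + 1 ≤ D0 := by linarith
  have hW1 : R + 1 ≤ W := by
    have : 0 ≤ |z| * R + R / α0 := by positivity
    linarith
  have hD : 0 < D0 := by linarith
  have hW0 : 0 < W := by linarith
  refine ⟨D0, 2 * |y - z| * W + 2 * (|y| + |z|) * D0 + 1, hD, by positivity,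
    fun a b c m hm ham ha haR hb hκ hDX => ?_⟩
  have ha0 : 0 < ‖a‖ := hα.trans_le ha
  rcases le_or_gt D0 |⟪b, m⟫_ℝ| with h | h
  · have h1 : ∀ t : ℝ, D0 ≤ ‖t • a + b‖ := fun t => by
      have := abs_real_inner_le_norm (t • a + b) m
      rw [inner_add_left, real_inner_smul_left, ham, mul_zero, zero_add, hm, mul_one] at this
      exact h.trans this
    have h2 : ∀ t : ℝ, 0 < ⟪a, qf a b c (t, 1) (t, 1)⟫_ℝ := fun t => by
      rw [j3_inner]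
      nlinarith [h1 t, (abs_le.1 hκ).1]
    constructor
    · intro s s' t hs hs' ht he
      have h3 := congrArg (fun v => ⟪a, v⟫_ℝ) he
      simp only [inner_add_right, real_inner_smul_right, inner_zero_right,
        real_inner_self_eq_norm_sq] at h3
      have e1 := mul_nonneg hs (h2 y).le
      have e2 := mul_nonneg hs' (h2 z).le
      have e3 := mul_nonneg ht (sq_nonneg ‖a‖)
      exact ⟨(mul_eq_zero.1 (by linarith)).resolve_right (h2 y).ne',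
        (mul_eq_zero.1 (by linarith)).resolve_right (h2 z).ne',
        (mul_eq_zero.1 (by linarith)).resolve_right (pow_pos ha0 2).ne'⟩
    · have h3 := h1 z
      refine j3_fin hκ le_rfl (by nlinarith) ?_
      have h4 := real_inner_le_norm a (qf a b c (z, 1) (z, 1))
      rw [j3_inner] at h4
      have h5 := mul_le_mul_of_nonneg_right haR (norm_nonneg (qf a b c (z, 1) (z, 1)))
      have h6 := mul_le_mul_of_nonneg_left h3 (norm_nonneg (z • a + b))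
      refine lt_of_mul_lt_mul_left ?_ hR0.le
      rw [hD0] at h6
      nlinarith [(abs_le.1 hκ).1]
  · have hX : 2 * |y - z| * W + 2 * (|y| + |z|) * D0 + 1 ≤ |⟪c, m⟫_ℝ| := by
      refine le_trans ?_ (hDX.resolve_left (not_le.2 h))
      exact le_mul_of_one_le_right (by positivity) (by nlinarith)
    have h1 : ∀ t : ℝ, ⟪qf a b c (t, 1) (t, 1), m⟫_ℝ = ⟪c, m⟫_ℝ + 2 * t * ⟪b, m⟫_ℝ := fun t => by
      simp only [qf, inner_add_left, real_inner_smul_left, ham]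
      ring
    have h2 : ∀ t : ℝ, |2 * t * ⟪b, m⟫_ℝ| ≤ 2 * |t| * D0 := fun t => by
      rw [abs_mul, abs_mul, abs_two]
      exact mul_le_mul_of_nonneg_left h.le (by positivity)
    have hy : 0 ≤ 2 * |y| * D0 := by positivity
    have hz : 0 ≤ 2 * |z| * D0 := by positivity
    have hδW : 0 ≤ 2 * |y - z| * W := by positivity
    have h3 : ∀ t : ℝ, 2 * |t| * D0 < |⟪c, m⟫_ℝ| →
        0 < ⟪c, m⟫_ℝ * ⟪qf a b c (t, 1) (t, 1), m⟫_ℝ := fun t ht => by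
      rw [h1]
      have h4 := abs_le.1 (h2 t)
      rcases lt_abs.1 ht with h5 | h5
      · exact mul_pos (by linarith [abs_nonneg (2 * t * ⟪b, m⟫_ℝ), h2 t]) (by linarith)
      · exact mul_pos_of_neg_of_neg (by linarith [abs_nonneg (2 * t * ⟪b, m⟫_ℝ), h2 t])
          (by linarith)
    constructor
    · intro s s' t hs hs' ht he
      have h4 := congrArg (fun v => ⟪c, m⟫_ℝ * ⟪v, m⟫_ℝ) he
      simp only [inner_add_left, real_inner_smul_left, inner_zero_left, ham] at h4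
      have p1 := h3 y (by linarith)
      have p2 := h3 z (by linarith)
      have e1 := mul_nonneg hs p1.le
      have e2 := mul_nonneg hs' p2.le
      have e3 : s = 0 := (mul_eq_zero.1 (by linarith)).resolve_right p1.ne'
      have e4 : s' = 0 := (mul_eq_zero.1 (by linarith)).resolve_right p2.ne'
      rw [e3, e4, zero_smul, zero_smul, zero_add, zero_add] at he
      exact ⟨e3, e4, (smul_eq_zero.1 he).resolve_right (norm_pos_iff.1 ha0)⟩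
    · refine j3_fin (W := W) hκ ?_ (by nlinarith) ?_
      · refine (norm_add_le _ _).trans ?_
        rw [norm_smul, Real.norm_eq_abs, hW]
        exact add_le_add (mul_le_mul_of_nonneg_left haR (abs_nonneg z)) (by linarith)
      · have h4 := abs_real_inner_le_norm (qf a b c (z, 1) (z, 1)) m
        rw [hm, mul_one, h1] at h4
        have h5 := abs_sub_abs_le_abs_add ⟪c, m⟫_ℝ (2 * z * ⟪b, m⟫_ℝ)
        linarith [h2 z]

/-- large twisting or a large rank one part force the point invariants -/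
theorem threshold {Y Z : P2} (hY : Y.2 ≠ 0) (hZ : Z.2 ≠ 0) {α0 R : ℝ} (hα : 0 < α0) :
    ∃ D0 M0 : ℝ, 0 < D0 ∧ 0 < M0 ∧ ∀ p q a b c m : R4, 0 < gram2 p q → ‖m‖ = 1 →
      ⟪a, m⟫_ℝ = 0 → ⟪m, p⟫_ℝ = 0 → ⟪m, q⟫_ℝ = 0 → ⟪a, p⟫_ℝ = 0 → ⟪a, q⟫_ℝ = 0 →
      ⟪b, p⟫_ℝ = 0 → ⟪b, q⟫_ℝ = 0 → ⟪c, p⟫_ℝ = 0 → ⟪c, q⟫_ℝ = 0 →
      α0 ≤ ‖a‖ → ‖a‖ ≤ R → |⟪a, b⟫_ℝ| ≤ R → |⟪a, c⟫_ℝ - ‖b‖ ^ 2| ≤ R →
      (D0 ≤ |⟪b, m⟫_ℝ| ∨ M0 * (1 + ⟪b, m⟫_ℝ ^ 2) ≤ |⟪c, m⟫_ℝ|) →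
      Q2 (qf a b c Y Y) (qf a b c Z Z) a ∧ Q3' (qf a b c Y Y) (qf a b c Z Z) (qf a b c Z Y) := by
  obtain ⟨D0, M0, h1, h2, H⟩ := j3_norm (Y.1 / Y.2) (Z.1 / Z.2) (R := R) hα
  refine ⟨D0, M0, h1, h2, fun p q a b c m hg hm ham hmp hmq hap haq hbp hbq _ _ ha haR hab hκ hDX => ?_⟩
  have ha0 : 0 < ‖a‖ := hα.trans_le ha
  have hb := inner_eq_two (a := ‖a‖⁻¹ • a) (ξ := b) (η := b) hg
    (by rw [norm_smul, norm_inv, norm_norm, inv_mul_cancel₀ ha0.ne']) hm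
    (by rw [real_inner_smul_left, ham, mul_zero]) (by rw [real_inner_smul_left, hap, mul_zero])
    (by rw [real_inner_smul_left, haq, mul_zero]) hmp hmq hbp hbq
  rw [real_inner_self_eq_norm_sq, real_inner_smul_right, real_inner_comm a b] at hb
  have hb' : ‖b‖ ≤ R / α0 + |⟪b, m⟫_ℝ| := by
    have h3 : |‖a‖⁻¹ * ⟪a, b⟫_ℝ| ≤ R / α0 := by
      rw [abs_mul, abs_inv, abs_norm, inv_mul_eq_div]
      exact div_le_div₀ ((abs_nonneg _).trans hab) hab hα ha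
    have h4 := abs_nonneg (‖a‖⁻¹ * ⟪a, b⟫_ℝ)
    have h5 := abs_nonneg ⟪b, m⟫_ℝ
    refine le_trans (abs_le_of_sq_le_sq' ?_ (add_nonneg h4 h5)).2 (add_le_add_left h3 _)
    rw [hb, add_sq, sq_abs, sq_abs]
    nlinarith [mul_nonneg h4 h5]
  obtain ⟨h3, h4⟩ := H a b c m hm ham ha haR hb' hκ hDX
  rw [j3_scale a b c hY hY, j3_scale a b c hZ hZ, j3_scale a b c hZ hY]
  have hY2 : 0 < Y.2 * Y.2 := mul_self_pos.2 hY
  have hZ2 : 0 < Z.2 * Z.2 := mul_self_pos.2 hZ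
  constructor
  · intro s s' t hs hs' ht he
    rw [smul_smul, smul_smul] at he
    obtain ⟨e1, e2, e3⟩ := h3 _ _ _ (mul_nonneg hs hY2.le) (mul_nonneg hs' hZ2.le) ht he
    exact ⟨(mul_eq_zero.1 e1).resolve_right hY2.ne', (mul_eq_zero.1 e2).resolve_right hZ2.ne', e3⟩
  · rw [Q3'] at h4 ⊢
    simp only [← real_inner_self_eq_norm_sq, real_inner_smul_left, real_inner_smul_right] at h4 ⊢
    have h5 := mul_pos (mul_pos hY2 (pow_pos hZ2 3)) h4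
    refine h5.trans_eq ?_
    ring

theorem j3_unit {w m : R4} (hm : ‖m‖ = 1) (h : ‖w - m‖ < 1) :
    ‖‖w‖⁻¹ • w‖ = 1 ∧ ‖‖w‖⁻¹ • w - m‖ ≤ 2 * ‖w - m‖ := by
  have h1 := abs_norm_sub_norm_le w m
  rw [hm] at h1
  have h2 : 0 < ‖w‖ := by linarith [(abs_le.1 h1).1]
  refine ⟨by rw [norm_smul, norm_inv, norm_norm, inv_mul_cancel₀ h2.ne'], ?_⟩
  have h3 : ‖‖w‖⁻¹ • w - w‖ = |‖w‖ - 1| := by
    have : ‖w‖⁻¹ • w - w = (‖w‖⁻¹ - 1) • w := by rw [sub_smul, one_smul]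
    rw [this, norm_smul, Real.norm_eq_abs, ← abs_norm w, ← abs_mul, abs_norm, sub_mul,
      inv_mul_cancel₀ h2.ne', one_mul, abs_sub_comm]
  have h4 := norm_sub_le_norm_sub_add_norm_sub (‖w‖⁻¹ • w) w m
  linarith

theorem j3_tg2 {l : Filter ℕ} {fu fv : ℕ → R4} {A V : R4} (hu : Tendsto fu l (𝓝 A))
    (hv : Tendsto fv l (𝓝 V)) : Tendsto (fun n => gram2 (fu n) (fv n)) l (𝓝 (gram2 A V)) := by
  have := (contDiff_gram2.continuous.tendsto (A, V)).comp (hu.prodMk_nhds hv)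
  simpa only [Function.comp_def] using this

theorem j3_tg3 {l : Filter ℕ} {fu fv fuu : ℕ → R4} {A V K : R4} (hu : Tendsto fu l (𝓝 A))
    (hv : Tendsto fv l (𝓝 V)) (huu : Tendsto fuu l (𝓝 K)) :
    Tendsto (fun n => gram3 (fu n) (fv n) (fuu n)) l (𝓝 (gram3 A V K)) := by
  have := (contDiff_gram3.continuous.tendsto (A, V, K)).comp (hu.prodMk_nhds (hv.prodMk_nhds huu))
  simpa only [Function.comp_def] using this

theorem j3_tk {l : Filter ℕ} {fu fv fuu : ℕ → R4} {A V K : R4} (hu : Tendsto fu l (𝓝 A))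
    (hv : Tendsto fv l (𝓝 V)) (huu : Tendsto fuu l (𝓝 K)) (hg : gram2 A V ≠ 0) :
    Tendsto (fun n => perp (fu n) (fv n) (fuu n)) l (𝓝 (perp A V K)) := by
  have := (contDiffAt_perp hg K).continuousAt.tendsto.comp (hu.prodMk_nhds (hv.prodMk_nhds huu))
  simpa only [Function.comp_def] using this

theorem j3_Pk {l : Filter ℕ} {fu fv fuu m : ℕ → R4} {P : ℕ → ℝ} {A V K : R4}
    (hu : Tendsto fu l (𝓝 A)) (hv : Tendsto fv l (𝓝 V)) (huu : Tendsto fuu l (𝓝 K))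
    (h1 : Tendsto (fun n => P n * ⟪fu n, m n⟫_ℝ) l (𝓝 0))
    (h2 : Tendsto (fun n => P n * ⟪fv n, m n⟫_ℝ) l (𝓝 0))
    (h3 : Tendsto (fun n => P n * ⟪fuu n, m n⟫_ℝ) l (𝓝 0)) (hg2 : gram2 A V ≠ 0) :
    Tendsto (fun n => P n * ⟪perp (fu n) (fv n) (fuu n), m n⟫_ℝ) l (𝓝 0) := by
  have tg2 := j3_tg2 hu hv
  have t1 := (((hv.inner (𝕜 := ℝ) hv).mul (huu.inner (𝕜 := ℝ) hu)).sub
    ((hu.inner (𝕜 := ℝ) hv).mul (huu.inner (𝕜 := ℝ) hv))).div tg2 hg2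
  have t2 := (((hu.inner (𝕜 := ℝ) hu).mul (huu.inner (𝕜 := ℝ) hv)).sub
    ((hu.inner (𝕜 := ℝ) hv).mul (huu.inner (𝕜 := ℝ) hu))).div tg2 hg2
  have t3 := (h3.sub (t1.mul h1)).sub (t2.mul h2)
  rw [mul_zero, mul_zero, sub_zero, sub_zero] at t3
  refine t3.congr fun n => ?_
  simp only [perp, inner_sub_left, real_inner_smul_left, Pi.div_apply]
  ring

theorem j3_Pm {l : Filter ℕ} {fu fv m : ℕ → R4} {P : ℕ → ℝ} {A V : R4}
    (hu : Tendsto fu l (𝓝 A)) (hv : Tendsto fv l (𝓝 V))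
    (h1 : Tendsto (fun n => P n * ⟪fu n, m n⟫_ℝ) l (𝓝 0))
    (h2 : Tendsto (fun n => P n * ⟪fv n, m n⟫_ℝ) l (𝓝 0)) (hg2 : gram2 A V ≠ 0) :
    Tendsto (fun n => P n • (perp (fu n) (fv n) (m n) - m n)) l (𝓝 0) := by
  have tg2 := j3_tg2 hu hv
  have t1 := ((((hv.inner (𝕜 := ℝ) hv).mul h1).sub
    ((hu.inner (𝕜 := ℝ) hv).mul h2)).div tg2 hg2).smul hu
  have t2 := ((((hu.inner (𝕜 := ℝ) hu).mul h2).sub
    ((hu.inner (𝕜 := ℝ) hv).mul h1)).div tg2 hg2).smul hv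
  have t4 := t1.neg.sub t2
  simp only [mul_zero, sub_zero, zero_div, zero_smul, neg_zero] at t4
  refine t4.congr fun n => ?_
  simp only [perp, Pi.div_apply, real_inner_comm (fu n) (m n), real_inner_comm (fv n) (m n)]
  match_scalars <;> ring

theorem j3_orth {a b c m : R4} (g2 : gram2 a b ≠ 0) (k0 : ⟪perp a b c, perp a b c⟫_ℝ ≠ 0) {w : R4}
    (hw : w = perp a b m - (⟪perp a b c, m⟫_ℝ / ⟪perp a b c, perp a b c⟫_ℝ) • perp a b c) :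
    ⟪w, a⟫_ℝ = 0 ∧ ⟪w, b⟫_ℝ = 0 ∧ ⟪w, c⟫_ℝ = 0 := by
  refine ⟨?_, ?_, ?_⟩
  · rw [hw, inner_sub_left, real_inner_smul_left, inner_perp_left g2, inner_perp_left g2, mul_zero,
      sub_zero]
  · rw [hw, inner_sub_left, real_inner_smul_left, inner_perp_right g2, inner_perp_right g2,
      mul_zero, sub_zero]
  · rw [hw, inner_sub_left, real_inner_smul_left, ← inner_perp_perp g2 c c, div_mul_cancel₀ _ k0,
      ← inner_perp_perp g2 m c, ← inner_perp_perp g2 c m, real_inner_comm, sub_self]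

theorem j3_normalise {l : Filter ℕ} {w m : ℕ → R4} {P : ℕ → ℝ} (hm1 : ∀ᶠ n in l, ‖m n‖ = 1)
    (hP : ∀ᶠ n in l, 1 ≤ P n) (tw : Tendsto (fun n => P n • (w n - m n)) l (𝓝 0)) :
    (∀ᶠ n in l, ‖‖w n‖⁻¹ • w n‖ = 1) ∧
      Tendsto (fun n => P n * ‖‖w n‖⁻¹ • w n - m n‖) l (𝓝 0) := by
  have tw1 : Tendsto (fun n => P n * ‖w n - m n‖) l (𝓝 0) := by
    have t1 := tw.norm
    rw [norm_zero] at t1
    refine t1.congr' ?_
    filter_upwards [hP] with n hn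
    rw [norm_smul, Real.norm_of_nonneg (by linarith)]
  have hev : ∀ᶠ n in l, ‖‖w n‖⁻¹ • w n‖ = 1 ∧ ‖‖w n‖⁻¹ • w n - m n‖ ≤ 2 * ‖w n - m n‖ := by
    filter_upwards [hP, hm1, tw1.eventually_lt_const one_pos] with n hn h1n h2n
    exact j3_unit h1n ((le_mul_of_one_le_left (norm_nonneg _) hn).trans_lt h2n)
  refine ⟨hev.mono fun n hn => hn.1, ?_⟩
  have t1 := tw1.const_mul 2
  rw [mul_zero] at t1
  refine squeeze_zero' ?_ ?_ t1
  · filter_upwards [hP] with n hn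
    exact mul_nonneg (by linarith) (norm_nonneg _)
  · filter_upwards [hP, hev] with n hn h
    rw [mul_left_comm]
    exact mul_le_mul_of_nonneg_left h.2 (by linarith)

theorem j3_low {v m m' : R4} {x P : ℝ} (hm' : ‖m'‖ = 1) (h6 : 1 / 2 ≤ ⟪m, m'⟫_ℝ)
    (hv : ‖v - x • m‖ ≤ P) : |x| / 2 - P ≤ |⟪v, m'⟫_ℝ| := by
  have h5 := abs_real_inner_le_norm (v - x • m) m'
  rw [hm', mul_one, inner_sub_left, real_inner_smul_left] at h5
  have h7 := abs_sub_abs_le_abs_sub (x * ⟪m, m'⟫_ℝ) ⟪v, m'⟫_ℝ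
  rw [abs_sub_comm, abs_mul, abs_of_pos (by linarith : 0 < ⟪m, m'⟫_ℝ)] at h7
  have h8 := mul_le_mul_of_nonneg_left h6 (abs_nonneg x)
  linarith

/-- the exact normal frame along a convergent sequence of jets -/
theorem exact_frame {l : Filter ℕ} {fu fv fuu fuv fvv m : ℕ → R4} {d x P : ℕ → ℝ}
    {A V K Ξ m0 : R4} (hu : Tendsto fu l (𝓝 A)) (hv : Tendsto fv l (𝓝 V))
    (huu : Tendsto fuu l (𝓝 K)) (huv : Tendsto (fun n => fuv n - d n • m n) l (𝓝 Ξ))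
    (hm : Tendsto m l (𝓝 m0)) (hm1 : ∀ᶠ n in l, ‖m n‖ = 1)
    (h1 : Tendsto (fun n => P n * ⟪fu n, m n⟫_ℝ) l (𝓝 0))
    (h2 : Tendsto (fun n => P n * ⟪fv n, m n⟫_ℝ) l (𝓝 0))
    (h3 : Tendsto (fun n => P n * ⟪fuu n, m n⟫_ℝ) l (𝓝 0))
    (hP : ∀ᶠ n in l, 1 ≤ P n ∧ |d n| ≤ P n ∧ ‖fvv n - x n • m n‖ ≤ P n) (hg : 0 < gram3 A V K) :
    ∃ m' : ℕ → R4, (∀ᶠ n in l, ‖m' n‖ = 1 ∧ ⟪m' n, fu n⟫_ℝ = 0 ∧ ⟪m' n, fv n⟫_ℝ = 0 ∧
        ⟪m' n, fuu n⟫_ℝ = 0 ∧ 0 < gram3 (fu n) (fv n) (fuu n) ∧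
        |x n| / 2 - P n ≤ |⟪fvv n, m' n⟫_ℝ|) ∧
      Tendsto (fun n => perp (fu n) (fv n) (fuu n)) l (𝓝 (perp A V K)) ∧
      Tendsto (fun n => ⟪perp (fu n) (fv n) (fuu n), fuv n⟫_ℝ) l (𝓝 ⟪perp A V K, Ξ⟫_ℝ) ∧
      Tendsto (fun n => ⟪fuv n, m' n⟫_ℝ - d n) l (𝓝 ⟪Ξ, m0⟫_ℝ) := by
  have hg2 : 0 < gram2 A V := by
    refine (gram2_nonneg A V).lt_of_ne fun h0 => ?_
    have := gram3_le A V K
    rw [← h0, zero_mul] at this
    linarith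
  have tg2 := j3_tg2 hu hv
  have tg3 := j3_tg3 hu hv huu
  have tk := j3_tk hu hv huu hg2.ne'
  have hk0 : ⟪perp A V K, perp A V K⟫_ℝ ≠ 0 := by
    intro h0
    rw [gram3_eq hg2.ne', ← real_inner_self_eq_norm_sq, h0, mul_zero] at hg
    exact lt_irrefl _ hg
  have tkk := tk.inner (𝕜 := ℝ) tk
  have tPk := j3_Pk hu hv huu h1 h2 h3 hg2.ne'
  obtain ⟨w, hw⟩ : ∃ w : ℕ → R4, ∀ n, w n = perp (fu n) (fv n) (m n) -
      (⟪perp (fu n) (fv n) (fuu n), m n⟫_ℝ /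
        ⟪perp (fu n) (fv n) (fuu n), perp (fu n) (fv n) (fuu n)⟫_ℝ) • perp (fu n) (fv n) (fuu n) :=
    ⟨_, fun _ => rfl⟩
  have tw : Tendsto (fun n => P n • (w n - m n)) l (𝓝 0) := by
    have t4 := (j3_Pm hu hv h1 h2 hg2.ne').sub ((tPk.div tkk hk0).smul tk)
    rw [zero_div, zero_smul, sub_zero] at t4
    refine t4.congr fun n => ?_
    rw [hw, Pi.div_apply, mul_div_assoc, mul_smul, ← smul_sub, sub_right_comm]
  obtain ⟨hn1, tm'⟩ := j3_normalise hm1 (hP.mono fun n hn => hn.1) tw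
  have horth : ∀ᶠ n in l, ⟪‖w n‖⁻¹ • w n, fu n⟫_ℝ = 0 ∧ ⟪‖w n‖⁻¹ • w n, fv n⟫_ℝ = 0 ∧
      ⟪‖w n‖⁻¹ • w n, fuu n⟫_ℝ = 0 := by
    filter_upwards [tg2.eventually_ne hg2.ne', tkk.eventually_ne hk0] with n g2 k0
    obtain ⟨e1, e2, e3⟩ := j3_orth g2 k0 (hw n)
    rw [real_inner_smul_left, real_inner_smul_left, real_inner_smul_left, e1, e2, e3, mul_zero]
    exact ⟨rfl, rfl, rfl⟩
  obtain ⟨m', hm'⟩ : ∃ m' : ℕ → R4, ∀ n, ‖w n‖⁻¹ • w n = m' n := ⟨_, fun _ => rfl⟩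
  simp only [hm'] at hn1 tm' horth
  have tm1 : Tendsto (fun n => m' n - m n) l (𝓝 0) := by
    refine squeeze_zero_norm' ?_ tm'
    filter_upwards [hP] with n hn
    exact le_mul_of_one_le_left (norm_nonneg _) hn.1
  have tm0 : Tendsto m' l (𝓝 m0) := by simpa using tm1.add hm
  have hmm : ∀ᶠ n in l, |⟪m n, m' n⟫_ℝ - 1| ≤ ‖m' n - m n‖ := by
    filter_upwards [hm1] with n hn
    have h4 := abs_real_inner_le_norm (m n) (m' n - m n)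
    rwa [inner_sub_right, real_inner_self_eq_norm_sq, hn, one_pow, one_mul] at h4
  refine ⟨m', ?_, tk, ?_, ?_⟩
  · have t1 := tm1.norm
    rw [norm_zero] at t1
    filter_upwards [hP, hn1, horth, hmm, tg3.eventually_const_lt hg,
      t1.eventually_lt_const one_half_pos] with n hn h ho h4 g3 h5
    exact ⟨h, ho.1, ho.2.1, ho.2.2, g3, j3_low h (by linarith [(abs_le.1 h4).1]) hn.2.2⟩
  · have t1 : Tendsto (fun n => d n * ⟪perp (fu n) (fv n) (fuu n), m n⟫_ℝ) l (𝓝 0) := by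
      have t2 := tPk.norm
      rw [norm_zero] at t2
      refine squeeze_zero_norm' ?_ t2
      filter_upwards [hP] with n hn
      rw [norm_mul, norm_mul]
      exact mul_le_mul_of_nonneg_right (hn.2.1.trans (le_abs_self _)) (norm_nonneg _)
    have t2 := (tk.inner (𝕜 := ℝ) huv).add t1
    rw [add_zero] at t2
    refine t2.congr fun n => ?_
    rw [inner_sub_right, real_inner_smul_right, sub_add_cancel]
  · have t1 : Tendsto (fun n => d n * (⟪m n, m' n⟫_ℝ - 1)) l (𝓝 0) := by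
      refine squeeze_zero_norm' ?_ tm'
      filter_upwards [hP, hmm] with n hn h
      rw [norm_mul]
      exact mul_le_mul hn.2.1 h (norm_nonneg _) (by linarith [hn.1])
    have t2 := (huv.inner (𝕜 := ℝ) tm0).add t1
    rw [add_zero] at t2
    refine t2.congr fun n => ?_
    rw [inner_sub_left, real_inner_smul_left]
    ring

end Vale.Agent.P205
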