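import Vale.Agent.P205.J1
import Vale.Agent.P205.J3

/-! P205, J4: asymptotics inside the patch (BLUEPRINT, module J). -/

open scoped ContDiff InnerProductSpace Topology Manifold
open Set Filter Real

noncomputable section
namespace Vale.Agent.P205

namespace Fr
variable (X : Fr)

theorem j4_f {x : P2} (hx : x ∈ X.Ub) : ContDiffAt ℝ ∞ X.f x :=
  X.hf.contDiffAt (X.hO.mem_nhds (X.UO hx))

theorem j4_A {x : P2} (hx : x ∈ X.Ub) : ContDiffAt ℝ ∞ X.A x ∧ 0 ≤ X.A x := by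
  obtain ⟨ρ, h1, h2⟩ := X.root 1 le_rfl
  simp only [pow_one] at h2
  exact ⟨(h1.congr fun y hy => (h2 y hy).2.symm).contDiffAt (X.hO.mem_nhds (X.UO hx)),
    (h2 x (X.UO hx)).2 ▸ (h2 x (X.UO hx)).1⟩

theorem j4_sq {x : P2} (hx : x ∈ X.Ub) :
    0 < ⟪dv X.f x, X.e0 x⟫_ℝ ^ 2 + ⟪dv X.f x, X.e0' x⟫_ℝ ^ 2 + X.A x ^ 2 := by
  by_cases h : x ∈ X.Kin
  · have := X.pos x (X.KIn h)
    positivity
  · have := (X.out x hx h).2
    positivity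

theorem r_pos {x : P2} (hx : x ∈ X.Ub) : 0 < X.r x := sqrt_pos.2 (X.j4_sq hx)

theorem contDiffAt_r {x : P2} (hx : x ∈ X.Ub) : ContDiffAt ℝ ∞ X.r x :=
  have h := contDiffAt_dv (X.j4_f hx)
  ((((h.inner ℝ (X.sme x hx).1).pow 2).add ((h.inner ℝ (X.sme x hx).2).pow 2)).add
    ((X.j4_A hx).1.pow 2)).sqrt (X.j4_sq hx).ne'

theorem continuousOn_w : ContinuousOn X.w X.Ub := fun _ hx =>
  ((X.j4_A hx).1.continuousAt.div (X.contDiffAt_r hx).continuousAt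
    (X.r_pos hx).ne').continuousWithinAt

theorem w_pos {x : P2} (hx : x ∈ X.In) : 0 < X.w x :=
  div_pos (X.pos x hx) (X.r_pos (X.UU (X.DU (X.InD hx))))

theorem w_nonneg {x : P2} (hx : x ∈ X.Ub) : 0 ≤ X.w x :=
  div_nonneg (X.j4_A hx).2 (X.r_pos hx).le

theorem j4_inner {x : P2} (hx : x ∈ X.Ub) (Ψ c s : ℝ) :
    ⟪c • X.e0 x + s • X.e0' x, c • X.e0 x + s • X.e0' x⟫_ℝ = c ^ 2 + s ^ 2 ∧
    ⟪du X.f x, c • X.e0 x + s • X.e0' x⟫_ℝ = 0 ∧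
    ⟪du (du X.f) x, c • X.e0 x + s • X.e0' x⟫_ℝ = 0 ∧
    ⟪X.V x Ψ, c • X.e0 x + s • X.e0' x⟫_ℝ = X.r x * (cos Ψ * c + sin Ψ * s) := by
  obtain ⟨h1, h2, h3⟩ := X.unit x hx
  obtain ⟨h4, h5, h6, h7⟩ := X.orth x hx
  have h8 := (real_inner_comm _ _).trans h3
  have h9 := real_inner_self_eq_norm_sq (X.e0 x)
  have h10 := real_inner_self_eq_norm_sq (X.e0' x)
  rw [real_inner_comm] at h4 h5 h6 h7
  simp only [V, Vv, Bp, nPar, inner_add_left, inner_add_right, inner_sub_left,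
    real_inner_smul_left, real_inner_smul_right, h9, h10, h1, h2, h3, h4, h5, h6, h7, h8]
  refine ⟨?_, ?_, ?_, ?_⟩ <;> ring

theorem m_orth {x : P2} (hx : x ∈ X.Ub) (Ψ : ℝ) : ‖X.m x Ψ‖ = 1 ∧
    ⟪du X.f x, X.m x Ψ⟫_ℝ = 0 ∧ ⟪X.V x Ψ, X.m x Ψ⟫_ℝ = 0 ∧ ⟪du (du X.f) x, X.m x Ψ⟫_ℝ = 0 := by
  obtain ⟨h1, h2, h3, h4⟩ := X.j4_inner hx Ψ (-sin Ψ) (cos Ψ)
  rw [real_inner_self_eq_norm_sq, neg_sq, sin_sq_add_cos_sq] at h1
  exact ⟨(pow_eq_one_iff_of_nonneg (norm_nonneg _) two_ne_zero).1 h1, h2, h4.trans (by ring), h3⟩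

theorem gram_pos {x : P2} (hx : x ∈ X.Ub) (Ψ : ℝ) :
    0 < gram3 (du X.f x) (X.V x Ψ) (du (du X.f) x) := by
  obtain ⟨-, h2, h3, h4⟩ := X.j4_inner hx Ψ (cos Ψ) (sin Ψ)
  have hG : 0 < gram2 (du X.f x) (du (du X.f) x) := (X.nd x hx).1
  rw [gram3_swap23, gram3_eq hG.ne']
  refine mul_pos hG (pow_pos (norm_pos_iff.2 fun h => ?_) 2)
  rw [real_inner_comm] at h2 h3
  rw [← inner_perp_of_orth _ h2 h3, h, inner_zero_left, ← sq, ← sq, cos_sq_add_sin_sq,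
    mul_one] at h4
  exact (X.r_pos hx).ne h4

theorem j4_gram2 {x : P2} (hx : x ∈ X.Ub) (Ψ : ℝ) : gram2 (du X.f x) (X.V x Ψ) ≠ 0 := fun h => by
  have := (X.gram_pos hx Ψ).trans_le (gram3_le _ _ _)
  rw [h, zero_mul] at this
  exact this.false

theorem j4_Bp {x : P2} (hx : x ∈ X.Ub) : ContDiffAt ℝ ∞ (Bp X.f X.e0 X.e0') x :=
  have h := contDiffAt_dv (X.j4_f hx)
  (h.sub ((h.inner ℝ (X.sme x hx).1).smul (X.sme x hx).1)).sub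
    ((h.inner ℝ (X.sme x hx).2).smul (X.sme x hx).2)

theorem j4_cont {z : P2 × ℝ} (hx : z.1 ∈ X.Ub) :
    ContinuousAt (fun z : P2 × ℝ => X.V z.1 z.2) z ∧
    ContinuousAt (fun z : P2 × ℝ => X.Ξ z.1 z.2) z ∧
    ContinuousAt (fun z : P2 × ℝ => X.m z.1 z.2) z ∧
    ContinuousAt (fun z : P2 × ℝ => X.an z.1 z.2) z := by
  have h1 := (X.j4_Bp hx).continuousAt
  have h2 := (contDiffAt_du (X.j4_Bp hx)).continuousAt
  have h3 := (X.contDiffAt_r hx).continuousAt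
  have h4 := (contDiffAt_du (X.contDiffAt_r hx)).continuousAt
  have h5 := (X.sme _ hx).1.continuousAt
  have h6 := (contDiffAt_du (X.sme _ hx).1).continuousAt
  have h7 := (X.sme _ hx).2.continuousAt
  have h8 := (contDiffAt_du (X.sme _ hx).2).continuousAt
  have h9 := (contDiffAt_du (X.j4_f hx)).continuousAt
  have h10 := (contDiffAt_du (contDiffAt_du (X.j4_f hx))).continuousAt
  have hV : ContinuousAt (fun z : P2 × ℝ => X.V z.1 z.2) z := by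
    simp only [V, Vv, nPar]
    fun_prop
  refine ⟨hV, ?_, ?_, ?_⟩
  · simp only [Ξ, Xi, nPar]
    fun_prop
  · simp only [m, nPer]
    fun_prop
  · exact ContinuousAt.comp (f := fun z : P2 × ℝ => (du X.f z.1, X.V z.1 z.2, du (du X.f) z.1))
      (contDiffAt_perp (X.j4_gram2 hx z.2) _).continuousAt (by fun_prop)

theorem j4_κ {x : P2} (hx : x ∈ X.Ub) : ContinuousAt X.κ x := by
  have h1 := contDiffAt_du (X.j4_f hx)
  have h2 := contDiffAt_dv (X.j4_f hx)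
  refine continuousAt_kap (h1.inner ℝ h1) (h1.inner ℝ h2)
    ((h2.inner ℝ h2).add ((X.j4_A hx).1.pow 2)) (ne_of_gt ?_)
  have h3 := (X.nd x hx).2
  have h4 : 0 ≤ fE X.f x * X.A x ^ 2 := mul_nonneg real_inner_self_nonneg (sq_nonneg _)
  rw [det2_eq] at h3
  linarith

theorem continuousOn_data :
    ContinuousOn (fun z : P2 × ℝ => (X.V z.1 z.2, X.Ξ z.1 z.2, X.m z.1 z.2, X.an z.1 z.2))
      (X.Ub ×ˢ univ) ∧ ContinuousOn X.κ X.Ub :=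
  ⟨fun _ hz =>
    have h := X.j4_cont hz.1
    (h.1.prodMk (h.2.1.prodMk (h.2.2.1.prodMk h.2.2.2))).continuousWithinAt,
    fun _ hx => (X.j4_κ hx).continuousWithinAt⟩

theorem continuousOn_H :
    ContinuousOn (fun z : P2 × P2 × ℝ => X.H z.1 z.2.1 z.2.2) (X.Ub ×ˢ univ) := by
  intro z hz
  obtain ⟨-, h1, -, h2⟩ := X.j4_cont (z := (z.1, z.2.2)) hz.1
  have h0 : ContinuousAt (fun z : P2 × P2 × ℝ => (z.1, z.2.2)) z := by fun_prop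
  have h3 : ContinuousAt (fun z : P2 × P2 × ℝ => X.Ξ z.1 z.2.2) z :=
    ContinuousAt.comp (f := fun z : P2 × P2 × ℝ => (z.1, z.2.2)) h1 h0
  have h4 : ContinuousAt (fun z : P2 × P2 × ℝ => X.an z.1 z.2.2) z :=
    ContinuousAt.comp (f := fun z : P2 × P2 × ℝ => (z.1, z.2.2)) h2 h0
  have h5 := X.j4_κ hz.1
  refine ContinuousAt.continuousWithinAt ?_
  simp only [H]
  fun_prop

/-- on the boundary of the patch the limit data are the old data -/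
theorem boundary {x : P2} (hx : x ∈ X.Dc) (hx' : x ∉ X.In) :
    X.w x = 0 ∧ X.V x 0 = dv X.f x ∧ X.Ξ x 0 = du (dv X.f) x ∧ X.κ x = Gs X.f x := by
  have hU := X.UU (X.DU hx)
  have hA := X.zero x (X.UO hU) hx'
  have hK : x ∉ X.Kin := fun h => hx' (X.KIn h)
  obtain ⟨h1, h2⟩ := X.out x hU hK
  have hr : X.r x = ⟪dv X.f x, X.e0 x⟫_ℝ := by
    rw [r, h1, hA]
    simpa using sqrt_sq h2.le
  refine ⟨by rw [w, hA, zero_div], by simp [V, Vv, Bp, nPar, h1, hr], ?_, ?_⟩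
  · have d1 := (contDiffAt_dv (X.j4_f hU)).differentiableAt (by simp)
    have d2 := (X.sme x hU).1.differentiableAt (by simp)
    have d3 := (X.contDiffAt_r hU).differentiableAt (by simp)
    have d4 := d1.inner ℝ d2
    have e1 : Bp X.f X.e0 X.e0' =ᶠ[𝓝 x] fun y => dv X.f y - ⟪dv X.f y, X.e0 y⟫_ℝ • X.e0 y := by
      filter_upwards [X.oU.mem_nhds (X.DU hx), X.cK.isClosed.isOpen_compl.mem_nhds hK] with y h h'
      rw [Bp, (X.out y (X.UU h) h').1, zero_smul, sub_zero]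
    have e2 : IsLocalMin (fun y => X.r y - ⟪dv X.f y, X.e0 y⟫_ℝ) x := .of_forall fun y => by
      dsimp only
      rw [hr, sub_self, sub_nonneg]
      exact le_sqrt_of_sq_le (by nlinarith [sq_nonneg ⟪dv X.f y, X.e0' y⟫_ℝ, sq_nonneg (X.A y)])
    have e3 := e2.fderiv_eq_zero
    rw [fderiv_fun_sub d3 d4, sub_eq_zero] at e3
    rw [Ξ, Xi, (surf_du_ev e1).eq_of_nhds]
    simp only [du, fderiv_fun_sub d1 (d4.fun_smul d2), fderiv_fun_smul d4 d2, e3, hr, nPar]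
    simp
    abel
  · obtain ⟨ρ, h3, h4⟩ := X.root 2 one_le_two
    have hO := X.hO.mem_nhds (X.UO hU)
    have h5 := contDiffAt_dv (X.j4_f hU)
    rw [Gs_eq (X.j4_f hU) (X.nd x hU).2.ne', ← kap_add_flat (G := fG X.f) (h5.inner ℝ h5)
      (h3.contDiffAt hO) (pow_eq_zero_iff two_ne_zero |>.1 ((h4 x (X.UO hU)).2.trans hA))]
    refine kap_congr .rfl .rfl ?_
    filter_upwards [hO] with y hy
    rw [← (h4 y hy).2, ← pow_mul]

theorem H_boundary {x : P2} (hx : x ∈ X.Dc) (hx' : x ∉ X.In) {Y : P2}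
    (h : Q3' (II X.f x Y Y) (II X.f x (1, 0) (1, 0)) (II X.f x (1, 0) Y)) : 0 < X.H x Y 0 := by
  obtain ⟨-, h1, h2, h3⟩ := X.boundary hx hx'
  have hU := X.UU (X.DU hx)
  have hf := X.j4_f hU
  have e1 : X.an x 0 = II X.f x (1, 0) (1, 0) := by
    rw [an, h1]
    rfl
  have e2 : ⟪X.an x 0, X.Ξ x 0⟫_ℝ = ⟪II X.f x (1, 0) (1, 0), II X.f x (1, 0) (0, 1)⟫_ℝ := by
    rw [an, h1, h2]
    exact (inner_perp_perp (X.nd x hU).2.ne' _ _).symm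
  rw [Q3', II_eq hf Y Y, II_eq hf (1, 0) Y] at h
  rw [H, e2, e1, h3, Gs]
  generalize II X.f x (1, 0) (1, 0) = a at *
  generalize II X.f x (1, 0) (0, 1) = b at *
  generalize II X.f x (0, 1) (0, 1) = c at *
  refine h.trans_eq ?_
  simp only [← real_inner_self_eq_norm_sq, inner_add_left, inner_add_right, real_inner_smul_left,
    real_inner_smul_right, real_inner_comm a b, real_inner_comm a c]
  ring

theorem H_pos_of_snd {x : P2} (hx : x ∈ X.Ub) {Y : P2} (hY : Y ≠ 0) (h2 : Y.2 = 0) (Ψ : ℝ) :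
    0 < X.H x Y Ψ := by
  have h1 : Y.1 ≠ 0 := fun h => hY (Prod.ext h h2)
  have h3 := X.gram_pos hx Ψ
  rw [gram3_eq (X.j4_gram2 hx Ψ)] at h3
  have h4 : ‖X.an x Ψ‖ ^ 2 ≠ 0 := right_ne_zero_of_mul h3.ne'
  simp only [H, h2, zero_mul, add_zero, ne_eq, OfNat.ofNat_ne_zero, not_false_eq_true, zero_pow]
  positivity

theorem Jet.congr {L C0 : ℝ} {b : P2 → ℝ} {f' g : P2 → R4} {x : P2} {μ P : ℝ}
    (h : X.Jet L C0 b f' x μ P) (hg : g =ᶠ[𝓝 x] f') : X.Jet L C0 b g x μ P := by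
  obtain ⟨h1, h2, h3, h4, h5, -⟩ := jets_congr hg
  refine ⟨h.1.congr_of_eventuallyEq hg, ?_⟩
  rw [h1, h2, h3, h4, h5]
  exact h.2

theorem j4_add {f y : P2 → R4} {x : P2} (hf : ContDiffAt ℝ ∞ f x) (hy : ContDiffAt ℝ ∞ y x) :
    (du (fun x => f x + y x) =ᶠ[𝓝 x] fun x => du f x + du y x) ∧
      dv (fun x => f x + y x) =ᶠ[𝓝 x] fun x => dv f x + dv y x := by
  constructor <;> filter_upwards [surf_ev hf, surf_ev hy] with z h1 h2 <;>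
    simp only [du, dv, fderiv_fun_add (h1.differentiableAt two_ne_zero)
      (h2.differentiableAt two_ne_zero), add_apply]

theorem Jet.perturb {L C0 : ℝ} {b : P2 → ℝ} {f' y : P2 → R4} {x : P2} {μ P C : ℝ}
    (h : X.Jet L C0 b f' x μ P) (hμ : 1 ≤ μ) (hC : 0 ≤ C) (hy : ContDiffAt ℝ ∞ y x)
    (hb : ∀ j ≤ 2, ‖iteratedFDeriv ℝ j y x‖ ≤ C / μ) :
    X.Jet L C0 b (fun x => f' x + y x) x μ (P + C) := by
  obtain ⟨hf, Ψ, d, s, h1, h2, h3, h4, h5, h6, h7, h8⟩ := h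
  obtain ⟨e1, e2⟩ := j4_add hf hy
  have hC1 : 0 ≤ C / μ := by positivity
  have hC2 : C / μ ≤ C := div_le_self hC hμ
  have key : ∀ {u v t : R4} {p : ℝ}, ‖u - t‖ ≤ p → ‖v‖ ≤ C / μ → ‖u + v - t‖ ≤ p + C / μ :=
    fun h h' => by
      rw [add_sub_right_comm]
      exact norm_add_le_of_le h h'
  refine ⟨hf.add hy, Ψ, d, s, ?_⟩
  rw [e1.eq_of_nhds, e2.eq_of_nhds, (surf_du_ev e1).eq_of_nhds, (surf_du_ev e2).eq_of_nhds,
    (surf_dv_ev e2).eq_of_nhds, (j4_add (contDiffAt_du hf) (contDiffAt_du hy)).1.eq_of_nhds,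
    (j4_add (contDiffAt_dv hf) (contDiffAt_dv hy)).1.eq_of_nhds,
    (j4_add (contDiffAt_dv hf) (contDiffAt_dv hy)).2.eq_of_nhds, add_div]
  refine ⟨by linarith, by nlinarith [abs_nonneg s], by linarith,
    key h4 ((norm_du_le y x).trans (hb 1 one_le_two)),
    key h5 ((norm_du_le _ x).trans ((norm_iter_du_le hy 1).trans (hb 2 le_rfl))),
    key h6 ((norm_dv_le y x).trans (hb 1 one_le_two)),
    key h7 ((norm_du_le _ x).trans ((norm_iter_dv_le hy 1).trans (hb 2 le_rfl))),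
    (key h8 ((norm_dv_le _ x).trans ((norm_iter_dv_le hy 1).trans (hb 2 le_rfl)))).trans
      (by linarith)⟩

theorem j4_per (Ψ : ℝ) : ∃ Ψ' ∈ Icc 0 (2 * π), cos Ψ = cos Ψ' ∧ sin Ψ = sin Ψ' := by
  have h : Function.Periodic (fun t => (cos t, sin t)) (2 * π) := fun t => by simp
  obtain ⟨y, hy, e⟩ := h.exists_mem_Ico₀ two_pi_pos Ψ
  exact ⟨y, Ico_subset_Icc_self hy, Prod.ext_iff.1 e⟩

theorem jet_gram : ∃ c0 δ0 : ℝ, 0 < c0 ∧ 0 < δ0 ∧ ∀ (L C0 : ℝ) (b : P2 → ℝ) (f' : P2 → R4),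
    ∀ x ∈ X.Dc, ∀ μ P : ℝ, P / μ ≤ δ0 → X.Jet L C0 b f' x μ P → c0 ≤ Gram f' x := by
  have hK : IsCompact ((fun z : P2 × ℝ => (du X.f z.1, X.V z.1 z.2, du (du X.f) z.1)) ''
      (X.Dc ×ˢ Icc 0 (2 * π))) := (X.cD.prod isCompact_Icc).image_of_continuousOn fun z hz => by
    have hx := X.UU (X.DU hz.1)
    have h1 := (X.j4_cont hx).1
    have h9 := (contDiffAt_du (X.j4_f hx)).continuousAt
    have h10 := (contDiffAt_du (contDiffAt_du (X.j4_f hx))).continuousAt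
    exact ContinuousAt.continuousWithinAt (by fun_prop)
  have hc := contDiff_gram3.continuous
  obtain ⟨δ, hδ, h1⟩ := hK.exists_cthickening_subset_open (isOpen_lt continuous_const hc) (by
    rintro _ ⟨z, hz, rfl⟩
    exact X.gram_pos (X.UU (X.DU hz.1)) z.2)
  obtain ⟨c, h2, h3⟩ := (hK.cthickening (r := δ)).exists_forall_le' hc.continuousOn h1
  refine ⟨c, δ, h2, hδ, fun L C0 b f' x hx μ P hP h => ?_⟩
  obtain ⟨-, Ψ, d, s, -, -, -, h4, h5, h6, -⟩ := h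
  obtain ⟨Ψ', h7, h8, h9⟩ := j4_per Ψ
  refine h3 (du f' x, dv f' x, du (du f') x)
    (Metric.mem_cthickening_of_dist_le _ _ _ _ ⟨(x, Ψ'), ⟨hx, h7⟩, rfl⟩ ?_)
  rw [V, Vv, h8, h9] at h6
  simp only [dist_eq_norm]
  exact (max_le h4 (max_le h6 h5)).trans hP

theorem big_twist : ∃ Λ : ℝ, ∀ x ∈ X.Dc, ∀ Ψ d : ℝ, Λ ≤ d →
    0 < (X.r x * d + ⟪X.Ξ x Ψ, X.m x Ψ⟫_ℝ) ^ 2 + X.κ x := by
  obtain ⟨Λ, hΛ⟩ := (X.cD.prod (isCompact_Icc (a := 0) (b := 2 * π))).bddAbove_image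
    (f := fun z : P2 × ℝ => (|X.κ z.1| + 1 - ⟪X.Ξ z.1 z.2, X.m z.1 z.2⟫_ℝ) / X.r z.1)
    fun z hz => by
      have hx := X.UU (X.DU hz.1)
      obtain ⟨-, h1, h2, -⟩ := X.j4_cont hx
      have h3 := X.j4_κ hx
      have h4 := (X.contDiffAt_r hx).continuousAt
      exact (ContinuousAt.div₀ (g := fun z : P2 × ℝ => X.r z.1) (by fun_prop) (by fun_prop)
        (X.r_pos hx).ne').continuousWithinAt
  refine ⟨Λ, fun x hx Ψ d hd => ?_⟩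
  obtain ⟨Ψ', h7, h8, h9⟩ := j4_per Ψ
  have h1 := (hΛ ⟨(x, Ψ'), ⟨hx, h7⟩, rfl⟩).trans hd
  have e : ⟪X.Ξ x Ψ, X.m x Ψ⟫_ℝ = ⟪X.Ξ x Ψ', X.m x Ψ'⟫_ℝ := by
    simp only [Ξ, Xi, m, h8, h9]
  rw [div_le_iff₀' (X.r_pos (X.UU (X.DU hx))), ← e] at h1
  nlinarith [abs_nonneg (X.κ x), neg_abs_le (X.κ x)]

theorem j4b_rate {μ P : ℕ → ℝ} (hR : Rate μ P) {l : Filter ℕ} (hl : l ≤ atTop) :
    Tendsto (fun n => P n / μ n) l (𝓝 0) ∧ Tendsto (fun n => P n ^ 2 / μ n) l (𝓝 0) := by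
  have h4 := hR.small.mono_left hl
  have key : ∀ k : ℕ, k ≤ 4 → Tendsto (fun n => P n ^ k / μ n) l (𝓝 0) := by
    intro k hk
    refine squeeze_zero (fun n => ?_) (fun n => ?_) h4
    · have := (hR.one n).1
      have := (hR.one n).2
      positivity
    · have h1 := (hR.one n).1
      exact div_le_div_of_nonneg_right (pow_le_pow_right₀ (hR.one n).2 hk) (by linarith)
  exact ⟨by simpa using key 1 (by norm_num), key 2 (by norm_num)⟩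

theorem j4b_near {l : Filter ℕ} {u v : ℕ → R4} {e : ℕ → ℝ} {A : R4} (hv : Tendsto v l (𝓝 A))
    (he : Tendsto e l (𝓝 0)) (h : ∀ᶠ n in l, ‖u n - v n‖ ≤ e n) : Tendsto u l (𝓝 A) := by
  have h0 : Tendsto (fun n => u n - v n) l (𝓝 0) :=
    tendsto_zero_iff_norm_tendsto_zero.2
      (squeeze_zero' (Eventually.of_forall fun n => norm_nonneg _) h he)
  simpa using h0.add hv

theorem j4b_inner {l : Filter ℕ} {u v m : ℕ → R4} {μ P : ℕ → ℝ} {C : ℝ}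
    (h2 : Tendsto (fun n => P n ^ 2 / μ n) l (𝓝 0))
    (h : ∀ᶠ n in l, 1 ≤ P n ∧ ‖m n‖ = 1 ∧ ⟪v n, m n⟫_ℝ = 0 ∧ ‖u n - v n‖ ≤ P n / μ n) :
    Tendsto (fun n => C * P n * ⟪u n, m n⟫_ℝ) l (𝓝 0) := by
  have h0 : Tendsto (fun n => P n * ⟪u n, m n⟫_ℝ) l (𝓝 0) := by
    refine squeeze_zero_norm' ?_ h2
    filter_upwards [h] with n hn
    obtain ⟨hP, hm, hv, hu⟩ := hn
    have e : ⟪u n, m n⟫_ℝ = ⟪u n - v n, m n⟫_ℝ := by rw [inner_sub_left, hv, sub_zero]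
    have h1 : |⟪u n - v n, m n⟫_ℝ| ≤ P n / μ n := by
      have := abs_real_inner_le_norm (u n - v n) (m n)
      rw [hm, mul_one] at this
      exact this.trans hu
    rw [Real.norm_eq_abs, abs_mul, e, abs_of_nonneg (by linarith : (0:ℝ) ≤ P n)]
    calc P n * |⟪u n - v n, m n⟫_ℝ| ≤ P n * (P n / μ n) :=
          mul_le_mul_of_nonneg_left h1 (by linarith)
      _ = P n ^ 2 / μ n := by ring
  simpa [mul_assoc] using h0.const_mul C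

theorem j4b_nhds {x : P2} (hx : x ∈ X.Dc) : X.Ub ∈ 𝓝 x :=
  mem_of_superset (X.oU.mem_nhds (X.DU hx)) X.UU

theorem j4b_at {x : P2} (hx : x ∈ X.Dc) : ContDiffAt ℝ ∞ X.f x :=
  X.hf.contDiffAt (X.hO.mem_nhds (X.UO (X.UU (X.DU hx))))

theorem j4b_cont {x : P2} (hx : x ∈ X.Dc) (Ψ : ℝ) :
    ContinuousAt (fun z : P2 × ℝ => (X.V z.1 z.2, X.Ξ z.1 z.2, X.m z.1 z.2, X.an z.1 z.2)) (x, Ψ) :=
  X.continuousOn_data.1.continuousAt (prod_mem_nhds (X.j4b_nhds hx) univ_mem)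

/-- the limit of the normal frame along a sequence of jets -/
theorem j4b_frame {μ P : ℕ → ℝ} (hR : Rate μ P) {l : Filter ℕ} (hl : l ≤ atTop)
    {f' : ℕ → P2 → R4} {xs : ℕ → P2} {x : P2} (hx : x ∈ X.Dc) (hxs : Tendsto xs l (𝓝 x))
    {Ψ d s : ℕ → ℝ} {Ψ0 : ℝ} (hΨ : Tendsto Ψ l (𝓝 Ψ0))
    (hj : ∀ᶠ n in l, |d n| ≤ P n ∧
      ‖du (f' n) (xs n) - du X.f (xs n)‖ ≤ P n / μ n ∧
      ‖du (du (f' n)) (xs n) - du (du X.f) (xs n)‖ ≤ P n / μ n ∧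
      ‖dv (f' n) (xs n) - X.V (xs n) (Ψ n)‖ ≤ P n / μ n ∧
      ‖du (dv (f' n)) (xs n) - (X.Ξ (xs n) (Ψ n) + (X.r (xs n) * d n) • X.m (xs n) (Ψ n))‖
        ≤ P n / μ n ∧
      ‖dv (dv (f' n)) (xs n) - (μ n * X.r (xs n) * s n) • X.m (xs n) (Ψ n)‖ ≤ P n) :
    ∃ m' : ℕ → R4, (∀ᶠ n in l, ‖m' n‖ = 1 ∧ ⟪m' n, du (f' n) (xs n)⟫_ℝ = 0 ∧
        ⟪m' n, dv (f' n) (xs n)⟫_ℝ = 0 ∧ ⟪m' n, du (du (f' n)) (xs n)⟫_ℝ = 0 ∧
        0 < Gram (f' n) (xs n) ∧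
        |μ n * X.r (xs n) * s n| / 2 - (X.r x + 1) * P n ≤ |⟪dv (dv (f' n)) (xs n), m' n⟫_ℝ|) ∧
      Tendsto (fun n => nrm (f' n) (xs n) (du (du (f' n)) (xs n))) l (𝓝 (X.an x Ψ0)) ∧
      Tendsto (fun n => ⟪nrm (f' n) (xs n) (du (du (f' n)) (xs n)), du (dv (f' n)) (xs n)⟫_ℝ) l
        (𝓝 ⟪X.an x Ψ0, X.Ξ x Ψ0⟫_ℝ) ∧
      Tendsto (fun n => ⟪du (dv (f' n)) (xs n), m' n⟫_ℝ - X.r (xs n) * d n) l
        (𝓝 ⟪X.Ξ x Ψ0, X.m x Ψ0⟫_ℝ) := by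
  obtain ⟨r1, r2⟩ := j4b_rate hR hl
  have hxU : x ∈ X.Ub := mem_of_mem_nhds (X.j4b_nhds hx)
  have hU : ∀ᶠ n in l, xs n ∈ X.Ub := hxs (X.j4b_nhds hx)
  have hf := X.j4b_at hx
  have hz : Tendsto (fun n => (xs n, Ψ n)) l (𝓝 (x, Ψ0)) := hxs.prodMk_nhds hΨ
  have hD := (X.j4b_cont hx Ψ0).tendsto.comp hz
  have hV : Tendsto (fun n => X.V (xs n) (Ψ n)) l (𝓝 (X.V x Ψ0)) :=
    (continuous_fst.tendsto _).comp hD
  have hΞ : Tendsto (fun n => X.Ξ (xs n) (Ψ n)) l (𝓝 (X.Ξ x Ψ0)) :=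
    ((continuous_fst.comp continuous_snd).tendsto _).comp hD
  have hm : Tendsto (fun n => X.m (xs n) (Ψ n)) l (𝓝 (X.m x Ψ0)) :=
    ((continuous_fst.comp (continuous_snd.comp continuous_snd)).tendsto _).comp hD
  have hA : Tendsto (fun n => du X.f (xs n)) l (𝓝 (du X.f x)) :=
    (contDiffAt_du hf).continuousAt.tendsto.comp hxs
  have hK : Tendsto (fun n => du (du X.f) (xs n)) l (𝓝 (du (du X.f) x)) :=
    (contDiffAt_du (contDiffAt_du hf)).continuousAt.tendsto.comp hxs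
  have hr : Tendsto (fun n => X.r (xs n)) l (𝓝 (X.r x)) :=
    (X.contDiffAt_r hxU).continuousAt.tendsto.comp hxs
  have hr0 := X.r_pos hxU
  have hr1 : ∀ᶠ n in l, X.r (xs n) < X.r x + 1 := hr.eventually (gt_mem_nhds (by linarith))
  refine exact_frame (l := l) (fu := fun n => du (f' n) (xs n)) (fv := fun n => dv (f' n) (xs n))
    (fuu := fun n => du (du (f' n)) (xs n)) (fuv := fun n => du (dv (f' n)) (xs n))
    (fvv := fun n => dv (dv (f' n)) (xs n)) (m := fun n => X.m (xs n) (Ψ n))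
    (d := fun n => X.r (xs n) * d n) (x := fun n => μ n * X.r (xs n) * s n)
    (P := fun n => (X.r x + 1) * P n) (A := du X.f x) (V := X.V x Ψ0) (K := du (du X.f) x)
    (Ξ := X.Ξ x Ψ0) (m0 := X.m x Ψ0)
    (j4b_near hA r1 (hj.mono fun n hn => hn.2.1)) (j4b_near hV r1 (hj.mono fun n hn => hn.2.2.2.1))
    (j4b_near hK r1 (hj.mono fun n hn => hn.2.2.1)) (j4b_near hΞ r1 ?_) hm
    (hU.mono fun n hn => (X.m_orth hn _).1) (j4b_inner (v := fun n => du X.f (xs n)) r2 ?_)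
    (j4b_inner (v := fun n => X.V (xs n) (Ψ n)) r2 ?_)
    (j4b_inner (v := fun n => du (du X.f) (xs n)) r2 ?_) ?_ (X.gram_pos hxU Ψ0)
  · filter_upwards [hj] with n hn
    have e : du (dv (f' n)) (xs n) - (X.r (xs n) * d n) • X.m (xs n) (Ψ n) - X.Ξ (xs n) (Ψ n)
        = du (dv (f' n)) (xs n) - (X.Ξ (xs n) (Ψ n) + (X.r (xs n) * d n) • X.m (xs n) (Ψ n)) := by
      abel
    rw [e]
    exact hn.2.2.2.2.1
  · filter_upwards [hj, hU] with n hn hu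
    exact ⟨(hR.one n).2, (X.m_orth hu _).1, (X.m_orth hu _).2.1, hn.2.1⟩
  · filter_upwards [hj, hU] with n hn hu
    exact ⟨(hR.one n).2, (X.m_orth hu _).1, (X.m_orth hu _).2.2.1, hn.2.2.2.1⟩
  · filter_upwards [hj, hU] with n hn hu
    exact ⟨(hR.one n).2, (X.m_orth hu _).1, (X.m_orth hu _).2.2.2, hn.2.2.1⟩
  · filter_upwards [hj, hU, hr1] with n hn hu h1
    have hP := (hR.one n).2
    have h0 := X.r_pos hu
    refine ⟨by nlinarith, ?_, hn.2.2.2.2.2.trans (by nlinarith)⟩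
    rw [abs_mul, abs_of_pos h0]
    exact mul_le_mul h1.le hn.1 (abs_nonneg _) (by linarith)

/-- pointwise algebra of the exact frame -/
theorem j4b_alg {g : P2 → R4} {y : P2} (hg : ContDiffAt ℝ ∞ g y) {m : R4}
    (h1 : ⟪m, du g y⟫_ℝ = 0) (h2 : ⟪m, dv g y⟫_ℝ = 0) (h3 : ⟪m, du (du g) y⟫_ℝ = 0)
    (hG : 0 < Gram g y) :
    0 < gram2 (du g y) (dv g y) ∧ nrm g y (du (du g) y) ≠ 0 ∧
      ⟪nrm g y (du (du g) y), m⟫_ℝ = 0 ∧
      ⟪nrm g y (du (dv g) y), m⟫_ℝ = ⟪du (dv g) y, m⟫_ℝ ∧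
      ⟪nrm g y (dv (dv g) y), m⟫_ℝ = ⟪dv (dv g) y, m⟫_ℝ ∧
      ⟪nrm g y (du (du g) y), nrm g y (du (dv g) y)⟫_ℝ
        = ⟪nrm g y (du (du g) y), du (dv g) y⟫_ℝ ∧
      ⟪nrm g y (du (du g) y), nrm g y (dv (dv g) y)⟫_ℝ - ‖nrm g y (du (dv g) y)‖ ^ 2 = Gs g y := by
  have hd : 0 < gram2 (du g y) (dv g y) := by
    rcases (gram2_nonneg (du g y) (dv g y)).lt_or_eq with h | h
    · exact h
    · have := gram3_le (du g y) (dv g y) (du (du g) y)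
      rw [← h, zero_mul] at this
      exact absurd hG (not_lt.2 this)
  refine ⟨hd, ?_, ?_, inner_perp_of_orth _ h1 h2, inner_perp_of_orth _ h1 h2,
    inner_perp_perp hd.ne' _ _, ?_⟩
  · intro h0
    have e := gram3_eq hd.ne' (du (du g) y)
    have h0' : perp (du g y) (dv g y) (du (du g) y) = 0 := h0
    rw [h0'] at e
    have : Gram g y = 0 := by rw [Gram, e]; simp
    exact hG.ne' this
  · have : ⟪nrm g y (du (du g) y), m⟫_ℝ = ⟪du (du g) y, m⟫_ℝ := inner_perp_of_orth _ h1 h2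
    rw [this, real_inner_comm, h3]
  · rw [Gs, II_uu hg, II_uv hg, II_vv hg]

theorem j4b_lim (l : Ultrafilter ℕ) {u B : ℕ → ℝ} {B0 : ℝ} (hB : Tendsto B l (𝓝 B0))
    (h : ∀ᶠ n in (l : Filter ℕ), |u n| ≤ B n) : ∃ u0, |u0| ≤ B0 ∧ Tendsto u l (𝓝 u0) := by
  have hB1 : ∀ᶠ n in (l : Filter ℕ), B n < B0 + 1 := hB.eventually (gt_mem_nhds (by linarith))
  have hc : (l.map u : Filter ℝ) ≤ 𝓟 (Icc (-(B0 + 1)) (B0 + 1)) := by
    rw [le_principal_iff]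
    show ∀ᶠ n in (l : Filter ℕ), u n ∈ Icc (-(B0 + 1)) (B0 + 1)
    filter_upwards [h, hB1] with n h1 h2
    exact abs_le.1 (h1.trans h2.le)
  obtain ⟨u0, -, hu⟩ := isCompact_Icc.ultrafilter_le_nhds (l.map u) hc
  have hu' : Tendsto u l (𝓝 u0) := hu
  exact ⟨u0, le_of_tendsto_of_tendsto hu'.abs hB h, hu'⟩

theorem j4b_choose {L C0 : ℝ} {b : P2 → ℝ} (f' : ℕ → P2 → R4) (xs : ℕ → P2) (μ P : ℕ → ℝ) :
    ∃ Ψ d s : ℕ → ℝ, ∀ n, X.Jet L C0 b (f' n) (xs n) (μ n) (P n) →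
      |Ψ n| ≤ X.w (xs n) * L + |b (xs n)| + P n / μ n ∧
      |d n - du b (xs n)| ≤ C0 + P n * |s n| ∧ |d n| ≤ P n ∧
      ‖du (f' n) (xs n) - du X.f (xs n)‖ ≤ P n / μ n ∧
      ‖du (du (f' n)) (xs n) - du (du X.f) (xs n)‖ ≤ P n / μ n ∧
      ‖dv (f' n) (xs n) - X.V (xs n) (Ψ n)‖ ≤ P n / μ n ∧
      ‖du (dv (f' n)) (xs n) - (X.Ξ (xs n) (Ψ n) + (X.r (xs n) * d n) • X.m (xs n) (Ψ n))‖
        ≤ P n / μ n ∧
      ‖dv (dv (f' n)) (xs n) - (μ n * X.r (xs n) * s n) • X.m (xs n) (Ψ n)‖ ≤ P n := by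
  have h : ∀ n, ∃ Ψ d s : ℝ, X.Jet L C0 b (f' n) (xs n) (μ n) (P n) →
      |Ψ| ≤ X.w (xs n) * L + |b (xs n)| + P n / μ n ∧
      |d - du b (xs n)| ≤ C0 + P n * |s| ∧ |d| ≤ P n ∧
      ‖du (f' n) (xs n) - du X.f (xs n)‖ ≤ P n / μ n ∧
      ‖du (du (f' n)) (xs n) - du (du X.f) (xs n)‖ ≤ P n / μ n ∧
      ‖dv (f' n) (xs n) - X.V (xs n) Ψ‖ ≤ P n / μ n ∧
      ‖du (dv (f' n)) (xs n) - (X.Ξ (xs n) Ψ + (X.r (xs n) * d) • X.m (xs n) Ψ)‖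
        ≤ P n / μ n ∧
      ‖dv (dv (f' n)) (xs n) - (μ n * X.r (xs n) * s) • X.m (xs n) Ψ‖ ≤ P n := by
    intro n
    by_cases hJ : X.Jet L C0 b (f' n) (xs n) (μ n) (P n)
    · obtain ⟨-, Ψ, d, s, h⟩ := hJ
      exact ⟨Ψ, d, s, fun _ => h⟩
    · exact ⟨0, 0, 0, fun h => absurd h hJ⟩
  choose Ψ d s h using h
  exact ⟨Ψ, d, s, h⟩

theorem far_antipodal {L C0 : ℝ} {b : P2 → ℝ} (hb : ContDiff ℝ ∞ b) {μ P : ℕ → ℝ}
    (hR : Rate μ P) (l : Ultrafilter ℕ) (hl : (l : Filter ℕ) ≤ atTop) {f' : ℕ → P2 → R4}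
    {xs Ys : ℕ → P2} {x Y : P2} (hx : x ∈ X.Dc) (hxs : Tendsto xs l (𝓝 x))
    (hYs : Tendsto Ys l (𝓝 Y))
    (hj : ∀ᶠ n in (l : Filter ℕ), xs n ∈ X.Dc ∧ X.Jet L C0 b (f' n) (xs n) (μ n) (P n) ∧
      Gs (f' n) (xs n) = X.κ (xs n) ∧
      ¬ Q2 (II (f' n) (xs n) (Ys n) (Ys n)) (II (f' n) (xs n) (Ys n) (Ys n))
        (II (f' n) (xs n) (1, 0) (1, 0))) :
    ∃ Ψ : ℝ, |Ψ| ≤ X.w x * L + |b x| ∧ X.H x Y Ψ ≤ 0 ∧ (Y.2 ≠ 0 → ∃ d : ℝ, du b x - C0 ≤ d ∧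
      (X.r x * d + ⟪X.Ξ x Ψ, X.m x Ψ⟫_ℝ) ^ 2 + X.κ x ≤ 0) := by
  obtain ⟨r1, r2⟩ := j4b_rate hR hl
  obtain ⟨Ψ, d, s, hc⟩ := X.j4b_choose (L := L) (C0 := C0) (b := b) f' xs μ P
  have hxU : x ∈ X.Ub := mem_of_mem_nhds (X.j4b_nhds hx)
  have hw : Tendsto (fun n => X.w (xs n)) l (𝓝 (X.w x)) :=
    (X.continuousOn_w.continuousAt (X.j4b_nhds hx)).tendsto.comp hxs
  have hbx : Tendsto (fun n => b (xs n)) l (𝓝 (b x)) := (hb.continuous.tendsto x).comp hxs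
  have hdb : Tendsto (fun n => du b (xs n)) l (𝓝 (du b x)) :=
    (contDiffAt_du hb.contDiffAt).continuousAt.tendsto.comp hxs
  have hκ : Tendsto (fun n => X.κ (xs n)) l (𝓝 (X.κ x)) :=
    (X.continuousOn_data.2.continuousAt (X.j4b_nhds hx)).tendsto.comp hxs
  have hr : Tendsto (fun n => X.r (xs n)) l (𝓝 (X.r x)) :=
    (X.contDiffAt_r hxU).continuousAt.tendsto.comp hxs
  have hr0 := X.r_pos hxU
  have hB : Tendsto (fun n => X.w (xs n) * L + |b (xs n)| + P n / μ n) l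
      (𝓝 (X.w x * L + |b x|)) := by
    simpa using ((hw.mul_const L).add hbx.abs).add r1
  obtain ⟨Ψ0, hΨ0, hΨ⟩ := j4b_lim l hB (hj.mono fun n hn => (hc n hn.2.1).1)
  obtain ⟨m', hm', ta, tab, tD⟩ := X.j4b_frame hR hl hx hxs (d := d) (s := s) hΨ
    (hj.mono fun n hn => (hc n hn.2.1).2.2)
  have hY1 : Tendsto (fun n => (Ys n).1) l (𝓝 Y.1) := (continuous_fst.tendsto _).comp hYs
  have hY2 : Tendsto (fun n => (Ys n).2) l (𝓝 Y.2) := (continuous_snd.tendsto _).comp hYs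
  obtain ⟨a, ha⟩ : ∃ a : ℕ → R4, ∀ n, a n = nrm (f' n) (xs n) (du (du (f' n)) (xs n)) :=
    ⟨_, fun _ => rfl⟩
  obtain ⟨D, hD⟩ : ∃ D : ℕ → ℝ, ∀ n, D n = ⟪du (dv (f' n)) (xs n), m' n⟫_ℝ := ⟨_, fun _ => rfl⟩
  obtain ⟨B, hB'⟩ : ∃ B : ℕ → ℝ, ∀ n, B n = ⟪a n, du (dv (f' n)) (xs n)⟫_ℝ := ⟨_, fun _ => rfl⟩
  obtain ⟨Z, hZ⟩ : ∃ Z : ℕ → ℝ, ∀ n, Z n = ⟪dv (dv (f' n)) (xs n), m' n⟫_ℝ := ⟨_, fun _ => rfl⟩
  simp only [← ha] at ta tab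
  simp only [← hB'] at tab
  simp only [← hD] at tD
  have key : ∀ᶠ n in (l : Filter ℕ), a n ≠ 0 ∧
      2 * (Ys n).1 * (Ys n).2 * D n + (Ys n).2 ^ 2 * Z n = 0 ∧
      ((Ys n).1 * ‖a n‖ ^ 2 + (Ys n).2 * B n) ^ 2
        + (Ys n).2 ^ 2 * (D n ^ 2 + X.κ (xs n)) * ‖a n‖ ^ 2 ≤ 0 := by
    filter_upwards [hj, hm'] with n hn hm
    obtain ⟨-, hJ, hG, hQ⟩ := hn
    obtain ⟨-, e1, e2, e3, e4, e5, e6⟩ := j4b_alg hJ.1 hm.2.1 hm.2.2.1 hm.2.2.2.1 hm.2.2.2.2.1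
    rw [II_eq_qf hJ.1 (Ys n) (Ys n), II_uu hJ.1] at hQ
    have := antipodal e1 hm.1 e2 hQ
    rw [e3, e4, e5, e6, hG, ← ha, ← hD, ← hZ, ← hB'] at this
    exact ⟨by rw [ha]; exact e1, this⟩
  refine ⟨Ψ0, hΨ0, ?_, fun hY => ?_⟩
  · have t1 : Tendsto (fun n => ((Ys n).1 * ‖a n‖ ^ 2 + (Ys n).2 * B n) ^ 2
        + (Ys n).2 ^ 2 * X.κ (xs n) * ‖a n‖ ^ 2) l (𝓝 (X.H x Y Ψ0)) :=
      (((hY1.mul (ta.norm.pow 2)).add (hY2.mul tab)).pow 2).add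
        (((hY2.pow 2).mul hκ).mul (ta.norm.pow 2))
    refine le_of_tendsto t1 ?_
    filter_upwards [key] with n hn
    have := hn.2.2
    have h0 : 0 ≤ (Ys n).2 ^ 2 * D n ^ 2 * ‖a n‖ ^ 2 := by positivity
    nlinarith
  · have hY2' : ∀ᶠ n in (l : Filter ℕ), (Ys n).2 ≠ 0 := hY2.eventually_ne hY
    have k1 : ∀ᶠ n in (l : Filter ℕ), D n ^ 2 + X.κ (xs n) ≤ 0 := by
      filter_upwards [key, hY2'] with n hn h2
      have hp : 0 < (Ys n).2 ^ 2 * ‖a n‖ ^ 2 := by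
        have := norm_pos_iff.2 hn.1
        positivity
      by_contra hh
      have h3 := mul_pos hp (not_le.1 hh)
      have h4 := sq_nonneg ((Ys n).1 * ‖a n‖ ^ 2 + (Ys n).2 * B n)
      have := hn.2.2
      nlinarith
    have k2 : ∀ᶠ n in (l : Filter ℕ), |D n| ≤ 1 + |X.κ (xs n)| := by
      filter_upwards [k1] with n hn
      have h1 := neg_abs_le (X.κ (xs n))
      have h2 := sq_abs (D n)
      nlinarith [sq_nonneg (|D n| - 1), abs_nonneg (D n), abs_nonneg (X.κ (xs n))]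
    obtain ⟨D0, -, tD0⟩ := j4b_lim l (hκ.abs.const_add 1) k2
    have hU : ∀ᶠ n in (l : Filter ℕ), xs n ∈ X.Ub := hxs (X.j4b_nhds hx)
    have td : Tendsto d l (𝓝 ((D0 - ⟪X.Ξ x Ψ0, X.m x Ψ0⟫_ℝ) / X.r x)) := by
      refine ((tD0.sub tD).div hr hr0.ne').congr' ?_
      filter_upwards [hU] with n hn
      have := (X.r_pos hn).ne'
      simp only [Pi.div_apply]
      field_simp
      ring
    have tZ : Tendsto Z l (𝓝 (-(2 * Y.1 * D0) / Y.2)) := by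
      refine ((((hY1.const_mul 2).mul tD0).neg).div hY2 hY).congr' ?_
      filter_upwards [key, hY2'] with n hn h2
      have := hn.2.1
      simp only [Pi.div_apply]
      field_simp
      have h5 : (Ys n).2 * (2 * (Ys n).1 * D n + (Ys n).2 * Z n) = 0 := by linarith
      have h6 := (mul_eq_zero.1 h5).resolve_left h2
      linarith
    have ts : Tendsto (fun n => P n * |s n|) l (𝓝 0) := by
      have t1 : Tendsto (fun n => 2 * (|Z n| * (P n / μ n) + (X.r x + 1) * (P n ^ 2 / μ n))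
          / X.r (xs n)) l (𝓝 0) := by
        have := (((tZ.abs.mul r1).add (r2.const_mul (X.r x + 1))).const_mul 2).div hr hr0.ne'
        simp only [mul_zero, add_zero, zero_div] at this
        exact this
      refine squeeze_zero' (Eventually.of_forall fun n => ?_) ?_ t1
      · have := (hR.one n).2
        positivity
      · filter_upwards [hm', hU] with n hm hu
        have h1 := hm.2.2.2.2.2
        have h2 := X.r_pos hu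
        have h3 : 0 < μ n := by linarith [(hR.one n).1]
        have h4 : 0 < P n := by linarith [(hR.one n).2]
        rw [← hZ, abs_mul, abs_of_pos (mul_pos h3 h2)] at h1
        rw [le_div_iff₀ h2]
        have e : 2 * (|Z n| * (P n / μ n) + (X.r x + 1) * (P n ^ 2 / μ n))
            = (2 * (|Z n| + (X.r x + 1) * P n) * P n) / μ n := by
          field_simp
        rw [e, le_div_iff₀ h3]
        nlinarith
    refine ⟨(D0 - ⟪X.Ξ x Ψ0, X.m x Ψ0⟫_ℝ) / X.r x, ?_, ?_⟩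
    · have t1 : Tendsto (fun n => du b (xs n) - C0 - P n * |s n|) l (𝓝 (du b x - C0)) := by
        simpa using (hdb.sub_const C0).sub ts
      refine le_of_tendsto_of_tendsto t1 td ?_
      filter_upwards [hj] with n hn
      have := (abs_le.1 (hc n hn.2.1).2.1).1
      linarith
    · have e : X.r x * ((D0 - ⟪X.Ξ x Ψ0, X.m x Ψ0⟫_ℝ) / X.r x) + ⟪X.Ξ x Ψ0, X.m x Ψ0⟫_ℝ = D0 := by
        field_simp
        ring
      rw [e]
      exact le_of_tendsto ((tD0.pow 2).add hκ) k1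

theorem j4b_per {g : ℝ → ℝ} (hg : Continuous g) (hp : Function.Periodic g (2 * π)) :
    ∃ R : ℝ, 0 < R ∧ ∀ Ψ, |g Ψ| ≤ R := by
  obtain ⟨R, hR, h⟩ := (hp.isBounded_of_continuous (by positivity) hg).exists_pos_norm_le
  exact ⟨R, hR, fun Ψ => h _ (mem_range_self Ψ)⟩

theorem j4b_unif {x : P2} (hx : x ∈ X.Dc) : ∃ α R : ℝ, 0 < α ∧ 0 < R ∧ ∀ Ψ,
    α ≤ ‖X.an x Ψ‖ ∧ ‖X.an x Ψ‖ ≤ R ∧ |⟪X.an x Ψ, X.Ξ x Ψ⟫_ℝ| ≤ R ∧
      |⟪X.Ξ x Ψ, X.m x Ψ⟫_ℝ| ≤ R := by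
  have hxU : x ∈ X.Ub := mem_of_mem_nhds (X.j4b_nhds hx)
  have hc : Continuous fun Ψ : ℝ => (X.V x Ψ, X.Ξ x Ψ, X.m x Ψ, X.an x Ψ) :=
    continuous_iff_continuousAt.2 fun Ψ =>
      ContinuousAt.comp (f := fun Ψ : ℝ => (x, Ψ)) (X.j4b_cont hx Ψ) (by fun_prop)
  have cΞ : Continuous (X.Ξ x) := hc.snd.fst
  have cm : Continuous (X.m x) := hc.snd.snd.fst
  have ca : Continuous (X.an x) := hc.snd.snd.snd
  have pΞ : ∀ Ψ, X.Ξ x (Ψ + 2 * π) = X.Ξ x Ψ := fun Ψ => by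
    simp only [Fr.Ξ, Xi, cos_add_two_pi, sin_add_two_pi]
  have pm : ∀ Ψ, X.m x (Ψ + 2 * π) = X.m x Ψ := fun Ψ => by
    simp only [Fr.m, cos_add_two_pi, sin_add_two_pi]
  have pa : ∀ Ψ, X.an x (Ψ + 2 * π) = X.an x Ψ := fun Ψ => by
    simp only [Fr.an, Fr.V, Vv, cos_add_two_pi, sin_add_two_pi]
  have h0 : ∀ Ψ, 0 < ‖X.an x Ψ‖ := fun Ψ => by
    have hG := X.gram_pos hxU Ψ
    have hd : gram2 (du X.f x) (X.V x Ψ) ≠ 0 := by
      intro h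
      have := gram3_le (du X.f x) (X.V x Ψ) (du (du X.f) x)
      rw [h, zero_mul] at this
      exact absurd hG (not_lt.2 this)
    rw [gram3_eq hd] at hG
    refine norm_pos_iff.2 fun h => ?_
    have h' : perp (du X.f x) (X.V x Ψ) (du (du X.f) x) = 0 := h
    rw [h'] at hG
    simp at hG
  obtain ⟨R1, p1, h1⟩ := j4b_per (g := fun Ψ => ‖X.an x Ψ‖⁻¹)
    (ca.norm.inv₀ fun Ψ => (h0 Ψ).ne') (fun Ψ => by simp only [pa])
  obtain ⟨R2, p2, h2⟩ := j4b_per (g := fun Ψ => ‖X.an x Ψ‖) ca.norm (fun Ψ => by simp only [pa])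
  obtain ⟨R3, p3, h3⟩ := j4b_per (g := fun Ψ => ⟪X.an x Ψ, X.Ξ x Ψ⟫_ℝ) (ca.inner cΞ)
    (fun Ψ => by simp only [pa, pΞ])
  obtain ⟨R4, p4, h4⟩ := j4b_per (g := fun Ψ => ⟪X.Ξ x Ψ, X.m x Ψ⟫_ℝ) (cΞ.inner cm)
    (fun Ψ => by simp only [pm, pΞ])
  refine ⟨R1⁻¹, R2 + R3 + R4, by positivity, by positivity, fun Ψ => ⟨?_, ?_, ?_, ?_⟩⟩
  · exact inv_le_of_inv_le₀ (h0 Ψ) ((le_abs_self _).trans (h1 Ψ))
  · linarith [(le_abs_self _).trans (h2 Ψ)]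
  · linarith [h3 Ψ]
  · linarith [h4 Ψ]

theorem j4b_num {r μ P s d D Z D0 M0 R C0 β : ℝ} (hr : 0 < r) (hμ : 1 ≤ μ) (hP : 1 ≤ P)
    (hM0 : 0 < M0) (hΛ : C0 + 1 + (D0 + R + 1) / r ≤ β) (hd : |d - β| ≤ C0 + P * |s|)
    (w4 : |D - r * d| < R + 1) (w5 : P ^ 2 / μ < r / (2 * (M0 * (1 + D0 ^ 2) + (r + 1))))
    (h1 : |μ * r * s| / 2 - (r + 1) * P ≤ |Z|) : D0 ≤ |D| ∨ M0 * (1 + D ^ 2) ≤ |Z| := by
  by_cases hD : D0 ≤ |D|
  · exact Or.inl hD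
  right
  have hD' := not_le.1 hD
  have h3 : 0 < μ := by linarith
  have hs : 1 < P * |s| := by
    by_contra hh
    have h1 := (abs_le.1 hd).1
    have h2 : (D0 + R + 1) / r ≤ d := by linarith [not_lt.1 hh]
    rw [div_le_iff₀ hr] at h2
    have h5 := (abs_lt.1 w4).1
    have h6 := le_abs_self D
    linarith
  rw [abs_mul, abs_of_pos (mul_pos h3 hr)] at h1
  rw [div_lt_div_iff₀ h3 (by positivity)] at w5
  have h7 : D ^ 2 ≤ D0 ^ 2 := by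
    rw [← sq_abs]
    exact pow_le_pow_left₀ (abs_nonneg _) hD'.le 2
  have h8 : M0 * (1 + D ^ 2) ≤ M0 * (1 + D0 ^ 2) :=
    mul_le_mul_of_nonneg_left (by linarith) hM0.le
  refine h8.trans (le_trans ?_ h1)
  have hM1 : 0 < M0 * (1 + D0 ^ 2) := by positivity
  generalize M0 * (1 + D0 ^ 2) = T at *
  have h9 : r * μ ≤ r * μ * (P * |s|) := le_mul_of_one_le_right (by positivity) hs.le
  have h10 : P * (P * (2 * (T + (r + 1)))) ≤ P * (μ * r * |s|) := by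
    nlinarith
  have h11 := le_of_mul_le_mul_left h10 (by linarith)
  nlinarith

theorem far_point {x : P2} (hx : x ∈ X.Dc) {Y Z : P2} (hY : Y.2 ≠ 0) (hZ : Z.2 ≠ 0) (C0 : ℝ) :
    ∃ Λ : ℝ, ∀ (L : ℝ) (b : P2 → ℝ), Λ ≤ du b x → ∀ μ P : ℕ → ℝ, Rate μ P →
      ∀ f' : ℕ → P2 → R4,
      (∀ᶠ n in atTop, X.Jet L C0 b (f' n) x (μ n) (P n) ∧ Gs (f' n) x = X.κ x) →
      ∀ᶠ n in atTop, Q2 (II (f' n) x Y Y) (II (f' n) x Z Z) (II (f' n) x (1, 0) (1, 0)) ∧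
        Q3' (II (f' n) x Y Y) (II (f' n) x Z Z) (II (f' n) x Z Y) := by
  have hxU : x ∈ X.Ub := mem_of_mem_nhds (X.j4b_nhds hx)
  have hr0 := X.r_pos hxU
  obtain ⟨α, R, hα, hR0, hu⟩ := X.j4b_unif hx
  obtain ⟨D0, M0, hD0, hM0, hth⟩ := threshold hY hZ (α0 := α / 2) (R := R + 1 + |X.κ x|)
    (by positivity)
  refine ⟨C0 + 1 + (D0 + R + 1) / X.r x, fun L b hΛ μ P hR f' hj => ?_⟩
  rw [Filter.Eventually, mem_iff_ultrafilter]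
  intro l hl
  replace hj := hj.filter_mono hl
  obtain ⟨r1, r2⟩ := j4b_rate hR hl
  obtain ⟨Ψ, d, s, hc⟩ := X.j4b_choose (L := L) (C0 := C0) (b := b) f' (fun _ => x) μ P
  obtain ⟨Ψ0, -, hΨ⟩ := j4b_lim l (r1.const_add (X.w x * L + |b x|))
    (hj.mono fun n hn => (hc n hn.1).1)
  obtain ⟨m', hm', ta, tab, tD⟩ := X.j4b_frame hR hl hx (xs := fun _ => x) tendsto_const_nhds
    (d := d) (s := s) hΨ (hj.mono fun n hn => (hc n hn.1).2.2)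
  obtain ⟨u1, u2, u3, u4⟩ := hu Ψ0
  have v1 := ta.norm.eventually (lt_mem_nhds (show α / 2 < ‖X.an x Ψ0‖ by linarith))
  have v2 := ta.norm.eventually (gt_mem_nhds (show ‖X.an x Ψ0‖ < R + 1 by linarith))
  have v3 := tab.abs.eventually
    (gt_mem_nhds (show |⟪X.an x Ψ0, X.Ξ x Ψ0⟫_ℝ| < R + 1 by linarith))
  have v4 := tD.abs.eventually
    (gt_mem_nhds (show |⟪X.Ξ x Ψ0, X.m x Ψ0⟫_ℝ| < R + 1 by linarith))
  have hM : 0 < M0 * (1 + D0 ^ 2) + (X.r x + 1) := by positivity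
  have v5 := r2.eventually
    (gt_mem_nhds (show 0 < X.r x / (2 * (M0 * (1 + D0 ^ 2) + (X.r x + 1))) by positivity))
  show ∀ᶠ n in (l : Filter ℕ), _
  filter_upwards [hj, hm', v1, v2, v3, v4, v5] with n hn hm w1 w2 w3 w4 w5
  obtain ⟨hJ, hG⟩ := hn
  obtain ⟨e0, -, e2, e3, e4, e5, e6⟩ := j4b_alg hJ.1 hm.2.1 hm.2.2.1 hm.2.2.2.1 hm.2.2.2.2.1
  rw [II_eq_qf hJ.1 Y Y, II_eq_qf hJ.1 Z Z, II_eq_qf hJ.1 Z Y, II_uu hJ.1]
  have hκ := abs_nonneg (X.κ x)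
  refine hth _ _ _ _ _ (m' n) e0 hm.1 e2 hm.2.1 hm.2.2.1 (inner_perp_left e0.ne' _)
    (inner_perp_right e0.ne' _) (inner_perp_left e0.ne' _) (inner_perp_right e0.ne' _)
    (inner_perp_left e0.ne' _) (inner_perp_right e0.ne' _) w1.le (by linarith)
    (by rw [e5]; linarith) (by rw [e6, hG]; linarith) ?_
  rw [e3, e4]
  exact j4b_num hr0 (hR.one n).1 (hR.one n).2 hM0 hΛ (hc n hJ).2.1 w4 w5 hm.2.2.2.2.2
end Fr

end Vale.Agent.P205
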