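import Vale.Agent.P205.J2
import Vale.Agent.P205.J4
import Vale.Agent.P205.Exact

/-! P205, J5: the family of exact solutions on the surface (BLUEPRINT, module J). -/

open scoped ContDiff InnerProductSpace Topology Manifold
open Set Filter Real

noncomputable section
namespace Vale.Agent.P205

variable {M : Type*} [TopologicalSpace M] [ChartedSpace E2 M] [IsManifold 𝓘(ℝ, E2) ∞ M]
  [T2Space M] [CompactSpace M]

variable {F : M → R4} {G : ℕ → M → R4} {a : M → ℝ} {μ P : ℕ → ℝ}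

theorem j5_zero {ι : Type*} {l : Filter ι} {u : ι → R4}
    (h : ∀ ε : ℝ, 0 < ε → ∀ᶠ i in l, ‖u i‖ ≤ ε) : Tendsto u l (𝓝 0) := by
  rw [Metric.tendsto_nhds]
  intro ε hε
  filter_upwards [h (ε / 2) (by positivity)] with i hi
  rw [dist_zero_right]
  linarith

/-- convergence of two-jets in the plane -/
theorem j5_jets {ι : Type*} {l : Filter ι} {f : P2 → R4} {y : ι → P2 → R4} {xs : ι → P2} {x : P2}
    (hf : ContDiffAt ℝ ∞ f x) (hxs : Tendsto xs l (𝓝 x))
    (hg : ∀ᶠ i in l, ContDiffAt ℝ ∞ f (xs i) ∧ ContDiffAt ℝ ∞ (y i) (xs i))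
    (h : ∀ ε : ℝ, 0 < ε → ∀ᶠ i in l, ∀ j ≤ 2, ‖iteratedFDeriv ℝ j (y i) (xs i)‖ ≤ ε) :
    Tendsto (fun i => du (fun z => f z + y i z) (xs i)) l (𝓝 (du f x)) ∧
    Tendsto (fun i => dv (fun z => f z + y i z) (xs i)) l (𝓝 (dv f x)) ∧
    Tendsto (fun i => du (du fun z => f z + y i z) (xs i)) l (𝓝 (du (du f) x)) ∧
    Tendsto (fun i => du (dv fun z => f z + y i z) (xs i)) l (𝓝 (du (dv f) x)) ∧
    Tendsto (fun i => dv (dv fun z => f z + y i z) (xs i)) l (𝓝 (dv (dv f) x)) := by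
  have key : ∀ {k : P2 → R4} {u v : ι → R4}, ContDiffAt ℝ ∞ k x →
      (∀ᶠ i in l, u i = k (xs i) + v i) → (∀ ε : ℝ, 0 < ε → ∀ᶠ i in l, ‖v i‖ ≤ ε) →
      Tendsto u l (𝓝 (k x)) := by
    intro k u v hk hu hv
    have t := (hk.continuousAt.tendsto.comp hxs).add (j5_zero hv)
    rw [add_zero] at t
    exact t.congr' (hu.mono fun i hi => hi.symm)
  refine ⟨key (v := fun i => du (y i) (xs i)) (contDiffAt_du hf) ?_ fun ε hε => ?_,
    key (v := fun i => dv (y i) (xs i)) (contDiffAt_dv hf) ?_ fun ε hε => ?_,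
    key (v := fun i => du (du (y i)) (xs i)) (contDiffAt_du (contDiffAt_du hf)) ?_ fun ε hε => ?_,
    key (v := fun i => du (dv (y i)) (xs i)) (contDiffAt_du (contDiffAt_dv hf)) ?_ fun ε hε => ?_,
    key (v := fun i => dv (dv (y i)) (xs i)) (contDiffAt_dv (contDiffAt_dv hf)) ?_ fun ε hε => ?_⟩
  · exact hg.mono fun i hi => (Fr.j4_add hi.1 hi.2).1.eq_of_nhds
  · exact (h ε hε).mono fun i hi => (norm_du_le _ _).trans (hi 1 one_le_two)
  · exact hg.mono fun i hi => (Fr.j4_add hi.1 hi.2).2.eq_of_nhds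
  · exact (h ε hε).mono fun i hi => (norm_dv_le _ _).trans (hi 1 one_le_two)
  · exact hg.mono fun i hi => (surf_du_ev (Fr.j4_add hi.1 hi.2).1).eq_of_nhds.trans
      (Fr.j4_add (contDiffAt_du hi.1) (contDiffAt_du hi.2)).1.eq_of_nhds
  · filter_upwards [h ε hε, hg] with i hi hs
    exact (norm_du_le _ _).trans ((norm_iter_du_le hs.2 1).trans (hi 2 le_rfl))
  · exact hg.mono fun i hi => (surf_du_ev (Fr.j4_add hi.1 hi.2).2).eq_of_nhds.trans
      (Fr.j4_add (contDiffAt_dv hi.1) (contDiffAt_dv hi.2)).1.eq_of_nhds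
  · filter_upwards [h ε hε, hg] with i hi hs
    exact (norm_du_le _ _).trans ((norm_iter_dv_le hs.2 1).trans (hi 2 le_rfl))
  · exact hg.mono fun i hi => (surf_dv_ev (Fr.j4_add hi.1 hi.2).2).eq_of_nhds.trans
      (Fr.j4_add (contDiffAt_dv hi.1) (contDiffAt_dv hi.2)).2.eq_of_nhds
  · filter_upwards [h ε hε, hg] with i hi hs
    exact (norm_dv_le _ _).trans ((norm_iter_dv_le hs.2 1).trans (hi 2 le_rfl))

omit [T2Space M] [CompactSpace M] in
theorem j5_pts {ι : Type*} {l : Filter ι} {ps : ι → M} {p : M} (hp : Tendsto ps l (𝓝 p))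
    (c : Ch M) (hc : p ∈ c.e.source) : Tendsto (fun i => c.e (ps i)) l (𝓝 (c.e p)) ∧
      ∀ᶠ i in l, ps i ∈ c.e.source :=
  ⟨(c.e.continuousAt hc).tendsto.comp hp, hp (c.e.open_source.mem_nhds hc)⟩

omit [T2Space M] [CompactSpace M] in
/-- convergence of the two-jets in a chart, along any filter -/
theorem j5_conv (h : Near F G a μ) (hF : Sm F) {ι : Type*} {l : Filter ι} {N : ι → ℕ}
    (hN : Tendsto N l atTop) (hG : ∀ᶠ i in l, Sm (G (N i))) {ps : ι → M} {p : M}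
    (hp : Tendsto ps l (𝓝 p)) (ha : ∀ᶠ i in l, a (ps i) ≤ (μ (N i) ^ 2)⁻¹) (c : Ch M)
    (hc : p ∈ c.e.source) :
    Tendsto (fun i => du (loc c (G (N i))) (c.e (ps i))) l (𝓝 (du (loc c F) (c.e p))) ∧
    Tendsto (fun i => dv (loc c (G (N i))) (c.e (ps i))) l (𝓝 (dv (loc c F) (c.e p))) ∧
    Tendsto (fun i => du (du (loc c (G (N i)))) (c.e (ps i))) l
      (𝓝 (du (du (loc c F)) (c.e p))) ∧
    Tendsto (fun i => du (dv (loc c (G (N i)))) (c.e (ps i))) l
      (𝓝 (du (dv (loc c F)) (c.e p))) ∧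
    Tendsto (fun i => dv (dv (loc c (G (N i)))) (c.e (ps i))) l
      (𝓝 (dv (dv (loc c F)) (c.e p))) := by
  obtain ⟨hx, hs⟩ := j5_pts hp c hc
  obtain ⟨K, hK, hxK, hKc⟩ := exists_compact_subset c.e.open_target (c.e.map_source hc)
  have hK' : ∀ᶠ i in l, c.e (ps i) ∈ K := hx (mem_interior_iff_mem_nhds.1 hxK)
  have e : ∀ n, loc c (G n) = fun z => loc c F z + loc c (fun q => G n q - F q) z := fun n => by
    funext z
    simp only [loc, add_sub_cancel]
  simp only [e]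
  refine j5_jets (hF.locAt c (c.e.map_source hc)) hx ?_ fun ε hε => ?_
  · filter_upwards [hs, hG] with i h1 h2
    exact ⟨hF.locAt c (c.e.map_source h1), (h2.sub hF).locAt c (c.e.map_source h1)⟩
  · filter_upwards [hN.eventually (h c K hK hKc ε hε), hK', ha, hs] with i h1 h2 h3 h4
    exact h1 _ h2 (by rw [c.e.left_inv h4]; exact h3)

theorem j5_gram {ι : Type*} {l : Filter ι} {u v w : ι → R4} {u0 v0 w0 : R4}
    (hu : Tendsto u l (𝓝 u0)) (hv : Tendsto v l (𝓝 v0)) (hw : Tendsto w l (𝓝 w0)) :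
    Tendsto (fun i => gram3 (u i) (v i) (w i)) l (𝓝 (gram3 u0 v0 w0)) := by
  have := (contDiff_gram3.continuous.tendsto (u0, v0, w0)).comp
    (hu.prodMk_nhds (hv.prodMk_nhds hw))
  simpa only [Function.comp_def] using this

theorem j5_perp {ι : Type*} {l : Filter ι} {u v w : ι → R4} {u0 v0 w0 : R4}
    (h : gram2 u0 v0 ≠ 0) (hu : Tendsto u l (𝓝 u0)) (hv : Tendsto v l (𝓝 v0))
    (hw : Tendsto w l (𝓝 w0)) :
    Tendsto (fun i => perp (u i) (v i) (w i)) l (𝓝 (perp u0 v0 w0)) := by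
  have := (contDiffAt_perp h w0).continuousAt.tendsto.comp (hu.prodMk_nhds (hv.prodMk_nhds hw))
  simpa only [Function.comp_def] using this

/-- convergence of the intrinsic data where the amplitude is tiny -/
theorem Near.conv (h : Near F G a μ) (hF : Sm F) {l : Filter ℕ} (hl : l ≤ atTop)
    (hG : ∀ᶠ n in l, Sm (G n)) {ps : ℕ → M} {p : M} (hp : Tendsto ps l (𝓝 p))
    (ha : ∀ᶠ n in l, a (ps n) ≤ (μ n ^ 2)⁻¹) (hi : Function.Injective (dM F p)) (c c' : Ch M)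
    (hc : p ∈ c.e.source) (hc' : p ∈ c'.e.source) :
    Tendsto (fun n => IIm (G n) c c' (ps n)) l (𝓝 (IIm F c c' p)) ∧
      (∀ (ξs : ℕ → R4) (ξ : R4), Tendsto ξs l (𝓝 ξ) →
        Tendsto (fun n => nrmM (G n) c (ps n) (ξs n)) l (𝓝 (nrmM F c p ξ))) ∧
      Tendsto (fun n => Gram (loc c (G n)) (c.e (ps n))) l (𝓝 (Gram (loc c F) (c.e p))) ∧
      Tendsto (fun n => du (du (loc c (G n))) (c.e (ps n))) l (𝓝 (du (du (loc c F)) (c.e p))) := by
  obtain ⟨t1, t2, t3, t4, t5⟩ := j5_conv h hF (N := fun n => n) hl hG hp ha c hc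
  have hd : gram2 (du (loc c F) (c.e p)) (dv (loc c F) (c.e p)) ≠ 0 :=
    ((imm_iff hF c hc).1 hi).ne'
  obtain ⟨-, hs⟩ := j5_pts hp c hc
  refine ⟨?_, fun ξs ξ hξ => j5_perp hd t1 t2 hξ, j5_gram t1 t2 t3, t3⟩
  have ht : Tendsto (fun n => tr c' c (ps n) (1, 0)) l (𝓝 (tr c' c p (1, 0))) := by
    have h1 := ((continuousOn_tr c' c).continuousAt
      ((c'.e.open_source.inter c.e.open_source).mem_nhds ⟨hc', hc⟩)).tendsto.comp hp
    exact ((ContinuousLinearMap.apply ℝ P2 ((1, 0) : P2)).continuous.tendsto _).comp h1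
  have hY1 := (continuous_fst.tendsto _).comp ht
  have hY2 := (continuous_snd.tendsto _).comp ht
  have t6 := j5_perp hd t1 t2 ((((hY1.const_mul 1).smul t3).add
    (((hY2.const_mul 1).add (hY1.const_mul 0)).smul t4)).add ((hY2.const_mul 0).smul t5))
  have e0 : IIm F c c' p = _ :=
    congrArg (nrm (loc c F) (c.e p)) (dd_eq (hF.locAt c (c.e.map_source hc)) _ _)
  rw [e0]
  refine t6.congr' ?_
  filter_upwards [hs, hG] with n h1 h2
  exact (congrArg (nrm (loc c (G n)) (c.e (ps n)))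
    (dd_eq (h2.locAt c (c.e.map_source h1)) (1, 0) (tr c' c (ps n) (1, 0)))).symm

omit [T2Space M] [CompactSpace M] in
theorem j5_near_gram (hn : Near F G a μ) (hF : Sm F) (hG : ∀ᶠ n in atTop, Sm (G n)) (d : Ch M)
    {p : M} (hp : p ∈ d.e.source) (h0 : 0 < Gram (loc d F) (d.e p)) :
    ∃ (W : Set M) (c0 : ℝ), W ∈ 𝓝 p ∧ W ⊆ d.e.source ∧ 0 < c0 ∧ ∀ᶠ n in atTop, ∀ q ∈ W,
      a q = 0 → c0 ≤ Gram (loc d (G n)) (d.e q) := by
  have hN : Tendsto (fun z : ℕ × M => z.1) ((atTop ×ˢ 𝓝 p) ⊓ 𝓟 {z | a z.2 = 0}) atTop :=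
    tendsto_fst.mono_left inf_le_left
  obtain ⟨t1, t2, t3, -⟩ := j5_conv hn hF hN (hN.eventually hG) (ps := fun z => z.2)
    (tendsto_snd.mono_left inf_le_left)
    (eventually_inf_principal.2 (Eventually.of_forall fun z hz => by
      have : a z.2 = 0 := hz
      rw [this]
      positivity)) d hp
  have h1 := (j5_gram t1 t2 t3).eventually (lt_mem_nhds (half_lt_self h0))
  rw [eventually_inf_principal, eventually_prod_iff] at h1
  obtain ⟨pa, hpa, pb, hpb, h⟩ := h1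
  refine ⟨{q | pb q} ∩ d.e.source, Gram (loc d F) (d.e p) / 2,
    inter_mem hpb (d.e.open_source.mem_nhds hp), inter_subset_right, half_pos h0, ?_⟩
  exact hpa.mono fun n h1 q hq hz => (h h1 hq.1 hz).le

/-- local uniform nondegeneracy -/
theorem nd_of {X : Fr} {c : Ch M} {D : Set M} (hX : Fits X c F a D) (cD : IsCompact D)
    (hD : D ⊆ c.e.source) (ha : Amp D a) (hF : Sm F) (hii : IINe F)
    (hfr : ∀ p ∈ frontier D, IIm F c c p ≠ 0) (hR : Rate μ P) (hG : ∀ᶠ n in atTop, Sm (G n))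
    (hn : Near F G a μ) {L C0 : ℝ} {b : P2 → ℝ}
    (hj : ∀ᶠ n in atTop, ∀ x ∈ X.Dc, X.Jet L C0 b (loc c (G n)) x (μ n) (P n)) (p : M) :
    ∃ (d : Ch M) (W : Set M) (c0 : ℝ), W ∈ 𝓝 p ∧ W ⊆ d.e.source ∧ 0 < c0 ∧
      ∀ᶠ n in atTop, ∀ q ∈ W, c0 ≤ Gram (loc d (G n)) (d.e q) := by
  obtain ⟨c1, δ0, hc1, hδ, hJ⟩ := X.jet_gram
  have hin : ∀ᶠ n in atTop, ∀ q ∈ D, c1 ≤ Gram (loc c (G n)) (c.e q) := by
    filter_upwards [hj, (Fr.j4b_rate hR le_rfl).1.eventually (gt_mem_nhds hδ)] with n h1 h2 q hq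
    have hx : c.e q ∈ X.Dc := by rw [hX.hD]; exact mem_image_of_mem _ hq
    exact hJ L C0 b _ _ hx _ _ h2.le (h1 _ hx)
  by_cases h1 : p ∈ interior D
  · exact ⟨c, D, c1, mem_interior_iff_mem_nhds.1 h1, hD, hc1, hin⟩
  by_cases h2 : p ∈ D
  · have hp := hD h2
    have hd := (imm_iff hF c hp).1 (hii.imm hF p)
    have h3 := hfr p ⟨subset_closure h2, h1⟩
    rw [IIm, tr_self c hp] at h3
    have h0 : 0 < Gram (loc c F) (c.e p) := by
      rw [Gram_eq (hF.locAt c (c.e.map_source hp)) hd.ne']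
      have := norm_pos_iff.2 h3
      positivity
    obtain ⟨W, c0, hW, hWc, hc0, h⟩ := j5_near_gram hn hF hG c hp h0
    refine ⟨c, W, min c0 c1, hW, hWc, lt_min hc0 hc1, ?_⟩
    filter_upwards [h, hin] with n k1 k2 q hq
    by_cases h4 : q ∈ D
    · exact (min_le_right _ _).trans (k2 q h4)
    · exact (min_le_left _ _).trans (k1 q hq (ha.zero q fun h5 => h4 (interior_subset h5)))
  · obtain ⟨d, hp, h0⟩ := hii p
    obtain ⟨W, c0, hW, hWc, hc0, h⟩ := j5_near_gram hn hF hG d hp h0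
    refine ⟨d, W ∩ Dᶜ, c0, inter_mem hW (cD.isClosed.isOpen_compl.mem_nhds h2),
      inter_subset_left.trans hWc, hc0, ?_⟩
    filter_upwards [h] with n k1 q hq
    exact k1 q hq.1 (ha.zero q fun h5 => hq.2 (interior_subset h5))

theorem iine_of_nd
    (h : ∀ p, ∃ (d : Ch M) (W : Set M) (c0 : ℝ), W ∈ 𝓝 p ∧ W ⊆ d.e.source ∧ 0 < c0 ∧
      ∀ᶠ n in atTop, ∀ q ∈ W, c0 ≤ Gram (loc d (G n)) (d.e q)) : ∀ᶠ n in atTop, IINe (G n) := by
  choose d W c0 hW hd hc h using h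
  obtain ⟨t, -, ht⟩ := (isCompact_univ (X := M)).elim_nhds_subcover W fun p _ => hW p
  filter_upwards [(eventually_all_finset t).2 fun p _ => h p] with n hn q
  obtain ⟨p, hp, hq⟩ := mem_iUnion₂.1 (ht (mem_univ q))
  exact ⟨d p, hd p hq, (hc p).trans_le (hn p hp q hq)⟩

omit [IsManifold 𝓘(ℝ, E2) ∞ M] [T2Space M] [CompactSpace M] in
theorem j5_amp {D : Set M} (ha : Amp D a) : Sm a := by
  obtain ⟨ρ, h1, -, h2⟩ := ha.root 1 le_rfl
  have : ρ = a := funext fun p => by rw [← h2, pow_one]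
  rwa [← this]

omit [CompactSpace M] in
theorem j5_LB (c : Ch M) (hF : Sm F) (hμ : ∀ n, 1 ≤ μ n) {y : ℕ → P2 → R4} {K : Set P2}
    (hK : IsCompact K) (hKc : K ⊆ c.e.target)
    (hy : ∀ n, ContDiff ℝ ∞ (y n) ∧ ∀ x, x ∉ K → y n x = 0)
    (hb : ∀ m : ℕ, ∃ C : ℝ, ∀ n x, ‖iteratedFDeriv ℝ m (y n) x‖ ≤ C * μ n ^ (m + 1))
    (d : Ch M) (K' : Set P2) (hK' : IsCompact K') (hd : K' ⊆ d.e.target) (m : ℕ) :
    ∃ C : ℝ, ∀ n, LB d K' m (fun p => F p + ext c (y n) p) (C * μ n ^ (m + 1)) := by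
  obtain ⟨σ, hσ, h1⟩ := exists_LB hF d hK' hd m
  obtain ⟨C1, hC1, h2⟩ := ext_bound (V := R4) c d hK hKc hK' hd m
  choose C hC using hb
  have hS : ∀ j ≤ m, |C j| ≤ ∑ i ∈ Finset.range (m + 1), |C i| := fun j hj =>
    Finset.single_le_sum (f := fun i => |C i|) (fun i _ => abs_nonneg _)
      (Finset.mem_range.2 (Nat.lt_succ_of_le hj))
  have hS0 : 0 ≤ ∑ i ∈ Finset.range (m + 1), |C i| := Finset.sum_nonneg fun i _ => abs_nonneg _
  generalize ∑ i ∈ Finset.range (m + 1), |C i| = S at hS hS0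
  refine ⟨σ + C1 * S, fun n => ?_⟩
  have h0 : 0 ≤ μ n := zero_le_one.trans (hμ n)
  have h3 : LB d K' m (ext c (y n)) (C1 * (S * μ n ^ (m + 1))) := fun j hj x hx =>
    h2 (y n) (hy n).1.contDiffOn (hy n).2 x hx _ (by positivity) (fun _ i hi =>
      (hC i n _).trans (mul_le_mul ((le_abs_self _).trans (hS i hi))
        (pow_le_pow_right₀ (hμ n) (by omega)) (by positivity) hS0)) j hj
  intro j hj x hx
  refine (LB.add hF (sm_ext c hK hKc (hy n).2 (hy n).1.contDiffOn) hd h1 h3 j hj x hx).trans ?_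
  have h4 : σ ≤ σ * μ n ^ (m + 1) := le_mul_of_one_le_right hσ (one_le_pow₀ (hμ n))
  nlinarith

omit [CompactSpace M] in
theorem j5_near (c : Ch M) {y : ℕ → P2 → R4} {ε : ℕ → ℝ} {K : Set P2}
    (hK : IsCompact K) (hKc : K ⊆ c.e.target) (hε : Tendsto ε atTop (𝓝 0))
    (hy : ∀ n, ContDiff ℝ ∞ (y n) ∧ ∀ x, x ∉ K → y n x = 0)
    (hb : ∀ n, ∀ x ∈ c.e.target, loc c a x ≤ (μ n ^ 2)⁻¹ →
      ∀ j ≤ 2, ‖iteratedFDeriv ℝ j (y n) x‖ ≤ ε n) :
    Near F (fun n p => F p + ext c (y n) p) a μ := by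
  intro d K' hK' hd η hη
  obtain ⟨C1, hC1, h2⟩ := ext_bound (V := R4) c d hK hKc hK' hd 2
  have hp : 0 < η / (C1 + 1) := by positivity
  filter_upwards [hε.eventually (gt_mem_nhds hp)] with n hn x hx hax j hj
  have e : (fun p => F p + ext c (y n) p - F p) = ext c (y n) := by
    funext p
    rw [add_sub_cancel_left]
  rw [e]
  refine (h2 (y n) (hy n).1.contDiffOn (hy n).2 x hx _ hp.le (fun hs i hi =>
    (hb n _ (c.e.map_source hs) (by rw [loc, c.e.left_inv hs]; exact hax) i hi).trans hn.le)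
      j hj).trans ?_
  rw [← mul_div_assoc, div_le_iff₀ (by positivity)]
  nlinarith

omit [CompactSpace M] in
theorem j5_small (c : Ch M) (hF : Sm F) {g : Ten M} (hg : Good g) (hp : PosD g) {K : Set P2}
    (hK : IsCompact K) (hKc : K ⊆ c.e.target) (ha : ∀ p, p ∉ c.e.symm '' K → a p = 0) :
    ∃ C : ℝ, 0 < C ∧ ∀ (y : P2 → R4) (σ : ℝ), 0 ≤ σ → ContDiff ℝ ∞ y → (∀ x, x ∉ K → y x = 0) →
      (∀ x ∈ K, ErrAt (loc c F) (fun x => loc c F x + y x) (loc c a x ^ 2) x σ) →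
      Small g (pull (fun p => F p + ext c y p) - (pull F + prim a (vco c))) (C * σ) := by
  obtain ⟨C, hC0, hC⟩ := small_of_chart hg hp c hK hKc
  refine ⟨C, hC0, fun y σ h0 hy h4 he p => ?_⟩
  have hY := sm_ext c hK hKc h4 hy.contDiffOn
  by_cases h : p ∈ c.e.symm '' K
  · obtain ⟨x, hx, rfl⟩ := h
    have e2 : (fun x => loc c F x + y x) =ᶠ[𝓝 x] loc c (fun p => F p + ext c y p) := by
      filter_upwards [loc_ext c y (hKc hx)] with z h2
      rw [← h2]
      rfl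
    obtain ⟨b1, b2, -⟩ := jets_congr e2
    obtain ⟨c1, c2, c3⟩ := he x hx
    simp only [fE, fF, fG, b1, b2] at c1 c2 c3
    obtain ⟨d1, d2, d3⟩ := cEFG_pull c hF (hKc hx)
    obtain ⟨f1, f2, f3⟩ := cEFG_pull c (hF.add hY) (hKc hx)
    have k := cmp_prim_self c a (hKc hx)
    simp only [cE, cF, cG, fE, fF, fG] at d1 d2 d3 f1 f2 f3
    refine hC _ (fun p X Y => ?_) x hx σ ?_ ?_ ?_
    · simp only [Pi.sub_apply, Pi.add_apply, ContinuousLinearMap.sub_apply,
        ContinuousLinearMap.add_apply, symm_pull _ p X Y, symm_prim _ _ p X Y]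
    · simpa only [cE, cmp_sub, cmp_add, k, d1, f1, mul_zero, add_zero] using c1
    · simpa only [cF, cmp_sub, cmp_add, k, d2, f2, zero_mul, mul_zero, add_zero] using c2
    · simpa only [cG, cmp_sub, cmp_add, k, d3, f3, mul_one, sub_sub, loc] using c3
  · have h1 : pull (fun p => F p + ext c y p) p = pull F p := pull_congr
      ((ext_eventually_zero c hK hKc h4 h).mono fun q hq => by simp only [hq, add_zero])
    intro X
    have h3 : 0 ≤ g p X X := by
      rcases eq_or_ne X 0 with rfl | hX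
      · simp
      · exact (hp p X hX).le
    have h5 : (pull (fun p => F p + ext c y p) - (pull F + prim a (vco c)) : Ten M) p X X = 0 := by
      simp only [Pi.sub_apply, Pi.add_apply, ContinuousLinearMap.sub_apply,
        ContinuousLinearMap.add_apply, h1, prim_of_zero (φ := vco c) (ha p h),
        ContinuousLinearMap.zero_apply]
      ring
    rw [h5, abs_zero]
    positivity

theorem j5_rate (hR : Rate μ P) {C : ℝ} (hC : 0 ≤ C) : Rate μ fun n => P n + C := by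
  refine ⟨fun n => ⟨(hR.one n).1, by linarith [(hR.one n).2]⟩, hR.top, ?_⟩
  have t := hR.small.const_mul ((1 + C) ^ 4)
  rw [mul_zero] at t
  refine squeeze_zero (fun n => ?_) (fun n => ?_) t
  · have := (hR.one n).1
    positivity
  · have h1 := (hR.one n).1
    have h2 := (hR.one n).2
    rw [← mul_div_assoc, ← mul_pow]
    exact div_le_div_of_nonneg_right (pow_le_pow_left₀ (by linarith) (by nlinarith) 4)
      (by linarith)

omit [T2Space M] [CompactSpace M] in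
theorem j5_near_add (hn : Near F G a μ) (hF : Sm F) (hG : ∀ n, Sm (G n)) (hμ : Tendsto μ atTop atTop)
    {Y : ℕ → M → R4} (hY : ∀ᶠ n in atTop, Sm (Y n))
    (hb : ∀ (c : Ch M) (K : Set P2), IsCompact K → K ⊆ c.e.target → ∃ C : ℝ, ∀ᶠ n in atTop,
      LB c K 2 (Y n) (C / μ n)) : Near F (fun n => G n + Y n) a μ := by
  intro d K hK hd η hη
  obtain ⟨C, hC⟩ := hb d K hK hd
  have t : Tendsto (fun n => C / μ n) atTop (𝓝 0) := tendsto_const_nhds.div_atTop hμ
  filter_upwards [hn d K hK hd (η / 2) (half_pos hη), hC, hY,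
    t.eventually (gt_mem_nhds (half_pos hη))] with n h1 h2 h3 h4 x hx hax j hj
  have e : (fun p => (G n + Y n) p - F p) = fun p => (G n p - F p) + Y n p := by
    funext p
    rw [Pi.add_apply, add_sub_right_comm]
  rw [e]
  have h5 := LB.add (K := {x}) (m := 2) ((hG n).sub hF) h3 (singleton_subset_iff.2 (hd hx))
    (σ := η / 2) (τ := C / μ n) (fun i hi z hz => by rw [hz]; exact h1 x hx hax i hi)
    (fun i hi z hz => by rw [hz]; exact h2 i hi x hx) j hj x rfl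
  linarith

omit [T2Space M] [CompactSpace M] in
theorem j5_Gs {c : Ch M} {H : M → R4} (hF : Sm F) (hH : Sm H) (hi : Imm H)
    (hp : pull H = pull F + prim a (vco c)) {x : P2} (hx : x ∈ c.e.target) :
    Gs (loc c H) x
      = kap (fE (loc c F)) (fF (loc c F)) (fun y => fG (loc c F) y + loc c a y ^ 2) x := by
  have hd := (imm_iff hH c (c.e.map_target hx)).1 (hi _)
  rw [c.e.right_inv hx] at hd
  rw [Gs_eq (hH.locAt c hx) hd.ne']
  have hO := c.e.open_target.mem_nhds hx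
  refine kap_congr ?_ ?_ ?_
  · filter_upwards [hO] with z hz
    rw [← (cEFG_pull c hH hz).1, ← (cEFG_pull c hF hz).1, hp, cE, cE, cmp_add, cmp_prim_self c a hz]
    simp
  · filter_upwards [hO] with z hz
    rw [← (cEFG_pull c hH hz).2.1, ← (cEFG_pull c hF hz).2.1, hp, cF, cF, cmp_add,
      cmp_prim_self c a hz]
    simp
  · filter_upwards [hO] with z hz
    rw [← (cEFG_pull c hH hz).2.2, ← (cEFG_pull c hF hz).2.2, hp, cG, cG, cmp_add,
      cmp_prim_self c a hz]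
    simp [loc]

theorem exact_large {X : Fr} {c : Ch M} {D : Set M} (hX : Fits X c F a D) (cD : IsCompact D)
    (hD : D ⊆ c.e.source) (ha : Amp D a) (hF : Sm F) (hii : IINe F)
    (hfr : ∀ p ∈ frontier D, IIm F c c p ≠ 0) : ∃ L C0 : ℝ, 0 < L ∧ ∀ b : P2 → ℝ,
      ContDiff ℝ ∞ b → HasCompactSupport b → tsupport b ⊆ X.In → (∀ x ∈ X.Ub, |b x| ≤ X.w x) →
      ∃ (μ P : ℕ → ℝ) (G : ℕ → M → R4), Rate μ P ∧ Near F G a μ ∧
        ∀ᶠ n in atTop, Sm (G n) ∧ IINe (G n) ∧ pull (G n) = pull F + prim a (vco c) ∧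
          ∀ x ∈ X.Dc, X.Jet L C0 b (loc c (G n)) x (μ n) (P n) ∧ Gs (loc c (G n)) x = X.κ x := by
  obtain ⟨L, C0, hL, hlarge⟩ := X.large
  refine ⟨L, C0, hL, fun b hb hbc hbs hbw => ?_⟩
  have hg : Good (pull F + prim a (vco c)) := (good_pull hF).add
    (good_prim c (j5_amp ha) cD hD fun p hp => ha.zero p fun h => hp (interior_subset h))
  have hp : PosD (pull F + prim a (vco c)) := fun p Z hZ => by
    have h1 := posD_pull (hii.imm hF) p Z hZ
    have h2 := prim_nonneg a (vco c) p Z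
    simp only [Pi.add_apply, ContinuousLinearMap.add_apply]
    linarith
  obtain ⟨N0, hex⟩ := exact_family hg hp
  obtain ⟨μ, P, ε, y, K, hK, hKO, hR, hε, hy, hyb, ⟨Ce, he⟩, hJ, ht⟩ :=
    hlarge b hb hbc hbs hbw N0
  rw [hX.hO] at hKO he ht
  rw [hX.hA] at he ht
  rw [hX.hf] at he
  have hDc : X.Dc ⊆ c.e.target := fun x hx => by
    rw [← hX.hO]
    exact X.UO (X.UU (X.DU hx))
  have hS : ∀ n, Sm fun p => F p + ext c (y n) p := fun n =>
    hF.add (sm_ext c hK hKO (hy n).2 (hy n).1.contDiffOn)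
  have hN : Near F (fun n p => F p + ext c (y n) p) a μ := j5_near c hK hKO hε hy ht
  have hJ' : ∀ n, ∀ x ∈ X.Dc, X.Jet L C0 b (loc c fun p => F p + ext c (y n) p) x (μ n) (P n) := by
    intro n x hx
    refine Fr.Jet.congr X (hJ n x hx) ?_
    filter_upwards [loc_ext c (y n) (hDc hx)] with z hz
    rw [hX.hf, ← hz]
    rfl
  obtain ⟨Cs, hCs, hsm⟩ := j5_small (a := a) c hF hg hp (hK.union X.cD) (union_subset hKO hDc)
    fun p hp => ha.zero p fun h => hp ⟨c.e p, Or.inr (by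
      rw [hX.hD]; exact mem_image_of_mem _ (interior_subset h)),
        c.e.left_inv (hD (interior_subset h))⟩
  obtain ⟨Y, hY, hYb⟩ := hex μ (fun n p => F p + ext c (y n) p) (fun n => (hR.one n).1) hR.top hS
    (j5_LB c hF (fun n => (hR.one n).1) hK hKO hy hyb)
    (nd_of hX cD hD ha hF hii hfr hR (Eventually.of_forall hS) hN (Eventually.of_forall hJ'))
    ⟨Cs * |Ce|, fun n => by
      have h1 : 0 < μ n ^ N0 := pow_pos (zero_lt_one.trans_le (hR.one n).1) _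
      have h2 : Ce / μ n ^ N0 ≤ |Ce| / μ n ^ N0 := div_le_div_of_nonneg_right (le_abs_self _) h1.le
      rw [mul_div_assoc]
      refine hsm (y n) _ (by positivity) (hy n).1 (fun x hx => (hy n).2 x fun h => hx (Or.inl h))
        fun x hx => ?_
      obtain ⟨k1, k2, k3⟩ := he n x (union_subset hKO hDc hx)
      exact ⟨k1.trans h2, k2.trans h2, k3.trans h2⟩⟩
  obtain ⟨C, hC⟩ := hYb c X.Dc X.cD hDc
  have hR' := j5_rate hR (abs_nonneg C)
  have hN' := j5_near_add hN hF hS hR.top (hY.mono fun n h => h.1) hYb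
  have hS' : ∀ᶠ n in atTop, Sm ((fun p => F p + ext c (y n) p) + Y n) :=
    hY.mono fun n h => (hS n).add h.1
  have hJ'' : ∀ᶠ n in atTop, ∀ x ∈ X.Dc, X.Jet L C0 b
      (loc c ((fun p => F p + ext c (y n) p) + Y n)) x (μ n) (P n + |C|) := by
    filter_upwards [hY, hC] with n h1 h2 x hx
    exact Fr.Jet.perturb X (hJ' n x hx) (hR.one n).1 (abs_nonneg C) (h1.1.locAt c (hDc hx))
      fun j hj => (h2 j hj x hx).trans
        (div_le_div_of_nonneg_right (le_abs_self _) (zero_le_one.trans (hR.one n).1))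
  refine ⟨μ, fun n => P n + |C|, fun n => (fun p => F p + ext c (y n) p) + Y n, hR', hN', ?_⟩
  filter_upwards [hS', hJ'', hY, iine_of_nd (nd_of hX cD hD ha hF hii hfr hR' hS' hN' hJ'')]
    with n h1 h2 h3 h4
  refine ⟨h1, h4, h3.2, fun x hx => ⟨h2 x hx, ?_⟩⟩
  rw [j5_Gs hF h1 (h4.imm h1) h3.2 (hDc hx), Fr.κ, hX.hf, hX.hA]

end Vale.Agent.P205
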