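import Vale.Agent.P205.J5

/-! P205, J6: choice of the rotation function and the large step (BLUEPRINT, module J). -/

open scoped ContDiff InnerProductSpace Topology Manifold
open Set Filter Real

noncomputable section
namespace Vale.Agent.P205

variable {M : Type*} [TopologicalSpace M] [ChartedSpace E2 M] [IsManifold 𝓘(ℝ, E2) ∞ M]
  [T2Space M] [CompactSpace M]

omit [IsManifold 𝓘(ℝ, E2) ∞ M] [T2Space M] [CompactSpace M] in
theorem j6_mem {X : Fr} {c : Ch M} {F : M → R4} {a : M → ℝ} {D : Set M} (hX : Fits X c F a D)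
    (hD : D ⊆ c.e.source) {p : M} (hp : p ∈ D) :
    c.e p ∈ X.Dc ∧ c.e p ∈ X.Ub ∧ (c.e p ∈ X.In ↔ p ∈ interior D) := by
  have h1 : c.e p ∈ X.Dc := hX.hD ▸ mem_image_of_mem _ hp
  refine ⟨h1, X.UU (X.DU h1), ?_⟩
  rw [hX.hI]
  exact (c.e.injOn.mem_image_iff (interior_subset.trans hD) (hD hp))

theorem j6_fr (S : Sys M) (i : S.I) {p : M} (hp : p ∈ frontier (S.D i)) :
    p ∈ S.D i ∧ p ∈ (S.c i).e.source ∧ p ∉ interior (S.D i) :=
  have h := (S.cpt i).isClosed.frontier_subset hp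
  ⟨h, S.sub i h, hp.2⟩

theorem j6_fr' (S : Sys M) (i : S.I) {p : M} (hp : p ∈ S.D i) (h : p ∉ interior (S.D i)) :
    p ∈ frontier (S.D i) := ⟨subset_closure hp, h⟩

/-- the set where the limit form fails to be positive -/
def j6Bad (S : Sys M) (l : S.I) (X : Fr) (R : ℝ) (j : S.I) : Set M :=
  {p | p ∈ frontier (S.D j) ∩ S.D l ∧ ∃ Ψ : ℝ, |Ψ| ≤ X.w ((S.c l).e p) * R ∧
    X.H ((S.c l).e p) (tr (S.c j) (S.c l) p (1, 0)) Ψ ≤ 0}

theorem j6Bad_compact (S : Sys M) {F : M → R4} (l : S.I) {a : M → ℝ} {X : Fr}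
    (hX : Fits X (S.c l) F a (S.D l)) (R : ℝ) (j : S.I) : IsCompact (j6Bad S l X R j) := by
  have hK : IsCompact (frontier (S.D j) ∩ S.D l) := (S.cpt l).inter_left isClosed_frontier
  have hc : ContinuousOn (S.c l).e (frontier (S.D j) ∩ S.D l) :=
    (S.c l).e.continuousOn.mono fun p hp => S.sub l hp.2
  have hU : MapsTo (S.c l).e (frontier (S.D j) ∩ S.D l) X.Ub := fun p hp =>
    (j6_mem hX (S.sub l) hp.2).2.1
  have hw : ContinuousOn (fun p => X.w ((S.c l).e p) * R) (frontier (S.D j) ∩ S.D l) :=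
    (X.continuousOn_w.comp hc hU).mul continuousOn_const
  obtain ⟨B, hB⟩ := hK.bddAbove_image hw
  have ht : ContinuousOn (fun p => tr (S.c j) (S.c l) p (1, 0)) (frontier (S.D j) ∩ S.D l) :=
    ((continuousOn_tr _ _).mono fun p hp => ⟨(j6_fr S j hp.1).2.1, S.sub l hp.2⟩).clm_apply
      continuousOn_const
  have hK2 := hK.prod (isCompact_Icc (a := -B) (b := B))
  have h1 : ContinuousOn (fun z : M × ℝ => (X.w ((S.c l).e z.1) * R - |z.2|,
      -X.H ((S.c l).e z.1) (tr (S.c j) (S.c l) z.1 (1, 0)) z.2))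
      ((frontier (S.D j) ∩ S.D l) ×ˢ Icc (-B) B) := by
    refine ((hw.comp continuousOn_fst fun z hz => hz.1).sub (by fun_prop)).prodMk
      (ContinuousOn.neg ?_)
    exact X.continuousOn_H.comp (f := fun z : M × ℝ =>
      ((S.c l).e z.1, tr (S.c j) (S.c l) z.1 (1, 0), z.2))
      ((hc.comp continuousOn_fst fun z hz => hz.1).prodMk
        ((ht.comp continuousOn_fst fun z hz => hz.1).prodMk continuousOn_snd))
      fun z hz => ⟨hU hz.1, trivial⟩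
  have h2 := (hK2.of_isClosed_subset (h1.preimage_isClosed_of_isClosed hK2.isClosed
    (isClosed_Ici (a := ((0 : ℝ), (0 : ℝ))))) inter_subset_left).image continuous_fst
  refine (Set.ext fun p => ⟨?_, ?_⟩ : j6Bad S l X R j = _) ▸ h2
  · rintro ⟨hp, Ψ, h3, h4⟩
    exact ⟨(p, Ψ), ⟨⟨hp, abs_le.1 (h3.trans (hB (mem_image_of_mem _ hp)))⟩,
      sub_nonneg.2 h3, neg_nonneg.2 h4⟩, rfl⟩
  · rintro ⟨⟨q, Ψ⟩, ⟨h3, h4, h5⟩, rfl⟩
    exact ⟨h3.1, Ψ, sub_nonneg.1 h4, neg_nonneg.1 h5⟩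

theorem j6Bad_sub (S : Sys M) {F ν : M → R4} (h : Inv S F ν) (l : S.I) {a : M → ℝ} {X : Fr}
    (hX : Fits X (S.c l) F a (S.D l)) (R : ℝ) {j : S.I} (hj : j ≠ l) :
    j6Bad S l X R j ⊆ interior (S.D l) := by
  rintro p ⟨hp, Ψ, h1, h2⟩
  by_contra hp'
  obtain ⟨k1, -, k3⟩ := j6_mem hX (S.sub l) hp.2
  have k4 := mt k3.1 hp'
  rw [(X.boundary k1 k4).1, zero_mul, abs_nonpos_iff] at h1
  subst h1
  refine h2.not_gt (X.H_boundary k1 k4 ?_)
  have hi := h.ii.imm h.smF p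
  have k5 := h.i3 j l hj p ⟨hp.1, j6_fr' S l hp.2 hp'⟩
  have sj := (j6_fr S j hp.1).2.1
  have sl := S.sub l hp.2
  rw [IIm_eq h.smF _ _ (S.c l) sj sj sl hi, IIm_eq h.smF _ _ (S.c l) sl sl sl hi,
    IIm_eq h.smF _ _ (S.c l) sl sj sl hi, tr_self _ sl] at k5
  rw [hX.hf]
  exact k5

/-- choice of the rotation function `b` -/
theorem choose_b (S : Sys M) {F ν : M → R4} (h : Inv S F ν) (l : S.I) {a : M → ℝ}
    (ha : Amp (S.D l) a) {X : Fr} (hX : Fits X (S.c l) F a (S.D l)) (L C0 Λ : ℝ) :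
    ∃ b : P2 → ℝ, ContDiff ℝ ∞ b ∧ HasCompactSupport b ∧ tsupport b ⊆ X.In ∧
      (∀ x ∈ X.Ub, |b x| ≤ X.w x) ∧
      (∀ i j, i ≠ j → ∀ p ∈ frontier (S.D i) ∩ frontier (S.D j) ∩ interior (S.D l),
        Λ ≤ du b ((S.c l).e p)) ∧
      ∀ j, j ≠ l → ∀ p ∈ frontier (S.D j) ∩ S.D l, Λ ≤ du b ((S.c l).e p) ∨
        ∀ Ψ : ℝ, |Ψ| ≤ X.w ((S.c l).e p) * L + |b ((S.c l).e p)| →
          0 < X.H ((S.c l).e p) (tr (S.c j) (S.c l) p (1, 0)) Ψ := by
  let T : S.I → Set M := fun j => j6Bad S l X (L + 1) j ∪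
    ⋃ i, ⋃ _ : j ≠ i, frontier (S.D j) ∩ frontier (S.D i) ∩ interior (S.D l)
  have hT : ∀ j, IsCompact (T j) := fun j => (j6Bad_compact S l hX _ j).union
    (isCompact_iUnion fun i => isCompact_iUnion fun hi =>
      ((S.finX j i hi).subset inter_subset_left).isCompact)
  have hT1 : ∀ j, j ≠ l → T j ⊆ frontier (S.D j) ∩ interior (S.D l) := by
    rintro j hj p (hp | hp)
    · exact ⟨hp.1.1, j6Bad_sub S h l hX _ hj hp⟩
    · simp only [mem_iUnion] at hp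
      obtain ⟨i, -, hp⟩ := hp
      exact ⟨hp.1.1, hp.2⟩
  let T0 : Set M := ⋃ j, ⋃ _ : j ≠ l, T j
  have hT2 : T0 ⊆ interior (S.D l) := iUnion₂_subset fun j hj => (hT1 j hj).trans inter_subset_right
  have hT3 : IsCompact ((S.c l).e '' T0) :=
    (isCompact_iUnion fun j => isCompact_iUnion fun _ => hT j).image_of_continuousOn
      ((S.c l).e.continuousOn.mono (hT2.trans (interior_subset.trans (S.sub l))))
  obtain ⟨K, hK, hK1, hK2⟩ := exists_compact_between hT3 X.oIn (hX.hI ▸ image_mono hT2)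
  have hIn : X.In ⊆ X.Ub := X.InD.trans (X.DU.trans X.UU)
  obtain ⟨η, hη, hη1⟩ := hK.exists_forall_le' (X.continuousOn_w.mono (hK2.trans hIn))
    fun x hx => X.w_pos (hK2 hx)
  obtain ⟨b, hb, hbc, hbs, hb1, hb2⟩ := slicing hT3 isOpen_interior hK1 (fun v0 => by
    refine MeasureTheory.measure_mono_null (t := ⋃ j, ⋃ _ : j ≠ l,
      {u : ℝ | ∃ p ∈ frontier (S.D j) ∩ S.D l, (S.c l).e p = (u, v0)}) ?_
      (MeasureTheory.measure_iUnion_null fun j => MeasureTheory.measure_iUnion_null fun hj =>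
        S.null l j hj.symm v0)
    rintro u ⟨p, hp, e⟩
    simp only [T0, mem_iUnion] at hp
    obtain ⟨j, hj, hp⟩ := hp
    exact mem_iUnion₂.2 ⟨j, hj, p, ⟨(hT1 j hj hp).1, interior_subset (hT1 j hj hp).2⟩, e⟩) Λ η hη
  have hbw : ∀ x ∈ X.Ub, |b x| ≤ X.w x := fun x hx => by
    by_cases hxK : x ∈ K
    · exact (hb1 x).trans (hη1 x hxK)
    · rw [image_eq_zero_of_notMem_tsupport fun hh => hxK (interior_subset (hbs hh)), abs_zero]
      exact X.w_nonneg hx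
  refine ⟨b, hb, hbc, hbs.trans (interior_subset.trans hK2), hbw, fun i j hij p hp => ?_,
    fun j hj p hp => ?_⟩
  · refine hb2 _ (mem_image_of_mem _ (mem_iUnion₂.2 ⟨i, ?_, Or.inr (mem_iUnion₂.2 ⟨j, hij, hp⟩)⟩))
    rintro rfl
    exact hp.1.1.2 hp.2
  · refine or_iff_not_imp_right.2 fun hn => ?_
    push Not at hn
    obtain ⟨Ψ, h1, h2⟩ := hn
    refine hb2 _ (mem_image_of_mem _ (mem_iUnion₂.2 ⟨j, hj, Or.inl ⟨hp, Ψ, ?_, h2⟩⟩))
    linarith [hbw _ (j6_mem hX (S.sub l) hp.2).2.1]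

/-- the new transversal field -/
def newν (c : Ch M) (G ν : M → R4) (a : M → ℝ) (μ : ℝ) (p : M) : R4 :=
  ν p + smoothTransition (2 * μ ^ 2 * a p - 1) • (du (du (loc c G)) (c.e p) - ν p)

omit [IsManifold 𝓘(ℝ, E2) ∞ M] [T2Space M] [CompactSpace M] in
theorem j6_amp {a : M → ℝ} {D : Set M} (ha : Amp D a) : Sm a ∧ ∀ p, 0 ≤ a p := by
  obtain ⟨ρ, h1, h2, h3⟩ := ha.root 1 le_rfl
  obtain rfl : ρ = a := funext fun p => by simpa using h3 p
  exact ⟨h1, h2⟩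

theorem sm_newν (c : Ch M) {G ν : M → R4} {a : M → ℝ} {D : Set M} (hG : Sm G) (hν : Sm ν)
    (cD : IsCompact D) (hD : D ⊆ c.e.source) (ha : Amp D a) (μ : ℝ) : Sm (newν c G ν a μ) := by
  intro p
  by_cases hp : p ∈ c.e.source
  · have h1 : ContMDiffAt 𝓘(ℝ, E2) 𝓘(ℝ, R4) ∞ (fun q => du (du (loc c G)) (c.e q)) p :=
      (contDiffAt_du (contDiffAt_du (hG.locAt c (c.e.map_source hp)))).contMDiffAt.comp p
        (man1_smAt c hp)
    have h2 : Sm fun q => smoothTransition (2 * μ ^ 2 * a q - 1) :=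
      (j6_amp ha).1.comp (Φ := fun t => smoothTransition (2 * μ ^ 2 * t - 1)) fun _ =>
        smoothTransition.contDiffAt.comp _ (by fun_prop)
    exact (hν p).add ((h2 p).smul (h1.sub (hν p)))
  · refine (hν p).congr_of_eventuallyEq ?_
    filter_upwards [cD.isClosed.isOpen_compl.mem_nhds fun h => hp (hD h)] with q hq
    rw [newν, ha.zero q fun h => hq (interior_subset h),
      smoothTransition.zero_of_nonpos (by norm_num), zero_smul, add_zero]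

omit [ChartedSpace E2 M] [IsManifold 𝓘(ℝ, E2) ∞ M] [T2Space M] [CompactSpace M] in
theorem j6_ultra {K : Set M} (hK : IsCompact K) {R : ℕ → M → Prop}
    (h : ∀ (u : Ultrafilter ℕ) (ps : ℕ → M) (p : M), (u : Filter ℕ) ≤ atTop → p ∈ K →
      Tendsto ps u (𝓝 p) → (∀ᶠ n in (u : Filter ℕ), ps n ∈ K ∧ ¬ R n (ps n)) → False) :
    ∀ᶠ n in atTop, ∀ p ∈ K, R n p := by
  by_contra h0
  have h1 : ∃ᶠ n in atTop, ∃ p, p ∈ K ∧ ¬ R n p := by
    simpa only [not_eventually, not_forall, exists_prop] using h0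
  obtain ⟨-, p0, -⟩ := h1.exists
  have := frequently_iff_neBot.1 h1
  obtain ⟨u, hu⟩ := Ultrafilter.exists_le (atTop ⊓ 𝓟 {n | ∃ p, p ∈ K ∧ ¬ R n p})
  have h2 : ∀ n, ∃ q, (∃ p, p ∈ K ∧ ¬ R n p) → q ∈ K ∧ ¬ R n q := fun n => by
    by_cases hn : ∃ p, p ∈ K ∧ ¬ R n p
    · exact hn.imp fun _ hq _ => hq
    · exact ⟨p0, fun hh => absurd hh hn⟩
  choose ps hps using h2
  have h3 : ∀ᶠ n in (u : Filter ℕ), ps n ∈ K ∧ ¬ R n (ps n) :=
    Eventually.mono (le_principal_iff.1 (hu.trans inf_le_right)) hps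
  obtain ⟨p, hp, h4⟩ := hK.ultrafilter_le_nhds (u.map ps)
    (le_principal_iff.2 (h3.mono fun _ hn => hn.1))
  exact h u ps p (hu.trans inf_le_left) hp h4 h3

theorem j6_uu {F : M → R4} (hF : Sm F) (c d : Ch M) {p : M} (hc : p ∈ c.e.source)
    (hd : p ∈ d.e.source) (hi : Function.Injective (dM F p)) :
    nrmM F d p (du (du (loc c F)) (c.e p)) = II (loc c F) (c.e p) (1, 0) (1, 0) := by
  rw [nrmM_trans hF d c hd hc hi, II_uu (hF.locAt c (c.e.map_source hc)), nrmM]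

theorem j6_near (S : Sys M) {F ν : M → R4} (h : Inv S F ν) (l : S.I) {a : M → ℝ}
    (ha : Amp (S.D l) a) {G : ℕ → M → R4} {μ P : ℕ → ℝ} (hR : Rate μ P) (hn : Near F G a μ)
    {u : Ultrafilter ℕ} (hu : (u : Filter ℕ) ≤ atTop) (hG : ∀ᶠ n in (u : Filter ℕ), Sm (G n))
    {ps : ℕ → M} {p : M} (hp : Tendsto ps u (𝓝 p))
    (hs : ∀ᶠ n in (u : Filter ℕ), a (ps n) ≤ (μ n ^ 2)⁻¹) (d : Ch M) (hd : p ∈ d.e.source) :
    ∃ ξ, Tendsto (fun n => nrmM (G n) d (ps n) (newν (S.c l) (G n) ν a (μ n) (ps n))) u (𝓝 ξ) ∧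
      (ξ = nrmM F d p (ν p) ∨ p ∈ frontier (S.D l) ∧ ∃ θ : ℝ, 0 ≤ θ ∧ θ ≤ 1 ∧
        ξ = θ • IIm F (S.c l) (S.c l) p + (1 - θ) • nrmM F d p (ν p)) := by
  have hi := h.ii.imm h.smF p
  have h1 := (hn.conv h.smF hu hG hp hs hi d d hd hd).2.1
  have h2 : Tendsto (fun n => ν (ps n)) u (𝓝 (ν p)) := (h.smν.continuous.tendsto p).comp hp
  by_cases hD : p ∈ S.D l
  · have h3 : a p ≤ 0 := le_of_tendsto_of_tendsto (((j6_amp ha).1.continuous.tendsto p).comp hp)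
      ((tendsto_inv_atTop_zero.comp ((tendsto_pow_atTop two_ne_zero).comp hR.top)).mono_left hu) hs
    have sl := S.sub l hD
    obtain ⟨θ, hθ, h4⟩ := (isCompact_Icc (a := (0 : ℝ)) (b := 1)).ultrafilter_le_nhds
      (u.map fun n => smoothTransition (2 * μ n ^ 2 * a (ps n) - 1))
      (le_principal_iff.2 (mem_map.2 (univ_mem' fun n =>
        ⟨smoothTransition.nonneg _, smoothTransition.le_one _⟩)))
    have h5 := (hn.conv h.smF hu hG hp hs hi _ _ sl sl).2.2.2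
    refine ⟨_, h1 _ _ (h2.add (Tendsto.smul h4 (h5.sub h2))), Or.inr
      ⟨j6_fr' S l hD fun hh => h3.not_gt (ha.pos p hh), θ, hθ.1, hθ.2, ?_⟩⟩
    rw [IIm, tr_self _ sl, ← j6_uu h.smF _ d sl hd hi]
    simp only [nrmM, nrm]
    rw [← perp_smul, ← perp_smul, ← perp_add]
    refine congrArg _ ?_
    module
  · refine ⟨_, (h1 _ _ h2).congr' ?_, Or.inl rfl⟩
    filter_upwards [hp.eventually ((S.cpt l).isClosed.isOpen_compl.mem_nhds hD)] with n hq
    rw [newν, ha.zero _ fun h => hq (interior_subset h),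
      smoothTransition.zero_of_nonpos (by norm_num), zero_smul, add_zero]

theorem j6_far {c : Ch M} {D : Set M} (hD : D ⊆ c.e.source) {a : M → ℝ} (ha : Amp D a)
    {G : M → R4} (ν : M → R4) (hG : Sm G) (hi : IINe G) {μ : ℝ} (hμ : 1 ≤ μ) {p : M}
    (hp : (μ ^ 2)⁻¹ < a p) : p ∈ interior D ∧ ∀ d : Ch M, p ∈ d.e.source →
      nrmM G d p (newν c G ν a μ p) = II (loc c G) (c.e p) (1, 0) (1, 0) := by
  have h0 : 0 < μ ^ 2 := by positivity
  have h1 : p ∈ interior D := by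
    by_contra h1
    rw [ha.zero p h1] at hp
    exact hp.not_gt (inv_pos.2 h0)
  refine ⟨h1, fun d hd => ?_⟩
  rw [inv_lt_iff_one_lt_mul₀' h0] at hp
  rw [newν, smoothTransition.one_of_one_le (by linarith), one_smul, add_sub_cancel,
    j6_uu hG c d (hD (interior_subset h1)) hd (hi.imm hG p)]

theorem large_step (S : Sys M) {F ν : M → R4} (h : Inv S F ν) (l : S.I) {a : M → ℝ}
    (ha : Amp (S.D l) a) (hk : ∀ p ∈ S.D l, 0 < ktM (S.c l) (pull F) p) :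
    ∃ F' ν' : M → R4, Inv S F' ν' ∧ pull F' = pull F + prim a (vco (S.c l)) := by
  have him := h.ii.imm h.smF
  obtain ⟨X, hX⟩ := exists_fr (S.c l) h.smF h.smν him h.tv (S.cpt l) (S.sub l) ha hk
    fun p hp => h.i2 l l p ⟨hp, hp⟩
  obtain ⟨L, C0, -, H⟩ := exact_large hX (S.cpt l) (S.sub l) ha h.smF h.ii
    fun p hp => (h.i2 l l p ⟨hp, hp⟩).ne.1
  obtain ⟨Λ1, hΛ1⟩ := X.big_twist
  let Z : Set (S.I × S.I × M) := {z | z.1 ≠ z.2.1 ∧ z.2.2 ∈ frontier (S.D z.1) ∩ frontier (S.D z.2.1)}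
  have hZ : Z.Finite := by
    refine (finite_iUnion fun i => finite_iUnion fun j => finite_iUnion fun hij : PLift (i ≠ j) =>
      (S.finX i j hij.down).image fun p => (i, j, p)).subset ?_
    rintro ⟨i, j, p⟩ ⟨h1, h2⟩
    exact mem_iUnion.2 ⟨i, mem_iUnion.2 ⟨j, mem_iUnion.2 ⟨⟨h1⟩, p, h2, rfl⟩⟩⟩
  have hfp := fun (z : {z // z ∈ Z ∧ z.2.2 ∈ interior (S.D l)}) =>
    X.far_point (j6_mem hX (S.sub l) (interior_subset z.2.2)).1
      (S.dir _ _ l z.2.1.1 _ ⟨z.2.1.2, z.2.2⟩)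
      (S.dir _ _ l z.2.1.1.symm _ ⟨z.2.1.2.symm, z.2.2⟩) C0
  choose Λ2 hΛ2 using hfp
  have : Finite {z // z ∈ Z ∧ z.2.2 ∈ interior (S.D l)} := (hZ.subset fun _ hz => hz.1).to_subtype
  obtain ⟨Λ3, hΛ3⟩ := (finite_range Λ2).bddAbove
  obtain ⟨b, hb, hbc, hbs, hbw, hb1, hb2⟩ := choose_b S h l ha hX L C0 (max (Λ1 + C0) Λ3)
  obtain ⟨μ, P, G, hR, hn, hE⟩ := H b hb hbc hbs hbw
  have hsm : ∀ᶠ n in atTop, Sm (G n) := hE.mono fun _ hh => hh.1
  have hT : ∀ᶠ n in atTop, ∀ p ∈ univ, Sm (G n) → IINe (G n) →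
      ∀ Y, newν (S.c l) (G n) ν a (μ n) p ≠ dM (G n) p Y := by
    refine j6_ultra isCompact_univ fun u ps p hu _ hp hf => ?_
    obtain ⟨d, hd⟩ := exists_ch p
    have hf' : ∀ᶠ n in (u : Filter ℕ),
        nrmM (G n) d (ps n) (newν (S.c l) (G n) ν a (μ n) (ps n)) = 0 := by
      filter_upwards [hf, hp.eventually (d.e.open_source.mem_nhds hd)] with n h1 h2
      by_contra h3
      exact h1.2 fun k1 k2 => (transv_iff k1 d h2 (k2.imm k1 _) _).2 h3
    rcases u.em fun n => a (ps n) ≤ (μ n ^ 2)⁻¹ with hs | hs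
    · obtain ⟨ξ, h1, h2⟩ := j6_near S h l ha hR hn hu (hu hsm) hp hs d hd
      have h3 : ξ = 0 := tendsto_nhds_unique h1 (tendsto_const_nhds.congr' (hf'.mono fun _ => Eq.symm))
      rcases h2 with h2 | ⟨h2, θ, k1, k2, k3⟩
      · exact (transv_iff h.smF d hd (him p) _).1 (h.tv p) (h2.symm.trans h3)
      · rw [nrmM_trans h.smF d (S.c l) hd (j6_fr S l h2).2.1 (him p)] at k3
        exact ((h.i2 l l p ⟨h2, h2⟩).combo k1 k2).ne.2.2 (k3.symm.trans h3)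
    · obtain ⟨c0, δ0, hc0, hδ0, hJ⟩ := X.jet_gram
      have h1 : ∀ᶠ n in atTop, P n ^ 4 / μ n ≤ δ0 := hR.small.eventually (ge_mem_nhds hδ0)
      obtain ⟨n, k1, k2, k3, k4, k5⟩ := (hf'.and (hs.and ((h1.filter_mono hu).and ((hE.filter_mono hu).and
        (hp.eventually (d.e.open_source.mem_nhds hd)))))).exists
      obtain ⟨m1, m2⟩ := j6_far (S.sub l) ha ν k4.1 k4.2.1 (hR.one n).1 (not_le.1 k2)
      have m3 := (j6_mem hX (S.sub l) (interior_subset m1)).1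
      have sl := S.sub l (interior_subset m1)
      have m4 := hJ L C0 b _ _ m3 _ _ (le_trans (div_le_div_of_nonneg_right
        (le_self_pow₀ (hR.one n).2 (by norm_num)) (by linarith [(hR.one n).1])) k3) (k4.2.2.2 _ m3).1
      rw [Gram_eq (k4.1.locAt _ ((S.c l).e.map_source sl))
        ((imm_iff k4.1 _ sl).1 (k4.2.1.imm k4.1 _)).ne', ← m2 d k5, k1] at m4
      simp only [norm_zero, ne_eq, OfNat.ofNat_ne_zero, not_false_eq_true, zero_pow, mul_zero] at m4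
      exact m4.not_gt hc0
  have hI : ∀ j, ∀ᶠ n in atTop, ∀ p ∈ frontier (S.D j), Q2 (IIm (G n) (S.c j) (S.c j) p)
      (IIm (G n) (S.c j) (S.c j) p) (nrmM (G n) (S.c j) p (newν (S.c l) (G n) ν a (μ n) p)) := by
    refine fun j => j6_ultra isClosed_frontier.isCompact fun u ps p hu hj hp hf => ?_
    have sj := (j6_fr S j hj).2.1
    rcases u.em fun n => a (ps n) ≤ (μ n ^ 2)⁻¹ with hs | hs
    · obtain ⟨ξ, h1, h2⟩ := j6_near S h l ha hR hn hu (hu hsm) hp hs _ sj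
      have h3 := (hn.conv h.smF hu (hu hsm) hp hs (him p) _ _ sj sj).1
      have h4 : Q2 (IIm F (S.c j) (S.c j) p) (IIm F (S.c j) (S.c j) p) ξ := by
        rcases h2 with rfl | ⟨h2, θ, k1, k2, rfl⟩
        · exact h.i2 j j p ⟨hj, hj⟩
        · exact (h.i2 j l p ⟨hj, h2⟩).combo k1 k2
      obtain ⟨n, k1, k2⟩ := (hf.and ((h3.prodMk_nhds (h3.prodMk_nhds h1)).eventually
        (isOpen_Q2.mem_nhds h4))).exists
      exact k1.2 k2
    · have h1 : ∀ᶠ n in (u : Filter ℕ), ps n ∈ interior (S.D l) ∧ ∀ d : Ch M, ps n ∈ d.e.source →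
          nrmM (G n) d (ps n) (newν (S.c l) (G n) ν a (μ n) (ps n)) =
            II (loc (S.c l) (G n)) ((S.c l).e (ps n)) (1, 0) (1, 0) := by
        filter_upwards [hs, hu hE] with n k1 k2
        exact j6_far (S.sub l) ha ν k2.1 k2.2.1 (hR.one n).1 (not_le.1 k1)
      have hjl : j ≠ l := by
        rintro rfl
        obtain ⟨n, k1, k2⟩ := (hf.and h1).exists
        exact k1.1.2 k2.1
      have hD : p ∈ S.D l :=
        (S.cpt l).isClosed.mem_of_tendsto hp (h1.mono fun _ hh => interior_subset hh.1)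
      have sl := S.sub l hD
      obtain ⟨m1, m2, -⟩ := j6_mem hX (S.sub l) hD
      have h2 : ContinuousAt (fun q => tr (S.c j) (S.c l) q (1, 0)) p :=
        ((continuousOn_tr _ _).continuousAt (((S.c j).e.open_source.inter
          (S.c l).e.open_source).mem_nhds ⟨sj, sl⟩)).clm_apply continuousAt_const
      obtain ⟨Ψ, k1, k2, k3⟩ := X.far_antipodal (L := L) (C0 := C0) hb hR u hu
        (f' := fun n => loc (S.c l) (G n)) m1 (((S.c l).e.continuousAt sl).tendsto.comp hp)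
        (h2.tendsto.comp hp) (by
          filter_upwards [hf, h1, hu hE] with n e1 e2 e3
          have e4 := (j6_mem hX (S.sub l) (interior_subset e2.1)).1
          have e5 := (j6_fr S j e1.1).2.1
          refine ⟨e4, (e3.2.2.2 _ e4).1, (e3.2.2.2 _ e4).2, fun e6 => e1.2 ?_⟩
          rw [e2.2 _ e5, IIm_eq e3.1 _ _ (S.c l) e5 e5 (S.sub l (interior_subset e2.1))
            (e3.2.1.imm e3.1 _)]
          exact e6)
      rcases hb2 j hjl p ⟨hj, hD⟩ with k4 | k4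
      · by_cases k5 : (tr (S.c j) (S.c l) p (1, 0)).2 = 0
        · exact k2.not_gt (X.H_pos_of_snd m2 (tr_ne_zero _ _ sj sl (by simp)) k5 Ψ)
        · obtain ⟨e, k6, k7⟩ := k3 k5
          exact k7.not_gt (hΛ1 _ m1 Ψ e (by linarith [le_max_left (Λ1 + C0) Λ3]))
      · exact k2.not_gt (k4 Ψ k1)
  have hP : ∀ z ∈ Z, ∀ᶠ n in atTop, Q2 (IIm (G n) (S.c z.1) (S.c z.1) z.2.2)
      (IIm (G n) (S.c z.2.1) (S.c z.2.1) z.2.2)
      (nrmM (G n) (S.c z.1) z.2.2 (newν (S.c l) (G n) ν a (μ n) z.2.2)) ∧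
      Q3' (IIm (G n) (S.c z.1) (S.c z.1) z.2.2) (IIm (G n) (S.c z.2.1) (S.c z.2.1) z.2.2)
        (IIm (G n) (S.c z.2.1) (S.c z.1) z.2.2) := by
    rintro ⟨i, j, p⟩ hz
    have si := (j6_fr S i hz.2.1).2.1
    have sj := (j6_fr S j hz.2.2).2.1
    by_cases hp : p ∈ interior (S.D l)
    · have m1 := (j6_mem hX (S.sub l) (interior_subset hp)).1
      have sl := S.sub l (interior_subset hp)
      have h1 := hΛ2 ⟨(i, j, p), hz, hp⟩ L b (((hΛ3 (mem_range_self _)).trans (le_max_right _ _)).trans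
        (hb1 i j hz.1 p ⟨hz.2, hp⟩)) μ P hR (fun n => loc (S.c l) (G n))
        (hE.mono fun n hh => hh.2.2.2 _ m1)
      have h2 : ∀ᶠ n in atTop, (μ n ^ 2)⁻¹ < a p := (tendsto_inv_atTop_zero.comp
        ((tendsto_pow_atTop two_ne_zero).comp hR.top)).eventually (gt_mem_nhds (ha.pos p hp))
      filter_upwards [h1, h2, hE] with n k1 k2 k3
      have k4 := k3.2.1.imm k3.1 p
      rw [(j6_far (S.sub l) ha ν k3.1 k3.2.1 (hR.one n).1 k2).2 _ si,
        IIm_eq k3.1 _ _ (S.c l) si si sl k4, IIm_eq k3.1 _ _ (S.c l) sj sj sl k4,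
        IIm_eq k3.1 _ _ (S.c l) sj si sl k4]
      exact k1
    · have hs : ∀ᶠ n in atTop, a p ≤ (μ n ^ 2)⁻¹ := Eventually.of_forall fun n => by
        rw [ha.zero p hp]
        positivity
      have c1 := hn.conv h.smF le_rfl hsm tendsto_const_nhds hs (him p) _ _ si si
      have c2 := (hn.conv h.smF le_rfl hsm tendsto_const_nhds hs (him p) _ _ sj sj).1
      have c3 := (hn.conv h.smF le_rfl hsm tendsto_const_nhds hs (him p) _ _ sj si).1
      filter_upwards [(c1.1.prodMk_nhds (c2.prodMk_nhds (c1.2.1 _ _ tendsto_const_nhds))).eventually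
        (isOpen_Q2.mem_nhds (h.i2 i j p hz.2)), (c1.1.prodMk_nhds (c2.prodMk_nhds c3)).eventually
        (isOpen_Q3.mem_nhds (h.i3 i j hz.1 p hz.2))] with n k1 k2
      rw [newν, ha.zero p hp, smoothTransition.zero_of_nonpos (by norm_num), zero_smul, add_zero]
      exact ⟨k1, k2⟩
  obtain ⟨n, h1, h2, h3, h4⟩ := (hE.and (hT.and ((eventually_all.2 hI).and
    ((eventually_all_finite hZ).2 hP)))).exists
  refine ⟨G n, newν (S.c l) (G n) ν a (μ n), ⟨h1.1, sm_newν _ h1.1 h.smν (S.cpt l) (S.sub l) ha _,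
    h1.2.1, fun p => h2 p trivial h1.1 h1.2.1, fun i j p hp => ?_,
    fun i j hij p hp => (h4 (i, j, p) ⟨hij, hp⟩).2⟩, h1.2.2.1⟩
  by_cases hij : i = j
  · subst hij
    exact h3 i p hp.1
  · exact (h4 (i, j, p) ⟨hij, hp⟩).1

end Vale.Agent.P205
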