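import Vale.Agent.P205.Man2

/-! P205: data for the large step (module J). -/

open scoped ContDiff InnerProductSpace Topology Manifold
open Set Filter Real

noncomputable section
namespace Vale.Agent.P205

/-- planar data of a patch together with a frame of the plane orthogonal to `f_u`, `f_uu` -/
structure Fr where
  O : Set P2
  f : P2 → R4
  A : P2 → ℝ
  Dc : Set P2
  In : Set P2
  U : Set P2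
  Ub : Set P2
  Kin : Set P2
  e0 : P2 → R4
  e0' : P2 → R4
  hO : IsOpen O
  hf : ContDiffOn ℝ ∞ f O
  root : ∀ m : ℕ, 1 ≤ m → ∃ ρ : P2 → ℝ, ContDiffOn ℝ ∞ ρ O ∧ ∀ x ∈ O, 0 ≤ ρ x ∧ ρ x ^ m = A x
  cD : IsCompact Dc
  oIn : IsOpen In
  InD : In ⊆ Dc
  pos : ∀ x ∈ In, 0 < A x
  zero : ∀ x ∈ O, x ∉ In → A x = 0
  oU : IsOpen U
  DU : Dc ⊆ U
  UU : U ⊆ Ub
  cU : IsCompact Ub
  UO : Ub ⊆ O
  cK : IsCompact Kin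
  KIn : Kin ⊆ In
  sme : ∀ x ∈ Ub, ContDiffAt ℝ ∞ e0 x ∧ ContDiffAt ℝ ∞ e0' x
  unit : ∀ x ∈ Ub, ‖e0 x‖ = 1 ∧ ‖e0' x‖ = 1 ∧ ⟪e0 x, e0' x⟫_ℝ = 0
  orth : ∀ x ∈ Ub, ⟪e0 x, du f x⟫_ℝ = 0 ∧ ⟪e0 x, du (du f) x⟫_ℝ = 0 ∧
    ⟪e0' x, du f x⟫_ℝ = 0 ∧ ⟪e0' x, du (du f) x⟫_ℝ = 0
  nd : ∀ x ∈ Ub, 0 < G2 f x ∧ 0 < det2 f x
  out : ∀ x ∈ Ub, x ∉ Kin → ⟪dv f x, e0' x⟫_ℝ = 0 ∧ 0 < ⟪dv f x, e0 x⟫_ℝ

namespace Fr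
variable (X : Fr)
def r (x : P2) : ℝ := √(⟪dv X.f x, X.e0 x⟫_ℝ ^ 2 + ⟪dv X.f x, X.e0' x⟫_ℝ ^ 2 + X.A x ^ 2)
def w (x : P2) : ℝ := X.A x / X.r x
def V (x : P2) (Ψ : ℝ) : R4 := Vv X.f X.e0 X.e0' X.r x Ψ
def Ξ (x : P2) (Ψ : ℝ) : R4 := Xi X.f X.e0 X.e0' X.r x Ψ
def m (x : P2) (Ψ : ℝ) : R4 := nPer (X.e0 x) (X.e0' x) (cos Ψ) (sin Ψ)
/-- limit of the normal part of `f_uu` -/
def an (x : P2) (Ψ : ℝ) : R4 := perp (du X.f x) (X.V x Ψ) (du (du X.f) x)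
/-- curvature of the new metric -/
def κ (x : P2) : ℝ := kap (fE X.f) (fF X.f) (fun y => fG X.f y + X.A y ^ 2) x
def H (x Y : P2) (Ψ : ℝ) : ℝ :=
  (Y.1 * ‖X.an x Ψ‖ ^ 2 + Y.2 * ⟪X.an x Ψ, X.Ξ x Ψ⟫_ℝ) ^ 2 + Y.2 ^ 2 * X.κ x * ‖X.an x Ψ‖ ^ 2

/-- description of the two-jet of the new map `f'` at `x` -/
def Jet (L C0 : ℝ) (b : P2 → ℝ) (f' : P2 → R4) (x : P2) (μ P : ℝ) : Prop :=
  ContDiffAt ℝ ∞ f' x ∧ ∃ Ψ d s : ℝ, |Ψ| ≤ X.w x * L + |b x| + P / μ ∧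
    |d - du b x| ≤ C0 + P * |s| ∧ |d| ≤ P ∧
    ‖du f' x - du X.f x‖ ≤ P / μ ∧ ‖du (du f') x - du (du X.f) x‖ ≤ P / μ ∧
    ‖dv f' x - X.V x Ψ‖ ≤ P / μ ∧
    ‖du (dv f') x - (X.Ξ x Ψ + (X.r x * d) • X.m x Ψ)‖ ≤ P / μ ∧
    ‖dv (dv f') x - (μ * X.r x * s) • X.m x Ψ‖ ≤ P
end Fr

/-- admissible rates -/
structure Rate (μ P : ℕ → ℝ) : Prop where
  one : ∀ n, 1 ≤ μ n ∧ 1 ≤ P n
  top : Tendsto μ atTop atTop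
  small : Tendsto (fun n => P n ^ 4 / μ n) atTop (𝓝 0)

variable {M : Type*} [TopologicalSpace M] [ChartedSpace E2 M]

/-- the maps `G n` are `C²` close to `F` where the amplitude is tiny -/
def Near (F : M → R4) (G : ℕ → M → R4) (a : M → ℝ) (μ : ℕ → ℝ) : Prop :=
  ∀ (d : Ch M) (K : Set P2), IsCompact K → K ⊆ d.e.target → ∀ ε : ℝ, 0 < ε → ∀ᶠ n in atTop,
    ∀ x ∈ K, a (d.e.symm x) ≤ (μ n ^ 2)⁻¹ →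
      ∀ j ≤ 2, ‖iteratedFDeriv ℝ j (loc d fun p => G n p - F p) x‖ ≤ ε

/-- the planar data come from the chart `c` -/
structure Fits (X : Fr) (c : Ch M) (F : M → R4) (a : M → ℝ) (D : Set M) : Prop where
  hO : X.O = c.e.target
  hf : X.f = loc c F
  hA : X.A = loc c a
  hD : X.Dc = c.e '' D
  hI : X.In = c.e '' interior D

end Vale.Agent.P205
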