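import Vale.Agent.P205.S1Aux

/-! P205, I1: existence of the atlas, and properties of the norm `NB`. -/

open scoped ContDiff InnerProductSpace Topology Manifold
open Set Filter Real

noncomputable section
namespace Vale.Agent.P205

/-- nine pairwise independent directions in three groups: at most two of them are bad -/
theorem select_dirs (X : Fin 3 → Fin 3 → P2)
    (hX : ∀ s i s' i', (s, i) ≠ (s', i') → (X s i).1 * (X s' i').2 - (X s i).2 * (X s' i').1 ≠ 0) :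
    ∃ c2 : ℝ, 0 < c2 ∧ ∀ a b c : R4, ∃ s, ∀ i, c2 * (‖a‖ + ‖b‖ + ‖c‖) ≤
      ‖(X s i).1 ^ 2 • a + (2 * (X s i).1 * (X s i).2) • b + (X s i).2 ^ 2 • c‖ := by
  have H : ∀ i : Fin 3 → Fin 3, ∃ C : ℝ, 0 ≤ C ∧ ∀ a b c : R4, ‖a‖ + ‖b‖ + ‖c‖ ≤
      C * (‖S1Aux.qd a b c (X 0 (i 0))‖ + ‖S1Aux.qd a b c (X 1 (i 1))‖ +
        ‖S1Aux.qd a b c (X 2 (i 2))‖) := fun i =>
    S1Aux.three (hX _ _ _ _ (by simp)) (hX _ _ _ _ (by simp)) (hX _ _ _ _ (by simp))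
  choose C hC0 hC using H
  have hS : 0 ≤ ∑ i, C i := Finset.sum_nonneg fun i _ => hC0 i
  refine ⟨(3 * ∑ i, C i + 1)⁻¹, by positivity, fun a b c => ?_⟩
  by_contra hcon
  push Not at hcon
  choose i hi using hcon
  have h0 : ‖S1Aux.qd a b c (X 0 (i 0))‖ < _ := hi 0
  have h1 : ‖S1Aux.qd a b c (X 1 (i 1))‖ < _ := hi 1
  have h2 : ‖S1Aux.qd a b c (X 2 (i 2))‖ < _ := hi 2
  have h3 := hC i a b c
  have h4 : C i ≤ ∑ i, C i := Finset.single_le_sum (fun i _ => hC0 i) (Finset.mem_univ i)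
  set S := ∑ i, C i
  set N := ‖a‖ + ‖b‖ + ‖c‖
  set t := (3 * S + 1)⁻¹ * N with ht
  have ht0 : 0 < t := (norm_nonneg _).trans_lt h0
  have hN : N = (3 * S + 1) * t := by
    rw [ht, ← mul_assoc, mul_inv_cancel₀ (by positivity), one_mul]
  have h5 : N ≤ C i * (3 * t) := h3.trans (mul_le_mul_of_nonneg_left (by linarith) (hC0 i))
  have h6 : C i * (3 * t) ≤ S * (3 * t) := mul_le_mul_of_nonneg_right h4 (by positivity)
  nlinarith

theorem gram3_lip : ∃ C : ℝ, 0 < C ∧ ∀ (a b c a' b' c' : R4) (R ε : ℝ), 1 ≤ R → ε ≤ 1 →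
    ‖a‖ ≤ R → ‖b‖ ≤ R → ‖c‖ ≤ R → ‖a' - a‖ ≤ ε → ‖b' - b‖ ≤ ε → ‖c' - c‖ ≤ ε →
    |gram3 a' b' c' - gram3 a b c| ≤ C * R ^ 5 * ε := by
  obtain ⟨B, hB⟩ := exists_cross3_clm
  have hb : ∀ (x y z : R4) (r s t : ℝ), ‖x‖ ≤ r → ‖y‖ ≤ s → ‖z‖ ≤ t →
      ‖B x y z‖ ≤ r * s * t := by
    intro x y z r s t hx hy hz
    have h1 : ‖B x y z‖ ^ 2 ≤ (‖x‖ * ‖y‖ * ‖z‖) ^ 2 := by
      rw [hB, norm_cross3_sq]
      refine (gram3_le _ _ _).trans ?_
      refine (mul_le_mul_of_nonneg_right (gram2_le _ _) (sq_nonneg _)).trans (le_of_eq (by ring))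
    have h2 := le_of_sq_le_sq h1 (by positivity)
    have hr : 0 ≤ r := (norm_nonneg _).trans hx
    have hs : 0 ≤ s := (norm_nonneg _).trans hy
    exact h2.trans (mul_le_mul (mul_le_mul hx hy (norm_nonneg _) hr) hz (norm_nonneg _)
      (mul_nonneg hr hs))
  refine ⟨63, by positivity, fun a b c a' b' c' R ε hR hε ha hb' hc da db dc => ?_⟩
  have hε0 : 0 ≤ ε := (norm_nonneg _).trans da
  have big : ∀ x x' : R4, ‖x‖ ≤ R → ‖x' - x‖ ≤ ε → ‖x'‖ ≤ 2 * R := fun x x' h1 h2 => by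
    have := norm_le_norm_add_norm_sub' x' x
    linarith
  have ha' := big _ _ ha da
  have hb'' := big _ _ hb' db
  have hc' := big _ _ hc dc
  have e : B a' b' c' - B a b c = B (a' - a) b' c' + B a (b' - b) c' + B a b (c' - c) := by
    simp only [map_sub, sub_apply]
    abel
  have h1 : ‖B a' b' c' - B a b c‖ ≤ 7 * R ^ 2 * ε := by
    rw [e]
    refine norm_add₃_le.trans ?_
    have k1 := hb _ _ _ _ _ _ da hb'' hc'
    have k2 := hb _ _ _ _ _ _ ha db hc'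
    have k3 := hb _ _ _ _ _ _ ha hb' dc
    refine (add_le_add (add_le_add k1 k2) k3).trans (le_of_eq (by ring))
  have h2 := hb _ _ _ _ _ _ ha hb' hc
  have h3 := hb _ _ _ _ _ _ ha' hb'' hc'
  rw [← norm_cross3_sq, ← norm_cross3_sq, ← hB, ← hB, sq_sub_sq, abs_mul,
    abs_of_nonneg (by positivity)]
  have h4 : |‖B a' b' c'‖ - ‖B a b c‖| ≤ 7 * R ^ 2 * ε :=
    (abs_norm_sub_norm_le _ _).trans h1
  have h5 : ‖B a' b' c'‖ + ‖B a b c‖ ≤ 9 * R ^ 3 :=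
    (add_le_add h3 h2).trans (le_of_eq (by ring))
  have hR0 : 0 ≤ R := zero_le_one.trans hR
  exact (mul_le_mul h5 h4 (abs_nonneg _) (by positivity)).trans (le_of_eq (by ring))

variable {M : Type*} [TopologicalSpace M] [ChartedSpace E2 M] [IsManifold 𝓘(ℝ, E2) ∞ M]
  [T2Space M] [CompactSpace M]

/-- a chart centred at `p` in which a given positive tensor is Euclidean at `p` -/
theorem exists_normal_ch {g : Ten M} (hs : Symm g) (hp : PosD g) (p : M) :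
    ∃ c : Ch M, p ∈ c.e.source ∧ c.e p = 0 ∧ cE c g 0 = 1 ∧ cF c g 0 = 0 ∧ cG c g 0 = 1 := by
  obtain ⟨b, hb⟩ := exists_ch p
  obtain ⟨hE, hD⟩ := hp.chart hs b (b.e.map_source hb)
  set E := cE b g (b.e p) with hEd
  set F := cF b g (b.e p) with hFd
  set G := cG b g (b.e p) with hGd
  obtain ⟨u, hu0, hu⟩ : ∃ u : ℝ, 0 < u ∧ u ^ 2 = E := ⟨√E, sqrt_pos.2 hE, sq_sqrt hE.le⟩
  obtain ⟨w, hw0, hw⟩ : ∃ w : ℝ, 0 < w ∧ w ^ 2 = (E * G - F ^ 2) / E :=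
    ⟨√((E * G - F ^ 2) / E), sqrt_pos.2 (div_pos hD hE), sq_sqrt (div_pos hD hE).le⟩
  obtain ⟨L, hL⟩ := S1Aux.exists_lin u (F / u) 0 w (by
    have : 0 < u * w := mul_pos hu0 hw0
    simpa using this.ne')
  obtain ⟨c, h1, h2, h3⟩ := S1Aux.exists_aff b L (b.e p)
  have hc : p ∈ c.e.source := h1 ▸ hb
  have h0 : c.e p = 0 := by rw [h2, sub_self, map_zero]
  have key : ∀ X Y : P2, cmp c g 0 (L X) (L Y) = (L X).1 * (L Y).1 + (L X).2 * (L Y).2 := by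
    intro X Y
    rw [← h0, cmp_trans c b g hc hb, (h3 p hb _).2, (h3 p hb _).2, L.symm_apply_apply,
      L.symm_apply_apply, cmp_expand b hs, hL, hL, ← hEd, ← hFd, ← hGd]
    have hG : G = w ^ 2 + F ^ 2 / u ^ 2 := by
      rw [hw, hu]
      field_simp
      ring
    rw [hG, ← hu]
    field_simp
    ring
  have key' : ∀ X Y : P2, cmp c g 0 X Y = X.1 * Y.1 + X.2 * Y.2 := fun X Y => by
    have := key (L.symm X) (L.symm Y)
    rwa [L.apply_symm_apply, L.apply_symm_apply] at this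
  refine ⟨c, hc, h0, ?_, ?_, ?_⟩
  · rw [cE, key']
    norm_num
  · rw [cF, key']
    norm_num
  · rw [cG, key']
    norm_num

/-- the local data near one point -/
structure S1Loc (g : Ten M) where
  b : Ch M
  c : Fin 3 → Fin 3 → Ch M
  A : Set M
  h : M → ℝ
  χ : Fin 3 → Fin 3 → P2 → ℝ
  χ' : Fin 3 → Fin 3 → P2 → ℝ
  l : Fin 3 → Fin 3 → Q3
  cptA : IsCompact A
  subb : A ⊆ b.e.source
  subA : ∀ s i, A ⊆ (c s i).e.source
  smh : Sm h
  hA : ∀ p, 0 < h p → p ∈ A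
  smχ : ∀ s i, ContDiff ℝ ∞ (χ s i) ∧ HasCompactSupport (χ s i)
  smχ' : ∀ s i, ContDiff ℝ ∞ (χ' s i) ∧ HasCompactSupport (χ' s i) ∧
    tsupport (χ' s i) ⊆ (c s i).e.target ∧ ∀ x, 0 ≤ χ' s i x ∧ χ' s i x ≤ 1
  χA : ∀ s i, ∀ p ∈ A, χ s i ((c s i).e p) = 1
  χχ' : ∀ s i, ∀ᶠ x in 𝓝ˢ (tsupport (χ s i)), χ' s i x = 1
  decomp : ∀ s (k : Ten M), Symm k → ∀ p ∈ A,
    k p = ∑ i, Lf (c s i) (l s i) k ((c s i).e p) • prim (fun _ => 1) (vco (c s i)) p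
  Lpos : ∀ s i, ∀ x ∈ tsupport (χ' s i), 1 / 32 ≤ Lf (c s i) (l s i) g x
  dir : ∀ s i, ∀ p ∈ A, tr (c s i) b p (1, 0) = ((S1Aux.vv s i).2, -(S1Aux.vv s i).1)

theorem s1_exists_loc {g : Ten M} (hg : Good g) (hp : PosD g) (p : M) :
    ∃ D : S1Loc g, ∀ᶠ q in 𝓝 p, D.h q = 1 := by
  obtain ⟨b, hb, hb0, hE, hF, hG⟩ := exists_normal_ch hg.1 hp p
  choose L hL2 hL1 using S1Aux.exists_L
  choose c hc1 hc2 hc3 using fun s i => S1Aux.exists_aff b (L s i) 0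
  choose l hl using fun s i => S1Aux.exists_l (M := M) (L s i) (S1Aux.mu s i)
  have hl' : ∀ s i (k : Ten M), Symm k → ∀ q ∈ b.e.source,
      Lf (c s i) (l s i) k ((c s i).e q) = Lf b (S1Aux.mu s i) k (b.e q) :=
    fun s i k hk q hq => hl s i b (c s i) k hk q hq (hc1 s i ▸ hq) fun X => (hc3 s i q hq X).1
  have hW : ∀ᶠ q in 𝓝 p, q ∈ b.e.source ∧ ∀ s i, 1 / 32 < Lf b (S1Aux.mu s i) g (b.e q) := by
    refine Filter.Eventually.and (b.e.open_source.mem_nhds hb) ?_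
    refine eventually_all.2 fun s => eventually_all.2 fun i => ?_
    obtain ⟨k1, k2, k3⟩ := hg.cEFG b (b.e.map_source hb)
    have k4 : ContinuousAt (Lf b (S1Aux.mu s i) g) (b.e p) :=
      ((continuousAt_const.mul k1.continuousAt).add
        (continuousAt_const.mul k2.continuousAt)).add (continuousAt_const.mul k3.continuousAt)
    have k5 : ContinuousAt (fun q => Lf b (S1Aux.mu s i) g (b.e q)) p :=
      k4.comp (b.e.continuousAt hb)
    refine k5.eventually (lt_mem_nhds ?_)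
    have := S1Aux.mu_pos s i
    simp only [hb0, Lf, hE, hF, hG]
    linarith
  obtain ⟨U, hUW, hUo, hpU⟩ := mem_nhds_iff.1 hW
  obtain ⟨A, hAc, hpA, hAU⟩ := exists_compact_subset hUo hpU
  obtain ⟨h, hh1, hh2, -, hh4⟩ := exists_cutoffM (K := {p}) isClosed_singleton isOpen_interior
    (singleton_subset_iff.2 hpA)
  have hAb : A ⊆ b.e.source := fun q hq => (hUW (hAU hq)).1
  have hAs : ∀ s i, A ⊆ (c s i).e.source := fun s i => hc1 s i ▸ hAb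
  have hO : ∀ s i, IsOpen ((c s i).e.target ∩ (c s i).e.symm ⁻¹' U) := fun s i =>
    (c s i).e.isOpen_inter_preimage_symm hUo
  have hK : ∀ s i, IsCompact ((c s i).e '' A) := fun s i =>
    hAc.image_of_continuousOn ((c s i).e.continuousOn.mono (hAs s i))
  have hKO : ∀ s i, (c s i).e '' A ⊆ (c s i).e.target ∩ (c s i).e.symm ⁻¹' U := by
    rintro s i _ ⟨q, hq, rfl⟩
    refine ⟨(c s i).e.map_source (hAs s i hq), ?_⟩
    rw [mem_preimage, (c s i).e.left_inv (hAs s i hq)]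
    exact hAU hq
  choose χ hχ1 hχ2 hχ3 hχ4 hχ5 using fun s i => exists_cutoff (hK s i) (hO s i) (hKO s i)
  choose χ' hχ1' hχ2' hχ3' hχ4' hχ5' using fun s i => exists_cutoff (hχ2 s i) (hO s i) (hχ3 s i)
  refine ⟨⟨b, c, A, h, χ, χ', l, hAc, hAb, hAs, hh1, fun q hq => ?_,
    fun s i => ⟨hχ1 s i, hχ2 s i⟩,
    fun s i => ⟨hχ1' s i, hχ2' s i, (hχ3' s i).trans inter_subset_left, hχ4' s i⟩,
    fun s i q hq => (hχ5 s i).self_of_nhdsSet _ (mem_image_of_mem _ hq), hχ5',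
    fun s k hk q hq => ?_, fun s i x hx => ?_, fun s i q hq => ?_⟩, ?_⟩
  · exact interior_subset (hh2 (subset_tsupport _ hq.ne'))
  · have e := ten_ext b (h := k) (h' := ∑ i, Lf (c s i) (l s i) k ((c s i).e q) •
        prim (fun _ => 1) (vco (c s i))) (hAb hq) fun X Y => by
      rw [cmp_sum, cmp_expand b hk, ← S1Aux.mu_vv s]
      refine Finset.sum_congr rfl fun i _ => ?_
      rw [cmp_smul, cmp_prim b (c s i) _ (hAb hq) (hAs s i hq), (hc3 s i q (hAb hq) X).1,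
        (hc3 s i q (hAb hq) Y).1, hL2, hL2, hl' s i k hk q (hAb hq), Lf, one_pow, one_mul]
    rw [e, Finset.sum_apply]
    rfl
  · obtain ⟨h1, h2⟩ := hχ3' s i hx
    have h3 := hUW h2
    have h4 := hl' s i g hg.1 _ h3.1
    rw [(c s i).e.right_inv h1] at h4
    rw [h4]
    exact (h3.2 s i).le
  · rw [(hc3 s i q (hAb hq) _).2, hL1]
  · rwa [nhdsSet_singleton] at hh4

theorem s1_sel {g : Ten M} (D : S1Loc g) (d : Ch M) {K : Set M} (hK : IsCompact K)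
    (hKd : K ⊆ d.e.source) : ∃ c2 : ℝ, 0 < c2 ∧ ∀ F : M → R4, Sm F → ∀ p ∈ K, p ∈ D.A →
      Function.Injective (dM F p) →
        ∃ s, ∀ i, c2 * ‖IIm F d d p‖ ≤ ‖IIm F (D.c s i) (D.c s i) p‖ := by
  obtain ⟨c2, hc2, hsel⟩ := select_dirs (fun s i => ((S1Aux.vv s i).2, -(S1Aux.vv s i).1))
    (fun s i s' i' h => by
      have := S1Aux.vv_ind s i s' i' h
      intro h0
      apply this
      simp only at h0
      linarith)
  have hc : ContinuousOn (fun p => tr d D.b p (1, 0)) (K ∩ D.A) :=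
    ((continuousOn_tr d D.b).mono (inter_subset_inter hKd D.subb)).clm_apply continuousOn_const
  obtain ⟨C, hC⟩ := (hK.inter_right D.cptA.isClosed).exists_bound_of_continuousOn hc
  refine ⟨c2 / (2 * C ^ 2 + 1), by positivity, fun F hF p hp hA hi => ?_⟩
  have hb := D.subb hA
  have hs := hF.locAt D.b (D.b.e.map_source hb)
  obtain ⟨s, hs'⟩ := hsel (II (loc D.b F) (D.b.e p) (1, 0) (1, 0))
    (II (loc D.b F) (D.b.e p) (1, 0) (0, 1)) (II (loc D.b F) (D.b.e p) (0, 1) (0, 1))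
  refine ⟨s, fun i => ?_⟩
  rw [IIm_eq hF d d D.b (hKd hp) (hKd hp) hb hi,
    IIm_eq hF (D.c s i) (D.c s i) D.b (D.subA s i hA) (D.subA s i hA) hb hi, D.dir s i p hA,
    S1Aux.II_qd hs, S1Aux.II_qd hs ((S1Aux.vv s i).2, -(S1Aux.vv s i).1)]
  refine le_trans ?_ (hs' i)
  have h1 := S1Aux.norm_qd_le (II (loc D.b F) (D.b.e p) (1, 0) (1, 0))
    (II (loc D.b F) (D.b.e p) (1, 0) (0, 1)) (II (loc D.b F) (D.b.e p) (0, 1) (0, 1))
    (hC p ⟨hp, hA⟩)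
  refine (mul_le_mul_of_nonneg_left h1 (by positivity)).trans ?_
  rw [← mul_assoc]
  refine mul_le_mul_of_nonneg_right ?_ (by positivity)
  rw [div_mul_eq_mul_div, div_le_iff₀ (by positivity)]
  nlinarith

theorem exists_sat {g : Ten M} (hg : Good g) (hp : PosD g) : Nonempty (SAt g) := by
  choose D hD using s1_exists_loc hg hp
  obtain ⟨t, ht⟩ := CompactSpace.elim_nhds_subcover (fun p => {q | (D p).h q = 1}) hD
  let E : Fin t.card → S1Loc g := fun n => D (t.equivFin.symm n)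
  have hcov : ∀ p, ∃ n, 1 ≤ (E n).h p := by
    intro p
    have h1 : p ∈ ⋃ x ∈ t, {q | (D x).h q = 1} := ht ▸ mem_univ p
    obtain ⟨x, hx, h2⟩ := mem_iUnion₂.1 h1
    refine ⟨t.equivFin ⟨x, hx⟩, ?_⟩
    simp only [E, Equiv.symm_apply_apply]
    exact h2.ge
  refine ⟨⟨Fin t.card × Fin 3, inferInstance, fun γ => (E γ.1).c γ.2, fun γ => (E γ.1).A,
    fun γ => (E γ.1).h, fun γ => (E γ.1).χ γ.2, fun γ => (E γ.1).χ' γ.2, fun γ => (E γ.1).l γ.2,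
    1 / 32, fun γ => (E γ.1).cptA, fun γ => (E γ.1).subA γ.2, fun γ => (E γ.1).smh,
    fun γ => (E γ.1).hA, fun p => ?_, fun γ => (E γ.1).smχ γ.2, fun γ => (E γ.1).smχ' γ.2,
    fun γ => (E γ.1).χA γ.2, fun γ => (E γ.1).χχ' γ.2, fun γ => (E γ.1).decomp γ.2,
    by norm_num, fun γ => (E γ.1).Lpos γ.2, fun d K hK hKd => ?_⟩⟩
  · obtain ⟨n, hn⟩ := hcov p
    exact ⟨(n, 0), hn⟩
  · choose c2 hc2 H using fun n => s1_sel (E n) d hK hKd
    obtain ⟨c, hc, hc'⟩ : ∃ c : ℝ, 0 < c ∧ ∀ n, c ≤ c2 n := by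
      refine ⟨(∑ n, (c2 n)⁻¹ + 1)⁻¹, ?_, fun n => ?_⟩
      · have : 0 ≤ ∑ n, (c2 n)⁻¹ := Finset.sum_nonneg fun n _ => (inv_pos.2 (hc2 n)).le
        positivity
      · have h1 : (c2 n)⁻¹ ≤ ∑ n, (c2 n)⁻¹ :=
          Finset.single_le_sum (f := fun n => (c2 n)⁻¹) (fun n _ => (inv_pos.2 (hc2 n)).le)
            (Finset.mem_univ n)
        exact inv_le_of_inv_le₀ (hc2 n) (by linarith)
    refine ⟨c, hc, fun F hF p hp' hi => ?_⟩
    obtain ⟨n, hn⟩ := hcov p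
    obtain ⟨s, hs⟩ := H n F hF p hp' ((E n).hA p (zero_lt_one.trans_le hn)) hi
    exact ⟨(n, s), hn, fun i =>
      (mul_le_mul_of_nonneg_right (hc' n) (norm_nonneg _)).trans (hs i)⟩

namespace SAt
variable {g : Ten M} (A : SAt g) {V : Type} [NormedAddCommGroup V] [NormedSpace ℝ V]

theorem NB.mono {m : ℕ} {F : M → V} {σ τ : ℝ} (h : A.NB m F σ) (hστ : σ ≤ τ) : A.NB m F τ :=
  ⟨h.1, fun γ i j hj x hx => (h.2 γ i j hj x hx).trans hστ⟩

theorem NB.of_le {m m' : ℕ} {F : M → V} {σ : ℝ} (h : A.NB m F σ) (hm : m' ≤ m) :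
    A.NB m' F σ :=
  ⟨h.1, fun γ i j hj x hx => h.2 γ i j (hj.trans hm) x hx⟩

theorem NB.add {m : ℕ} {F G : M → V} {σ τ : ℝ} (h1 : A.NB m F σ) (h2 : A.NB m G τ) :
    A.NB m (F + G) (σ + τ) :=
  ⟨h1.1.add h2.1, fun γ i => LB.add h1.1 h2.1 (A.smχ' γ i).2.2.1 (h1.2 γ i) (h2.2 γ i)⟩

theorem NB.const_smul {m : ℕ} {F : M → V} {σ : ℝ} (h1 : A.NB m F σ) (s : ℝ) :
    A.NB m (fun p => s • F p) (|s| * σ) :=
  ⟨(sm_const s).smul h1.1, fun γ i => LB.const_smul h1.1 (A.smχ' γ i).2.2.1 (h1.2 γ i) s⟩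

theorem nb_zero (m : ℕ) : A.NB m (0 : M → V) 0 := by
  refine ⟨sm_const 0, fun γ i j _ x _ => ?_⟩
  have e : loc (A.c γ i) (0 : M → V) = 0 := rfl
  rw [e, iteratedFDeriv_zero]
  simp

theorem exists_NB {F : M → V} (hF : Sm F) (m : ℕ) : ∃ σ : ℝ, 0 ≤ σ ∧ A.NB m F σ := by
  choose σ h0 h using fun j : A.Γ × Fin 3 =>
    exists_LB hF (A.c j.1 j.2) (A.smχ' j.1 j.2).2.1 (A.smχ' j.1 j.2).2.2.1 m
  refine ⟨∑ j, σ j, Finset.sum_nonneg fun j _ => h0 j, hF, fun γ i j hj x hx => ?_⟩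
  exact (h (γ, i) j hj x hx).trans
    (Finset.single_le_sum (f := σ) (fun j _ => h0 j) (Finset.mem_univ (γ, i)))

theorem s1_mem (γ : A.Γ) (i : Fin 3) {p : M} (hp : p ∈ A.A γ) :
    (A.c γ i).e p ∈ tsupport (A.χ' γ i) := by
  have h1 : (A.c γ i).e p ∈ tsupport (A.χ γ i) :=
    subset_tsupport _ (by rw [Function.mem_support, A.χA γ i p hp]; exact one_ne_zero)
  have h2 := (A.χχ' γ i).self_of_nhdsSet _ h1
  exact subset_tsupport _ (by rw [Function.mem_support, h2]; exact one_ne_zero)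

theorem NB.chart (c : Ch M) {K : Set P2} (hK : IsCompact K) (hKc : K ⊆ c.e.target) (m : ℕ) :
    ∃ C : ℝ, 0 ≤ C ∧ ∀ (F : M → V) (σ : ℝ), A.NB m F σ → LB c K m F (C * σ) := by
  obtain ⟨C, hC, h⟩ := cover_bound (V := V) (J := A.Γ × Fin 3) (fun j => A.c j.1 j.2)
    (fun j => tsupport (A.χ' j.1 j.2)) (fun j => ⟨(A.smχ' j.1 j.2).2.1, (A.smχ' j.1 j.2).2.2.1⟩)
    (fun p => by
      obtain ⟨γ, hγ⟩ := A.cov p
      have hp := A.hA γ p (zero_lt_one.trans_le hγ)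
      exact ⟨(γ, 0), A.subA γ 0 hp, A.s1_mem γ 0 hp⟩) c hK hKc m
  exact ⟨C, hC, fun F σ hF => h F σ hF.1 fun j => hF.2 j.1 j.2⟩

/-- the cut off expression in a chart -/
theorem cut_bound (γ : A.Γ) (i : Fin 3) (m : ℕ) : ∃ C : ℝ, 0 ≤ C ∧ ∀ (f : P2 → V) (σ : ℝ),
    0 ≤ σ → ContDiffOn ℝ ∞ f (A.c γ i).e.target →
    (∀ j ≤ m, ∀ x ∈ tsupport (A.χ' γ i), ‖iteratedFDeriv ℝ j f x‖ ≤ σ) →
    ∀ j ≤ m, ∀ x, ‖iteratedFDeriv ℝ j (fun y => A.χ' γ i y • f y) x‖ ≤ C * σ := by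
  obtain ⟨h1, h2, h3, -⟩ := A.smχ' γ i
  have hB : ∀ k : ℕ, ∃ B : ℝ, 0 ≤ B ∧ ∀ x ∈ tsupport (A.χ' γ i),
      ‖iteratedFDeriv ℝ k (A.χ' γ i) x‖ ≤ B := fun k => by
    obtain ⟨B, hB⟩ := IsCompact.exists_bound_of_continuousOn h2
      (h1.continuous_iteratedFDeriv (m := k) (mod_cast le_top)).continuousOn
    exact ⟨|B|, abs_nonneg _, fun x hx => (hB x hx).trans (le_abs_self _)⟩
  choose B hB0 hB using hB
  have hpos : ∀ j : ℕ, 0 ≤ ∑ k ∈ Finset.range (j + 1), (j.choose k : ℝ) * B k := fun j =>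
    Finset.sum_nonneg fun k _ => mul_nonneg (Nat.cast_nonneg _) (hB0 k)
  have hC : 0 ≤ ∑ j ∈ Finset.range (m + 1), ∑ k ∈ Finset.range (j + 1), (j.choose k : ℝ) * B k :=
    Finset.sum_nonneg fun j _ => hpos j
  refine ⟨_, hC, fun f σ hσ hf hb j hj x => ?_⟩
  by_cases hx : x ∈ tsupport (A.χ' γ i)
  · have ho := (A.c γ i).e.open_target
    have h4 := norm_iteratedFDerivWithin_smul_le (𝕜 := ℝ) h1.contDiffOn hf ho.uniqueDiffOn
      (h3 hx) (n := j) (mod_cast le_top)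
    simp only [iteratedFDerivWithin_of_isOpen _ ho (h3 hx)] at h4
    refine h4.trans ?_
    have h5 : ∑ k ∈ Finset.range (j + 1), (j.choose k : ℝ) * B k ≤
        ∑ j ∈ Finset.range (m + 1), ∑ k ∈ Finset.range (j + 1), (j.choose k : ℝ) * B k :=
      Finset.single_le_sum (f := fun j => ∑ k ∈ Finset.range (j + 1), (j.choose k : ℝ) * B k)
        (fun j _ => hpos j) (Finset.mem_range.2 (Nat.lt_succ_of_le hj))
    refine le_trans ?_ (mul_le_mul_of_nonneg_right h5 hσ)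
    rw [Finset.sum_mul]
    refine Finset.sum_le_sum fun k _ => ?_
    exact mul_le_mul (mul_le_mul_of_nonneg_left (hB k x hx) (Nat.cast_nonneg _))
      (hb _ ((Nat.sub_le _ _).trans hj) x hx) (norm_nonneg _)
      (mul_nonneg (Nat.cast_nonneg _) (hB0 k))
  · have e : (fun y => A.χ' γ i y • f y) =ᶠ[𝓝 x] fun _ => 0 := by
      filter_upwards [notMem_tsupport_iff_eventuallyEq.1 hx] with y hy
      rw [hy, Pi.zero_apply, zero_smul]
    rw [(e.iteratedFDeriv ℝ j).eq_of_nhds, iteratedFDeriv_fun_zero, Pi.zero_apply, norm_zero]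
    exact mul_nonneg hC hσ

theorem gr_lip : ∃ C : ℝ, 0 < C ∧ ∀ (F Y : M → R4) (R ε : ℝ), 1 ≤ R → ε ≤ 1 → A.NB 2 F R →
    A.NB 2 Y ε → ∀ γ i, ∀ p ∈ A.A γ, |A.gr (F + Y) γ i p - A.gr F γ i p| ≤ C * R ^ 5 * ε := by
  obtain ⟨C, hC, h⟩ := gram3_lip
  refine ⟨C, hC, fun F Y R ε hR hε hF hY γ i p hp => ?_⟩
  have hx := A.s1_mem γ i hp
  have ht := (A.smχ' γ i).2.2.1 hx
  set c := A.c γ i
  set x := c.e p
  have hb : ∀ (G : M → R4) (σ : ℝ), A.NB 2 G σ → ‖du (loc c G) x‖ ≤ σ ∧ ‖dv (loc c G) x‖ ≤ σ ∧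
      ‖du (du (loc c G)) x‖ ≤ σ := fun G σ hG =>
    ⟨(norm_du_le _ _).trans (hG.2 γ i 1 one_le_two x hx),
      (norm_dv_le _ _).trans (hG.2 γ i 1 one_le_two x hx),
      (norm_du_le _ _).trans ((norm_iter_du_le (hG.1.locAt c ht) 1).trans
        (hG.2 γ i 2 le_rfl x hx))⟩
  have hd : ∀ {f k : P2 → R4} {y : P2}, ContDiffAt ℝ ∞ f y → ContDiffAt ℝ ∞ k y →
      du (f + k) y = du f y + du k y ∧ dv (f + k) y = dv f y + dv k y := by
    intro f k y hf hk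
    unfold du dv
    rw [fderiv_add (hf.differentiableAt (by simp)) (hk.differentiableAt (by simp))]
    exact ⟨rfl, rfl⟩
  have e0 : loc c (F + Y) = loc c F + loc c Y := rfl
  have e1 := hd (hF.1.locAt c ht) (hY.1.locAt c ht)
  have e2 : du (loc c F + loc c Y) =ᶠ[𝓝 x] du (loc c F) + du (loc c Y) := by
    filter_upwards [c.e.open_target.mem_nhds ht] with y hy
    exact (hd (hF.1.locAt c hy) (hY.1.locAt c hy)).1
  have e3 : du (du (loc c F + loc c Y)) x = du (du (loc c F)) x + du (du (loc c Y)) x := by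
    rw [(surf_du_ev e2).eq_of_nhds]
    exact (hd (contDiffAt_du (hF.1.locAt c ht)) (contDiffAt_du (hY.1.locAt c ht))).1
  obtain ⟨a1, a2, a3⟩ := hb F R hF
  obtain ⟨b1, b2, b3⟩ := hb Y ε hY
  change |Gram (loc c (F + Y)) x - Gram (loc c F) x| ≤ _
  unfold Gram
  rw [e0]
  refine h _ _ _ _ _ _ R ε hR hε a1 a2 a3 ?_ ?_ ?_
  · rwa [e1.1, add_sub_cancel_left]
  · rwa [e1.2, add_sub_cancel_left]
  · rwa [e3, add_sub_cancel_left]
end SAt

end Vale.Agent.P205
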