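import Vale.Agent.P205.KDefs
import Vale.Agent.P205.S1

/-! P205, K1: local patches (BLUEPRINT, module K). -/

open scoped ContDiff InnerProductSpace Topology Manifold
open Set Filter Real

noncomputable section
namespace Vale.Agent.P205

theorem k1_smooth (σ κ : ℝ) : ContDiff ℝ ∞ (shear σ κ) := by
  unfold shear
  fun_prop

theorem k1_inv (σ κ : ℝ) (z : P2) : shear (-σ) (-κ) (shear σ κ z) = z :=
  Prod.ext rfl (by simp only [shear]; ring)

theorem k1_inv' (σ κ : ℝ) (z : P2) : shear σ κ (shear (-σ) (-κ) z) = z :=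
  Prod.ext rfl (by simp only [shear]; ring)

theorem k1_fderiv (σ κ : ℝ) (z X : P2) :
    fderiv ℝ (shear σ κ) z X = (X.1, X.2 + (σ + κ * z.1) * X.1) := by
  have d1 : HasFDerivAt Prod.fst (ContinuousLinearMap.fst ℝ ℝ ℝ) z := hasFDerivAt_fst
  have h := d1.prodMk ((hasFDerivAt_snd.add (d1.const_mul σ)).add
    (((d1.pow 2).const_mul κ).mul_const 2⁻¹))
  refine (congrArg (fun L : P2 →L[ℝ] P2 => L X) h.fderiv).trans (Prod.ext rfl ?_)
  simp
  ring

/-- the part of the geodesic curvature in a sheared chart that does not depend on `κ` -/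
def k1R (s E F G Eu Ev Fu Fv Gu Gv : ℝ) : ℝ :=
  (E - 2 * s * F + s * s * G) * (Fu - s * Fv - s * (Gu - s * Gv) - (Ev - 2 * s * Fv + s * s * Gv) / 2)
    - (F - s * G) * ((Eu - s * Ev - 2 * s * (Fu - s * Fv) + s * s * (Gu - s * Gv)) / 2)

theorem k1_ktil {E F G : P2 → ℝ} (σ κ : ℝ) {x : P2} (hE : DifferentiableAt ℝ E x)
    (hF : DifferentiableAt ℝ F x) (hG : DifferentiableAt ℝ G x) :
    ktil ((fun z => E z - 2 * (σ + κ * z.1) * F z + (σ + κ * z.1) * (σ + κ * z.1) * G z) ∘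
        shear (-σ) (-κ)) ((fun z => F z - (σ + κ * z.1) * G z) ∘ shear (-σ) (-κ)) (shear σ κ x) =
      -κ * (E x * G x - F x ^ 2) + k1R (σ + κ * x.1) (E x) (F x) (G x) (du E x) (dv E x) (du F x)
        (dv F x) (du G x) (dv G x) := by
  have key : ∀ (f : P2 → ℝ) (L : P2 →L[ℝ] ℝ), HasFDerivAt f L x → ∀ X,
      fderiv ℝ (f ∘ shear (-σ) (-κ)) (shear σ κ x) X = L (X.1, X.2 + -(σ + κ * x.1) * X.1) := by
    intro f L h X
    have h1 := (k1_smooth (-σ) (-κ)).differentiable (by simp) (shear σ κ x)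
    rw [← k1_inv σ κ x] at h
    rw [(h.comp _ h1.hasFDerivAt).fderiv, ContinuousLinearMap.comp_apply, k1_fderiv]
    simp only [shear]
    ring_nf
  have ds : HasFDerivAt (fun z : P2 => σ + κ * z.1) _ x :=
    ((hasFDerivAt_fst (𝕜 := ℝ)).const_mul κ).const_add σ
  have k1 := key (fun z => E z - 2 * (σ + κ * z.1) * F z + (σ + κ * z.1) * (σ + κ * z.1) * G z) _
    ((hE.hasFDerivAt.sub ((ds.const_mul 2).mul hF.hasFDerivAt)).add
      ((ds.mul ds).mul hG.hasFDerivAt))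
  have k2 := key (fun z => F z - (σ + κ * z.1) * G z) _
    (hF.hasFDerivAt.sub (ds.mul hG.hasFDerivAt))
  rw [ktil, du, dv, du, k1, k1, k2]
  simp only [Function.comp_apply, k1_inv, add_apply, sub_apply, smul_apply, fderiv_eq_du_dv,
    smul_eq_mul, Pi.mul_apply, ContinuousLinearMap.coe_fst', k1R]
  ring

theorem k1_kappa {X Y : Type} [TopologicalSpace X] [TopologicalSpace Y] {x0 : X} {K : Set Y}
    (hK : IsCompact K) {D R : X × Y → ℝ} (hD : ∀ y ∈ K, ContinuousAt D (x0, y))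
    (hR : ∀ y ∈ K, ContinuousAt R (x0, y)) (h0 : ∀ y ∈ K, 0 < D (x0, y)) :
    ∀ᶠ k in atTop, ∀ᶠ x in 𝓝 x0, ∀ y ∈ K, 0 < k * D (x, y) + R (x, y) := by
  obtain ⟨C, hC⟩ := hK.exists_bound_of_continuousOn (f := fun y => R (x0, y) / D (x0, y))
    fun y hy => (((hR y hy).div (hD y hy) (h0 y hy).ne').comp (f := fun y => (x0, y))
      (by fun_prop)).continuousWithinAt
  filter_upwards [eventually_gt_atTop C] with k hk
  refine hK.eventually_forall_of_forall_eventually fun y hy =>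
    ((continuousAt_const.mul (hD y hy)).add (hR y hy)).eventually (lt_mem_nhds ?_)
  have h1 := (neg_le_of_abs_le (hC y hy))
  rw [le_div_iff₀ (h0 y hy)] at h1
  have h2 := mul_lt_mul_of_pos_right hk (h0 y hy)
  change 0 < k * D (x0, y) + R (x0, y)
  linarith

theorem k1_compact (r : ℝ) : IsCompact (rh r) :=
  (isCompact_closedBall (0 : P2) r).of_isClosed_subset (isClosed_le (by fun_prop) continuous_const)
    fun z hz => mem_closedBall_zero_iff.2 (max_le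
      ((le_add_of_nonneg_right (abs_nonneg z.2)).trans hz)
      ((le_add_of_nonneg_left (abs_nonneg z.1)).trans hz))

theorem k1_sub (r : ℝ) : {z : P2 | |z.1| + |z.2| < r} ⊆ rh r := fun z hz =>
  le_of_lt (a := |z.1| + |z.2|) hz

theorem k1_interior {r : ℝ} (hr : 0 < r) : interior (rh r) = {z | |z.1| + |z.2| < r} := by
  refine Subset.antisymm (fun z hz =>
    lt_of_le_of_ne (a := |z.1| + |z.2|) (interior_subset (s := rh r) hz) fun h => ?_)
    (interior_maximal (k1_sub r) (isOpen_lt (by fun_prop) continuous_const))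
  have h1 : ∀ᶠ t : ℝ in 𝓝 1, t • z ∈ rh r :=
    (show ContinuousAt (fun t : ℝ => t • z) 1 by fun_prop).eventually
      (by simp only [one_smul]; exact mem_interior_iff_mem_nhds.1 hz)
  obtain ⟨t, h2, h3⟩ := ((h1.filter_mono nhdsWithin_le_nhds).and
    (self_mem_nhdsWithin (s := Ioi (1 : ℝ)))).exists
  have h4 : 1 < t := h3
  have h5 : |t * z.1| + |t * z.2| ≤ r := h2
  rw [abs_mul, abs_mul, ← mul_add, h, abs_of_pos (by linarith)] at h5
  nlinarith

theorem k1_frontier {r : ℝ} (hr : 0 < r) : frontier (rh r) = rhb r := by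
  rw [(k1_compact r).isClosed.frontier_eq, k1_interior hr]
  ext z
  exact ⟨fun h => le_antisymm h.1 (not_lt.1 h.2), fun h => ⟨le_of_eq h, not_lt.2 (ge_of_eq h)⟩⟩

theorem k1_root {m : ℕ} (hm : 1 ≤ m) (x : ℝ) : expNegInvGlue (m * x) ^ m = expNegInvGlue x := by
  have h0 : (0 : ℝ) < m := Nat.cast_pos.2 hm
  rcases le_or_gt x 0 with h | h
  · rw [expNegInvGlue.zero_of_nonpos h, expNegInvGlue.zero_of_nonpos
      (mul_nonpos_of_nonneg_of_nonpos h0.le h), zero_pow (by omega)]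
  · rw [expNegInvGlue, expNegInvGlue, if_neg (not_le.2 h), if_neg (not_le.2 (mul_pos h0 h)),
      ← exp_nat_mul, mul_inv, mul_neg, mul_inv_cancel_left₀ h0.ne']

variable {M : Type*} [TopologicalSpace M] [ChartedSpace E2 M] [IsManifold 𝓘(ℝ, E2) ∞ M]
  [T2Space M] [CompactSpace M]

theorem exists_shear (q : Ch M) (σ κ : ℝ) : ∃ c : Ch M, IsShear q c σ κ := by
  obtain ⟨c, h1, -, h3, -⟩ := q.exists_comp_homeo
    ⟨⟨shear σ κ, shear (-σ) (-κ), k1_inv σ κ, k1_inv' σ κ⟩, (k1_smooth _ _).continuous,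
      (k1_smooth _ _).continuous⟩ (k1_smooth _ _) (k1_smooth _ _)
  exact ⟨c, h1, h3⟩

theorem IsShear.tr_from {q c : Ch M} {σ κ : ℝ} (h : IsShear q c σ κ) {p : M}
    (hp : p ∈ q.e.source) (X : P2) :
    tr q c p X = (X.1, X.2 + (σ + κ * (q.e p).1) * X.1) ∧
      tr c q p X = (X.1, X.2 - (σ + κ * (q.e p).1) * X.1) := by
  have h1 : ∀ X, tr q c p X = (X.1, X.2 + (σ + κ * (q.e p).1) * X.1) := fun X => by
    have h2 : trans q c =ᶠ[𝓝 (q.e p)] shear σ κ := by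
      filter_upwards [q.e.open_target.mem_nhds (q.e.map_source hp)] with x hx
      rw [trans, h.2, q.e.right_inv hx]
    rw [tr, h2.fderiv_eq, k1_fderiv]
  refine ⟨h1 X, ?_⟩
  have h2 := tr_tr q c q hp (h.1 ▸ hp) hp (X.1, X.2 - (σ + κ * (q.e p).1) * X.1)
  rwa [h1, tr_self q hp, sub_add_cancel] at h2

omit [IsManifold 𝓘(ℝ, E2) ∞ M] [T2Space M] [CompactSpace M] in
theorem k1_mem (q : Ch M) {A : Set P2} (hA : A ⊆ q.e.target) {p : M} :
    p ∈ q.e.symm '' A ↔ p ∈ q.e.source ∧ q.e p ∈ A :=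
  ⟨fun ⟨_, hx, e⟩ => e ▸ ⟨q.e.map_target (hA hx), (q.e.right_inv (hA hx)).symm ▸ hx⟩,
    fun h => ⟨_, h.2, q.e.left_inv h.1⟩⟩

theorem k1_kt {q c : Ch M} {σ κ : ℝ} (h : IsShear q c σ κ) {g : Ten M} (hg : Good g) {p : M}
    (hp : p ∈ q.e.source) : ktM c g p =
      -κ * (cE q g (q.e p) * cG q g (q.e p) - cF q g (q.e p) ^ 2) + k1R (σ + κ * (q.e p).1)
        (cE q g (q.e p)) (cF q g (q.e p)) (cG q g (q.e p)) (du (cE q g) (q.e p))
        (dv (cE q g) (q.e p)) (du (cF q g) (q.e p)) (dv (cF q g) (q.e p)) (du (cG q g) (q.e p))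
        (dv (cG q g) (q.e p)) := by
  obtain ⟨h1, h2, h3⟩ := hg.cEFG q (q.e.map_source hp)
  rw [← k1_ktil σ κ (h1.differentiableAt (by simp)) (h2.differentiableAt (by simp))
    (h3.differentiableAt (by simp)), ← h.2]
  have key : ∀ y ∈ c.e.target, ∀ X Y, cmp c g y X Y = cmp q g (shear (-σ) (-κ) y)
      (X.1, X.2 - (σ + κ * (shear (-σ) (-κ) y).1) * X.1)
      (Y.1, Y.2 - (σ + κ * (shear (-σ) (-κ) y).1) * Y.1) := fun y hy X Y => by
    have h4 := c.e.map_target hy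
    have h5 := cmp_trans c q g h4 (h.1 ▸ h4) X Y
    have h6 : q.e (c.e.symm y) = shear (-σ) (-κ) y := by
      rw [← k1_inv σ κ (q.e _), ← h.2, c.e.right_inv hy]
    rwa [(h.tr_from (h.1 ▸ h4) X).2, (h.tr_from (h.1 ▸ h4) Y).2, h6, c.e.right_inv hy] at h5
  refine ktil_congr ?_ ?_ <;>
    filter_upwards [c.e.open_target.mem_nhds (c.e.map_source (h.1 ▸ hp))] with y hy
  · rw [cE, key y hy, cmp_expand q hg.1, Function.comp_apply]
    ring
  · rw [cF, key y hy, cmp_expand q hg.1, Function.comp_apply]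
    ring

omit [T2Space M] [CompactSpace M] in
theorem k1_seg {g0 h0 : Ten M} (hg : Good g0) (hh : Good h0) (q : Ch M) (X Y : P2) {x0 : P2}
    (hx : x0 ∈ q.e.target) (y : ℝ × ℝ) :
    ContinuousAt (fun z : P2 × ℝ × ℝ => cmp q (g0 + z.2.1 • h0) z.1 X Y) (x0, y) ∧ ∀ Z,
      ContinuousAt (fun z : P2 × ℝ × ℝ =>
        fderiv ℝ (fun x => cmp q (g0 + z.2.1 • h0) x X Y) z.1 Z) (x0, y) := by
  have h1 := (hg.2 q X Y).contDiffAt (q.e.open_target.mem_nhds hx)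
  have h2 := (hh.2 q X Y).contDiffAt (q.e.open_target.mem_nhds hx)
  have hf : ContinuousAt (Prod.fst : P2 × ℝ × ℝ → P2) (x0, y) := continuousAt_fst
  simp only [cmp_add, cmp_smul]
  refine ⟨(h1.continuousAt.comp_of_eq hf rfl).add
    (continuousAt_snd.fst.mul (h2.continuousAt.comp_of_eq hf rfl)),
    fun Z => (((surf_dapp (surf_two h1) Z).continuousAt.comp_of_eq hf rfl).add
      (continuousAt_snd.fst.mul
        ((surf_dapp (surf_two h2) Z).continuousAt.comp_of_eq hf rfl))).congr ?_⟩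
  filter_upwards [hf.eventually (surf_ev h1), hf.eventually (surf_ev h2)] with z e1 e2
  exact (congrArg (fun L : P2 →L[ℝ] ℝ => L Z)
    ((e1.differentiableAt (by norm_num)).hasFDerivAt.add
      ((e2.differentiableAt (by norm_num)).hasFDerivAt.const_mul z.2.1)).fderiv).symm

theorem k1_curv {g0 h0 : Ten M} (hg : Good g0) (hh : Good h0) (pg : PosD g0) (ph : PosD h0)
    (q : Ch M) {x0 : P2} (hx : x0 ∈ q.e.target) : ∀ᶠ k in atTop, ∀ᶠ x in 𝓝 x0,
      ∀ (σ : ℝ) (c : Ch M), IsShear q c σ (-k) → ∀ t ∈ Icc (0 : ℝ) 1, ∀ p ∈ q.e.source,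
        q.e p = x → |σ + -k * x.1| ≤ 1 → 0 < ktM c (g0 + t • h0) p := by
  have h := k1_kappa (x0 := x0) (K := Icc (0 : ℝ) 1 ×ˢ Icc (-1 : ℝ) 1)
    (isCompact_Icc.prod isCompact_Icc)
    (D := fun z => cE q (g0 + z.2.1 • h0) z.1 * cG q (g0 + z.2.1 • h0) z.1
      - cF q (g0 + z.2.1 • h0) z.1 ^ 2)
    (R := fun z => k1R z.2.2 (cE q (g0 + z.2.1 • h0) z.1) (cF q (g0 + z.2.1 • h0) z.1)
      (cG q (g0 + z.2.1 • h0) z.1) (du (cE q (g0 + z.2.1 • h0)) z.1)
      (dv (cE q (g0 + z.2.1 • h0)) z.1) (du (cF q (g0 + z.2.1 • h0)) z.1)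
      (dv (cF q (g0 + z.2.1 • h0)) z.1) (du (cG q (g0 + z.2.1 • h0)) z.1)
      (dv (cG q (g0 + z.2.1 • h0)) z.1)) (fun y _ => ?_) (fun y _ => ?_) (fun y hy => ?_)
  · refine h.mono fun k hk => hk.mono fun x hx σ c hc t ht p hp e hs => ?_
    rw [k1_kt hc (hg.add (hh.smul t)) hp, e, neg_neg]
    exact hx (t, σ + -k * x.1) ⟨ht, abs_le.1 hs⟩
  · exact ((k1_seg hg hh q _ _ hx y).1.mul (k1_seg hg hh q _ _ hx y).1).sub
      ((k1_seg hg hh q _ _ hx y).1.pow 2)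
  · obtain ⟨e0, e1⟩ := k1_seg hg hh q (1, 0) (1, 0) hx y
    obtain ⟨f0, f1⟩ := k1_seg hg hh q (1, 0) (0, 1) hx y
    obtain ⟨g0, g1⟩ := k1_seg hg hh q (0, 1) (0, 1) hx y
    have h : Continuous fun w : ℝ × (ℝ × ℝ × ℝ) × (ℝ × ℝ × ℝ) × ℝ × ℝ × ℝ =>
        k1R w.1 w.2.1.1 w.2.1.2.1 w.2.1.2.2 w.2.2.1.1 w.2.2.2.1 w.2.2.1.2.1 w.2.2.2.2.1
          w.2.2.1.2.2 w.2.2.2.2.2 := by
      unfold k1R
      fun_prop
    exact h.continuousAt.comp (continuousAt_snd.snd.prodMk ((e0.prodMk (f0.prodMk g0)).prodMk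
      (((e1 (1, 0)).prodMk ((f1 (1, 0)).prodMk (g1 (1, 0)))).prodMk
        ((e1 (0, 1)).prodMk ((f1 (0, 1)).prodMk (g1 (0, 1)))))))
  · refine (PosD.chart (fun p X hX => ?_) (hg.add (hh.smul _)).1 q hx).2
    exact add_pos_of_pos_of_nonneg (pg p X hX) (mul_nonneg hy.1.1 (ph p X hX).le)

/-- around every point there are three rhombi whose sheared charts have curved `u`-lines and whose
second coordinates decompose `h0` with positive coefficients -/
theorem local_patch {g0 h0 : Ten M} (hg : Good g0) (hh : Good h0) (pg : PosD g0) (ph : PosD h0)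
    (p0 : M) : ∃ (q : Fin 3 → Ch M) (κ r0 σ0 : ℝ), 0 < r0 ∧ 0 < σ0 ∧ σ0 + |κ| * r0 < 1 ∧
      (∀ i, p0 ∈ (q i).e.source ∧ (q i).e p0 = 0 ∧ rh r0 ⊆ (q i).e.target) ∧
      ∀ (σ : Fin 3 → ℝ) (c : Fin 3 → Ch M), (∀ i, |σ i| ≤ σ0 ∧ IsShear (q i) (c i) (σ i) κ) →
        (∀ i, ∀ t ∈ Icc (0 : ℝ) 1, ∀ p ∈ (q i).e.symm '' rh r0,
          0 < ktM (c i) (g0 + t • h0) p) ∧
        ∀ p, (∀ i, p ∈ (q i).e.symm '' rh r0) →
          (∀ i j, i ≠ j → (tr (c i) (c j) p (1, 0)).2 ≠ 0) ∧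
            ∀ i, 0 < Lco (c i) (c (i + 1)) (c (i + 2)) h0 p := by
  obtain ⟨b, hb, hb0, hE, hF, hG⟩ := exists_normal_ch hh.1 ph p0
  choose L hL2 hL1 using S1Aux.exists_L 0
  choose q hq1 hq2 hq3 using fun i => S1Aux.exists_aff b (L i) 0
  have hp0 : ∀ i, p0 ∈ (q i).e.source := fun i => hq1 i ▸ hb
  have hq0 : ∀ i, (q i).e p0 = 0 := fun i => by rw [hq2, hb0, sub_zero, map_zero]
  have ht0 : ∀ i, (0 : P2) ∈ (q i).e.target := fun i => hq0 i ▸ (q i).e.map_source (hp0 i)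
  obtain ⟨k, hk⟩ := (eventually_all.2 fun i => k1_curv hg hh pg ph (q i) (ht0 i)).exists
  obtain ⟨X, hX⟩ : ∃ X : Fin 3 → (Fin 3 → ℝ) → P2, X = fun j s => (L j).symm (1, -s j) := ⟨_, rfl⟩
  obtain ⟨w, hw⟩ : ∃ w : Fin 3 → Fin 3 → (Fin 3 → ℝ) → ℝ,
    w = fun i j s => (L i (X j s)).2 + s i * (L i (X j s)).1 := ⟨_, rfl⟩
  have cX : ∀ j, Continuous (X j) := fun j => by rw [hX]; fun_prop
  have cw : ∀ i j, Continuous (w i j) := fun i j => by rw [hw]; fun_prop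
  have hpos : ∀ᶠ z : P2 × (Fin 3 → ℝ) in 𝓝 (0, 0), ∀ i, 0 <
      cmp b h0 ((L 0).symm z.1) (X (i + 1) z.2) (X (i + 2) z.2) *
        (w i (i + 1) z.2 * w i (i + 2) z.2) := by
    obtain ⟨h1, h2, h3⟩ := hh.cEFG b (hb0 ▸ b.e.map_source hb)
    have hf : ContinuousAt (fun z : P2 × (Fin 3 → ℝ) => (L 0).symm z.1) (0, 0) := by fun_prop
    have h4 := h1.continuousAt.comp_of_eq hf (map_zero _)
    have h5 := h2.continuousAt.comp_of_eq hf (map_zero _)
    have h6 := h3.continuousAt.comp_of_eq hf (map_zero _)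
    refine eventually_all.2 fun i => continuousAt_const.eventually_lt ?_ ?_
    · simp only [cmp_expand b hh.1]
      exact (((ContinuousAt.mul (by fun_prop) h4).add (ContinuousAt.mul (by fun_prop) h5)).add
        (ContinuousAt.mul (by fun_prop) h6)).mul (by fun_prop)
    · simp only [cmp_expand b hh.1, map_zero, hE, hF, hG, hw, hX, Pi.zero_apply, neg_zero, hL1, hL2]
      fin_cases i <;> simp [S1Aux.vv] <;> norm_num
  rw [nhds_prod_eq] at hpos
  obtain ⟨pa, ha, pb, hb', hab⟩ := eventually_prod_iff.1 hpos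
  obtain ⟨ε, hε, h1⟩ := Metric.eventually_nhds_iff.1 (ha.and ((eventually_all.2 hk).and
    (eventually_all.2 fun i => (q i).e.open_target.eventually_mem (ht0 i))))
  obtain ⟨δ, hδ, h2⟩ := Metric.eventually_nhds_iff.1 hb'
  have h3 : 0 < min δ 1 / 4 := by positivity
  have h4 : 0 < |-k| + 1 := by positivity
  obtain ⟨r, hr, hr1, hr2⟩ : ∃ r, 0 < r ∧ r < ε ∧ |-k| * r ≤ min δ 1 / 4 :=
    ⟨min (ε / 2) (min δ 1 / 4 / (|-k| + 1)), by positivity, (min_le_left _ _).trans_lt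
      (half_lt_self hε), by
        refine (mul_le_mul_of_nonneg_left (min_le_right _ _) (abs_nonneg _)).trans ?_
        rw [← mul_div_assoc, div_le_iff₀ h4]
        linarith⟩
  have h5 : ∀ x ∈ rh r, dist x 0 < ε := fun x hx => by
    rw [dist_zero_right]
    exact (max_le ((le_add_of_nonneg_right (abs_nonneg x.2)).trans hx)
      ((le_add_of_nonneg_left (abs_nonneg x.1)).trans hx)).trans_lt hr1
  have h6 : ∀ i, rh r ⊆ (q i).e.target := fun i x hx => (h1 (h5 x hx)).2.2 i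
  have h7 : ∀ σ, |σ| ≤ min δ 1 / 4 → ∀ x ∈ rh r, |σ + -k * x.1| < min δ 1 := fun σ hσ x hx => by
    have h8 := mul_le_mul_of_nonneg_left
      ((le_add_of_nonneg_right (abs_nonneg x.2)).trans hx) (abs_nonneg (-k))
    linarith [abs_add_le σ (-k * x.1), abs_mul (-k) x.1]
  refine ⟨q, -k, r, min δ 1 / 4, hr, h3, by linarith [min_le_right δ 1],
    fun i => ⟨hp0 i, hq0 i, h6 i⟩, fun σ c hc => ⟨fun i t ht p hp => ?_, fun p hp => ?_⟩⟩
  · rw [k1_mem _ (h6 i)] at hp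
    exact (h1 (h5 _ hp.2)).2.1 i _ _ (hc i).2 t ht p hp.1 rfl
      ((h7 _ (hc i).1 _ hp.2).le.trans (min_le_right _ _))
  · simp only [k1_mem _ (h6 _)] at hp
    have hpb : p ∈ b.e.source := hq1 0 ▸ (hp 0).1
    have hpc : ∀ i, p ∈ (c i).e.source := fun i => (hc i).2.1 ▸ (hp i).1
    obtain ⟨s, hs⟩ : ∃ s : Fin 3 → ℝ, s = fun i => σ i + -k * ((q i).e p).1 := ⟨_, rfl⟩
    have e1 : ∀ j, tr (c j) b p (1, 0) = X j s := fun j => by
      rw [← tr_tr (c j) (q j) b (hpc j) (hp j).1 hpb, ((hc j).2.tr_from (hp j).1 _).2,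
        (hq3 j p hpb _).2, hX, hs, zero_sub, mul_one]
    have e2 : ∀ i j, (tr (c j) (c i) p (1, 0)).2 = w i j s := fun i j => by
      rw [← tr_tr (c j) b (c i) (hpc j) hpb (hpc i), ← tr_tr b (q i) (c i) hpb (hp i).1 (hpc i),
        e1, (hq3 i p hpb _).1, ((hc i).2.tr_from (hp i).1 _).1, hw, hs]
    have e3 : ∀ i, 0 < Lco (c i) (c (i + 1)) (c (i + 2)) h0 p := fun i => by
      have e4 := hab (h1 (h5 _ (hp 0).2)).1 (h2 (y := s) ((dist_pi_lt_iff hδ).2 fun j => by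
        rw [hs, Real.dist_eq, Pi.zero_apply, sub_zero]
        exact (h7 _ (hc j).1 _ (hp j).2).trans_le (min_le_left _ _))) i
      rw [hq2, sub_zero, (L 0).symm_apply_apply] at e4
      rw [Lco, cmp_trans (c i) b h0 (hpc i) hpb, tr_tr _ _ _ (hpc _) (hpc i) hpb,
        tr_tr _ _ _ (hpc _) (hpc i) hpb, e1, e1, e2, e2]
      exact div_pos_iff.2 (mul_pos_iff.1 e4)
    refine ⟨fun i j hij h => ?_, e3⟩
    have e4 := e3 j
    rcases (by decide : ∀ i j : Fin 3, i ≠ j → i = j + 1 ∨ i = j + 2) i j hij with rfl | rfl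
    · rw [Lco, h, zero_mul, div_zero] at e4
      exact lt_irrefl _ e4
    · rw [Lco, h, mul_zero, div_zero] at e4
      exact lt_irrefl _ e4

theorem rh_frontier (q : Ch M) {r : ℝ} (hr : 0 < r) (h : rh r ⊆ q.e.target) :
    IsCompact (q.e.symm '' rh r) ∧ q.e.symm '' rh r ⊆ q.e.source ∧
      frontier (q.e.symm '' rh r) = q.e.symm '' rhb r ∧
      interior (q.e.symm '' rh r) = q.e.symm '' {z | |z.1| + |z.2| < r} := by
  have h1 := man1_cpt q (k1_compact r) h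
  have h2 := man1_sub q h
  have h3 : q.e.IsImage (q.e.symm '' rh r) (rh r) := fun p hp => by
    rw [k1_mem q h, and_iff_right hp]
  refine ⟨h1, h2, ?_, ?_⟩
  · rw [← k1_frontier hr, ← inter_eq_right.2 (h1.isClosed.frontier_subset.trans h2),
      ← h3.frontier.symm_image_eq,
      inter_eq_right.2 ((k1_compact r).isClosed.frontier_subset.trans h)]
  · rw [← k1_interior hr, ← inter_eq_right.2 (interior_subset.trans h2),
      ← h3.interior.symm_image_eq, inter_eq_right.2 (interior_subset.trans h)]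

/-- product of the four functions `expNegInvGlue (r ± m ± ℓ)` -/
theorem exists_amp_rh (q : Ch M) {r : ℝ} (hr : 0 < r) (h : rh r ⊆ q.e.target) :
    ∃ ϱ : M → ℝ, Amp (q.e.symm '' rh r) ϱ := by
  obtain ⟨y, hy⟩ : ∃ y : ℕ → P2 → ℝ, y = fun (m : ℕ) (z : P2) =>
    expNegInvGlue (m * (r - z.1 - z.2)) * expNegInvGlue (m * (r - z.1 + z.2)) *
      expNegInvGlue (m * (r + z.1 - z.2)) * expNegInvGlue (m * (r + z.1 + z.2)) := ⟨_, rfl⟩
  have h1 : ∀ m, 1 ≤ m → ∀ z, y m z ^ m = y 1 z := fun m hm z => by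
    simp only [hy, mul_pow, k1_root hm, Nat.cast_one, one_mul]
  have h2 : ∀ z, y 1 z ≠ 0 ↔ |z.1| + |z.2| < r := fun z => by
    simp only [hy, Nat.cast_one, one_mul, mul_ne_zero_iff, Ne, expNegInvGlue.zero_iff_nonpos,
      not_le]
    refine ⟨fun ⟨⟨⟨a, b⟩, c⟩, d⟩ => ?_, fun h => ⟨⟨⟨?_, ?_⟩, ?_⟩, ?_⟩⟩
    · rcases abs_cases z.1 with e | e <;> rcases abs_cases z.2 with e' | e' <;> linarith
    all_goals linarith [le_abs_self z.1, le_abs_self z.2, neg_abs_le z.1, neg_abs_le z.2]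
  have h3 : ∀ m z, 0 ≤ y m z := fun m z => hy ▸ mul_nonneg (mul_nonneg (mul_nonneg
    (expNegInvGlue.nonneg _) (expNegInvGlue.nonneg _)) (expNegInvGlue.nonneg _))
    (expNegInvGlue.nonneg _)
  have h4 : {z : P2 | |z.1| + |z.2| < r} ⊆ q.e.target := (k1_sub r).trans h
  refine ⟨ext q (y 1), fun p hp => ?_, fun p hp => ?_, fun m hm => ⟨ext q (y m),
    sm_ext q (k1_compact r) h (fun z hz => ?_) ?_, fun p => indicator_nonneg (fun _ _ => h3 _ _) p,
    fun p => ?_⟩⟩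
  · rw [(rh_frontier q hr h).2.2.2, k1_mem q h4] at hp
    rw [ext_apply q _ hp.1]
    exact (h3 _ _).lt_of_ne' ((h2 _).2 hp.2)
  · rw [(rh_frontier q hr h).2.2.2, k1_mem q h4] at hp
    exact indicator_apply_eq_zero.2 fun hp' => by_contra fun e => hp ⟨hp', (h2 _).1 e⟩
  · refine pow_eq_zero_iff (n := m) (by omega) |>.1 ((h1 m hm z).trans ?_)
    exact by_contra fun e => hz (le_of_lt ((h2 z).1 e))
  · have h5 : ContDiff ℝ ∞ expNegInvGlue := expNegInvGlue.contDiff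
    rw [hy]
    fun_prop
  · by_cases hp : p ∈ q.e.source
    · rw [ext_apply q _ hp, ext_apply q _ hp, h1 m hm]
    · rw [ext, ext, indicator_of_notMem hp, indicator_of_notMem hp, zero_pow (by omega)]

end Vale.Agent.P205
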