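import Vale.Agent.P205.K1
import Vale.Agent.P205.Generic

/-! P205, K2: generic radii and slopes (BLUEPRINT, module K). -/

open scoped ContDiff InnerProductSpace Topology Manifold
open Set Filter Real

noncomputable section
namespace Vale.Agent.P205

open MeasureTheory

/-- successive generic choices -/
theorem seq_choice {I : Type} [Finite I] (α β : I → ℝ) (hαβ : ∀ i, α i < β i)
    (B : I → ℝ → Prop) (hB : ∀ i, volume {x | x ∈ Ioo (α i) (β i) ∧ ¬ B i x} = 0)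
    (R : I → I → ℝ → ℝ → Prop)
    (h : ∀ i j, i ≠ j → ∀ y ∈ Ioo (α j) (β j), volume {x | x ∈ Ioo (α i) (β i) ∧ ¬ R i j x y} = 0 ∧
      volume {x | x ∈ Ioo (α i) (β i) ∧ ¬ R j i y x} = 0) :
    ∃ x : I → ℝ, (∀ i, x i ∈ Ioo (α i) (β i) ∧ B i (x i)) ∧ ∀ i j, i ≠ j → R i j (x i) (x j) := by
  classical
  have key : ∀ s : Finset I, ∃ x : I → ℝ, (∀ i ∈ s, x i ∈ Ioo (α i) (β i) ∧ B i (x i)) ∧
      ∀ i ∈ s, ∀ j ∈ s, i ≠ j → R i j (x i) (x j) := fun s => by
    induction s using Finset.induction_on with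
    | empty => exact ⟨fun _ => 0, by simp, by simp⟩
    | insert a s ha ih =>
      obtain ⟨x, h1, h2⟩ := ih
      have hne : ∀ j ∈ s, j ≠ a := fun j hj e => ha (e ▸ hj)
      have h3 := measure_union_null (hB a) ((measure_biUnion_null_iff s.countable_toSet).2
        fun j hj => measure_union_null (h a j (hne j hj).symm _ (h1 j hj).1).1
          (h a j (hne j hj).symm _ (h1 j hj).1).2)
      obtain ⟨z, hz, h4⟩ := not_subset.1 fun hs : Ioo (α a) (β a) ⊆ _ =>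
        (Real.volume_Ioo ▸ ENNReal.ofReal_pos.2 (sub_pos.2 (hαβ a))).ne'
          (measure_mono_null hs h3)
      simp only [mem_union, mem_iUnion, mem_ofPred_eq, hz, true_and, not_or, not_not, not_exists,
        Finset.mem_coe] at h4
      refine ⟨Function.update x a z, fun i hi => ?_, fun i hi j hj hij => ?_⟩
      · rcases Finset.mem_insert.1 hi with rfl | hi
        · rw [Function.update_self]
          exact ⟨hz, h4.1⟩
        · rw [Function.update_of_ne (hne i hi)]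
          exact h1 i hi
      · rcases Finset.mem_insert.1 hi with e | hi <;> rcases Finset.mem_insert.1 hj with e' | hj
        · exact absurd (e.trans e'.symm) hij
        · rw [e, Function.update_self, Function.update_of_ne (hne j hj)]
          exact (h4.2 j hj).1
        · rw [e', Function.update_self, Function.update_of_ne (hne i hi)]
          exact (h4.2 i hi).2
        · rw [Function.update_of_ne (hne i hi), Function.update_of_ne (hne j hj)]
          exact h2 i hi j hj hij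
  have := Fintype.ofFinite I
  obtain ⟨x, h1, h2⟩ := key Finset.univ
  exact ⟨x, fun i => h1 i (Finset.mem_univ _),
    fun i j => h2 i (Finset.mem_univ _) j (Finset.mem_univ _)⟩

/-- the signs of the four sides -/
def k2a : Fin 4 → ℝ := ![1, 1, -1, -1]
def k2b : Fin 4 → ℝ := ![1, -1, 1, -1]
/-- parametrisation of a side -/
def k2g (r : ℝ) (k : Fin 4) (s : ℝ) : P2 := (0, k2b k * r) + s • (k2a k, -k2b k)

theorem k2_abs (k : Fin 4) : |k2a k| = 1 ∧ |k2b k| = 1 := by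
  fin_cases k <;> simp [k2a, k2b]

theorem k2_sign (z : P2) : ∃ k, k2a k * z.1 = |z.1| ∧ k2b k * z.2 = |z.2| ∧
    k2a k * |z.1| = z.1 ∧ k2b k * |z.2| = z.2 := by
  rcases abs_cases z.1 with e | e <;> rcases abs_cases z.2 with e' | e'
  exacts [⟨0, by simp [k2a, k2b, e.1, e'.1]⟩, ⟨1, by simp [k2a, k2b, e.1, e'.1]⟩,
    ⟨2, by simp [k2a, k2b, e.1, e'.1]⟩, ⟨3, by simp [k2a, k2b, e.1, e'.1]⟩]

theorem k2_cov {r : ℝ} {z : P2} (hz : z ∈ rhb r) : ∃ k, ∃ s ∈ Icc 0 r, k2g r k s = z := by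
  obtain ⟨k, -, -, h1, h2⟩ := k2_sign z
  have h : |z.1| + |z.2| = r := hz
  refine ⟨k, |z.1|, ⟨abs_nonneg _, by linarith [abs_nonneg z.2]⟩, Prod.ext ?_ ?_⟩
  · simp only [k2g, Prod.smul_mk, Prod.mk_add_mk, smul_eq_mul]
    linarith
  · simp only [k2g, Prod.smul_mk, Prod.mk_add_mk, smul_eq_mul, ← h]
    linarith

theorem k2_mem {r : ℝ} (k : Fin 4) {s : ℝ} (hs : s ∈ Icc 0 r) : k2g r k s ∈ rh r := by
  have h : k2b k * r + s * -k2b k = k2b k * (r - s) := by ring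
  simp only [rh, k2g, Prod.smul_mk, Prod.mk_add_mk, smul_eq_mul, mem_ofPred_eq, zero_add, h,
    abs_mul, (k2_abs k).1, (k2_abs k).2, abs_of_nonneg hs.1, abs_of_nonneg (sub_nonneg.2 hs.2)]
  linarith

theorem k2_cor {r : ℝ} (hr : 0 < r) {k k' : Fin 4} (h : k ≠ k') {z : P2}
    (h1 : k2a k * z.1 + k2b k * z.2 = r) (h2 : k2a k' * z.1 + k2b k' * z.2 = r) :
    z ∈ ({(0, r), (0, -r), (r, 0), (-r, 0)} : Set P2) := by
  simp only [mem_insert_iff, mem_singleton_iff, Prod.ext_iff]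
  fin_cases k <;> fin_cases k' <;> simp [k2a, k2b] at h h1 h2 <;>
    first
    | exact absurd hr (by linarith)
    | exact Or.inl ⟨by linarith, by linarith⟩
    | exact Or.inr (Or.inl ⟨by linarith, by linarith⟩)
    | exact Or.inr (Or.inr (Or.inl ⟨by linarith, by linarith⟩))
    | exact Or.inr (Or.inr (Or.inr ⟨by linarith, by linarith⟩))

theorem k2_fin {A B : ℝ} (h : A ≠ 0 ∨ B ≠ 0) : {σ : ℝ | A + σ * B = 0}.Finite := by
  refine Set.Subsingleton.finite fun x hx y hy => by_contra fun hne => ?_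
  have h1 : A + x * B = 0 := hx
  have h2 : A + y * B = 0 := hy
  have h3 : B = 0 := (mul_eq_zero.1 (show (x - y) * B = 0 by linarith)).resolve_left
    (sub_ne_zero.2 hne)
  exact h.elim (fun e => e (by simpa [h3] using h1)) fun e => e h3

variable {M : Type*} [TopologicalSpace M] [ChartedSpace E2 M] [IsManifold 𝓘(ℝ, E2) ∞ M]
  [T2Space M] [CompactSpace M]

omit [T2Space M] [CompactSpace M] in
theorem k2_curve (q q' : Ch M) (r : ℝ) (k : Fin 4) :
    IsOpen (k2g r k ⁻¹' (q'.e.target ∩ q'.e.symm ⁻¹' q.e.source)) ∧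
      ∀ s ∈ k2g r k ⁻¹' (q'.e.target ∩ q'.e.symm ⁻¹' q.e.source),
        ContDiffAt ℝ ∞ (fun s => trans q' q (k2g r k s)) s ∧
          deriv (fun s => trans q' q (k2g r k s)) s ≠ 0 := by
  have h0 : ContDiff ℝ ∞ (k2g r k) := by
    unfold k2g
    fun_prop
  refine ⟨(q'.e.isOpen_inter_preimage_symm q.e.open_source).preimage h0.continuous,
    fun s hs => ?_⟩
  have h1 := contDiffAt_trans q' q (q'.e.map_target hs.1) hs.2
  have h2 := tr_ne_zero q' q (q'.e.map_target hs.1) hs.2 (X := (k2a k, -k2b k)) fun e => by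
    simpa [show k2a k = 0 from congrArg Prod.fst e] using (k2_abs k).1
  rw [tr] at h2
  rw [q'.e.right_inv hs.1] at h1 h2
  refine ⟨h1.comp s h0.contDiffAt, ?_⟩
  have h3 : HasDerivAt (k2g r k) _ s := ((hasDerivAt_id' s).smul_const _).const_add _
  rw [one_smul] at h3
  exact ((h1.differentiableAt (by simp)).hasFDerivAt.comp_hasDerivAt s h3).deriv.trans_ne h2

theorem generic_radius (q q' : Ch M) {β r' : ℝ} (h : rh β ⊆ q.e.target) (hr' : 0 < r')
    (h' : rh r' ⊆ q'.e.target) :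
    volume {r | r ∈ Ioo 0 β ∧ ¬ (q.e.symm '' rhb r ∩ q'.e.symm '' rhb r').Finite} = 0 := by
  obtain ⟨φ, hφ⟩ : ∃ φ : Fin 4 × Fin 4 → ℝ → ℝ, φ = fun k s =>
    k2a k.2 * (trans q' q (k2g r' k.1 s)).1 + k2b k.2 * (trans q' q (k2g r' k.1 s)).2 := ⟨_, rfl⟩
  have h1 : ∀ k, ContDiffOn ℝ 1 (φ k) (k2g r' k.1 ⁻¹' (q'.e.target ∩ q'.e.symm ⁻¹' q.e.source)) :=
    fun k s hs => by
      have h2 := ((k2_curve q q' r' k.1).2 s hs).1.of_le (m := 1) (by simp)
      rw [hφ]
      exact ((contDiffAt_const.mul h2.fst).add (contDiffAt_const.mul h2.snd)).contDiffWithinAt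
  have h0 := measure_iUnion_null fun k : Fin 4 × Fin 4 => sard_line (k2_curve q q' r' k.1).1 (h1 k)
  refine measure_mono_null (fun r hr => ?_) h0
  by_contra hn
  refine hr.2 ?_
  have h2 : ∀ k : Fin 4, ContinuousOn (fun s => q'.e.symm (k2g r' k s)) (Icc 0 r') := fun k =>
    q'.e.continuousOn_symm.comp (by unfold k2g; fun_prop) fun s hs => h' (k2_mem k hs)
  have h3 : ∀ k : Fin 4 × Fin 4, {s | s ∈ Icc 0 r' ∩ (fun s => q'.e.symm (k2g r' k.1 s)) ⁻¹'
      (q.e.symm '' rh β) ∧ φ k s = r}.Finite := fun k => by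
    have h4 : Icc 0 r' ∩ (fun s => q'.e.symm (k2g r' k.1 s)) ⁻¹' (q.e.symm '' rh β) ⊆
        k2g r' k.1 ⁻¹' (q'.e.target ∩ q'.e.symm ⁻¹' q.e.source) :=
      fun s hs => ⟨h' (k2_mem k.1 hs.1), man1_sub q h hs.2⟩
    exact finite_level (k2_curve q q' r' k.1).1 (isCompact_Icc.of_isClosed_subset
      ((h2 k.1).preimage_isClosed_of_isClosed isClosed_Icc
        (man1_cpt q (k1_compact β) h).isClosed) inter_subset_left) h4 (h1 k)
      fun s hs e e' => hn (mem_iUnion.2 ⟨k, s, ⟨h4 hs, e'⟩, e⟩)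
  refine (finite_iUnion fun k => (h3 k).image fun s => q'.e.symm (k2g r' k.1 s)).subset ?_
  rintro p ⟨⟨x, hx, e⟩, z, hz, rfl⟩
  obtain ⟨k, s, hs, rfl⟩ := k2_cov hz
  obtain ⟨k', h4, h5, -⟩ := k2_sign x
  have h6 : x ∈ rh β := (le_of_eq (a := |x.1| + |x.2|) hx).trans hr.1.2.le
  refine mem_iUnion.2 ⟨(k, k'), s, ⟨⟨hs, x, h6, e⟩, ?_⟩, rfl⟩
  simp only [hφ, trans, ← e, q.e.right_inv (h h6), h4, h5]
  exact hx

theorem generic_slice (q q' : Ch M) (κ : ℝ) {D : Set M} (hD : D ⊆ q.e.source) {r' : ℝ}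
    (hr' : 0 < r') (h' : rh r' ⊆ q'.e.target) :
    {σ : ℝ | ∃ v0 : ℝ, volume {u : ℝ | ∃ p ∈ q'.e.symm '' rhb r' ∩ D,
      shear σ κ (q.e p) = (u, v0)} ≠ 0}.Countable := by
  obtain ⟨m, hm⟩ : ∃ m : Fin 4 → ℝ → P2, m = fun k s => trans q' q (k2g r' k s) := ⟨_, rfl⟩
  obtain ⟨O, hO⟩ : ∃ O : Fin 4 → Set ℝ,
    O = fun k => k2g r' k ⁻¹' (q'.e.target ∩ q'.e.symm ⁻¹' q.e.source) := ⟨_, rfl⟩
  have h1 : ∀ k, IsOpen (O k) ∧ ∀ s ∈ O k, ContDiffAt ℝ ∞ (m k) s ∧ deriv (m k) s ≠ 0 :=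
    fun k => hm ▸ hO ▸ k2_curve q q' r' k
  have h2 : ∀ k, ContDiffOn ℝ 1 (m k) (O k) := fun k s hs =>
    (((h1 k).2 s hs).1.of_le (by simp)).contDiffWithinAt
  have h3 : ∀ k, ContinuousOn (deriv (m k)) (O k) := fun k =>
    (h2 k).continuousOn_deriv_of_isOpen (h1 k).1 le_rfl
  refine (countable_iUnion fun k => countable_bad_slope (h1 k).1
    (p := fun s => (deriv (m k) s).2 + κ * (m k s).1 * (deriv (m k) s).1)
    (q := fun s => (deriv (m k) s).1) ((h3 k).snd.add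
      ((continuousOn_const.mul (h2 k).continuousOn.fst).mul (h3 k).fst)) (h3 k).fst
    fun s hs => ?_).mono fun σ ⟨v0, hσ⟩ => by_contra fun hn => hσ ?_
  · refine or_iff_not_imp_right.2 fun e e' => ((h1 k).2 s hs).2 (Prod.ext (not_not.1 e) ?_)
    simpa [not_not.1 e] using e'
  · simp only [mem_iUnion, mem_ofPred_eq, not_exists, not_not] at hn
    have h4 : ∀ k, volume {s | s ∈ O k ∧ (shear σ κ (m k s)).2 = v0} = 0 := fun k => by
      refine null_level (h1 k).1 (((k1_smooth σ κ).of_le (by simp)).comp_contDiffOn (h2 k)).snd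
        (measure_mono_null (fun s hs => And.intro hs.1 ?_) (hn k)) v0
      have h5 := ((k1_smooth σ κ).differentiable (by simp) _).hasFDerivAt.comp_hasDerivAt s
        (((h1 k).2 s hs.1).1.differentiableAt (by simp)).hasDerivAt
      have h6 := (hasFDerivAt_snd.comp_hasDerivAt s h5).deriv.symm.trans hs.2
      rw [k1_fderiv, ContinuousLinearMap.coe_snd'] at h6
      linarith
    refine measure_mono_null ?_ (measure_iUnion_null fun k =>
      addHaar_image_eq_zero_of_differentiableOn_of_addHaar_eq_zero volume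
        (((h2 k).fst.differentiableOn one_ne_zero).mono fun s hs => hs.1) (h4 k))
    rintro u ⟨p, ⟨⟨z, hz, rfl⟩, hp⟩, e⟩
    obtain ⟨k, s, hs, rfl⟩ := k2_cov hz
    exact mem_iUnion.2 ⟨k, s, ⟨hO ▸ ⟨h' (k2_mem k hs), hD hp⟩, hm ▸ congrArg Prod.snd e⟩,
      hm ▸ congrArg Prod.fst e⟩

/-- the value `dv_l (∂ u_i)` at a point, as a function of the two slopes -/
theorem generic_dir (q q' : Ch M) (κ κ' : ℝ) {p : M} (hp : p ∈ q.e.source) (hp' : p ∈ q'.e.source) :
    (∀ σ' : ℝ, {σ : ℝ | ∃ c c' : Ch M, IsShear q c σ κ ∧ IsShear q' c' σ' κ' ∧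
      (tr c c' p (1, 0)).2 = 0}.Finite) ∧
    ∀ σ : ℝ, {σ' : ℝ | ∃ c c' : Ch M, IsShear q c σ κ ∧ IsShear q' c' σ' κ' ∧
      (tr c c' p (1, 0)).2 = 0}.Finite := by
  have key : ∀ {σ σ' : ℝ} {c c' : Ch M}, IsShear q c σ κ → IsShear q' c' σ' κ' →
      (tr c c' p (1, 0)).2 = (tr q q' p (1, -(σ + κ * (q.e p).1))).2
        + (σ' + κ' * (q'.e p).1) * (tr q q' p (1, -(σ + κ * (q.e p).1))).1 := fun h h' => by
    rw [← tr_tr _ q _ (h.1 ▸ hp) hp (h'.1 ▸ hp'), ← tr_tr q q' _ hp hp' (h'.1 ▸ hp'),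
      (h.tr_from hp _).2, (h'.tr_from hp' _).1, zero_sub, mul_one]
  refine ⟨fun σ' => ?_, fun σ => ?_⟩
  · obtain ⟨l, hl⟩ : ∃ l : P2 →L[ℝ] ℝ, ∀ X, l X =
        (tr q q' p X).2 + (σ' + κ' * (q'.e p).1) * (tr q q' p X).1 :=
      ⟨(ContinuousLinearMap.snd ℝ ℝ ℝ + (σ' + κ' * (q'.e p).1) • ContinuousLinearMap.fst ℝ ℝ ℝ).comp
        (tr q q' p), fun _ => rfl⟩
    have h1 : ∀ X : P2, l X = X.1 * l (1, 0) + X.2 * l (0, 1) := fun X => by
      conv_lhs => rw [surf_split X]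
      rw [map_add, map_smul, map_smul, smul_eq_mul, smul_eq_mul]
    refine (k2_fin (A := l (1, 0) - κ * (q.e p).1 * l (0, 1)) (B := -l (0, 1))
      (or_iff_not_imp_right.2 fun e e' => ?_)).subset fun σ ⟨c, c', h, h', e⟩ => ?_
    · have h2 := hl (tr q' q p (0, 1))
      have h3 : l (0, 1) = 0 := neg_eq_zero.1 (not_not.1 e)
      rw [h3, mul_zero, sub_zero] at e'
      rw [tr_tr q' q q' hp' hp hp', tr_self q' hp', h1, h3, e'] at h2
      simp at h2
    · rw [key h h', ← hl, h1] at e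
      exact Eq.trans (by ring) e
  · refine (k2_fin (A := (tr q q' p (1, -(σ + κ * (q.e p).1))).2
      + κ' * (q'.e p).1 * (tr q q' p (1, -(σ + κ * (q.e p).1))).1)
      (B := (tr q q' p (1, -(σ + κ * (q.e p).1))).1)
      (or_iff_not_imp_right.2 fun e e' => ?_)).subset fun σ' ⟨c, c', h, h', e⟩ => ?_
    · refine tr_ne_zero q q' hp hp' (fun e => one_ne_zero (congrArg Prod.fst e))
        (Prod.ext (not_not.1 e) ?_)
      simpa only [not_not.1 e, mul_zero, add_zero, Prod.snd_zero] using e'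
    · rw [key h h'] at e
      exact Eq.trans (by ring) e

theorem k2_unity {U : M → Set M} (hU : ∀ p, IsOpen (U p) ∧ p ∈ U p) :
    ∃ (n : ℕ) (pt : Fin n → M) (χ : Fin n → M → ℝ), (∀ γ, Sm (χ γ)) ∧ (∀ p, ∑ γ, χ γ p ^ 2 = 1) ∧
      ∀ γ, tsupport (χ γ) ⊆ U (pt γ) := by
  choose φ h1 h2 h3 h4 using fun p => exists_cutoffM (isClosed_singleton (x := p)) (hU p).1
    (singleton_subset_iff.2 (hU p).2)
  obtain ⟨t, ht⟩ := CompactSpace.elim_nhds_subcover (fun p => {x | φ p x = 1})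
    fun p => nhdsSet_singleton.ge (h4 p)
  obtain ⟨pt, hpt⟩ : ∃ pt : Fin t.card → M, pt = fun n => ↑(t.equivFin.symm n) := ⟨_, rfl⟩
  have h5 : ∀ x, 0 < ∑ γ, φ (pt γ) x ^ 2 := fun x => by
    obtain ⟨p, hp, e⟩ := mem_iUnion₂.1 (show x ∈ ⋃ p ∈ t, {x | φ p x = 1} from ht ▸ mem_univ x)
    refine Finset.sum_pos' (fun _ _ => sq_nonneg _) ⟨t.equivFin ⟨p, hp⟩, Finset.mem_univ _, ?_⟩
    simp [hpt, show φ p x = 1 from e]
  refine ⟨t.card, pt, fun γ x => φ (pt γ) x * (√(∑ γ, φ (pt γ) x ^ 2))⁻¹, fun γ => (h1 _).mul ?_,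
    fun x => ?_, fun γ => tsupport_mul_subset_left.trans (h2 _)⟩
  · exact (Sm.sum _ fun γ _ => (h1 _).comp (Φ := fun t => t ^ 2) fun _ => by fun_prop).comp
      (Φ := fun t => (√t)⁻¹) fun x => (contDiffAt_sqrt (h5 x).ne').inv (sqrt_pos.2 (h5 x)).ne'
  · simp only [mul_pow, ← Finset.sum_mul, inv_pow, sq_sqrt (h5 x).le]
    exact mul_inv_cancel₀ (h5 x).ne'

theorem exists_pre {g0 h0 : Ten M} (hg : Good g0) (hh : Good h0) (pg : PosD g0) (ph : PosD h0) :
    Nonempty (Pre g0 h0) := by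
  choose q κ r0 σ0 hr0 hσ0 hlt hq hmain using local_patch hg hh pg ph
  have mono : ∀ {r r' : ℝ}, r ≤ r' → rh r ⊆ rh r' := fun h z hz =>
    le_trans (a := |z.1| + |z.2|) hz h
  obtain ⟨n, pt, χ, s1, s2, s3⟩ := k2_unity
    (U := fun p => ⋂ i, interior ((q p i).e.symm '' rh (r0 p / 2))) fun p =>
      ⟨isOpen_iInter_of_finite fun _ => isOpen_interior, mem_iInter.2 fun i => by
        rw [(rh_frontier _ (half_pos (hr0 p))
          ((mono (half_le_self (hr0 p).le)).trans (hq p i).2.2)).2.2.2]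
        exact ⟨0, by simpa using hr0 p, by
          rw [← (hq p i).2.1, (q p i).e.left_inv (hq p i).1]⟩⟩
  obtain ⟨Q, hQ⟩ : ∃ Q : Fin n × Fin 3 → Ch M, Q = fun i => q (pt i.1) i.2 := ⟨_, rfl⟩
  have hT : ∀ i, ∀ r ∈ Ioo (r0 (pt i.1) / 2) (r0 (pt i.1)), 0 < r ∧ rh r ⊆ (Q i).e.target :=
    fun i r hr => ⟨(half_pos (hr0 _)).trans hr.1, hQ ▸ (mono hr.2.le).trans (hq _ _).2.2⟩
  have hrad : ∀ i j, ∀ y ∈ Ioo (r0 (pt j.1) / 2) (r0 (pt j.1)),
      volume {x | x ∈ Ioo (r0 (pt i.1) / 2) (r0 (pt i.1)) ∧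
        ¬ ((Q i).e.symm '' rhb x ∩ (Q j).e.symm '' rhb y).Finite} = 0 := fun i j y hy =>
    measure_mono_null (fun x hx => And.intro ⟨(hT i x hx.1).1, hx.1.2⟩ hx.2)
      (generic_radius (Q i) (Q j) (β := r0 (pt i.1)) (hQ ▸ (hq _ _).2.2) (hT j y hy).1 (hT j y hy).2)
  obtain ⟨r, hr, hfin⟩ := seq_choice (fun i : Fin n × Fin 3 => r0 (pt i.1) / 2)
    (fun i => r0 (pt i.1)) (fun i => half_lt_self (hr0 _)) (fun _ _ => True) (by simp)
    (fun i j x y => ((Q i).e.symm '' rhb x ∩ (Q j).e.symm '' rhb y).Finite)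
    fun i j _ y hy => ⟨hrad i j y hy, by simpa only [inter_comm] using hrad i j y hy⟩
  have hF := fun i => rh_frontier (Q i) (hT i _ (hr i).1).1 (hT i _ (hr i).1).2
  obtain ⟨D, hD⟩ : ∃ D : Fin n × Fin 3 → Set M, D = fun i => (Q i).e.symm '' rh (r i) := ⟨_, rfl⟩
  have hD' : ∀ i, (Q i).e.symm '' rh (r i) = D i := fun i => by rw [hD]
  simp only [hD'] at hF
  have hX : ∀ i j, i ≠ j → (frontier (D i) ∩ frontier (D j)).Finite := fun i j h => by
    rw [(hF i).2.2.1, (hF j).2.2.1]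
    exact hfin i j h
  have hS : ∀ i, frontier (D i) ⊆ (Q i).e.source := fun i =>
    (hF i).1.isClosed.frontier_subset.trans (hF i).2.1
  obtain ⟨σ, hσ, hdir⟩ := seq_choice (fun i : Fin n × Fin 3 => -σ0 (pt i.1)) (fun i => σ0 (pt i.1))
    (fun i => neg_lt_self (hσ0 _)) (fun l x => ∀ j v0, volume {u : ℝ |
      ∃ p ∈ (Q j).e.symm '' rhb (r j) ∩ D l, shear x (κ (pt l.1)) ((Q l).e p) = (u, v0)} = 0)
    (fun l => measure_mono_null (fun x hx => by simpa only [mem_iUnion, mem_ofPred_eq,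
      ← not_forall] using hx.2) ((countable_iUnion fun j => generic_slice (Q l) (Q j) (κ (pt l.1))
        (hF l).2.1 (hT j _ (hr j).1).1 (hT j _ (hr j).1).2).measure_zero _))
    (fun i l x y => ∀ j, i ≠ j → ∀ p ∈ frontier (D i) ∩ frontier (D j) ∩ interior (D l),
      ¬ ∃ c c' : Ch M, IsShear (Q i) c x (κ (pt i.1)) ∧ IsShear (Q l) c' y (κ (pt l.1)) ∧
        (tr c c' p (1, 0)).2 = 0) fun i l _ y _ => by
      constructor
      · refine measure_mono_null (fun x hx => by simpa only [mem_iUnion, mem_ofPred_eq,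
          not_forall, not_not] using hx.2) ((finite_iUnion fun j => finite_iUnion fun h : i ≠ j =>
            ((hX i j h).inter_of_left (interior (D l))).biUnion' fun p hp =>
              (generic_dir (Q i) (Q l) (κ (pt i.1)) (κ (pt l.1)) (hS i hp.1.1)
                ((hF l).2.1 (interior_subset hp.2))).1 y).measure_zero _)
      · refine measure_mono_null (fun x hx => by simpa only [mem_iUnion, mem_ofPred_eq,
          not_forall, not_not] using hx.2) ((finite_iUnion fun j => finite_iUnion fun h : l ≠ j =>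
            ((hX l j h).inter_of_left (interior (D i))).biUnion' fun p hp =>
              (generic_dir (Q l) (Q i) (κ (pt l.1)) (κ (pt i.1)) (hS l hp.1.1)
                ((hF i).2.1 (interior_subset hp.2))).2 y).measure_zero _)
  choose c hc using fun i => exists_shear (Q i) (σ i) (κ (pt i.1))
  choose ϱ hϱ using fun i => exists_amp_rh (Q i) (hT i _ (hr i).1).1 (hT i _ (hr i).1).2
  simp only [hD'] at hϱ
  have hm := fun γ => hmain (pt γ) (fun i => σ (γ, i)) (fun i => c (γ, i))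
    fun i => ⟨(abs_lt.2 (hσ (γ, i)).1).le, by simpa only [hQ] using hc (γ, i)⟩
  have hDs : ∀ l, D l ⊆ (q (pt l.1) l.2).e.symm '' rh (r0 (pt l.1)) := fun l => by
    rw [hD, hQ]
    exact image_mono (mono (hr l).1.2.le)
  have hsup : ∀ γ i, tsupport (χ γ) ⊆ interior (D (γ, i)) := fun γ i => by
    refine ((s3 γ).trans (iInter_subset _ i)).trans (interior_mono ?_)
    rw [hD, hQ]
    exact image_mono (mono (hr (γ, i)).1.1.le)
  have hl : ∀ i k p, k2a k * ((c i).e p).1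
      + k2b k * (shear (-σ i) (-κ (pt i.1)) ((c i).e p)).2 - r i =
        k2a k * ((Q i).e p).1 + k2b k * ((Q i).e p).2 - r i := fun i k p => by
    rw [(hc i).2, k1_inv]
    rfl
  let S : Sys M := ⟨Fin n × Fin 3, inferInstance, c, D, fun i => (hF i).1,
    fun i => (hc i).1 ▸ (hF i).2.1, hX, fun l j _ v0 => by
      simpa only [(hF j).2.2.1, (hc l).2] using (hσ l).2 j v0, fun i j l hij p hp e => by
      by_cases h : i = l
      · exact hp.1.1.2 (h ▸ hp.2)
      · exact hdir i l h j hij p hp ⟨_, _, hc i, hc l, e⟩⟩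
  refine ⟨⟨S, Fin n, inferInstance, Equiv.refl _, ⟨fun i k z => k2a k * z.1
    + k2b k * (shear (-σ i) (-κ (pt i.1)) z).2 - r i, fun i k => ?_, fun i p hp => ?_,
    fun i k p hp => ?_, fun i k k' h => ?_⟩, χ, ϱ, s1, s2, hsup,
    fun γ i j hij p hp => ((hm γ).2 p fun i => hDs (γ, i) (interior_subset (hsup γ i hp))).1 i j hij,
    fun γ i p hp => ((hm γ).2 p fun i => hDs (γ, i) (interior_subset (hsup γ i hp))).2 i,
    hϱ, fun l t ht p hp => (hm l.1).1 l.2 t ht p (hDs l hp)⟩⟩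
  · exact ((contDiff_const.mul contDiff_fst).add
      (contDiff_const.mul (k1_smooth _ _).snd)).sub contDiff_const
  · obtain ⟨x, hx, e⟩ := (hF i).2.2.1.subset hp
    obtain ⟨k, h1, h2, -⟩ := k2_sign x
    refine ⟨k, (hl i k p).trans ?_⟩
    rw [← e, (Q i).e.right_inv ((hT i _ (hr i).1).2 (le_of_eq (a := |x.1| + |x.2|) hx)), h1, h2]
    exact sub_eq_zero.2 hx
  · have h1 := (((hasFDerivAt_fst (𝕜 := ℝ)).const_mul (k2a k)).add ((hasFDerivAt_snd.comp _
      ((k1_smooth (-σ i) (-κ (pt i.1))).differentiable (by simp) ((c i).e p)).hasFDerivAt).const_mul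
        (k2b k))).sub_const (r i)
    refine (congrArg (fun L : P2 →L[ℝ] ℝ => L (1, 0)) h1.fderiv).trans_ne fun e => ?_
    simp only [add_apply, smul_apply, ContinuousLinearMap.comp_apply, k1_fderiv, smul_eq_mul,
      ContinuousLinearMap.coe_fst', ContinuousLinearMap.coe_snd', mul_one, zero_add, (hc i).2,
      shear] at e
    have h2 := congrArg abs (eq_neg_of_add_eq_zero_left e)
    rw [abs_neg, abs_mul, (k2_abs k).1, (k2_abs k).2, one_mul] at h2
    have h3 := ((k1_mem _ (hT i _ (hr i).1).2).1 ((hD' i).symm.subset hp)).2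
    have h4 := mul_le_mul_of_nonneg_left ((le_add_of_nonneg_right (abs_nonneg _)).trans
      (le_trans (a := |((Q i).e p).1| + |((Q i).e p).2|) h3 (hr i).1.2.le))
      (abs_nonneg (κ (pt i.1)))
    linarith [abs_add_le (-σ i) (-κ (pt i.1) * ((Q i).e p).1), abs_neg (σ i), abs_neg (κ (pt i.1)),
      abs_mul (-κ (pt i.1)) ((Q i).e p).1, hlt (pt i.1), abs_lt.2 (hσ i).1,
      congrArg (· * |((Q i).e p).1|) (abs_neg (κ (pt i.1)))]
  · refine ((toFinite _).image (Q i).e.symm).subset fun p hp => ⟨_, k2_cor (hT i _ (hr i).1).1 h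
      (sub_eq_zero.1 ((hl i k p).symm.trans hp.2.1)) (sub_eq_zero.1 ((hl i k' p).symm.trans hp.2.2)),
      (Q i).e.left_inv (hS i hp.1)⟩

end Vale.Agent.P205
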