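import Vale.Agent.P205.KDefs

/-! P205, K3: perturbation in a normal direction (BLUEPRINT, module K). -/

open scoped ContDiff InnerProductSpace Topology Manifold
open Set Filter Real

noncomputable section
namespace Vale.Agent.P205

theorem k3_perp {A K ξ : P2 → R4} {x : P2} (hA : ContDiffAt ℝ ∞ A x)
    (hK : ContDiffAt ℝ ∞ K x) (hξ : ContDiffAt ℝ ∞ ξ x) (h2 : gram2 (A x) (K x) ≠ 0) :
    ContDiffAt ℝ ∞ (fun y => perp (A y) (K y) (ξ y)) x := by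
  have := ContDiffAt.comp (g := fun z : R4 × R4 × R4 => perp z.1 z.2.1 z.2.2)
    (f := fun y => (A y, K y, ξ y)) x (contDiffAt_perp h2 (ξ x)) (hA.prodMk (hK.prodMk hξ))
  exact this

theorem k3_lip {E F : Type} [NormedAddCommGroup E] [NormedSpace ℝ E] [NormedAddCommGroup F]
    [NormedSpace ℝ F] {Φ : E → F} {K O : Set E} (hK : IsCompact K)
    (h : ∀ z ∈ K, ContDiffAt ℝ 1 Φ z ∧ O ∈ 𝓝 z) : ∃ δ L : ℝ, 0 < δ ∧ 0 ≤ L ∧
      ∀ z ∈ K, ∀ z', ‖z' - z‖ ≤ δ → z' ∈ O ∧ ‖Φ z' - Φ z‖ ≤ L * ‖z' - z‖ := by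
  refine hK.induction_on (p := fun S => ∃ δ L : ℝ, 0 < δ ∧ 0 ≤ L ∧
      ∀ z ∈ S, ∀ z', ‖z' - z‖ ≤ δ → z' ∈ O ∧ ‖Φ z' - Φ z‖ ≤ L * ‖z' - z‖)
    ⟨1, 0, one_pos, le_rfl, fun z hz => absurd hz (notMem_empty z)⟩ ?_ ?_ ?_
  · rintro s t hst ⟨δ, L, h1, h2, h3⟩
    exact ⟨δ, L, h1, h2, fun z hz => h3 z (hst hz)⟩
  · rintro s t ⟨δ, L, h1, h2, h3⟩ ⟨δ', L', h1', h2', h3'⟩
    refine ⟨min δ δ', L + L', lt_min h1 h1', add_nonneg h2 h2', fun z hz z' hz' => ?_⟩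
    rcases hz with hz | hz
    · obtain ⟨a, b⟩ := h3 z hz z' (hz'.trans (min_le_left _ _))
      exact ⟨a, b.trans (mul_le_mul_of_nonneg_right (by linarith) (norm_nonneg _))⟩
    · obtain ⟨a, b⟩ := h3' z hz z' (hz'.trans (min_le_right _ _))
      exact ⟨a, b.trans (mul_le_mul_of_nonneg_right (by linarith) (norm_nonneg _))⟩
  · intro z hz
    obtain ⟨L, t, ht, hL⟩ := (h z hz).1.exists_lipschitzOnWith
    obtain ⟨r, hr, hb⟩ := Metric.mem_nhds_iff.1 (inter_mem ht (h z hz).2)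
    refine ⟨Metric.ball z (r / 2), mem_nhdsWithin_of_mem_nhds (Metric.ball_mem_nhds z (by linarith)),
      r / 2, L, by linarith, L.2, fun w hw w' hw' => ?_⟩
    have a1 : w ∈ Metric.ball z r := Metric.ball_subset_ball (by linarith) hw
    have a2 : w' ∈ Metric.ball z r := by
      rw [mem_ball_iff_norm] at hw ⊢
      have := norm_sub_le_norm_sub_add_norm_sub w' w z
      linarith
    exact ⟨(hb a2).2, hL.norm_sub_le (hb a2).1 (hb a1).1⟩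

theorem k3_perp_lip {K : Set P2} (hK : IsCompact K) {A B : P2 → R4} (hA : ContinuousOn A K)
    (hB : ContinuousOn B K) (h : ∀ x ∈ K, 0 < gram2 (A x) (B x)) : ∃ δ L : ℝ, 0 < δ ∧ 0 ≤ L ∧
      ∀ x ∈ K, ∀ (s s' : R4) (τ : ℝ), ‖s‖ ≤ τ → ‖s'‖ ≤ τ → τ ≤ δ →
        0 < gram2 (A x + s) (B x + s') ∧
        ∀ ξ, ‖perp (A x + s) (B x + s') ξ - perp (A x) (B x) ξ‖ ≤ L * τ * ‖ξ‖ := by
  have hc : IsCompact ((fun z : P2 × R4 => (A z.1, B z.1, z.2)) ''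
      (K ×ˢ Metric.closedBall (0 : R4) 1)) := by
    refine (hK.prod (isCompact_closedBall _ _)).image_of_continuousOn ?_
    exact (hA.comp continuousOn_fst fun z hz => hz.1).prodMk
      ((hB.comp continuousOn_fst fun z hz => hz.1).prodMk continuousOn_snd)
  obtain ⟨δ, L, h1, h2, h3⟩ := k3_lip (Φ := fun z : R4 × R4 × R4 => perp z.1 z.2.1 z.2.2)
    (O := {z : R4 × R4 × R4 | 0 < gram2 z.1 z.2.1}) hc (by
      rintro _ ⟨z, hz, rfl⟩
      refine ⟨(contDiffAt_perp (h _ hz.1).ne' _).of_le (by simp), ?_⟩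
      have : Continuous fun z : R4 × R4 × R4 => gram2 z.1 z.2.1 := by
        unfold gram2
        fun_prop
      exact (isOpen_lt continuous_const this).mem_nhds (h _ hz.1))
  refine ⟨δ, L, h1, h2, fun x hx s s' τ hs hs' hτ => ?_⟩
  have key : ∀ u : R4, ‖u‖ ≤ 1 → 0 < gram2 (A x + s) (B x + s') ∧
      ‖perp (A x + s) (B x + s') u - perp (A x) (B x) u‖ ≤ L * τ := by
    intro u hu
    have hn : ‖((A x + s, B x + s', u) : R4 × R4 × R4) - (A x, B x, u)‖ ≤ τ := by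
      simp [Prod.norm_def, hs, hs']
    obtain ⟨a, b⟩ := h3 (A x, B x, u) ⟨(x, u), ⟨hx, mem_closedBall_zero_iff.2 hu⟩, rfl⟩
      (A x + s, B x + s', u) (hn.trans hτ)
    exact ⟨a, b.trans (mul_le_mul_of_nonneg_left hn h2)⟩
  refine ⟨(key 0 (by simp)).1, fun ξ => ?_⟩
  obtain ⟨u, hu, e⟩ : ∃ u : R4, ‖u‖ ≤ 1 ∧ ξ = ‖ξ‖ • u := by
    by_cases h0 : ξ = 0
    · exact ⟨0, by simp, by simp [h0]⟩
    · exact ⟨‖ξ‖⁻¹ • ξ, (norm_smul_inv_norm (𝕜 := ℝ) h0).le, by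
        rw [smul_smul, mul_inv_cancel₀ (norm_ne_zero_iff.2 h0), one_smul]⟩
  have e2 : perp (A x + s) (B x + s') ξ - perp (A x) (B x) ξ =
      ‖ξ‖ • (perp (A x + s) (B x + s') u - perp (A x) (B x) u) := by
    rw [smul_sub, ← perp_smul, ← perp_smul, ← e]
  rw [e2, norm_smul, norm_norm, mul_comm]
  exact mul_le_mul_of_nonneg_right (key u hu).2 (norm_nonneg _)

section
variable {V : Type} [NormedAddCommGroup V] [NormedSpace ℝ V]

theorem k3_n1 {g : P2 → V} {x : P2} {C : ℝ} (h : ‖iteratedFDeriv ℝ 1 g x‖ ≤ C) (Y : P2) :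
    ‖fderiv ℝ g x Y‖ ≤ C * ‖Y‖ := by
  rw [norm_iteratedFDeriv_one] at h
  exact (fderiv ℝ g x).le_of_opNorm_le h Y

theorem k3_n2 {g : P2 → V} {x : P2} (hg : ContDiffAt ℝ ∞ g x) {C : ℝ}
    (h : ‖iteratedFDeriv ℝ 2 g x‖ ≤ C) (W Y : P2) : ‖dd g x W Y‖ ≤ C * (‖W‖ * ‖Y‖) := by
  rw [dd_eq_iterated hg]
  refine ((iteratedFDeriv ℝ 2 g x).le_of_opNorm_le h _).trans (le_of_eq ?_)
  simp [Fin.prod_univ_two]
end

theorem k3_d1 {f ν : P2 → R4} {b : P2 → ℝ} {x : P2} (hf : ContDiffAt ℝ 2 f x)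
    (hν : ContDiffAt ℝ 2 ν x) (hb : ContDiffAt ℝ 2 b x) (Y : P2) :
    fderiv ℝ (fun z => f z + b z • ν z) x Y =
      fderiv ℝ f x Y + (b x • fderiv ℝ ν x Y + fderiv ℝ b x Y • ν x) := by
  have d1 := hf.differentiableAt (by simp)
  have d2 := hν.differentiableAt (by simp)
  have d3 := hb.differentiableAt (by simp)
  rw [fderiv_fun_add d1 (d3.fun_smul d2), fderiv_fun_smul d3 d2]
  rfl

theorem k3_d2 {f ν : P2 → R4} {b : P2 → ℝ} {x : P2} (hf : ContDiffAt ℝ ∞ f x)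
    (hν : ContDiffAt ℝ ∞ ν x) (hb : ContDiffAt ℝ ∞ b x) (W Y : P2) :
    dd (fun z => f z + b z • ν z) x W Y = dd f x W Y + dd b x W Y • ν x +
      (b x • dd ν x W Y + fderiv ℝ b x W • fderiv ℝ ν x Y + fderiv ℝ b x Y • fderiv ℝ ν x W) := by
  have e : (fun z => fderiv ℝ (fun z => f z + b z • ν z) z Y) =ᶠ[𝓝 x]
      fun z => fderiv ℝ f z Y + (b z • fderiv ℝ ν z Y + fderiv ℝ b z Y • ν z) := by
    filter_upwards [surf_ev hf, surf_ev hν, surf_ev hb] with z a1 a2 a3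
    exact k3_d1 a1 a2 a3 Y
  have d1 := surf_dapp (surf_two hf) Y
  have d2 := surf_dapp (surf_two hν) Y
  have d3 := surf_dapp (surf_two hb) Y
  have d4 := hν.differentiableAt (by simp)
  have d5 := hb.differentiableAt (by simp)
  unfold dd
  rw [e.fderiv_eq, fderiv_fun_add d1 ((d5.fun_smul d2).fun_add (d3.fun_smul d4)),
    fderiv_fun_add (d5.fun_smul d2) (d3.fun_smul d4), fderiv_fun_smul d5 d2, fderiv_fun_smul d3 d4]
  simp only [add_apply, smul_apply, ContinuousLinearMap.smulRight_apply]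
  abel

theorem k3_alg {a2 a1 ν r s : R4} {h C σ R w : ℝ} (hC : 1 ≤ C) (hσ : 0 ≤ σ) (hσ1 : σ ≤ 1)
    (hR : 0 ≤ R) (hw : 0 ≤ w) (h1 : ‖a2‖ ≤ C * w) (h2 : ‖a1‖ ≤ C) (h3 : ‖ν‖ = 1)
    (h4 : ⟪a1, ν⟫_ℝ = 0) (h5 : ‖r‖ ≤ 3 * C * σ * w) (h6 : ‖s‖ ≤ 2 * C * σ) (h7 : |h| ≤ R * w) :
    |⟪a1 + s, a2 + h • ν + r⟫_ℝ - ⟪a1, a2⟫_ℝ| ≤ 13 * C ^ 2 * (σ * (1 + R)) * w := by
  have e : ⟪a1 + s, a2 + h • ν + r⟫_ℝ - ⟪a1, a2⟫_ℝ = ⟪s, a2⟫_ℝ + h * ⟪s, ν⟫_ℝ + ⟪a1 + s, r⟫_ℝ := by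
    simp only [inner_add_left, inner_add_right, real_inner_smul_right, h4]
    ring
  have hC0 : 0 ≤ C := zero_le_one.trans hC
  have k1 : |⟪s, a2⟫_ℝ| ≤ 2 * C * σ * (C * w) :=
    (abs_real_inner_le_norm _ _).trans (mul_le_mul h6 h1 (norm_nonneg _) (by positivity))
  have k2 : |h * ⟪s, ν⟫_ℝ| ≤ R * w * (2 * C * σ) := by
    rw [abs_mul]
    refine mul_le_mul h7 ((abs_real_inner_le_norm _ _).trans ?_) (abs_nonneg _) (by positivity)
    rwa [h3, mul_one]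
  have k3 : |⟪a1 + s, r⟫_ℝ| ≤ 3 * C * (3 * C * σ * w) := by
    refine (abs_real_inner_le_norm _ _).trans (mul_le_mul ?_ h5 (norm_nonneg _) (by positivity))
    have := norm_add_le a1 s
    nlinarith
  rw [e]
  refine (abs_add_three _ _ _).trans ?_
  have p1 : 0 ≤ C ^ 2 * σ * w := by positivity
  have p2 : 0 ≤ C * σ * R * w := by positivity
  have p3 : C * σ * R * w ≤ C * (C * σ * R * w) := le_mul_of_one_le_left p2 hC
  nlinarith

theorem k3_plane {K : Set P2} (hK : IsCompact K) {f ν : P2 → R4} {C : ℝ} (hC : 1 ≤ C)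
    (hf : ∀ x ∈ K, ContDiffAt ℝ ∞ f x) (hν : ∀ x ∈ K, ContDiffAt ℝ ∞ ν x)
    (bf : ∀ j ≤ 2, ∀ x ∈ K, ‖iteratedFDeriv ℝ j f x‖ ≤ C)
    (bν : ∀ j ≤ 2, ∀ x ∈ K, ‖iteratedFDeriv ℝ j ν x‖ ≤ C)
    (hd : ∀ x ∈ K, 0 < det2 f x) (hu : ∀ x ∈ K, ‖ν x‖ = 1 ∧ ∀ X, ⟪fderiv ℝ f x X, ν x⟫_ℝ = 0)
    {ε : ℝ} (hε : 0 < ε) : ∃ δ : ℝ, 0 < δ ∧ ∀ (b : P2 → ℝ) (σ R : ℝ), 0 ≤ σ → 0 ≤ R →
      σ * (1 + R) ≤ δ → ∀ x ∈ K, ContDiffAt ℝ ∞ b x → (∀ j ≤ 1, ‖iteratedFDeriv ℝ j b x‖ ≤ σ) →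
      ‖iteratedFDeriv ℝ 2 b x‖ ≤ R → ∀ g : P2 → R4, g = (fun z => f z + b z • ν z) →
      0 < det2 g x ∧
      (∀ X Y : P2, ‖X‖ ≤ 1 → ‖Y‖ ≤ 1 → ∀ φ : P2 → ℝ, (φ =ᶠ[𝓝 x] fun z =>
        ⟪fderiv ℝ g z X, fderiv ℝ g z Y⟫_ℝ - ⟪fderiv ℝ f z X, fderiv ℝ f z Y⟫_ℝ) →
        |φ x| ≤ ε ∧ ‖fderiv ℝ φ x‖ ≤ ε) ∧
      ‖nrm g x (ν x) - ν x‖ ≤ ε ∧
      ∀ Y Z, ‖II g x Y Z - II f x Y Z - dd b x Y Z • ν x‖ ≤ ε * ‖Y‖ * ‖Z‖ := by
  obtain ⟨δ0, L, hδ0, hL, H⟩ := k3_perp_lip hK (A := du f) (B := dv f)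
    (fun x hx => (contDiffAt_du (hf x hx)).continuousAt.continuousWithinAt)
    (fun x hx => (contDiffAt_dv (hf x hx)).continuousAt.continuousWithinAt) hd
  have hC0 : 0 < C := zero_lt_one.trans_le hC
  refine ⟨min 1 (min (δ0 / (2 * C)) (ε / (30 * C ^ 2 * (1 + L)))), by positivity,
    fun b σ R hσ hR hτ x hx hb b1 b2 g hg => ?_⟩
  set τ := σ * (1 + R) with hτd
  have hστ : σ ≤ τ := le_mul_of_one_le_right hσ (by linarith)
  have hσR : σ * R ≤ τ := mul_le_mul_of_nonneg_left (by linarith) hσ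
  have hτ0 : 0 ≤ τ := hσ.trans hστ
  have hσ1 : σ ≤ 1 := hστ.trans (hτ.trans (min_le_left _ _))
  have t1 : 2 * C * σ ≤ δ0 := by
    have := hστ.trans (hτ.trans ((min_le_right _ _).trans (min_le_left _ _)))
    rwa [le_div_iff₀ (by positivity), mul_comm] at this
  have t2 : 30 * C ^ 2 * (1 + L) * τ ≤ ε := by
    have := hτ.trans ((min_le_right _ _).trans (min_le_right _ _))
    rwa [le_div_iff₀ (by positivity), mul_comm] at this
  have hb0 : |b x| ≤ σ := by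
    have := b1 0 zero_le_one
    rwa [norm_iteratedFDeriv_zero] at this
  have hgs : ContDiffAt ℝ ∞ g x := hg ▸ (hf x hx).add (hb.smul (hν x hx))
  obtain ⟨s, e1, hs⟩ : ∃ s : P2 → R4, (∀ Y, fderiv ℝ g x Y = fderiv ℝ f x Y + s Y) ∧
      ∀ Y, ‖s Y‖ ≤ 2 * C * σ * ‖Y‖ := by
    refine ⟨_, fun Y => hg ▸ k3_d1 (surf_two (hf x hx)) (surf_two (hν x hx)) (surf_two hb) Y,
      fun Y => (norm_add_le _ _).trans ?_⟩
    rw [norm_smul, norm_smul, (hu x hx).1, mul_one, Real.norm_eq_abs]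
    have a1 := mul_le_mul hb0 (k3_n1 (bν 1 one_le_two x hx) Y) (norm_nonneg _) hσ
    have a2 := k3_n1 (b1 1 le_rfl) Y
    have a3 : σ * ‖Y‖ ≤ C * (σ * ‖Y‖) := le_mul_of_one_le_left (by positivity) hC
    linarith
  obtain ⟨r, e2, hr⟩ : ∃ r : P2 → P2 → R4, (∀ W Y, dd g x W Y = dd f x W Y + dd b x W Y • ν x +
      r W Y) ∧ ∀ W Y, ‖r W Y‖ ≤ 3 * C * σ * (‖W‖ * ‖Y‖) := by
    refine ⟨_, fun W Y => hg ▸ k3_d2 (hf x hx) (hν x hx) hb W Y,
      fun W Y => norm_add₃_le.trans ?_⟩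
    rw [norm_smul, norm_smul, norm_smul, Real.norm_eq_abs]
    have a1 := mul_le_mul hb0 (k3_n2 (hν x hx) (bν 2 le_rfl x hx) W Y) (norm_nonneg _) hσ
    have a2 := mul_le_mul (k3_n1 (b1 1 le_rfl) W) (k3_n1 (bν 1 one_le_two x hx) Y)
      (norm_nonneg _) (by positivity)
    have a3 := mul_le_mul (k3_n1 (b1 1 le_rfl) Y) (k3_n1 (bν 1 one_le_two x hx) W)
      (norm_nonneg _) (by positivity)
    linarith
  have n1 : ‖((1, 0) : P2)‖ = 1 := by simp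
  have n2 : ‖((0, 1) : P2)‖ = 1 := by simp
  obtain ⟨g1, g2⟩ := H x hx (s (1, 0)) (s (0, 1)) (2 * C * σ)
    ((hs _).trans_eq (by rw [n1, mul_one])) ((hs _).trans_eq (by rw [n2, mul_one])) t1
  have eu : du g x = du f x + s (1, 0) := e1 _
  have ev : dv g x = dv f x + s (0, 1) := e1 _
  rw [← eu, ← ev] at g1 g2
  have pn : perp (du f x) (dv f x) (ν x) = ν x :=
    perp_of_orth (by rw [real_inner_comm]; exact (hu x hx).2 _)
      (by rw [real_inner_comm]; exact (hu x hx).2 _)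
  have g3 : ‖nrm g x (ν x) - ν x‖ ≤ L * (2 * C * σ) := by
    have := g2 (ν x)
    rwa [pn, (hu x hx).1, mul_one] at this
  have q0 : 0 ≤ C ^ 2 * τ := by positivity
  have q1 : 0 ≤ C ^ 2 * L * τ := by positivity
  have q2 : C * τ ≤ C ^ 2 * τ := mul_le_mul_of_nonneg_right (by nlinarith) hτ0
  have q3 : C * L * τ ≤ C ^ 2 * L * τ :=
    mul_le_mul_of_nonneg_right (mul_le_mul_of_nonneg_right (by nlinarith) hL) hτ0
  have q4 : C * L * σ ≤ C * L * τ := mul_le_mul_of_nonneg_left hστ (by positivity)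
  refine ⟨g1, fun X Y hX hY φ hφ => ⟨?_, ?_⟩, g3.trans (by linarith), fun Y Z => ?_⟩
  · have aX : ‖fderiv ℝ f x X‖ ≤ C :=
      (k3_n1 (bf 1 one_le_two x hx) X).trans (mul_le_of_le_one_right hC0.le hX)
    have aY : ‖fderiv ℝ f x Y‖ ≤ C * 1 :=
      (k3_n1 (bf 1 one_le_two x hx) Y).trans (mul_le_mul_of_nonneg_left hY hC0.le)
    have sX : ‖s X‖ ≤ 2 * C * σ := (hs X).trans (mul_le_of_le_one_right (by positivity) hX)
    have sY : ‖s Y‖ ≤ 3 * C * σ * 1 := by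
      have := (hs Y).trans (mul_le_of_le_one_right (by positivity) hY)
      have : 0 ≤ C * σ := by positivity
      linarith
    have := k3_alg hC hσ hσ1 hR zero_le_one aY aX (hu x hx).1 ((hu x hx).2 X) sY sX
      (h := 0) (by simpa using hR)
    rw [zero_smul, add_zero, ← e1, ← e1] at this
    rw [hφ.eq_of_nhds]
    linarith
  · rw [hφ.fderiv_eq]
    refine ContinuousLinearMap.opNorm_le_bound _ hε.le fun W => ?_
    have d1 := fun Y => surf_dapp (surf_two hgs) Y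
    have d2 := fun Y => surf_dapp (surf_two (hf x hx)) Y
    rw [fderiv_fun_sub ((d1 X).inner ℝ (d1 Y)) ((d2 X).inner ℝ (d2 Y)), sub_apply,
      fderiv_inner_apply ℝ (d1 X) (d1 Y), fderiv_inner_apply ℝ (d2 X) (d2 Y)]
    have key : ∀ X Y : P2, ‖X‖ ≤ 1 → ‖Y‖ ≤ 1 →
        |⟪fderiv ℝ g x X, dd g x W Y⟫_ℝ - ⟪fderiv ℝ f x X, dd f x W Y⟫_ℝ| ≤
          13 * C ^ 2 * τ * ‖W‖ := by
      intro X Y hX hY
      have w1 : ‖W‖ * ‖Y‖ ≤ ‖W‖ := mul_le_of_le_one_right (norm_nonneg _) hY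
      rw [e1, e2]
      exact k3_alg hC hσ hσ1 hR (norm_nonneg W)
        ((k3_n2 (hf x hx) (bf 2 le_rfl x hx) W Y).trans (mul_le_mul_of_nonneg_left w1 hC0.le))
        ((k3_n1 (bf 1 one_le_two x hx) X).trans (mul_le_of_le_one_right hC0.le hX))
        (hu x hx).1 ((hu x hx).2 X)
        ((hr W Y).trans (mul_le_mul_of_nonneg_left w1 (by positivity)))
        ((hs X).trans (mul_le_of_le_one_right (by positivity) hX))
        ((k3_n2 hb b2 W Y).trans (mul_le_mul_of_nonneg_left w1 hR))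
    have a1 := key X Y hX hY
    have a2 := key Y X hY hX
    rw [real_inner_comm, real_inner_comm (dd f x W X)] at a2
    have a3 : 26 * C ^ 2 * τ * ‖W‖ ≤ ε * ‖W‖ :=
      mul_le_mul_of_nonneg_right (by linarith) (norm_nonneg _)
    change |(⟪fderiv ℝ g x X, dd g x W Y⟫_ℝ + ⟪dd g x W X, fderiv ℝ g x Y⟫_ℝ) -
      (⟪fderiv ℝ f x X, dd f x W Y⟫_ℝ + ⟪dd f x W X, fderiv ℝ f x Y⟫_ℝ)| ≤ _
    rw [add_sub_add_comm]
    exact (abs_add_le _ _).trans (by linarith)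
  · have e : II g x Y Z - II f x Y Z - dd b x Y Z • ν x =
        (perp (du g x) (dv g x) (dd f x Y Z) - perp (du f x) (dv f x) (dd f x Y Z)) +
        dd b x Y Z • (nrm g x (ν x) - ν x) + perp (du g x) (dv g x) (r Y Z) := by
      simp only [II, nrm, e2, perp_add, perp_smul, smul_sub]
      abel
    rw [e]
    refine norm_add₃_le.trans ?_
    have a1 := (g2 (dd f x Y Z)).trans (mul_le_mul_of_nonneg_left
      (k3_n2 (hf x hx) (bf 2 le_rfl x hx) Y Z) (by positivity))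
    have a2 := mul_le_mul (k3_n2 hb b2 Y Z) g3 (norm_nonneg _) (by positivity)
    have a3 := (norm_perp_le g1.ne' (r Y Z)).trans (hr Y Z)
    rw [norm_smul]
    have w0 : 0 ≤ ‖Y‖ * ‖Z‖ := by positivity
    have a4 : L * (2 * C * σ) * C + R * (L * (2 * C * σ)) + 3 * C * σ ≤ ε := by
      have c1 : C ^ 2 * L * σ ≤ C ^ 2 * L * τ := mul_le_mul_of_nonneg_left hστ (by positivity)
      have c2 : C * L * (σ * R) ≤ C * L * τ := mul_le_mul_of_nonneg_left hσR (by positivity)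
      have c3 : C * σ ≤ C * τ := mul_le_mul_of_nonneg_left hστ hC0.le
      linarith
    have a5 := mul_le_mul_of_nonneg_right a4 w0
    linarith

variable {M : Type*} [TopologicalSpace M] [ChartedSpace E2 M] [IsManifold 𝓘(ℝ, E2) ∞ M]
  [T2Space M] [CompactSpace M]

theorem exists_UN {F ν : M → R4} (hF : Sm F) (hν : Sm ν) (hi : Imm F) (ht : Transv F ν) :
    ∃ n : M → R4, UN F n ∧ ∀ (c : Ch M), ∀ p ∈ c.e.source,
      ∃ θ : ℝ, 0 < θ ∧ n p = θ • nrmM F c p (ν p) := by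
  choose d hd using exists_ch (M := M)
  have hne : ∀ (c : Ch M), ∀ p ∈ c.e.source, nrmM F c p (ν p) ≠ 0 := fun c p hp =>
    (transv_iff hF c hp (hi p) _).1 (ht p)
  have he : ∀ (c : Ch M), ∀ p ∈ c.e.source, nrmM F (d p) p (ν p) = nrmM F c p (ν p) :=
    fun c p hp => nrmM_trans hF _ c (hd p) hp (hi p) _
  refine ⟨fun p => ‖nrmM F (d p) p (ν p)‖⁻¹ • nrmM F (d p) p (ν p), ⟨?_, fun p => ⟨?_, ?_⟩⟩,
    fun c p hp => ⟨_, inv_pos.2 (norm_pos_iff.2 (hne _ p (hd p))), by rw [← he c p hp]⟩⟩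
  · refine sm_of_loc fun p => ⟨d p, hd p, ?_⟩
    have hx := (d p).e.map_source (hd p)
    have s1 : ContDiffAt ℝ ∞ (fun x => nrm (loc (d p) F) x (loc (d p) ν x)) ((d p).e p) :=
      k3_perp (contDiffAt_du (hF.locAt _ hx)) (contDiffAt_dv (hF.locAt _ hx)) (hν.locAt _ hx)
        ((imm_iff hF _ (hd p)).1 (hi p)).ne'
    have s2 : nrm (loc (d p) F) ((d p).e p) (loc (d p) ν ((d p).e p)) ≠ 0 := by
      have := hne _ p (hd p)
      rwa [loc, (d p).e.left_inv (hd p)]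
    refine (((s1.norm ℝ s2).inv (norm_ne_zero_iff.2 s2)).smul s1).congr_of_eventuallyEq ?_
    filter_upwards [(d p).e.open_target.mem_nhds hx] with x hx'
    have e := he (d p) _ ((d p).e.map_target hx')
    rw [loc, e, nrmM, (d p).e.right_inv hx']
    rfl
  · exact norm_smul_inv_norm (𝕜 := ℝ) (hne _ p (hd p))
  · intro X
    have hx := (d p).e.map_source (hd p)
    obtain ⟨Y, rfl⟩ := (dsym_bijective (d p) hx).2 X
    have e := fderiv_loc (d p) hx ((hF _).mdifferentiableAt (by simp)) Y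
    rw [(d p).e.left_inv (hd p)] at e
    have h2 := ((imm_iff hF _ (hd p)).1 (hi p)).ne'
    rw [← e, fderiv_eq_du_dv, real_inner_smul_right, real_inner_comm, inner_add_right,
      real_inner_smul_right, real_inner_smul_right, nrmM, nrm, inner_perp_left h2,
      inner_perp_right h2]
    simp

/-- the three pairs of coordinate vectors -/
def k3Z : Fin 3 → P2 × P2 := ![((1, 0), (1, 0)), ((1, 0), (0, 1)), ((0, 1), (0, 1))]

omit [IsManifold 𝓘(ℝ, E2) ∞ M] [T2Space M] [CompactSpace M] in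
theorem k3_TB_iff {S : Sys M} {k : Ten M} {ε : ℝ} : S.TB k ε ↔ ∀ l, ∀ p ∈ S.D l, ∀ i,
    |cmp (S.c l) k ((S.c l).e p) (k3Z i).1 (k3Z i).2| ≤ ε ∧
      ‖fderiv ℝ (fun z => cmp (S.c l) k z (k3Z i).1 (k3Z i).2) ((S.c l).e p)‖ ≤ ε := by
  simp only [Sys.TB, mem_insert_iff, mem_singleton_iff, forall_eq_or_imp, forall_eq,
    Fin.forall_fin_succ, IsEmpty.forall_iff, and_true]
  rfl

theorem normal_pert (S : Sys M) (hS : S.Cov) {F n : M → R4} (hF : Sm F) (hi : Imm F)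
    (hn : UN F n) (ε : ℝ) (hε : 0 < ε) : ∃ δ : ℝ, 0 < δ ∧ ∀ (β : M → ℝ) (σ R : ℝ), Sm β →
      0 ≤ σ → 0 ≤ R → S.SB 1 β σ → S.SB 2 β R → σ * (1 + R) ≤ δ →
      Imm (fun p => F p + β p • n p) ∧
      S.TB (pull (fun p => F p + β p • n p) - pull F) ε ∧
      ∀ l, ∀ p ∈ S.D l, ‖nrmM (fun p => F p + β p • n p) (S.c l) p (n p) - n p‖ ≤ ε ∧
        ∀ Y Z : P2, ‖II (loc (S.c l) fun p => F p + β p • n p) ((S.c l).e p) Y Z
          - II (loc (S.c l) F) ((S.c l).e p) Y Z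
          - dd (loc (S.c l) β) ((S.c l).e p) Y Z • n p‖ ≤ ε * ‖Y‖ * ‖Z‖ := by
  have hK : ∀ l, IsCompact ((S.c l).e '' S.D l) := fun l =>
    (S.cpt l).image_of_continuousOn ((S.c l).e.continuousOn.mono (S.sub l))
  have hT : ∀ l, (S.c l).e '' S.D l ⊆ (S.c l).e.target := by
    rintro l _ ⟨p, hp, rfl⟩
    exact (S.c l).e.map_source (S.sub l hp)
  choose C1 p1 b1 using fun l => exists_LB hF (S.c l) (hK l) (hT l) 2
  choose C2 p2 b2 using fun l => exists_LB hn.1 (S.c l) (hK l) (hT l) 2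
  choose δ hδ H using fun l => k3_plane (hK l) (f := loc (S.c l) F) (ν := loc (S.c l) n)
    (C := 1 + C1 l + C2 l) (by linarith [p1 l, p2 l]) (fun x hx => hF.locAt _ (hT l hx))
    (fun x hx => hn.1.locAt _ (hT l hx))
    (fun j hj x hx => (b1 l j hj x hx).trans (by linarith [p2 l]))
    (fun j hj x hx => (b2 l j hj x hx).trans (by linarith [p1 l]))
    (by
      rintro _ ⟨p, hp, rfl⟩
      exact (imm_iff hF _ (S.sub l hp)).1 (hi p))
    (fun x hx => ⟨(hn.2 _).1, fun X => by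
      rw [fderiv_loc _ (hT l hx) ((hF _).mdifferentiableAt (by simp))]
      exact (hn.2 _).2 _⟩) hε
  obtain ⟨c, hc, hc'⟩ : ∃ c : ℝ, 0 < c ∧ ∀ l, c ≤ δ l := by
    refine ⟨(∑ l, (δ l)⁻¹ + 1)⁻¹, ?_, fun l => ?_⟩
    · have : 0 ≤ ∑ l, (δ l)⁻¹ := Finset.sum_nonneg fun l _ => (inv_pos.2 (hδ l)).le
      positivity
    · have h1 : (δ l)⁻¹ ≤ ∑ l, (δ l)⁻¹ :=
        Finset.single_le_sum (f := fun l => (δ l)⁻¹) (fun l _ => (inv_pos.2 (hδ l)).le)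
          (Finset.mem_univ l)
      exact inv_le_of_inv_le₀ (hδ l) (by linarith)
  refine ⟨c, hc, fun β σ R hβ hσ hR s1 s2 hτ => ?_⟩
  have hG : Sm (fun p => F p + β p • n p) := hF.add (hβ.smul hn.1)
  have K := fun l p (hp : p ∈ S.D l) => H l (loc (S.c l) β) σ R hσ hR (hτ.trans (hc' l)) _
    (mem_image_of_mem _ hp) (hβ.locAt _ (hT l (mem_image_of_mem _ hp)))
    (fun j hj => s1 l j hj _ (mem_image_of_mem _ hp)) (s2 l 2 le_rfl _ (mem_image_of_mem _ hp))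
    (loc (S.c l) fun p => F p + β p • n p) rfl
  refine ⟨fun p => ?_, k3_TB_iff.2 fun l p hp i => ?_, fun l p hp => ?_⟩
  · obtain ⟨l, hp⟩ := hS p
    exact (imm_iff hG _ (S.sub l hp)).2 (K l p hp).1
  · refine (K l p hp).2.1 (k3Z i).1 (k3Z i).2 ?_ ?_
      (fun z => cmp (S.c l) (pull (fun p => F p + β p • n p) - pull F) z (k3Z i).1 (k3Z i).2) ?_
    · fin_cases i <;> simp [k3Z]
    · fin_cases i <;> simp [k3Z]
    · filter_upwards [(S.c l).e.open_target.mem_nhds (hT l (mem_image_of_mem _ hp))] with z hz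
      rw [cmp_sub, cmp_pull _ hG hz, cmp_pull _ hF hz]
  · have e : loc (S.c l) n ((S.c l).e p) = n p := by
      rw [loc, (S.c l).e.left_inv (S.sub l hp)]
    have := (K l p hp).2.2
    rw [e] at this
    exact this

omit [IsManifold 𝓘(ℝ, E2) ∞ M] [T2Space M] [CompactSpace M] in
theorem k3_diff {S : Sys M} {k : Ten M} (hk : Good k) {l : S.I} {p : M} (hp : p ∈ S.D l)
    (X Y : P2) : DifferentiableAt ℝ (fun z => cmp (S.c l) k z X Y) ((S.c l).e p) :=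
  ((hk.2 (S.c l) X Y).contDiffAt ((S.c l).e.open_target.mem_nhds
    ((S.c l).e.map_source (S.sub l hp)))).differentiableAt (by simp)

theorem Sys.TB.add {S : Sys M} {k k' : Ten M} (hk : Good k) (hk' : Good k') {ε ε' : ℝ}
    (h : S.TB k ε) (h' : S.TB k' ε') : S.TB (k + k') (ε + ε') := by
  rw [k3_TB_iff] at h h' ⊢
  intro l p hp i
  simp only [cmp_add]
  rw [fderiv_fun_add (k3_diff hk hp _ _) (k3_diff hk' hp _ _)]
  exact ⟨(abs_add_le _ _).trans (add_le_add (h l p hp i).1 (h' l p hp i).1),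
    (norm_add_le _ _).trans (add_le_add (h l p hp i).2 (h' l p hp i).2)⟩

theorem Sys.TB.smul {S : Sys M} {k : Ten M} (hk : Good k) {ε : ℝ} (h : S.TB k ε) (s : ℝ) :
    S.TB (s • k) (|s| * ε) := by
  rw [k3_TB_iff] at h ⊢
  intro l p hp i
  simp only [cmp_smul]
  rw [fderiv_const_mul (k3_diff hk hp _ _), abs_mul, norm_smul, Real.norm_eq_abs]
  exact ⟨mul_le_mul_of_nonneg_left (h l p hp i).1 (abs_nonneg _),
    mul_le_mul_of_nonneg_left (h l p hp i).2 (abs_nonneg _)⟩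

theorem Sys.TB.mono {S : Sys M} {k : Ten M} {ε ε' : ℝ} (h : S.TB k ε) (hε : ε ≤ ε') :
    S.TB k ε' := fun l p hp φ hφ =>
  ⟨(h l p hp φ hφ).1.trans hε, (h l p hp φ hφ).2.trans hε⟩

theorem Sys.exists_TB (S : Sys M) {k : Ten M} (hk : Good k) : ∃ ε : ℝ, 0 ≤ ε ∧ S.TB k ε := by
  have H : ∀ j : S.I × Fin 3, ∃ ε : ℝ, 0 ≤ ε ∧ ∀ p ∈ S.D j.1,
      |cmp (S.c j.1) k ((S.c j.1).e p) (k3Z j.2).1 (k3Z j.2).2| ≤ ε ∧
      ‖fderiv ℝ (fun z => cmp (S.c j.1) k z (k3Z j.2).1 (k3Z j.2).2) ((S.c j.1).e p)‖ ≤ ε := by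
    rintro ⟨l, i⟩
    have hc := (S.c l).e.continuousOn.mono (S.sub l)
    have hm : MapsTo (S.c l).e (S.D l) (S.c l).e.target := fun p hp =>
      (S.c l).e.map_source (S.sub l hp)
    have h := hk.2 (S.c l) (k3Z i).1 (k3Z i).2
    obtain ⟨a, ha⟩ := (S.cpt l).exists_bound_of_continuousOn (h.continuousOn.comp hc hm)
    obtain ⟨b, hb⟩ := (S.cpt l).exists_bound_of_continuousOn
      ((h.continuousOn_fderiv_of_isOpen (S.c l).e.open_target (by simp)).comp hc hm)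
    refine ⟨|a| + |b|, by positivity, fun p hp => ⟨?_, ?_⟩⟩
    · exact (ha p hp).trans ((le_abs_self a).trans (le_add_of_nonneg_right (abs_nonneg _)))
    · exact (hb p hp).trans ((le_abs_self b).trans (le_add_of_nonneg_left (abs_nonneg _)))
  choose ε h0 h using H
  refine ⟨∑ j, ε j, Finset.sum_nonneg fun j _ => h0 j, k3_TB_iff.2 fun l p hp i => ?_⟩
  have := Finset.single_le_sum (f := ε) (fun j _ => h0 j) (Finset.mem_univ (l, i))
  exact ⟨(h (l, i) p hp).1.trans this, (h (l, i) p hp).2.trans this⟩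

end Vale.Agent.P205
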