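import Vale.Agent.P205.K4Aux

/-! P205, K4: a function that is convex along the boundaries (BLUEPRINT, module K). -/

open scoped ContDiff InnerProductSpace Topology Manifold
open Set Filter Real

noncomputable section
namespace Vale.Agent.P205

variable {M : Type*} [TopologicalSpace M] [ChartedSpace E2 M] [IsManifold 𝓘(ℝ, E2) ∞ M]
  [T2Space M] [CompactSpace M]

/-- half the square of the Euclidean distance in the chart `d` -/
def Qd (d : Ch M) (p q : M) : ℝ :=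
  ((d.e q).1 - (d.e p).1) ^ 2 / 2 + ((d.e q).2 - (d.e p).2) ^ 2 / 2

theorem k4_quad (d c : Ch M) {p : M} (hd : p ∈ d.e.source) (hc : p ∈ c.e.source) :
    ∃ c0 : ℝ, 0 < c0 ∧ ∀ᶠ q in 𝓝 p, c0 ≤ Hs c (Qd d p) q := by
  have hψ := contDiffAt_trans c d hc hd
  have h1 : ContDiffAt ℝ ∞ (fun x => (trans c d x).1 - (d.e p).1) (c.e p) :=
    hψ.fst.sub contDiffAt_const
  have h2 : ContDiffAt ℝ ∞ (fun x => (trans c d x).2 - (d.e p).2) (c.e p) :=
    hψ.snd.sub contDiffAt_const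
  have e : loc c (Qd d p) = (fun x => 1 * (((trans c d x).1 - (d.e p).1) ^ 2 / 2))
      + fun x => 1 * (((trans c d x).2 - (d.e p).2) ^ 2 / 2) := by
    funext x
    simp [loc, Qd, trans]
  have s1 : ContDiffAt ℝ ∞ (fun x => 1 * (((trans c d x).1 - (d.e p).1) ^ 2 / 2)) (c.e p) :=
    contDiffAt_const.mul ((h1.pow 2).div_const 2)
  have s2 : ContDiffAt ℝ ∞ (fun x => 1 * (((trans c d x).2 - (d.e p).2) ^ 2 / 2)) (c.e p) :=
    contDiffAt_const.mul ((h2.pow 2).div_const 2)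
  have hs : ContDiffAt ℝ ∞ (loc c (Qd d p)) (c.e p) := by rw [e]; exact s1.add s2
  have z1 : (trans c d (c.e p)).1 - (d.e p).1 = 0 := by rw [trans_apply c d hc, sub_self]
  have z2 : (trans c d (c.e p)).2 - (d.e p).2 = 0 := by rw [trans_apply c d hc, sub_self]
  have v1 := k4_sq h1 (contDiffAt_const (c := (1 : ℝ))) z1
  have v2 := k4_sq h2 (contDiffAt_const (c := (1 : ℝ))) z2
  have dψ := hψ.differentiableAt (by simp)
  have t1 : du (fun x => (trans c d x).1 - (d.e p).1) (c.e p) = (tr c d p (1, 0)).1 := by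
    rw [du, fderiv_sub_const, fderiv.fst dψ]; rfl
  have t2 : du (fun x => (trans c d x).2 - (d.e p).2) (c.e p) = (tr c d p (1, 0)).2 := by
    rw [du, fderiv_sub_const, fderiv.snd dψ]; rfl
  have val : Hs c (Qd d p) p = (tr c d p (1, 0)).1 ^ 2 + (tr c d p (1, 0)).2 ^ 2 := by
    have a1 := dd_eq_iterated hs (1, 0) (1, 0)
    have a2 := dd_eq_iterated s1 (1, 0) (1, 0)
    have a3 := dd_eq_iterated s2 (1, 0) (1, 0)
    have a4 := iteratedFDeriv_add_apply (s1.of_le (k4_le 2)) (s2.of_le (k4_le 2))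
    rw [← e] at a4
    rw [a4, add_apply, ← a2, ← a3] at a1
    rw [t1, one_mul] at v1
    rw [t2, one_mul] at v2
    rw [← v1, ← v2]
    exact a1
  have hne := tr_ne_zero c d hc hd (X := (1, 0)) (by simp)
  have hpos : 0 < Hs c (Qd d p) p := by
    rw [val]
    by_contra hn
    have b1 : (tr c d p (1, 0)).1 = 0 := by nlinarith [sq_nonneg (tr c d p (1, 0)).1, sq_nonneg (tr c d p (1, 0)).2]
    have b2 : (tr c d p (1, 0)).2 = 0 := by nlinarith [sq_nonneg (tr c d p (1, 0)).1, sq_nonneg (tr c d p (1, 0)).2]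
    exact hne (Prod.ext b1 b2)
  have hcont : ContinuousAt (Hs c (Qd d p)) p :=
    ContinuousAt.comp (f := c.e) (contDiffAt_du (contDiffAt_du hs)).continuousAt
      (c.e.continuousAt hc)
  exact ⟨Hs c (Qd d p) p / 2, half_pos hpos,
    hcont.eventually (eventually_ge_nhds (half_lt_self hpos))⟩

theorem k4_bump (S : Sys M) (d : Ch M) {p : M} (hd : p ∈ d.e.source) : ∃ C : ℝ, 0 ≤ C ∧
    ∀ W ∈ 𝓝 p, ∀ δ : ℝ, 0 < δ → ∃ (β : M → ℝ) (V : Set M), Sm β ∧ IsOpen V ∧ p ∈ V ∧ V ⊆ W ∧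
      (∀ q, q ∉ W → β =ᶠ[𝓝 q] fun _ => 0) ∧ S.SB 1 β δ ∧ S.SB 2 β C ∧
      ∀ q ∈ V, β =ᶠ[𝓝 q] Qd d p := by
  obtain ⟨ψ, hψ, hψc, hψs, -, hψ1⟩ := exists_cutoff (isCompact_closedBall (0 : P2) 1)
    (Metric.isOpen_ball (x := (0 : P2)) (ε := 2)) (Metric.closedBall_subset_ball (by norm_num))
  let Φ : P2 → ℝ := fun z => ψ z * (z.1 ^ 2 / 2 + z.2 ^ 2 / 2)
  have hΦ : ContDiff ℝ ∞ Φ := hψ.mul (by fun_prop)
  have hΦc : HasCompactSupport Φ := hψc.mul_right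
  set x0 := d.e p with hx0
  obtain ⟨r0, hr0, hK⟩ := Metric.nhds_basis_closedBall.mem_iff.1
    (d.e.open_target.mem_nhds (d.e.map_source hd))
  have hf : ContDiff ℝ ∞ (fun x : P2 => x - x0) := by fun_prop
  obtain ⟨C1, hC1, hb⟩ := k4_comp hΦ hΦc hf (isCompact_closedBall x0 r0)
  obtain ⟨E1, hE1, e1⟩ := S.ext_SB d (isCompact_closedBall x0 r0) hK 1
  obtain ⟨E2', hE2, e2⟩ := S.ext_SB d (isCompact_closedBall x0 r0) hK 2
  refine ⟨E2' * C1, by positivity, fun W hW δ hδ => ?_⟩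
  have hW' : d.e.symm ⁻¹' W ∈ 𝓝 x0 := by
    refine (d.e.continuousAt_symm (d.e.map_source hd)).preimage_mem_nhds ?_
    rwa [d.e.left_inv hd]
  obtain ⟨r1, hr1, hK1⟩ := Metric.nhds_basis_closedBall.mem_iff.1 hW'
  obtain ⟨ρ, hρ0, hρ1, hρ2, hρ3, hρ4⟩ : ∃ ρ : ℝ, 0 < ρ ∧ ρ ≤ 1 ∧ 2 * ρ ≤ r0 ∧ 2 * ρ ≤ r1 ∧
      ρ ≤ δ / (E1 * C1 + 1) := by
    refine ⟨min (min 1 (r0 / 2)) (min (r1 / 2) (δ / (E1 * C1 + 1))), by positivity, ?_, ?_, ?_, ?_⟩
    · exact (min_le_left _ _).trans (min_le_left _ _)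
    · have := (min_le_left (min 1 (r0 / 2)) (min (r1 / 2) (δ / (E1 * C1 + 1)))).trans
        (min_le_right _ _)
      linarith
    · have := (min_le_right (min 1 (r0 / 2)) (min (r1 / 2) (δ / (E1 * C1 + 1)))).trans
        (min_le_left _ _)
      linarith
    · exact (min_le_right _ _).trans (min_le_right _ _)
  let y : P2 → ℝ := fun x => ρ ^ 2 * Φ (ρ⁻¹ • (x - x0))
  have hy : ContDiff ℝ ∞ y := contDiff_const.mul (hΦ.comp (hf.const_smul _))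
  have hy0 : ∀ x, x ∉ Metric.closedBall x0 (2 * ρ) → y x = 0 := by
    intro x hx
    have h1 : ρ⁻¹ • (x - x0) ∉ tsupport ψ := by
      intro h
      have h2 := hψs h
      rw [mem_ball_zero_iff, norm_smul, Real.norm_eq_abs, abs_of_pos (inv_pos.2 hρ0),
        inv_mul_lt_iff₀ hρ0] at h2
      exact hx (by rw [Metric.mem_closedBall, dist_eq_norm]; linarith)
    simp [y, Φ, image_eq_zero_of_notMem_tsupport h1]
  have hsub0 : Metric.closedBall x0 (2 * ρ) ⊆ Metric.closedBall x0 r0 :=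
    Metric.closedBall_subset_closedBall hρ2
  have hsub1 : Metric.closedBall x0 (2 * ρ) ⊆ Metric.closedBall x0 r1 :=
    Metric.closedBall_subset_closedBall hρ3
  have hy0' : ∀ x, x ∉ Metric.closedBall x0 r0 → y x = 0 := fun x hx => hy0 x fun h => hx (hsub0 h)
  have hVo : IsOpen (d.e.source ∩ d.e ⁻¹' Metric.ball x0 ρ) :=
    d.e.isOpen_inter_preimage Metric.isOpen_ball
  refine ⟨ext d y, d.e.source ∩ d.e ⁻¹' Metric.ball x0 ρ,
    sm_ext d (isCompact_closedBall x0 r0) hK hy0' hy.contDiffOn, hVo,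
    ⟨hd, Metric.mem_ball_self hρ0⟩, ?_, ?_, ?_, ?_, ?_⟩
  · rintro q ⟨hq, hq'⟩
    have h1 : d.e q ∈ Metric.closedBall x0 r1 :=
      hsub1 (Metric.ball_subset_closedBall (Metric.ball_subset_ball (by linarith) hq'))
    have h2 := hK1 h1
    rwa [mem_preimage, d.e.left_inv hq] at h2
  · intro q hq
    refine ext_eventually_zero d (isCompact_closedBall x0 (2 * ρ)) (hsub0.trans hK) hy0 ?_
    rintro ⟨x, hx, rfl⟩
    exact hq (hK1 (hsub1 hx))
  · refine (e1 y (C1 * ρ) (by positivity) hy hy0' fun j hj x hx => (hb ρ hρ0 hρ1 x hx).1 j hj).mono ?_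
    have h1 : ρ * (E1 * C1 + 1) ≤ δ := (le_div_iff₀ (by positivity)).1 hρ4
    nlinarith
  · exact e2 y C1 hC1 hy hy0' fun j hj x hx => (hb ρ hρ0 hρ1 x hx).2 j hj
  · intro q hq
    filter_upwards [hVo.mem_nhds hq] with q' hq'
    rw [ext_apply d y hq'.1]
    have h1 : ρ⁻¹ • (d.e q' - x0) ∈ Metric.closedBall (0 : P2) 1 := by
      have h2 : dist (d.e q') x0 < ρ := hq'.2
      rw [mem_closedBall_zero_iff, norm_smul, Real.norm_eq_abs, abs_of_pos (inv_pos.2 hρ0),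
        inv_mul_le_iff₀ hρ0, ← dist_eq_norm]
      linarith
    have h3 : ψ (ρ⁻¹ • (d.e q' - x0)) = 1 := hψ1.self_of_nhdsSet _ h1
    simp only [y, Φ, h3, Qd, Prod.smul_fst, Prod.smul_snd, Prod.fst_sub, Prod.snd_sub, smul_eq_mul,
      ← hx0]
    field_simp

theorem k4_strip (S : Sys M) (i : S.I) {ℓ : P2 → ℝ} (hℓ : ContDiff ℝ ∞ ℓ) : ∃ C : ℝ, 0 ≤ C ∧
    ∀ (Γ W : Set M), IsCompact Γ → Γ ⊆ S.D i → IsOpen W → Γ ⊆ W → ∀ δ : ℝ, 0 < δ →
      ∃ β : M → ℝ, Sm β ∧ (∀ q, q ∉ W → β =ᶠ[𝓝 q] fun _ => 0) ∧ S.SB 1 β δ ∧ S.SB 2 β C ∧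
        ∀ q ∈ (S.c i).e.source, ℓ ((S.c i).e q) = 0 → 0 ≤ Hs (S.c i) β q ∧
          (q ∈ Γ → Hs (S.c i) β q = du ℓ ((S.c i).e q) ^ 2) := by
  set c := S.c i with hc
  obtain ⟨K, hK, hK1, hK2⟩ := exists_compact_between (S.img i).1 c.e.open_target (S.img i).2
  let ψ : ContDiffBump (0 : ℝ) := ⟨1, 2, one_pos, one_lt_two⟩
  let Φ : ℝ → ℝ := fun s => ψ s * (s ^ 2 / 2)
  have hΦ : ContDiff ℝ ∞ Φ := ψ.contDiff.mul (by fun_prop)
  have hΦc : HasCompactSupport Φ := ψ.hasCompactSupport.mul_right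
  obtain ⟨C1, hC1, hb⟩ := k4_comp hΦ hΦc hℓ hK
  obtain ⟨E1, hE1, e1⟩ := S.ext_SB c hK hK2 1
  obtain ⟨E2', hE2, e2⟩ := S.ext_SB c hK hK2 2
  refine ⟨E2' * (C1 + 1), by positivity, fun Γ W hΓ hΓD hW hΓW δ hδ => ?_⟩
  have hΓs : Γ ⊆ c.e.source := hΓD.trans (S.sub i)
  have hO : IsOpen (interior K ∩ (c.e.target ∩ c.e.symm ⁻¹' W)) :=
    isOpen_interior.inter (c.e.isOpen_inter_preimage_symm hW)
  obtain ⟨κ, hκ, hκc, hκs, hκ01, hκ1⟩ := exists_cutoff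
    (hΓ.image_of_continuousOn (c.e.continuousOn.mono hΓs)) hO (by
      rintro _ ⟨q, hq, rfl⟩
      refine ⟨hK1 (mem_image_of_mem _ (hΓD hq)), c.e.map_source (hΓs hq), ?_⟩
      rw [mem_preimage, c.e.left_inv (hΓs hq)]
      exact hΓW hq)
  obtain ⟨B, hB1, hB⟩ := k4_bound hκ hK
  obtain ⟨ρ, hρ0, hρ1, hρ2, hρ3⟩ : ∃ ρ : ℝ, 0 < ρ ∧ ρ ≤ 1 ∧ ρ ≤ 1 / (3 * B * C1 + 1) ∧
      ρ ≤ δ / (E1 * (2 * B * C1) + 1) :=
    ⟨min 1 (min (1 / (3 * B * C1 + 1)) (δ / (E1 * (2 * B * C1) + 1))), by positivity,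
      min_le_left _ _, (min_le_right _ _).trans (min_le_left _ _),
      (min_le_right _ _).trans (min_le_right _ _)⟩
  let h : P2 → ℝ := fun x => ρ ^ 2 * Φ (ρ⁻¹ • ℓ x)
  have hh : ContDiff ℝ ∞ h := contDiff_const.mul (hΦ.comp (hℓ.const_smul _))
  let y : P2 → ℝ := fun x => κ x * h x
  have hy : ContDiff ℝ ∞ y := hκ.mul hh
  have hy0 : ∀ x, x ∉ tsupport κ → y x = 0 := fun x hx => by
    simp [y, image_eq_zero_of_notMem_tsupport hx]
  have hsK : tsupport κ ⊆ K := fun x hx => interior_subset (hκs hx).1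
  have hy0' : ∀ x, x ∉ K → y x = 0 := fun x hx => hy0 x fun h => hx (hsK h)
  have hm : ∀ x ∈ K, (∀ j ≤ 1, ‖iteratedFDeriv ℝ j y x‖ ≤ 2 * B * (C1 * ρ)) ∧
      ∀ j ≤ 2, ‖iteratedFDeriv ℝ j y x‖ ≤ C1 + 3 * B * (C1 * ρ) := fun x hx =>
    k4_mul hκ hh (by rw [abs_of_nonneg (hκ01 x).1]; exact (hκ01 x).2) (fun j hj => hB j hj x hx)
      (hb ρ hρ0 hρ1 x hx).1 (hb ρ hρ0 hρ1 x hx).2
  refine ⟨ext c y, sm_ext c hK hK2 hy0' hy.contDiffOn, ?_, ?_, ?_, ?_⟩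
  · intro q hq
    refine ext_eventually_zero c hκc (hsK.trans hK2) hy0 ?_
    rintro ⟨x, hx, rfl⟩
    exact hq (hκs hx).2.2
  · refine (e1 y _ (by positivity) hy hy0' fun j hj x hx => (hm x hx).1 j hj).mono ?_
    have h1 : ρ * (E1 * (2 * B * C1) + 1) ≤ δ := (le_div_iff₀ (by positivity)).1 hρ3
    nlinarith
  · refine (e2 y _ (by positivity) hy hy0' fun j hj x hx => (hm x hx).2 j hj).mono ?_
    have h1 : ρ * (3 * B * C1 + 1) ≤ 1 := (le_div_iff₀ (by positivity)).1 hρ2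
    exact mul_le_mul_of_nonneg_left (by nlinarith) hE2
  · intro q hq h0
    let κ' : P2 → ℝ := fun x => κ x * ψ (ρ⁻¹ • ℓ x)
    have hκ' : ContDiff ℝ ∞ κ' := hκ.mul (ψ.contDiff.comp (hℓ.const_smul _))
    have ey : y = fun x => κ' x * (ℓ x ^ 2 / 2) := by
      funext x
      simp only [y, h, Φ, κ', smul_eq_mul]
      field_simp
    have e3 : Hs c (ext c y) q = du (du y) (c.e q) := by
      have h1 := loc_ext c y (c.e.map_source hq)
      have h2 : du (loc c (ext c y)) =ᶠ[𝓝 (c.e q)] du y := by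
        filter_upwards [h1.fderiv (𝕜 := ℝ)] with z hz
        simp only [du, hz]
      simp only [Hs]
      rw [du, du, h2.fderiv_eq]
    have e4 : κ' (c.e q) = κ (c.e q) := by
      simp only [κ', h0, smul_zero]
      rw [ψ.one_of_mem_closedBall (Metric.mem_closedBall_self (by norm_num [ψ])), mul_one]
    rw [e3, ey, k4_sq hℓ.contDiffAt hκ'.contDiffAt h0, e4]
    refine ⟨mul_nonneg (hκ01 _).1 (sq_nonneg _), fun hqΓ => ?_⟩
    rw [hκ1.self_of_nhdsSet _ (mem_image_of_mem _ hqΓ), one_mul]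

theorem k4_low {J : Type*} [Finite J] (c : J → ℝ) (hc : ∀ j, 0 < c j) :
    ∃ c0 : ℝ, 0 < c0 ∧ ∀ j, c0 ≤ c j := by
  rcases isEmpty_or_nonempty J with hJ | hJ
  · exact ⟨1, one_pos, fun j => (hJ.false j).elim⟩
  · obtain ⟨j0, hj0⟩ := Finite.exists_min c
    exact ⟨c j0, hc j0, hj0⟩

theorem k4_tv (S : Sys M) (T : Sides S) : ∃ t : ℝ, 0 < t ∧ ∀ i k, ∀ q ∈ S.D i,
    t ≤ du (T.ℓ i k) ((S.c i).e q) ^ 2 := by
  have h : ∀ ik : S.I × Fin 4, ∃ t : ℝ, 0 < t ∧ ∀ q ∈ S.D ik.1,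
      t ≤ du (T.ℓ ik.1 ik.2) ((S.c ik.1).e q) ^ 2 := by
    rintro ⟨i, k⟩
    have hc : ContinuousOn (fun q => du (T.ℓ i k) ((S.c i).e q) ^ 2) (S.D i) := by
      refine ContinuousOn.pow ?_ 2
      have h1 : Continuous (du (T.ℓ i k)) := continuous_iff_continuousAt.2 fun x =>
        (contDiffAt_du (T.sm i k).contDiffAt).continuousAt
      exact h1.comp_continuousOn ((S.c i).e.continuousOn.mono (S.sub i))
    exact (S.cpt i).exists_forall_le' hc fun q hq => by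
      have := T.tv i k q hq
      positivity
  choose t ht0 ht using h
  obtain ⟨t0, h0, h1⟩ := k4_low t ht0
  exact ⟨t0, h0, fun i k q hq => (h1 (i, k)).trans (ht (i, k) q hq)⟩

theorem convex_one (S : Sys M) (T : Sides S) : ∃ C : ℝ, 0 ≤ C ∧ ∀ δ : ℝ, 0 < δ →
    ∃ β : M → ℝ, Sm β ∧ S.SB 1 β δ ∧ S.SB 2 β C ∧
      ∀ i, ∀ p ∈ frontier (S.D i), 1 ≤ Hs (S.c i) β p := by
  classical
  have frD : ∀ i, frontier (S.D i) ⊆ S.D i := fun i => (S.cpt i).isClosed.frontier_subset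
  let side : S.I → Fin 4 → Set M := fun i k =>
    {q | q ∈ frontier (S.D i) ∧ T.ℓ i k ((S.c i).e q) = 0}
  have side_closed : ∀ i k, IsClosed (side i k) := fun i k =>
    ((T.sm i k).continuous.comp_continuousOn ((S.c i).e.continuousOn.mono
      ((frD i).trans (S.sub i)))).preimage_isClosed_of_isClosed isClosed_frontier
        (isClosed_singleton (x := (0 : ℝ)))
  let Z : Set M := (⋃ i, ⋃ j, ⋃ (_ : i ≠ j), frontier (S.D i) ∩ frontier (S.D j)) ∪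
    ⋃ i, ⋃ k, ⋃ k', ⋃ (_ : k ≠ k'), side i k ∩ side i k'
  have hZ : Z.Finite := by
    refine (finite_iUnion fun i => finite_iUnion fun j => finite_iUnion fun h =>
      S.finX i j h).union (finite_iUnion fun i => finite_iUnion fun k => finite_iUnion fun k' =>
        finite_iUnion fun h => (T.cor i k k' h).subset ?_)
    rintro q ⟨h1, h2⟩
    exact ⟨h1.1, h1.2, h2.2⟩
  have hZd : ∀ p : Z, ∃ d : Ch M, p.1 ∈ d.e.source := fun p => exists_ch p.1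
  choose d hd using hZd
  haveI : Fintype Z := hZ.fintype
  have hq : ∀ pi : Z × S.I, ∃ c0 : ℝ, 0 < c0 ∧ ∀ᶠ q in 𝓝 pi.1.1,
      q ∈ frontier (S.D pi.2) → c0 ≤ Hs (S.c pi.2) (Qd (d pi.1) pi.1.1) q := by
    rintro ⟨p, i⟩
    by_cases hp : p.1 ∈ frontier (S.D i)
    · obtain ⟨c0, h0, h1⟩ := k4_quad (d p) (S.c i) (hd p) (S.sub i (frD i hp))
      exact ⟨c0, h0, h1.mono fun q hq _ => hq⟩
    · refine ⟨1, one_pos, ?_⟩
      filter_upwards [isClosed_frontier.isOpen_compl.mem_nhds hp] with q hq hq'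
      exact (hq hq').elim
  choose c0 hc0 hc1 using hq
  obtain ⟨cm, hcm, hcm'⟩ := k4_low c0 hc0
  obtain ⟨U, hU, hUd⟩ := hZ.t2_separation
  let W : Z → Set M := fun p => U p.1 ∩ {q | ∀ i, q ∈ frontier (S.D i) →
    c0 (p, i) ≤ Hs (S.c i) (Qd (d p) p.1) q}
  have hW : ∀ p : Z, W p ∈ 𝓝 p.1 := fun p =>
    inter_mem ((hU p.1).2.mem_nhds (hU p.1).1) (eventually_all.2 fun i => hc1 (p, i))
  choose Cb hCb hbump using fun p : Z => k4_bump S (d p) (hd p)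
  choose Cs hCs hstrip using fun ik : S.I × Fin 4 => k4_strip S ik.1 (T.sm ik.1 ik.2)
  obtain ⟨t, ht, htv⟩ := k4_tv S T
  set B : ℝ := cm⁻¹ * ∑ p, Cb p with hB
  have hB0 : 0 ≤ B := mul_nonneg (inv_pos.2 hcm).le (Finset.sum_nonneg fun p _ => hCb p)
  set Λ2 : ℝ := (1 + B) / t with hΛ2
  have hΛ : 0 < Λ2 := by positivity
  refine ⟨B + Λ2 * ∑ ik, Cs ik,
    add_nonneg hB0 (mul_nonneg hΛ.le (Finset.sum_nonneg fun p _ => hCs p)), fun δ hδ => ?_⟩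
  set N : ℝ := cm⁻¹ * Fintype.card Z + Λ2 * Fintype.card (S.I × Fin 4) + 1 with hN
  have hN0 : 0 < N := by positivity
  choose βb V sb oV pV VW zb b1 b2 bq using fun p : Z => hbump p (W p) (hW p) (δ / N) (by positivity)
  let Γ : S.I × Fin 4 → Set M := fun ik => side ik.1 ik.2 \ ⋃ p, V p
  let Ws : S.I × Fin 4 → Set M := fun ik =>
    ((⋃ j, ⋃ (_ : j ≠ ik.1), frontier (S.D j)) ∪ ⋃ k', ⋃ (_ : k' ≠ ik.2), side ik.1 k')ᶜ
  have hΓc : ∀ ik, IsCompact (Γ ik) := fun ik =>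
    ((side_closed ik.1 ik.2).sdiff (isOpen_iUnion oV)).isCompact
  have hΓD : ∀ ik, Γ ik ⊆ S.D ik.1 := fun ik q hq => frD _ hq.1.1
  have hWs : ∀ ik, IsOpen (Ws ik) := fun ik =>
    ((isClosed_iUnion_of_finite fun j => isClosed_iUnion_of_finite fun _ => isClosed_frontier).union
      (isClosed_iUnion_of_finite fun k => isClosed_iUnion_of_finite fun _ =>
        side_closed _ k)).isOpen_compl
  have hΓW : ∀ ik, Γ ik ⊆ Ws ik := by
    rintro ⟨i, k⟩ q ⟨h1, h2⟩ h3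
    have hqZ : q ∈ Z := by
      rcases h3 with h3 | h3
      · simp only [mem_iUnion] at h3
        obtain ⟨j, hj, h3⟩ := h3
        exact Or.inl (mem_iUnion.2 ⟨j, mem_iUnion.2 ⟨i, mem_iUnion.2 ⟨hj, h3, h1.1⟩⟩⟩)
      · simp only [mem_iUnion] at h3
        obtain ⟨k', hk, h3⟩ := h3
        exact Or.inr (mem_iUnion.2 ⟨i, mem_iUnion.2 ⟨k', mem_iUnion.2 ⟨k,
          mem_iUnion.2 ⟨hk, h3, h1⟩⟩⟩⟩)
    exact h2 (mem_iUnion.2 ⟨⟨q, hqZ⟩, pV ⟨q, hqZ⟩⟩)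
  choose βs ss zs s1 s2 sq using fun ik : S.I × Fin 4 =>
    hstrip ik (Γ ik) (Ws ik) (hΓc ik) (hΓD ik) (hWs ik) (hΓW ik) (δ / N) (by positivity)
  have smb : Sm (fun q => ∑ p, βb p q) := Sm.sum _ fun p _ => sb p
  have sms : Sm (fun q => ∑ ik, βs ik q) := Sm.sum _ fun p _ => ss p
  have smb' : Sm (fun q => cm⁻¹ • ∑ p, βb p q) := (sm_const _).smul smb
  have sms' : Sm (fun q => Λ2 • ∑ ik, βs ik q) := (sm_const _).smul sms
  have hb2 : S.SB 2 (fun q => cm⁻¹ • ∑ p, βb p q) B :=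
    (Sys.SB.sum' Finset.univ (fun p _ => sb p) fun p _ => b2 p).smul' smb (inv_pos.2 hcm).le
  refine ⟨fun q => cm⁻¹ • ∑ p, βb p q + Λ2 • ∑ ik, βs ik q, smb'.add sms', ?_, ?_, ?_⟩
  · refine (((Sys.SB.sum' Finset.univ (fun p _ => sb p) fun p _ => b1 p).smul' smb
      (inv_pos.2 hcm).le).add' smb' sms' ((Sys.SB.sum' Finset.univ (fun p _ => ss p)
        fun p _ => s1 p).smul' sms hΛ.le)).mono ?_
    simp only [Finset.sum_const, Finset.card_univ, nsmul_eq_mul]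
    have h1 : δ / N * N = δ := div_mul_cancel₀ _ hN0.ne'
    have h2 : 0 < δ / N := by positivity
    rw [hN] at h1
    nlinarith
  · exact hb2.add' smb' sms' ((Sys.SB.sum' Finset.univ (fun p _ => ss p)
      fun p _ => s2 p).smul' sms hΛ.le)
  · intro i q hq
    have hqs : q ∈ (S.c i).e.source := S.sub i (frD i hq)
    rw [Hs_add _ smb' sms' hqs, Hs_smul _ sms _ hqs, Hs_sum _ _ (fun p _ => ss p) hqs]
    obtain ⟨k0, hk0⟩ := T.cov i q hq
    have nonneg : ∀ ik : S.I × Fin 4, 0 ≤ Hs (S.c i) (βs ik) q := by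
      rintro ⟨j, k⟩
      by_cases hqW : q ∈ Ws (j, k)
      · have hji : i = j := by
          by_contra hne
          exact hqW (Or.inl (mem_iUnion.2 ⟨i, mem_iUnion.2 ⟨hne, hq⟩⟩))
        subst hji
        have hk : k0 = k := by
          by_contra hne
          exact hqW (Or.inr (mem_iUnion.2 ⟨k0, mem_iUnion.2 ⟨hne, hq, hk0⟩⟩))
        subst hk
        exact (sq (i, k0) q hqs hk0).1
      · rw [Hs_zero _ hqs (zs (j, k) q hqW)]
    by_cases hV : q ∈ ⋃ p, V p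
    · obtain ⟨p, hp⟩ := mem_iUnion.1 hV
      rw [Hs_smul _ smb _ hqs, Hs_sum _ _ (fun p _ => sb p) hqs, Finset.sum_eq_single p]
      · rw [Hs_congr _ hqs (bq p q hp)]
        have h1 : cm ≤ Hs (S.c i) (Qd (d p) p.1) q := (hcm' (p, i)).trans ((VW p hp).2 i hq)
        have h2 : 1 ≤ cm⁻¹ * Hs (S.c i) (Qd (d p) p.1) q := by
          rw [le_inv_mul_iff₀ hcm, mul_one]; exact h1
        have h3 : 0 ≤ Λ2 * ∑ ik, Hs (S.c i) (βs ik) q :=
          mul_nonneg hΛ.le (Finset.sum_nonneg fun ik _ => nonneg ik)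
        linarith
      · intro p' _ hp'
        refine Hs_zero _ hqs (zb p' q fun hq' => ?_)
        have hdis := hUd p'.2 p.2 fun h => hp' (Subtype.ext h)
        exact Set.disjoint_left.1 hdis hq'.1 (VW p hp).1
      · intro h
        exact (h (Finset.mem_univ p)).elim
    · have hqΓ : q ∈ Γ (i, k0) := ⟨⟨hq, hk0⟩, hV⟩
      have h1 := (sq (i, k0) q hqs hk0).2 hqΓ
      have h2 : t ≤ ∑ ik, Hs (S.c i) (βs ik) q := by
        refine le_trans ?_ (Finset.single_le_sum (fun ik _ => nonneg ik) (Finset.mem_univ (i, k0)))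
        rw [h1]
        exact htv i k0 q (frD i hq)
      have h3 := (abs_le.1 (hb2.abs_Hs smb' (frD i hq))).1
      have h4 : Λ2 * t ≤ Λ2 * ∑ ik, Hs (S.c i) (βs ik) q := mul_le_mul_of_nonneg_left h2 hΛ.le
      have h5 : Λ2 * t = 1 + B := div_mul_cancel₀ _ ht.ne'
      linarith

theorem convex_fun (S : Sys M) (T : Sides S) : ∃ C : ℝ, 0 < C ∧ ∀ Λ δ : ℝ, 1 ≤ Λ → 0 < δ →
    ∃ β : M → ℝ, Sm β ∧ S.SB 1 β δ ∧ S.SB 2 β (C * Λ) ∧
      ∀ i, ∀ p ∈ frontier (S.D i), Λ ≤ dd (loc (S.c i) β) ((S.c i).e p) (1, 0) (1, 0) := by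
  obtain ⟨C, hC, h⟩ := convex_one S T
  refine ⟨C + 1, by linarith, fun Λ δ hΛ hδ => ?_⟩
  have hΛ0 : 0 < Λ := by linarith
  obtain ⟨β, hβ, h1, h2, h3⟩ := h (δ / Λ) (by positivity)
  refine ⟨fun p => Λ • β p, (sm_const _).smul hβ, (h1.smul' hβ hΛ0.le).mono (le_of_eq ?_),
    (h2.smul' hβ hΛ0.le).mono (by nlinarith), fun i p hp => ?_⟩
  · field_simp
  · have hps : p ∈ (S.c i).e.source := S.sub i ((S.cpt i).isClosed.frontier_subset hp)
    have h4 := Hs_smul (S.c i) hβ Λ hps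
    have h5 := h3 i p hp
    have h6 : dd (loc (S.c i) fun p => Λ • β p) ((S.c i).e p) (1, 0) (1, 0)
        = Hs (S.c i) (fun p => Λ • β p) p := rfl
    rw [h6, h4]
    nlinarith

end Vale.Agent.P205
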