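import Vale.Agent.P205.KDefs

/-! P205, K4: auxiliary lemmas (scaled bumps, second derivatives). -/

open scoped ContDiff InnerProductSpace Topology Manifold
open Set Filter Real

noncomputable section
namespace Vale.Agent.P205

theorem k4_le (n : ℕ) : (n : WithTop ℕ∞) ≤ ∞ := mod_cast le_top

theorem k4_scale {E : Type} [NormedAddCommGroup E] [NormedSpace ℝ E] {Φ : E → ℝ}
    (hΦ : ContDiff ℝ ∞ Φ) (hc : HasCompactSupport Φ) : ∃ C : ℝ, 0 ≤ C ∧ ∀ ρ : ℝ, 0 < ρ → ρ ≤ 1 →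
      ∀ z, (∀ j ≤ 1, ‖iteratedFDeriv ℝ j (fun w => ρ ^ 2 * Φ (ρ⁻¹ • w)) z‖ ≤ C * ρ) ∧
        ∀ j ≤ 2, ‖iteratedFDeriv ℝ j (fun w => ρ ^ 2 * Φ (ρ⁻¹ • w)) z‖ ≤ C := by
  have hb : ∀ j : ℕ, ∃ C : ℝ, ∀ z, ‖iteratedFDeriv ℝ j Φ z‖ ≤ C := fun j =>
    (hΦ.continuous_iteratedFDeriv (mod_cast le_top)).bounded_above_of_compact_support
      (hc.iteratedFDeriv j)
  choose B hB using hb
  have hB0 : ∀ j, 0 ≤ B j := fun j => (norm_nonneg _).trans (hB j 0)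
  refine ⟨B 0 + B 1 + B 2, by have := hB0 0; have := hB0 1; have := hB0 2; positivity,
    fun ρ h0 h1 z => ?_⟩
  have key : ∀ j : ℕ, ‖iteratedFDeriv ℝ j (fun w => ρ ^ 2 * Φ (ρ⁻¹ • w)) z‖
      ≤ ρ ^ 2 * (B j * ρ⁻¹ ^ j) := by
    intro j
    let L : E →L[ℝ] E := ρ⁻¹ • ContinuousLinearMap.id ℝ E
    have hL : ‖L‖ ≤ ρ⁻¹ := by
      refine ContinuousLinearMap.opNorm_le_bound _ (inv_pos.2 h0).le fun w => ?_
      show ‖ρ⁻¹ • w‖ ≤ _
      rw [norm_smul, Real.norm_eq_abs, abs_of_pos (inv_pos.2 h0)]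
    have e1 : (fun w => ρ ^ 2 * Φ (ρ⁻¹ • w)) = fun w => (ρ ^ 2) • (Φ ∘ L) w := rfl
    have hs : ContDiff ℝ ∞ (Φ ∘ L) := hΦ.comp L.contDiff
    rw [e1, iteratedFDeriv_const_smul_apply' (hs.contDiffAt.of_le (mod_cast le_top)),
      L.iteratedFDeriv_comp_right hΦ z (mod_cast le_top), norm_smul, Real.norm_eq_abs,
      abs_of_pos (pow_pos h0 2)]
    refine mul_le_mul_of_nonneg_left
      ((ContinuousMultilinearMap.norm_compContinuousLinearMap_le _ _).trans ?_) (by positivity)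
    refine mul_le_mul (hB j _) ?_ (by positivity) (hB0 j)
    rw [Finset.prod_const, Finset.card_univ, Fintype.card_fin]
    exact pow_le_pow_left₀ (norm_nonneg _) hL j
  have k0 : ρ ^ 2 * (B 0 * ρ⁻¹ ^ 0) = B 0 * ρ * ρ := by ring
  have k1 : ρ ^ 2 * (B 1 * ρ⁻¹ ^ 1) = B 1 * ρ := by field_simp
  have k2 : ρ ^ 2 * (B 2 * ρ⁻¹ ^ 2) = B 2 := by field_simp
  have b0 := hB0 0
  have b1 := hB0 1
  have b2 := hB0 2
  have m0 : B 0 * ρ * ρ ≤ B 0 * ρ := mul_le_of_le_one_right (by positivity) h1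
  have m0' : B 0 * ρ ≤ B 0 := mul_le_of_le_one_right b0 h1
  have m1 : B 1 * ρ ≤ B 1 := mul_le_of_le_one_right b1 h1
  have p1 : 0 ≤ B 1 * ρ := by positivity
  have p2 : 0 ≤ B 2 * ρ := by positivity
  have p0 : 0 ≤ B 0 * ρ := by positivity
  constructor
  · intro j hj
    refine (key j).trans ?_
    interval_cases j
    · rw [k0]; nlinarith
    · rw [k1]; nlinarith
  · intro j hj
    refine (key j).trans ?_
    interval_cases j
    · rw [k0]; linarith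
    · rw [k1]; linarith
    · rw [k2]; linarith

theorem k4_bound {E : Type} [NormedAddCommGroup E] [NormedSpace ℝ E] {f : P2 → E}
    (hf : ContDiff ℝ ∞ f) {K : Set P2} (hK : IsCompact K) :
    ∃ D : ℝ, 1 ≤ D ∧ ∀ j ≤ 2, ∀ x ∈ K, ‖iteratedFDeriv ℝ j f x‖ ≤ D :=
  man1_bound hK (fun _ _ => hf.contDiffAt) 2

theorem k4_comp {E : Type} [NormedAddCommGroup E] [NormedSpace ℝ E] {Φ : E → ℝ}
    (hΦ : ContDiff ℝ ∞ Φ) (hc : HasCompactSupport Φ) {f : P2 → E} (hf : ContDiff ℝ ∞ f)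
    {K : Set P2} (hK : IsCompact K) : ∃ C : ℝ, 0 ≤ C ∧ ∀ ρ : ℝ, 0 < ρ → ρ ≤ 1 → ∀ x ∈ K,
      (∀ j ≤ 1, ‖iteratedFDeriv ℝ j (fun w => ρ ^ 2 * Φ (ρ⁻¹ • f w)) x‖ ≤ C * ρ) ∧
        ∀ j ≤ 2, ‖iteratedFDeriv ℝ j (fun w => ρ ^ 2 * Φ (ρ⁻¹ • f w)) x‖ ≤ C := by
  obtain ⟨C, hC, h⟩ := k4_scale hΦ hc
  obtain ⟨D, hD1, hD⟩ := k4_bound hf hK
  refine ⟨2 * C * D ^ 2, by positivity, fun ρ h0 h1 x hx => ?_⟩
  have hg : ContDiff ℝ ∞ (fun w : E => ρ ^ 2 * Φ (ρ⁻¹ • w)) :=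
    contDiff_const.mul (hΦ.comp (contDiff_id.const_smul _))
  have hD' : ∀ n ≤ 2, ∀ i, 1 ≤ i → i ≤ n → ‖iteratedFDeriv ℝ i f x‖ ≤ D ^ i := fun n hn i h1 hi =>
    (hD i (hi.trans hn) x hx).trans (le_self_pow₀ hD1 (by omega))
  have key : ∀ n ≤ 2, ∀ σ : ℝ, 0 ≤ σ →
      (∀ i ≤ n, ‖iteratedFDeriv ℝ i (fun w : E => ρ ^ 2 * Φ (ρ⁻¹ • w)) (f x)‖ ≤ σ) →
      ‖iteratedFDeriv ℝ n (fun w => ρ ^ 2 * Φ (ρ⁻¹ • f w)) x‖ ≤ 2 * σ * D ^ 2 := by
    intro n hn σ hσ H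
    have := norm_iteratedFDeriv_comp_le hg hf (n := n) (mod_cast le_top) x H (hD' n hn)
    refine this.trans ?_
    have h2 : (n.factorial : ℝ) ≤ 2 := by
      have : n.factorial ≤ Nat.factorial 2 := Nat.factorial_le hn
      exact_mod_cast this
    have h3 : D ^ n ≤ D ^ 2 := pow_le_pow_right₀ hD1 hn
    gcongr
  constructor
  · intro j hj
    have := key j (by omega) (C * ρ) (by positivity) fun i hi => (h ρ h0 h1 (f x)).1 i (hi.trans hj)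
    linarith
  · intro j hj
    exact key j hj C hC fun i hi => (h ρ h0 h1 (f x)).2 i (hi.trans hj)

theorem k4_num {a b c : ℕ → ℝ} {B σ τ : ℝ} (key : ∀ n : ℕ, c n ≤ ∑ i ∈ Finset.range (n + 1),
      (n.choose i : ℝ) * a i * b (n - i)) (a0' : a 0 ≤ 1) (pa : ∀ i, 0 ≤ a i) (pb : ∀ i, 0 ≤ b i)
    (hB : ∀ j ≤ 2, a j ≤ B) (h1 : ∀ j ≤ 1, b j ≤ σ) (h2 : ∀ j ≤ 2, b j ≤ τ) :
    (∀ j ≤ 1, c j ≤ 2 * B * σ) ∧ ∀ j ≤ 2, c j ≤ τ + 3 * B * σ := by
  have hB0 : 0 ≤ B := (pa 0).trans (hB 0 (by omega))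
  have hσ : 0 ≤ σ := (pb 0).trans (h1 0 (by omega))
  have hτ : 0 ≤ τ := (pb 0).trans (h2 0 (by omega))
  have q : ∀ i ≤ 2, ∀ j ≤ 1, a i * b j ≤ B * σ := fun i hi j hj =>
    mul_le_mul (hB i hi) (h1 j hj) (pb j) hB0
  have q02 : a 0 * b 2 ≤ 1 * τ := mul_le_mul a0' (h2 2 le_rfl) (pb 2) zero_le_one
  have n0 := key 0
  have n1 := key 1
  have n2 := key 2
  norm_num [Finset.sum_range_succ, Nat.choose] at n0 n1 n2
  have q00 := q 0 (by omega) 0 (by omega)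
  have q01 := q 0 (by omega) 1 (by omega)
  have q10 := q 1 (by omega) 0 (by omega)
  have q11 := q 1 (by omega) 1 (by omega)
  have q20 := q 2 (by omega) 0 (by omega)
  have hBσ : 0 ≤ B * σ := by positivity
  constructor
  · intro j hj
    interval_cases j <;> linarith
  · intro j hj
    interval_cases j <;> linarith

/-- product with a cutoff -/
theorem k4_mul {κ h : P2 → ℝ} (hκ : ContDiff ℝ ∞ κ) (hh : ContDiff ℝ ∞ h) {x : P2} {B σ τ : ℝ}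
    (h0 : |κ x| ≤ 1) (hB : ∀ j ≤ 2, ‖iteratedFDeriv ℝ j κ x‖ ≤ B)
    (h1 : ∀ j ≤ 1, ‖iteratedFDeriv ℝ j h x‖ ≤ σ) (h2 : ∀ j ≤ 2, ‖iteratedFDeriv ℝ j h x‖ ≤ τ) :
    (∀ j ≤ 1, ‖iteratedFDeriv ℝ j (fun y => κ y * h y) x‖ ≤ 2 * B * σ) ∧
      ∀ j ≤ 2, ‖iteratedFDeriv ℝ j (fun y => κ y * h y) x‖ ≤ τ + 3 * B * σ := by
  exact k4_num (a := fun i => ‖iteratedFDeriv ℝ i κ x‖) (b := fun i => ‖iteratedFDeriv ℝ i h x‖)
    (c := fun n => ‖iteratedFDeriv ℝ n (fun y => κ y * h y) x‖)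
    (fun n => norm_iteratedFDeriv_mul_le hκ hh x (mod_cast le_top)) (by simpa using h0)
    (fun _ => norm_nonneg _) (fun _ => norm_nonneg _) hB h1 h2

/-- second `u`-derivative of `φ ^ 2 κ / 2` at a zero of `φ` -/
theorem k4_sq {φ κ : P2 → ℝ} {x : P2} (hφ : ContDiffAt ℝ ∞ φ x) (hκ : ContDiffAt ℝ ∞ κ x)
    (h0 : φ x = 0) : du (du fun y => κ y * (φ y ^ 2 / 2)) x = κ x * du φ x ^ 2 := by
  have dφ : ∀ᶠ y in 𝓝 x, DifferentiableAt ℝ φ y :=
    (hφ.of_le (m := 1) (mod_cast le_top)).eventually (by simp) |>.mono fun y hy =>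
      hy.differentiableAt (by simp)
  have dκ : ∀ᶠ y in 𝓝 x, DifferentiableAt ℝ κ y :=
    (hκ.of_le (m := 1) (mod_cast le_top)).eventually (by simp) |>.mono fun y hy =>
      hy.differentiableAt (by simp)
  have e1 : (du fun y => κ y * (φ y ^ 2 / 2)) =ᶠ[𝓝 x]
      fun y => φ y * (κ y * du φ y + du κ y * φ y / 2) := by
    filter_upwards [dφ, dκ] with y h1 h2
    have H : HasFDerivAt (fun y => κ y * (φ y ^ 2 / 2))
        (κ y • ((1 / 2 : ℝ) • ((2 * φ y) • fderiv ℝ φ y)) + (φ y ^ 2 / 2) • fderiv ℝ κ y) y := by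
      have h3 : HasFDerivAt (fun y => φ y ^ 2 / 2) ((1 / 2 : ℝ) • ((2 * φ y) • fderiv ℝ φ y)) y := by
        have h4 := (h1.hasFDerivAt.pow 2).const_smul (1 / 2 : ℝ)
        refine (h4.congr_fderiv ?_).congr_of_eventuallyEq (Eventually.of_forall fun z => ?_)
        · simp
        · simp only [Pi.smul_apply, smul_eq_mul]; ring
      exact h2.hasFDerivAt.mul h3
    simp only [du, H.fderiv, add_apply, smul_apply, smul_eq_mul]
    ring
  have d1 : DifferentiableAt ℝ φ x := hφ.differentiableAt (by simp)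
  have d2 : DifferentiableAt ℝ (fun y => κ y * du φ y + du κ y * φ y / 2) x := by
    have a1 := hκ.differentiableAt (by simp)
    have a2 := (contDiffAt_du hφ).differentiableAt (by simp)
    have a3 := (contDiffAt_du hκ).differentiableAt (by simp)
    fun_prop
  have e2 : du (du fun y => κ y * (φ y ^ 2 / 2)) x
      = fderiv ℝ (fun y => φ y * (κ y * du φ y + du κ y * φ y / 2)) x (1, 0) := by
    rw [du, e1.fderiv_eq]
  rw [e2, fderiv_fun_mul d1 d2]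
  simp only [add_apply, smul_apply, smul_eq_mul, h0, du]
  ring

variable {M : Type*} [TopologicalSpace M] [ChartedSpace E2 M] [IsManifold 𝓘(ℝ, E2) ∞ M]
  [T2Space M]

/-- second `u`-derivative in a chart -/
def Hs (c : Ch M) (β : M → ℝ) (q : M) : ℝ := du (du (loc c β)) (c.e q)

theorem Hs_eq (c : Ch M) {β : M → ℝ} (hβ : Sm β) {q : M} (hq : q ∈ c.e.source) :
    Hs c β q = iteratedFDeriv ℝ 2 (loc c β) (c.e q) ![(1, 0), (1, 0)] :=
  dd_eq_iterated (hβ.locAt c (c.e.map_source hq)) (1, 0) (1, 0)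

theorem Hs_congr (c : Ch M) {β β' : M → ℝ} {q : M} (hq : q ∈ c.e.source) (h : β' =ᶠ[𝓝 q] β) :
    Hs c β' q = Hs c β q := by
  have h1 := loc_congr c hq h
  have h2 : du (loc c β') =ᶠ[𝓝 (c.e q)] du (loc c β) := by
    filter_upwards [h1.fderiv (𝕜 := ℝ)] with y hy
    simp only [du, hy]
  simp only [Hs]
  rw [du, du, h2.fderiv_eq]

theorem Hs_zero (c : Ch M) {β : M → ℝ} {q : M} (hq : q ∈ c.e.source)
    (h : β =ᶠ[𝓝 q] fun _ => 0) : Hs c β q = 0 := by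
  rw [Hs_congr c hq h]
  have e : loc c (fun _ : M => (0 : ℝ)) = fun _ => 0 := rfl
  have e2 : du (fun _ : P2 => (0 : ℝ)) = fun _ => 0 := by
    funext y; simp [du]
  simp only [Hs, e, e2]

theorem Hs_add (c : Ch M) {β β' : M → ℝ} (hβ : Sm β) (hβ' : Sm β') {q : M} (hq : q ∈ c.e.source) :
    Hs c (fun p => β p + β' p) q = Hs c β q + Hs c β' q := by
  rw [Hs_eq c (hβ.add hβ') hq, Hs_eq c hβ hq, Hs_eq c hβ' hq]
  have e : loc c (fun p => β p + β' p) = loc c β + loc c β' := rfl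
  rw [e, iteratedFDeriv_add_apply ((hβ.locAt c (c.e.map_source hq)).of_le (k4_le 2))
    ((hβ'.locAt c (c.e.map_source hq)).of_le (k4_le 2))]
  rfl

theorem Hs_smul (c : Ch M) {β : M → ℝ} (hβ : Sm β) (s : ℝ) {q : M} (hq : q ∈ c.e.source) :
    Hs c (fun p => s • β p) q = s * Hs c β q := by
  rw [Hs_eq c ((sm_const s).smul hβ) hq, Hs_eq c hβ hq]
  have e : loc c (fun p => s • β p) = s • loc c β := rfl
  rw [e, iteratedFDeriv_const_smul_apply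
    ((hβ.locAt c (c.e.map_source hq)).of_le (k4_le 2))]
  rfl

theorem Hs_sum {J : Type*} (s : Finset J) (c : Ch M) {β : J → M → ℝ} (hβ : ∀ j ∈ s, Sm (β j))
    {q : M} (hq : q ∈ c.e.source) :
    Hs c (fun p => ∑ j ∈ s, β j p) q = ∑ j ∈ s, Hs c (β j) q := by
  classical
  induction s using Finset.induction_on with
  | empty => simpa using Hs_zero c hq (Eventually.of_forall fun _ => rfl)
  | insert a s ha ih =>
    have h1 : ∀ j ∈ s, Sm (β j) := fun j hj => hβ j (Finset.mem_insert_of_mem hj)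
    simp only [Finset.sum_insert ha]
    rw [Hs_add c (hβ a (Finset.mem_insert_self a s)) (Sm.sum s h1) hq, ih h1]

theorem Sys.img (S : Sys M) (l : S.I) : IsCompact ((S.c l).e '' S.D l) ∧
    (S.c l).e '' S.D l ⊆ (S.c l).e.target :=
  ⟨(S.cpt l).image_of_continuousOn ((S.c l).e.continuousOn.mono (S.sub l)),
    image_subset_iff.2 fun _ hp => (S.c l).e.map_source (S.sub l hp)⟩

theorem Sys.SB.abs_Hs {S : Sys M} {β : M → ℝ} (hβ : Sm β) {σ : ℝ} (h : S.SB 2 β σ) {l : S.I}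
    {q : M} (hq : q ∈ S.D l) : |Hs (S.c l) β q| ≤ σ := by
  rw [Hs_eq _ hβ (S.sub l hq)]
  have h1 := h l 2 le_rfl _ (mem_image_of_mem _ hq)
  have h2 := (iteratedFDeriv ℝ 2 (loc (S.c l) β) ((S.c l).e q)).le_opNorm ![(1, 0), (1, 0)]
  simp only [Fin.prod_univ_two, Matrix.cons_val_zero, Matrix.cons_val_one, Prod.norm_mk, norm_one,
    norm_zero, zero_le_one, sup_of_le_left, mul_one, Real.norm_eq_abs] at h2
  exact h2.trans h1

theorem Sys.SB.mono {S : Sys M} {β : M → ℝ} {m : ℕ} {σ τ : ℝ} (h : S.SB m β σ) (hστ : σ ≤ τ) :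
    S.SB m β τ := fun l j hj x hx => (h l j hj x hx).trans hστ

theorem Sys.SB.add' {S : Sys M} {β β' : M → ℝ} (hβ : Sm β) (hβ' : Sm β') {m : ℕ} {σ τ : ℝ}
    (h : S.SB m β σ) (h' : S.SB m β' τ) : S.SB m (fun p => β p + β' p) (σ + τ) := fun l =>
  LB.add hβ hβ' (S.img l).2 (h l) (h' l)

theorem Sys.SB.smul' {S : Sys M} {β : M → ℝ} (hβ : Sm β) {m : ℕ} {σ : ℝ} (h : S.SB m β σ)
    {s : ℝ} (hs : 0 ≤ s) : S.SB m (fun p => s • β p) (s * σ) := fun l => by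
  have := LB.const_smul hβ (S.img l).2 (h l) s
  rwa [abs_of_nonneg hs] at this

theorem Sys.SB.sum' {S : Sys M} {J : Type*} (s : Finset J) {β : J → M → ℝ}
    (hβ : ∀ j ∈ s, Sm (β j)) {m : ℕ} {σ : J → ℝ} (h : ∀ j ∈ s, S.SB m (β j) (σ j)) :
    S.SB m (fun p => ∑ j ∈ s, β j p) (∑ j ∈ s, σ j) := by
  classical
  induction s using Finset.induction_on with
  | empty =>
    intro l j _ x _
    have e : loc (S.c l) (fun p : M => ∑ j ∈ (∅ : Finset J), β j p) = fun _ => 0 := by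
      funext y; simp [loc]
    rw [e, iteratedFDeriv_fun_zero]
    simp
  | insert a s ha ih =>
    have h1 : ∀ j ∈ s, Sm (β j) := fun j hj => hβ j (Finset.mem_insert_of_mem hj)
    simp only [Finset.sum_insert ha]
    exact (h a (Finset.mem_insert_self a s)).add' (hβ a (Finset.mem_insert_self a s))
      (Sm.sum s h1) (ih h1 fun j hj => h j (Finset.mem_insert_of_mem hj))

theorem Sys.ext_SB (S : Sys M) (d : Ch M) {K : Set P2} (hK : IsCompact K) (hKd : K ⊆ d.e.target)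
    (m : ℕ) : ∃ C : ℝ, 0 ≤ C ∧ ∀ (y : P2 → ℝ) (σ : ℝ), 0 ≤ σ → ContDiff ℝ ∞ y →
      (∀ x, x ∉ K → y x = 0) → (∀ j ≤ m, ∀ x ∈ K, ‖iteratedFDeriv ℝ j y x‖ ≤ σ) →
      S.SB m (ext d y) (C * σ) := by
  choose C hC0 hC using fun l : S.I =>
    ext_bound (V := ℝ) d (S.c l) hK hKd (S.img l).1 (S.img l).2 m
  refine ⟨∑ l, C l, Finset.sum_nonneg fun l _ => hC0 l, fun y σ hσ hy h0 hb l j hj x hx => ?_⟩
  have hall : ∀ j ≤ m, ∀ z, ‖iteratedFDeriv ℝ j y z‖ ≤ σ := by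
    intro j hj z
    by_cases hz : z ∈ K
    · exact hb j hj z hz
    · have e : y =ᶠ[𝓝 z] fun _ => 0 := by
        filter_upwards [hK.isClosed.isOpen_compl.mem_nhds hz] with w hw using h0 w hw
      rw [(e.iteratedFDeriv ℝ j).eq_of_nhds, iteratedFDeriv_fun_zero]
      simpa using hσ
  refine (hC l y hy.contDiffOn h0 x hx σ hσ (fun _ j hj => hall j hj _) j hj).trans ?_
  exact mul_le_mul_of_nonneg_right
    (Finset.single_le_sum (f := C) (fun l _ => hC0 l) (Finset.mem_univ l)) hσ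

end Vale.Agent.P205
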