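import Vale.Agent.P205.K5Aux
import Vale.Agent.P205.Generic

/-! P205, K5: genericity of a nowhere vanishing second fundamental form in the plane. -/

open scoped ContDiff InnerProductSpace Topology Manifold
open Set Filter Real

noncomputable section
namespace Vale.Agent.P205

open MeasureTheory

/-- quadratic polynomial centred at `x` -/
def kq (a b c : ℝ) (x y : P2) : ℝ :=
  a / 2 * ((y.1 - x.1) * (y.1 - x.1)) + b * ((y.1 - x.1) * (y.2 - x.2))
    + c / 2 * ((y.2 - x.2) * (y.2 - x.2))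

theorem kq_sm (a b c : ℝ) (x : P2) : ContDiff ℝ ∞ (kq a b c x) := by
  unfold kq; fun_prop

theorem kq_fderiv (a b c : ℝ) (x y Y : P2) : fderiv ℝ (kq a b c x) y Y =
    (a * Y.1 + b * Y.2) * (y.1 - x.1) + (b * Y.1 + c * Y.2) * (y.2 - x.2) := by
  have h1 := (hasFDerivAt_fst (𝕜 := ℝ) (p := y)).sub_const x.1
  have h2 := (hasFDerivAt_snd (𝕜 := ℝ) (p := y)).sub_const x.2
  have h : HasFDerivAt (kq a b c x) _ y :=
    (((h1.mul h1).const_mul (a / 2)).add ((h1.mul h2).const_mul b)).add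
      ((h2.mul h2).const_mul (c / 2))
  rw [h.fderiv]
  simp
  ring

theorem kq_dd (a b c : ℝ) (x X Y : P2) : dd (kq a b c x) x X Y =
    (a * Y.1 + b * Y.2) * X.1 + (b * Y.1 + c * Y.2) * X.2 := by
  have h1 := (hasFDerivAt_fst (𝕜 := ℝ) (p := x)).sub_const x.1
  have h2 := (hasFDerivAt_snd (𝕜 := ℝ) (p := x)).sub_const x.2
  have h : HasFDerivAt (fun y : P2 => (a * Y.1 + b * Y.2) * (y.1 - x.1) +
      (b * Y.1 + c * Y.2) * (y.2 - x.2)) _ x := (h1.const_mul _).add (h2.const_mul _)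
  simp only [dd, kq_fderiv]
  rw [h.fderiv]
  simp

/-- jets of `f + q • n` when the first jet of `q` vanishes -/
theorem k5_var {f n : P2 → R4} {q : P2 → ℝ} {x : P2} (hf : ContDiffAt ℝ ∞ f x)
    (hn : ContDiffAt ℝ ∞ n x) (hq : ContDiffAt ℝ ∞ q x) (h0 : q x = 0)
    (h1 : ∀ Y, fderiv ℝ q x Y = 0) (X Y : P2) :
    II (fun y => f y + q y • n y) x X Y = II f x X Y + dd q x X Y • nrm f x (n x) := by
  have e1 : ∀ Z, (fun y => fderiv ℝ (fun y => f y + q y • n y) y Z) =ᶠ[𝓝 x]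
      fun y => fderiv ℝ f y Z + (q y • fderiv ℝ n y Z + fderiv ℝ q y Z • n y) := fun Z => by
    filter_upwards [surf_ev hf, surf_ev hn, surf_ev hq] with y a1 a2 a3
    have b1 := (a1.differentiableAt (by simp)).hasFDerivAt
    have b2 := (a2.differentiableAt (by simp)).hasFDerivAt
    have b3 := (a3.differentiableAt (by simp)).hasFDerivAt
    have b : HasFDerivAt (fun y => f y + q y • n y) _ y := b1.add (b3.smul b2)
    rw [b.fderiv]
    simp
  have e2 : ∀ Z, fderiv ℝ (fun y => f y + q y • n y) x Z = fderiv ℝ f x Z := fun Z => by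
    rw [(e1 Z).eq_of_nhds, h0, h1]; simp
  have e3 : dd (fun y => f y + q y • n y) x X Y = dd f x X Y + dd q x X Y • n x := by
    have b1 := (surf_dapp (surf_two hf) Y).hasFDerivAt
    have b2 := (surf_dapp (surf_two hn) Y).hasFDerivAt
    have b3 := (surf_dapp (surf_two hq) Y).hasFDerivAt
    have b4 := (hn.differentiableAt (by simp)).hasFDerivAt
    have b5 := (hq.differentiableAt (by simp)).hasFDerivAt
    have b : HasFDerivAt (fun y => fderiv ℝ f y Y + (q y • fderiv ℝ n y Y + fderiv ℝ q y Y • n y))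
      _ x := b1.add ((b5.smul b2).add (b3.smul b4))
    rw [dd, (e1 Y).fderiv_eq, b.fderiv]
    simp [h0, h1, dd]
  simp only [II, nrm, du, dv, e2, e3, perp_add, perp_smul]

section Par
variable {Λ : Type} [NormedAddCommGroup Λ] [NormedSpace ℝ Λ]

theorem k5_par {G : P2 × Λ → R4} {z : P2 × Λ} (hG : ContDiffAt ℝ ∞ G z) (X : P2) :
    ContDiffAt ℝ ∞ (fun w : P2 × Λ => fderiv ℝ (fun y => G (y, w.2)) w.1 X) z := by
  refine ContDiffAt.clm_apply (ContDiffAt.fderiv (f := fun (w : P2 × Λ) y => G (y, w.2))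
    (g := Prod.fst) (n := ∞) ?_ contDiffAt_fst le_rfl) contDiffAt_const
  exact ContDiffAt.comp (g := G) (f := fun v : (P2 × Λ) × P2 => (v.2, v.1.2)) _ hG (by fun_prop)

theorem k5_plane [FiniteDimensional ℝ Λ] [MeasurableSpace Λ] [BorelSpace Λ] (μ : Measure Λ)
    [μ.IsAddHaarMeasure] {U : Set P2} (hU : IsOpen U) {G : P2 × Λ → R4} {n : P2 → R4}
    (hG : ∀ z : P2 × Λ, z.1 ∈ U → ContDiffAt ℝ ∞ G z) (hn : ∀ x ∈ U, ContDiffAt ℝ ∞ n x)
    (hv : ∀ x ∈ U, ∀ a b c : ℝ, ∃ l' : Λ, ∀ (l : Λ) (t : ℝ),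
      ∀ᶠ y in 𝓝 x, G (y, l + t • l') = G (y, l) + (t * kq a b c x y) • n y) :
    μ {l | ∃ x ∈ U, 0 < det2 (fun y => G (y, l)) x ∧ nrm (fun y => G (y, l)) x (n x) ≠ 0 ∧
      ∀ X Y, II (fun y => G (y, l)) x X Y = 0} = 0 := by
  have hp : ∀ (ξ : P2 × Λ → R4) (z : P2 × Λ), z.1 ∈ U → 0 < det2 (fun y => G (y, z.2)) z.1 →
      ContDiffAt ℝ ∞ ξ z →
      ContDiffAt ℝ ∞ (fun w : P2 × Λ => nrm (fun y => G (y, w.2)) w.1 (ξ w)) z :=
    fun ξ z hz hd hξ => ContDiffAt.comp (g := fun z : R4 × R4 × R4 => perp z.1 z.2.1 z.2.2)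
      (f := fun w : P2 × Λ => (du (fun y => G (y, w.2)) w.1, dv (fun y => G (y, w.2)) w.1, ξ w)) z
      (contDiffAt_perp hd.ne' (ξ z))
      ((k5_par (hG z hz) (1, 0)).prodMk ((k5_par (hG z hz) (0, 1)).prodMk hξ))
  have hn' : ∀ z : P2 × Λ, z.1 ∈ U → ContDiffAt ℝ ∞ (fun w : P2 × Λ => n w.1) z :=
    fun z hz => (hn _ hz).comp z contDiffAt_fst
  have hO : IsOpen {z : P2 × Λ | z.1 ∈ U ∧ 0 < det2 (fun y => G (y, z.2)) z.1 ∧
      nrm (fun y => G (y, z.2)) z.1 (n z.1) ≠ 0} := by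
    refine isOpen_iff_mem_nhds.2 fun z hz => ?_
    have a1 : ContinuousAt (fun w : P2 × Λ => det2 (fun y => G (y, w.2)) w.1) z :=
      (contDiff_gram2.contDiffAt.comp z
        ((k5_par (hG z hz.1) (1, 0)).prodMk (k5_par (hG z hz.1) (0, 1)))).continuousAt
    exact (continuousAt_fst.eventually (hU.mem_nhds hz.1)).and
      ((continuousAt_const.eventually_lt a1 hz.2.1).and
        ((hp _ z hz.1 hz.2.1 (hn' z hz.1)).continuousAt.eventually_ne hz.2.2))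
  obtain ⟨Φ, hΦ⟩ : ∃ Φ : P2 × Λ → Q3, Φ = fun z =>
    (⟪II (fun y => G (y, z.2)) z.1 (1, 0) (1, 0), n z.1⟫_ℝ,
      ⟪II (fun y => G (y, z.2)) z.1 (1, 0) (0, 1), n z.1⟫_ℝ,
        ⟪II (fun y => G (y, z.2)) z.1 (0, 1) (0, 1), n z.1⟫_ℝ) := ⟨_, rfl⟩
  have hs : ∀ z : P2 × Λ, z.1 ∈ U → 0 < det2 (fun y => G (y, z.2)) z.1 → ContDiffAt ℝ ∞ Φ z :=
    fun z hz hd => by
      have a : ∀ X Y, ContDiffAt ℝ ∞
          (fun w : P2 × Λ => ⟪II (fun y => G (y, w.2)) w.1 X Y, n w.1⟫_ℝ) z := fun X Y =>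
        (hp _ z hz hd (k5_par (k5_par (hG z hz) Y) X)).inner ℝ (hn' z hz)
      rw [hΦ]
      exact (a _ _).prodMk ((a _ _).prodMk (a _ _))
  refine measure_mono_null (fun l hl => ?_) (generic_avoid μ (X := P2) (Y := Q3) (by simp) hO
    (Φ := Φ) (fun z hz => ((hs z hz.1 hz.2.1).of_le (by simp)).contDiffWithinAt) ?_)
  · obtain ⟨x, h1, h2, h3, h4⟩ := hl
    refine ⟨x, ⟨h1, h2, h3⟩, ?_⟩
    simp only [hΦ, h4, inner_zero_left]
    rfl
  · rintro ⟨x, l⟩ ⟨h1, h2, h3⟩ - v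
    dsimp only at h1 h2 h3
    obtain ⟨w, hw⟩ : ∃ w, w = ⟪nrm (fun y => G (y, l)) x (n x), n x⟫_ℝ := ⟨_, rfl⟩
    have w0 : w ≠ 0 := by
      rw [hw, nrm, ← inner_perp_perp h2.ne']
      exact inner_self_ne_zero.2 h3
    obtain ⟨l', hl'⟩ := hv x h1 (v.1 / w) (v.2.1 / w) (v.2.2 / w)
    refine ⟨(0, l'), ?_⟩
    have hf : ContDiffAt ℝ ∞ (fun y => G (y, l)) x :=
      ContDiffAt.comp (g := G) (f := fun y => (y, l)) x (hG _ h1) (by fun_prop)
    have e : ∀ (t : ℝ) X Y, ⟪II (fun y => G (y, l + t • l')) x X Y, n x⟫_ℝ =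
        ⟪II (fun y => G (y, l)) x X Y, n x⟫_ℝ +
          t * (dd (kq (v.1 / w) (v.2.1 / w) (v.2.2 / w) x) x X Y * w) := fun t X Y => by
      have e1 : (fun y => t * kq (v.1 / w) (v.2.1 / w) (v.2.2 / w) x y) =
          kq (t * (v.1 / w)) (t * (v.2.1 / w)) (t * (v.2.2 / w)) x := funext fun y => by
        simp only [kq]; ring
      rw [(jets_congr (hl' l t)).2.2.2.2.2.1,
        k5_var (q := fun y => t * kq (v.1 / w) (v.2.1 / w) (v.2.2 / w) x y) hf (hn x h1)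
          (contDiffAt_const.mul (kq_sm _ _ _ _).contDiffAt) (by simp [kq])
          (fun Y => by rw [e1, kq_fderiv]; simp), e1, inner_add_left, real_inner_smul_left, ← hw,
        kq_dd, kq_dd]
      ring
    have l1 := ((hs (x, l) h1 h2).differentiableAt (by simp)).hasFDerivAt.hasLineDerivAt
      ((0, l') : P2 × Λ)
    have l2 : HasLineDerivAt ℝ Φ v (x, l) (0, l') := by
      have : (fun t : ℝ => Φ ((x, l) + t • (0, l'))) = fun t => Φ (x, l) + t • v := by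
        funext t
        simp only [hΦ, Prod.smul_mk, smul_zero, Prod.mk_add_mk, add_zero, e, kq_dd]
        refine Prod.ext ?_ (Prod.ext ?_ ?_) <;> simp <;> field_simp <;> simp
      rw [HasLineDerivAt, this]
      simpa using ((hasDerivAt_id (0 : ℝ)).smul_const v).const_add (Φ (x, l))
    exact l1.unique l2
end Par

end Vale.Agent.P205
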