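import Vale.Agent.P205.K3
import Vale.Agent.P205.K4
import Vale.Agent.P205.J1
import Vale.Agent.P205.Generic
import Vale.Agent.P205.K5AuxB

/-! P205, K5: establishing the invariants (BLUEPRINT, module K). -/

open scoped ContDiff InnerProductSpace Topology Manifold
open Set Filter Real

noncomputable section
namespace Vale.Agent.P205

theorem q3_of_large (C R : ℝ) : ∃ Λ0 : ℝ, ∀ (Λ H1 H2 H3 : ℝ) (n η η' ζ : R4), Λ0 ≤ Λ → ‖n‖ = 1 →
    Λ ≤ H1 → H1 ≤ C * Λ → Λ ≤ H2 → H2 ≤ C * Λ → |H3| ≤ C * Λ → ‖η - H1 • n‖ ≤ R →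
    ‖η' - H2 • n‖ ≤ R → ‖ζ - H3 • n‖ ≤ R → Q3' η η' ζ := by
  refine ⟨3 * |R| + |R| * (1 + |C|) + 1, fun Λ H1 H2 H3 n η η' ζ h0 hn a1 _ a3 _ a5 b1 b2 b3 => ?_⟩
  have hR : 0 ≤ R := (norm_nonneg _).trans b1
  rw [abs_of_nonneg hR] at h0
  have hC := abs_nonneg C
  have p1 : 0 ≤ R * (1 + |C|) := by positivity
  have hΛ : 0 < Λ := by linarith
  have h2 : 0 < H2 := by linarith
  have ht : |H3 / H2| ≤ |C| := by
    rw [abs_div, abs_of_pos h2, div_le_iff₀ h2]
    exact a5.trans (mul_le_mul (le_abs_self _) a3 hΛ.le hC)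
  have e1 : gram2 η' ζ = gram2 η' (ζ - (H3 / H2) • η') := by
    have := gram2_basis 1 0 (-(H3 / H2)) 1 η' ζ
    rw [one_smul, zero_smul, add_zero, one_smul, neg_smul, neg_add_eq_sub] at this
    rw [this]; ring
  have e2 : ‖ζ - (H3 / H2) • η'‖ ≤ R * (1 + |C|) := by
    have : ζ - (H3 / H2) • η' = (ζ - H3 • n) - (H3 / H2) • (η' - H2 • n) := by
      rw [smul_sub, smul_smul, div_mul_cancel₀ _ h2.ne']; abel
    rw [this]
    refine (norm_sub_le _ _).trans ?_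
    rw [norm_smul, Real.norm_eq_abs]
    have := mul_le_mul ht b2 (norm_nonneg _) hC
    linarith
  have e3 : gram2 η' ζ ≤ ‖η'‖ ^ 2 * (R * (1 + |C|)) ^ 2 := by
    rw [e1]
    exact (gram2_le _ _).trans (by gcongr)
  have e4 : (H1 - R) * (H2 - R) - 2 * R ^ 2 ≤ ⟪η, η'⟫_ℝ := by
    have c1 : -R ≤ ⟪η - H1 • n, n⟫_ℝ := (abs_le.1 ((abs_real_inner_le_norm (η - H1 • n) n).trans
      (by rw [hn, mul_one]; exact b1))).1
    have c2 : -R ≤ ⟪n, η' - H2 • n⟫_ℝ := (abs_le.1 ((abs_real_inner_le_norm n (η' - H2 • n)).trans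
      (by rw [hn, one_mul]; exact b2))).1
    have c3 := (abs_le.1 ((abs_real_inner_le_norm (η - H1 • n) (η' - H2 • n)).trans
      (mul_le_mul b1 b2 (norm_nonneg _) hR))).1
    have c4 : ⟪η, η'⟫_ℝ = H1 * H2 + H2 * ⟪η - H1 • n, n⟫_ℝ + H1 * ⟪n, η' - H2 • n⟫_ℝ +
        ⟪η - H1 • n, η' - H2 • n⟫_ℝ := by
      simp only [inner_sub_left, inner_sub_right, real_inner_smul_left, real_inner_smul_right,
        real_inner_self_eq_norm_sq, hn]
      ring
    have c5 := mul_le_mul_of_nonneg_left c1 h2.le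
    have c6 := mul_le_mul_of_nonneg_left c2 (by linarith : 0 ≤ H1)
    rw [c4]
    linarith
  have e5 : (R * (1 + |C|)) ^ 2 < ⟪η, η'⟫_ℝ := by
    have c1 : (2 * R + R * (1 + |C|) + 1) * (2 * R + R * (1 + |C|) + 1) ≤ (H1 - R) * (H2 - R) :=
      mul_le_mul (by linarith) (by linarith) (by positivity) (by linarith)
    have c2 : 0 ≤ R * (R * (1 + |C|)) := by positivity
    nlinarith
  have e6 : 0 < ‖η'‖ := by
    refine norm_pos_iff.2 fun h => ?_
    rw [h, zero_sub, norm_neg, norm_smul, hn, Real.norm_eq_abs, abs_of_pos h2] at b2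
    linarith
  have e7 := mul_lt_mul_of_pos_left e5 (pow_pos e6 2)
  rw [gram2, real_inner_self_eq_norm_sq, real_inner_self_eq_norm_sq] at e3
  rw [Q3']
  linarith

variable {M : Type*} [TopologicalSpace M] [ChartedSpace E2 M] [IsManifold 𝓘(ℝ, E2) ∞ M]
  [T2Space M] [CompactSpace M]

omit [T2Space M] [CompactSpace M] in
theorem k5_LB_sum {J : Type} (s : Finset J) {φ : J → M → ℝ} (hφ : ∀ j, Sm (φ j)) {c : Ch M}
    {K : Set P2} (hKc : K ⊆ c.e.target) {m : ℕ} {C : ℝ} (h : ∀ j, LB c K m (φ j) C) (l : J → ℝ) :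
    LB c K m (fun p => ∑ j ∈ s, l j * φ j p) (∑ j ∈ s, |l j| * C) := by
  classical
  induction s using Finset.induction_on with
  | empty =>
    intro j _ x _
    simp only [Finset.sum_empty]
    change ‖iteratedFDeriv ℝ j (fun _ : P2 => (0 : ℝ)) x‖ ≤ 0
    rw [iteratedFDeriv_fun_zero]
    simp
  | insert a s ha ih =>
    simp only [Finset.sum_insert ha]
    exact LB.add ((sm_const _).mul (hφ a)) (Sm.sum s fun j _ => (sm_const _).mul (hφ j)) hKc
      (LB.const_smul (hφ a) hKc (h a) (l a)) ih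

theorem k5_dd_le {V : Type} [NormedAddCommGroup V] [NormedSpace ℝ V] {f : P2 → V} {x : P2}
    (h : ContDiffAt ℝ ∞ f x) {σ : ℝ} (hσ : ‖iteratedFDeriv ℝ 2 f x‖ ≤ σ) (X Y : P2) :
    ‖dd f x X Y‖ ≤ σ * ‖X‖ * ‖Y‖ := by
  rw [dd_eq_iterated h]
  refine ((iteratedFDeriv ℝ 2 f x).le_opNorm _).trans ?_
  rw [Fin.prod_univ_two, mul_assoc]
  exact mul_le_mul_of_nonneg_right hσ (by positivity)

omit [IsManifold 𝓘(ℝ, E2) ∞ M] [T2Space M] [CompactSpace M] in
theorem Sys.k5_img (S : Sys M) (l : S.I) : IsCompact ((S.c l).e '' S.D l) ∧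
    (S.c l).e '' S.D l ⊆ (S.c l).e.target :=
  ⟨(S.cpt l).image_of_continuousOn ((S.c l).e.continuousOn.mono (S.sub l)),
    image_subset_iff.2 fun _ hp => (S.c l).e.map_source (S.sub l hp)⟩

omit [T2Space M] [CompactSpace M] in
theorem Sys.exists_SB (S : Sys M) {V : Type} [NormedAddCommGroup V] [NormedSpace ℝ V] {F : M → V}
    (hF : Sm F) (m : ℕ) : ∃ σ : ℝ, 0 ≤ σ ∧ S.SB m F σ := by
  choose σ h0 hσ using fun l => exists_LB hF (S.c l) (S.k5_img l).1 (S.k5_img l).2 m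
  exact ⟨∑ l, σ l, Finset.sum_nonneg fun l _ => h0 l, fun l j hj x hx => (hσ l j hj x hx).trans
    (Finset.single_le_sum (fun l _ => h0 l) (Finset.mem_univ l))⟩

omit [CompactSpace M] in
theorem Sys.tr_bound (S : Sys M) : ∃ T : ℝ, 1 ≤ T ∧ ∀ i j, ∀ p ∈ S.D i, p ∈ S.D j →
    ‖tr (S.c i) (S.c j) p (1, 0)‖ ≤ T := by
  choose T hT using fun s : S.I × S.I =>
    ((S.cpt s.1).inter_right (S.cpt s.2).isClosed).exists_bound_of_continuousOn
      (((continuousOn_tr (S.c s.1) (S.c s.2)).mono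
        (inter_subset_inter (S.sub _) (S.sub _))).clm_apply (continuousOn_const (c := (1, 0))))
  have h0 : 0 ≤ ∑ s, |T s| := Finset.sum_nonneg fun _ _ => abs_nonneg _
  refine ⟨1 + ∑ s, |T s|, by linarith, fun i j p hi hj => (hT (i, j) p ⟨hi, hj⟩).trans ?_⟩
  have := Finset.single_le_sum (f := fun s => |T s|) (fun _ _ => abs_nonneg _)
    (Finset.mem_univ (i, j))
  have := le_abs_self (T (i, j))
  linarith

omit [IsManifold 𝓘(ℝ, E2) ∞ M] [CompactSpace M] in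
theorem Sys.fr_sub (S : Sys M) (i : S.I) : frontier (S.D i) ⊆ S.D i :=
  (S.cpt i).isClosed.frontier_subset

omit [T2Space M] [CompactSpace M] in
theorem k5_IIm_self (F : M → R4) (c : Ch M) {p : M} (hp : p ∈ c.e.source) :
    IIm F c c p = II (loc c F) (c.e p) (1, 0) (1, 0) := by
  rw [IIm, tr_self c hp]

omit [T2Space M] [CompactSpace M] in
theorem k5_IIm_cont {F : M → R4} (hF : Sm F) (hi : Imm F) (c : Ch M) :
    ContinuousOn (IIm F c c) c.e.source := by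
  refine ContinuousOn.congr (f := fun p => II (loc c F) (c.e p) (1, 0) (1, 0))
    (fun p hp => ?_) fun p hp => k5_IIm_self F c hp
  have h := hF.locAt c (c.e.map_source hp)
  exact (ContinuousAt.comp (g := fun x => II (loc c F) x (1, 0) (1, 0))
    (ContinuousAt.comp (g := fun z : R4 × R4 × R4 => perp z.1 z.2.1 z.2.2)
      (f := fun x => (du (loc c F) x, dv (loc c F) x, du (du (loc c F)) x))
      (contDiffAt_perp ((imm_iff hF c hp).1 (hi p)).ne' _).continuousAt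
      ((contDiffAt_du h).continuousAt.prodMk ((contDiffAt_dv h).continuousAt.prodMk
        (contDiffAt_du (contDiffAt_du h)).continuousAt))) (c.e.continuousAt hp)).continuousWithinAt

theorem k5_inner {η n : R4} {H R : ℝ} (hn : ‖n‖ = 1) (h : ‖η - H • n‖ ≤ R) :
    H - R ≤ ⟪η, n⟫_ℝ := by
  have e1 : -R ≤ ⟪η - H • n, n⟫_ℝ := (abs_le.1 ((abs_real_inner_le_norm (η - H • n) n).trans
    (by rw [hn, mul_one]; exact h))).1
  rw [inner_sub_left, real_inner_smul_left, real_inner_self_eq_norm_sq, hn] at e1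
  linarith

theorem k5_tri {a b c : R4} {ε σ : ℝ} (h : ‖a - b - c‖ ≤ ε) (h' : ‖b‖ ≤ σ) : ‖a - c‖ ≤ ε + σ := by
  have : a - c = a - b - c + b := by abel
  rw [this]
  exact (norm_add_le _ _).trans (add_le_add h h')

theorem k5_e1 : ‖((1, 0) : P2)‖ = 1 := by simp [Prod.norm_def]

omit [T2Space M] [CompactSpace M] in
theorem k5_transv {S : Sys M} (hS : S.Cov) {F n : M → R4} (hF : Sm F) (hi : Imm F)
    (hn : ∀ p, ‖n p‖ = 1) {ε : ℝ} (hε : ε ≤ 1 / 2)
    (h : ∀ l, ∀ p ∈ S.D l, ‖nrmM F (S.c l) p (n p) - n p‖ ≤ ε) : Transv F n := fun p => by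
  obtain ⟨l, hl⟩ := hS p
  refine (transv_iff hF (S.c l) (S.sub l hl) (hi p) (n p)).2 fun h0 => ?_
  have := h l p hl
  rw [h0, zero_sub, norm_neg, hn] at this
  linarith

theorem convexify (S : Sys M) (T : Sides S) (hS : S.Cov) {F ν : M → R4} (hF : Sm F) (hν : Sm ν)
    (hi : Imm F) (ht : Transv F ν) (ε : ℝ) (hε : 0 < ε) :
    ∃ F1 ν1 : M → R4, Inv0 S F1 ν1 ∧ S.TB (pull F1 - pull F) ε := by
  obtain ⟨n, hn, -⟩ := exists_UN hF hν hi ht
  obtain ⟨C, hC, Hc⟩ := convex_fun S T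
  obtain ⟨τ, τ1, hτ⟩ := S.tr_bound
  obtain ⟨B, hB, HB⟩ := S.exists_SB hF 2
  obtain ⟨Λ0, H3⟩ := q3_of_large (C * τ) ((1 + B) * τ)
  obtain ⟨δ, hδ, Hp⟩ := normal_pert S hS hF hi hn (min ε (1 / 2)) (by positivity)
  obtain ⟨Λ, hΛ⟩ : ∃ Λ, Λ = max Λ0 (B + 2) := ⟨_, rfl⟩
  have l1 : Λ0 ≤ Λ := hΛ ▸ le_max_left _ _
  have l2 : B + 2 ≤ Λ := hΛ ▸ le_max_right _ _
  have l3 : 0 < C * Λ := mul_pos hC (by linarith)
  obtain ⟨β, sβ, b1, b2, b3⟩ := Hc Λ (δ / (1 + C * Λ)) (by linarith) (by positivity)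
  obtain ⟨i1, t1, H⟩ := Hp β _ _ sβ (by positivity) l3.le b1 b2 (le_of_eq (by field_simp))
  have sF : Sm fun p => F p + β p • n p := hF.add (sβ.smul hn.1)
  have m1 : min ε (1 / 2) ≤ 1 / 2 := min_le_right _ _
  have key : ∀ l, ∀ p ∈ S.D l, ∀ Z : P2,
      ‖II (loc (S.c l) fun p => F p + β p • n p) ((S.c l).e p) (1, 0) Z -
        dd (loc (S.c l) β) ((S.c l).e p) (1, 0) Z • n p‖ ≤ (1 + B) * ‖Z‖ ∧
      |dd (loc (S.c l) β) ((S.c l).e p) (1, 0) Z| ≤ C * Λ * ‖Z‖ := fun l p hp Z => by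
    have hx := (S.c l).e.map_source (S.sub l hp)
    have c1 := (norm_perp_le ((imm_iff hF _ (S.sub l hp)).1 (hi p)).ne' _).trans
      (k5_dd_le (hF.locAt _ hx) (HB l 2 le_rfl _ (mem_image_of_mem _ hp)) (1, 0) Z)
    have c2 := k5_dd_le (sβ.locAt _ hx) (b2 l 2 le_rfl _ (mem_image_of_mem _ hp)) (1, 0) Z
    have c3 := k5_tri ((H l p hp).2 (1, 0) Z) c1
    rw [k5_e1, mul_one] at c2
    rw [k5_e1, mul_one, mul_one] at c3
    have c4 := mul_le_mul_of_nonneg_right (m1.trans (by norm_num : (1 : ℝ) / 2 ≤ 1)) (norm_nonneg Z)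
    exact ⟨by linarith, c2⟩
  have key' : ∀ l, ∀ p ∈ S.D l, ‖IIm (fun p => F p + β p • n p) (S.c l) (S.c l) p -
      dd (loc (S.c l) β) ((S.c l).e p) (1, 0) (1, 0) • n p‖ ≤ 1 + B ∧
      dd (loc (S.c l) β) ((S.c l).e p) (1, 0) (1, 0) ≤ C * Λ := fun l p hp => by
    have := key l p hp (1, 0)
    rw [k5_e1, mul_one, mul_one, ← k5_IIm_self _ _ (S.sub l hp)] at this
    exact ⟨this.1, (le_abs_self _).trans this.2⟩
  refine ⟨_, n, ⟨sF, hn.1, i1, k5_transv hS sF i1 (fun p => (hn.2 p).1) m1 fun l p hp =>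
    (H l p hp).1, fun i j p hp => ?_, fun i j _ p hp => ?_⟩, t1.mono (min_le_left _ _)⟩
  · have c1 := k5_inner (hn.2 p).1 (key' i p (S.fr_sub i hp.1)).1
    have c2 := k5_inner (hn.2 p).1 (key' j p (S.fr_sub j hp.2)).1
    have c3 := (H i p (S.fr_sub i hp.1)).1
    rw [← one_smul ℝ (n p)] at c3
    replace c3 := k5_inner (hn.2 p).1 c3
    rw [one_smul] at c3
    have c4 := b3 i p hp.1
    have c5 := b3 j p hp.2
    exact q2_of_inner (ξ := n p) (by linarith) (by linarith) (by linarith)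
  · obtain ⟨c1, c2⟩ := key' i p (S.fr_sub i hp.1)
    obtain ⟨c3, c4⟩ := key' j p (S.fr_sub j hp.2)
    obtain ⟨c5, c6⟩ := key j p (S.fr_sub j hp.2) (tr (S.c i) (S.c j) p (1, 0))
    have c7 := hτ i j p (S.fr_sub i hp.1) (S.fr_sub j hp.2)
    have c8 : C * Λ ≤ C * τ * Λ := by nlinarith
    have c9 : 1 + B ≤ (1 + B) * τ := by nlinarith
    refine H3 Λ _ _ _ (n p) _ _ _ l1 (hn.2 p).1 (b3 i p hp.1) (c2.trans c8) (b3 j p hp.2)
      (c4.trans c8) (c6.trans ?_) (c1.trans c9) (c3.trans c9) (c5.trans (by gcongr))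
    calc _ ≤ C * Λ * τ := by gcongr
      _ = _ := by ring

/-- a generic small normal perturbation has nowhere vanishing second fundamental form -/
theorem exists_small_II (S : Sys M) {F n : M → R4} (hF : Sm F) (hn : Sm n) (σ : ℝ) (hσ : 0 < σ) :
    ∃ β : M → ℝ, Sm β ∧ S.SB 2 β σ ∧ ∀ p,
      Function.Injective (dM (fun p => F p + β p • n p) p) →
      (∀ X, n p ≠ dM (fun p => F p + β p • n p) p X) →
      ∃ c : Ch M, p ∈ c.e.source ∧ 0 < Gram (loc c fun p => F p + β p • n p) (c.e p) := by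
  obtain ⟨N, d, K, hK, hcov⟩ := exists_cover (M := M)
  choose χ c1 c2 c3 _ c5 using fun k => exists_cutoff (hK k).1 (d k).e.open_target (hK k).2
  obtain ⟨mon, hmon⟩ : ∃ mon : Fin 6 → P2 → ℝ, mon = ![fun _ => 1, fun y => y.1, fun y => y.2,
    fun y => y.1 * y.1, fun y => y.1 * y.2, fun y => y.2 * y.2] := ⟨_, rfl⟩
  have smon : ∀ r, ContDiff ℝ ∞ (mon r) := fun r => by
    rw [hmon]
    fin_cases r <;> simp <;> fun_prop
  obtain ⟨φ, hφ⟩ : ∃ φ : Fin N × Fin 6 → M → ℝ,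
    φ = fun s => ext (d s.1) fun y => χ s.1 y * mon s.2 y := ⟨_, rfl⟩
  have sφ : ∀ s, Sm (φ s) := fun s => by
    rw [hφ]
    exact sm_ext _ (c2 s.1).isCompact (c3 s.1)
      (fun x hx => by rw [image_eq_zero_of_notMem_tsupport hx, zero_mul])
      ((c1 s.1).mul (smon s.2)).contDiffOn
  choose C C0 hC using fun s => S.exists_SB (sφ s) 2
  have hC' : ∀ s, S.SB 2 (φ s) (∑ s, C s) := fun s l j hj x hx => (hC s l j hj x hx).trans
    (Finset.single_le_sum (fun s _ => C0 s) (Finset.mem_univ s))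
  have C1 : 0 ≤ ∑ s, C s := Finset.sum_nonneg fun s _ => C0 s
  have null : ∀ k, MeasureTheory.volume {l : Fin N × Fin 6 → ℝ | ∃ x ∈ interior (K k),
      0 < det2 (loc (d k) fun p => F p + (∑ s, l s * φ s p) • n p) x ∧
      nrm (loc (d k) fun p => F p + (∑ s, l s * φ s p) • n p) x (loc (d k) n x) ≠ 0 ∧
      ∀ X Y, II (loc (d k) fun p => F p + (∑ s, l s * φ s p) • n p) x X Y = 0} = 0 := fun k => by
    have ht : ∀ x ∈ interior (K k), x ∈ (d k).e.target := fun x hx =>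
      (hK k).2 (interior_subset hx)
    refine k5_plane _ isOpen_interior (G := fun z : P2 × (Fin N × Fin 6 → ℝ) => loc (d k) F z.1 +
      (∑ s, z.2 s * loc (d k) (φ s) z.1) • loc (d k) n z.1) (fun z hz => ?_)
      (fun x hx => hn.locAt _ (ht x hx)) fun x hx a b c => ?_
    · exact ((hF.locAt _ (ht _ hz)).comp z contDiffAt_fst).add
        ((ContDiffAt.sum fun s _ => (by fun_prop : ContDiffAt ℝ ∞
          (fun w : P2 × (Fin N × Fin 6 → ℝ) => w.2 s) z).mul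
            (((sφ s).locAt _ (ht _ hz)).comp z contDiffAt_fst)).smul
          ((hn.locAt _ (ht _ hz)).comp z contDiffAt_fst))
    · obtain ⟨co, hco⟩ : ∃ co : Fin 6 → ℝ, co = ![a / 2 * (x.1 * x.1) + b * (x.1 * x.2) +
        c / 2 * (x.2 * x.2), -(a * x.1 + b * x.2), -(b * x.1 + c * x.2), a / 2, b, c / 2] :=
        ⟨_, rfl⟩
      refine ⟨fun s => if s.1 = k then co s.2 else 0, fun l t => ?_⟩
      filter_upwards [(d k).e.open_target.mem_nhds (ht x hx),
        (c5 k).filter_mono (nhds_le_nhdsSet (interior_subset hx))] with y h1 h2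
      have e1 : ∀ r, loc (d k) (φ (k, r)) y = mon r y := fun r => by
        rw [hφ, (loc_ext (d k) _ h1).eq_of_nhds, h2, one_mul]
      have e2 : ∑ s : Fin N × Fin 6, (if s.1 = k then co s.2 else 0) * loc (d k) (φ s) y =
          kq a b c x y := by
        rw [Fintype.sum_prod_type, Finset.sum_eq_single k]
        · simp only [if_true, e1, Fin.sum_univ_six, hco, hmon, kq]
          simp
          ring
        · intro k' _ hk'
          simp [hk']
        · simp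
      simp only [Pi.add_apply, Pi.smul_apply, smul_eq_mul, add_mul, Finset.sum_add_distrib,
        mul_assoc, ← Finset.mul_sum, e2, add_smul, add_assoc]
  obtain ⟨l, hl1, hl2⟩ := (MeasureTheory.Measure.dense_of_ae (MeasureTheory.ae_all_iff.2 fun k =>
    MeasureTheory.measure_eq_zero_iff_ae_notMem.1 (null k))).exists_mem_open Metric.isOpen_ball
      (Metric.nonempty_ball (x := 0).2
        (by positivity : 0 < σ / (Fintype.card (Fin N × Fin 6) * ∑ s, C s + 1)))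
  have sβ : Sm fun p => ∑ s, l s * φ s p := Sm.sum _ fun s _ => (sm_const _).mul (sφ s)
  refine ⟨_, sβ, fun i j hj x hx => (k5_LB_sum _ sφ (S.k5_img i).2 (fun s => hC' s i) l j hj x
    hx).trans ?_, fun p h1 h2 => ?_⟩
  · rw [mem_ball_zero_iff, lt_div_iff₀ (by positivity)] at hl2
    have e1 : ∑ s, |l s| * ∑ s, C s ≤ ∑ _s : Fin N × Fin 6, ‖l‖ * ∑ s, C s :=
      Finset.sum_le_sum fun s _ => mul_le_mul_of_nonneg_right (norm_le_pi_norm l s) C1
    rw [Finset.sum_const, Finset.card_univ, nsmul_eq_mul] at e1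
    have := norm_nonneg l
    linarith
  · have sF : Sm fun p => F p + (∑ s, l s * φ s p) • n p := hF.add (sβ.smul hn)
    obtain ⟨k, k1, k2⟩ := hcov p
    have := hl1 k
    simp only [mem_ofPred_eq, not_exists, not_and, not_forall] at this
    obtain ⟨X, Y, h⟩ := this _ k2 ((imm_iff sF _ k1).1 h1) (by
      have := (transv_iff sF (d k) k1 h1 (n p)).1 h2
      rwa [loc, (d k).e.left_inv k1])
    exact exists_gram_pos sF (d k) k1 h1 h

theorem make_II (S : Sys M) (hS : S.Cov) {F ν : M → R4} (h : Inv0 S F ν) (ε : ℝ) (hε : 0 < ε) :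
    ∃ F1 ν1 : M → R4, Inv S F1 ν1 ∧ S.TB (pull F1 - pull F) ε := by
  obtain ⟨n, hn, hθ⟩ := exists_UN h.smF h.smν h.imm h.tv
  obtain ⟨τ, τ1, hτ⟩ := S.tr_bound
  have M2 : ∀ s : S.I × S.I, ∀ᶠ μ in 𝓝[>] (0 : ℝ),
      ∀ p ∈ frontier (S.D s.1) ∩ frontier (S.D s.2), ∀ z : R4 × R4 × R4,
        ‖z - (IIm F (S.c s.1) (S.c s.1) p, IIm F (S.c s.2) (S.c s.2) p, n p)‖ ≤ μ →
          Q2 z.1 z.2.1 z.2.2 := by
    rintro ⟨i, j⟩
    filter_upwards [k5_margin (IsCompact.image_of_continuousOn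
      (isClosed_frontier.inter isClosed_frontier).isCompact (((k5_IIm_cont h.smF h.imm (S.c i)).mono fun p hp => S.sub i (S.fr_sub i hp.1)).prodMk
        (((k5_IIm_cont h.smF h.imm (S.c j)).mono fun p hp => S.sub j (S.fr_sub j hp.2)).prodMk
          hn.1.continuous.continuousOn))) isOpen_Q2 (by
            rintro _ ⟨p, hp, rfl⟩
            obtain ⟨θ, h0, h1⟩ := hθ (S.c i) p (S.sub i (S.fr_sub i hp.1))
            have := (h.i2 i j p hp).smul h0
            rwa [← h1] at this)] with μ hμ p hp z hz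
    exact hμ _ (mem_image_of_mem _ hp) z hz
  have M3 : ∀ s : S.I × S.I, ∀ᶠ μ in 𝓝[>] (0 : ℝ), s.1 ≠ s.2 →
      ∀ p ∈ frontier (S.D s.1) ∩ frontier (S.D s.2), ∀ z : R4 × R4 × R4,
        ‖z - (IIm F (S.c s.1) (S.c s.1) p, IIm F (S.c s.2) (S.c s.2) p,
          IIm F (S.c s.2) (S.c s.1) p)‖ ≤ μ → Q3' z.1 z.2.1 z.2.2 := by
    rintro ⟨i, j⟩
    by_cases hij : i = j
    · exact Eventually.of_forall fun _ h' => absurd hij h'
    filter_upwards [k5_margin ((S.finX i j hij).image fun p => (IIm F (S.c i) (S.c i) p,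
      IIm F (S.c j) (S.c j) p, IIm F (S.c j) (S.c i) p)).isCompact isOpen_Q3 (by
        rintro _ ⟨p, hp, rfl⟩
        exact h.i3 i j hij p hp)] with μ hμ _ p hp z hz
    exact hμ _ (mem_image_of_mem _ hp) z hz
  obtain ⟨μ, μ0, H2, H3⟩ := k5_ex ((eventually_all.2 M2).and (eventually_all.2 M3))
  obtain ⟨e, he⟩ : ∃ e, e = min (min ε (1 / 2)) (μ / (2 * τ)) := ⟨_, rfl⟩
  have e0 : 0 < e := by rw [he]; positivity
  have e1 : e ≤ ε := he ▸ (min_le_left _ _).trans (min_le_left _ _)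
  have e2 : e ≤ 1 / 2 := he ▸ (min_le_left _ _).trans (min_le_right _ _)
  have e3 : (e + e) * τ ≤ μ := by
    have : e ≤ μ / (2 * τ) := he ▸ min_le_right _ _
    rw [le_div_iff₀ (by positivity)] at this
    linarith
  have e4 : e + e ≤ μ := le_trans (le_mul_of_one_le_right (by positivity) τ1) e3
  obtain ⟨δ, hδ, Hp⟩ := normal_pert S hS h.smF h.imm hn e e0
  obtain ⟨β, sβ, b2, hg⟩ := exists_small_II S h.smF hn.1 (min e (δ / 2)) (by positivity)
  have m1 := min_le_left e (δ / 2)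
  have m2 := min_le_right e (δ / 2)
  have m0 : 0 ≤ min e (δ / 2) := by positivity
  obtain ⟨i1, t1, H⟩ := Hp β _ _ sβ m0 m0 (fun l j hj => b2 l j (by omega)) b2 (by nlinarith)
  have sF : Sm fun p => F p + β p • n p := h.smF.add (sβ.smul hn.1)
  have tv := k5_transv hS sF i1 (fun p => (hn.2 p).1) e2 fun l p hp => (H l p hp).1
  have key : ∀ l, ∀ p ∈ S.D l, ∀ Z : P2,
      ‖II (loc (S.c l) fun p => F p + β p • n p) ((S.c l).e p) (1, 0) Z -
        II (loc (S.c l) F) ((S.c l).e p) (1, 0) Z‖ ≤ (e + e) * ‖Z‖ := fun l p hp Z => by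
    have c2 := k5_dd_le (sβ.locAt _ ((S.c l).e.map_source (S.sub l hp)))
      ((b2 l 2 le_rfl _ (mem_image_of_mem _ hp)).trans m1) (1, 0) Z
    have c3 := (H l p hp).2 (1, 0) Z
    rw [sub_right_comm] at c3
    have c4 := k5_tri c3 (σ := e * ‖((1, 0) : P2)‖ * ‖Z‖) (by rwa [norm_smul, (hn.2 p).1, mul_one])
    rw [k5_e1] at c4
    linarith
  have key' : ∀ l, ∀ p ∈ S.D l, ‖IIm (fun p => F p + β p • n p) (S.c l) (S.c l) p -
      IIm F (S.c l) (S.c l) p‖ ≤ μ := fun l p hp => by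
    have := key l p hp (1, 0)
    rw [k5_e1, mul_one, ← k5_IIm_self _ _ (S.sub l hp), ← k5_IIm_self _ _ (S.sub l hp)] at this
    exact this.trans e4
  refine ⟨_, n, ⟨sF, hn.1, fun p => hg p (i1 p) (tv p), tv, fun i j p hp => ?_,
    fun i j hij p hp => ?_⟩, t1.mono e1⟩
  · exact H2 (i, j) p hp (_, _, _) (norm_prod_le_iff.2 ⟨key' i p (S.fr_sub i hp.1),
      norm_prod_le_iff.2 ⟨key' j p (S.fr_sub j hp.2),
        (H i p (S.fr_sub i hp.1)).1.trans (by linarith)⟩⟩)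
  · have := hτ i j p (S.fr_sub i hp.1) (S.fr_sub j hp.2)
    exact H3 (i, j) hij p hp (_, _, _) (norm_prod_le_iff.2 ⟨key' i p (S.fr_sub i hp.1),
      norm_prod_le_iff.2 ⟨key' j p (S.fr_sub j hp.2),
        (key j p (S.fr_sub j hp.2) _).trans (le_trans (by gcongr) e3)⟩⟩)

end Vale.Agent.P205
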