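import Vale.Agent.P205.KDefs

/-! P205, K5: uniform margins on compact sets. -/

open scoped ContDiff InnerProductSpace Topology Manifold
open Set Filter Real

noncomputable section
namespace Vale.Agent.P205

theorem k5_margin {Z : Type*} [NormedAddCommGroup Z] {K O : Set Z} (hK : IsCompact K)
    (hO : IsOpen O) (hKO : K ⊆ O) :
    ∀ᶠ ε in 𝓝[>] (0 : ℝ), ∀ z ∈ K, ∀ z', ‖z' - z‖ ≤ ε → z' ∈ O := by
  obtain ⟨δ, hδ, h⟩ := hK.exists_cthickening_subset_open hO hKO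
  filter_upwards [Ioo_mem_nhdsGT hδ] with ε hε z hz z' hz'
  exact h (Metric.mem_cthickening_of_dist_le z' z δ K hz
    (by rw [dist_eq_norm]; exact hz'.trans hε.2.le))

theorem k5_ex {P : ℝ → Prop} (h : ∀ᶠ ε in 𝓝[>] (0 : ℝ), P ε) : ∃ ε, 0 < ε ∧ P ε :=
  (h.and self_mem_nhdsWithin).exists.imp fun _ h => ⟨h.2, h.1⟩

variable {M : Type*} [TopologicalSpace M] [ChartedSpace E2 M] [IsManifold 𝓘(ℝ, E2) ∞ M]

theorem k5_tr_sm (c c' d : Ch M) {p : M} (hp : p ∈ c.e.source) (hp' : p ∈ c'.e.source)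
    (hd : p ∈ d.e.source) (X : P2) : ContDiffAt ℝ ∞ (loc d fun q => tr c c' q X) (d.e p) := by
  have h1 : ContDiffAt ℝ ∞ (fderiv ℝ (trans c c')) (trans d c (d.e p)) := by
    rw [trans_apply d c hd]
    exact (contDiffAt_trans c c' hp hp').fderiv_right (m := ∞) le_rfl
  exact (h1.comp _ (contDiffAt_trans d c hd hp)).clm_apply contDiffAt_const

theorem k5_tr_det (c c' : Ch M) {p : M} (hp : p ∈ c.e.source) (hp' : p ∈ c'.e.source) (X : P2) :
    tr c' c p (tr c c' p X) = X := by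
  rw [tr_tr c c' c hp hp' hp, tr_self c hp]

end Vale.Agent.P205
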