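import Vale.Agent.P205.K2
import Vale.Agent.P205.K5
import Vale.Agent.P205.K5Aux

/-! P205, K6: amplitudes and the complete setup (BLUEPRINT, module K). -/

open scoped ContDiff InnerProductSpace Topology Manifold
open Set Filter Real

noncomputable section
namespace Vale.Agent.P205

variable {M : Type*} [TopologicalSpace M] [ChartedSpace E2 M] [IsManifold 𝓘(ℝ, E2) ∞ M]
  [T2Space M] [CompactSpace M]

theorem lco_decomp (c : Fin 3 → Ch M) {p : M} (hp : ∀ i, p ∈ (c i).e.source)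
    (hind : ∀ i j, i ≠ j → (tr (c i) (c j) p (1, 0)).2 ≠ 0) {h : Ten M} (hs : Symm h) :
    h p = ∑ i, Lco (c i) (c (i + 1)) (c (i + 2)) h p • prim (fun _ => 1) (vco (c i)) p := by
  obtain ⟨L, hL⟩ : ∃ L : Fin 3 → ℝ, L = fun i => Lco (c i) (c (i + 1)) (c (i + 2)) h p := ⟨_, rfl⟩
  obtain ⟨h', hh'⟩ : ∃ h' : Ten M, h' = ∑ i, L i • prim (fun _ => 1) (vco (c i)) := ⟨_, rfl⟩
  have e0 : h' p = ∑ i, Lco (c i) (c (i + 1)) (c (i + 2)) h p •
      prim (fun _ => 1) (vco (c i)) p := by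
    rw [hh', hL, Finset.sum_apply]; rfl
  have hs' : Symm h' := fun q X Y => by
    rw [hh', Finset.sum_apply]
    simp only [_root_.sum_apply, Pi.smul_apply, _root_.smul_apply]
    exact Finset.sum_congr rfl fun i _ => by rw [symm_prim _ _ q X Y]
  have h0 : ∀ i, (tr (c i) (c i) p (1, 0)).2 = 0 := fun i => by rw [tr_self _ (hp i)]
  have key : ∀ i, cmp (c 0) h ((c 0).e p) (tr (c (i + 1)) (c 0) p (1, 0))
      (tr (c (i + 2)) (c 0) p (1, 0)) = cmp (c 0) h' ((c 0).e p) (tr (c (i + 1)) (c 0) p (1, 0))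
        (tr (c (i + 2)) (c 0) p (1, 0)) := fun i => by
    rw [hh', cmp_sum]
    simp only [cmp_smul, cmp_prim _ _ _ (hp 0) (hp _), tr_tr _ _ _ (hp _) (hp 0) (hp _)]
    rw [Finset.sum_eq_single i, cmp_trans (c 0) (c i) h (hp 0) (hp i),
      tr_tr _ _ _ (hp _) (hp 0) (hp _), tr_tr _ _ _ (hp _) (hp 0) (hp _), hL]
    · have a1 := hind (i + 1) i (by fin_cases i <;> decide)
      have a2 := hind (i + 2) i (by fin_cases i <;> decide)
      simp only [Lco]
      field_simp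
    · intro j _ hj
      have : j = i + 1 ∨ j = i + 2 := by
        revert hj; fin_cases i <;> fin_cases j <;> decide
      rcases this with rfl | rfl <;> simp [h0]
    · simp
  have k0 := key 0
  have k1 := key 1
  have k2 := key 2
  have f1 : (0 : Fin 3) + 1 = 1 := rfl
  have f2 : (0 : Fin 3) + 2 = 2 := rfl
  have f3 : (1 : Fin 3) + 1 = 2 := rfl
  have f4 : (1 : Fin 3) + 2 = 0 := rfl
  have f5 : (2 : Fin 3) + 1 = 0 := rfl
  have f6 : (2 : Fin 3) + 2 = 1 := rfl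
  rw [f1, f2] at k0
  rw [f3, f4, tr_self _ (hp 0)] at k1
  rw [f5, f6, tr_self _ (hp 0)] at k2
  rw [cmp_expand _ hs, cmp_expand _ hs'] at k0 k1 k2
  have b1 := hind 1 0 (by decide)
  have b2 := hind 2 0 (by decide)
  have b3 := hind 2 1 (by decide)
  have b4 := k5_tr_det (c 1) (c 0) (hp 1) (hp 0) (1, 0)
  rw [← tr_tr (c 2) (c 0) (c 1) (hp 2) (hp 0) (hp 1)] at b3
  obtain ⟨X, hX⟩ : ∃ X, X = tr (c 1) (c 0) p (1, 0) := ⟨_, rfl⟩
  obtain ⟨Y, hY⟩ : ∃ Y, Y = tr (c 2) (c 0) p (1, 0) := ⟨_, rfl⟩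
  rw [← hX] at k0 k2 b1 b4
  rw [← hY] at k0 k1 b2 b3
  have b5 : X.1 * Y.2 - X.2 * Y.1 ≠ 0 := fun hz => b3 (by
    have : Y = (Y.2 / X.2) • X := by
      ext
      · simp only [Prod.smul_fst, smul_eq_mul]; field_simp; linarith
      · simp only [Prod.smul_snd, smul_eq_mul]; field_simp
    rw [this, map_smul, b4]; simp)
  have hE : cE (c 0) h ((c 0).e p) = cE (c 0) h' ((c 0).e p) := by
    apply mul_left_cancel₀ b5
    linear_combination Y.2 * k2 - X.2 * k1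
  have hF : cF (c 0) h ((c 0).e p) = cF (c 0) h' ((c 0).e p) := by
    apply mul_left_cancel₀ b1
    linear_combination k2 - X.1 * hE
  have hG : cG (c 0) h ((c 0).e p) = cG (c 0) h' ((c 0).e p) := by
    apply mul_left_cancel₀ (mul_ne_zero b1 b2)
    linear_combination k0 - X.1 * Y.1 * hE - (X.1 * Y.2 + X.2 * Y.1) * hF
  rw [← e0]
  exact ten_ext' (c 0) hs hs' (hp 0) hE hF hG

/-- first order jet of two components of a tensor -/
def kjet (c : Ch M) (h : Ten M) (x : P2) : ℝ × ℝ × (P2 →L[ℝ] ℝ) × (P2 →L[ℝ] ℝ) :=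
  (cE c h x, cF c h x, fderiv ℝ (cE c h) x, fderiv ℝ (cF c h) x)

omit [T2Space M] [CompactSpace M] in
theorem kjet_add (c : Ch M) {h k : Ten M} (hh : Good h) (hk : Good k) (s : ℝ) {x : P2}
    (hx : x ∈ c.e.target) : kjet c (h + s • k) x = kjet c h x + s • kjet c k x := by
  have e1 : cE c (h + s • k) = cE c h + s • cE c k := funext fun y => by
    simp only [cE, cmp_add, cmp_smul, Pi.add_apply, Pi.smul_apply, smul_eq_mul]
  have e2 : cF c (h + s • k) = cF c h + s • cF c k := funext fun y => by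
    simp only [cF, cmp_add, cmp_smul, Pi.add_apply, Pi.smul_apply, smul_eq_mul]
  obtain ⟨a1, a2, -⟩ := hh.cEFG c hx
  obtain ⟨b1, b2, -⟩ := hk.cEFG c hx
  have a1' := a1.differentiableAt (by simp)
  have a2' := a2.differentiableAt (by simp)
  have b1' := b1.differentiableAt (by simp)
  have b2' := b2.differentiableAt (by simp)
  rw [kjet, e1, e2, fderiv_add a1' (b1'.const_smul s), fderiv_add a2' (b2'.const_smul s),
    fderiv_const_smul b1', fderiv_const_smul b2']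
  rfl

omit [T2Space M] [CompactSpace M] in
theorem kjet_cont (c : Ch M) {h : Ten M} (hh : Good h) {p : M} (hp : p ∈ c.e.source) :
    ContinuousAt (fun q => kjet c h (c.e q)) p := by
  obtain ⟨a1, a2, -⟩ := hh.cEFG c (c.e.map_source hp)
  exact ContinuousAt.comp (g := kjet c h) (a1.continuousAt.prodMk (a2.continuousAt.prodMk
    ((a1.fderiv_right (m := 0) (by simp)).continuousAt.prodMk
      (a2.fderiv_right (m := 0) (by simp)).continuousAt))) (c.e.continuousAt hp)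

omit [T2Space M] [CompactSpace M] in
theorem lco_eq (c c' c'' : Ch M) {h : Ten M} (hs : Symm h) (p : M) :
    Lco c c' c'' h p = ((tr c' c p (1, 0)).1 * (tr c'' c p (1, 0)).1 * cE c h (c.e p) +
      ((tr c' c p (1, 0)).1 * (tr c'' c p (1, 0)).2 + (tr c' c p (1, 0)).2 * (tr c'' c p (1, 0)).1)
        * cF c h (c.e p) + (tr c' c p (1, 0)).2 * (tr c'' c p (1, 0)).2 * cG c h (c.e p))
      / ((tr c' c p (1, 0)).2 * (tr c'' c p (1, 0)).2) := by
  rw [Lco, cmp_expand c hs]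

omit [T2Space M] [CompactSpace M] in
theorem lco_sm (c c' c'' : Ch M) {h : Ten M} (hh : Good h) {p : M} (hp : p ∈ c.e.source)
    (hp' : p ∈ c'.e.source) (hp'' : p ∈ c''.e.source) (h1 : (tr c' c p (1, 0)).2 ≠ 0)
    (h2 : (tr c'' c p (1, 0)).2 ≠ 0) : ContDiffAt ℝ ∞ (loc c (Lco c c' c'' h)) (c.e p) := by
  have a1 := k5_tr_sm c' c c hp' hp hp (1, 0)
  have a2 := k5_tr_sm c'' c c hp'' hp hp (1, 0)
  obtain ⟨b1, b2, b3⟩ := hh.cEFG c (c.e.map_source hp)
  refine (((((a1.fst.mul a2.fst).mul b1).add (((a1.fst.mul a2.snd).add (a1.snd.mul a2.fst)).mul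
    b2)).add ((a1.snd.mul a2.snd).mul b3)).div (a1.snd.mul a2.snd) ?_).congr_of_eventuallyEq ?_
  · simp only [loc, c.e.left_inv hp]
    exact mul_ne_zero h1 h2
  · filter_upwards [c.e.open_target.mem_nhds (c.e.map_source hp)] with y hy
    simp only [loc, lco_eq c c' c'' hh.1, c.e.right_inv hy, Pi.div_apply]

omit [T2Space M] [CompactSpace M] in
theorem Amp.mul_sqrt {D : Set M} {a w : M → ℝ} (h : Amp D a) (hw : Sm w) (h0 : ∀ p, 0 < w p) :
    Amp D (fun p => a p * √(w p)) := by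
  refine ⟨fun p hp => mul_pos (h.pos p hp) (Real.sqrt_pos.2 (h0 p)),
    fun p hp => by rw [h.zero p hp, zero_mul], fun m hm => ?_⟩
  obtain ⟨ρ, h1, h2, h3⟩ := h.root m hm
  have hm' : (m : ℝ) ≠ 0 := by positivity
  refine ⟨fun p => ρ p * w p ^ (1 / 2 / (m : ℝ)),
    h1.mul (hw.comp (Φ := fun x : ℝ => x ^ (1 / 2 / (m : ℝ)))
      fun p => Real.contDiffAt_rpow_const_of_ne (h0 p).ne'),
    fun p => mul_nonneg (h2 p) (Real.rpow_nonneg (h0 p).le _), fun p => ?_⟩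
  rw [mul_pow, h3, ← Real.rpow_mul_natCast (h0 p).le, div_mul_cancel₀ _ hm', Real.sqrt_eq_rpow]

omit [IsManifold 𝓘(ℝ, E2) ∞ M] [T2Space M] [CompactSpace M] in
theorem Amp.sm {D : Set M} {a : M → ℝ} (h : Amp D a) : Sm a := by
  obtain ⟨ρ, h1, -, h3⟩ := h.root 1 le_rfl
  have : a = ρ := funext fun p => by rw [← h3 p, pow_one]
  rwa [this]

omit [CompactSpace M] in
theorem Amp.good {S : Sys M} {i : S.I} {a : M → ℝ} (h : Amp (S.D i) a) :
    Good (prim a (vco (S.c i))) :=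
  good_prim _ h.sm (S.cpt i) (S.sub i) fun p hp => h.zero p fun h' => hp (interior_subset h')

namespace Pre
variable {g0 h0 : Ten M} (P : Pre g0 h0)

theorem cov : P.S.Cov := by
  intro p
  have : ∃ γ, P.χ γ p ≠ 0 := by
    by_contra h
    push Not at h
    have := P.sum p
    simp [h] at this
  obtain ⟨γ, hγ⟩ := this
  exact ⟨_, interior_subset (P.supp γ 0 (subset_tsupport _ hγ))⟩

theorem kt_margin (hg : Good g0) (hh : Good h0) : ∃ ε : ℝ, 0 < ε ∧ ∀ k : Ten M, Good k →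
    P.S.TB k ε → ∀ l, ∀ t ∈ Icc (0 : ℝ) 1, ∀ p ∈ P.S.D l,
      0 < ktM (P.S.c l) (g0 + t • h0 + k) p := by
  have H : ∀ l, ∀ᶠ ε in 𝓝[>] (0 : ℝ), ∀ k : Ten M, Good k → P.S.TB k ε →
      ∀ t ∈ Icc (0 : ℝ) 1, ∀ p ∈ P.S.D l, 0 < ktM (P.S.c l) (g0 + t • h0 + k) p := fun l => by
    have hK : IsCompact ((fun z : ℝ × M => kjet (P.S.c l) g0 ((P.S.c l).e z.2) +
        z.1 • kjet (P.S.c l) h0 ((P.S.c l).e z.2)) '' (Icc (0 : ℝ) 1 ×ˢ P.S.D l)) :=
      (isCompact_Icc.prod (P.S.cpt l)).image_of_continuousOn fun z hz =>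
        (((kjet_cont _ hg (P.S.sub l hz.2)).comp continuousAt_snd).add (continuousAt_fst.smul
          ((kjet_cont _ hh (P.S.sub l hz.2)).comp continuousAt_snd))).continuousWithinAt
    have hO : IsOpen {z : ℝ × ℝ × (P2 →L[ℝ] ℝ) × (P2 →L[ℝ] ℝ) |
        0 < z.1 * (z.2.2.2 (1, 0) - z.2.2.1 (0, 1) / 2) - z.2.1 * (z.2.2.1 (1, 0) / 2)} :=
      isOpen_lt continuous_const (by fun_prop)
    filter_upwards [k5_margin hK hO (by
      rintro _ ⟨⟨t, p⟩, ⟨ht, hp⟩, rfl⟩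
      have := P.kt l t ht p hp
      dsimp only
      rw [← kjet_add _ hg hh t ((P.S.c l).e.map_source (P.S.sub l hp))]
      exact this)] with ε hε k hk hT t ht p hp
    have hx := (P.S.c l).e.map_source (P.S.sub l hp)
    refine hε _ ⟨(t, p), ⟨ht, hp⟩, rfl⟩ (kjet (P.S.c l) (g0 + t • h0 + k) ((P.S.c l).e p)) ?_
    have e := kjet_add _ (hg.add (hh.smul t)) hk 1 hx
    rw [one_smul, one_smul, kjet_add _ hg hh t hx] at e
    rw [e, add_sub_cancel_left]
    obtain ⟨a1, a2⟩ := hT l p hp (cE (P.S.c l) k) (by simp)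
    obtain ⟨a3, a4⟩ := hT l p hp (cF (P.S.c l) k) (by simp)
    exact norm_prod_le_iff.2 ⟨a1, norm_prod_le_iff.2 ⟨a3, norm_prod_le_iff.2 ⟨a2, a4⟩⟩⟩
  obtain ⟨ε, hε, H⟩ := k5_ex (eventually_all.2 H)
  exact ⟨ε, hε, fun k hk hT l => H l k hk hT⟩

theorem lpos_margin (hh : Good h0) : ∃ ε : ℝ, 0 < ε ∧ ∀ k : Ten M, Good k → P.S.TB k ε →
    ∀ γ i, ∀ p ∈ tsupport (P.χ γ), 0 < Lco (P.S.c (P.idx (γ, i))) (P.S.c (P.idx (γ, i + 1)))
      (P.S.c (P.idx (γ, i + 2))) (h0 + k) p := by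
  have H : ∀ s : P.Γ × Fin 3, ∀ᶠ ε in 𝓝[>] (0 : ℝ), ∀ k : Ten M, Good k → P.S.TB k ε →
      ∀ p ∈ tsupport (P.χ s.1), 0 < Lco (P.S.c (P.idx (s.1, s.2))) (P.S.c (P.idx (s.1, s.2 + 1)))
        (P.S.c (P.idx (s.1, s.2 + 2))) (h0 + k) p := by
    rintro ⟨γ, i⟩
    have hD : ∀ j, ∀ p ∈ tsupport (P.χ γ), p ∈ P.S.D (P.idx (γ, j)) :=
      fun j p hp => interior_subset (P.supp γ j hp)
    obtain ⟨c, hc⟩ : ∃ c : Fin 3 → Ch M, c = fun j => P.S.c (P.idx (γ, j)) := ⟨_, rfl⟩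
    have hs : ∀ j, ∀ p ∈ tsupport (P.χ γ), p ∈ (c j).e.source :=
      fun j p hp => hc ▸ P.S.sub _ (hD j p hp)
    have hK : IsCompact ((fun p => (tr (c (i + 1)) (c i) p (1, 0), tr (c (i + 2)) (c i) p (1, 0),
        cE (c i) h0 ((c i).e p), cF (c i) h0 ((c i).e p), cG (c i) h0 ((c i).e p))) ''
          tsupport (P.χ γ)) := by
      refine (isClosed_tsupport _).isCompact.image_of_continuousOn ?_
      have t1 : ∀ j, ContinuousOn (fun p => tr (c j) (c i) p (1, 0)) (tsupport (P.χ γ)) :=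
        fun j => ((continuousOn_tr (c j) (c i)).mono fun p hp => ⟨hs j p hp, hs i p hp⟩).clm_apply
          continuousOn_const
      refine (t1 _).prodMk ((t1 _).prodMk fun p hp => ?_)
      obtain ⟨b1, b2, b3⟩ := hh.cEFG (c i) ((c i).e.map_source (hs i p hp))
      have b0 := (c i).e.continuousAt (hs i p hp)
      exact ((b1.continuousAt.comp b0).prodMk ((b2.continuousAt.comp b0).prodMk
        (b3.continuousAt.comp b0))).continuousWithinAt
    have hO : IsOpen {z : P2 × P2 × ℝ × ℝ × ℝ | 0 < (z.1.1 * z.2.1.1 * z.2.2.1 +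
        (z.1.1 * z.2.1.2 + z.1.2 * z.2.1.1) * z.2.2.2.1 + z.1.2 * z.2.1.2 * z.2.2.2.2) *
          (z.1.2 * z.2.1.2)} := isOpen_lt continuous_const (by fun_prop)
    filter_upwards [k5_margin hK hO (by
      rintro _ ⟨p, hp, rfl⟩
      have := P.lpos γ i p hp
      rw [lco_eq _ _ _ hh.1, div_pos_iff, ← mul_pos_iff] at this
      rw [hc]
      exact this), self_mem_nhdsWithin] with ε hε h0' k hk hT p hp
    have := hε _ ⟨p, hp, rfl⟩ (tr (c (i + 1)) (c i) p (1, 0), tr (c (i + 2)) (c i) p (1, 0),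
      cE (c i) (h0 + k) ((c i).e p), cF (c i) (h0 + k) ((c i).e p),
        cG (c i) (h0 + k) ((c i).e p)) (by
          have a1 := (hT _ p (hD i p hp) (cE (P.S.c (P.idx (γ, i))) k) (by simp)).1
          have a2 := (hT _ p (hD i p hp) (cF (P.S.c (P.idx (γ, i))) k) (by simp)).1
          have a3 := (hT _ p (hD i p hp) (cG (P.S.c (P.idx (γ, i))) k) (by simp)).1
          have a0 : 0 ≤ ε := le_of_lt h0'
          simp only [Prod.mk_sub_mk, sub_self, cE, cF, cG, cmp_add, add_sub_cancel_left,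
            norm_prod_le_iff, norm_zero, Real.norm_eq_abs]
          rw [hc]
          exact ⟨a0, a0, a1, a2, a3⟩)
    rw [lco_eq _ _ _ (hh.add hk).1, div_pos_iff, ← mul_pos_iff]
    rw [hc] at this
    exact this
  obtain ⟨ε, hε, H⟩ := k5_ex (eventually_all.2 H)
  exact ⟨ε, hε, fun k hk hT γ i => H (γ, i) k hk hT⟩

theorem amplitudes (hh : Good h0) : ∃ ε : ℝ, 0 < ε ∧ ∀ k : Ten M, Good k → P.S.TB k ε →
    ∃ a : P.S.I → M → ℝ, (∀ i, Amp (P.S.D i) (a i)) ∧
      h0 + k = ∑ i, prim (a i) (vco (P.S.c i)) := by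
  obtain ⟨ε, hε, H⟩ := P.lpos_margin hh
  refine ⟨ε / 2, by positivity, fun k hk hT => ?_⟩
  have hR : Good (∑ j, prim (P.ϱ j) (vco (P.S.c j))) := Good.sum _ fun j _ => (P.flat j).good
  obtain ⟨τ, hτ, hRT⟩ := P.S.exists_TB hR
  obtain ⟨e, he⟩ : ∃ e : ℝ, e = ε / 2 / (τ + 1) := ⟨_, rfl⟩
  have e0 : 0 < e := by rw [he]; positivity
  obtain ⟨k', hk'⟩ : ∃ k' : Ten M, k' = k + (-e) • ∑ j, prim (P.ϱ j) (vco (P.S.c j)) := ⟨_, rfl⟩
  have gk : Good k' := hk' ▸ hk.add (hR.smul _)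
  have tk : P.S.TB k' ε := hk' ▸ (hT.add hk (hR.smul _) (hRT.smul hR (-e))).mono (by
    rw [abs_neg, abs_of_pos e0]
    have : e * (τ + 1) = ε / 2 := by rw [he]; field_simp
    linarith)
  have gh := hh.add gk
  obtain ⟨L, hL⟩ : ∃ L : P.Γ × Fin 3 → M → ℝ, L = fun s => Lco (P.S.c (P.idx (s.1, s.2)))
    (P.S.c (P.idx (s.1, s.2 + 1))) (P.S.c (P.idx (s.1, s.2 + 2))) (h0 + k') := ⟨_, rfl⟩
  have hs : ∀ γ j, ∀ p ∈ tsupport (P.χ γ), p ∈ (P.S.c (P.idx (γ, j))).e.source :=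
    fun γ j p hp => P.S.sub _ (interior_subset (P.supp γ j hp))
  obtain ⟨w, hw⟩ : ∃ w : P.Γ × Fin 3 → M → ℝ, w = fun s p =>
    e + P.χ s.1 p ^ 2 * L s p / P.ϱ (P.idx s) p ^ 2 := ⟨_, rfl⟩
  have w0 : ∀ s p, 0 < w s p := fun s p => by
    rw [hw]
    by_cases h : P.χ s.1 p = 0
    · simp [h, e0]
    · have := H k' gk tk s.1 s.2 p (subset_tsupport _ h)
      rw [hL]
      positivity
  have w1 : ∀ s, Sm (w s) := by
    rintro ⟨γ, i⟩
    refine sm_of_loc fun p => ?_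
    by_cases h : p ∈ tsupport (P.χ γ)
    · have hx := (P.S.c (P.idx (γ, i))).e.map_source (hs γ i p h)
      have n1 : i + 1 ≠ i := by fin_cases i <;> decide
      have n2 : i + 2 ≠ i := by fin_cases i <;> decide
      refine ⟨_, hs γ i p h, ?_⟩
      rw [hw, hL]
      refine contDiffAt_const.add (((((P.smχ γ).locAt _ hx).pow 2).mul (lco_sm _ _ _ gh (hs γ i p h)
        (hs γ _ p h) (hs γ _ p h) (P.ind γ _ _ n1 p h) (P.ind γ _ _ n2 p h))).div
          (((P.flat _).sm.locAt _ hx).pow 2) ?_)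
      simp only [(P.S.c _).e.left_inv (hs γ i p h)]
      exact pow_ne_zero _ ((P.flat _).pos p (P.supp γ i h)).ne'
    · obtain ⟨c, hc⟩ := exists_ch p
      refine ⟨c, hc, (contDiffAt_const (c := e)).congr_of_eventuallyEq
        (loc_congr c (F := fun _ => e) hc ?_)⟩
      filter_upwards [notMem_tsupport_iff_eventuallyEq.1 h] with q hq
      simp only [hw, hq, Pi.zero_apply]
      simp
  have w2 : ∀ s p, (P.ϱ (P.idx s) p * √(w s p)) ^ 2 =
      e * P.ϱ (P.idx s) p ^ 2 + P.χ s.1 p ^ 2 * L s p := fun s p => by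
    rw [mul_pow, Real.sq_sqrt (w0 s p).le, hw]
    by_cases h : P.χ s.1 p = 0
    · simp [h, mul_comm]
    · have := ((P.flat _).pos p (P.supp s.1 s.2 (subset_tsupport _ h))).ne'
      field_simp
  refine ⟨fun l p => P.ϱ l p * √(w (P.idx.symm l) p),
    fun l => (P.flat l).mul_sqrt (w1 _) (w0 _), ?_⟩
  funext p
  refine ContinuousLinearMap.ext fun X => ContinuousLinearMap.ext fun Y => ?_
  obtain ⟨Q, hQ⟩ : ∃ Q : P.S.I → ℝ, Q = fun l => prim (fun _ => 1) (vco (P.S.c l)) p X Y :=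
    ⟨_, rfl⟩
  have q1 : ∀ (a : M → ℝ) l, prim a (vco (P.S.c l)) p X Y = a p ^ 2 * Q l := fun a l => by
    rw [hQ]
    change a p ^ 2 * _ = a p ^ 2 * ((1 : ℝ) ^ 2 * _)
    rw [one_pow, one_mul]
  have q2 : (h0 + k') p X Y = ∑ γ, ∑ i, P.χ γ p ^ 2 * L (γ, i) p * Q (P.idx (γ, i)) := by
    rw [← one_mul ((h0 + k') p X Y), ← P.sum p, Finset.sum_mul]
    refine Finset.sum_congr rfl fun γ _ => ?_
    by_cases h : P.χ γ p = 0
    · simp [h]
    · have h' := subset_tsupport _ h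
      rw [lco_decomp (fun j => P.S.c (P.idx (γ, j))) (fun j => hs γ j p h')
        (fun i j hij => P.ind γ i j hij p h') gh.1]
      simp only [_root_.sum_apply, _root_.smul_apply, smul_eq_mul, Finset.mul_sum, hL, hQ,
        mul_assoc]
  have q3 : (h0 + k) p X Y = (h0 + k') p X Y + e * ∑ l, P.ϱ l p ^ 2 * Q l := by
    rw [hk']
    simp only [Pi.add_apply, Pi.smul_apply, Finset.sum_apply, _root_.add_apply, _root_.sum_apply,
      _root_.smul_apply, smul_eq_mul, q1]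
    ring
  rw [q3, q2]
  simp only [Finset.sum_apply, _root_.sum_apply, q1]
  rw [← P.idx.sum_comp, ← P.idx.sum_comp, Finset.mul_sum, ← Fintype.sum_prod_type',
    ← Finset.sum_add_distrib]
  refine Finset.sum_congr rfl fun s _ => ?_
  rw [Equiv.symm_apply_apply, w2]
  ring
end Pre

theorem Amp.const_mul {D : Set M} {a : M → ℝ} (h : Amp D a) {s : ℝ} (hs : 0 < s) :
    Amp D (fun p => s * a p) := by
  have := h.mul_sqrt (sm_const (s ^ 2)) fun _ => by positivity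
  simpa only [Real.sqrt_sq hs.le, mul_comm] using this

theorem setup {g : Ten M} (hg : Good g) (hp : PosD g) {F0 ν0 : M → R4} (hF : Sm F0) (hν : Sm ν0)
    (hi : Imm F0) (ht : Transv F0 ν0) : ∃ (S : Sys M) (F ν : M → R4) (R : ℕ) (a : S.I → M → ℝ),
      Inv S F ν ∧ (∀ i, Amp (S.D i) (a i)) ∧
      g = pull F + (R : ℝ) • ∑ i, prim (a i) (vco (S.c i)) ∧
      ∀ n : ℕ, n < R → ∀ (T : Finset S.I) (l : S.I), ∀ p ∈ S.D l,
        0 < ktM (S.c l) (pull F + (n : ℝ) • ∑ i, prim (a i) (vco (S.c i))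
          + ∑ i ∈ T, prim (a i) (vco (S.c i))) p := by
  classical
  obtain ⟨σ, hσ, hsm⟩ := exists_small hg hp (good_pull hF)
  obtain ⟨s, hs⟩ : ∃ s : ℝ, s = (σ + 1)⁻¹ := ⟨_, rfl⟩
  have s0 : 0 < s := by rw [hs]; positivity
  have s1 : s ^ 2 * σ < 1 := by
    rw [hs, inv_pow, inv_mul_lt_iff₀ (by positivity)]
    nlinarith
  have hd : ∀ p, dM (fun p => s • F0 p) p = s • dM F0 p := fun p =>
    const_smul_mfderiv (man2_smd hF p) s
  obtain ⟨F, hFd⟩ : ∃ F : M → R4, F = fun p => s • F0 p := ⟨_, rfl⟩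
  have sF : Sm F := hFd ▸ (sm_const s).smul hF
  have iF : Imm F := fun p X Y h => by
    rw [hFd, hd, _root_.smul_apply, _root_.smul_apply] at h
    exact hi p (smul_right_injective _ s0.ne' h)
  have tF : Transv F ν0 := fun p X => by
    rw [hFd, hd, _root_.smul_apply, ← map_smul]
    exact ht p _
  have g0 := good_pull sF
  have gh := hg.sub g0
  have ph : PosD (g - pull F) := fun p X hX => by
    have a1 := (abs_le.1 (hsm p X)).2
    have a2 := hp p X hX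
    rw [hFd, pull_const_smul hF]
    change 0 < g p X X - s ^ 2 * pull F0 p X X
    have a3 := mul_le_mul_of_nonneg_left a1 (sq_nonneg s)
    have a4 := mul_lt_mul_of_pos_right s1 a2
    linarith
  obtain ⟨P⟩ := exists_pre g0 gh (posD_pull iF) ph
  obtain ⟨ε1, e1, H1⟩ := P.kt_margin g0 gh
  obtain ⟨ε2, e2, H2⟩ := P.amplitudes gh
  have e0 : 0 < min ε1 ε2 / 4 := by positivity
  obtain ⟨F1, ν1, i1, t1⟩ := convexify P.S P.sides P.cov sF hν iF tF _ e0
  obtain ⟨F2, ν2, i2, t2⟩ := make_II P.S P.cov i1 _ e0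
  have g1 := good_pull i1.smF
  have g2 := good_pull i2.smF
  have gk := (g2.sub g1).add (g1.sub g0)
  have tk := t2.add (g2.sub g1) (g1.sub g0) t1
  have m1 := min_le_left ε1 ε2
  have m2 := min_le_right ε1 ε2
  obtain ⟨a, ha, hsum⟩ := H2 _ (gk.smul (-1)) ((tk.smul gk (-1)).mono (by
    rw [abs_neg, abs_one]; linarith))
  have gT : ∀ T : Finset P.S.I, Good (∑ i ∈ T, prim (a i) (vco (P.S.c i))) :=
    fun T => Good.sum _ fun i _ => (ha i).good
  choose τ τ0 hτ using fun T => P.S.exists_TB (gT T)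
  obtain ⟨R, hR⟩ := exists_nat_gt ((∑ T, τ T) / (ε1 / 2))
  have R0 : (0 : ℝ) < R :=
    lt_of_le_of_lt (div_nonneg (Finset.sum_nonneg fun T _ => τ0 T) (by positivity)) hR
  have r0 : 0 < (√(R : ℝ))⁻¹ := by positivity
  have r1 : ∀ T : Finset P.S.I, ∑ i ∈ T, prim (fun p => (√(R : ℝ))⁻¹ * a i p) (vco (P.S.c i)) =
      (R : ℝ)⁻¹ • ∑ i ∈ T, prim (a i) (vco (P.S.c i)) := fun T => by
    funext p
    refine ContinuousLinearMap.ext fun X => ContinuousLinearMap.ext fun Y => ?_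
    simp only [prim_const_mul, inv_pow, Real.sq_sqrt R0.le, Finset.sum_apply, Pi.smul_apply,
      _root_.sum_apply, _root_.smul_apply, smul_eq_mul, Finset.mul_sum]
  refine ⟨P.S, F2, ν2, R, fun i p => (√(R : ℝ))⁻¹ * a i p, i2, fun i => (ha i).const_mul r0, ?_,
    fun n hn T l p hp' => ?_⟩
  · rw [r1, ← hsum]
    funext p
    refine ContinuousLinearMap.ext fun X => ContinuousLinearMap.ext fun Y => ?_
    simp only [Pi.add_apply, Pi.sub_apply, Pi.smul_apply, _root_.add_apply, _root_.sub_apply,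
      _root_.smul_apply, smul_eq_mul]
    field_simp
    ring
  · have n1 : (n : ℝ) / R ≤ 1 := (div_le_one R0).2 (by exact_mod_cast hn.le)
    have n0 : 0 ≤ (n : ℝ) / R := by positivity
    have := H1 _ ((gk.smul (1 - n / R)).add ((gT T).smul (R : ℝ)⁻¹))
      (((tk.smul gk (1 - n / R)).add (gk.smul _) ((gT T).smul _)
        ((hτ T).smul (gT T) (R : ℝ)⁻¹)).mono (by
          have b1 : |1 - (n : ℝ) / R| ≤ 1 := abs_le.2 ⟨by linarith, by linarith⟩
          have b2 := mul_le_mul_of_nonneg_right b1 (add_pos e0 e0).le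
          have b3 : |(R : ℝ)⁻¹| * τ T ≤ ε1 / 2 := by
            rw [abs_of_pos (inv_pos.2 R0), inv_mul_le_iff₀ R0]
            rw [div_lt_iff₀ (by positivity)] at hR
            exact (Finset.single_le_sum (fun T _ => τ0 T) (Finset.mem_univ T)).trans hR.le
          linarith)) l (n / R) ⟨n0, n1⟩ p hp'
    have e : pull F2 + (n : ℝ) • (R : ℝ)⁻¹ • (g - pull F + (-1 : ℝ) • (pull F2 - pull F1 +
        (pull F1 - pull F))) + (R : ℝ)⁻¹ • ∑ i ∈ T, prim (a i) (vco (P.S.c i)) =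
        pull F + ((n : ℝ) / R) • (g - pull F) + ((1 - (n : ℝ) / R) • (pull F2 - pull F1 +
          (pull F1 - pull F)) + (R : ℝ)⁻¹ • ∑ i ∈ T, prim (a i) (vco (P.S.c i))) := by
      funext p
      refine ContinuousLinearMap.ext fun X => ContinuousLinearMap.ext fun Y => ?_
      simp only [Pi.add_apply, Pi.sub_apply, Pi.smul_apply, _root_.add_apply, _root_.sub_apply,
        _root_.smul_apply, smul_eq_mul]
      ring
    rw [r1, r1, ← hsum, e]
    exact this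

end Vale.Agent.P205
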