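import Vale.Agent.P205.Man2

/-! P205: data for the setup (module K). -/

open scoped ContDiff InnerProductSpace Topology Manifold
open Set Filter Real

noncomputable section
namespace Vale.Agent.P205

/-- rhombus -/
def rh (r : ℝ) : Set P2 := {z | |z.1| + |z.2| ≤ r}
/-- its boundary -/
def rhb (r : ℝ) : Set P2 := {z | |z.1| + |z.2| = r}
def shear (σ κ : ℝ) (z : P2) : P2 := (z.1, z.2 + σ * z.1 + κ * z.1 ^ 2 / 2)

variable {M : Type*} [TopologicalSpace M] [ChartedSpace E2 M]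

def IsShear (q c : Ch M) (σ κ : ℝ) : Prop :=
  c.e.source = q.e.source ∧ ∀ p, c.e p = shear σ κ (q.e p)

/-- coefficient of the square of the second coordinate of `c` -/
def Lco (c c' c'' : Ch M) (h : Ten M) (p : M) : ℝ :=
  cmp c h (c.e p) (tr c' c p (1, 0)) (tr c'' c p (1, 0))
    / ((tr c' c p (1, 0)).2 * (tr c'' c p (1, 0)).2)

/-- the boundaries of the patches consist of four sides transversal to the `u`-lines -/
structure Sides (S : Sys M) where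
  ℓ : S.I → Fin 4 → P2 → ℝ
  sm : ∀ i k, ContDiff ℝ ∞ (ℓ i k)
  cov : ∀ i, ∀ p ∈ frontier (S.D i), ∃ k, ℓ i k ((S.c i).e p) = 0
  tv : ∀ i k, ∀ p ∈ S.D i, du (ℓ i k) ((S.c i).e p) ≠ 0
  cor : ∀ i k k', k ≠ k' →
    {p | p ∈ frontier (S.D i) ∧ ℓ i k ((S.c i).e p) = 0 ∧ ℓ i k' ((S.c i).e p) = 0}.Finite

/-- the geometric setup for the segment of metrics `g0 + t h0` -/
structure Pre (g0 h0 : Ten M) where
  S : Sys M
  Γ : Type
  fin : Fintype Γ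
  idx : Γ × Fin 3 ≃ S.I
  sides : Sides S
  χ : Γ → M → ℝ
  ϱ : S.I → M → ℝ
  smχ : ∀ γ, Sm (χ γ)
  sum : ∀ p, ∑ γ, χ γ p ^ 2 = 1
  supp : ∀ γ i, tsupport (χ γ) ⊆ interior (S.D (idx (γ, i)))
  ind : ∀ γ i j, i ≠ j → ∀ p ∈ tsupport (χ γ),
    (tr (S.c (idx (γ, i))) (S.c (idx (γ, j))) p (1, 0)).2 ≠ 0
  lpos : ∀ γ i, ∀ p ∈ tsupport (χ γ),
    0 < Lco (S.c (idx (γ, i))) (S.c (idx (γ, i + 1))) (S.c (idx (γ, i + 2))) h0 p
  flat : ∀ i, Amp (S.D i) (ϱ i)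
  kt : ∀ l, ∀ t ∈ Icc (0 : ℝ) 1, ∀ p ∈ S.D l, 0 < ktM (S.c l) (g0 + t • h0) p

attribute [instance] Pre.fin

namespace Sys
variable (S : Sys M)
def Cov : Prop := ∀ p, ∃ l, p ∈ S.D l
/-- `C^m` bound on the patches -/
def SB {V : Type} [NormedAddCommGroup V] [NormedSpace ℝ V] (m : ℕ) (F : M → V) (σ : ℝ) : Prop :=
  ∀ l, LB (S.c l) ((S.c l).e '' S.D l) m F σ
/-- `C¹` bound for a tensor on the patches -/
def TB (k : Ten M) (ε : ℝ) : Prop :=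
  ∀ l, ∀ p ∈ S.D l, ∀ φ ∈ ({cE (S.c l) k, cF (S.c l) k, cG (S.c l) k} : Set (P2 → ℝ)),
    |φ ((S.c l).e p)| ≤ ε ∧ ‖fderiv ℝ φ ((S.c l).e p)‖ ≤ ε
end Sys

/-- the invariants without the condition on the second fundamental form -/
structure Inv0 (S : Sys M) (F ν : M → R4) : Prop where
  smF : Sm F
  smν : Sm ν
  imm : Imm F
  tv : Transv F ν
  i2 : ∀ i j, ∀ p ∈ frontier (S.D i) ∩ frontier (S.D j),
    Q2 (IIm F (S.c i) (S.c i) p) (IIm F (S.c j) (S.c j) p) (nrmM F (S.c i) p (ν p))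
  i3 : ∀ i j, i ≠ j → ∀ p ∈ frontier (S.D i) ∩ frontier (S.D j),
    Q3' (IIm F (S.c i) (S.c i) p) (IIm F (S.c j) (S.c j) p) (IIm F (S.c j) (S.c i) p)

/-- unit normal field -/
def UN (F n : M → R4) : Prop := Sm n ∧ ∀ p, ‖n p‖ = 1 ∧ ∀ X, ⟪dM F p X, n p⟫_ℝ = 0

end Vale.Agent.P205
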