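import Vale.Agent.P205.Defs

/-! P205: definitions on the surface. -/

open scoped ContDiff InnerProductSpace Topology Manifold
open Set Filter Real

noncomputable section
namespace Vale.Agent.P205

/-- a smooth chart with values in the plane -/
structure Ch (M : Type*) [TopologicalSpace M] [ChartedSpace E2 M] where
  e : OpenPartialHomeomorph M P2
  sm : ContMDiffOn 𝓘(ℝ, E2) 𝓘(ℝ, P2) ∞ e e.source
  sm' : ContMDiffOn 𝓘(ℝ, P2) 𝓘(ℝ, E2) ∞ e.symm e.target

variable {M : Type*} [TopologicalSpace M] [ChartedSpace E2 M]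

section Fun
variable {V : Type} [NormedAddCommGroup V] [NormedSpace ℝ V]
/-- smooth maps to a vector space -/
def Sm (F : M → V) : Prop := ContMDiff 𝓘(ℝ, E2) 𝓘(ℝ, V) ∞ F
/-- expression in a chart -/
def loc (c : Ch M) (F : M → V) : P2 → V := fun x => F (c.e.symm x)
/-- extension by zero of a function given in a chart -/
def ext (c : Ch M) (y : P2 → V) : M → V := c.e.source.indicator fun p => y (c.e p)
def dM (F : M → V) (p : M) : E2 →L[ℝ] V := mfderiv 𝓘(ℝ, E2) 𝓘(ℝ, V) F p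
end Fun

def dsym (c : Ch M) (x : P2) : P2 →L[ℝ] E2 := mfderiv 𝓘(ℝ, P2) 𝓘(ℝ, E2) c.e.symm x
/-- transition map from the chart `c` to the chart `c'` -/
def trans (c c' : Ch M) : P2 → P2 := fun x => c'.e (c.e.symm x)
/-- its derivative at the point `p` -/
def tr (c c' : Ch M) (p : M) : P2 →L[ℝ] P2 := fderiv ℝ (trans c c') (c.e p)
/-- second coordinate of a chart -/
def vco (c : Ch M) : M → ℝ := fun p => (c.e p).2

/-- fields of bilinear forms on the tangent planes -/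
abbrev Ten (M : Type*) := M → E2 →L[ℝ] E2 →L[ℝ] ℝ

def cmp (c : Ch M) (h : Ten M) (x X Y : P2) : ℝ := h (c.e.symm x) (dsym c x X) (dsym c x Y)
def cE (c : Ch M) (h : Ten M) (x : P2) : ℝ := cmp c h x (1, 0) (1, 0)
def cF (c : Ch M) (h : Ten M) (x : P2) : ℝ := cmp c h x (1, 0) (0, 1)
def cG (c : Ch M) (h : Ten M) (x : P2) : ℝ := cmp c h x (0, 1) (0, 1)
/-- induced metric -/
def pull (F : M → R4) : Ten M := fun p => (innerSL ℝ).bilinearComp (dM F p) (dM F p)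
/-- the primitive tensor `a ^ 2 dφ ^ 2` -/
def prim (a φ : M → ℝ) : Ten M := fun p =>
  (a p) ^ 2 • (ContinuousLinearMap.mul ℝ ℝ).bilinearComp (dM φ p) (dM φ p)
def Symm (h : Ten M) : Prop := ∀ p X Y, h p X Y = h p Y X
/-- smooth symmetric tensor fields -/
def Good (h : Ten M) : Prop :=
  Symm h ∧ ∀ (c : Ch M) (X Y : P2), ContDiffOn ℝ ∞ (fun x => cmp c h x X Y) c.e.target
def PosD (h : Ten M) : Prop := ∀ p X, X ≠ 0 → 0 < h p X X
def SmallAt (g h : Ten M) (p : M) (σ : ℝ) : Prop := ∀ X, |h p X X| ≤ σ * g p X X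
def Small (g h : Ten M) (σ : ℝ) : Prop := ∀ p, SmallAt g h p σ
def ktM (c : Ch M) (h : Ten M) (p : M) : ℝ := ktil (cE c h) (cF c h) (c.e p)

def Imm (F : M → R4) : Prop := ∀ p, Function.Injective (dM F p)
def Transv (F ν : M → R4) : Prop := ∀ p X, ν p ≠ dM F p X
/-- immersion whose second fundamental form vanishes nowhere -/
def IINe (F : M → R4) : Prop := ∀ p, ∃ c : Ch M, p ∈ c.e.source ∧ 0 < Gram (loc c F) (c.e p)
/-- second fundamental form on the first coordinate fields of two charts -/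
def IIm (F : M → R4) (c c' : Ch M) (p : M) : R4 :=
  II (loc c F) (c.e p) (1, 0) (tr c' c p (1, 0))
def nrmM (F : M → R4) (c : Ch M) (p : M) (ξ : R4) : R4 := nrm (loc c F) (c.e p) ξ

def Q2 (η η' n : R4) : Prop :=
  ∀ s s' t : ℝ, 0 ≤ s → 0 ≤ s' → 0 ≤ t → s • η + s' • η' + t • n = 0 → s = 0 ∧ s' = 0 ∧ t = 0
def Q3' (η η' ζ : R4) : Prop := 0 < ⟪η', ζ⟫_ℝ ^ 2 + (⟪η, η'⟫_ℝ - ‖ζ‖ ^ 2) * ‖η'‖ ^ 2

/-- a finite system of patches in general position -/
structure Sys (M : Type*) [TopologicalSpace M] [ChartedSpace E2 M] where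
  I : Type
  fin : Fintype I
  c : I → Ch M
  D : I → Set M
  cpt : ∀ i, IsCompact (D i)
  sub : ∀ i, D i ⊆ (c i).e.source
  finX : ∀ i j, i ≠ j → (frontier (D i) ∩ frontier (D j)).Finite
  null : ∀ l j, l ≠ j → ∀ v0 : ℝ,
    MeasureTheory.volume {u : ℝ | ∃ p ∈ frontier (D j) ∩ D l, (c l).e p = (u, v0)} = 0
  dir : ∀ i j l, i ≠ j → ∀ p ∈ frontier (D i) ∩ frontier (D j) ∩ interior (D l),
    (tr (c i) (c l) p (1, 0)).2 ≠ 0

attribute [instance] Sys.fin

/-- the invariants of the construction -/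
structure Inv (S : Sys M) (F ν : M → R4) : Prop where
  smF : Sm F
  smν : Sm ν
  ii : IINe F
  tv : Transv F ν
  i2 : ∀ i j, ∀ p ∈ frontier (S.D i) ∩ frontier (S.D j),
    Q2 (IIm F (S.c i) (S.c i) p) (IIm F (S.c j) (S.c j) p) (nrmM F (S.c i) p (ν p))
  i3 : ∀ i j, i ≠ j → ∀ p ∈ frontier (S.D i) ∩ frontier (S.D j),
    Q3' (IIm F (S.c i) (S.c i) p) (IIm F (S.c j) (S.c j) p) (IIm F (S.c j) (S.c i) p)

/-- a flat amplitude on the compact set `D` -/
structure Amp (D : Set M) (a : M → ℝ) : Prop where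
  pos : ∀ p ∈ interior D, 0 < a p
  zero : ∀ p, p ∉ interior D → a p = 0
  root : ∀ m : ℕ, 1 ≤ m → ∃ ρ : M → ℝ, Sm ρ ∧ (∀ p, 0 ≤ ρ p) ∧ ∀ p, ρ p ^ m = a p

/-- bounds for the derivatives of order at most `m` in a chart on a set -/
def LB {V : Type} [NormedAddCommGroup V] [NormedSpace ℝ V] (c : Ch M) (K : Set P2) (m : ℕ)
    (F : M → V) (σ : ℝ) : Prop :=
  ∀ j ≤ m, ∀ x ∈ K, ‖iteratedFDeriv ℝ j (loc c F) x‖ ≤ σ

end Vale.Agent.P205
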