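import Vale.Agent.P205.Tame3
import Vale.Agent.P205.MeanAux

/-! P205: mean and primitive in the periodic variable, symmetry of second derivatives. -/

open scoped ContDiff InnerProductSpace Topology
open Set Filter Real

noncomputable section
namespace Vale.Agent.P205
open MeanAux

variable {F G : Type} [NormedAddCommGroup F] [NormedSpace ℝ F] [CompleteSpace F]
  [NormedAddCommGroup G] [NormedSpace ℝ G] [CompleteSpace G] {U : Set P2} {f g : P3 → F}

omit [CompleteSpace F] in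
theorem mean_symm {E : Type} [NormedAddCommGroup E] [NormedSpace ℝ E] {f : E → F} {x : E}
    (h : ContDiffAt ℝ ∞ f x) (X Y : E) :
    fderiv ℝ (fun y => fderiv ℝ f y X) x Y = fderiv ℝ (fun y => fderiv ℝ f y Y) x X := by
  have h1 : DifferentiableAt ℝ (fderiv ℝ f) x :=
    (h.fderiv_right (m := ∞) (le_of_eq rfl)).differentiableAt (by simp)
  have h2 : IsSymmSndFDerivAt ℝ f x := h.isSymmSndFDerivAt (by
    rw [minSmoothness_of_isRCLikeNormedField]
    exact WithTop.coe_le_coe.2 le_top)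
  rw [fderiv_clm_apply h1 (differentiableAt_const _), fderiv_clm_apply h1 (differentiableAt_const _)]
  simpa using h2 Y X

theorem du_dv_comm {f : P2 → F} {x : P2} (h : ContDiffAt ℝ ∞ f x) :
    du (dv f) x = dv (du f) x :=
  mean_symm h _ _

theorem pu_pt_comm {z : P3} (h : ContDiffAt ℝ ∞ f z) : pu (pt f) z = pt (pu f) z :=
  mean_symm h _ _

theorem pv_pt_comm {z : P3} (h : ContDiffAt ℝ ∞ f z) : pv (pt f) z = pt (pv f) z :=
  mean_symm h _ _

theorem pu_pv_comm {z : P3} (h : ContDiffAt ℝ ∞ f z) : pu (pv f) z = pv (pu f) z :=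
  mean_symm h _ _

omit [CompleteSpace F] in
theorem mean_fst {f : P2 → F} {z : P3} (h : DifferentiableAt ℝ f z.1) (X : P3) :
    fderiv ℝ (fun z : P3 => f z.1) z X = fderiv ℝ f z.1 X.1 := by
  have : HasFDerivAt (fun z : P3 => f z.1)
      ((fderiv ℝ f z.1).comp (ContinuousLinearMap.fst ℝ P2 ℝ)) z :=
    h.hasFDerivAt.comp z hasFDerivAt_fst
  rw [this.fderiv]
  rfl

theorem pu_fst {f : P2 → F} {z : P3} (h : DifferentiableAt ℝ f z.1) :
    pu (fun z => f z.1) z = du f z.1 :=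
  mean_fst h _

theorem pv_fst {f : P2 → F} {z : P3} (h : DifferentiableAt ℝ f z.1) :
    pv (fun z => f z.1) z = dv f z.1 :=
  mean_fst h _

theorem pt_fst {f : P2 → F} {z : P3} (h : DifferentiableAt ℝ f z.1) :
    pt (fun z => f z.1) z = 0 :=
  (mean_fst h _).trans (map_zero _)

theorem pt_eq_of_hasDerivAt {x : P2} {t : ℝ} {y : F} (hf : DifferentiableAt ℝ f (x, t))
    (h : HasDerivAt (fun s => f (x, s)) y t) : pt f (x, t) = y :=
  (hasDerivAt_slice hf).unique h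

omit [CompleteSpace F] in
theorem Per.dir (hU : IsOpen U) (h : Per U f) (X : P3) : Per U fun z => fderiv ℝ f z X := by
  intro x hx t
  have e : (fun z : P3 => f (z + (0, 2 * π))) =ᶠ[𝓝 (x, t)] f := by
    filter_upwards [(hU.prod isOpen_univ).mem_nhds (⟨hx, trivial⟩ : (x, t) ∈ U ×ˢ univ)] with z hz
    have : z + (0, 2 * π) = (z.1, z.2 + 2 * π) := Prod.ext (add_zero _) rfl
    rw [this, h z.1 hz.1]
  have e2 : (x, t + 2 * π) = (x, t) + (0, 2 * π) := Prod.ext (add_zero _).symm rfl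
  beta_reduce
  rw [e2, ← fderiv_comp_add_right, e.fderiv_eq]

theorem Per.pu (hU : IsOpen U) (h : Per U f) : Per U (pu f) :=
  h.dir hU _

theorem Per.pv (hU : IsOpen U) (h : Per U f) : Per U (pv f) :=
  h.dir hU _

theorem Per.pt (hU : IsOpen U) (h : Per U f) : Per U (pt f) :=
  h.dir hU _

theorem per_tmean : Per U (tmean f) :=
  fun _ _ _ => rfl

theorem tmean_indep (x : P2) (s t : ℝ) : tmean f (x, s) = tmean f (x, t) := rfl

theorem tmean_congr {x : P2} (h : ∀ t, f (x, t) = g (x, t)) (t : ℝ) :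
    tmean f (x, t) = tmean g (x, t) := by
  simp only [tmean, h]

theorem tmean_fst (c : P2 → F) (z : P3) : tmean (fun z => c z.1) z = c z.1 := by
  simp only [tmean, intervalIntegral.integral_const, sub_zero, smul_smul]
  rw [inv_mul_cancel₀ two_pi_pos.ne', one_smul]

theorem tmean_add {x : P2} (hf : Continuous fun t => f (x, t)) (hg : Continuous fun t => g (x, t))
    (t : ℝ) : tmean (fun z => f z + g z) (x, t) = tmean f (x, t) + tmean g (x, t) := by
  simp only [tmean]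
  rw [intervalIntegral.integral_add (hf.intervalIntegrable _ _) (hg.intervalIntegrable _ _),
    smul_add]

theorem tmean_sub {x : P2} (hf : Continuous fun t => f (x, t)) (hg : Continuous fun t => g (x, t))
    (t : ℝ) : tmean (fun z => f z - g z) (x, t) = tmean f (x, t) - tmean g (x, t) := by
  simp only [tmean]
  rw [intervalIntegral.integral_sub (hf.intervalIntegrable _ _) (hg.intervalIntegrable _ _),
    smul_sub]

theorem tmean_neg (z : P3) : tmean (fun z => -f z) z = -tmean f z := by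
  simp only [tmean, intervalIntegral.integral_neg, smul_neg]

theorem tmean_fst_smul (c : P2 → ℝ) (z : P3) :
    tmean (fun z => c z.1 • f z) z = c z.1 • tmean f z := by
  simp only [tmean, intervalIntegral.integral_smul]
  exact smul_comm _ _ _

theorem tmean_fst_mul (c : P2 → ℝ) (f : P3 → ℝ) (z : P3) :
    tmean (fun z => c z.1 * f z) z = c z.1 * tmean f z :=
  tmean_fst_smul c z

theorem tmean_smul_fst (c : P2 → F) (f : P3 → ℝ) (z : P3) :
    tmean (fun z => f z • c z.1) z = tmean f z • c z.1 := by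
  simp only [tmean, intervalIntegral.integral_smul_const, smul_smul, smul_eq_mul]

theorem tmean_inner_fst (c : P2 → R4) {f : P3 → R4} {x : P2} (hf : Continuous fun t => f (x, t))
    (t : ℝ) : tmean (fun z => ⟪c z.1, f z⟫_ℝ) (x, t) = ⟪c x, tmean f (x, t)⟫_ℝ := by
  have := (innerSL ℝ (c x)).intervalIntegral_comp_comm (μ := MeasureTheory.volume)
    (hf.intervalIntegrable 0 (2 * π))
  simp only [innerSL_apply_apply] at this
  simp only [tmean, inner_smul_right, smul_eq_mul, this]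

theorem tmean_odd {x : P2} (hp : ∀ t, f (x, t + 2 * π) = f (x, t))
    (ho : ∀ t, f (x, -t) = -f (x, t)) (t : ℝ) : tmean f (x, t) = 0 := by
  have h1 := intervalIntegral.integral_comp_neg (a := 0) (b := 2 * π) fun s => f (x, s)
  have h2 := Function.Periodic.intervalIntegral_add_eq (f := fun s => f (x, s)) (T := 2 * π) hp
    (-(2 * π)) 0
  simp only [ho, intervalIntegral.integral_neg, neg_zero] at h1
  rw [neg_add_cancel, zero_add, ← h1] at h2
  have h3 : (2 : ℝ) • ∫ s in (0:ℝ)..(2 * π), f (x, s) = 0 := by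
    rw [two_smul]
    exact neg_eq_iff_add_eq_zero.1 h2
  rw [tmean, (smul_eq_zero.1 h3).resolve_left two_ne_zero, smul_zero]

theorem cont_slice (hf : ContDiffOn ℝ ∞ f (U ×ˢ univ)) {x : P2} (hx : x ∈ U) :
    Continuous fun t => f (x, t) :=
  slice_cont hf.continuousOn hx

theorem contDiffOn_tmean (hU : IsOpen U) (hf : ContDiffOn ℝ ∞ f (U ×ˢ univ)) :
    ContDiffOn ℝ ∞ (tmean f) (U ×ˢ univ) :=
  ((par_contDiffOn hU hf 0 (2 * π)).comp contDiffOn_fst fun _ hz => hz.1).const_smul (2 * π)⁻¹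

theorem contDiffOn_tint (hU : IsOpen U) (hf : ContDiffOn ℝ ∞ f (U ×ˢ univ)) :
    ContDiffOn ℝ ∞ (tint f) (U ×ˢ univ) :=
  prim_contDiffOn hU (hf.sub (contDiffOn_tmean hU hf))

theorem contDiffOn_tprim (hU : IsOpen U) (hf : ContDiffOn ℝ ∞ f (U ×ˢ univ)) :
    ContDiffOn ℝ ∞ (tprim f) (U ×ˢ univ) :=
  (contDiffOn_tint hU hf).sub (contDiffOn_tmean hU (contDiffOn_tint hU hf))

theorem fderiv_tmean (hU : IsOpen U) (hf : ContDiffOn ℝ ∞ f (U ×ˢ univ)) {x : P2} (hx : x ∈ U)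
    (t : ℝ) (X : P3) :
    fderiv ℝ (tmean f) (x, t) X = tmean (fun z => fderiv ℝ f z (X.1, 0)) (x, t) := by
  have h1 := diffAt hU (par_contDiffOn hU hf 0 (2 * π)) hx
  have h2 := mean_fst (f := fun x => (2 * π)⁻¹ • ∫ s in (0:ℝ)..(2 * π), f (x, s)) (z := (x, t))
    (h1.const_smul _) X
  refine h2.trans ?_
  rw [fderiv_fun_const_smul h1, smul_apply, par_fderiv hU hf _ _ hx]
  rfl

theorem pu_tmean (hU : IsOpen U) (hf : ContDiffOn ℝ ∞ f (U ×ˢ univ)) {x : P2} (hx : x ∈ U)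
    (t : ℝ) : pu (tmean f) (x, t) = tmean (pu f) (x, t) :=
  fderiv_tmean hU hf hx t _

theorem pv_tmean (hU : IsOpen U) (hf : ContDiffOn ℝ ∞ f (U ×ˢ univ)) {x : P2} (hx : x ∈ U)
    (t : ℝ) : pv (tmean f) (x, t) = tmean (pv f) (x, t) :=
  fderiv_tmean hU hf hx t _

theorem pt_tmean (hU : IsOpen U) (hf : ContDiffOn ℝ ∞ f (U ×ˢ univ)) {x : P2} (hx : x ∈ U)
    (t : ℝ) : pt (tmean f) (x, t) = 0 :=
  pt_eq_of_hasDerivAt (diffAt (hU.prod isOpen_univ) (contDiffOn_tmean hU hf) ⟨hx, trivial⟩)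
    (hasDerivAt_const t (tmean f (x, t)))

theorem tmean_pt (hU : IsOpen U) (hf : ContDiffOn ℝ ∞ f (U ×ˢ univ)) (hp : Per U f) {x : P2}
    (hx : x ∈ U) (t : ℝ) : tmean (pt f) (x, t) = 0 := by
  have h1 := intervalIntegral.integral_eq_sub_of_hasDerivAt (a := 0) (b := 2 * π)
    (f := fun s => f (x, s)) (f' := fun s => pt f (x, s))
    (fun s _ => hasDerivAt_slice (diffAt (hU.prod isOpen_univ) hf ⟨hx, trivial⟩))
    ((cont_slice (smooth_dir (hU.prod isOpen_univ) hf _) hx).intervalIntegrable _ _)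
  have h2 := hp x hx 0
  rw [zero_add] at h2
  rw [tmean, h1, h2, sub_self, smul_zero]

theorem fderiv_tint (hU : IsOpen U) (hf : ContDiffOn ℝ ∞ f (U ×ˢ univ)) {x : P2} (hx : x ∈ U)
    (t : ℝ) (X : P2) :
    fderiv ℝ (tint f) (x, t) (X, 0) = tint (fun z => fderiv ℝ f z (X, 0)) (x, t) := by
  have hW : IsOpen (U ×ˢ (univ : Set ℝ)) := hU.prod isOpen_univ
  refine (prim_fderiv hU (hf.sub (contDiffOn_tmean hU hf)) hx t X).trans ?_
  refine intervalIntegral.integral_congr fun s _ => ?_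
  rw [fderiv_fun_sub (diffAt hW hf ⟨hx, trivial⟩)
    (diffAt hW (contDiffOn_tmean hU hf) ⟨hx, trivial⟩), sub_apply,
    fderiv_tmean hU hf hx]
  rfl

theorem fderiv_tprim (hU : IsOpen U) (hf : ContDiffOn ℝ ∞ f (U ×ˢ univ)) {x : P2} (hx : x ∈ U)
    (t : ℝ) (X : P3) : fderiv ℝ (tprim f) (x, t) X =
      fderiv ℝ (tint f) (x, t) X - tmean (tint fun z => fderiv ℝ f z (X.1, 0)) (x, t) := by
  have hW : IsOpen (U ×ˢ (univ : Set ℝ)) := hU.prod isOpen_univ
  have hi := contDiffOn_tint hU hf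
  have e : tprim f = fun z => tint f z - tmean (tint f) z := rfl
  rw [e, fderiv_fun_sub (diffAt hW hi ⟨hx, trivial⟩)
    (diffAt hW (contDiffOn_tmean hU hi) ⟨hx, trivial⟩), sub_apply,
    fderiv_tmean hU hi hx, tmean_congr fun s => fderiv_tint hU hf hx s X.1]

theorem fderiv_tprim_x (hU : IsOpen U) (hf : ContDiffOn ℝ ∞ f (U ×ˢ univ)) {x : P2} (hx : x ∈ U)
    (t : ℝ) (X : P2) :
    fderiv ℝ (tprim f) (x, t) (X, 0) = tprim (fun z => fderiv ℝ f z (X, 0)) (x, t) := by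
  rw [fderiv_tprim hU hf hx, fderiv_tint hU hf hx]
  rfl

theorem pu_tprim (hU : IsOpen U) (hf : ContDiffOn ℝ ∞ f (U ×ˢ univ)) {x : P2} (hx : x ∈ U)
    (t : ℝ) : pu (tprim f) (x, t) = tprim (pu f) (x, t) :=
  fderiv_tprim_x hU hf hx t _

theorem pv_tprim (hU : IsOpen U) (hf : ContDiffOn ℝ ∞ f (U ×ˢ univ)) {x : P2} (hx : x ∈ U)
    (t : ℝ) : pv (tprim f) (x, t) = tprim (pv f) (x, t) :=
  fderiv_tprim_x hU hf hx t _

theorem pt_tprim (hU : IsOpen U) (hf : ContDiffOn ℝ ∞ f (U ×ˢ univ)) {x : P2} (hx : x ∈ U)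
    (t : ℝ) : pt (tprim f) (x, t) = f (x, t) - tmean f (x, t) := by
  have hW : IsOpen (U ×ˢ (univ : Set ℝ)) := hU.prod isOpen_univ
  have hi := contDiffOn_tint hU hf
  have e : tprim f = fun z => tint f z - tmean (tint f) z := rfl
  have h1 : fderiv ℝ (tmean (tint f)) (x, t) ((0, 0), 1) = 0 := pt_tmean hU hi hx t
  have h2 : fderiv ℝ (tint f) (x, t) ((0, 0), 1) = f (x, t) - tmean f (x, t) :=
    prim_fderiv_t hU (hf.sub (contDiffOn_tmean hU hf)) hx t
  rw [pt, e, fderiv_fun_sub (diffAt hW hi ⟨hx, trivial⟩)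
    (diffAt hW (contDiffOn_tmean hU hi) ⟨hx, trivial⟩), sub_apply, h1, h2,
    sub_zero]

theorem tmean_tprim (hU : IsOpen U) (hf : ContDiffOn ℝ ∞ f (U ×ˢ univ)) {x : P2} (hx : x ∈ U)
    (t : ℝ) : tmean (tprim f) (x, t) = 0 := by
  have hi := contDiffOn_tint hU hf
  have h1 := tmean_sub (cont_slice hi hx) (cont_slice (contDiffOn_tmean hU hi) hx) t
  have h2 := tmean_fst (fun x => tmean (tint f) (x, 0)) (x, t)
  exact h1.trans (sub_eq_zero.2 h2.symm)

theorem per_tint (hf : ContDiffOn ℝ ∞ f (U ×ˢ univ)) (hp : Per U f) : Per U (tint f) := by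
  intro x hx t
  have hc := cont_slice hf hx
  have hg : Continuous fun s => f (x, s) - tmean f (x, 0) := hc.sub continuous_const
  have h1 := intervalIntegral.integral_add_adjacent_intervals (μ := MeasureTheory.volume)
    (hg.intervalIntegrable 0 t) (hg.intervalIntegrable t (t + 2 * π))
  have h2 := Function.Periodic.intervalIntegral_add_eq (f := fun s => f (x, s) - tmean f (x, 0))
    (T := 2 * π) (fun s => by simp only [hp x hx]) t 0
  have h3 : ∫ s in (0:ℝ)..(0 + 2 * π), (f (x, s) - tmean f (x, 0)) = 0 := by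
    rw [zero_add, intervalIntegral.integral_sub (hc.intervalIntegrable _ _)
      intervalIntegrable_const, intervalIntegral.integral_const, tmean, sub_zero, smul_smul,
      mul_inv_cancel₀ two_pi_pos.ne', one_smul, sub_self]
  rw [h2, h3, add_zero] at h1
  exact h1.symm

theorem per_tprim (hU : IsOpen U) (hf : ContDiffOn ℝ ∞ f (U ×ˢ univ)) (hp : Per U f) :
    Per U (tprim f) := by
  intro x hx t
  simp only [tprim, per_tint hf hp x hx t]
  rfl

omit [CompleteSpace F] in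
theorem norm_tmean_le {x : P2} {C : ℝ} (h : ∀ t, ‖f (x, t)‖ ≤ C) (t : ℝ) :
    ‖tmean f (x, t)‖ ≤ C := by
  have h1 := intervalIntegral.norm_integral_le_of_norm_le_const (a := 0) (b := 2 * π)
    (f := fun s => f (x, s)) (C := C) fun s _ => h s
  rw [sub_zero, abs_of_pos two_pi_pos] at h1
  rw [tmean, norm_smul, Real.norm_of_nonneg (inv_pos.2 two_pi_pos).le,
    inv_mul_le_iff₀ two_pi_pos]
  exact h1.trans_eq (mul_comm _ _)

theorem norm_tint_le (hf : ContDiffOn ℝ ∞ f (U ×ˢ univ)) (hp : Per U f) {x : P2} (hx : x ∈ U)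
    {C : ℝ} (h : ∀ t, ‖f (x, t)‖ ≤ C) (t : ℝ) : ‖tint f (x, t)‖ ≤ 16 * C := by
  obtain ⟨y, hy, e⟩ := Function.Periodic.exists_mem_Ico₀ (f := fun s => tint f (x, s))
    (c := 2 * π) (per_tint hf hp x hx) two_pi_pos t
  have hC : 0 ≤ C := (norm_nonneg _).trans (h 0)
  have h1 := intervalIntegral.norm_integral_le_of_norm_le_const (a := 0) (b := y)
    (f := fun s => f (x, s) - tmean f (x, y)) (C := C + C) fun s _ =>
      (norm_sub_le _ _).trans (add_le_add (h s) (norm_tmean_le h y))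
  rw [sub_zero, abs_of_nonneg hy.1] at h1
  have h2 : y ≤ 8 := by linarith [hy.2, pi_le_four]
  rw [e]
  exact h1.trans (by nlinarith)

theorem bd_smooth {k : ℕ} {v : Fin k → P3} {σ : P3 → ℝ} {n : ℕ} (h : Bd v (U ×ˢ univ) σ n f) :
    ContDiffOn ℝ ∞ f (U ×ˢ univ) := fun p hp => (bd_zero_of h p hp).1.contDiffWithinAt

theorem bd_tmean (hU : IsOpen U) {a b : P2} {σ : P2 → ℝ} (n : ℕ) : ∀ {f : P3 → F},
    Bd ![(a, 0), (b, 0), ((0, 0), 1)] (U ×ˢ univ) (fun z => σ z.1) n f →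
    Bd ![(a, 0), (b, 0), ((0, 0), 1)] (U ×ˢ univ) (fun z => σ z.1) n (tmean f) := by
  have hW : IsOpen (U ×ˢ (univ : Set ℝ)) := hU.prod isOpen_univ
  have k0 : ∀ {f : P3 → F} {n : ℕ},
      Bd ![(a, 0), (b, 0), ((0, 0), 1)] (U ×ˢ univ) (fun z => σ z.1) n f →
      ∀ p ∈ U ×ˢ univ, ContDiffAt ℝ ∞ (tmean f) p ∧ ‖tmean f p‖ ≤ σ p.1 := fun h p hp =>
    ⟨(contDiffOn_tmean hU (bd_smooth h)).contDiffAt (hW.mem_nhds hp),
      norm_tmean_le (fun t => (bd_zero_of h (p.1, t) ⟨hp.1, trivial⟩).2) p.2⟩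
  induction n with
  | zero => exact fun h => k0 h
  | succ n ih =>
    intro f h
    refine ⟨k0 h, fun d => ?_⟩
    fin_cases d
    · exact bd_congr hW n (fun p hp => fderiv_tmean hU (bd_smooth h) hp.1 p.2 _) (ih (h.2 0))
    · exact bd_congr hW n (fun p hp => fderiv_tmean hU (bd_smooth h) hp.1 p.2 _) (ih (h.2 1))
    · exact bd_congr hW n (fun p hp => pt_tmean hU (bd_smooth h) hp.1 p.2)
        (bd_zero (fun p hp => (norm_nonneg _).trans (h.1 p hp).2) n)

theorem bd_tprim (hU : IsOpen U) {a b : P2} {σ : P2 → ℝ} (n : ℕ) : ∀ {f : P3 → F}, Per U f →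
    Bd ![(a, 0), (b, 0), ((0, 0), 1)] (U ×ˢ univ) (fun z => σ z.1) n f →
    Bd ![(a, 0), (b, 0), ((0, 0), 1)] (U ×ˢ univ) (fun z => 32 * σ z.1) n (tprim f) := by
  have hW : IsOpen (U ×ˢ (univ : Set ℝ)) := hU.prod isOpen_univ
  have k0 : ∀ {f : P3 → F} {n : ℕ}, Per U f →
      Bd ![(a, 0), (b, 0), ((0, 0), 1)] (U ×ˢ univ) (fun z => σ z.1) n f →
      ∀ p ∈ U ×ˢ univ, ContDiffAt ℝ ∞ (tprim f) p ∧ ‖tprim f p‖ ≤ 32 * σ p.1 := by
    intro f n hp h p hz
    have h1 := norm_tint_le (bd_smooth h) hp hz.1 (C := σ p.1)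
      fun t => (bd_zero_of h (p.1, t) ⟨hz.1, trivial⟩).2
    refine ⟨(contDiffOn_tprim hU (bd_smooth h)).contDiffAt (hW.mem_nhds hz),
      (norm_sub_le _ _).trans ?_⟩
    have h2 : ‖tint f p‖ ≤ 16 * σ p.1 := h1 p.2
    have h3 : ‖tmean (tint f) p‖ ≤ 16 * σ p.1 := norm_tmean_le h1 p.2
    linarith
  induction n with
  | zero => exact fun hp h => k0 hp h
  | succ n ih =>
    intro f hp h
    refine ⟨k0 hp h, fun d => ?_⟩
    fin_cases d
    · exact bd_congr hW n (fun p hz => fderiv_tprim_x hU (bd_smooth h) hz.1 p.2 _)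
        (ih (hp.dir hU _) (h.2 0))
    · exact bd_congr hW n (fun p hz => fderiv_tprim_x hU (bd_smooth h) hz.1 p.2 _)
        (ih (hp.dir hU _) (h.2 1))
    · refine bd_congr hW n (fun p hz => pt_tprim hU (bd_smooth h) hz.1 p.2)
        (bd_mono (fun p hz => ?_) n (bd_sub hW n (bd_pred n h) (bd_tmean hU n (bd_pred n h))))
      have : 0 ≤ σ p.1 := (norm_nonneg _).trans (h.1 p hz).2
      linarith

section Fam
variable {ι : Type} {U : ι → Set P2} {Θ : ι → ℝ} {σ : ι → P2 → ℝ} {f : ι → P3 → F}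

theorem T.contDiffOn3 {σ : ι → P3 → ℝ} (h : T (fam3 U Θ) σ f) (i : ι) :
    ContDiffOn ℝ ∞ (f i) (U i ×ˢ univ) := by
  obtain ⟨_, -, h0⟩ := h 0
  exact bd_smooth (h0 i)

theorem T.tmean (hU : ∀ i, IsOpen (U i)) (h : T (fam3 U Θ) (fun i z => σ i z.1) f) :
    T (fam3 U Θ) (fun i z => σ i z.1) (fun i => tmean (f i)) := fun n => by
  obtain ⟨C, hC, h0⟩ := h n
  exact ⟨C, hC, fun i => bd_tmean (hU i) (σ := fun x => C * σ i x) n (h0 i)⟩

theorem T.tprim (hU : ∀ i, IsOpen (U i)) (h : T (fam3 U Θ) (fun i z => σ i z.1) f)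
    (hp : ∀ i, Per (U i) (f i)) :
    T (fam3 U Θ) (fun i z => σ i z.1) (fun i => tprim (f i)) := fun n => by
  obtain ⟨C, hC, h0⟩ := h n
  exact ⟨32 * C, by positivity, fun i => bd_mono (fun p _ => (mul_assoc _ _ _).ge) n
    (bd_tprim (hU i) (σ := fun x => C * σ i x) n (hp i) (h0 i))⟩
end Fam

end Vale.Agent.P205
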