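import Vale.Agent.P205.TDefs
import Vale.Agent.P205.Mean

/-! P205, T2: local arcs, divided differences, local injectivity. -/

open scoped ContDiff InnerProductSpace Topology Manifold
open Set Filter Real

noncomputable section
namespace Vale.Agent.P205.T2Aux

section Top
variable {X X' : Type*} [TopologicalSpace X] [TopologicalSpace X']

theorem sub_homeo (e : OpenPartialHomeomorph X X') {S : Set X} {S' : Set X'}
    (h : ∀ z ∈ e.source, z ∈ S ↔ e z ∈ S') {x : X} (hx : x ∈ e.source) (hS : x ∈ S) :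
    ∃ φ : OpenPartialHomeomorph S S', (⟨x, hS⟩ : S) ∈ φ.source ∧ (φ ⟨x, hS⟩).1 = e x := by
  classical
  have h' : ∀ w ∈ e.target, w ∈ S' → e.symm w ∈ S := fun w hw hw' =>
    (h _ (e.map_target hw)).2 (by rwa [e.right_inv hw])
  let f : S → S' := fun z =>
    if hz : z.1 ∈ e.source then ⟨e z.1, (h _ hz).1 z.2⟩ else ⟨e x, (h _ hx).1 hS⟩
  let g : S' → S := fun w =>
    if hw : w.1 ∈ e.target then ⟨e.symm w.1, h' _ hw w.2⟩ else ⟨x, hS⟩
  have hf : ∀ z : S, z.1 ∈ e.source → (f z).1 = e z.1 := fun z hz => by simp only [f, dif_pos hz]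
  have hg : ∀ w : S', w.1 ∈ e.target → (g w).1 = e.symm w.1 := fun w hw => by
    simp only [g, dif_pos hw]
  refine ⟨{ toFun := f
            invFun := g
            source := Subtype.val ⁻¹' e.source
            target := Subtype.val ⁻¹' e.target
            map_source' := fun z hz => ?_
            map_target' := fun w hw => ?_
            left_inv' := fun z hz => ?_
            right_inv' := fun w hw => ?_
            continuousOn_toFun := ?_
            continuousOn_invFun := ?_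
            open_source := e.open_source.preimage continuous_subtype_val
            open_target := e.open_target.preimage continuous_subtype_val }, hx, hf ⟨x, hS⟩ hx⟩
  · show (f z).1 ∈ e.target
    rw [hf z hz]; exact e.map_source hz
  · show (g w).1 ∈ e.source
    rw [hg w hw]; exact e.map_target hw
  · have h1 : (f z).1 ∈ e.target := by rw [hf z hz]; exact e.map_source hz
    exact Subtype.ext (by rw [hg _ h1, hf z hz, e.left_inv hz])
  · have h1 : (g w).1 ∈ e.source := by rw [hg w hw]; exact e.map_target hw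
    exact Subtype.ext (by rw [hf _ h1, hg w hw, e.right_inv hw])
  · rw [Topology.IsInducing.subtypeVal.continuousOn_iff]
    exact (e.continuousOn.comp continuous_subtype_val.continuousOn fun _ hz => hz).congr
      fun z hz => hf z hz
  · rw [Topology.IsInducing.subtypeVal.continuousOn_iff]
    exact (e.continuousOn_symm.comp continuous_subtype_val.continuousOn fun _ hz => hz).congr
      fun z hz => hg z hz

/-- the set `S` is an arc near `x` -/
def ArcAt (S : Set X) (x : X) : Prop :=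
  ∃ hx : x ∈ S, ∃ φ : OpenPartialHomeomorph S ℝ, (⟨x, hx⟩ : S) ∈ φ.source

theorem ArcAt.transfer (e : OpenPartialHomeomorph X X') {S : Set X} {S' : Set X'} {x : X}
    (hx : x ∈ e.source) (h : ∀ᶠ z in 𝓝 x, z ∈ S ↔ e z ∈ S') (ha : ArcAt S' (e x)) :
    ArcAt S x := by
  obtain ⟨O, hO, ho, hxO⟩ := eventually_nhds_iff.1 h
  obtain ⟨hS', φ, hφ⟩ := ha
  have hS : x ∈ S := (hO x hxO).2 hS'
  obtain ⟨ψ, h1, h2⟩ := sub_homeo (e.restrOpen O ho) (S := S) (S' := S')
    (fun z hz => hO z hz.2) ⟨hx, hxO⟩ hS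
  refine ⟨hS, ψ.trans φ, h1, ?_⟩
  have : ψ ⟨x, hS⟩ = ⟨e x, hS'⟩ := Subtype.ext h2
  show ψ ⟨x, hS⟩ ∈ φ.source
  rw [this]; exact hφ

theorem ArcAt.congr {S S' : Set X} {x : X} (h : ∀ᶠ z in 𝓝 x, z ∈ S ↔ z ∈ S')
    (ha : ArcAt S' x) : ArcAt S x :=
  ArcAt.transfer (OpenPartialHomeomorph.refl X) trivial h ha
end Top

theorem arc_zero {E F : Type} [NormedAddCommGroup E] [NormedSpace ℝ E] [FiniteDimensional ℝ E]
    [NormedAddCommGroup F] [NormedSpace ℝ F] [FiniteDimensional ℝ F]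
    (hd : Module.finrank ℝ E = Module.finrank ℝ F + 1) {G : E → F} {z : E}
    (hG : ContDiffAt ℝ 1 G z) (h0 : G z = 0) (hs : Function.Surjective (fderiv ℝ G z)) :
    ArcAt {w | G w = 0} z := by
  haveI := FiniteDimensional.complete ℝ E
  have hf : HasStrictFDerivAt G (fderiv ℝ G z) z := hG.hasStrictFDerivAt one_ne_zero
  have hr : (fderiv ℝ G z).range = ⊤ := LinearMap.range_eq_top.2 hs
  have hk : Module.finrank ℝ (fderiv ℝ G z).ker = Module.finrank ℝ ℝ := by
    have := LinearMap.finrank_range_add_finrank_ker ((fderiv ℝ G z : E →L[ℝ] F) : E →ₗ[ℝ] F)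
    rw [hr, finrank_top, hd] at this
    rw [Module.finrank_self]
    omega
  let L : (fderiv ℝ G z).ker ≃L[ℝ] ℝ := ContinuousLinearEquiv.ofFinrankEq hk
  refine ArcAt.transfer (hf.implicitToOpenPartialHomeomorph G _ hr)
    (S' := {w | w.1 = 0}) (hf.mem_implicitToOpenPartialHomeomorph_source hr)
    (Eventually.of_forall fun _ => Iff.rfl) ⟨h0, ?_⟩
  let H : {w : F × (fderiv ℝ G z).ker | w.1 = 0} ≃ₜ ℝ :=
    { toFun := fun w => L w.1.2
      invFun := fun t => ⟨(0, L.symm t), rfl⟩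
      left_inv := fun w => Subtype.ext (Prod.ext w.2.symm (L.symm_apply_apply _))
      right_inv := fun t => L.apply_symm_apply t
      continuous_toFun := L.continuous.comp (continuous_snd.comp continuous_subtype_val)
      continuous_invFun := (continuous_const.prodMk L.symm.continuous).subtype_mk _ }
  exact ⟨H.toOpenPartialHomeomorph, trivial⟩

/-- divided difference in the first variable -/
theorem hadamard {f : P2 → R4} (hf : ContDiff ℝ ∞ f) : ∃ Δ : P2 × P2 → R4, ContDiff ℝ ∞ Δ ∧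
    (∀ x y y', Δ ((x, y), (x, y')) = du f (x, y)) ∧
    ∀ x y x' y', (x' - x) • Δ ((x, y), (x', y')) = f (x', y) - f (x, y) := by
  have hd : ContDiff ℝ ∞ (du f) := contDiff_iff_contDiffAt.2 fun x => contDiffAt_du hf.contDiffAt
  refine ⟨fun z => ∫ s in (0:ℝ)..1, du f (z.1.1 + s * (z.2.1 - z.1.1), z.1.2), ?_, ?_, ?_⟩
  · have h1 : ContDiff ℝ ∞ (fun q : (P2 × P2) × ℝ =>
        du f (q.1.1.1 + q.2 * (q.1.2.1 - q.1.1.1), q.1.1.2)) := hd.comp (by fun_prop)
    exact contDiffOn_univ.1 (MeanAux.par_contDiffOn isOpen_univ h1.contDiffOn 0 1)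
  · intro x y y'
    simp
  · intro x y x' y'
    have h1 : ∀ s : ℝ, HasDerivAt (fun s : ℝ => f (x + s * (x' - x), y))
        ((x' - x) • du f (x + s * (x' - x), y)) s := fun s => by
      have h2 : HasDerivAt (fun s : ℝ => ((x + s * (x' - x), y) : P2)) (x' - x, 0) s := by
        refine HasDerivAt.prodMk ?_ (hasDerivAt_const s y)
        simpa using ((hasDerivAt_id s).mul_const (x' - x)).const_add x
      have h3 := ((hf.differentiable (by simp)) (x + s * (x' - x), y)).hasFDerivAt.comp_hasDerivAt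
        s h2
      have h4 : fderiv ℝ f (x + s * (x' - x), y) (x' - x, 0)
          = (x' - x) • du f (x + s * (x' - x), y) := by
        rw [fderiv_eq_du_dv]; simp
      rw [h4] at h3
      exact h3
    have h5 : Continuous fun s : ℝ => (x' - x) • du f (x + s * (x' - x), y) :=
      (hd.continuous.comp (f := fun s : ℝ => ((x + s * (x' - x), y) : P2))
        (by fun_prop)).const_smul (x' - x)
    have h6 := intervalIntegral.integral_eq_sub_of_hasDerivAt (fun s _ => h1 s)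
      (h5.intervalIntegrable 0 1)
    rw [intervalIntegral.integral_smul] at h6
    simpa using h6

theorem loc_inj {E F : Type} [NormedAddCommGroup E] [NormedSpace ℝ E] [FiniteDimensional ℝ E]
    [NormedAddCommGroup F] [NormedSpace ℝ F] {g : E → F} {a : E} (hg : ContDiffAt ℝ 1 g a)
    (hi : Function.Injective (fderiv ℝ g a)) : ∃ s ∈ 𝓝 a, InjOn g s := by
  obtain ⟨K, hK, hA⟩ := (fderiv ℝ g a).injective_iff_antilipschitz.1 hi
  obtain ⟨s, hs, h⟩ := (hg.hasStrictFDerivAt one_ne_zero).approximates_deriv_on_nhds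
    (c := K⁻¹ / 2) (Or.inr (by positivity))
  refine ⟨s, hs, fun x hx y hy hxy => ?_⟩
  have h1 := h x hx y hy
  rw [hxy, sub_self, zero_sub, norm_neg] at h1
  have h2 := hA.le_mul_dist (x - y) 0
  rw [map_zero, dist_zero_right, dist_zero_right] at h2
  have h3 : (K : ℝ) * (((K⁻¹ / 2 : NNReal) : ℝ)) = 1 / 2 := by
    have : (K : ℝ) ≠ 0 := by exact_mod_cast hK.ne'
    push_cast; field_simp
  have h4 : ‖x - y‖ ≤ 1 / 2 * ‖x - y‖ := by
    calc ‖x - y‖ ≤ K * ‖fderiv ℝ g a (x - y)‖ := h2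
      _ ≤ K * (((K⁻¹ / 2 : NNReal) : ℝ) * ‖x - y‖) := by gcongr
      _ = 1 / 2 * ‖x - y‖ := by rw [← mul_assoc, h3]
  have h5 : ‖x - y‖ = 0 := by linarith [norm_nonneg (x - y)]
  exact sub_eq_zero.1 (norm_eq_zero.1 h5)

/-- projection along `e4` -/
def pr : R4 →L[ℝ] Q3 :=
  (EuclideanSpace.proj 0).prod ((EuclideanSpace.proj 1).prod (EuclideanSpace.proj 2))

theorem pr_apply (v : R4) : pr v = (v 0, v 1, v 2) := rfl

theorem pr_e4 : pr e4 = 0 := by
  simp [pr_apply, e4]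

theorem e4_ne : e4 ≠ 0 := fun h => by
  have := congrArg (fun v : R4 => v 3) h
  simp [e4] at this

theorem pr_zero_iff (v : R4) : pr v = 0 ↔ ∃ t : ℝ, v = t • e4 := by
  constructor
  · intro h
    simp only [pr_apply, Prod.mk_eq_zero] at h
    refine ⟨v 3, ?_⟩
    ext i
    fin_cases i <;> simp [e4, h.1, h.2.1, h.2.2]
  · rintro ⟨t, rfl⟩
    rw [map_smul, pr_e4, smul_zero]

theorem pr_surj (w : Q3) : ∃ v, pr v = w :=
  ⟨!₂[w.1, w.2.1, w.2.2, 0], by simp [pr_apply]⟩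

theorem rank_PP : Module.finrank ℝ (P2 × P2) = Module.finrank ℝ Q3 + 1 := by
  simp [Module.finrank_prod]

theorem arc_double {f g : P2 → R4} {a b : P2} (hf : ContDiffAt ℝ 1 f a) (hg : ContDiffAt ℝ 1 g b)
    (h0 : pr (f a) = pr (g b))
    (tv : ∀ ξ : R4, ⟪ξ, e4⟫_ℝ = 0 → (∀ X, ⟪ξ, fderiv ℝ f a X⟫_ℝ = 0) →
      (∀ X, ⟪ξ, fderiv ℝ g b X⟫_ℝ = 0) → ξ = 0) :
    ArcAt {z : P2 × P2 | pr (f z.1) = pr (g z.2)} (a, b) := by
  have h1 : ContDiffAt ℝ 1 (fun z : P2 × P2 => f z.1) (a, b) := hf.comp (a, b) contDiffAt_fst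
  have h2 : ContDiffAt ℝ 1 (fun z : P2 × P2 => g z.2) (a, b) := hg.comp (a, b) contDiffAt_snd
  have hG : ContDiffAt ℝ 1 (fun z : P2 × P2 => pr (f z.1 - g z.2)) (a, b) :=
    pr.contDiff.contDiffAt.comp (a, b) (h1.sub h2)
  have hD : HasFDerivAt (fun z : P2 × P2 => pr (f z.1 - g z.2))
      (pr.comp ((fderiv ℝ f a).comp (ContinuousLinearMap.fst ℝ P2 P2)
        - (fderiv ℝ g b).comp (ContinuousLinearMap.snd ℝ P2 P2))) (a, b) :=
    pr.hasFDerivAt.comp (a, b)
      (((hf.differentiableAt one_ne_zero).hasFDerivAt.comp (a, b) hasFDerivAt_fst).sub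
        ((hg.differentiableAt one_ne_zero).hasFDerivAt.comp (a, b) hasFDerivAt_snd))
  let L : (P2 × P2) × ℝ →L[ℝ] R4 :=
    ((fderiv ℝ f a).comp (ContinuousLinearMap.fst ℝ P2 P2)
      - (fderiv ℝ g b).comp (ContinuousLinearMap.snd ℝ P2 P2)).coprod
      (ContinuousLinearMap.toSpanSingleton ℝ e4)
  have hL : ∀ X Y t, L ((X, Y), t) = fderiv ℝ f a X - fderiv ℝ g b Y + t • e4 := fun _ _ _ => rfl
  have hr : L.range = ⊤ := by
    rw [← Submodule.orthogonal_eq_bot_iff, Submodule.eq_bot_iff]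
    intro ξ hξ
    have h3 : ∀ X Y t, ⟪ξ, fderiv ℝ f a X - fderiv ℝ g b Y + t • e4⟫_ℝ = 0 := fun X Y t => by
      rw [← hL]
      exact Submodule.inner_left_of_mem_orthogonal (LinearMap.mem_range_self _ _) hξ
    refine tv ξ (by simpa using h3 0 0 1) (fun X => by simpa using h3 X 0 0) fun Y => ?_
    simpa using h3 0 Y 0
  refine ArcAt.congr (Eventually.of_forall fun z => ?_) (arc_zero rank_PP hG ?_ ?_)
  · simp only [mem_setOf_eq, map_sub, sub_eq_zero]
  · simp only [map_sub, h0, sub_self]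
  · rw [hD.fderiv]
    intro w
    obtain ⟨v, rfl⟩ := pr_surj w
    obtain ⟨⟨⟨X, Y⟩, t⟩, hv⟩ := LinearMap.range_eq_top.1 hr v
    refine ⟨(X, Y), ?_⟩
    have h4 : L ((X, Y), t) = v := hv
    rw [← h4, hL, map_add, map_smul, pr_e4, smul_zero, add_zero]
    rfl

theorem inner_fderiv_of_ev {f : P2 → R4} {φ : P2 → ℝ} {ξ : R4} {a : P2}
    (hf : DifferentiableAt ℝ f a) (h : ∀ᶠ z in 𝓝 a, ⟪ξ, f z⟫_ℝ = φ z) (X : P2) :
    ⟪ξ, fderiv ℝ f a X⟫_ℝ = fderiv ℝ φ a X := by
  have h1 : HasFDerivAt (fun z => innerSL ℝ ξ (f z)) ((innerSL ℝ ξ).comp (fderiv ℝ f a)) a :=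
    (innerSL ℝ ξ).hasFDerivAt.comp a hf.hasFDerivAt
  have h2 : φ =ᶠ[𝓝 a] fun z => innerSL ℝ ξ (f z) := h.mono fun z hz => hz.symm
  rw [h2.fderiv_eq, h1.fderiv]
  rfl

theorem arc_umb {g : P2 → R4} (hg : ContDiff ℝ ∞ g) {a : P2} {ξ : R4} (hξ : ξ ≠ 0)
    (hξ4 : ⟪ξ, e4⟫_ℝ = 0) (hy : ∀ᶠ z in 𝓝 a, ⟪ξ, g z⟫_ℝ = z.2) (h0 : pr (du g a) = 0)
    (nd : ∀ Y, pr (fderiv ℝ (du g) a Y) = 0 → Y = 0) :
    ArcAt {z : P2 × P2 | pr (g z.1) = pr (g z.2) ∧ (z.1 ≠ z.2 ∨ pr (du g z.1) = 0)} (a, a) := by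
  obtain ⟨Δ, hΔ, d1, d2⟩ := hadamard hg
  have hd : ContDiff ℝ ∞ (du g) := contDiff_iff_contDiffAt.2 fun x => contDiffAt_du hg.contDiffAt
  have hgd := hg.differentiable (by simp)
  have hdd := hd.differentiable (by simp)
  have hx : ∀ᶠ z in 𝓝 a, ⟪ξ, du g z⟫_ℝ = 0 := hy.eventually_nhds.mono fun z hz => by
    rw [du, inner_fderiv_of_ev (hgd z) hz, fderiv_snd]; rfl
  have hxx : ∀ Y, ⟪ξ, fderiv ℝ (du g) a Y⟫_ℝ = 0 := fun Y => by
    rw [inner_fderiv_of_ev (hdd a) hx]; simp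
  have hξ2 : ⟪ξ, ξ⟫_ℝ ≠ 0 := fun h => hξ (inner_self_eq_zero.1 h)
  have hG : ContDiff ℝ ∞ (fun z : P2 × P2 => pr (Δ z + (z.1.2 - z.2.2) • ξ)) :=
    pr.contDiff.comp (hΔ.add (by fun_prop))
  obtain ⟨u, v, hu, hau, hv, hav, huv⟩ := mem_nhds_prod_iff'.1 (hy.and hx)
  refine ArcAt.congr ?_ (arc_zero rank_PP (hG.contDiffAt.of_le (by simp)) ?_ ?_)
  · have hO : (u ×ˢ v) ×ˢ (u ×ˢ v) ∈ 𝓝 (a, a) :=
      ((hu.prod hv).prod (hu.prod hv)).mem_nhds ⟨⟨hau, hav⟩, hau, hav⟩
    filter_upwards [hO] with ⟨⟨x, y⟩, x', y'⟩ ⟨⟨hxu, hyv⟩, hxu', hyv'⟩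
    have e1 : ⟪ξ, g (x, y)⟫_ℝ = y := (huv (a := (x, y)) ⟨hxu, hyv⟩).1
    have e2 : ⟪ξ, g (x', y')⟫_ℝ = y' := (huv (a := (x', y')) ⟨hxu', hyv'⟩).1
    have e3 : ⟪ξ, g (x', y)⟫_ℝ = y := (huv (a := (x', y)) ⟨hxu', hyv⟩).1
    have e4' : ⟪ξ, du g (x, y)⟫_ℝ = 0 := (huv (a := (x, y)) ⟨hxu, hyv⟩).2
    simp only [mem_setOf_eq]
    constructor
    · rintro ⟨h1, h2⟩
      obtain ⟨t, ht⟩ := (pr_zero_iff (g (x, y) - g (x', y'))).1 (by rw [map_sub, h1, sub_self])
      have hyy : y = y' := by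
        have := congrArg (fun w => ⟪ξ, w⟫_ℝ) ht
        simp only [inner_sub_right, real_inner_smul_right, e1, e2, hξ4, mul_zero] at this
        linarith
      subst hyy
      rw [sub_self, zero_smul, add_zero]
      by_cases hxx' : x = x'
      · subst hxx'
        rw [d1]
        exact h2.resolve_left fun h => h rfl
      · have h3 := congrArg pr (d2 x y x' y)
        rw [map_smul, map_sub, h1, sub_self] at h3
        exact (smul_eq_zero.1 h3).resolve_left (sub_ne_zero.2 (Ne.symm hxx'))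
    · intro h1
      have h2 : ⟪ξ, Δ ((x, y), (x', y'))⟫_ℝ = 0 := by
        by_cases hxx' : x = x'
        · subst hxx'
          rw [d1, e4']
        · have h3 := congrArg (fun w => ⟪ξ, w⟫_ℝ) (d2 x y x' y')
          simp only [real_inner_smul_right, inner_sub_right, e1, e3, sub_self] at h3
          exact (mul_eq_zero.1 h3).resolve_left (sub_ne_zero.2 (Ne.symm hxx'))
      obtain ⟨t, ht⟩ := (pr_zero_iff _).1 h1
      have hyy : y = y' := by
        have := congrArg (fun w => ⟪ξ, w⟫_ℝ) ht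
        simp only [inner_add_right, real_inner_smul_right, h2, hξ4, mul_zero, zero_add] at this
        exact sub_eq_zero.1 ((mul_eq_zero.1 this).resolve_right hξ2)
      subst hyy
      rw [sub_self, zero_smul, add_zero] at h1
      have h3 := congrArg pr (d2 x y x' y)
      rw [map_smul, h1, smul_zero, map_sub] at h3
      refine ⟨(sub_eq_zero.1 h3.symm).symm, ?_⟩
      by_cases hxx' : x = x'
      · subst hxx'
        rw [d1] at h1
        exact Or.inr h1
      · exact Or.inl fun h => hxx' (congrArg Prod.fst h)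
  · show pr (Δ ((a.1, a.2), (a.1, a.2)) + (a.2 - a.2) • ξ) = 0
    rw [d1, sub_self, zero_smul, add_zero, h0]
  · let P : Q3 →L[ℝ] P2 := (ContinuousLinearMap.fst ℝ ℝ (ℝ × ℝ)).prod
      ((ContinuousLinearMap.fst ℝ ℝ ℝ).comp (ContinuousLinearMap.snd ℝ ℝ (ℝ × ℝ)))
    let D : Q3 →L[ℝ] ℝ := (ContinuousLinearMap.snd ℝ ℝ ℝ).comp (ContinuousLinearMap.snd ℝ ℝ (ℝ × ℝ))
    let J : Q3 →L[ℝ] P2 × P2 := P.prod (P - (0 : Q3 →L[ℝ] ℝ).prod D)
    let L : Q3 →L[ℝ] Q3 := pr.comp ((fderiv ℝ (du g) a).comp P + D.smulRight ξ)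
    have hA : HasFDerivAt (fun w => (a, a) + J w) J 0 := J.hasFDerivAt.const_add _
    have h1 := HasFDerivAt.comp (f := fun w => (a, a) + J w) (0 : Q3)
      ((hG.differentiable (by simp)) _).hasFDerivAt hA
    have h2 : HasFDerivAt (fun w => pr (du g (a + P w) + D w • ξ)) L 0 := by
      refine pr.hasFDerivAt.comp 0 (HasFDerivAt.add ?_ (D.smulRight ξ).hasFDerivAt)
      have h3 := HasFDerivAt.comp (f := fun w => a + P w) (0 : Q3) (hdd _).hasFDerivAt
        (P.hasFDerivAt.const_add a)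
      rw [map_zero, add_zero] at h3
      exact h3
    have h4 : ((fun z : P2 × P2 => pr (Δ z + (z.1.2 - z.2.2) • ξ)) ∘ fun w => (a, a) + J w)
        = fun w => pr (du g (a + P w) + D w • ξ) := by
      funext w
      show pr (Δ ((a.1 + w.1, a.2 + w.2.1), (a.1 + (w.1 - 0), a.2 + (w.2.1 - w.2.2)))
        + ((a.2 + w.2.1) - (a.2 + (w.2.1 - w.2.2))) • ξ)
        = pr (du g (a.1 + w.1, a.2 + w.2.1) + w.2.2 • ξ)
      rw [sub_zero, d1, show a.2 + w.2.1 - (a.2 + (w.2.1 - w.2.2)) = w.2.2 by ring]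
    rw [h4, map_zero, add_zero] at h1
    have h5 := h1.unique h2
    have hL : Function.Injective L := by
      refine (injective_iff_map_eq_zero L).2 fun w hw => ?_
      have hw' : pr (fderiv ℝ (du g) a (w.1, w.2.1) + w.2.2 • ξ) = 0 := hw
      obtain ⟨t, ht⟩ := (pr_zero_iff _).1 hw'
      have h6 : w.2.2 = 0 := by
        have := congrArg (fun w => ⟪ξ, w⟫_ℝ) ht
        simp only [inner_add_right, real_inner_smul_right, hxx, hξ4, mul_zero, zero_add] at this
        exact (mul_eq_zero.1 this).resolve_right hξ2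
      rw [h6, zero_smul, add_zero] at hw'
      have h7 := nd _ hw'
      obtain ⟨h8, h9⟩ := Prod.mk_eq_zero.1 h7
      exact Prod.ext h8 (Prod.ext h9 h6)
    have hS : Function.Surjective L :=
      (LinearMap.injective_iff_surjective (f := (L : Q3 →ₗ[ℝ] Q3))).1 hL
    intro w
    obtain ⟨w', rfl⟩ := hS w
    exact ⟨J w', by rw [← h5]; rfl⟩

theorem umb_isolated {g : P2 → R4} {a : P2} (hg : ContDiffAt ℝ ∞ g a)
    (nd : ∀ Y, pr (fderiv ℝ (du g) a Y) = 0 → Y = 0) : ∀ᶠ z in 𝓝[≠] a, pr (du g z) ≠ 0 := by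
  have h1 : HasFDerivAt (fun z => pr (du g z)) (pr.comp (fderiv ℝ (du g) a)) a :=
    pr.hasFDerivAt.comp a ((contDiffAt_du hg).differentiableAt (by simp)).hasFDerivAt
  obtain ⟨K, -, hK⟩ := (pr.comp (fderiv ℝ (du g) a)).injective_iff_antilipschitz.1
    ((injective_iff_map_eq_zero _).2 nd)
  exact h1.eventually_ne ⟨K, hK⟩

end Vale.Agent.P205.T2Aux
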