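import Vale.Agent.P205.TDefs
import Vale.Agent.P205.Even
import Vale.Agent.P205.Mean
import Vale.Agent.P205.T2Aux

/-! P205, T2: the number of tangencies is even on every clopen set (BLUEPRINT, module T). -/

open scoped ContDiff InnerProductSpace Topology Manifold
open Set Filter Real

noncomputable section
namespace Vale.Agent.P205

/-- the zero set of a submersion with one-dimensional fibres is locally an arc -/
theorem zero_arc {E F : Type} [NormedAddCommGroup E] [NormedSpace ℝ E] [FiniteDimensional ℝ E]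
    [NormedAddCommGroup F] [NormedSpace ℝ F] [FiniteDimensional ℝ F]
    (hd : Module.finrank ℝ E = Module.finrank ℝ F + 1) {G : E → F} {z : E}
    (hG : ContDiffAt ℝ 1 G z) (h0 : G z = 0) (hs : Function.Surjective (fderiv ℝ G z)) :
    ∃ φ : OpenPartialHomeomorph {w : E // G w = 0} ℝ, (⟨z, h0⟩ : {w : E // G w = 0}) ∈ φ.source := by
  obtain ⟨_, φ, hφ⟩ := T2Aux.arc_zero hd hG h0 hs
  exact ⟨φ, hφ⟩

namespace T2Aux

theorem exists_global {f : P2 → R4} {O : Set P2} (hO : IsOpen O) (hf : ContDiffOn ℝ ∞ f O)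
    {a : P2} (ha : a ∈ O) : ∃ g : P2 → R4, ContDiff ℝ ∞ g ∧ g =ᶠ[𝓝 a] f := by
  obtain ⟨χ, h1, -, h2, -, h3⟩ := exists_cutoff (isCompact_singleton (x := a)) hO
    (singleton_subset_iff.2 ha)
  refine ⟨fun x => χ x • f x, contDiff_iff_contDiffAt.2 fun x => ?_, ?_⟩
  · by_cases hx : x ∈ O
    · exact h1.contDiffAt.smul (hf.contDiffAt (hO.mem_nhds hx))
    · have h4 : χ =ᶠ[𝓝 x] 0 := notMem_tsupport_iff_eventuallyEq.1 fun h => hx (h2 h)
      refine (contDiffAt_const (c := (0 : R4))).congr_of_eventuallyEq ?_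
      filter_upwards [h4] with y hy
      simp [hy]
  · rw [nhdsSet_singleton] at h3
    filter_upwards [h3] with y hy
    simp [hy]

theorem exists_diffeo {ψ : P2 → P2} {O : Set P2} (hO : IsOpen O) (hψ : ContDiffOn ℝ ∞ ψ O)
    {a : P2} (ha : a ∈ O) (hi : Function.Injective (fderiv ℝ ψ a)) :
    ∃ e : OpenPartialHomeomorph P2 P2, a ∈ e.source ∧ (∀ z, e z = ψ z) ∧
      ContDiffOn ℝ ∞ e e.source ∧ ContDiffOn ℝ ∞ e.symm e.target := by
  have key : ∀ z ∈ O, Function.Injective (fderiv ℝ ψ z) →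
      ∃ L : P2 ≃L[ℝ] P2, HasFDerivAt ψ (L : P2 →L[ℝ] P2) z := fun z hz h =>
    ⟨(LinearEquiv.ofInjectiveEndo (fderiv ℝ ψ z : P2 →ₗ[ℝ] P2) h).toContinuousLinearEquiv,
      ((hψ.contDiffAt (hO.mem_nhds hz)).differentiableAt (by simp)).hasFDerivAt⟩
  have h1 := hψ.contDiffAt (hO.mem_nhds ha)
  have h2 : ∀ᶠ z in 𝓝 a, Function.Injective (fderiv ℝ ψ z) :=
    (h1.fderiv_right (m := 0) (by simp)).continuousAt.eventually
      (ContinuousLinearMap.isOpen_injective.mem_nhds hi)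
  obtain ⟨W, hW, hWo, haW⟩ := eventually_nhds_iff.1 (h2.and (hO.mem_nhds ha))
  obtain ⟨L, hL⟩ := key a ha hi
  refine ⟨(h1.toOpenPartialHomeomorph ψ hL (by simp)).restrOpen W hWo,
    ⟨h1.mem_toOpenPartialHomeomorph_source hL (by simp), haW⟩, fun _ => rfl,
    hψ.mono fun z hz => (hW z hz.2).2, fun y hy => ?_⟩
  have h3 := hW _ (OpenPartialHomeomorph.map_target _ hy).2
  obtain ⟨L', hL'⟩ := key _ h3.2 h3.1
  exact (OpenPartialHomeomorph.contDiffAt_symm _ hy hL'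
    (hψ.contDiffAt (hO.mem_nhds h3.2))).contDiffWithinAt

variable {M : Type*} [TopologicalSpace M] [ChartedSpace E2 M] [IsManifold 𝓘(ℝ, E2) ∞ M]
  {F : M → R4}

theorem fd_loc (hF : Sm F) (c : Ch M) {p : M} (hp : p ∈ c.e.source) (X : P2) :
    fderiv ℝ (loc c F) (c.e p) X = dM F p (dsym c (c.e p) X) := by
  rw [fderiv_loc c (c.e.map_source hp) ((hF _).mdifferentiableAt (by simp)), c.e.left_inv hp]

theorem range_loc (hF : Sm F) (c : Ch M) {p : M} (hp : p ∈ c.e.source) (X : E2) :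
    ∃ Y, fderiv ℝ (loc c F) (c.e p) Y = dM F p X := by
  obtain ⟨Y, rfl⟩ := (dsym_bijective c (c.e.map_source hp)).2 X
  exact ⟨Y, fd_loc hF c hp Y⟩

theorem inj_loc (hF : Sm F) (hi : Imm F) (c : Ch M) {p : M} (hp : p ∈ c.e.source) :
    Function.Injective (fderiv ℝ (loc c F) (c.e p)) := fun X Y h => by
  rw [fd_loc hF c hp, fd_loc hF c hp] at h
  exact (dsym_bijective c (c.e.map_source hp)).1 (hi p h)

theorem umb_loc (hF : Sm F) (c : Ch M) {p : M} (hp : p ∈ c.e.source) :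
    p ∈ Umb F ↔ ∃ X, fderiv ℝ (loc c F) (c.e p) X = e4 := by
  constructor
  · rintro ⟨X, hX⟩
    obtain ⟨Y, hY⟩ := range_loc hF c hp X
    exact ⟨Y, hY.trans hX⟩
  · rintro ⟨X, hX⟩
    exact ⟨_, (fd_loc hF c hp X).symm.trans hX⟩

theorem umb_iff (hF : Sm F) (hi : Imm F) (c : Ch M) {p : M} (hp : p ∈ c.e.source) :
    p ∉ Umb F ↔ Function.Injective (pr.comp (fderiv ℝ (loc c F) (c.e p))) := by
  rw [umb_loc hF c hp, injective_iff_map_eq_zero]
  constructor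
  · intro h X hX
    obtain ⟨t, ht⟩ := (pr_zero_iff (fderiv ℝ (loc c F) (c.e p) X)).1 hX
    by_cases h0 : t = 0
    · rw [h0, zero_smul] at ht
      exact (injective_iff_map_eq_zero _).1 (inj_loc hF hi c hp) X ht
    · exact absurd ⟨t⁻¹ • X, by rw [map_smul, ht, smul_smul, inv_mul_cancel₀ h0, one_smul]⟩ h
  · rintro h ⟨X, hX⟩
    have h1 : X = 0 := h X (by rw [ContinuousLinearMap.comp_apply, hX, pr_e4])
    rw [h1, map_zero] at hX
    exact e4_ne hX.symm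

omit [IsManifold 𝓘(ℝ, E2) ∞ M] in
theorem loc_apply (c : Ch M) {p : M} (hp : p ∈ c.e.source) : loc c F (c.e p) = F p := by
  rw [loc, c.e.left_inv hp]

theorem not_umb_nhds (hF : Sm F) (hi : Imm F) {p : M} (hp : p ∉ Umb F) :
    ∃ s ∈ 𝓝 p, (∀ q ∈ s, q ∉ Umb F) ∧ InjOn (fun q => pr (F q)) s := by
  obtain ⟨c, hc⟩ := exists_ch p
  have h1 := hF.locAt c (c.e.map_source hc)
  have h2 := (umb_iff hF hi c hc).1 hp
  have h3 : ∀ᶠ z in 𝓝 (c.e p), Function.Injective (pr.comp (fderiv ℝ (loc c F) z)) :=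
    (continuousAt_const.clm_comp (h1.fderiv_right (m := 0) (by simp)).continuousAt).eventually
      (ContinuousLinearMap.isOpen_injective.mem_nhds h2)
  have h4 : HasFDerivAt (fun z => pr (loc c F z)) (pr.comp (fderiv ℝ (loc c F) (c.e p))) (c.e p) :=
    pr.hasFDerivAt.comp _ (h1.differentiableAt (by simp)).hasFDerivAt
  obtain ⟨s, hs, h5⟩ := loc_inj (g := fun z => pr (loc c F z))
    (pr.contDiff.contDiffAt.comp _ (h1.of_le (by simp))) (by rw [h4.fderiv]; exact h2)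
  have h6 := (c.e.continuousAt hc).eventually (h3.and hs)
  refine ⟨_, h6.and (c.e.open_source.mem_nhds hc), fun q hq => (umb_iff hF hi c hq.2).2 hq.1.1,
    fun q hq q' hq' h => c.e.injOn hq.2 hq'.2 (h5 hq.1.2 hq'.1.2 ?_)⟩
  simpa only [loc_apply c hq.2, loc_apply c hq'.2] using h

theorem exists_special (hF : Sm F) (hi : Imm F) {p : M} (hp : p ∈ Umb F) :
    ∃ (c : Ch M) (ξ : R4), p ∈ c.e.source ∧ ξ ≠ 0 ∧ ⟪ξ, e4⟫_ℝ = 0 ∧
      ∀ z ∈ c.e.target, ⟪ξ, loc c F z⟫_ℝ = z.2 := by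
  obtain ⟨c, hc⟩ := exists_ch p
  obtain ⟨X, hX⟩ := (umb_loc hF c hc).1 hp
  have hA := inj_loc hF hi c hc
  have h1 := hF.locAt c (c.e.map_source hc)
  generalize hAA : fderiv ℝ (loc c F) (c.e p) = A at hX hA
  have hX0 : X.1 ^ 2 + X.2 ^ 2 ≠ 0 := fun h => by
    have : X = 0 := Prod.ext (by simpa using (by nlinarith : X.1 ^ 2 = 0))
      (by simpa using (by nlinarith : X.2 ^ 2 = 0))
    rw [this, map_zero] at hX
    exact e4_ne hX.symm
  obtain ⟨ξ, t, h2, h3⟩ : ∃ (ξ : R4) (t : ℝ), ⟪ξ, e4⟫_ℝ = 0 ∧ A (-X.2, X.1) = ξ + t • e4 :=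
    ⟨A (-X.2, X.1) - A (-X.2, X.1) 3 • e4, A (-X.2, X.1) 3, by simp [geoL_inner, e4], by simp⟩
  have hξ : ξ ≠ 0 := fun h => by
    rw [h, zero_add, ← hX, ← map_smul] at h3
    have h4 := hA h3
    have h5 : -X.2 = t * X.1 := congrArg Prod.fst h4
    have h6 : X.1 = t * X.2 := congrArg Prod.snd h4
    exact hX0 (by linear_combination X.1 * h6 - X.2 * h5)
  let ℓ : P2 →L[ℝ] ℝ := X.1 • ContinuousLinearMap.fst ℝ ℝ ℝ + X.2 • ContinuousLinearMap.snd ℝ ℝ ℝ
  have hD : HasFDerivAt (fun z => (ℓ z, innerSL ℝ ξ (loc c F z)))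
      (ℓ.prod ((innerSL ℝ ξ).comp A)) (c.e p) :=
    ℓ.hasFDerivAt.prodMk ((innerSL ℝ ξ).hasFDerivAt.comp _
      (hAA ▸ (h1.differentiableAt (by simp)).hasFDerivAt))
  obtain ⟨e, he, he1, he2, he3⟩ := exists_diffeo (ψ := fun z => (ℓ z, innerSL ℝ ξ (loc c F z)))
    c.e.open_target (ℓ.contDiff.contDiffOn.prodMk
      ((innerSL ℝ ξ).contDiff.comp_contDiffOn (hF.loc c))) (c.e.map_source hc) (by
      rw [hD.fderiv, injective_iff_map_eq_zero]
      intro Y hY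
      have h4 : X.1 * Y.1 + X.2 * Y.2 = 0 := congrArg Prod.fst hY
      have h5 : ⟪ξ, A Y⟫_ℝ = 0 := congrArg Prod.snd hY
      have h6 : Y = ((X.1 * Y.2 - X.2 * Y.1) / (X.1 ^ 2 + X.2 ^ 2)) • (-X.2, X.1) := by
        refine Prod.ext ?_ ?_
        · show Y.1 = _ * -X.2
          field_simp
          linear_combination X.1 * h4
        · show Y.2 = _ * X.1
          field_simp
          linear_combination X.2 * h4
      rw [h6, map_smul, h3, real_inner_smul_right, inner_add_right, real_inner_smul_right, h2,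
        mul_zero, add_zero] at h5
      rw [h6, (mul_eq_zero.1 h5).resolve_right fun h => hξ (inner_self_eq_zero.1 h), zero_smul])
  obtain ⟨c', hc'⟩ := c.exists_comp e he2 he3
  refine ⟨c', ξ, by rw [hc']; exact ⟨hc, he⟩, hξ, h2, fun z hz => ?_⟩
  rw [hc'] at hz
  have h7 := congrArg Prod.snd ((he1 _).symm.trans (e.right_inv hz.1))
  rw [loc, hc']
  exact h7

theorem special_umb (hF : Sm F) (hi : Imm F) {c : Ch M} {ξ : R4} (hξ : ⟪ξ, e4⟫_ℝ = 0)
    (hy : ∀ z ∈ c.e.target, ⟪ξ, loc c F z⟫_ℝ = z.2) {q : M} (hq : q ∈ c.e.source) :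
    (∀ X, fderiv ℝ (loc c F) (c.e q) X = e4 → X.2 = 0) ∧
      (q ∈ Umb F ↔ pr (du (loc c F) (c.e q)) = 0) := by
  have h1 : ∀ X, fderiv ℝ (loc c F) (c.e q) X = e4 → X.2 = 0 := fun X hX => by
    have h2 := inner_fderiv_of_ev (φ := Prod.snd) (ξ := ξ)
      ((hF.locAt c (c.e.map_source hq)).differentiableAt (by simp))
      (eventually_of_mem (c.e.open_target.mem_nhds (c.e.map_source hq)) hy) X
    rw [hX, hξ, fderiv_snd] at h2
    exact h2.symm
  refine ⟨h1, fun h => ?_, fun h => ?_⟩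
  · obtain ⟨X, hX⟩ := (umb_loc hF c hq).1 h
    have h2 := h1 X hX
    rw [fderiv_eq_du_dv, h2, zero_smul, add_zero] at hX
    have h3 := congrArg pr hX
    rw [map_smul, pr_e4] at h3
    refine (smul_eq_zero.1 h3).resolve_left fun h0 => ?_
    rw [h0, zero_smul] at hX
    exact e4_ne hX.symm
  · by_contra h2
    have h3 := (injective_iff_map_eq_zero _).1 ((umb_iff hF hi c hq).1 h2) (1, 0) h
    simp at h3

theorem special_nd (h : GenImm F) {c : Ch M} {ξ : R4} (hξ : ⟪ξ, e4⟫_ℝ = 0)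
    (hy : ∀ z ∈ c.e.target, ⟪ξ, loc c F z⟫_ℝ = z.2) {p : M} (hc : p ∈ c.e.source)
    (hp : p ∈ Umb F) (Y : P2) (hY : pr (fderiv ℝ (du (loc c F)) (c.e p) Y) = 0) : Y = 0 := by
  by_contra h0
  obtain ⟨X, hX⟩ := (umb_loc h.sm c hc).1 hp
  have h1 := (special_umb h.sm h.imm hξ hy hc).1 X hX
  have h2 := h.sm.locAt c (c.e.map_source hc)
  obtain ⟨t, ht⟩ := (pr_zero_iff _).1 hY
  refine h.nd c p hc X Y hX h0 ?_
  rw [fderiv_eq_du_dv, h1, zero_smul, add_zero] at hX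
  rw [fderiv_eq_du_dv, ← du_dv_comm h2, ← hX] at ht
  rw [II, nrm, perp_eq_zero_iff ((imm_iff h.sm c hc).1 (h.imm p)).ne', dd_eq h2, h1]
  refine ⟨X.1 * t * X.1, 0, ?_⟩
  linear_combination (norm := module) X.1 • ht

theorem umb_nhds (h : GenImm F) (p : M) : ∀ᶠ q in 𝓝 p, q ∈ Umb F → q = p := by
  by_cases hp : p ∈ Umb F
  · obtain ⟨c, ξ, hc, -, hξ, hy⟩ := exists_special h.sm h.imm hp
    have h1 := umb_isolated (h.sm.locAt c (c.e.map_source hc)) (special_nd h hξ hy hc hp)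
    rw [eventually_nhdsWithin_iff] at h1
    filter_upwards [(c.e.continuousAt hc).eventually h1, c.e.open_source.mem_nhds hc] with q h2 hq h3
    by_contra h4
    exact h2 (fun h5 => h4 (c.e.injOn hq hc h5)) ((special_umb h.sm h.imm hξ hy hq).2.1 h3)
  · obtain ⟨s, hs, h1, -⟩ := not_umb_nhds h.sm h.imm hp
    filter_upwards [hs] with q hq h2 using absurd h2 (h1 q hq)

/-- the double curve of the projection -/
def Dbl (F : M → R4) : Set (M × M) :=
  {z | pr (F z.1) = pr (F z.2) ∧ (z.1 ≠ z.2 ∨ z.1 ∈ Umb F)}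

theorem dbl_closed [T2Space M] (h : GenImm F) : IsClosed (Dbl F) := by
  rw [← isOpen_compl_iff, isOpen_iff_mem_nhds]
  rintro ⟨p, q⟩ hz
  have hc : Continuous fun p => pr (F p) := pr.continuous.comp h.sm.continuous
  by_cases h1 : pr (F p) = pr (F q)
  · have h2 : p = q := by
      by_contra h2
      exact hz ⟨h1, Or.inl h2⟩
    subst h2
    obtain ⟨s, hs, h3, h4⟩ := not_umb_nhds h.sm h.imm fun h3 => hz ⟨rfl, Or.inr h3⟩
    filter_upwards [prod_mem_nhds hs hs] with z hz' h5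
    exact h5.2.elim (fun h6 => h6 (h4 hz'.1 hz'.2 h5.1)) (h3 _ hz'.1)
  · filter_upwards [(isOpen_ne_fun (hc.comp continuous_fst) (hc.comp continuous_snd)).mem_nhds
      (show (p, q) ∈ _ from h1)] with z hz' h5 using hz' h5.1

theorem dbl_arc [T2Space M] (h : GenImm F) {z : M × M} (hz : z ∈ Dbl F) : ArcAt (Dbl F) z := by
  obtain ⟨p, q⟩ := z
  by_cases hpq : p = q
  · subst hpq
    have hp : p ∈ Umb F := hz.2.resolve_left fun h => h rfl
    obtain ⟨c, ξ, hc, hξ0, hξ, hy⟩ := exists_special h.sm h.imm hp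
    obtain ⟨g, hg, hgf⟩ := exists_global c.e.open_target (h.sm.loc c) (c.e.map_source hc)
    have h1 := surf_du_ev hgf
    refine ArcAt.transfer (c.e.prod c.e) ⟨hc, hc⟩ ?_ (arc_umb (a := c.e p) hg hξ0 hξ ?_ ?_ ?_)
    · have h2 := ((c.e.continuousAt hc).eventually (hgf.and h1)).and (c.e.open_source.mem_nhds hc)
      filter_upwards [prod_mem_nhds h2 h2] with ⟨p', q'⟩ ⟨⟨⟨a1, a2⟩, a3⟩, ⟨b1, _⟩, b3⟩
      show _ ↔ pr (g (c.e p')) = pr (g (c.e q')) ∧ (c.e p' ≠ c.e q' ∨ pr (du g (c.e p')) = 0)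
      rw [a1, b1, a2, loc_apply c a3, loc_apply c b3, ← (special_umb h.sm h.imm hξ hy a3).2,
        (c.e.injOn.ne_iff a3 b3)]
      rfl
    · filter_upwards [hgf, c.e.open_target.mem_nhds (c.e.map_source hc)] with z h2 h3
      rw [h2, hy z h3]
    · rw [show du g (c.e p) = du (loc c F) (c.e p) from h1.eq_of_nhds]
      exact (special_umb h.sm h.imm hξ hy hc).2.1 hp
    · intro Y hY
      rw [show fderiv ℝ (du g) (c.e p) = _ from h1.fderiv_eq] at hY
      exact special_nd h hξ hy hc hp Y hY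
  · obtain ⟨c, hc⟩ := exists_ch p
    obtain ⟨c', hc'⟩ := exists_ch q
    obtain ⟨t, ht⟩ := (pr_zero_iff (F p - F q)).1 (by rw [map_sub, hz.1, sub_self])
    refine ArcAt.transfer (c.e.prod c'.e) ⟨hc, hc'⟩ ?_ (arc_double (f := loc c F) (g := loc c' F)
      (a := c.e p) (b := c'.e q)
      ((h.sm.locAt c (c.e.map_source hc)).of_le (by simp))
      ((h.sm.locAt c' (c'.e.map_source hc')).of_le (by simp)) ?_ fun ξ h1 h2 h3 => ?_)
    · filter_upwards [prod_mem_nhds (c.e.open_source.mem_nhds hc) (c'.e.open_source.mem_nhds hc'),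
        (isOpen_ne_fun continuous_fst continuous_snd).mem_nhds (show (p, q) ∈ _ from hpq)]
        with ⟨p', q'⟩ ⟨a1, a2⟩ a3
      show _ ↔ pr (loc c F (c.e p')) = pr (loc c' F (c'.e q'))
      rw [loc_apply c a1, loc_apply c' a2]
      exact ⟨fun h => h.1, fun h => ⟨h, Or.inl a3⟩⟩
    · rw [loc_apply c hc, loc_apply c' hc']
      exact hz.1
    · refine h.tv p q hpq t ht ξ h1 (fun X => ?_) fun X => ?_
      · obtain ⟨Y, hY⟩ := range_loc h.sm c hc X
        rw [← hY, h2]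
      · obtain ⟨Y, hY⟩ := range_loc h.sm c' hc' X
        rw [← hY, h3]

end T2Aux

variable {M : Type*} [TopologicalSpace M] [ChartedSpace E2 M] [IsManifold 𝓘(ℝ, E2) ∞ M]
  [T2Space M] [CompactSpace M]

theorem GenImm.finite_umb {F : M → R4} (h : GenImm F) : (Umb F).Finite := by
  obtain ⟨t, -, ht⟩ := isCompact_univ.elim_nhds_subcover (fun p => {q | q ∈ Umb F → q = p})
    fun p _ => T2Aux.umb_nhds h p
  refine t.finite_toSet.subset fun q hq => ?_
  obtain ⟨p, hp, h1⟩ := mem_iUnion₂.1 (ht (mem_univ q))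
  rw [h1 hq]
  exact hp

theorem GenImm.even_umb {F : M → R4} (h : GenImm F) {C : Set M} (hC : IsClopen C) :
    Even (Umb F ∩ C).ncard := by
  haveI : CompactSpace ↥(T2Aux.Dbl F ∩ C ×ˢ C) := isCompact_iff_compactSpace.1
    ((T2Aux.dbl_closed h).inter (hC.1.prod hC.1)).isCompact
  let σ : ↥(T2Aux.Dbl F ∩ C ×ˢ C) → ↥(T2Aux.Dbl F ∩ C ×ˢ C) := fun y =>
    ⟨y.1.swap, ⟨y.2.1.1.symm, by
      by_cases h1 : y.1.1 = y.1.2
      · exact Or.inr (show y.1.2 ∈ Umb F from h1 ▸ y.2.1.2.resolve_left fun h2 => h2 h1)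
      · exact Or.inl (Ne.symm h1)⟩, y.2.2.2, y.2.2.1⟩
  have hfix : ∀ y, σ y = y ↔ y.1.1 = y.1.2 := fun y =>
    ⟨fun h1 => congrArg (fun w => w.1.2) h1, fun h1 => Subtype.ext (Prod.ext h1.symm h1)⟩
  have hinj : InjOn (fun y : ↥(T2Aux.Dbl F ∩ C ×ˢ C) => y.1.1) {y | σ y = y} :=
    fun y hy y' hy' h1 => Subtype.ext (Prod.ext h1 (((hfix y).1 hy).symm.trans
      (Eq.trans h1 ((hfix y').1 hy'))))
  have him : (fun y : ↥(T2Aux.Dbl F ∩ C ×ˢ C) => y.1.1) '' {y | σ y = y} = Umb F ∩ C := by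
    refine Subset.antisymm ?_ fun p hp =>
      ⟨⟨(p, p), ⟨rfl, Or.inr hp.1⟩, hp.2, hp.2⟩, (hfix _).2 rfl, rfl⟩
    rintro _ ⟨y, hy, rfl⟩
    exact ⟨y.2.1.2.resolve_left fun h2 => h2 ((hfix y).1 hy), y.2.2.1⟩
  rw [← him, hinj.ncard_image]
  refine even_fixed (fun y => ?_) ((continuous_swap.comp continuous_subtype_val).subtype_mk _)
    (fun y => rfl) (Finite.of_finite_image (him ▸ h.finite_umb.inter_of_left C) hinj)
  obtain ⟨_, φ, hφ⟩ := T2Aux.ArcAt.congr (S := T2Aux.Dbl F ∩ C ×ˢ C) (x := y.1)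
    (eventually_of_mem ((hC.2.prod hC.2).mem_nhds y.2.2) fun z hz => ⟨fun h => h.1, fun h => ⟨h, hz⟩⟩)
    (T2Aux.dbl_arc h y.2.1)
  exact ⟨φ, hφ⟩

end Vale.Agent.P205
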