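import Vale.Agent.P205.TDefs

/-! P205, T4Aux: determinants, normal parts and local trivialisations (shared by T4 and T5). -/

open scoped ContDiff InnerProductSpace Topology Manifold
open Set Filter Real

noncomputable section
namespace Vale.Agent.P205

section Det
variable {a b n1 n2 : R4}

theorem det4_eq (a b c d : R4) : det4 a b c d =
    -(a 1 * (b 2 * c 3 - b 3 * c 2) - a 2 * (b 1 * c 3 - b 3 * c 1)
        + a 3 * (b 1 * c 2 - b 2 * c 1)) * d 0
      + (a 0 * (b 2 * c 3 - b 3 * c 2) - a 2 * (b 0 * c 3 - b 3 * c 0)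
        + a 3 * (b 0 * c 2 - b 2 * c 0)) * d 1
      + -(a 0 * (b 1 * c 3 - b 3 * c 1) - a 1 * (b 0 * c 3 - b 3 * c 0)
        + a 3 * (b 0 * c 1 - b 1 * c 0)) * d 2
      + (a 0 * (b 1 * c 2 - b 2 * c 1) - a 1 * (b 0 * c 2 - b 2 * c 0)
        + a 2 * (b 0 * c 1 - b 1 * c 0)) * d 3 := by
  rw [det4, geoL_inner]
  rfl

theorem det4_comb34 (a b c d : R4) (p q r s : ℝ) :
    det4 a b (p • c + q • d) (r • c + s • d) = (p * s - q * r) * det4 a b c d := by
  simp only [det4_eq, PiLp.add_apply, PiLp.smul_apply, smul_eq_mul]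
  ring

theorem det4_comb12 (a b c d : R4) (p q r s : ℝ) :
    det4 (p • a + q • b) (r • a + s • b) c d = (p * s - q * r) * det4 a b c d := by
  simp only [det4_eq, PiLp.add_apply, PiLp.smul_apply, smul_eq_mul]
  ring

theorem det4_tan3 (a b c d : R4) (p q : ℝ) : det4 a b (c - p • a - q • b) d = det4 a b c d := by
  simp only [det4_eq, PiLp.sub_apply, PiLp.smul_apply, smul_eq_mul]
  ring

theorem det4_tan4 (a b c d : R4) (p q : ℝ) : det4 a b c (d - p • a - q • b) = det4 a b c d := by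
  simp only [det4_eq, PiLp.sub_apply, PiLp.smul_apply, smul_eq_mul]
  ring

theorem det4_perp3 (a b c d : R4) : det4 a b (perp a b c) d = det4 a b c d := det4_tan3 _ _ _ _ _ _

theorem det4_perp4 (a b c d : R4) : det4 a b c (perp a b d) = det4 a b c d := det4_tan4 _ _ _ _ _ _

theorem det4_zero3 (a b d : R4) : det4 a b 0 d = 0 := by
  simp only [det4_eq, PiLp.zero_apply]
  ring

theorem det4_zero4 (a b c : R4) : det4 a b c 0 = 0 := inner_zero_right _

theorem det4_cross (a b c : R4) : det4 a b c (cross3 a b c) = gram3 a b c := geoL_cross a b c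

/-- Cramer's rule -/
theorem det4_cramer (a b c d ξ : R4) : det4 a b c d • ξ =
    det4 ξ b c d • a + det4 a ξ c d • b + det4 a b ξ d • c + det4 a b c ξ • d := by
  ext i
  simp only [det4_eq, PiLp.add_apply, PiLp.smul_apply, smul_eq_mul]
  fin_cases i <;> simp only [Fin.zero_eta, Fin.mk_one, Fin.reduceFinMk, Fin.isValue] <;> ring

theorem perp_zero' (a b : R4) : perp a b 0 = 0 :=
  perp_of_orth (inner_zero_left _) (inner_zero_left _)

theorem perp_perp (h : gram2 a b ≠ 0) (ξ : R4) : perp a b (perp a b ξ) = perp a b ξ :=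
  perp_of_orth (inner_perp_left h ξ) (inner_perp_right h ξ)

/-- coordinates of the normal part in the frame of the normal parts of `n1`, `n2` -/
theorem perp_cramer (h : gram2 a b ≠ 0) (hD : det4 a b n1 n2 ≠ 0) (ξ : R4) :
    perp a b ξ = (det4 a b ξ n2 / det4 a b n1 n2) • perp a b n1
      + (det4 a b n1 ξ / det4 a b n1 n2) • perp a b n2 := by
  have h1 := congrArg (perp a b) (det4_cramer a b n1 n2 ξ)
  simp only [perp_add, perp_smul, perp_left h, perp_right h, smul_zero, zero_add] at h1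
  rw [div_eq_inv_mul, div_eq_inv_mul, mul_smul, mul_smul, ← smul_add, ← h1, inv_smul_smul₀ hD]

theorem frame_eq_zero (hD : det4 a b n1 n2 ≠ 0) {s : P2}
    (h : s.1 • perp a b n1 + s.2 • perp a b n2 = 0) : s = 0 := by
  have h1 := det4_comb34 a b (perp a b n1) (perp a b n2) s.1 s.2 0 1
  have h2 := det4_comb34 a b (perp a b n1) (perp a b n2) 1 0 s.1 s.2
  rw [h, det4_zero3, det4_perp3, det4_perp4] at h1
  rw [h, det4_zero4, det4_perp3, det4_perp4] at h2
  refine Prod.ext ?_ ?_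
  · simpa [hD] using h1
  · simpa [hD] using h2

theorem exists_frame (h : 0 < gram2 a b) : ∃ n1 n2 : R4, 0 < det4 a b n1 n2 := by
  by_contra hn
  have h1 : ∀ c, gram3 a b c ≤ 0 := fun c => by
    rw [← det4_cross]
    exact not_lt.1 fun hc => hn ⟨_, _, hc⟩
  have h2 : gram3 a b !₂[1, 0, 0, 0] + gram3 a b !₂[0, 1, 0, 0] + gram3 a b !₂[0, 0, 1, 0]
      + gram3 a b !₂[0, 0, 0, 1] = 2 * gram2 a b := by
    simp only [gram3, gram2, geoL_inner]
    simp
    ring
  linarith [h1 !₂[1, 0, 0, 0], h1 !₂[0, 1, 0, 0], h1 !₂[0, 0, 1, 0], h1 !₂[0, 0, 0, 1]]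

theorem det4_ne_zero (h : gram2 a b ≠ 0) {c d : R4}
    (H : ∀ Y : P2, Y ≠ 0 → perp a b (Y.1 • c + Y.2 • d) ≠ 0) : det4 a b c d ≠ 0 := by
  intro h0
  have hc : perp a b c ≠ 0 := by simpa using H (1, 0) (by simp)
  have hD : det4 a b c (cross3 a b c) ≠ 0 := by
    rw [det4_cross, gram3_eq h]
    exact mul_ne_zero h (pow_ne_zero _ (norm_ne_zero_iff.2 hc))
  have h1 := perp_cramer h hD d
  rw [h0, zero_div, zero_smul, add_zero] at h1
  refine H (-(det4 a b d (cross3 a b c) / det4 a b c (cross3 a b c)), 1) (by simp) ?_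
  rw [perp_add, perp_smul, perp_smul, one_smul, neg_smul, ← h1, neg_add_cancel]

theorem contDiffAt_det4 {E : Type} [NormedAddCommGroup E] [NormedSpace ℝ E] {a b c d : E → R4}
    {x : E} (ha : ContDiffAt ℝ ∞ a x) (hb : ContDiffAt ℝ ∞ b x) (hc : ContDiffAt ℝ ∞ c x)
    (hd : ContDiffAt ℝ ∞ d x) : ContDiffAt ℝ ∞ (fun y => det4 (a y) (b y) (c y) (d y)) x :=
  (contDiff_cross3.contDiffAt.comp x (ha.prodMk (hb.prodMk hc))).inner ℝ hd
end Det

section Plane
variable {f g : P2 → R4} {x : P2} {n1 n2 : R4}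

theorem contDiffAt_nrm (hf : ContDiffAt ℝ ∞ f x) (hd : det2 f x ≠ 0) (hg : ContDiffAt ℝ ∞ g x) :
    ContDiffAt ℝ ∞ (fun y => nrm f y (g y)) x := by
  have h := ContDiffAt.comp (f := fun y => (du f y, dv f y, g y)) x (contDiffAt_perp hd (g x))
    ((contDiffAt_du hf).prodMk ((contDiffAt_dv hf).prodMk hg))
  exact h

theorem fderiv_smul_zero {s : P2 → ℝ} (hs : DifferentiableAt ℝ s x) (h0 : s x = 0)
    (hg : DifferentiableAt ℝ g x) (X : P2) :
    fderiv ℝ (fun y => s y • g y) x X = fderiv ℝ s x X • g x := by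
  rw [fderiv_fun_smul hs hg, h0]
  simp

/-- at a zero of `g`, the derivative of the normal part differs by tangent vectors only -/
theorem fderiv_nrm (hf : ContDiffAt ℝ ∞ f x) (hd : det2 f x ≠ 0) (hg : ContDiffAt ℝ ∞ g x)
    (h0 : g x = 0) (X : P2) : ∃ p q : ℝ,
      fderiv ℝ (fun y => nrm f y (g y)) x X = fderiv ℝ g x X - p • du f x - q • dv f x := by
  have hU := contDiffAt_du hf
  have hV := contDiffAt_dv hf
  have hu := hU.differentiableAt (by simp)
  have hv := hV.differentiableAt (by simp)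
  have hg' := hg.differentiableAt (by simp)
  have hG : ContDiffAt ℝ ∞ (fun y => gram2 (du f y) (dv f y)) x :=
    ((hU.inner ℝ hU).mul (hV.inner ℝ hV)).sub ((hU.inner ℝ hV).pow 2)
  have h1 := ((((hV.inner ℝ hV).mul (hg.inner ℝ hU)).sub
    ((hU.inner ℝ hV).mul (hg.inner ℝ hV))).div hG hd).differentiableAt (by simp)
  have h2 := ((((hU.inner ℝ hU).mul (hg.inner ℝ hV)).sub
    ((hU.inner ℝ hV).mul (hg.inner ℝ hU))).div hG hd).differentiableAt (by simp)
  have e := ((hg'.hasFDerivAt.sub (h1.smul hu).hasFDerivAt).sub (h2.smul hv).hasFDerivAt).fderiv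
  have e1 := fderiv_smul_zero h1 (by simp [h0]) hu X
  have e2 := fderiv_smul_zero h2 (by simp [h0]) hv X
  exact ⟨_, _, (congrArg (fun L : P2 →L[ℝ] R4 => L X) e).trans
    (congrArg₂ (fun u v => fderiv ℝ g x X - u - v) e1 e2)⟩

theorem det4_nrm (hf : ContDiffAt ℝ ∞ f x) (hd : det2 f x ≠ 0) (hg : ContDiffAt ℝ ∞ g x)
    (h0 : g x = 0) :
    det4 (du f x) (dv f x) (du (fun y => nrm f y (g y)) x) (dv (fun y => nrm f y (g y)) x)
      = det4 (du f x) (dv f x) (du g x) (dv g x) := by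
  obtain ⟨p, q, h1⟩ := fderiv_nrm hf hd hg h0 (1, 0)
  obtain ⟨r, s, h2⟩ := fderiv_nrm hf hd hg h0 (0, 1)
  rw [du.eq_1 (fun y => nrm f y (g y)), dv.eq_1 (fun y => nrm f y (g y)), h1, h2, det4_tan3,
    det4_tan4]
  rfl

/-- the section with coordinates `s` in the frame of the normal parts of `n1`, `n2` -/
def frm (f : P2 → R4) (n1 n2 : R4) (s : P2 → P2) (y : P2) : R4 :=
  (s y).1 • nrm f y n1 + (s y).2 • nrm f y n2

def DD (f : P2 → R4) (n1 n2 : R4) (y : P2) : ℝ := det4 (du f y) (dv f y) n1 n2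

/-- the coordinates of the normal part of `g` -/
def sec (f g : P2 → R4) (n1 n2 : R4) (y : P2) : P2 :=
  (det4 (du f y) (dv f y) (g y) n2 / DD f n1 n2 y, det4 (du f y) (dv f y) n1 (g y) / DD f n1 n2 y)

theorem contDiffAt_DD (hf : ContDiffAt ℝ ∞ f x) : ContDiffAt ℝ ∞ (DD f n1 n2) x :=
  contDiffAt_det4 (contDiffAt_du hf) (contDiffAt_dv hf) contDiffAt_const contDiffAt_const

theorem contDiffAt_sec (hf : ContDiffAt ℝ ∞ f x) (hg : ContDiffAt ℝ ∞ g x)
    (hD : DD f n1 n2 x ≠ 0) : ContDiffAt ℝ ∞ (sec f g n1 n2) x :=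
  ((contDiffAt_det4 (contDiffAt_du hf) (contDiffAt_dv hf) hg contDiffAt_const).div
    (contDiffAt_DD hf) hD).prodMk
  ((contDiffAt_det4 (contDiffAt_du hf) (contDiffAt_dv hf) contDiffAt_const hg).div
    (contDiffAt_DD hf) hD)

theorem contDiffAt_frm (hf : ContDiffAt ℝ ∞ f x) (hd : det2 f x ≠ 0) {s : P2 → P2}
    (hs : ContDiffAt ℝ ∞ s x) : ContDiffAt ℝ ∞ (frm f n1 n2 s) x :=
  (hs.fst.smul (contDiffAt_nrm hf hd contDiffAt_const)).add
    (hs.snd.smul (contDiffAt_nrm hf hd contDiffAt_const))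

theorem nrm_eq_frm (hd : det2 f x ≠ 0) (hD : DD f n1 n2 x ≠ 0) :
    nrm f x (g x) = frm f n1 n2 (sec f g n1 n2) x := perp_cramer hd hD _

theorem nrm_frm (hd : det2 f x ≠ 0) (s : P2 → P2) :
    nrm f x (frm f n1 n2 s x) = frm f n1 n2 s x := by
  simp only [frm, nrm, perp_add, perp_smul, perp_perp hd]

theorem frm_eq_zero (hD : DD f n1 n2 x ≠ 0) {s : P2 → P2} : frm f n1 n2 s x = 0 ↔ s x = 0 :=
  ⟨fun h => frame_eq_zero hD h, fun h => by simp [frm, h]⟩

theorem det4_frm (hf : ContDiffAt ℝ ∞ f x) (hd : det2 f x ≠ 0) {s : P2 → P2}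
    (hs : DifferentiableAt ℝ s x) (h0 : s x = 0) :
    det4 (du f x) (dv f x) (du (frm f n1 n2 s) x) (dv (frm f n1 n2 s) x)
      = jac s x * DD f n1 n2 x := by
  have hn : ∀ n : R4, DifferentiableAt ℝ (fun y => nrm f y n) x := fun n =>
    (contDiffAt_nrm hf hd contDiffAt_const).differentiableAt (by simp)
  have key : ∀ X, fderiv ℝ (frm f n1 n2 s) x X
      = (fderiv ℝ s x X).1 • nrm f x n1 + (fderiv ℝ s x X).2 • nrm f x n2 := fun X => by
    have e := ((hs.fst.smul (hn n1)).hasFDerivAt.add (hs.snd.smul (hn n2)).hasFDerivAt).fderiv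
    have e1 := fderiv_smul_zero hs.fst (by simp [h0]) (hn n1) X
    have e2 := fderiv_smul_zero hs.snd (by simp [h0]) (hn n2) X
    rw [fderiv.fst hs] at e1
    rw [fderiv.snd hs] at e2
    exact (congrArg (fun L : P2 →L[ℝ] R4 => L X) e).trans (congrArg₂ (· + ·) e1 e2)
  rw [du.eq_1 (frm f n1 n2 s), dv.eq_1 (frm f n1 n2 s), key, key, det4_comb34, nrm, nrm,
    det4_perp3, det4_perp4]
  rfl
end Plane

section Man
variable {M : Type*} [TopologicalSpace M] [ChartedSpace E2 M] [IsManifold 𝓘(ℝ, E2) ∞ M]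
  {F ν : M → R4} {Z : Set M} {sg : M → Bool}

omit [IsManifold 𝓘(ℝ, E2) ∞ M] in
theorem loc_apply {V : Type} (c : Ch M) (G : M → V) {p : M} (hp : p ∈ c.e.source) :
    G (c.e.symm (c.e p)) = G p := by rw [c.e.left_inv hp]

theorem det2_ne (hF : Sm F) (hi : Imm F) (c : Ch M) {x : P2} (hx : x ∈ c.e.target) :
    det2 (loc c F) x ≠ 0 := by
  have h := (imm_iff hF c (c.e.map_target hx)).1 (hi _)
  rw [c.e.right_inv hx] at h
  exact h.ne'

/-- the determinant that gives the sign of a zero, in the chart `c` -/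
def sdet (c : Ch M) (F ν : M → R4) (x : P2) : ℝ :=
  det4 (du (loc c F) x) (dv (loc c F) x) (du (loc c ν) x) (dv (loc c ν) x)

theorem sdet_trans (hF : Sm F) (hν : Sm ν) (c c' : Ch M) {p : M} (hp : p ∈ c.e.source)
    (hp' : p ∈ c'.e.source) :
    sdet c F ν (c.e p) = jac (trans c c') (c.e p) ^ 2 * sdet c' F ν (c'.e p) := by
  have ht := (contDiffAt_trans c c' hp hp').differentiableAt (by simp)
  have h : ∀ G : M → R4, Sm G → _ := fun G hG => by
    have h1 := (hG.locAt c' (c'.e.map_source hp')).differentiableAt (by simp)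
    rw [← trans_apply c c' hp] at h1
    have h2 := surf_comp ht h1
    have h3 := jets_congr (loc_eventuallyEq c c' G hp hp')
    rw [← h3.1, ← h3.2.1, trans_apply c c' hp] at h2
    exact h2
  rw [sdet, (h F hF).1, (h F hF).2, (h ν hν).1, (h ν hν).2, det4_comb12, det4_comb34, sdet, jac]
  ring

/-- the sign condition holds in every chart -/
theorem St.on' (h : St F ν Z sg) (c : Ch M) {p : M} (hp : p ∈ Z) (hc : p ∈ c.e.source) :
    0 < sgn (sg p) * sdet c F ν (c.e p) := by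
  obtain ⟨-, c', hc', h1⟩ := h.on p hp
  have h2 : 0 < sgn (sg p) * sdet c' F ν (c'.e p) := h1
  rw [sdet_trans h.smF h.smν c' c hc' hc, mul_left_comm] at h2
  exact lt_of_mul_lt_mul_left (a := jac (trans c' c) (c'.e p) ^ 2) (by rwa [mul_zero])
    (sq_nonneg _)

/-- normal part of a field along an immersion -/
def nrmG (F ν : M → R4) : M → R4 := fun p => nrmM F (exists_ch p).choose p (ν p)

theorem nrmG_eq (hF : Sm F) (hi : Imm F) (c : Ch M) {p : M} (hp : p ∈ c.e.source) :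
    nrmG F ν p = nrm (loc c F) (c.e p) (ν p) :=
  nrmM_trans hF _ c (exists_ch p).choose_spec hp (hi p) _

theorem loc_nrmG (hF : Sm F) (hi : Imm F) (c : Ch M) {x : P2} (hx : x ∈ c.e.target) :
    loc c (nrmG F ν) x = nrm (loc c F) x (loc c ν x) := by
  rw [loc, nrmG_eq hF hi c (c.e.map_target hx), c.e.right_inv hx]
  rfl

theorem loc_nrmG_ev (hF : Sm F) (hi : Imm F) (c : Ch M) {x : P2} (hx : x ∈ c.e.target) :
    loc c (nrmG F ν) =ᶠ[𝓝 x] fun y => nrm (loc c F) y (loc c ν y) :=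
  (c.e.open_target.eventually_mem hx).mono fun _ hy => loc_nrmG hF hi c hy

theorem sm_nrmG (hF : Sm F) (hi : Imm F) (hν : Sm ν) : Sm (nrmG F ν) := by
  refine sm_of_loc fun p => ?_
  obtain ⟨c, hc⟩ := exists_ch p
  have hx := c.e.map_source hc
  exact ⟨c, hc, (contDiffAt_nrm (hF.locAt c hx) (det2_ne hF hi c hx)
    (hν.locAt c hx)).congr_of_eventuallyEq (loc_nrmG_ev hF hi c hx)⟩

theorem nrmG_nrmG (hF : Sm F) (hi : Imm F) (p : M) : nrmG F (nrmG F ν) p = nrmG F ν p := by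
  obtain ⟨c, hc⟩ := exists_ch p
  rw [nrmG_eq hF hi c hc, nrmG_eq hF hi c hc]
  exact perp_perp (det2_ne hF hi c (c.e.map_source hc)) _

theorem transv_iff_nrmG (hF : Sm F) (hi : Imm F) (p : M) :
    (∀ X, ν p ≠ dM F p X) ↔ nrmG F ν p ≠ 0 :=
  transv_iff hF _ (exists_ch p).choose_spec (hi p) _

/-- normalisation: a field that is transversal off `Z` and whose normal part has nondegenerate
zeros on `Z` gives a state -/
theorem st_of_nrm (hF : Sm F) (hi : Imm F) (hν : Sm ν) (hZ : Z.Finite)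
    (off : ∀ p, p ∉ Z → ∀ X, ν p ≠ dM F p X)
    (on : ∀ p ∈ Z, ∃ c : Ch M, p ∈ c.e.source ∧ nrm (loc c F) (c.e p) (ν p) = 0 ∧
      0 < sgn (sg p) * det4 (du (loc c F) (c.e p)) (dv (loc c F) (c.e p))
        (du (fun y => nrm (loc c F) y (loc c ν y)) (c.e p))
        (dv (fun y => nrm (loc c F) y (loc c ν y)) (c.e p))) :
    St F (nrmG F ν) Z sg := by
  refine ⟨hF, sm_nrmG hF hi hν, hi, hZ, fun p hp => ?_, fun p hp => ?_⟩
  · rw [transv_iff_nrmG hF hi, nrmG_nrmG hF hi, ← transv_iff_nrmG hF hi]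
    exact off p hp
  · obtain ⟨c, hc, h0, h1⟩ := on p hp
    have h2 := jets_congr (loc_nrmG_ev (ν := ν) hF hi c (c.e.map_source hc))
    refine ⟨(nrmG_eq hF hi c hc).trans h0, c, hc, ?_⟩
    rw [h2.1, h2.2.1]
    exact h1

theorem St.nrmG (h : St F ν Z sg) : St F (nrmG F ν) Z sg := by
  refine st_of_nrm h.smF h.imm h.smν h.fin h.off fun p hp => ?_
  obtain ⟨h0, c, hc, h1⟩ := h.on p hp
  have hx := c.e.map_source hc
  refine ⟨c, hc, by rw [h0]; exact perp_zero' _ _, ?_⟩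
  rw [det4_nrm (h.smF.locAt c hx) (det2_ne h.smF h.imm c hx) (h.smν.locAt c hx)
    ((loc_apply c ν hc).trans h0)]
  exact h1

/-- the set of a chart where `n1`, `n2` give a positive normal frame -/
def triv (c : Ch M) (F : M → R4) (n1 n2 : R4) : Set P2 :=
  {x | x ∈ c.e.target ∧ 0 < DD (loc c F) n1 n2 x}

theorem isOpen_triv (hF : Sm F) (c : Ch M) (n1 n2 : R4) : IsOpen (triv c F n1 n2) := by
  refine isOpen_iff_mem_nhds.2 fun x hx => ?_
  exact (c.e.open_target.eventually_mem hx.1).and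
    ((contDiffAt_DD (hF.locAt c hx.1)).continuousAt.eventually (lt_mem_nhds hx.2))

theorem exists_triv (hF : Sm F) (hi : Imm F) (c : Ch M) {x : P2} (hx : x ∈ c.e.target) :
    ∃ n1 n2 : R4, x ∈ triv c F n1 n2 := by
  obtain ⟨n1, n2, h⟩ := exists_frame (lt_of_le_of_ne (gram2_nonneg _ _) (det2_ne hF hi c hx).symm)
  exact ⟨n1, n2, hx, h⟩

variable {c : Ch M} {n1 n2 : R4} {x : P2}

theorem contDiffOn_sec (hF : Sm F) (hν : Sm ν) :
    ContDiffOn ℝ ∞ (sec (loc c F) (loc c ν) n1 n2) (triv c F n1 n2) := fun _ hx =>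
  (contDiffAt_sec (hF.locAt c hx.1) (hν.locAt c hx.1) hx.2.ne').contDiffWithinAt

theorem loc_eq_frm (hF : Sm F) (hi : Imm F) (hN : ∀ p, nrmG F ν p = ν p)
    (hx : x ∈ triv c F n1 n2) :
    loc c ν x = frm (loc c F) n1 n2 (sec (loc c F) (loc c ν) n1 n2) x := by
  rw [← nrm_eq_frm (det2_ne hF hi c hx.1) hx.2.ne', ← loc_nrmG hF hi c hx.1]
  exact (hN _).symm

/-- reading a normal state in a trivialisation -/
theorem St.read (h : St F ν Z sg) (hN : ∀ p, Vale.Agent.P205.nrmG F ν p = ν p)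
    (hx : x ∈ triv c F n1 n2) :
    (c.e.symm x ∈ Z ↔ sec (loc c F) (loc c ν) n1 n2 x = 0) ∧
      (c.e.symm x ∈ Z → 0 < sgn (sg (c.e.symm x)) * jac (sec (loc c F) (loc c ν) n1 n2) x) := by
  have h1 : c.e.symm x ∈ Z ↔ sec (loc c F) (loc c ν) n1 n2 x = 0 := by
    rw [← frm_eq_zero hx.2.ne', ← loc_eq_frm h.smF h.imm hN hx]
    refine ⟨fun hz => (h.on _ hz).1, fun h0 => by_contra fun hz => ?_⟩
    exact (transv_iff_nrmG h.smF h.imm _).1 (h.off _ hz) ((hN _).trans h0)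
  refine ⟨h1, fun hz => ?_⟩
  have h2 := h.on' c hz (c.e.map_target hx.1)
  have h3 := jets_congr (((isOpen_triv h.smF c n1 n2).eventually_mem hx).mono fun _ hy =>
    loc_eq_frm h.smF h.imm hN hy)
  rw [c.e.right_inv hx.1, sdet, h3.1, h3.2.1, det4_frm (h.smF.locAt c hx.1)
    (det2_ne h.smF h.imm c hx.1) ((contDiffAt_sec (h.smF.locAt c hx.1) (h.smν.locAt c hx.1)
      hx.2.ne').differentiableAt (by simp)) (h1.1 hz), ← mul_assoc] at h2
  exact (mul_pos_iff_of_pos_right hx.2).1 h2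

/-- changing a normal state inside a compact part of a trivialisation -/
theorem St.modify [T2Space M] (h : St F ν Z sg) (hN : ∀ p, Vale.Agent.P205.nrmG F ν p = ν p)
    {K : Set P2} (hK : IsCompact K) (hKO : K ⊆ triv c F n1 n2) {s' : P2 → P2}
    (hs' : ContDiffOn ℝ ∞ s' (triv c F n1 n2))
    (he : ∀ x, x ∉ K → s' x = sec (loc c F) (loc c ν) n1 n2 x) {Z' : Set M} {sg' : M → Bool}
    (hZ' : Z'.Finite)
    (h1 : ∀ p, p ∉ c.e.symm '' K → (p ∈ Z' ↔ p ∈ Z) ∧ (p ∈ Z → sg' p = sg p))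
    (h2 : ∀ x ∈ K, (c.e.symm x ∈ Z' ↔ s' x = 0) ∧
      (s' x = 0 → 0 < sgn (sg' (c.e.symm x)) * jac s' x)) :
    ∃ ν' : M → R4, St F ν' Z' sg' ∧ ∀ p, Vale.Agent.P205.nrmG F ν' p = ν' p := by
  have hO := isOpen_triv h.smF c n1 n2
  have hKc : K ⊆ c.e.target := fun x hx => (hKO hx).1
  set s := sec (loc c F) (loc c ν) n1 n2 with hs
  set y : P2 → R4 := K.indicator (frm (loc c F) n1 n2 (s' - s)) with hy
  have y0 : ∀ x, x ∉ K → y x = 0 := fun x hx => indicator_of_notMem hx _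
  have y1 : ∀ x, y x = frm (loc c F) n1 n2 (s' - s) x := fun x => by
    by_cases hx : x ∈ K
    · exact indicator_of_mem hx _
    · rw [y0 x hx]
      simp [frm, he x hx]
  have hsy : ContDiffOn ℝ ∞ y c.e.target := fun x hx => by
    refine ContDiffAt.contDiffWithinAt ?_
    by_cases hxK : x ∈ K
    · rw [funext y1]
      exact contDiffAt_frm (h.smF.locAt c hx) (det2_ne h.smF h.imm c hx)
        ((hs'.contDiffAt (hO.mem_nhds (hKO hxK))).sub
          ((contDiffOn_sec h.smF h.smν).contDiffAt (hO.mem_nhds (hKO hxK))))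
    · exact (contDiffAt_const (c := (0 : R4))).congr_of_eventuallyEq
        ((hK.isClosed.isOpen_compl.eventually_mem hxK).mono fun z hz => y0 z hz)
  have hsm : Sm fun p => ν p + ext c y p := h.smν.add (sm_ext c hK hKc y0 hsy)
  have hev : ∀ p, p ∉ c.e.symm '' K → (fun p => ν p + ext c y p) =ᶠ[𝓝 p] ν := fun p hp =>
    (ext_eventually_zero c hK hKc y0 hp).mono fun z hz => by
      simp only [hz, add_zero]
  have hloc : ∀ x ∈ triv c F n1 n2,
      loc c (fun p => ν p + ext c y p) x = frm (loc c F) n1 n2 s' x := fun x hx => by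
    have e1 : loc c (fun p => ν p + ext c y p) x = loc c ν x + loc c (ext c y) x := rfl
    rw [e1, (loc_ext c y hx.1).eq_of_nhds, y1, loc_eq_frm h.smF h.imm hN hx, ← hs]
    simp only [frm, Pi.sub_apply, Prod.fst_sub, Prod.snd_sub]
    module
  have hN' : ∀ p, Vale.Agent.P205.nrmG F (fun p => ν p + ext c y p) p = ν p + ext c y p :=
    fun p => by
    by_cases hp : p ∈ c.e.symm '' K
    · obtain ⟨x, hx, rfl⟩ := hp
      have e1 := loc_nrmG (ν := fun p => ν p + ext c y p) h.smF h.imm c (hKc hx)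
      rw [hloc x (hKO hx), nrm_frm (det2_ne h.smF h.imm c (hKc hx)), ← hloc x (hKO hx)] at e1
      exact e1
    · have e1 : ν p + ext c y p = ν p := (hev p hp).eq_of_nhds
      rw [Vale.Agent.P205.nrmG, e1]
      exact hN p
  refine ⟨_, ⟨h.smF, hsm, h.imm, hZ', fun p hp => ?_, fun p hp => ?_⟩, hN'⟩
  · by_cases hpK : p ∈ c.e.symm '' K
    · obtain ⟨x, hx, rfl⟩ := hpK
      rw [transv_iff_nrmG (ν := fun p => ν p + ext c y p) h.smF h.imm, hN']
      intro h0
      exact hp ((h2 x hx).1.2 ((frm_eq_zero (hKO hx).2.ne').1 ((hloc x (hKO hx)).symm.trans h0)))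
    · rw [(hev p hpK).eq_of_nhds]
      exact h.off p fun hz => hp ((h1 p hpK).1.2 hz)
  · by_cases hpK : p ∈ c.e.symm '' K
    · obtain ⟨x, hx, rfl⟩ := hpK
      have h0 := (h2 x hx).1.1 hp
      have h3 := jets_congr ((hO.eventually_mem (hKO hx)).mono hloc)
      refine ⟨(hloc x (hKO hx)).trans ((frm_eq_zero (hKO hx).2.ne').2 h0), c,
        c.e.map_target (hKc hx), ?_⟩
      rw [c.e.right_inv (hKc hx), h3.1, h3.2.1, det4_frm (h.smF.locAt c (hKc hx))
        (det2_ne h.smF h.imm c (hKc hx))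
        ((hs'.contDiffAt (hO.mem_nhds (hKO hx))).differentiableAt (by simp)) h0, ← mul_assoc]
      exact mul_pos ((h2 x hx).2 h0) (hKO hx).2
    · have hz := (h1 p hpK).1.1 hp
      obtain ⟨h0, d, hd, h3⟩ := h.on p hz
      have h4 := jets_congr (loc_congr d hd (hev p hpK))
      refine ⟨(hev p hpK).eq_of_nhds.trans h0, d, hd, ?_⟩
      rw [h4.1, h4.2.1, (h1 p hpK).2 hz]
      exact h3
end Man

end Vale.Agent.P205
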