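import Vale.Agent.P205.T3
import Vale.Agent.P205.T4Aux

/-! P205, T4: initial state and cancellation of a pair of zeros (BLUEPRINT, module T). -/

open scoped ContDiff InnerProductSpace Topology Manifold
open Set Filter Real

noncomputable section
namespace Vale.Agent.P205

variable {M : Type*} [TopologicalSpace M] [ChartedSpace E2 M] [IsManifold 𝓘(ℝ, E2) ∞ M]
  [T2Space M] [CompactSpace M]

theorem t4_sgn {t : ℝ} (h : t ≠ 0) : ∃ b : Bool, 0 < sgn b * t := by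
  rcases h.lt_or_gt with h | h
  · exact ⟨false, by simpa [sgn] using h⟩
  · exact ⟨true, by simpa [sgn] using h⟩

/-- the normal part of a constant vector that is tangent at `x` has a nondegenerate zero -/
theorem t4_umb {f : P2 → R4} {x X : P2} {e : R4} (hf : ContDiffAt ℝ ∞ f x) (hd : det2 f x ≠ 0)
    (hX : fderiv ℝ f x X = e) (nd : ∀ Y, Y ≠ 0 → II f x X Y ≠ 0) :
    det4 (du f x) (dv f x) (du (fun y => nrm f y e) x) (dv (fun y => nrm f y e) x) ≠ 0 := by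
  have hg : ContDiffAt ℝ ∞ (fun y => e - fderiv ℝ f y X) x :=
    contDiffAt_const.sub ((hf.fderiv_right (m := ∞) (by simp)).clm_apply contDiffAt_const)
  have hc : ContinuousAt (det2 f) x :=
    (contDiff_gram2.contDiffAt.comp x ((contDiffAt_du hf).prodMk (contDiffAt_dv hf))).continuousAt
  have e1 : (fun y => nrm f y e) =ᶠ[𝓝 x] fun y => nrm f y (e - fderiv ℝ f y X) :=
    (hc.eventually_ne hd).mono fun y hy => by
      have h0 : perp (du f y) (dv f y) (fderiv ℝ f y X) = 0 := (nrm_eq_zero_iff hy _).2 ⟨X, rfl⟩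
      simp only [nrm]
      rw [sub_eq_add_neg, ← neg_one_smul ℝ (fderiv ℝ f y X), perp_add, perp_smul, h0, smul_zero,
        add_zero]
  rw [(jets_congr e1).1, (jets_congr e1).2.1, det4_nrm hf hd hg (by rw [hX, sub_self])]
  refine det4_ne_zero hd fun Y hY h0 => nd Y hY ?_
  have e2 : fderiv ℝ (fun y => e - fderiv ℝ f y X) x Y = -dd f x X Y := by
    rw [fderiv_const_sub, neg_apply]
    refine congrArg Neg.neg ((dd_eq hf Y X).trans ?_)
    rw [dd_eq hf X Y, mul_comm Y.1 X.1, mul_comm Y.2 X.2, mul_comm Y.1 X.2, mul_comm Y.2 X.1,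
      add_comm (X.2 * Y.1)]
  rw [← fderiv_eq_du_dv, e2, ← neg_one_smul ℝ (dd f x X Y), perp_smul] at h0
  exact (smul_eq_zero.1 h0).resolve_left (by norm_num)

theorem GenImm.exists_st {F : M → R4} (h : GenImm F) (hf : (Umb F).Finite) :
    ∃ (ν : M → R4) (sg : M → Bool), St F ν (Umb F) sg := by
  have key : ∀ p : M, ∃ b : Bool, p ∈ Umb F → ∃ c : Ch M, p ∈ c.e.source ∧
      nrm (loc c F) (c.e p) e4 = 0 ∧
      0 < sgn b * det4 (du (loc c F) (c.e p)) (dv (loc c F) (c.e p))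
        (du (fun y => nrm (loc c F) y e4) (c.e p)) (dv (fun y => nrm (loc c F) y e4) (c.e p)) := by
    intro p
    by_cases hp : p ∈ Umb F
    · obtain ⟨c, hc⟩ := exists_ch p
      have hx := c.e.map_source hc
      have hd := det2_ne h.sm h.imm c hx
      have h0 : nrm (loc c F) (c.e p) e4 = 0 := by
        by_contra h0
        obtain ⟨X, hX⟩ := hp
        exact (transv_iff h.sm c hc (h.imm p) e4).2 h0 X hX.symm
      obtain ⟨X, hX⟩ := (nrm_eq_zero_iff hd _).1 h0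
      obtain ⟨b, hb⟩ := t4_sgn (t4_umb (h.sm.locAt c hx) hd hX.symm
        fun Y hY => h.nd c p hc X Y hX.symm hY)
      exact ⟨b, fun _ => ⟨c, hc, h0, hb⟩⟩
    · exact ⟨true, fun h => absurd h hp⟩
  choose sg hsg using key
  exact ⟨_, sg, st_of_nrm h.sm h.imm (sm_const e4) hf (fun p hp X hX => hp ⟨X, hX.symm⟩) hsg⟩

omit [ChartedSpace E2 M] [IsManifold 𝓘(ℝ, E2) ∞ M] [T2Space M] [CompactSpace M] in
theorem t4_clopen {S C : Set M} (hS : IsPreconnected S) (hC : IsClopen C) {p q : M} (hp : p ∈ S)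
    (hq : q ∈ S) : p ∈ C ↔ q ∈ C :=
  ⟨fun h => hS.subset_isClopen hC ⟨p, hp, h⟩ hq, fun h => hS.subset_isClopen hC ⟨q, hq, h⟩ hp⟩

omit [T2Space M] [CompactSpace M] in
/-- a good ball around a point inside a given open set -/
theorem t4_ball {F : M → R4} (hF : Sm F) (hi : Imm F) (a : M) {W : Set M} (hW : W ∈ 𝓝 a) :
    ∃ (c : Ch M) (n1 n2 : R4) (R : ℝ), a ∈ c.e.source ∧ 0 < R ∧
      Metric.closedBall (c.e a) R ⊆ triv c F n1 n2 ∧
      c.e.symm '' Metric.closedBall (c.e a) R ⊆ W ∧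
      IsPreconnected (c.e.symm '' Metric.closedBall (c.e a) R) ∧
      ∀ r, 0 < r → {q | q ∈ c.e.source ∧ c.e q ∈ Metric.ball (c.e a) r} ∈ 𝓝 a := by
  obtain ⟨c, hc⟩ := exists_ch a
  have hx := c.e.map_source hc
  obtain ⟨n1, n2, hn⟩ := exists_triv hF hi c hx
  have h1 : c.e.symm ⁻¹' W ∈ 𝓝 (c.e a) :=
    c.e.continuousAt_symm hx (by rwa [c.e.left_inv hc])
  obtain ⟨R, hR, h2⟩ := Metric.nhds_basis_closedBall.mem_iff.1
    (inter_mem ((isOpen_triv hF c n1 n2).mem_nhds hn) h1)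
  refine ⟨c, n1, n2, R, hc, hR, fun x hx => (h2 hx).1, ?_, ?_, fun r hr => ?_⟩
  · rintro _ ⟨x, hx, rfl⟩
    exact (h2 hx).2
  · exact (convex_closedBall _ _).isPreconnected.image _
      (c.e.continuousOn_symm.mono fun x hx => (h2 hx).1.1)
  · exact inter_mem (c.e.open_source.mem_nhds hc) (c.e.continuousAt hc (Metric.ball_mem_nhds _ hr))

omit [IsManifold 𝓘(ℝ, E2) ∞ M] [T2Space M] [CompactSpace M] in
open Classical in
/-- a bijection of the plane supported in `K` lifts to the surface -/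
theorem t4_lift (c : Ch M) {K : Set P2} (hKt : ∀ x ∈ K, x ∈ c.e.target) {ψ : P2 → P2}
    (ψb : Function.Bijective ψ) (ψ1 : ∀ x, x ∉ K → ψ x = x) : (∀ x ∈ K, ψ x ∈ K) ∧
      ∃ Ψ : M → M, Function.Bijective Ψ ∧ (∀ x ∈ K, Ψ (c.e.symm x) = c.e.symm (ψ x)) ∧
        ∀ m, m ∉ c.e.symm '' K → Ψ m = m := by
  have ψK : ∀ x ∈ K, ψ x ∈ K := fun x hx => by
    by_contra hn
    exact hn (by rw [ψb.1 (ψ1 _ hn)]; exact hx)
  obtain ⟨Ψ, hΨ⟩ : ∃ Ψ : M → M,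
      ∀ m, Ψ m = if m ∈ c.e.symm '' K then c.e.symm (ψ (c.e m)) else m := ⟨_, fun _ => rfl⟩
  have Ψ1 : ∀ x ∈ K, Ψ (c.e.symm x) = c.e.symm (ψ x) := fun x hx => by
    rw [hΨ, if_pos (mem_image_of_mem _ hx), c.e.right_inv (hKt x hx)]
  have Ψ0 : ∀ m, m ∉ c.e.symm '' K → Ψ m = m := fun m hm => by rw [hΨ, if_neg hm]
  have ΨS : ∀ m ∈ c.e.symm '' K, Ψ m ∈ c.e.symm '' K := by
    rintro _ ⟨x, hx, rfl⟩
    exact ⟨_, ψK x hx, (Ψ1 x hx).symm⟩
  refine ⟨ψK, Ψ, ⟨fun m m' e => ?_, fun m => ?_⟩, Ψ1, Ψ0⟩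
  · by_cases hm : m ∈ c.e.symm '' K <;> by_cases hm' : m' ∈ c.e.symm '' K
    · obtain ⟨x, hx, rfl⟩ := hm
      obtain ⟨x', hx', rfl⟩ := hm'
      rw [Ψ1 x hx, Ψ1 x' hx'] at e
      rw [ψb.1 (c.e.symm.injOn (hKt _ (ψK x hx)) (hKt _ (ψK x' hx')) e)]
    · exact absurd (by rw [← Ψ0 m' hm', ← e]; exact ΨS m hm) hm'
    · exact absurd (by rw [← Ψ0 m hm, e]; exact ΨS m' hm') hm
    · rwa [Ψ0 m hm, Ψ0 m' hm'] at e
  · by_cases hm : m ∈ c.e.symm '' K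
    · obtain ⟨x, hx, rfl⟩ := hm
      obtain ⟨x', rfl⟩ := ψb.2 x
      have hx' : x' ∈ K := by_contra fun hn => hn (by rwa [ψ1 x' hn] at hx)
      exact ⟨_, Ψ1 x' hx'⟩
    · exact ⟨m, Ψ0 m hm⟩

omit [CompactSpace M] in
/-- moving zeros near `a` without touching `p` -/
theorem t4_move {F : M → R4} (hF : Sm F) (hi : Imm F) {a p : M} (hap : a ≠ p) :
    ∃ U ∈ 𝓝 a, ∀ (ν : M → R4) (Z : Set M) (sg : M → Bool), St F ν Z sg → (∀ m, nrmG F ν m = ν m) →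
      ∀ q0 ∈ U, ∀ q1 ∈ U, ∃ (ν' : M → R4) (Ψ : M → M), Function.Bijective Ψ ∧
        St F ν' (Ψ ⁻¹' Z) (sg ∘ Ψ) ∧ (∀ m, nrmG F ν' m = ν' m) ∧ Ψ p = p ∧ Ψ q1 = q0 ∧
        ∀ C, IsClopen C → ∀ m, Ψ m ∈ C ↔ m ∈ C := by
  obtain ⟨c, n1, n2, R, ha, hR, hK, hW, hS, hU⟩ := t4_ball hF hi a (isOpen_ne.mem_nhds hap)
  obtain ⟨r, hr, hrR, hψ⟩ := planar_move (c.e a) hR
  refine ⟨_, hU r hr, fun ν Z sg h hN q0 h0 q1 h1 => ?_⟩
  obtain ⟨ψ, ψs, ψb, ψ1, ψ0, ψj⟩ := hψ _ h0.2 _ h1.2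
  have ψ1' : ∀ x, x ∉ Metric.closedBall (c.e a) R → ψ x = x :=
    fun x hx => ψ1 x fun hb => hx (Metric.ball_subset_closedBall hb)
  obtain ⟨ψK, Ψ, Ψb, Ψ1, Ψ0⟩ := t4_lift c (fun x hx => (hK hx).1) ψb ψ1'
  have ψO : ∀ x ∈ triv c F n1 n2, ψ x ∈ triv c F n1 n2 := fun x hx => by
    by_cases hxK : x ∈ Metric.closedBall (c.e a) R
    · exact hK (ψK x hxK)
    · rwa [ψ1' x hxK]
  have hs := contDiffOn_sec (c := c) (n1 := n1) (n2 := n2) hF h.smν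
  obtain ⟨ν', h', hN'⟩ := h.modify (s' := sec (loc c F) (loc c ν) n1 n2 ∘ ψ) (Z' := Ψ ⁻¹' Z)
    (sg' := sg ∘ Ψ) hN (isCompact_closedBall _ _) hK (hs.comp ψs.contDiffOn ψO)
    (fun x hx => congrArg (sec (loc c F) (loc c ν) n1 n2) (ψ1' x hx)) (h.fin.preimage Ψb.1.injOn)
    (fun m hm => ⟨by rw [mem_preimage, Ψ0 m hm], fun _ => congrArg sg (Ψ0 m hm)⟩) fun x hx => by
      have hr := h.read hN (hK (ψK x hx))
      refine ⟨by rw [mem_preimage, Ψ1 x hx]; exact hr.1, fun h0 => ?_⟩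
      rw [jac_comp (ψs.differentiable (by simp) x) ((hs.contDiffAt
        ((isOpen_triv hF c n1 n2).mem_nhds (hK (ψK x hx)))).differentiableAt (by simp)),
        Function.comp_apply, Ψ1 x hx, ← mul_assoc]
      exact mul_pos (hr.2 (hr.1.2 h0)) (ψj x)
  refine ⟨ν', Ψ, Ψb, h', hN', Ψ0 p fun hp => hW hp rfl, ?_, fun C hC m => ?_⟩
  · have e := Ψ1 _ (Metric.ball_subset_closedBall (Metric.ball_subset_ball hrR.le h1.2))
    rwa [c.e.left_inv h1.1, ψ0, c.e.left_inv h0.1] at e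
  · by_cases hm : m ∈ c.e.symm '' Metric.closedBall (c.e a) R
    · obtain ⟨x, hx, rfl⟩ := hm
      exact t4_clopen hS hC ⟨_, ψK x hx, (Ψ1 x hx).symm⟩ ⟨x, hx, rfl⟩
    · rw [Ψ0 m hm]

omit [CompactSpace M] in
/-- cancelling two zeros in a small ball -/
theorem t4_cancel {F ν : M → R4} {Z : Set M} {sg : M → Bool} (h : St F ν Z sg)
    (hN : ∀ m, nrmG F ν m = ν m) {c : Ch M} {n1 n2 : R4} {x0 : P2} {R : ℝ} (hR : 0 < R)
    (hK : Metric.closedBall x0 R ⊆ triv c F n1 n2) {p q : M} (hp : p ∈ Z) (hq : q ∈ Z)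
    (hpc : p ∈ c.e.source ∧ c.e p ∈ Metric.ball x0 (R / 4))
    (hqc : q ∈ c.e.source ∧ c.e q ∈ Metric.ball x0 (R / 4)) (sp : sg p = true)
    (sq : sg q = false) : ∃ ν' : M → R4, St F ν' (Z \ {p, q}) sg := by
  have hb : ∀ x ∈ Metric.ball x0 (R / 4), x ∈ Metric.closedBall x0 R := fun x hx =>
    Metric.ball_subset_closedBall (Metric.ball_subset_ball (by linarith) hx)
  have rp := h.read hN (hK (hb _ hpc.2))
  have rq := h.read hN (hK (hb _ hqc.2))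
  rw [c.e.left_inv hpc.1, sp] at rp
  rw [c.e.left_inv hqc.1, sq] at rq
  obtain ⟨s', h1, h2, h3, h4⟩ := planar_cancel (isOpen_triv h.smF c n1 n2) x0 hR hK
    (contDiffOn_sec h.smF h.smν) hpc.2 hqc.2 (rp.1.1 hp) (rq.1.1 hq)
    (by simpa [sgn] using rp.2 hp) (by simpa [sgn] using rq.2 hq)
  refine (h.modify (Z' := Z \ {p, q}) (sg' := sg) hN (isCompact_closedBall _ _) hK h1
    (fun x hx => h2 x fun hb => hx (Metric.ball_subset_closedBall hb)) (h.fin.subset sdiff_subset)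
    (fun m hm => ⟨⟨fun hz => hz.1, fun hz => ⟨hz, ?_⟩⟩, fun _ => rfl⟩) fun x hx => ?_).imp
    fun _ h' => h'.1
  · rintro (rfl | rfl)
    · exact hm ⟨_, hb _ hpc.2, c.e.left_inv hpc.1⟩
    · exact hm ⟨_, hb _ hqc.2, c.e.left_inv hqc.1⟩
  · have hr := h.read hN (hK hx)
    have e : ∀ m ∈ c.e.source, c.e.symm x = m ↔ x = c.e m := fun m hm =>
      ⟨fun e => by rw [← e, c.e.right_inv (hK hx).1], fun e => by rw [e, c.e.left_inv hm]⟩
    refine ⟨?_, fun h0 => ?_⟩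
    · rw [h3 x (hK hx), Set.mem_sdiff, hr.1, mem_insert_iff, mem_singleton_iff, not_or, e p hpc.1,
        e q hqc.1]
    · obtain ⟨t, ht, e1⟩ := h4 x (hK hx) h0
      rw [e1, mul_left_comm]
      exact mul_pos ht (hr.2 (hr.1.2 ((h3 x (hK hx)).1 h0).1))

omit [TopologicalSpace M] [ChartedSpace E2 M] [IsManifold 𝓘(ℝ, E2) ∞ M] [T2Space M]
  [CompactSpace M] in
open Classical in
theorem t4_cnt {Z C : Set M} {sg : M → Bool} (hZ : Z.Finite) {p q : M} (hp : p ∈ Z) (hq : q ∈ Z)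
    (hs : sg q ≠ sg p) (hC : p ∈ C ↔ q ∈ C) (b : Bool) :
    cnt (Z \ {p, q}) sg b C + (if p ∈ C then 1 else 0) = cnt Z sg b C := by
  by_cases hpC : p ∈ C
  · rw [if_pos hpC]
    have key : ∀ r r' : M, r ∈ Z → r ∈ C → sg r = b → sg r' ≠ b → ({p, q} : Set M) = {r, r'} →
        cnt (Z \ {p, q}) sg b C + 1 = cnt Z sg b C := fun r r' h1 h2 h3 h4 h5 => by
      rw [h5, cnt, cnt, ← ncard_sdiff_singleton_add_one (a := r)
        (s := {m | m ∈ Z ∧ m ∈ C ∧ sg m = b}) ⟨h1, h2, h3⟩ (hZ.subset fun _ hm => hm.1)]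
      refine congrArg (fun S : Set M => S.ncard + 1) (Set.ext fun m => ?_)
      refine ⟨fun hm => ⟨⟨hm.1.1, hm.2⟩, fun e => hm.1.2 (Or.inl e)⟩,
        fun hm => ⟨⟨hm.1.1, ?_⟩, hm.1.2⟩⟩
      rintro (e | e)
      · exact hm.2 e
      · exact h4 (e ▸ hm.1.2.2)
    by_cases hb : sg p = b
    · exact key p q hp hpC hb (hb ▸ hs) rfl
    · refine key q p hq (hC.1 hpC) ?_ hb (pair_comm _ _)
      revert hs hb
      cases sg p <;> cases sg q <;> cases b <;> simp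
  · rw [if_neg hpC, add_zero]
    refine congrArg Set.ncard (Set.ext fun m => ⟨fun hm => ⟨hm.1.1, hm.2⟩, fun hm => ⟨⟨hm.1, ?_⟩, hm.2⟩⟩)
    rintro (rfl | rfl)
    · exact hpC hm.2.1
    · exact hpC (hC.2 hm.2.1)

open Classical in
theorem St.pair {F ν : M → R4} {Z : Set M} {sg : M → Bool} (h : St F ν Z sg) {p q : M}
    (hp : p ∈ Z) (hq : q ∈ Z) (hs : sg p ≠ sg q) (hc : q ∈ connectedComponent p) :
    ∃ (ν' : M → R4) (Z' : Set M) (sg' : M → Bool), St F ν' Z' sg' ∧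
      ∀ (b : Bool) (C : Set M), IsClopen C →
        cnt Z' sg' b C + (if p ∈ C then 1 else 0) = cnt Z sg b C := by
  set A : Set M := {m | ∃ (ν' : M → R4) (Z' : Set M) (sg' : M → Bool), St F ν' Z' sg' ∧
    (∀ m, Vale.Agent.P205.nrmG F ν' m = ν' m) ∧
    (∀ (b : Bool) (C : Set M), IsClopen C → cnt Z' sg' b C = cnt Z sg b C) ∧
    p ∈ Z' ∧ m ∈ Z' ∧ sg' m ≠ sg' p} with hA
  have hqA : q ∈ A := ⟨_, Z, sg, h.nrmG, nrmG_nrmG h.smF h.imm, fun _ _ _ => rfl, hp, hq, hs.symm⟩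
  have hpA : p ∉ A := fun ⟨_, _, _, _, _, _, _, _, e⟩ => e rfl
  have hmove : ∀ a, a ≠ p → ∃ U ∈ 𝓝 a, ∀ q0 ∈ U, ∀ q1 ∈ U, q0 ∈ A → q1 ∈ A := fun a ha => by
    obtain ⟨U, hU, H⟩ := t4_move h.smF h.imm ha
    refine ⟨U, hU, fun q0 h0 q1 h1 ⟨ν', Z', sg', h', hN, hcnt, hp', hq', hs'⟩ => ?_⟩
    obtain ⟨ν'', Ψ, Ψb, h'', hN', Ψp, Ψq, ΨC⟩ := H ν' Z' sg' h' hN q0 h0 q1 h1
    refine ⟨ν'', _, _, h'', hN', fun b C hC => ?_, by rwa [mem_preimage, Ψp],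
      by rwa [mem_preimage, Ψq], by rwa [Function.comp, Function.comp, Ψp, Ψq]⟩
    rw [← hcnt b C hC, cnt, cnt, ← ncard_preimage_of_injective_subset_range Ψb.1
      (s := {m | m ∈ Z' ∧ m ∈ C ∧ sg' m = b}) (by rw [Ψb.2.range_eq]; exact subset_univ _)]
    exact congrArg Set.ncard (Set.ext fun m => and_congr_right fun _ =>
      and_congr_left fun _ => (ΨC C hC m).symm)
  obtain ⟨c, n1, n2, R, ha, hR, hK, -, hS, hU⟩ := t4_ball h.smF h.imm p univ_mem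
  have hB := hU (R / 4) (by positivity)
  obtain ⟨q', hq'B, ν', Z', sg', h', hN, hcnt, hp', hq', hs'⟩ :
      ∃ q' ∈ {q | q ∈ c.e.source ∧ c.e q ∈ Metric.ball (c.e p) (R / 4)}, q' ∈ A := by
    by_contra hn
    have hcl : IsClopen A := by
      refine ⟨⟨isOpen_iff_mem_nhds.2 fun a ha => ?_⟩, isOpen_iff_mem_nhds.2 fun a ha => ?_⟩
      · by_cases hap : a = p
        · rw [hap]
          exact mem_of_superset hB fun m hm hmA => hn ⟨m, hm, hmA⟩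
        · obtain ⟨U, hU, H⟩ := hmove a hap
          exact mem_of_superset hU fun m hm hmA => ha (H m hm a (mem_of_mem_nhds hU) hmA)
      · obtain ⟨U, hU, H⟩ := hmove a fun e => hpA (e ▸ ha)
        exact mem_of_superset hU fun m hm => H a (mem_of_mem_nhds hU) m hm ha
    exact hpA ((t4_clopen isPreconnected_connectedComponent hcl mem_connectedComponent hc).2 hqA)
  have hpB := mem_of_mem_nhds hB
  obtain ⟨ν'', h''⟩ : ∃ ν'' : M → R4, St F ν'' (Z' \ {p, q'}) sg' := by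
    cases e : sg' p
    · rw [pair_comm]
      exact t4_cancel h' hN hR hK hq' hp' hq'B hpB (by simpa [e] using hs') e
    · exact t4_cancel h' hN hR hK hp' hq' hpB hq'B e (by simpa [e] using hs')
  refine ⟨ν'', _, sg', h'', fun b C hC => ?_⟩
  have hb : ∀ m : M, m ∈ c.e.source ∧ c.e m ∈ Metric.ball (c.e p) (R / 4) →
      m ∈ c.e.symm '' Metric.closedBall (c.e p) R := fun m hm =>
    ⟨_, Metric.ball_subset_closedBall (Metric.ball_subset_ball (by linarith) hm.2),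
      c.e.left_inv hm.1⟩
  rw [t4_cnt h'.fin hp' hq' hs' (t4_clopen hS hC (hb p hpB) (hb q' hq'B)), hcnt b C hC]

end Vale.Agent.P205
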