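import Vale.Agent.P205.T3

/-! P205, T5: the planar part of the insertion of a kink. -/

open scoped ContDiff InnerProductSpace Topology
open Set Filter Real Metric

noncomputable section
namespace Vale.Agent.P205.T5Aux

theorem det4_eq (a b c d : R4) :
    det4 a b c d = (Matrix.of ![a.ofLp, b.ofLp, c.ofLp, d.ofLp]).det := by
  simp [det4, geoL_inner, cross3, Matrix.det_succ_row_zero, Fin.sum_univ_succ, Fin.succAbove]
  ring

/-- the linear map with prescribed values on the basis -/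
def lin (a : Fin 4 → R4) : R4 →L[ℝ] R4 :=
  ∑ i, (EuclideanSpace.proj i : R4 →L[ℝ] ℝ).smulRight (a i)

theorem lin_apply (a : Fin 4 → R4) (v : R4) :
    lin a v = v 0 • a 0 + v 1 • a 1 + v 2 • a 2 + v 3 • a 3 := by
  simp [lin, Fin.sum_univ_four]

theorem lin_vecMul (a : Fin 4 → R4) (v : R4) : (lin a v).ofLp =
    Matrix.vecMul v.ofLp (Matrix.of ![(a 0).ofLp, (a 1).ofLp, (a 2).ofLp, (a 3).ofLp]) := by
  ext j
  simp [lin_apply, Matrix.vecMul, dotProduct, Fin.sum_univ_four]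

theorem det4_lin (a : Fin 4 → R4) (p q r s : R4) :
    det4 (lin a p) (lin a q) (lin a r) (lin a s) = det4 p q r s * det4 (a 0) (a 1) (a 2) (a 3) := by
  rw [det4_eq, det4_eq, det4_eq, ← Matrix.det_mul]
  congr 1
  ext i j
  rw [Matrix.mul_apply_eq_vecMul]
  fin_cases i <;> exact congrFun (lin_vecMul a _) j

theorem lin_inj {a : Fin 4 → R4} (h : det4 (a 0) (a 1) (a 2) (a 3) ≠ 0) :
    Function.Injective (lin a) := by
  rw [injective_iff_map_eq_zero]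
  intro v hv
  rw [det4_eq] at h
  have := Matrix.eq_zero_of_vecMul_eq_zero h (v := v.ofLp) (by rw [← lin_vecMul, hv]; rfl)
  ext i
  exact congrFun this i

theorem det4_cross (a n b : R4) (s : ℝ) : det4 a n (s • cross3 a n b) b = -s * gram3 a b n := by
  have e : ∀ c : R4, det4 a n c b = -det4 a n b c := fun c => by
    simp [det4, geoL_inner, cross3]
    ring
  rw [e, det4, real_inner_smul_right, geoL_cross, gram3_swap23, neg_mul]

theorem det4_smul (a b c d : R4) (s : ℝ) : det4 a b (s • c) (s • d) = s ^ 2 * det4 a b c d := by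
  rw [det4, det4, geoL_smul3, real_inner_smul_left, real_inner_smul_right]
  ring

theorem good_iff (f : P2 → R4) (x : P2) (n : R4) : 0 < gram3 (du f x) (dv f x) n ↔
    Function.Injective (fderiv ℝ f x) ∧ ∀ X, n ≠ fderiv ℝ f x X := by
  constructor
  · intro h
    have h1 : det2 f x ≠ 0 := fun h0 => by
      have := gram3_le (du f x) (dv f x) n
      rw [show gram2 (du f x) (dv f x) = 0 from h0, zero_mul] at this
      linarith
    refine ⟨det2_pos_iff.1 (lt_of_le_of_ne (gram2_nonneg _ _) h1.symm), fun X hX => ?_⟩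
    have h2 : perp (du f x) (dv f x) n = 0 := (nrm_eq_zero_iff h1 n).2 ⟨X, hX⟩
    rw [gram3_eq h1, h2] at h
    simp at h
  · rintro ⟨h1, h2⟩
    have h3 := det2_pos_iff.2 h1
    have h4 : perp (du f x) (dv f x) n ≠ 0 := fun h0 => by
      obtain ⟨X, hX⟩ := (nrm_eq_zero_iff h3.ne' n).1 h0
      exact h2 X hX
    rw [gram3_eq h3.ne']
    exact mul_pos h3 (pow_pos (norm_pos_iff.2 h4) 2)

theorem good_open (L : P2 →L[ℝ] R4) (n : R4) (h : 0 < gram3 (L (1, 0)) (L (0, 1)) n) :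
    ∃ ε > 0, ∀ (A : P2 →L[ℝ] R4) (m : R4), ‖A - L‖ < ε → ‖m - n‖ < ε →
      0 < gram3 (A (1, 0)) (A (0, 1)) m := by
  have hc : Continuous fun z : (P2 →L[ℝ] R4) × R4 => gram3 (z.1 (1, 0)) (z.1 (0, 1)) z.2 :=
    contDiff_gram3.continuous.comp (f := fun z : (P2 →L[ℝ] R4) × R4 => (z.1 (1, 0), z.1 (0, 1), z.2))
      (by fun_prop)
  obtain ⟨ε, hε, h1⟩ := Metric.isOpen_iff.1 (isOpen_lt continuous_const hc) (L, n) h
  refine ⟨ε, hε, fun A m hA hm => h1 (a := (A, m)) ?_⟩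
  rw [mem_ball, dist_eq_norm]
  exact max_lt hA hm

/-- the rescaling map -/
def sc (x0 : P2) (ρ : ℝ) (x : P2) : P2 := ρ⁻¹ • (x - x0)

theorem sc_smooth (x0 : P2) (ρ : ℝ) : ContDiff ℝ ∞ (sc x0 ρ) :=
  (contDiff_id.sub contDiff_const).const_smul _

theorem sc_deriv (x0 : P2) (ρ : ℝ) (x : P2) :
    HasFDerivAt (sc x0 ρ) (ρ⁻¹ • ContinuousLinearMap.id ℝ P2) x :=
  ((hasFDerivAt_id x).sub_const x0).const_smul ρ⁻¹

theorem norm_sc (x0 : P2) {ρ : ℝ} (hρ : 0 < ρ) (x : P2) : ‖x - x0‖ = ρ * ‖sc x0 ρ x‖ := by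
  rw [sc, norm_smul, Real.norm_of_nonneg (inv_pos.2 hρ).le, mul_inv_cancel_left₀ hρ.ne']

theorem sc_add (x0 : P2) {ρ : ℝ} (hρ : 0 < ρ) (z : P2) : sc x0 ρ (x0 + ρ • z) = z := by
  rw [sc, add_sub_cancel_left, smul_smul, inv_mul_cancel₀ hρ.ne', one_smul]

theorem add_sc (x0 : P2) {ρ : ℝ} (hρ : 0 < ρ) (x : P2) : x0 + ρ • sc x0 ρ x = x := by
  rw [sc, smul_smul, mul_inv_cancel₀ hρ.ne', one_smul, add_sub_cancel]

/-- flattening near a point keeps the immersion and the transversal field -/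
theorem flatten {O : Set P2} (hO : IsOpen O) {x0 : P2} (hx0 : x0 ∈ O) {f ν : P2 → R4}
    (hf : ContDiffOn ℝ ∞ f O) (hν : ContDiffOn ℝ ∞ ν O)
    (hg : 0 < gram3 (du f x0) (dv f x0) (ν x0)) {χ : P2 → ℝ} (hχ : ContDiff ℝ ∞ χ)
    (hχc : HasCompactSupport χ) (hχ1 : ∀ y, 0 ≤ χ y ∧ χ y ≤ 1) {S : ℝ} (hS : 0 < S) :
    ∃ ρ > 0, closedBall x0 (ρ * S) ⊆ O ∧ ∀ x ∈ closedBall x0 (ρ * S),
      0 < gram3 (du (fun x => f x - χ (sc x0 ρ x) • (f x - f x0 - fderiv ℝ f x0 (x - x0))) x)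
        (dv (fun x => f x - χ (sc x0 ρ x) • (f x - f x0 - fderiv ℝ f x0 (x - x0))) x)
        (ν x - χ (sc x0 ρ x) • (ν x - ν x0)) := by
  obtain ⟨ε, hε, hgood⟩ := good_open (fderiv ℝ f x0) (ν x0) hg
  obtain ⟨C, hC⟩ := (hχc.fderiv ℝ).exists_bound_of_continuous
    (hχ.continuous_fderiv (by simp))
  have hC0 : 0 ≤ C := (norm_nonneg _).trans (hC 0)
  have hη : 0 < ε / (2 + C * S) := by positivity
  have hfa := hf.contDiffAt (hO.mem_nhds hx0)
  have e1 : ∀ᶠ x in 𝓝 x0, ‖fderiv ℝ f x - fderiv ℝ f x0‖ < ε / (2 + C * S) := by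
    have := (surf_dfd (surf_two hfa)).continuousAt.eventually (ball_mem_nhds _ hη)
    simpa only [mem_ball, dist_eq_norm] using this
  have e2 : ∀ᶠ x in 𝓝 x0, ‖f x - f x0 - fderiv ℝ f x0 (x - x0)‖ ≤ ε / (2 + C * S) * ‖x - x0‖ :=
    (hfa.differentiableAt (by simp)).hasFDerivAt.isLittleO.def hη
  have e3 : ∀ᶠ x in 𝓝 x0, ‖ν x - ν x0‖ < ε := by
    have := (hν.contDiffAt (hO.mem_nhds hx0)).continuousAt.eventually (ball_mem_nhds _ hε)
    simpa only [mem_ball, dist_eq_norm] using this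
  obtain ⟨δ, hδ, hδ'⟩ := nhds_basis_closedBall.mem_iff.1
    (((e1.and e2).and e3).and (hO.mem_nhds hx0))
  have hρ : 0 < δ / S := by positivity
  refine ⟨δ / S, hρ, ?_⟩
  rw [div_mul_cancel₀ _ hS.ne']
  refine ⟨fun x hx => (hδ' hx).2, fun x hx => ?_⟩
  obtain ⟨⟨⟨a1, a2⟩, a3⟩, a4⟩ := hδ' hx
  have d1 := ((hf.contDiffAt (hO.mem_nhds a4)).differentiableAt (by simp)).hasFDerivAt
  have d2 := ((hχ.differentiable (by simp)) (sc x0 (δ / S) x)).hasFDerivAt.comp x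
    (sc_deriv x0 (δ / S) x)
  have d3 := (d1.sub_const (f x0)).sub
    ((fderiv ℝ f x0).hasFDerivAt.comp x ((hasFDerivAt_id x).sub_const x0))
  have d4 := (d1.sub (d2.smul d3)).fderiv
  obtain ⟨c0, c1⟩ := hχ1 (sc x0 (δ / S) x)
  refine hgood _ _ ?_ ?_
  · refine lt_of_eq_of_lt (congrArg (fun A => ‖A - fderiv ℝ f x0‖) d4) ?_
    have e : ∀ (t : ℝ) (A L B : P2 →L[ℝ] R4),
        A - (t • (A - L.comp (ContinuousLinearMap.id ℝ P2)) + B) - L = (1 - t) • (A - L) - B := by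
      intro t A L B
      rw [ContinuousLinearMap.comp_id]
      module
    rw [e]
    refine (norm_sub_le _ _).trans_lt ?_
    rw [norm_smul, ContinuousLinearMap.norm_smulRight_apply, Function.comp_apply,
      Real.norm_of_nonneg (by linarith)]
    have b1 : ‖(fderiv ℝ χ (sc x0 (δ / S) x)).comp ((δ / S)⁻¹ • ContinuousLinearMap.id ℝ P2)‖ ≤
        C * (δ / S)⁻¹ := by
      refine (ContinuousLinearMap.opNorm_comp_le _ _).trans (mul_le_mul (hC _) ?_ (norm_nonneg _) hC0)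
      rw [norm_smul, Real.norm_of_nonneg (inv_pos.2 hρ).le]
      exact mul_le_of_le_one_right (inv_pos.2 hρ).le ContinuousLinearMap.norm_id_le
    have b2 : ‖f x - f x0 - fderiv ℝ f x0 (x - x0)‖ ≤ ε / (2 + C * S) * δ :=
      a2.trans (mul_le_mul_of_nonneg_left (mem_closedBall_iff_norm.1 hx) hη.le)
    have b3 := mul_le_mul b1 b2 (norm_nonneg _) (by positivity)
    have b4 : C * (δ / S)⁻¹ * (ε / (2 + C * S) * δ) = C * S * (ε / (2 + C * S)) := by
      field_simp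
    have b5 : (2 + C * S) * (ε / (2 + C * S)) = ε := by field_simp
    have b6 : (1 - χ (sc x0 (δ / S) x)) * ‖fderiv ℝ f x - fderiv ℝ f x0‖ ≤
        ‖fderiv ℝ f x - fderiv ℝ f x0‖ := mul_le_of_le_one_left (norm_nonneg _) (by linarith)
    refine (add_le_add b6 b3).trans_lt ?_
    linarith
  · have e : ν x - χ (sc x0 (δ / S) x) • (ν x - ν x0) - ν x0 =
        (1 - χ (sc x0 (δ / S) x)) • (ν x - ν x0) := by module
    rw [e, norm_smul, Real.norm_of_nonneg (by linarith)]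
    exact (mul_le_of_le_one_left (norm_nonneg _) (by linarith)).trans_lt a3

/-- the flat plane -/
def pl : P2 →L[ℝ] R4 :=
  (ContinuousLinearMap.fst ℝ ℝ ℝ).smulRight !₂[1, 0, 0, 0] +
    (ContinuousLinearMap.snd ℝ ℝ ℝ).smulRight !₂[0, 0, 0, 1]

theorem pl_apply (y : P2) : pl y = !₂[y.1, 0, 0, y.2] := by
  ext i
  fin_cases i <;> simp [pl]

theorem nrm_pl (y : P2) : nrm pl y !₂[0, 1, 0, 0] = !₂[0, 1, 0, 0] := by
  refine perp_of_orth ?_ ?_
  · rw [du, pl.fderiv, pl_apply, geoL_inner]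
    simp
  · rw [dv, pl.fderiv, pl_apply, geoL_inner]
    simp

theorem nrm_smooth {K : P2 → R4} (hK : ContDiff ℝ ∞ K) (hd : ∀ x, 0 < det2 K x) (ξ : R4) :
    ContDiff ℝ ∞ fun y => nrm K y ξ := contDiff_iff_contDiffAt.2 fun y =>
  (contDiffAt_perp (hd y).ne' ξ).comp (f := fun y => (du K y, dv K y, ξ)) y
    ((contDiffAt_du hK.contDiffAt).prodMk ((contDiffAt_dv hK.contDiffAt).prodMk contDiffAt_const))

theorem nrm_tangent {K : P2 → R4} {y : P2} (hd : 0 < det2 K y) {ξ : R4} {X : P2}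
    (h : nrm K y ξ = fderiv ℝ K y X) : nrm K y ξ = 0 := by
  have h1 : nrm K y (nrm K y ξ) = nrm K y ξ :=
    perp_of_orth (inner_perp_left hd.ne' ξ) (inner_perp_right hd.ne' ξ)
  rw [← h1]
  exact (nrm_eq_zero_iff hd.ne' _).2 ⟨X, h⟩

theorem sgn_sq (b : Bool) : sgn b * sgn b = 1 := by cases b <;> simp [sgn]

theorem planar_kink {O O₁ : Set P2} (hO : IsOpen O) (hO₁ : O ⊆ O₁) {x0 : P2} (hx0 : x0 ∈ O)
    {f ν : P2 → R4} (hf : ContDiffOn ℝ ∞ f O₁) (hν : ContDiffOn ℝ ∞ ν O₁)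
    (hg : 0 < gram3 (du f x0) (dv f x0) (ν x0)) (b : Bool) :
    ∃ (K : Set P2) (y m : P2 → R4) (z1 z2 : P2), IsCompact K ∧ K ⊆ O ∧ (∀ x, x ∉ K → y x = 0) ∧
      (∀ x, x ∉ K → m x = 0) ∧ ContDiffOn ℝ ∞ y O₁ ∧ ContDiffOn ℝ ∞ m O₁ ∧ z1 ∈ K ∧ z2 ∈ K ∧
      z1 ≠ z2 ∧ (∀ x ∈ K, Function.Injective (fderiv ℝ (fun x => f x + y x) x) ∧
        (x ≠ z1 → x ≠ z2 → ∀ X, ν x + m x ≠ fderiv ℝ (fun x => f x + y x) x X)) ∧
      ∀ x, x = z1 ∨ x = z2 → ν x + m x = 0 ∧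
        0 < sgn b * det4 (du (fun x => f x + y x) x) (dv (fun x => f x + y x) x)
          (du (fun x => ν x + m x) x) (dv (fun x => ν x + m x) x) := by
  obtain ⟨K0, R0, z1, z2, b0, hK0, hK0R, hdet, hz, hzero, hsgn⟩ := exists_kink
  obtain ⟨R, hR, hRR⟩ : ∃ R : ℝ, 0 < R ∧ R0 ≤ R := ⟨max R0 1, by positivity, le_max_left _ _⟩
  have out1 : ∀ y : P2, R < ‖y‖ → K0 y = pl y := fun y hy => by
    rw [pl_apply]
    exact hK0R y fun h => by linarith [mem_ball_zero_iff.1 h]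
  have out2 : ∀ y : P2, R < ‖y‖ → nrm K0 y !₂[0, 1, 0, 0] = !₂[0, 1, 0, 0] := fun y hy => by
    have : K0 =ᶠ[𝓝 y] pl :=
      ((isOpen_lt continuous_const continuous_norm).eventually_mem hy).mono out1
    rw [(jets_congr this).2.2.2.2.2.2.1, nrm_pl]
  have zin : ∀ z, z = z1 ∨ z = z2 → ‖z‖ ≤ R := fun z h => not_lt.1 fun h' => by
    have := congrArg (fun v : R4 => v 1) ((out2 z h').symm.trans ((hzero z).2 h))
    simp at this
  obtain ⟨χ, hχ, hχc, hχs, hχ1, hχe⟩ := exists_cutoff (isCompact_closedBall (0 : P2) (R + 1))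
    isOpen_ball (closedBall_subset_ball (by linarith : R + 1 < R + 2))
  obtain ⟨ρ, hρ, hρO, hflat⟩ := flatten hO hx0 (hf.mono hO₁) (hν.mono hO₁) hg hχ hχc hχ1
    (by linarith : 0 < R + 2)
  have hn := nrm_smooth hK0 hdet !₂[0, 1, 0, 0]
  obtain ⟨T, hT1, hT2, hT3, D, hD, hT4⟩ : ∃ T : R4 →L[ℝ] R4, Function.Injective T ∧
      (∀ y, T (pl y) = fderiv ℝ f x0 y) ∧ T !₂[0, 1, 0, 0] = ν x0 ∧ ∃ D : ℝ, 0 < D ∧
      ∀ p q r s, det4 (T p) (T q) (T r) (T s) = det4 p q r s * (sgn b * sgn b0 * D) := by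
    have e : det4 (du f x0) (ν x0) (-(sgn b * sgn b0) • cross3 (du f x0) (ν x0) (dv f x0))
        (dv f x0) = sgn b * sgn b0 * gram3 (du f x0) (dv f x0) (ν x0) := by
      rw [det4_cross, neg_neg]
    refine ⟨lin ![du f x0, ν x0, -(sgn b * sgn b0) • cross3 (du f x0) (ν x0) (dv f x0), dv f x0],
      lin_inj (e.trans_ne ?_), fun y => ?_, ?_, _, hg, fun p q r s => ?_⟩
    · refine mul_ne_zero (mul_ne_zero ?_ ?_) hg.ne'
      · exact left_ne_zero_of_mul_eq_one (sgn_sq b)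
      · exact left_ne_zero_of_mul_eq_one (sgn_sq b0)
    · rw [lin_apply, pl_apply, fderiv_eq_du_dv]
      simp
    · rw [lin_apply]
      simp
    · rw [det4_lin, ← e]
      rfl
  have hsc := sc_smooth x0 ρ
  have hmem : ∀ x, x ∈ closedBall x0 (ρ * (R + 2)) ↔ ‖sc x0 ρ x‖ ≤ R + 2 := fun x => by
    rw [mem_closedBall_iff_norm, norm_sc x0 hρ, mul_le_mul_iff_right₀ hρ]
  have hχ0 : ∀ x, x ∉ closedBall x0 (ρ * (R + 2)) → χ (sc x0 ρ x) = 0 := fun x hx =>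
    image_eq_zero_of_notMem_tsupport fun h => hx ((hmem x).2 (mem_ball_zero_iff.1 (hχs h)).le)
  have hout : ∀ x, x ∉ closedBall x0 (ρ * (R + 2)) → R < ‖sc x0 ρ x‖ := fun x hx => by
    have := not_le.1 fun h => hx ((hmem x).2 h)
    linarith
  set y : P2 → R4 := fun x => ρ • T (K0 (sc x0 ρ x) - pl (sc x0 ρ x)) -
    χ (sc x0 ρ x) • (f x - f x0 - fderiv ℝ f x0 (x - x0)) with hy
  set m : P2 → R4 := fun x => T (nrm K0 (sc x0 ρ x) !₂[0, 1, 0, 0]) - ν x0 -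
    χ (sc x0 ρ x) • (ν x - ν x0) with hm
  have in1 : ∀ x, ‖sc x0 ρ x‖ < R + 1 → f x + y x = f x0 + ρ • T (K0 (sc x0 ρ x)) ∧
      ν x + m x = T (nrm K0 (sc x0 ρ x) !₂[0, 1, 0, 0]) := fun x hx => by
    have h1 : χ (sc x0 ρ x) = 1 := hχe.self_of_nhdsSet _ (mem_closedBall_zero_iff.2 hx.le)
    have h2 : ρ • T (pl (sc x0 ρ x)) = fderiv ℝ f x0 (x - x0) := by
      rw [hT2, ← map_smul, sc, smul_smul, mul_inv_cancel₀ hρ.ne', one_smul]
    simp only [hy, hm, h1, one_smul, map_sub T, smul_sub, h2]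
    constructor <;> abel
  have in2 : ∀ x, ‖sc x0 ρ x‖ < R + 1 → ∀ X,
      fderiv ℝ (fun x => f x + y x) x X = T (fderiv ℝ K0 (sc x0 ρ x) X) ∧
      fderiv ℝ (fun x => ν x + m x) x X =
        ρ⁻¹ • T (fderiv ℝ (fun y => nrm K0 y !₂[0, 1, 0, 0]) (sc x0 ρ x) X) := fun x hx X => by
    have ev := (isOpen_lt hsc.continuous.norm continuous_const).eventually_mem hx
    have e1 : (fun x => f x + y x) =ᶠ[𝓝 x] fun x => f x0 + ρ • T (K0 (sc x0 ρ x)) :=
      ev.mono fun x hx => (in1 x hx).1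
    have e2 : (fun x => ν x + m x) =ᶠ[𝓝 x] fun x => T (nrm K0 (sc x0 ρ x) !₂[0, 1, 0, 0]) :=
      ev.mono fun x hx => (in1 x hx).2
    have d1 := (((T.hasFDerivAt.comp x (((hK0.differentiable (by simp)) _).hasFDerivAt.comp x
      (sc_deriv x0 ρ x))).const_smul ρ).const_add (f x0)).fderiv
    have d2 := (T.hasFDerivAt.comp x (((hn.differentiable (by simp)) _).hasFDerivAt.comp x
      (sc_deriv x0 ρ x))).fderiv
    rw [e1.fderiv_eq, e2.fderiv_eq]
    refine ⟨(congrArg (fun A : P2 →L[ℝ] R4 => A X) d1).trans ?_,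
      (congrArg (fun A : P2 →L[ℝ] R4 => A X) d2).trans ?_⟩
    · change ρ • T (fderiv ℝ K0 (sc x0 ρ x) (ρ⁻¹ • X)) = _
      rw [map_smul, map_smul, smul_smul, mul_inv_cancel₀ hρ.ne', one_smul]
    · change T (fderiv ℝ (fun y => nrm K0 y !₂[0, 1, 0, 0]) (sc x0 ρ x) (ρ⁻¹ • X)) = _
      rw [map_smul, map_smul]
  have zs : ∀ x, x = x0 + ρ • z1 ∨ x = x0 + ρ • z2 → sc x0 ρ x = z1 ∨ sc x0 ρ x = z2 := by
    rintro x (rfl | rfl)
    · exact Or.inl (sc_add x0 hρ z1)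
    · exact Or.inr (sc_add x0 hρ z2)
  refine ⟨closedBall x0 (ρ * (R + 2)), y, m, x0 + ρ • z1, x0 + ρ • z2, isCompact_closedBall _ _,
    hρO, fun x hx => ?_, fun x hx => ?_, ?_, ?_, ?_, ?_, fun h => hz ?_, fun x hx => ?_,
    fun x hx => ?_⟩
  · simp only [hy, hχ0 x hx, out1 _ (hout x hx), sub_self, map_zero, smul_zero, zero_smul]
  · simp only [hm, hχ0 x hx, out2 _ (hout x hx), hT3, sub_self, zero_smul]
  · exact ((T.contDiff.comp ((hK0.comp hsc).sub (pl.contDiff.comp hsc))).const_smul ρ).contDiffOn.sub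
      ((hχ.comp hsc).contDiffOn.smul ((hf.sub contDiffOn_const).sub
        ((fderiv ℝ f x0).contDiff.comp (contDiff_id.sub contDiff_const)).contDiffOn))
  · exact ((T.contDiff.comp (hn.comp hsc)).contDiffOn.sub contDiffOn_const).sub
      ((hχ.comp hsc).contDiffOn.smul (hν.sub contDiffOn_const))
  · rw [hmem]
    linarith [zin _ (zs _ (Or.inl rfl))]
  · rw [hmem]
    linarith [zin _ (zs _ (Or.inr rfl))]
  · rw [← sc_add x0 hρ z1, h, sc_add x0 hρ]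
  · rcases lt_or_ge ‖sc x0 ρ x‖ (R + 1) with hA | hB
    · refine ⟨fun X Y hXY => ?_, fun h1 h2 X hX => ?_⟩
      · rw [(in2 x hA X).1, (in2 x hA Y).1] at hXY
        exact det2_pos_iff.1 (hdet _) (hT1 hXY)
      · rw [(in2 x hA X).1, (in1 x hA).2] at hX
        rcases (hzero _).1 (nrm_tangent (hdet _) (hT1 hX)) with h | h
        · exact h1 (by rw [← h, add_sc x0 hρ])
        · exact h2 (by rw [← h, add_sc x0 hρ])
    · have hB' : R < ‖sc x0 ρ x‖ := by linarith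
      have ev := (isOpen_lt continuous_const hsc.continuous.norm).eventually_mem hB'
      have e1 : (fun x => f x + y x) =ᶠ[𝓝 x]
          fun x => f x - χ (sc x0 ρ x) • (f x - f x0 - fderiv ℝ f x0 (x - x0)) :=
        ev.mono fun x hx => by
          simp only [hy, out1 _ hx, sub_self, map_zero, smul_zero]
          abel
      have e2 : ν x + m x = ν x - χ (sc x0 ρ x) • (ν x - ν x0) := by
        simp only [hm, out2 _ hB', hT3, sub_self]
        abel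
      have := (good_iff _ _ _).1 (hflat x hx)
      rw [e1.fderiv_eq, e2]
      exact ⟨this.1, fun _ _ => this.2⟩
  · have h1 := zs x hx
    have hA : ‖sc x0 ρ x‖ < R + 1 := by linarith [zin _ h1]
    refine ⟨by rw [(in1 x hA).2, (hzero _).2 h1, map_zero], ?_⟩
    have h2 := hsgn _ h1
    rw [du, dv, du, dv, (in2 x hA _).1, (in2 x hA _).1, (in2 x hA _).2, (in2 x hA _).2,
      det4_smul, hT4]
    have h3 := mul_pos (mul_pos h2 hD) (pow_pos (inv_pos.2 hρ) 2)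
    refine h3.trans_eq ?_
    simp only [du, dv]
    linear_combination (-(ρ⁻¹ ^ 2 * D * sgn b0 * det4 (fderiv ℝ K0 (sc x0 ρ x) (1, 0))
      (fderiv ℝ K0 (sc x0 ρ x) (0, 1))
      (fderiv ℝ (fun y => nrm K0 y !₂[0, 1, 0, 0]) (sc x0 ρ x) (1, 0))
      (fderiv ℝ (fun y => nrm K0 y !₂[0, 1, 0, 0]) (sc x0 ρ x) (0, 1)))) * sgn_sq b

end Vale.Agent.P205.T5Aux
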