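import Vale.Agent.P205.T3
import Vale.Agent.P205.T5Aux

/-! P205, T5: inserting a kink (BLUEPRINT, module T). -/

open scoped ContDiff InnerProductSpace Topology Manifold
open Set Filter Real

noncomputable section
namespace Vale.Agent.P205

variable {M : Type*} [TopologicalSpace M] [ChartedSpace E2 M] [IsManifold 𝓘(ℝ, E2) ∞ M]
  [T2Space M] [CompactSpace M]

omit [IsManifold 𝓘(ℝ, E2) ∞ M] [T2Space M] [CompactSpace M] in
theorem t5_dM_congr {F G : M → R4} {p : M} (h : G =ᶠ[𝓝 p] F) : dM G p = dM F p :=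
  h.mfderiv_eq

omit [T2Space M] [CompactSpace M] in
theorem t5_dM {F : M → R4} (hF : Sm F) (c : Ch M) {x : P2} (hx : x ∈ c.e.target) (Y : E2) :
    ∃ X, dM F (c.e.symm x) Y = fderiv ℝ (loc c F) x X := by
  obtain ⟨X, rfl⟩ := (dsym_bijective c hx).2 Y
  exact ⟨X, (fderiv_loc c hx (hF.mdifferentiableAt (by simp)) X).symm⟩

omit [T2Space M] [CompactSpace M] in
theorem t5_inj {F : M → R4} (hF : Sm F) (c : Ch M) {x : P2} (hx : x ∈ c.e.target) :
    Function.Injective (dM F (c.e.symm x)) ↔ Function.Injective (fderiv ℝ (loc c F) x) := by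
  rw [imm_iff hF c (c.e.map_target hx), c.e.right_inv hx, det2_pos_iff]

omit [TopologicalSpace M] [ChartedSpace E2 M] [IsManifold 𝓘(ℝ, E2) ∞ M] [T2Space M]
  [CompactSpace M] in
open Classical in
theorem t5_cnt {Z : Set M} (hZ : Z.Finite) (sg : M → Bool) (b : Bool) {p1 p2 q : M}
    (h1 : p1 ∉ Z) (h2 : p2 ∉ Z) (h12 : p1 ≠ p2) {C : Set M} (c1 : p1 ∈ C ↔ q ∈ C)
    (c2 : p2 ∈ C ↔ q ∈ C) :
    cnt (insert p1 (insert p2 Z)) (fun p => if p ∈ Z then sg p else b) b C =
        cnt Z sg b C + (if q ∈ C then 2 else 0) ∧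
      cnt (insert p1 (insert p2 Z)) (fun p => if p ∈ Z then sg p else b) (!b) C =
        cnt Z sg (!b) C := by
  have hf : {p | p ∈ Z ∧ p ∈ C ∧ sg p = b}.Finite := hZ.subset fun _ h => h.1
  constructor
  · split_ifs with hq
    · have e : {p | p ∈ insert p1 (insert p2 Z) ∧ p ∈ C ∧ (if p ∈ Z then sg p else b) = b} =
          insert p1 (insert p2 {p | p ∈ Z ∧ p ∈ C ∧ sg p = b}) := by
        ext p
        simp only [mem_ofPred_eq, mem_insert_iff]
        constructor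
        · rintro ⟨h | h | h, hc, hs⟩
          · exact Or.inl h
          · exact Or.inr (Or.inl h)
          · exact Or.inr (Or.inr ⟨h, hc, by rwa [if_pos h] at hs⟩)
        · rintro (rfl | rfl | ⟨h, hc, hs⟩)
          · exact ⟨Or.inl rfl, c1.2 hq, if_neg h1⟩
          · exact ⟨Or.inr (Or.inl rfl), c2.2 hq, if_neg h2⟩
          · exact ⟨Or.inr (Or.inr h), hc, by rwa [if_pos h]⟩
      rw [cnt, cnt, e, Set.ncard_insert_of_notMem ?_ (hf.insert _),
        Set.ncard_insert_of_notMem (fun h => h2 h.1) hf]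
      rintro (h | h)
      · exact h12 h
      · exact h1 h.1
    · rw [cnt, cnt, add_zero]
      congr 1
      ext p
      simp only [mem_ofPred_eq, mem_insert_iff]
      constructor
      · rintro ⟨rfl | rfl | h, hc, hs⟩
        · exact absurd (c1.1 hc) hq
        · exact absurd (c2.1 hc) hq
        · exact ⟨h, hc, by rwa [if_pos h] at hs⟩
      · rintro ⟨h, hc, hs⟩
        exact ⟨Or.inr (Or.inr h), hc, by rwa [if_pos h]⟩
  · rw [cnt, cnt]
    congr 1
    ext p
    simp only [mem_ofPred_eq, mem_insert_iff]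
    constructor
    · rintro ⟨rfl | rfl | h, hc, hs⟩
      · rw [if_neg h1] at hs
        simp at hs
      · rw [if_neg h2] at hs
        simp at hs
      · exact ⟨h, hc, by rwa [if_pos h] at hs⟩
    · rintro ⟨h, hc, hs⟩
      exact ⟨Or.inr (Or.inr h), hc, by rwa [if_pos h]⟩

open Classical in
theorem St.kink {F ν : M → R4} {Z : Set M} {sg : M → Bool} (h : St F ν Z sg) (q : M) (b : Bool) :
    ∃ (F' ν' : M → R4) (Z' : Set M) (sg' : M → Bool), St F' ν' Z' sg' ∧
      ∀ C : Set M, IsClopen C → cnt Z' sg' b C = cnt Z sg b C + (if q ∈ C then 2 else 0) ∧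
        cnt Z' sg' (!b) C = cnt Z sg (!b) C := by
  obtain ⟨c, hq⟩ := exists_ch q
  obtain ⟨r, hr, hrt⟩ := Metric.isOpen_iff.1 c.e.open_target _ (c.e.map_source hq)
  have hfin : (c.e '' Z).Finite := h.fin.image _
  have hO : IsOpen (Metric.ball (c.e q) r \ c.e '' Z) := Metric.isOpen_ball.sdiff hfin.isClosed
  obtain ⟨x0, hx0⟩ : (Metric.ball (c.e q) r \ c.e '' Z).Nonempty :=
    ((infinite_of_mem_nhds _ (Metric.ball_mem_nhds (c.e q) hr)).sdiff hfin).nonempty
  have hOt : Metric.ball (c.e q) r \ c.e '' Z ⊆ c.e.target := fun x hx => hrt hx.1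
  have hOZ : ∀ x ∈ Metric.ball (c.e q) r \ c.e '' Z, c.e.symm x ∉ Z := fun x hx hz =>
    hx.2 ⟨_, hz, c.e.right_inv (hOt hx)⟩
  have hg : 0 < gram3 (du (loc c F) x0) (dv (loc c F) x0) (loc c ν x0) := by
    refine (T5Aux.good_iff _ _ _).2 ⟨(t5_inj h.smF c (hOt hx0)).1 (h.imm _), fun X => ?_⟩
    rw [fderiv_loc c (hOt hx0) (h.smF.mdifferentiableAt (by simp))]
    exact h.off _ (hOZ x0 hx0) _
  obtain ⟨K, y, m, z1, z2, hK, hKO, hy0, hm0, hy, hm, hz1, hz2, hz, hgood, hzero⟩ :=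
    T5Aux.planar_kink hO hOt hx0 (h.smF.loc c) (h.smν.loc c) hg b
  have hKt : K ⊆ c.e.target := hKO.trans hOt
  have sF : Sm fun p => F p + ext c y p := h.smF.add (sm_ext c hK hKt hy0 hy)
  have sν : Sm fun p => ν p + ext c m p := h.smν.add (sm_ext c hK hKt hm0 hm)
  have lF : ∀ (G : M → R4) (w : P2 → R4), ∀ x ∈ K,
      loc c (fun p => G p + ext c w p) =ᶠ[𝓝 x] fun x => loc c G x + w x := fun G w x hx =>
    (loc_ext c w (hKt hx)).mono fun x' hx' => congrArg (fun v => loc c G x' + v) hx'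
  have oF : ∀ (G : M → R4) (w : P2 → R4), (∀ x, x ∉ K → w x = 0) → ∀ p, p ∉ c.e.symm '' K →
      (fun p => G p + ext c w p) =ᶠ[𝓝 p] G := fun G w hw p hp =>
    (ext_eventually_zero c hK hKt hw hp).mono fun p' hp' =>
      (congrArg (fun v => G p' + v) hp').trans (add_zero _)
  have hZK : ∀ p ∈ Z, p ∉ c.e.symm '' K := by
    rintro _ hp ⟨x, hx, rfl⟩
    exact hOZ x (hKO hx) hp
  have hconn : ∀ x ∈ K, ∀ C : Set M, IsClopen C → (c.e.symm x ∈ C ↔ q ∈ C) := by
    intro x hx C hC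
    have hp : IsPreconnected (c.e.symm '' Metric.ball (c.e q) r) :=
      (convex_ball _ _).isPreconnected.image _ (c.e.continuousOn_symm.mono hrt)
    have m1 : c.e.symm x ∈ c.e.symm '' Metric.ball (c.e q) r := ⟨x, (hKO hx).1, rfl⟩
    have m2 : q ∈ c.e.symm '' Metric.ball (c.e q) r :=
      ⟨_, Metric.mem_ball_self hr, c.e.left_inv hq⟩
    exact ⟨fun h1 => hp.subset_isClopen hC ⟨_, m1, h1⟩ m2,
      fun h1 => hp.subset_isClopen hC ⟨_, m2, h1⟩ m1⟩
  refine ⟨fun p => F p + ext c y p, fun p => ν p + ext c m p,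
    insert (c.e.symm z1) (insert (c.e.symm z2) Z), fun p => if p ∈ Z then sg p else b,
    ⟨sF, sν, fun p => ?_, (h.fin.insert _).insert _, fun p hp Y => ?_, fun p hp => ?_⟩,
    fun C hC => t5_cnt h.fin sg b (hOZ _ (hKO hz1)) (hOZ _ (hKO hz2))
      (fun e => hz (c.e.symm.injOn (hKt hz1) (hKt hz2) e)) (hconn _ hz1 C hC) (hconn _ hz2 C hC)⟩
  · by_cases hp : p ∈ c.e.symm '' K
    · obtain ⟨x, hx, rfl⟩ := hp
      rw [t5_inj sF c (hKt hx), (lF F y x hx).fderiv_eq]
      exact (hgood x hx).1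
    · rw [t5_dM_congr (oF F y hy0 p hp)]
      exact h.imm p
  · simp only [mem_insert_iff, not_or] at hp
    by_cases hpK : p ∈ c.e.symm '' K
    · obtain ⟨x, hx, rfl⟩ := hpK
      obtain ⟨X, hX⟩ := t5_dM sF c (hKt hx) Y
      rw [hX, (lF F y x hx).fderiv_eq]
      refine (lF ν m x hx).eq_of_nhds.trans_ne ((hgood x hx).2 ?_ ?_ X)
      · exact fun e => hp.1 (congrArg c.e.symm e)
      · exact fun e => hp.2.1 (congrArg c.e.symm e)
    · rw [t5_dM_congr (oF F y hy0 p hpK), (oF ν m hm0 p hpK).eq_of_nhds]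
      exact h.off p hp.2.2 Y
  · by_cases hpZ : p ∈ Z
    · obtain ⟨h0, c', hc', hs⟩ := h.on p hpZ
      have e1 := loc_congr c' hc' (oF F y hy0 p (hZK p hpZ))
      have e2 := loc_congr c' hc' (oF ν m hm0 p (hZK p hpZ))
      refine ⟨(oF ν m hm0 p (hZK p hpZ)).eq_of_nhds.trans h0, c', hc', ?_⟩
      rw [if_pos hpZ, (jets_congr e1).1, (jets_congr e1).2.1, (jets_congr e2).1,
        (jets_congr e2).2.1]
      exact hs
    · obtain ⟨x, hx, hxz, rfl⟩ : ∃ x ∈ K, (x = z1 ∨ x = z2) ∧ c.e.symm x = p := by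
        rcases hp with rfl | rfl | hp
        · exact ⟨z1, hz1, Or.inl rfl, rfl⟩
        · exact ⟨z2, hz2, Or.inr rfl, rfl⟩
        · exact absurd hp hpZ
      have e1 := lF F y x hx
      have e2 := lF ν m x hx
      refine ⟨e2.eq_of_nhds.trans (hzero x hxz).1, c, c.e.map_target (hKt hx), ?_⟩
      rw [if_neg hpZ, c.e.right_inv (hKt hx), (jets_congr e1).1, (jets_congr e1).2.1,
        (jets_congr e2).1, (jets_congr e2).2.1]
      exact (hzero x hxz).2

end Vale.Agent.P205
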