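import Vale.Agent.P205.T1
import Vale.Agent.P205.T2
import Vale.Agent.P205.T4
import Vale.Agent.P205.T5

/-! P205, T6: every closed surface has an immersion into four-space with a transversal field. -/

open scoped ContDiff InnerProductSpace Topology Manifold
open Set Filter Real

noncomputable section
namespace Vale.Agent.P205

variable {M : Type*} [TopologicalSpace M] [ChartedSpace E2 M] [IsManifold 𝓘(ℝ, E2) ∞ M]
  [T2Space M] [CompactSpace M]

omit [ChartedSpace E2 M] [IsManifold 𝓘(ℝ, E2) ∞ M] [T2Space M] [CompactSpace M] in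
theorem t6_mem_iff {p p0 : M} (h : p ∈ connectedComponent p0) {C : Set M} (hC : IsClopen C) :
    p ∈ C ↔ p0 ∈ C :=
  ⟨fun hp => hC.connectedComponent_subset hp (connectedComponent_eq h ▸ mem_connectedComponent),
    fun hp => hC.connectedComponent_subset hp h⟩

open Classical in
theorem t6_pair {F ν : M → R4} {Z : Set M} {sg : M → Bool} (h : St F ν Z sg) (p0 : M) (b : Bool)
    (h1 : cnt Z sg b (connectedComponent p0) ≠ 0)
    (h2 : cnt Z sg (!b) (connectedComponent p0) ≠ 0) :
    ∃ (ν' : M → R4) (Z' : Set M) (sg' : M → Bool), St F ν' Z' sg' ∧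
      ∀ (b : Bool) (C : Set M), IsClopen C →
        cnt Z' sg' b C + (if p0 ∈ C then 1 else 0) = cnt Z sg b C := by
  obtain ⟨p, hp, hpc, hpb⟩ := Set.nonempty_of_ncard_ne_zero h1
  obtain ⟨q, hq, hqc, hqb⟩ := Set.nonempty_of_ncard_ne_zero h2
  obtain ⟨ν', Z', sg', h', hc⟩ := h.pair hp hq (by rw [hpb, hqb]; cases b <;> simp)
    (connectedComponent_eq hpc ▸ hqc)
  refine ⟨ν', Z', sg', h', fun b C hC => ?_⟩
  rw [← hc b C hC, if_congr (t6_mem_iff hpc hC) rfl rfl]

omit [TopologicalSpace M] [ChartedSpace E2 M] [IsManifold 𝓘(ℝ, E2) ∞ M] [T2Space M]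
  [CompactSpace M] in
theorem t6_cnt {Z : Set M} (hZ : Z.Finite) (sg : M → Bool) (C : Set M) :
    cnt Z sg true C + cnt Z sg false C = (Z ∩ C).ncard := by
  rw [cnt, cnt, ← Set.ncard_union_eq ?_ (hZ.subset fun _ h => h.1) (hZ.subset fun _ h => h.1)]
  · congr 1
    ext p
    simp only [mem_union, mem_ofPred_eq, mem_inter_iff]
    cases sg p <;> simp
  · exact disjoint_left.2 fun p h1 h2 => by simpa [h1.2.2] using h2.2.2

theorem t6_ind (n : ℕ) : ∀ {F ν : M → R4} {Z : Set M} {sg : M → Bool}, St F ν Z sg →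
    cnt Z sg true univ + cnt Z sg false univ ≤ n →
    (∀ C : Set M, IsClopen C → Even (cnt Z sg true C + cnt Z sg false C)) →
    ∃ F ν : M → R4, Sm F ∧ Sm ν ∧ Imm F ∧ Transv F ν := by
  classical
  have := ChartedSpace.locallyConnectedSpace E2 M
  induction n using Nat.strong_induction_on with
  | _ n ih =>
  intro F ν Z sg h hn he
  rcases Z.eq_empty_or_nonempty with rfl | ⟨p, hp⟩
  · exact ⟨F, ν, h.smF, h.smν, h.imm, fun p X => h.off p (notMem_empty p) X⟩
  have hC0 : IsClopen (connectedComponent p) := isClopen_connectedComponent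
  have hp0 : p ∈ connectedComponent p := mem_connectedComponent
  have h1 : cnt Z sg (sg p) (connectedComponent p) ≠ 0 :=
    Set.ncard_ne_zero_of_mem (a := p) ⟨hp, hp0, rfl⟩ (h.fin.subset fun _ h => h.1)
  have key : ∃ (F' ν' : M → R4) (Z' : Set M) (sg' : M → Bool), St F' ν' Z' sg' ∧
      ∀ C : Set M, IsClopen C → cnt Z' sg' (sg p) C + cnt Z' sg' (!sg p) C +
        (if p ∈ C then 2 else 0) = cnt Z sg (sg p) C + cnt Z sg (!sg p) C := by
    by_cases h2 : cnt Z sg (!sg p) (connectedComponent p) = 0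
    · have h3 : 2 ≤ cnt Z sg (sg p) (connectedComponent p) := by
        obtain ⟨k, hk⟩ := he _ hC0
        revert h1 h2
        cases sg p <;> simp only [Bool.not_true, Bool.not_false] <;> omega
      obtain ⟨F1, ν1, Z1, sg1, s1, c1⟩ := h.kink p (!sg p)
      rw [Bool.not_not] at c1
      have d1 := c1 _ hC0
      rw [if_pos hp0] at d1
      obtain ⟨ν2, Z2, sg2, s2, c2⟩ := t6_pair s1 p (sg p) (by omega) (by omega)
      have d2 := c2 (sg p) _ hC0
      have d2' := c2 (!sg p) _ hC0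
      rw [if_pos hp0] at d2 d2'
      obtain ⟨ν3, Z3, sg3, s3, c3⟩ := t6_pair s2 p (sg p) (by omega) (by omega)
      refine ⟨F1, ν3, Z3, sg3, s3, fun C hC => ?_⟩
      have e1 := c1 C hC
      have e2 := c2 (sg p) C hC
      have e3 := c2 (!sg p) C hC
      have e4 := c3 (sg p) C hC
      have e5 := c3 (!sg p) C hC
      split_ifs at e1 e2 e3 e4 e5 ⊢ <;> omega
    · obtain ⟨ν2, Z2, sg2, s2, c2⟩ := t6_pair h p (sg p) h1 h2
      refine ⟨F, ν2, Z2, sg2, s2, fun C hC => ?_⟩
      have e2 := c2 (sg p) C hC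
      have e3 := c2 (!sg p) C hC
      split_ifs at e2 e3 ⊢ <;> omega
  obtain ⟨F', ν', Z', sg', s', c'⟩ := key
  have c'' : ∀ C : Set M, IsClopen C → cnt Z' sg' true C + cnt Z' sg' false C +
      (if p ∈ C then 2 else 0) = cnt Z sg true C + cnt Z sg false C := fun C hC => by
    have := c' C hC
    revert this
    cases sg p <;> simp only [Bool.not_true, Bool.not_false] <;> omega
  have e1 := c'' univ isClopen_univ
  rw [if_pos (mem_univ p)] at e1
  refine ih (cnt Z' sg' true univ + cnt Z' sg' false univ) (by omega) s' le_rfl fun C hC => ?_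
  have e2 := c'' C hC
  obtain ⟨k, hk⟩ := he C hC
  split_ifs at e2
  · exact ⟨k - 1, by omega⟩
  · exact ⟨k, by omega⟩

theorem exists_transv : ∃ F ν : M → R4, Sm F ∧ Sm ν ∧ Imm F ∧ Transv F ν := by
  obtain ⟨F, hF⟩ := exists_genImm (M := M)
  obtain ⟨ν, sg, h⟩ := hF.exists_st hF.finite_umb
  refine t6_ind _ h le_rfl fun C hC => ?_
  rw [t6_cnt hF.finite_umb]
  exact hF.even_umb hC

end Vale.Agent.P205
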