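import Vale.Agent.P205.K6
import Vale.Agent.P205.J6
import Vale.Agent.P205.T6

/-! P205: the main theorem. -/

open scoped ContDiff InnerProductSpace Topology Manifold
open Set Filter Real

noncomputable section
namespace Vale.Agent.P205

variable {M : Type*} [TopologicalSpace M] [ChartedSpace E2 M] [IsManifold 𝓘(ℝ, E2) ∞ M]
  [T2Space M] [CompactSpace M]

theorem exists_isometric_of_transv {g : Ten M} (hg : Good g) (hp : PosD g) {F0 ν0 : M → R4}
    (hF : Sm F0) (hν : Sm ν0) (hi : Imm F0) (ht : Transv F0 ν0) :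
    ∃ F : M → R4, Sm F ∧ pull F = g := by
  classical
  obtain ⟨S, F, ν, R, a, hI, ha, hg', hk⟩ := setup hg hp hF hν hi ht
  have inner : ∀ n : ℕ, n < R → ∀ F1 ν1 : M → R4, Inv S F1 ν1 →
      pull F1 = pull F + (n : ℝ) • ∑ i, prim (a i) (vco (S.c i)) → ∀ T : Finset S.I,
      ∃ F2 ν2 : M → R4, Inv S F2 ν2 ∧ pull F2 = pull F + (n : ℝ) • ∑ i, prim (a i) (vco (S.c i))
        + ∑ i ∈ T, prim (a i) (vco (S.c i)) := by
    intro n hn F1 ν1 h1 e1 T
    induction T using Finset.induction_on with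
    | empty =>
      refine ⟨F1, ν1, h1, ?_⟩
      rw [e1, Finset.sum_empty]
      funext p
      ext X Y
      exact (add_zero (_ : ℝ)).symm
    | insert l T hl ih =>
      obtain ⟨F2, ν2, h2, e2⟩ := ih
      obtain ⟨F3, ν3, h3, e3⟩ := large_step S h2 l (ha l) (by
        intro p hp'
        rw [e2]
        exact hk n hn T l p hp')
      refine ⟨F3, ν3, h3, ?_⟩
      rw [e3, e2, Finset.sum_insert hl]
      funext p
      ext X Y
      simp only [Pi.add_apply, add_apply]
      ring
  have outer : ∀ n : ℕ, n ≤ R → ∃ F1 ν1 : M → R4, Inv S F1 ν1 ∧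
      pull F1 = pull F + (n : ℝ) • ∑ i, prim (a i) (vco (S.c i)) := by
    intro n
    induction n with
    | zero =>
      intro _
      refine ⟨F, ν, hI, ?_⟩
      funext p
      ext X Y
      simp
    | succ n ih =>
      intro hn
      obtain ⟨F1, ν1, h1, e1⟩ := ih (by omega)
      obtain ⟨F2, ν2, h2, e2⟩ := inner n (by omega) F1 ν1 h1 e1 Finset.univ
      refine ⟨F2, ν2, h2, ?_⟩
      rw [e2, Nat.cast_succ]
      funext p
      ext X Y
      simp only [Pi.add_apply, Pi.smul_apply, add_apply,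
        smul_apply, smul_eq_mul]
      ring
  obtain ⟨F1, ν1, h1, e1⟩ := outer R le_rfl
  exact ⟨F1, h1.smF, by rw [e1, ← hg']⟩

theorem exists_isometric {g : Ten M} (hg : Good g) (hp : PosD g) :
    ∃ F : M → R4, Sm F ∧ pull F = g := by
  obtain ⟨F0, ν0, hF, hν, hi, ht⟩ := exists_transv (M := M)
  exact exists_isometric_of_transv hg hp hF hν hi ht

end Vale.Agent.P205
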