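import Vale.Agent.P205.MDefs
import Vale.Agent.P205.Geo

/-! P205: charts, smooth functions, bounds under change of charts. -/

open scoped ContDiff InnerProductSpace Topology Manifold
open Set Filter Real

noncomputable section
namespace Vale.Agent.P205

variable {M : Type*} [TopologicalSpace M] [ChartedSpace E2 M] [IsManifold 𝓘(ℝ, E2) ∞ M]
  {V : Type} [NormedAddCommGroup V] [NormedSpace ℝ V]

theorem man1_smAt (c : Ch M) {p : M} (hp : p ∈ c.e.source) :
    ContMDiffAt 𝓘(ℝ, E2) 𝓘(ℝ, P2) ∞ c.e p :=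
  (c.sm p hp).contMDiffAt (c.e.open_source.mem_nhds hp)

theorem man1_smAt' (c : Ch M) {x : P2} (hx : x ∈ c.e.target) :
    ContMDiffAt 𝓘(ℝ, P2) 𝓘(ℝ, E2) ∞ c.e.symm x :=
  (c.sm' x hx).contMDiffAt (c.e.open_target.mem_nhds hx)

theorem man1_at (c : Ch M) {F : M → V} {p : M} (hp : p ∈ c.e.source)
    (h : ContDiffAt ℝ ∞ (loc c F) (c.e p)) : ContMDiffAt 𝓘(ℝ, E2) 𝓘(ℝ, V) ∞ F p := by
  refine (h.comp_contMDiffAt (man1_smAt c hp)).congr_of_eventuallyEq ?_
  filter_upwards [c.e.open_source.mem_nhds hp] with q hq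
  simp only [Function.comp, loc, c.e.left_inv hq]

theorem man1_comp {g : P2 → V} {f : P2 → P2} {x : P2} {n : ℕ} (hg : ContDiffAt ℝ ∞ g (f x))
    (hf : ContDiffAt ℝ ∞ f x) {C D : ℝ} (hC : ∀ i ≤ n, ‖iteratedFDeriv ℝ i g (f x)‖ ≤ C)
    (hD : ∀ i, 1 ≤ i → i ≤ n → ‖iteratedFDeriv ℝ i f x‖ ≤ D ^ i) :
    ‖iteratedFDeriv ℝ n (g ∘ f) x‖ ≤ n.factorial * C * D ^ n := by
  have hn : (n : WithTop ℕ∞) ≤ ∞ := mod_cast le_top
  obtain ⟨t, ht, hgt⟩ := hg.contDiffOn hn (by simp)
  obtain ⟨s, hs, hfs⟩ := hf.contDiffOn hn (by simp)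
  have h1 : f x ∈ interior t := mem_interior_iff_mem_nhds.2 ht
  have h2 : x ∈ interior (s ∩ f ⁻¹' interior t) := mem_interior_iff_mem_nhds.2
    (inter_mem hs (hf.continuousAt.preimage_mem_nhds (isOpen_interior.mem_nhds h1)))
  rw [← iteratedFDerivWithin_of_isOpen n isOpen_interior h2]
  refine norm_iteratedFDerivWithin_comp_le (hgt.mono interior_subset)
    (hfs.mono (interior_subset.trans inter_subset_left)) le_rfl isOpen_interior.uniqueDiffOn
    isOpen_interior.uniqueDiffOn (fun y hy => mem_preimage.1 (interior_subset hy).2) h2 (fun i hi => ?_)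
    fun i h0 hi => ?_
  · rw [iteratedFDerivWithin_of_isOpen i isOpen_interior h1]
    exact hC i hi
  · rw [iteratedFDerivWithin_of_isOpen i isOpen_interior h2]
    exact hD i h0 hi

theorem man1_bound {f : P2 → V} {K : Set P2} (hK : IsCompact K)
    (hf : ∀ x ∈ K, ContDiffAt ℝ ∞ f x) (m : ℕ) :
    ∃ σ : ℝ, 1 ≤ σ ∧ ∀ j ≤ m, ∀ x ∈ K, ‖iteratedFDeriv ℝ j f x‖ ≤ σ := by
  obtain ⟨B, hB⟩ := hK.bddAbove_image
    (f := fun x => ∑ j ∈ Finset.range (m + 1), ‖iteratedFDeriv ℝ j f x‖)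
    (continuousOn_finsetSum _ fun j _ x hx =>
      ((hf x hx).continuousAt_iteratedFDeriv (mod_cast le_top)).norm.continuousWithinAt)
  refine ⟨max 1 B, le_max_left _ _, fun j hj x hx => le_max_of_le_right
    (le_trans ?_ (hB (mem_image_of_mem _ hx)))⟩
  exact Finset.single_le_sum (f := fun j => ‖iteratedFDeriv ℝ j f x‖) (fun _ _ => norm_nonneg _)
    (Finset.mem_range_succ_iff.2 hj)

theorem man1_cpt (c : Ch M) {K : Set P2} (hK : IsCompact K) (hKc : K ⊆ c.e.target) :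
    IsCompact (c.e.symm '' K) :=
  hK.image_of_continuousOn (c.e.continuousOn_symm.mono hKc)

theorem man1_sub (c : Ch M) {K : Set P2} (hKc : K ⊆ c.e.target) : c.e.symm '' K ⊆ c.e.source :=
  image_subset_iff.2 fun _ hx => c.e.map_target (hKc hx)

theorem exists_ch (p : M) : ∃ c : Ch M, p ∈ c.e.source := by
  let L : E2 ≃L[ℝ] P2 :=
    (EuclideanSpace.equiv (Fin 2) ℝ).trans (ContinuousLinearEquiv.finTwoArrow ℝ ℝ)
  exact ⟨⟨(chartAt E2 p).transHomeomorph L.toHomeomorph,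
    L.contDiff.contMDiff.comp_contMDiffOn contMDiffOn_chart,
    contMDiffOn_chart_symm.comp L.symm.contDiff.contMDiff.contMDiffOn fun _ h => h⟩,
    mem_chart_source E2 p⟩

/-- composition of a chart with a local diffeomorphism of the plane -/
theorem Ch.exists_comp (c : Ch M) (ψ : OpenPartialHomeomorph P2 P2)
    (h1 : ContDiffOn ℝ ∞ ψ ψ.source) (h2 : ContDiffOn ℝ ∞ ψ.symm ψ.target) :
    ∃ c' : Ch M, c'.e = c.e.trans ψ := by
  exact ⟨⟨c.e.trans ψ, h1.contMDiffOn.comp (c.sm.mono inter_subset_left) fun _ h => h.2,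
    c.sm'.comp (h2.contMDiffOn.mono inter_subset_left) fun _ h => h.2⟩, rfl⟩

/-- composition of a chart with a global diffeomorphism of the plane -/
theorem Ch.exists_comp_homeo (c : Ch M) (ψ : P2 ≃ₜ P2) (h1 : ContDiff ℝ ∞ ψ)
    (h2 : ContDiff ℝ ∞ ψ.symm) :
    ∃ c' : Ch M, c'.e.source = c.e.source ∧ c'.e.target = ψ '' c.e.target ∧
      (∀ p, c'.e p = ψ (c.e p)) ∧ ∀ x, c'.e.symm x = c.e.symm (ψ.symm x) := by
  exact ⟨⟨c.e.transHomeomorph ψ, h1.contMDiff.comp_contMDiffOn c.sm,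
    c.sm'.comp h2.contMDiff.contMDiffOn fun _ h => h⟩, rfl,
    (ψ.toEquiv.image_eq_preimage_symm _).symm, fun _ => rfl, fun _ => rfl⟩

theorem Sm.loc {F : M → V} (hF : Sm F) (c : Ch M) : ContDiffOn ℝ ∞ (loc c F) c.e.target := by
  exact contMDiffOn_iff_contDiffOn.1 (ContMDiff.comp_contMDiffOn hF c.sm')

theorem Sm.locAt {F : M → V} (hF : Sm F) (c : Ch M) {x : P2} (hx : x ∈ c.e.target) :
    ContDiffAt ℝ ∞ (Vale.Agent.P205.loc c F) x := by
  exact (hF.loc c).contDiffAt (c.e.open_target.mem_nhds hx)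

theorem sm_of_loc {F : M → V}
    (h : ∀ p, ∃ c : Ch M, p ∈ c.e.source ∧ ContDiffAt ℝ ∞ (loc c F) (c.e p)) : Sm F := by
  intro p
  obtain ⟨c, hp, hc⟩ := h p
  exact man1_at c hp hc

theorem Sm.continuous {F : M → V} (hF : Sm F) : Continuous F := by
  exact ContMDiff.continuous hF

theorem sm_const (y : V) : Sm (fun _ : M => y) := by
  exact contMDiff_const

theorem Sm.add {F G : M → V} (hF : Sm F) (hG : Sm G) : Sm (fun p => F p + G p) := by
  exact ContMDiff.add hF hG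

theorem Sm.sub {F G : M → V} (hF : Sm F) (hG : Sm G) : Sm (fun p => F p - G p) := by
  exact ContMDiff.sub hF hG

theorem Sm.smul {a : M → ℝ} {F : M → V} (ha : Sm a) (hF : Sm F) : Sm (fun p => a p • F p) := by
  exact ContMDiff.smul ha hF

theorem Sm.mul {a b : M → ℝ} (ha : Sm a) (hb : Sm b) : Sm (fun p => a p * b p) := by
  exact ha.smul hb

theorem Sm.sum {J : Type*} (s : Finset J) {F : J → M → V} (h : ∀ j ∈ s, Sm (F j)) :
    Sm (fun p => ∑ j ∈ s, F j p) := by
  classical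
  induction s using Finset.induction_on with
  | empty => simpa only [Finset.sum_empty] using sm_const 0
  | insert j s hj ih =>
    simpa only [Finset.sum_insert hj] using (h j (Finset.mem_insert_self _ _)).add
      (ih fun i hi => h i (Finset.mem_insert_of_mem hi))

theorem Sm.prod {J : Type*} (s : Finset J) {a : J → M → ℝ} (h : ∀ j ∈ s, Sm (a j)) :
    Sm (fun p => ∏ j ∈ s, a j p) := by
  classical
  induction s using Finset.induction_on with
  | empty => simpa only [Finset.prod_empty] using sm_const 1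
  | insert j s hj ih =>
    simpa only [Finset.prod_insert hj] using (h j (Finset.mem_insert_self _ _)).mul
      (ih fun i hi => h i (Finset.mem_insert_of_mem hi))

theorem Sm.comp {W : Type} [NormedAddCommGroup W] [NormedSpace ℝ W] {F : M → V} (hF : Sm F)
    {Φ : V → W} (hΦ : ∀ p, ContDiffAt ℝ ∞ Φ (F p)) : Sm (fun p => Φ (F p)) := by
  exact fun p => (hΦ p).comp_contMDiffAt (hF p)

theorem Sm.pair {W : Type} [NormedAddCommGroup W] [NormedSpace ℝ W] {F : M → V} {G : M → W}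
    (hF : Sm F) (hG : Sm G) : Sm (fun p => (F p, G p)) := by
  exact ContMDiff.prodMk_space hF hG

theorem contDiffAt_trans (c c' : Ch M) {p : M} (hp : p ∈ c.e.source) (hp' : p ∈ c'.e.source) :
    ContDiffAt ℝ ∞ (trans c c') (c.e p) := by
  refine contMDiffAt_iff_contDiffAt.1 (ContMDiffAt.comp (I' := 𝓘(ℝ, E2)) _ ?_
    (man1_smAt' c (c.e.map_source hp)))
  rw [c.e.left_inv hp]
  exact man1_smAt c' hp'

theorem trans_apply (c c' : Ch M) {p : M} (hp : p ∈ c.e.source) :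
    trans c c' (c.e p) = c'.e p := by
  rw [trans, c.e.left_inv hp]

theorem loc_eventuallyEq (c c' : Ch M) (F : M → V) {p : M} (hp : p ∈ c.e.source)
    (hp' : p ∈ c'.e.source) : loc c F =ᶠ[𝓝 (c.e p)] loc c' F ∘ trans c c' := by
  have h := c.e.continuousAt_symm (c.e.map_source hp)
  rw [ContinuousAt, c.e.left_inv hp] at h
  filter_upwards [h (c'.e.open_source.mem_nhds hp')] with x hx
  exact congrArg F (c'.e.left_inv hx).symm

theorem loc_congr (c : Ch M) {F G : M → V} {p : M} (hp : p ∈ c.e.source) (h : G =ᶠ[𝓝 p] F) :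
    loc c G =ᶠ[𝓝 (c.e p)] loc c F := by
  have h' := c.e.continuousAt_symm (c.e.map_source hp)
  rw [ContinuousAt, c.e.left_inv hp] at h'
  exact h'.eventually h

theorem tr_self (c : Ch M) {p : M} (hp : p ∈ c.e.source) (X : P2) : tr c c p X = X := by
  have h : trans c c =ᶠ[𝓝 (c.e p)] id := by
    filter_upwards [c.e.open_target.mem_nhds (c.e.map_source hp)] with x hx
    exact c.e.right_inv hx
  rw [tr, h.fderiv_eq, fderiv_id]
  rfl

theorem tr_tr (c c' c'' : Ch M) {p : M} (hp : p ∈ c.e.source) (hp' : p ∈ c'.e.source)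
    (hp'' : p ∈ c''.e.source) (X : P2) : tr c' c'' p (tr c c' p X) = tr c c'' p X := by
  have h : trans c c'' =ᶠ[𝓝 (c.e p)] trans c' c'' ∘ trans c c' :=
    loc_eventuallyEq c c' c''.e hp hp'
  have h1 := (contDiffAt_trans c' c'' hp' hp'').differentiableAt (by simp)
  rw [← trans_apply c c' hp] at h1
  rw [tr, tr, tr, h.fderiv_eq, fderiv_comp _ h1
    ((contDiffAt_trans c c' hp hp').differentiableAt (by simp)), trans_apply c c' hp]
  rfl

theorem tr_ne_zero (c c' : Ch M) {p : M} (hp : p ∈ c.e.source) (hp' : p ∈ c'.e.source) {X : P2}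
    (hX : X ≠ 0) : tr c c' p X ≠ 0 := by
  intro h
  have := tr_tr c c' c hp hp' hp X
  rw [h, map_zero, tr_self c hp] at this
  exact hX this.symm

theorem continuousOn_tr (c c' : Ch M) : ContinuousOn (tr c c') (c.e.source ∩ c'.e.source) := by
  intro p hp
  exact (((contDiffAt_trans c c' hp.1 hp.2).fderiv_right (m := 0) (by simp)).continuousAt.comp
    (c.e.continuousAt hp.1)).continuousWithinAt

theorem ext_apply (c : Ch M) (y : P2 → V) {p : M} (hp : p ∈ c.e.source) :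
    ext c y p = y (c.e p) := by
  exact indicator_of_mem hp _

theorem loc_ext (c : Ch M) (y : P2 → V) {x : P2} (hx : x ∈ c.e.target) :
    loc c (ext c y) =ᶠ[𝓝 x] y := by
  filter_upwards [c.e.open_target.mem_nhds hx] with z hz
  rw [loc, ext_apply c y (c.e.map_target hz), c.e.right_inv hz]

theorem ext_eventually_zero [T2Space M] (c : Ch M) {y : P2 → V} {K : Set P2} (hK : IsCompact K)
    (hKc : K ⊆ c.e.target) (hy : ∀ x, x ∉ K → y x = 0) {p : M} (hp : p ∉ c.e.symm '' K) :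
    ext c y =ᶠ[𝓝 p] fun _ => 0 := by
  filter_upwards [(man1_cpt c hK hKc).isClosed.isOpen_compl.mem_nhds hp] with q hq
  by_cases h : q ∈ c.e.source
  · rw [ext_apply c y h]
    exact hy _ fun h' => hq ⟨_, h', c.e.left_inv h⟩
  · exact indicator_of_notMem h _

theorem sm_ext [T2Space M] (c : Ch M) {y : P2 → V} {K : Set P2} (hK : IsCompact K)
    (hKc : K ⊆ c.e.target) (hy : ∀ x, x ∉ K → y x = 0) (hs : ContDiffOn ℝ ∞ y c.e.target) :
    Sm (ext c y) := by
  intro p
  by_cases h : p ∈ c.e.source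
  · exact man1_at c h ((hs.contDiffAt (c.e.open_target.mem_nhds
      (c.e.map_source h))).congr_of_eventuallyEq (loc_ext c y (c.e.map_source h)))
  · exact contMDiffAt_const.congr_of_eventuallyEq
      (ext_eventually_zero c hK hKc hy fun h' => h (man1_sub c hKc h'))

/-- cutting off a function given in a chart -/
theorem contDiff_cut (c : Ch M) {χ : P2 → ℝ} (hχ : ContDiff ℝ ∞ χ) (hs : tsupport χ ⊆ c.e.target)
    {f : P2 → V} (hf : ContDiffOn ℝ ∞ f c.e.target) : ContDiff ℝ ∞ (fun x => χ x • f x) := by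
  refine contDiff_iff_contDiffAt.2 fun x => ?_
  by_cases h : x ∈ tsupport χ
  · exact hχ.contDiffAt.smul (hf.contDiffAt (c.e.open_target.mem_nhds (hs h)))
  · refine (contDiffAt_const (c := (0 : V))).congr_of_eventuallyEq ?_
    filter_upwards [notMem_tsupport_iff_eventuallyEq.1 h] with y hy
    rw [hy, Pi.zero_apply, zero_smul]

theorem exists_cutoff {K O : Set P2} (hK : IsCompact K) (hO : IsOpen O) (hKO : K ⊆ O) :
    ∃ χ : P2 → ℝ, ContDiff ℝ ∞ χ ∧ HasCompactSupport χ ∧ tsupport χ ⊆ O ∧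
      (∀ x, 0 ≤ χ x ∧ χ x ≤ 1) ∧ ∀ᶠ x in 𝓝ˢ K, χ x = 1 := by
  obtain ⟨L, hL, h1, h2⟩ := exists_compact_between hK hO hKO
  obtain ⟨f, f1, f2, f3⟩ :=
    exists_contMDiffMap_one_nhds_of_subset_interior (n := ⊤) 𝓘(ℝ, P2) hK.isClosed h1
  have hs : tsupport f ⊆ L := closure_minimal (fun x hx => by_contra fun h => hx (f2 x h))
    hL.isClosed
  exact ⟨f, f.contMDiff.contDiff, hL.of_isClosed_subset (isClosed_tsupport _) hs, hs.trans h2,
    f3, f1⟩

theorem exists_cutoffM [T2Space M] [CompactSpace M] {K O : Set M} (hK : IsClosed K)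
    (hO : IsOpen O) (hKO : K ⊆ O) :
    ∃ χ : M → ℝ, Sm χ ∧ tsupport χ ⊆ O ∧ (∀ p, 0 ≤ χ p ∧ χ p ≤ 1) ∧ ∀ᶠ p in 𝓝ˢ K, χ p = 1 := by
  obtain ⟨u, hu, h1, h2⟩ := normal_exists_closure_subset hK hO hKO
  obtain ⟨f, f1, f2, f3⟩ :=
    exists_contMDiffMap_one_nhds_of_subset_interior (n := ⊤) 𝓘(ℝ, E2) hK
      (h1.trans hu.interior_eq.ge)
  have hs : Function.support f ⊆ u := fun x hx => by_contra fun h => hx (f2 x h)
  exact ⟨f, f.contMDiff, (closure_mono hs).trans h2, f3, f1⟩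

/-- pointwise bounds under a change of charts, uniform on compact sets -/
theorem trans_bound (c c' : Ch M) {K : Set M} (hK : IsCompact K) (hc : K ⊆ c.e.source)
    (hc' : K ⊆ c'.e.source) (m : ℕ) : ∃ C : ℝ, 0 ≤ C ∧ ∀ (F : M → V) (σ : ℝ), ∀ p ∈ K,
      ContDiffAt ℝ ∞ (loc c F) (c.e p) → (∀ j ≤ m, ‖iteratedFDeriv ℝ j (loc c F) (c.e p)‖ ≤ σ) →
      ∀ j ≤ m, ‖iteratedFDeriv ℝ j (loc c' F) (c'.e p)‖ ≤ C * σ := by
  obtain ⟨D, hD1, hD⟩ := man1_bound (f := trans c' c)
    (hK.image_of_continuousOn (c'.e.continuousOn.mono hc'))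
    (forall_mem_image.2 fun p hp => contDiffAt_trans c' c (hc' hp) (hc hp)) m
  have D0 : 0 ≤ D := zero_le_one.trans hD1
  refine ⟨m.factorial * D ^ m, by positivity, fun F σ p hp hF hσ j hj => ?_⟩
  have σ0 : 0 ≤ σ := (norm_nonneg _).trans (hσ 0 m.zero_le)
  rw [← trans_apply c' c (hc' hp)] at hF hσ
  rw [((loc_eventuallyEq c' c F (hc' hp) (hc hp)).iteratedFDeriv ℝ j).self_of_nhds]
  refine (man1_comp hF (contDiffAt_trans c' c (hc' hp) (hc hp)) (fun i hi => hσ i (hi.trans hj))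
    fun i h0 hi => (hD i (hi.trans hj) _ (mem_image_of_mem _ hp)).trans
      (le_self_pow₀ hD1 (by omega))).trans ?_
  rw [mul_right_comm]
  gcongr

/-- the same with a different bound at each point -/
theorem ext_bound [T2Space M] (c c' : Ch M) {K K' : Set P2} (hK : IsCompact K)
    (hKc : K ⊆ c.e.target) (hK' : IsCompact K') (hKc' : K' ⊆ c'.e.target) (m : ℕ) :
    ∃ C : ℝ, 0 ≤ C ∧ ∀ (y : P2 → V), ContDiffOn ℝ ∞ y c.e.target → (∀ x, x ∉ K → y x = 0) →
      ∀ x ∈ K', ∀ σ : ℝ, 0 ≤ σ →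
        (c'.e.symm x ∈ c.e.source →
          ∀ j ≤ m, ‖iteratedFDeriv ℝ j y (c.e (c'.e.symm x))‖ ≤ σ) →
        ∀ j ≤ m, ‖iteratedFDeriv ℝ j (loc c' (ext c y)) x‖ ≤ C * σ := by
  obtain ⟨C, C0, hC⟩ := trans_bound (V := V) c c'
    ((man1_cpt c hK hKc).inter (man1_cpt c' hK' hKc'))
    (inter_subset_left.trans (man1_sub c hKc)) (inter_subset_right.trans (man1_sub c' hKc')) m
  refine ⟨C, C0, fun y hy hy0 x hx σ σ0 hσ j hj => ?_⟩
  have hx' := c'.e.right_inv (hKc' hx)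
  by_cases h : c'.e.symm x ∈ c.e.symm '' K
  · have hs := man1_sub c hKc h
    have e := loc_ext c y (c.e.map_source hs)
    have := hC (ext c y) σ _ ⟨h, mem_image_of_mem _ hx⟩
      ((hy.contDiffAt (c.e.open_target.mem_nhds (c.e.map_source hs))).congr_of_eventuallyEq e)
      (fun i hi => by rw [(e.iteratedFDeriv ℝ i).self_of_nhds]; exact hσ hs i hi) j hj
    rwa [hx'] at this
  · have e := loc_congr c' (c'.e.map_target (hKc' hx)) (ext_eventually_zero c hK hKc hy0 h)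
    rw [hx'] at e
    have e' : loc c' (fun _ => (0 : V)) = fun _ => 0 := rfl
    rw [(e.iteratedFDeriv ℝ j).self_of_nhds, e', iteratedFDeriv_fun_zero, Pi.zero_apply, norm_zero]
    positivity

theorem exists_LB {F : M → V} (hF : Sm F) (c : Ch M) {K : Set P2} (hK : IsCompact K)
    (hKc : K ⊆ c.e.target) (m : ℕ) : ∃ σ : ℝ, 0 ≤ σ ∧ LB c K m F σ := by
  obtain ⟨σ, h1, h2⟩ := man1_bound hK (fun x hx => hF.locAt c (hKc hx)) m
  exact ⟨σ, zero_le_one.trans h1, h2⟩

theorem LB.add {F G : M → V} (hF : Sm F) (hG : Sm G) {c : Ch M} {K : Set P2}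
    (hKc : K ⊆ c.e.target) {m : ℕ} {σ τ : ℝ} (h1 : LB c K m F σ) (h2 : LB c K m G τ) :
    LB c K m (fun p => F p + G p) (σ + τ) := by
  intro j hj x hx
  have e : loc c (fun p => F p + G p) = loc c F + loc c G := rfl
  rw [e, iteratedFDeriv_add_apply ((hF.locAt c (hKc hx)).of_le (mod_cast le_top))
    ((hG.locAt c (hKc hx)).of_le (mod_cast le_top))]
  exact (norm_add_le _ _).trans (add_le_add (h1 j hj x hx) (h2 j hj x hx))

theorem LB.const_smul {F : M → V} (hF : Sm F) {c : Ch M} {K : Set P2}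
    (hKc : K ⊆ c.e.target) {m : ℕ} {σ : ℝ} (h1 : LB c K m F σ) (s : ℝ) :
    LB c K m (fun p => s • F p) (|s| * σ) := by
  intro j hj x hx
  have e : loc c (fun p => s • F p) = s • loc c F := rfl
  rw [e, iteratedFDeriv_const_smul_apply ((hF.locAt c (hKc hx)).of_le (mod_cast le_top)),
    norm_smul]
  exact mul_le_mul_of_nonneg_left (h1 j hj x hx) (abs_nonneg s)

/-- finitely many charts with compact pieces control every chart on compact sets -/
theorem cover_bound [T2Space M] {J : Type} [Finite J] (d : J → Ch M) (K : J → Set P2)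
    (hK : ∀ j, IsCompact (K j) ∧ K j ⊆ (d j).e.target)
    (hcov : ∀ p, ∃ j, p ∈ (d j).e.source ∧ (d j).e p ∈ K j) (c : Ch M) {K' : Set P2}
    (hK' : IsCompact K') (hKc : K' ⊆ c.e.target) (m : ℕ) :
    ∃ C : ℝ, 0 ≤ C ∧ ∀ (F : M → V) (σ : ℝ), Sm F → (∀ j, LB (d j) (K j) m F σ) →
      LB c K' m F (C * σ) := by
  choose C C0 hC using fun j => trans_bound (V := V) (d j) c
    ((man1_cpt (d j) (hK j).1 (hK j).2).inter (man1_cpt c hK' hKc))
    (inter_subset_left.trans (man1_sub _ (hK j).2)) (inter_subset_right.trans (man1_sub c hKc)) m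
  obtain ⟨B, hB⟩ := (finite_range C).bddAbove
  refine ⟨max B 0, le_max_right _ _, fun F σ hF hσ i hi x hx => ?_⟩
  obtain ⟨j, h1, h2⟩ := hcov (c.e.symm x)
  have := hC j F σ _ ⟨⟨_, h2, (d j).e.left_inv h1⟩, mem_image_of_mem _ hx⟩
    (hF.locAt _ ((d j).e.map_source h1)) (fun l hl => hσ j l hl _ h2) i hi
  rw [c.e.right_inv (hKc hx)] at this
  exact this.trans (mul_le_mul_of_nonneg_right (le_max_of_le_left (hB (mem_range_self j)))
    ((norm_nonneg _).trans (hσ j 0 m.zero_le _ h2)))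

/-- a compact surface is covered by compact pieces of finitely many charts -/
theorem exists_cover [T2Space M] [CompactSpace M] : ∃ (n : ℕ) (d : Fin n → Ch M)
    (K : Fin n → Set P2), (∀ j, IsCompact (K j) ∧ K j ⊆ (d j).e.target) ∧
      ∀ p, ∃ j, p ∈ (d j).e.source ∧ (d j).e p ∈ interior (K j) := by
  choose c hc using exists_ch (M := M)
  choose K h1 h2 h3 using fun p => exists_compact_subset (c p).e.open_target
    ((c p).e.map_source (hc p))
  obtain ⟨t, ht⟩ := finite_cover_nhds (U := fun p => (c p).e.source ∩ (c p).e ⁻¹' interior (K p))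
    fun p => ((c p).e.isOpen_inter_preimage isOpen_interior).mem_nhds ⟨hc p, h2 p⟩
  refine ⟨t.card, fun j => c (t.equivFin.symm j), fun j => K (t.equivFin.symm j),
    fun j => ⟨h1 _, h3 _⟩, fun p => ?_⟩
  obtain ⟨q, hq, hp⟩ := mem_iUnion₂.1 (ht.ge (mem_univ p))
  exact ⟨t.equivFin ⟨q, hq⟩, by simp only [Equiv.symm_apply_apply]; exact hp⟩

end Vale.Agent.P205
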