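import Vale.Agent.P205.Man1

/-! P205: tensors, induced metrics, intrinsic second fundamental form. -/

open scoped ContDiff InnerProductSpace Topology Manifold
open Set Filter Real

noncomputable section
namespace Vale.Agent.P205

variable {M : Type*} [TopologicalSpace M] [ChartedSpace E2 M] [IsManifold 𝓘(ℝ, E2) ∞ M]

theorem man2_pos {a b : ℝ} (ha : 0 < a) (h : 0 < a * b) : 0 < b :=
  (mul_pos_iff_of_pos_left ha).1 h

theorem man2_mdiff (c : Ch M) : c.e.MDifferentiable 𝓘(ℝ, E2) 𝓘(ℝ, P2) :=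
  ⟨c.sm.mdifferentiableOn (by simp), c.sm'.mdifferentiableOn (by simp)⟩

theorem man2_md (c : Ch M) {p : M} (hp : p ∈ c.e.source) :
    MDifferentiableAt 𝓘(ℝ, E2) 𝓘(ℝ, P2) c.e p := (man2_mdiff c).mdifferentiableAt hp

theorem man2_md' (c : Ch M) {x : P2} (hx : x ∈ c.e.target) :
    MDifferentiableAt 𝓘(ℝ, P2) 𝓘(ℝ, E2) c.e.symm x := (man2_mdiff c).mdifferentiableAt_symm hx

theorem man2_smd {V : Type} [NormedAddCommGroup V] [NormedSpace ℝ V] {F : M → V} (hF : Sm F)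
    (p : M) : MDifferentiableAt 𝓘(ℝ, E2) 𝓘(ℝ, V) F p := (hF p).mdifferentiableAt (by simp)

theorem man2_sec (c : Ch M) {x : P2} (hx : x ∈ c.e.target) (X : P2) :
    ContMDiffAt 𝓘(ℝ, P2) (𝓘(ℝ, E2).prod 𝓘(ℝ, E2)) ∞
      (fun y => (Bundle.TotalSpace.mk' E2 (c.e.symm y) (dsym c y X) :
        TangentBundle 𝓘(ℝ, E2) M)) x := by
  have h1 := c.sm'.contMDiffOn_tangentMapWithin (m := ∞) (by simp)
    c.e.open_target.uniqueMDiffOn
  have h2 : ContMDiff 𝓘(ℝ, P2) 𝓘(ℝ, P2).tangent ∞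
      (fun y : P2 => (Bundle.TotalSpace.mk' P2 y X : TangentBundle 𝓘(ℝ, P2) P2)) :=
    (contMDiff_vectorSpace_iff_contDiff (V := fun _ => X)).2 contDiff_const
  have h3 := (h1.comp h2.contMDiffOn (s := c.e.target) fun y hy => hy).contMDiffAt
    (c.e.open_target.mem_nhds hx)
  refine h3.congr_of_eventuallyEq ?_
  filter_upwards [c.e.open_target.mem_nhds hx] with y hy
  simp only [Function.comp_apply, tangentMapWithin, dsym]
  rw [mfderivWithin_of_isOpen c.e.open_target hy]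
  rfl

theorem man2_quad_pos {E F G : ℝ} {Z : P2} (h1 : 0 < E) (h2 : 0 < E * G - F ^ 2) (hZ : Z ≠ 0) :
    0 < Z.1 * Z.1 * E + (Z.1 * Z.2 + Z.2 * Z.1) * F + Z.2 * Z.2 * G := by
  by_cases h : Z.2 = 0
  · have h3 : Z.1 ≠ 0 := fun h0 => hZ (Prod.ext h0 h)
    rw [h]
    nlinarith [mul_pos (mul_self_pos.2 h3) h1]
  · refine man2_pos h1 ?_
    nlinarith [mul_pos (mul_self_pos.2 h) h2, sq_nonneg (E * Z.1 + F * Z.2)]

theorem man2_quad_small {E F G B e f g σ : ℝ} (h1 : 0 < E) (h2 : 0 < E * G - F ^ 2)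
    (hB : (E + G) / (E * G - F ^ 2) ≤ |B|) (he : |e| ≤ σ) (hf : |f| ≤ σ) (hg : |g| ≤ σ)
    (a b : ℝ) : |a * a * e + (a * b + b * a) * f + b * b * g| ≤
      (2 * |B| + 1) * σ * (a * a * E + (a * b + b * a) * F + b * b * G) := by
  have hσ : 0 ≤ σ := (abs_nonneg _).trans he
  have hG : 0 < G := by
    refine man2_pos h1 ?_
    nlinarith [sq_nonneg F]
  set q := a * a * E + (a * b + b * a) * F + b * b * G with hq
  have k1 : (E * G - F ^ 2) * (a ^ 2 + b ^ 2) ≤ (E + G) * q := by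
    rw [hq]
    nlinarith [sq_nonneg (E * a + F * b), sq_nonneg (F * a + G * b)]
  have hq0 : 0 ≤ q := by
    refine nonneg_of_mul_nonneg_right ?_ (add_pos h1 hG)
    exact (mul_nonneg h2.le (by positivity)).trans k1
  have k2 : a ^ 2 + b ^ 2 ≤ |B| * q := by
    rw [div_le_iff₀ h2] at hB
    refine le_of_mul_le_mul_left (k1.trans ?_) h2
    nlinarith [mul_le_mul_of_nonneg_right hB hq0]
  have k3 : |a * a * e + (a * b + b * a) * f + b * b * g| ≤ 2 * σ * (a ^ 2 + b ^ 2) := by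
    have e1 := abs_le.1 he
    have e2 := abs_le.1 hf
    have e3 := abs_le.1 hg
    have m1 := mul_nonneg (sq_nonneg (a + b)) (sub_nonneg.2 e2.2)
    have m2 := mul_nonneg (sq_nonneg (a - b)) (sub_nonneg.2 e2.1)
    have m3 := mul_nonneg (sq_nonneg (a - b)) (sub_nonneg.2 e2.2)
    have m4 := mul_nonneg (sq_nonneg (a + b)) (sub_nonneg.2 e2.1)
    have m5 := mul_nonneg (sq_nonneg a) (sub_nonneg.2 e1.1)
    have m6 := mul_nonneg (sq_nonneg a) (sub_nonneg.2 e1.2)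
    have m7 := mul_nonneg (sq_nonneg b) (sub_nonneg.2 e3.1)
    have m8 := mul_nonneg (sq_nonneg b) (sub_nonneg.2 e3.2)
    exact abs_le.2 ⟨by nlinarith, by nlinarith⟩
  refine k3.trans ?_
  nlinarith [mul_le_mul_of_nonneg_left k2 hσ, mul_nonneg hσ hq0]

theorem fderiv_loc {V : Type} [NormedAddCommGroup V] [NormedSpace ℝ V] (c : Ch M) {F : M → V}
    {x : P2} (hx : x ∈ c.e.target) (hF : MDifferentiableAt 𝓘(ℝ, E2) 𝓘(ℝ, V) F (c.e.symm x))
    (X : P2) : fderiv ℝ (loc c F) x X = dM F (c.e.symm x) (dsym c x X) := by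
  have h := mfderiv_comp x hF (man2_md' c hx)
  rw [mfderiv_eq_fderiv] at h
  exact congrArg (fun L : P2 →L[ℝ] V => L X) h

theorem dsym_bijective (c : Ch M) {x : P2} (hx : x ∈ c.e.target) :
    Function.Bijective (dsym c x) := by
  exact (man2_mdiff c).symm.mfderiv_bijective hx

theorem dsym_tr (c c' : Ch M) {p : M} (hp : p ∈ c.e.source) (hp' : p ∈ c'.e.source) (X : P2) :
    dsym c' (c'.e p) (tr c c' p X) = dsym c (c.e p) X := by
  have hx := c.e.map_source hp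
  have hp2 : c.e.symm (c.e p) ∈ c'.e.source := by rwa [c.e.left_inv hp]
  have h1 : tr c c' p X = dM c'.e (c.e.symm (c.e p)) (dsym c (c.e p) X) :=
    fderiv_loc c (F := c'.e) hx (man2_md c' hp2) X
  rw [c.e.left_inv hp] at h1
  rw [h1]
  exact congrArg (fun L : E2 →L[ℝ] E2 => L (dsym c (c.e p) X))
    ((man2_mdiff c').symm_comp_deriv hp')

theorem cmp_trans (c c' : Ch M) (h : Ten M) {p : M} (hp : p ∈ c.e.source) (hp' : p ∈ c'.e.source)
    (X Y : P2) : cmp c h (c.e p) X Y = cmp c' h (c'.e p) (tr c c' p X) (tr c c' p Y) := by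
  rw [cmp, cmp, dsym_tr c c' hp hp', dsym_tr c c' hp hp', c.e.left_inv hp, c'.e.left_inv hp']

theorem cmp_add (c : Ch M) (h h' : Ten M) (x X Y : P2) :
    cmp c (h + h') x X Y = cmp c h x X Y + cmp c h' x X Y := by
  rfl

theorem cmp_sub (c : Ch M) (h h' : Ten M) (x X Y : P2) :
    cmp c (h - h') x X Y = cmp c h x X Y - cmp c h' x X Y := by
  rfl

theorem cmp_smul (c : Ch M) (s : ℝ) (h : Ten M) (x X Y : P2) :
    cmp c (s • h) x X Y = s * cmp c h x X Y := by
  rfl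

theorem cmp_sum {J : Type*} (s : Finset J) (c : Ch M) (h : J → Ten M) (x X Y : P2) :
    cmp c (∑ j ∈ s, h j) x X Y = ∑ j ∈ s, cmp c (h j) x X Y := by
  simp only [cmp, Finset.sum_apply, sum_apply]

theorem cmp_expand (c : Ch M) {h : Ten M} (hs : Symm h) (x X Y : P2) :
    cmp c h x X Y = X.1 * Y.1 * cE c h x + (X.1 * Y.2 + X.2 * Y.1) * cF c h x
      + X.2 * Y.2 * cG c h x := by
  have h1 : ∀ Z : P2, dsym c x Z = Z.1 • dsym c x (1, 0) + Z.2 • dsym c x (0, 1) := fun Z => by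
    conv_lhs => rw [surf_split Z]
    rw [map_add, map_smul, map_smul]
  rw [cmp, cE, cF, cG, cmp, cmp, cmp, h1 X, h1 Y]
  simp only [map_add, map_smul, add_apply, smul_apply,
    smul_eq_mul]
  rw [hs _ (dsym c x (0, 1)) (dsym c x (1, 0))]
  ring

theorem ten_ext (c : Ch M) {h h' : Ten M} {p : M} (hp : p ∈ c.e.source)
    (H : ∀ X Y, cmp c h (c.e p) X Y = cmp c h' (c.e p) X Y) : h p = h' p := by
  have hsur := (dsym_bijective c (c.e.map_source hp)).2
  refine ContinuousLinearMap.ext fun A => ContinuousLinearMap.ext fun B => ?_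
  obtain ⟨X, rfl⟩ := hsur A
  obtain ⟨Y, rfl⟩ := hsur B
  have h1 := H X Y
  rwa [cmp, cmp, c.e.left_inv hp] at h1

theorem ten_ext' (c : Ch M) {h h' : Ten M} (hs : Symm h) (hs' : Symm h') {p : M}
    (hp : p ∈ c.e.source) (hE : cE c h (c.e p) = cE c h' (c.e p))
    (hF : cF c h (c.e p) = cF c h' (c.e p)) (hG : cG c h (c.e p) = cG c h' (c.e p)) :
    h p = h' p := by
  refine ten_ext c hp fun X Y => ?_
  rw [cmp_expand c hs, cmp_expand c hs', hE, hF, hG]

theorem cmp_pull (c : Ch M) {F : M → R4} (hF : Sm F) {x : P2} (hx : x ∈ c.e.target) (X Y : P2) :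
    cmp c (pull F) x X Y = ⟪fderiv ℝ (loc c F) x X, fderiv ℝ (loc c F) x Y⟫_ℝ := by
  rw [fderiv_loc c hx (man2_smd hF _), fderiv_loc c hx (man2_smd hF _)]
  rfl

theorem cEFG_pull (c : Ch M) {F : M → R4} (hF : Sm F) {x : P2} (hx : x ∈ c.e.target) :
    cE c (pull F) x = fE (loc c F) x ∧ cF c (pull F) x = fF (loc c F) x ∧
      cG c (pull F) x = fG (loc c F) x := by
  exact ⟨cmp_pull c hF hx _ _, cmp_pull c hF hx _ _, cmp_pull c hF hx _ _⟩

theorem pull_congr {F G : M → R4} {p : M} (h : G =ᶠ[𝓝 p] F) : pull G p = pull F p := by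
  have h1 : dM G p = dM F p := h.mfderiv_eq
  rw [pull, pull, h1]

theorem pull_const_smul {F : M → R4} (hF : Sm F) (s : ℝ) :
    pull (fun p => s • F p) = s ^ 2 • pull F := by
  funext p
  have h1 : dM (fun p => s • F p) p = s • dM F p := const_smul_mfderiv (man2_smd hF p) s
  refine ContinuousLinearMap.ext fun A => ContinuousLinearMap.ext fun B => ?_
  change ⟪dM (fun p => s • F p) p A, dM (fun p => s • F p) p B⟫_ℝ =
    s ^ 2 * ⟪dM F p A, dM F p B⟫_ℝ
  rw [h1, smul_apply, smul_apply, real_inner_smul_left,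
    real_inner_smul_right]
  ring

theorem cmp_prim (c c' : Ch M) (a : M → ℝ) {p : M} (hp : p ∈ c.e.source) (hp' : p ∈ c'.e.source)
    (X Y : P2) :
    cmp c (prim a (vco c')) (c.e p) X Y = a p ^ 2 * ((tr c c' p X).2 * (tr c c' p Y).2) := by
  have hx := c.e.map_source hp
  have hp2 : c.e.symm (c.e p) ∈ c'.e.source := by rwa [c.e.left_inv hp]
  have hv : MDifferentiableAt 𝓘(ℝ, E2) 𝓘(ℝ, ℝ) (vco c') (c.e.symm (c.e p)) :=
    (differentiableAt_snd (𝕜 := ℝ) (p := c'.e (c.e.symm (c.e p)))).comp_mdifferentiableAt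
      (man2_md c' hp2)
  have hd : DifferentiableAt ℝ (trans c c') (c.e p) :=
    (contDiffAt_trans c c' hp hp').differentiableAt (by simp)
  have h1 : ∀ Z : P2, dM (vco c') (c.e.symm (c.e p)) (dsym c (c.e p) Z) = (tr c c' p Z).2 :=
    fun Z => by
      rw [← fderiv_loc c hx hv]
      exact congrArg (fun L : P2 →L[ℝ] ℝ => L Z) (fderiv.snd hd)
  change a (c.e.symm (c.e p)) ^ 2 * (dM (vco c') (c.e.symm (c.e p)) (dsym c (c.e p) X) *
    dM (vco c') (c.e.symm (c.e p)) (dsym c (c.e p) Y)) = _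
  rw [h1, h1, c.e.left_inv hp]

theorem cmp_prim_self (c : Ch M) (a : M → ℝ) {x : P2} (hx : x ∈ c.e.target) (X Y : P2) :
    cmp c (prim a (vco c)) x X Y = a (c.e.symm x) ^ 2 * (X.2 * Y.2) := by
  have hp := c.e.map_target hx
  have h1 := cmp_prim c c a hp hp X Y
  rwa [tr_self c hp, tr_self c hp, c.e.right_inv hx] at h1

theorem prim_of_zero {a φ : M → ℝ} {p : M} (h : a p = 0) : prim a φ p = 0 := by
  refine ContinuousLinearMap.ext fun A => ContinuousLinearMap.ext fun B => ?_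
  change a p ^ 2 * (dM φ p A * dM φ p B) = 0
  rw [h, zero_pow two_ne_zero, zero_mul]

theorem prim_nonneg (a φ : M → ℝ) (p : M) (X : E2) : 0 ≤ prim a φ p X X := by
  change 0 ≤ a p ^ 2 * (dM φ p X * dM φ p X)
  exact mul_nonneg (sq_nonneg _) (mul_self_nonneg _)

theorem prim_const_mul (s : ℝ) (a φ : M → ℝ) : prim (fun p => s * a p) φ = s ^ 2 • prim a φ := by
  funext p
  rw [Pi.smul_apply, prim, prim, mul_pow, mul_smul]

theorem symm_pull (F : M → R4) : Symm (pull F) := by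
  intro p X Y
  exact real_inner_comm (dM F p Y) (dM F p X)

theorem symm_prim (a φ : M → ℝ) : Symm (prim a φ) := by
  intro p X Y
  change a p ^ 2 * (dM φ p X * dM φ p Y) = a p ^ 2 * (dM φ p Y * dM φ p X)
  ring

theorem good_of_loc {h : Ten M} (hs : Symm h) (H : ∀ p, ∃ c : Ch M, p ∈ c.e.source ∧
    ContDiffAt ℝ ∞ (cE c h) (c.e p) ∧ ContDiffAt ℝ ∞ (cF c h) (c.e p) ∧
      ContDiffAt ℝ ∞ (cG c h) (c.e p)) : Good h := by
  refine ⟨hs, fun c' X Y x hx => ContDiffAt.contDiffWithinAt ?_⟩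
  have hp' := c'.e.map_target hx
  obtain ⟨c, hp, hE, hF, hG⟩ := H (c'.e.symm x)
  have ht : ContDiffAt ℝ ∞ (trans c' c) x := by
    have h1 := contDiffAt_trans c' c hp' hp
    rwa [c'.e.right_inv hx] at h1
  have hD : ∀ Z : P2, ContDiffAt ℝ ∞ (fun y => fderiv ℝ (trans c' c) y Z) x := fun Z =>
    (ht.fderiv_right (m := ∞) (by simp)).clm_apply contDiffAt_const
  have hE' : ContDiffAt ℝ ∞ (fun y => cE c h (trans c' c y)) x :=
    ContDiffAt.comp (g := cE c h) (f := trans c' c) x hE ht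
  have hF' : ContDiffAt ℝ ∞ (fun y => cF c h (trans c' c y)) x :=
    ContDiffAt.comp (g := cF c h) (f := trans c' c) x hF ht
  have hG' : ContDiffAt ℝ ∞ (fun y => cG c h (trans c' c y)) x :=
    ContDiffAt.comp (g := cG c h) (f := trans c' c) x hG ht
  refine (((((hD X).fst.mul (hD Y).fst).mul hE').add
    ((((hD X).fst.mul (hD Y).snd).add ((hD X).snd.mul (hD Y).fst)).mul hF')).add
    (((hD X).snd.mul (hD Y).snd).mul hG')).congr_of_eventuallyEq ?_
  have h2 : ∀ᶠ y in 𝓝 x, c'.e.symm y ∈ c.e.source :=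
    (c'.e.continuousAt_symm hx).preimage_mem_nhds (c.e.open_source.mem_nhds hp)
  filter_upwards [c'.e.open_target.mem_nhds hx, h2] with y hy hy2
  have h3 := cmp_trans c' c h (c'.e.map_target hy) hy2 X Y
  rw [cmp_expand c hs, tr, c'.e.right_inv hy] at h3
  exact h3

theorem Good.cEFG {h : Ten M} (hh : Good h) (c : Ch M) {x : P2} (hx : x ∈ c.e.target) :
    ContDiffAt ℝ ∞ (cE c h) x ∧ ContDiffAt ℝ ∞ (cF c h) x ∧ ContDiffAt ℝ ∞ (cG c h) x := by
  have h1 := c.e.open_target.mem_nhds hx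
  exact ⟨(hh.2 c _ _).contDiffAt h1, (hh.2 c _ _).contDiffAt h1, (hh.2 c _ _).contDiffAt h1⟩

theorem good_pull {F : M → R4} (hF : Sm F) : Good (pull F) := by
  refine ⟨symm_pull F, fun c X Y x hx => ?_⟩
  have hD : ∀ Z : P2, ContDiffAt ℝ ∞ (fun y => fderiv ℝ (loc c F) y Z) x := fun Z =>
    ((hF.locAt c hx).fderiv_right (m := ∞) (by simp)).clm_apply contDiffAt_const
  exact (((hD X).inner ℝ (hD Y)).contDiffWithinAt).congr (fun y hy => cmp_pull c hF hy X Y)
    (cmp_pull c hF hx X Y)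

theorem good_prim [T2Space M] (c : Ch M) {a : M → ℝ} (ha : Sm a) {D : Set M} (hD : IsCompact D)
    (hDc : D ⊆ c.e.source) (h0 : ∀ p, p ∉ D → a p = 0) : Good (prim a (vco c)) := by
  refine good_of_loc (symm_prim _ _) fun p => ?_
  by_cases hp : p ∈ c.e.source
  · have hx := c.e.map_source hp
    have h1 : ∀ X Y : P2, ContDiffAt ℝ ∞ (fun x => cmp c (prim a (vco c)) x X Y) (c.e p) :=
      fun X Y => by
        refine (((ha.locAt c hx).pow 2).mul
          (contDiffAt_const (c := X.2 * Y.2))).congr_of_eventuallyEq ?_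
        filter_upwards [c.e.open_target.mem_nhds hx] with y hy
        exact cmp_prim_self c a hy X Y
    exact ⟨c, hp, h1 _ _, h1 _ _, h1 _ _⟩
  · obtain ⟨d, hd⟩ := exists_ch p
    have hpD : p ∈ Dᶜ := fun h => hp (hDc h)
    have hx := d.e.map_source hd
    have h2 : ∀ᶠ y in 𝓝 (d.e p), d.e.symm y ∈ Dᶜ := by
      refine (d.e.continuousAt_symm hx).preimage_mem_nhds ?_
      rw [d.e.left_inv hd]
      exact hD.isClosed.isOpen_compl.mem_nhds hpD
    have h1 : ∀ X Y : P2, ContDiffAt ℝ ∞ (fun x => cmp d (prim a (vco c)) x X Y) (d.e p) :=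
      fun X Y => by
        refine (contDiffAt_const (c := (0 : ℝ))).congr_of_eventuallyEq ?_
        filter_upwards [h2] with y hy
        rw [cmp, prim_of_zero (h0 _ hy)]
        rfl
    exact ⟨d, hd, h1 _ _, h1 _ _, h1 _ _⟩

theorem Good.add {h h' : Ten M} (h1 : Good h) (h2 : Good h') : Good (h + h') := by
  refine ⟨fun p X Y => ?_, fun c X Y => (h1.2 c X Y).add (h2.2 c X Y)⟩
  change h p X Y + h' p X Y = h p Y X + h' p Y X
  rw [h1.1 p X Y, h2.1 p X Y]

theorem Good.sub {h h' : Ten M} (h1 : Good h) (h2 : Good h') : Good (h - h') := by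
  refine ⟨fun p X Y => ?_, fun c X Y => (h1.2 c X Y).sub (h2.2 c X Y)⟩
  change h p X Y - h' p X Y = h p Y X - h' p Y X
  rw [h1.1 p X Y, h2.1 p X Y]

theorem Good.smul {h : Ten M} (h1 : Good h) (s : ℝ) : Good (s • h) := by
  refine ⟨fun p X Y => ?_, fun c X Y => contDiffOn_const.mul (h1.2 c X Y)⟩
  change s * h p X Y = s * h p Y X
  rw [h1.1 p X Y]

theorem Good.sum {J : Type*} (s : Finset J) {h : J → Ten M} (H : ∀ j ∈ s, Good (h j)) :
    Good (∑ j ∈ s, h j) := by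
  refine ⟨fun p X Y => ?_, fun c X Y => ?_⟩
  · simp only [Finset.sum_apply, sum_apply]
    exact Finset.sum_congr rfl fun j hj => (H j hj).1 p X Y
  · simp only [cmp_sum]
    exact ContDiffOn.sum fun j hj => (H j hj).2 c X Y

theorem good_metric (g : Bundle.ContMDiffRiemannianMetric 𝓘(ℝ, E2) ∞ E2
    (fun p : M => TangentSpace 𝓘(ℝ, E2) p)) :
    Good (fun p : M => (g.inner p : E2 →L[ℝ] E2 →L[ℝ] ℝ)) ∧
      PosD (fun p : M => (g.inner p : E2 →L[ℝ] E2 →L[ℝ] ℝ)) := by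
  refine ⟨⟨fun p X Y => g.symm p X Y, fun c X Y x hx => ContDiffAt.contDiffWithinAt ?_⟩,
    fun p X hX => g.pos p X hX⟩
  have hb : ContMDiffAt 𝓘(ℝ, P2) 𝓘(ℝ, E2) ∞ c.e.symm x :=
    c.sm'.contMDiffAt (c.e.open_target.mem_nhds hx)
  have h1 : ContMDiffAt 𝓘(ℝ, P2) (𝓘(ℝ, E2).prod 𝓘(ℝ)) ∞
      (fun y => Bundle.TotalSpace.mk' ℝ (E := Bundle.Trivial M ℝ) (c.e.symm y)
        (g.inner (c.e.symm y) (dsym c y X) (dsym c y Y))) x := by
    apply ContMDiffAt.clm_bundle_apply₂ (F₁ := E2) (F₂ := E2)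
    · exact ContMDiffAt.comp x (g.contMDiff _) hb
    · exact man2_sec c hx X
    · exact man2_sec c hx Y
  rw [Bundle.contMDiffAt_totalSpace] at h1
  exact contMDiffAt_iff_contDiffAt.1 h1.2

theorem posD_pull {F : M → R4} (hF : Imm F) : PosD (pull F) := by
  intro p X hX
  change 0 < ⟪dM F p X, dM F p X⟫_ℝ
  exact real_inner_self_pos.2 fun h => hX (hF p (by rw [h, map_zero]))

theorem PosD.chart {h : Ten M} (hh : PosD h) (hs : Symm h) (c : Ch M) {x : P2}
    (hx : x ∈ c.e.target) : 0 < cE c h x ∧ 0 < cE c h x * cG c h x - cF c h x ^ 2 := by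
  have h1 : ∀ Z : P2, Z ≠ 0 → 0 < cmp c h x Z Z := fun Z hZ =>
    hh _ _ fun h0 => hZ ((dsym_bijective c hx).1 (by rw [h0, map_zero]))
  have hE : 0 < cE c h x := h1 _ (by simp)
  refine ⟨hE, ?_⟩
  have h2 := h1 (-cF c h x, cE c h x) fun h0 => hE.ne' (congrArg Prod.snd h0)
  rw [cmp_expand c hs] at h2
  refine man2_pos hE ?_
  linarith

theorem posD_of_chart {h : Ten M} (hs : Symm h) (c : Ch M) {p : M} (hp : p ∈ c.e.source)
    (h1 : 0 < cE c h (c.e p))
    (h2 : 0 < cE c h (c.e p) * cG c h (c.e p) - cF c h (c.e p) ^ 2) (X : E2) (hX : X ≠ 0) :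
    0 < h p X X := by
  obtain ⟨Z, rfl⟩ := (dsym_bijective c (c.e.map_source hp)).2 X
  have hZ : Z ≠ 0 := fun h0 => hX (by rw [h0, map_zero])
  have h3 := cmp_expand c hs (c.e p) Z Z
  rw [cmp, c.e.left_inv hp] at h3
  rw [h3]
  exact man2_quad_pos h1 h2 hZ

theorem SmallAt.add {g h h' : Ten M} {p : M} {σ τ : ℝ} (h1 : SmallAt g h p σ)
    (h2 : SmallAt g h' p τ) : SmallAt g (h + h') p (σ + τ) := by
  intro X
  change |h p X X + h' p X X| ≤ _
  rw [add_mul]
  exact (abs_add_le _ _).trans (add_le_add (h1 X) (h2 X))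

theorem SmallAt.mono {g h : Ten M} (hg : PosD g) {p : M} {σ τ : ℝ} (h1 : SmallAt g h p σ)
    (hστ : σ ≤ τ) : SmallAt g h p τ := by
  intro X
  refine (h1 X).trans (mul_le_mul_of_nonneg_right hστ ?_)
  by_cases hX : X = 0
  · rw [hX, map_zero]
  · exact (hg p X hX).le

theorem man2_bound {h : Ten M} (hh : Good h) (c : Ch M) {K : Set P2} (hK : IsCompact K)
    (hKc : K ⊆ c.e.target) :
    ∃ B : ℝ, 0 ≤ B ∧ ∀ x ∈ K, |cE c h x| ≤ B ∧ |cF c h x| ≤ B ∧ |cG c h x| ≤ B := by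
  have hc : ContinuousOn (fun x => (cE c h x, cF c h x, cG c h x)) K := fun x hx => by
    obtain ⟨hE, hF, hG⟩ := hh.cEFG c (hKc hx)
    exact (hE.continuousAt.prodMk (hF.continuousAt.prodMk hG.continuousAt)).continuousWithinAt
  obtain ⟨B, hB⟩ := hK.exists_bound_of_continuousOn hc
  refine ⟨|B|, abs_nonneg _, fun x hx => ?_⟩
  have h1 := (hB x hx).trans (le_abs_self B)
  rw [norm_prod_le_iff, norm_prod_le_iff] at h1
  exact h1

theorem small_of_chart {g : Ten M} (hg : Good g) (hp : PosD g) (c : Ch M) {K : Set P2}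
    (hK : IsCompact K) (hKc : K ⊆ c.e.target) : ∃ C : ℝ, 0 < C ∧ ∀ (h : Ten M), Symm h →
      ∀ x ∈ K, ∀ σ : ℝ, |cE c h x| ≤ σ → |cF c h x| ≤ σ → |cG c h x| ≤ σ →
        SmallAt g h (c.e.symm x) (C * σ) := by
  have hc : ContinuousOn (fun x => (cE c g x + cG c g x) / (cE c g x * cG c g x - cF c g x ^ 2))
      K := fun x hx => by
    obtain ⟨hE, hF, hG⟩ := hg.cEFG c (hKc hx)
    exact ((hE.continuousAt.add hG.continuousAt).div
      ((hE.continuousAt.mul hG.continuousAt).sub (hF.continuousAt.pow 2))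
      (hp.chart hg.1 c (hKc hx)).2.ne').continuousWithinAt
  obtain ⟨B, hB⟩ := hK.exists_bound_of_continuousOn hc
  refine ⟨2 * |B| + 1, by positivity, fun h hs x hx σ hE hF hG X => ?_⟩
  obtain ⟨Z, rfl⟩ := (dsym_bijective c (hKc hx)).2 X
  change |cmp c h x Z Z| ≤ _ * cmp c g x Z Z
  rw [cmp_expand c hs, cmp_expand c hg.1]
  obtain ⟨h1, h2⟩ := hp.chart hg.1 c (hKc hx)
  exact man2_quad_small h1 h2 ((le_abs_self _).trans ((hB x hx).trans (le_abs_self B))) hE hF hG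
    Z.1 Z.2

theorem chart_of_small {g : Ten M} (hg : Good g) (hp : PosD g) (c : Ch M) {K : Set P2}
    (hK : IsCompact K) (hKc : K ⊆ c.e.target) : ∃ C : ℝ, 0 < C ∧ ∀ (h : Ten M), Symm h →
      ∀ x ∈ K, ∀ σ : ℝ, 0 ≤ σ → SmallAt g h (c.e.symm x) σ →
        |cE c h x| ≤ C * σ ∧ |cF c h x| ≤ C * σ ∧ |cG c h x| ≤ C * σ := by
  obtain ⟨B, hB0, hB⟩ := man2_bound hg c hK hKc
  refine ⟨3 * B + 1, by positivity, fun h hs x hx σ hσ H => ?_⟩
  obtain ⟨b1, b2, b3⟩ := hB x hx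
  have hE : |cE c h x| ≤ σ * B :=
    (H _).trans (mul_le_mul_of_nonneg_left ((le_abs_self (cE c g x)).trans b1) hσ)
  have hG : |cG c h x| ≤ σ * B :=
    (H _).trans (mul_le_mul_of_nonneg_left ((le_abs_self (cG c g x)).trans b3) hσ)
  have h3 : |cmp c h x (1, 1) (1, 1)| ≤ σ * cmp c g x (1, 1) (1, 1) := H _
  rw [cmp_expand c hs, cmp_expand c hg.1] at h3
  have h4 : σ * (1 * 1 * cE c g x + (1 * 1 + 1 * 1) * cF c g x + 1 * 1 * cG c g x)
      ≤ σ * (4 * B) := by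
    refine mul_le_mul_of_nonneg_left ?_ hσ
    linarith [le_abs_self (cE c g x), le_abs_self (cF c g x), le_abs_self (cG c g x)]
  have h5 := abs_le.1 (h3.trans h4)
  have h6 := abs_le.1 hE
  have h7 := abs_le.1 hG
  have h8 : 0 ≤ σ * B := mul_nonneg hσ hB0
  refine ⟨by nlinarith, abs_le.2 ⟨by nlinarith [h5.1, h6.2, h7.2], ?_⟩, by nlinarith⟩
  nlinarith [h5.2, h6.1, h7.1]

theorem exists_small [T2Space M] [CompactSpace M] {g h : Ten M} (hg : Good g) (hp : PosD g)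
    (hh : Good h) : ∃ σ : ℝ, 0 < σ ∧ Small g h σ := by
  obtain ⟨n, d, K, hK, hcov⟩ := exists_cover (M := M)
  choose C hC0 hC using fun j => small_of_chart hg hp (d j) (hK j).1 (hK j).2
  choose B hB0 hB using fun j => man2_bound hh (d j) (hK j).1 (hK j).2
  have h0 : ∀ j, 0 ≤ C j * B j := fun j => mul_nonneg (hC0 j).le (hB0 j)
  refine ⟨∑ j, C j * B j + 1, ?_, fun p => ?_⟩
  · linarith [Finset.sum_nonneg fun j (_ : j ∈ Finset.univ) => h0 j]
  · obtain ⟨j, hj, hjK⟩ := hcov p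
    have hx := interior_subset hjK
    obtain ⟨b1, b2, b3⟩ := hB j _ hx
    have h1 := hC j h hh.1 _ hx (B j) b1 b2 b3
    rw [(d j).e.left_inv hj] at h1
    refine h1.mono hp ?_
    linarith [Finset.single_le_sum (fun j (_ : j ∈ Finset.univ) => h0 j) (Finset.mem_univ j)]

section Surface
variable {F ν : M → R4}

theorem imm_iff (hF : Sm F) (c : Ch M) {p : M} (hp : p ∈ c.e.source) :
    Function.Injective (dM F p) ↔ 0 < det2 (loc c F) (c.e p) := by
  have hx := c.e.map_source hp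
  have h1 : ⇑(fderiv ℝ (loc c F) (c.e p)) = ⇑(dM F p) ∘ ⇑(dsym c (c.e p)) := by
    funext X
    rw [fderiv_loc c hx (man2_smd hF _), c.e.left_inv hp]
    rfl
  rw [det2_pos_iff, h1, Function.Injective.of_comp_iff' _ (dsym_bijective c hx)]

theorem IINe.imm (h : IINe F) (hF : Sm F) : Imm F := by
  intro p
  obtain ⟨c, hp, hG⟩ := h p
  rw [imm_iff hF c hp]
  refine (gram2_nonneg _ _).lt_of_ne fun h0 => ?_
  have h1 := hG.trans_le (gram3_le _ _ _)
  rw [← h0, zero_mul] at h1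
  exact lt_irrefl _ h1

theorem transv_iff (hF : Sm F) (c : Ch M) {p : M} (hp : p ∈ c.e.source)
    (hi : Function.Injective (dM F p)) (ξ : R4) :
    (∀ X, ξ ≠ dM F p X) ↔ nrmM F c p ξ ≠ 0 := by
  have hx := c.e.map_source hp
  rw [nrmM, Ne, nrm_eq_zero_iff ((imm_iff hF c hp).1 hi).ne', not_exists]
  constructor
  · intro H X hX
    rw [fderiv_loc c hx (man2_smd hF _), c.e.left_inv hp] at hX
    exact H _ hX
  · intro H X hX
    obtain ⟨Z, rfl⟩ := (dsym_bijective c hx).2 X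
    refine H Z ?_
    rw [fderiv_loc c hx (man2_smd hF _), c.e.left_inv hp]
    exact hX

theorem nrmM_trans (hF : Sm F) (c c' : Ch M) {p : M} (hp : p ∈ c.e.source)
    (hp' : p ∈ c'.e.source) (hi : Function.Injective (dM F p)) (ξ : R4) :
    nrmM F c p ξ = nrmM F c' p ξ := by
  obtain ⟨-, -, -, -, -, -, h1, h2, -⟩ := jets_congr (loc_eventuallyEq c c' F hp hp')
  have hd := ((imm_iff hF c hp).1 hi).ne'
  rw [h2] at hd
  have hf : ContDiffAt ℝ ∞ (loc c' F) (trans c c' (c.e p)) := by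
    rw [trans_apply c c' hp]
    exact hF.locAt c' (c'.e.map_source hp')
  rw [nrmM, nrmM, h1, nrm_comp ((contDiffAt_trans c c' hp hp').differentiableAt (by simp))
    (hf.differentiableAt (by simp)) hd, trans_apply c c' hp]

theorem II_trans (hF : Sm F) (c c' : Ch M) {p : M} (hp : p ∈ c.e.source) (hp' : p ∈ c'.e.source)
    (hi : Function.Injective (dM F p)) (X Y : P2) :
    II (loc c F) (c.e p) X Y = II (loc c' F) (c'.e p) (tr c c' p X) (tr c c' p Y) := by
  obtain ⟨-, -, -, -, -, h1, -, h2, -⟩ := jets_congr (loc_eventuallyEq c c' F hp hp')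
  have hd := ((imm_iff hF c hp).1 hi).ne'
  rw [h2] at hd
  have hf : ContDiffAt ℝ ∞ (loc c' F) (trans c c' (c.e p)) := by
    rw [trans_apply c c' hp]
    exact hF.locAt c' (c'.e.map_source hp')
  rw [h1, II_comp (contDiffAt_trans c c' hp hp') hf hd, trans_apply c c' hp]
  rfl

theorem IIm_eq (hF : Sm F) (c c' d : Ch M) {p : M} (hp : p ∈ c.e.source) (hp' : p ∈ c'.e.source)
    (hd : p ∈ d.e.source) (hi : Function.Injective (dM F p)) :
    IIm F c c' p = II (loc d F) (d.e p) (tr c d p (1, 0)) (tr c' d p (1, 0)) := by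
  rw [IIm, II_trans hF c d hp hd hi, tr_tr c' c d hp' hp hd]

/-- a nonzero value of the second fundamental form gives a chart with positive `Gram` -/
theorem exists_gram_pos (hF : Sm F) (c : Ch M) {p : M} (hp : p ∈ c.e.source)
    (hi : Function.Injective (dM F p)) {X Y : P2} (h : II (loc c F) (c.e p) X Y ≠ 0) :
    ∃ c' : Ch M, p ∈ c'.e.source ∧ 0 < Gram (loc c' F) (c'.e p) := by
  have hx := c.e.map_source hp
  have hl := hF.locAt c hx
  obtain ⟨t, ht⟩ : ∃ t : ℝ, II (loc c F) (c.e p) (1, t) (1, t) ≠ 0 := by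
    by_contra H
    push Not at H
    have h0 := H 0
    have h1 := H 1
    have h2 := H (-1)
    rw [II_eq hl, h0] at h1 h2
    have h3 : II (loc c F) (c.e p) (1, 0) (0, 1) = 0 := by
      linear_combination (norm := module) (1 / 4 : ℝ) • h1 - (1 / 4 : ℝ) • h2
    have h4 : II (loc c F) (c.e p) (0, 1) (0, 1) = 0 := by
      linear_combination (norm := module) (1 / 2 : ℝ) • h1 + (1 / 2 : ℝ) • h2
    rw [II_eq hl, h0, h3, h4] at h
    simp at h
  let ψ : P2 ≃L[ℝ] P2 := (ContinuousLinearEquiv.refl ℝ ℝ).skewProd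
    (ContinuousLinearEquiv.refl ℝ ℝ) ((-t) • ContinuousLinearMap.id ℝ ℝ)
  obtain ⟨c', hs, -, he, -⟩ := c.exists_comp_homeo ψ.toHomeomorph ψ.contDiff ψ.symm.contDiff
  have hp' : p ∈ c'.e.source := by rwa [hs]
  have h1 : trans c c' =ᶠ[𝓝 (c.e p)] ψ := by
    filter_upwards [c.e.open_target.mem_nhds hx] with y hy
    rw [trans, he, c.e.right_inv hy]
    rfl
  have h2 : tr c c' p (1, t) = (1, 0) := by
    rw [tr, h1.fderiv_eq, ψ.fderiv]
    simp [ψ]
  refine ⟨c', hp', ?_⟩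
  rw [II_trans hF c c' hp hp' hi, h2] at ht
  have hd := (imm_iff hF c' hp').1 hi
  rw [Gram_eq (hF.locAt c' (c'.e.map_source hp')) hd.ne']
  exact mul_pos hd (pow_pos (norm_pos_iff.2 ht) 2)

theorem ktM_pull (hF : Sm F) (c : Ch M) {p : M} (hp : p ∈ c.e.source) :
    ktM c (pull F) p = kt (loc c F) (c.e p) := by
  have hx := c.e.map_source hp
  have hE : cE c (pull F) =ᶠ[𝓝 (c.e p)] fE (loc c F) := by
    filter_upwards [c.e.open_target.mem_nhds hx] with y hy
    exact (cEFG_pull c hF hy).1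
  have hF' : cF c (pull F) =ᶠ[𝓝 (c.e p)] fF (loc c F) := by
    filter_upwards [c.e.open_target.mem_nhds hx] with y hy
    exact (cEFG_pull c hF hy).2.1
  rw [kt_eq (hF.locAt c hx), ktM, ktil, ktil, hE.eq_of_nhds, hF'.eq_of_nhds,
    (surf_du_ev hE).eq_of_nhds, (surf_dv_ev hE).eq_of_nhds, (surf_du_ev hF').eq_of_nhds]
end Surface

end Vale.Agent.P205
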