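import Vale.Agent.P205.Om

/-! P205: analytic tools for the pattern (integrals with parameters, time change). -/

open scoped ContDiff Topology Convolution
open Set Filter Real MeasureTheory

noncomputable section
namespace Vale.Agent.P205.Pt

theorem contDiff_int01 {P : Type} [NormedAddCommGroup P] [NormedSpace ℝ P] {H : P × ℝ → ℝ}
    (hH : ContDiff ℝ ∞ H) : ContDiff ℝ ∞ fun p => ∫ u in (0 : ℝ)..1, H (p, u) := by
  let χ : ContDiffBump (0 : ℝ) := ⟨1, 2, one_pos, one_lt_two⟩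
  have h := contDiffOn_convolution_right_with_param_comp (μ := volume) (n := ⊤)
    (ContinuousLinearMap.mul ℝ ℝ) (s := univ) (v := fun _ : P => (0 : ℝ)) contDiffOn_const
    (f := (Ioc (0 : ℝ) 1).indicator fun _ => 1) (g := fun p x => χ x * H (p, -x))
    (k := Metric.closedBall 0 2) isOpen_univ (isCompact_closedBall _ _)
    (fun p x _ hx => by
      rw [χ.zero_of_le_dist (not_le.1 (mt Metric.mem_closedBall.2 hx)).le, zero_mul])
    ((locallyIntegrable_const 1).indicator measurableSet_Ioc)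
    ((χ.contDiff.comp contDiff_snd).mul
      (hH.comp (contDiff_fst.prodMk contDiff_snd.neg))).contDiffOn
  rw [contDiffOn_univ] at h
  refine (congrArg _ (funext fun p => ?_)).mp h
  rw [convolution_def, intervalIntegral.integral_of_le zero_le_one,
    ← integral_indicator measurableSet_Ioc]
  refine congrArg _ (funext fun t => ?_)
  by_cases ht : t ∈ Ioc (0 : ℝ) 1
  · have : χ (-t) = 1 := χ.one_of_mem_closedBall (by
      simpa [χ, abs_of_pos ht.1] using ht.2)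
    simp [ht, this]
  · simp [ht]

theorem contDiff_prim {P : Type} [NormedAddCommGroup P] [NormedSpace ℝ P] {H : P × ℝ → ℝ}
    (hH : ContDiff ℝ ∞ H) : ContDiff ℝ ∞ fun z : P × ℝ => ∫ u in (0 : ℝ)..z.2, H (z.1, u) := by
  have h := contDiff_snd.mul (contDiff_int01 (H := fun y : (P × ℝ) × ℝ => H (y.1.1, y.1.2 * y.2))
    (hH.comp (by fun_prop)))
  refine (congrArg _ (funext fun z => ?_)).mp h
  simpa using intervalIntegral.mul_integral_comp_mul_left (a := 0) (b := 1)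
    (f := fun u => H (z.1, u)) z.2

abbrev Z := Q3 × ℝ × ℝ

variable {O : Set Q3}

theorem cda (hO : IsOpen O) {F : Type} [NormedAddCommGroup F] [NormedSpace ℝ F] {f : Z → F}
    (hf : ContDiffOn ℝ ∞ f (O ×ˢ univ)) {z : Z} (hz : z.1 ∈ O) : ContDiffAt ℝ ∞ f z :=
  hf.contDiffAt ((hO.prod isOpen_univ).mem_nhds ⟨hz, trivial⟩)

theorem ev_mem (hO : IsOpen O) {z : Z} (hz : z.1 ∈ O) : ∀ᶠ y : Z in 𝓝 z, y.1 ∈ O :=
  continuous_fst.continuousAt.eventually_mem (hO.mem_nhds hz)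

theorem deriv_t {f : Z → ℝ} {q : Q3} {θ t : ℝ} (hf : DifferentiableAt ℝ f (q, θ, t)) :
    HasDerivAt (fun s => f (q, θ, s)) (fderiv ℝ f (q, θ, t) (0, 0, 1)) t :=
  hf.hasFDerivAt.comp_hasDerivAt t ((hasDerivAt_const t q).prodMk
    ((hasDerivAt_const t θ).prodMk (hasDerivAt_id t)))

theorem deriv_θ {f : Z → ℝ} {q : Q3} {θ t : ℝ} (hf : DifferentiableAt ℝ f (q, θ, t)) :
    HasDerivAt (fun s => f (q, s, t)) (fderiv ℝ f (q, θ, t) (0, 1, 0)) θ :=
  hf.hasFDerivAt.comp_hasDerivAt θ ((hasDerivAt_const θ q).prodMk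
    ((hasDerivAt_id θ).prodMk (hasDerivAt_const θ t)))

theorem surj_of_per {T : ℝ → ℝ} (hc : Continuous T) (hp : ∀ x, T (x + 2 * π) = T x + 2 * π) :
    Function.Surjective T := by
  have h : Function.Periodic (fun x => T x - x) (2 * π) := fun x => by simp only [hp]; ring
  obtain ⟨C, hC⟩ := (h.isBounded_of_continuous two_pi_pos.ne' (hc.sub continuous_id)).exists_norm_le
  have hb : ∀ x, |T x - x| ≤ C := fun x => hC _ ⟨x, rfl⟩
  refine hc.surjective (tendsto_atTop_mono (fun x => ?_) (tendsto_atTop_add_const_right _ (-C)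
    tendsto_id)) (tendsto_atBot_mono (fun x => ?_) (tendsto_atBot_add_const_right _ C tendsto_id))
  · have := (abs_le.1 (hb x)).1
    simp only [id]
    linarith
  · have := (abs_le.1 (hb x)).2
    simp only [id]
    linarith

/-- inverse of a time change -/
theorem exists_inv (hO : IsOpen O) {T ρ : Z → ℝ} (hT : ContDiffOn ℝ ∞ T (O ×ˢ univ))
    (hd : ∀ q ∈ O, ∀ θ x, HasDerivAt (fun y => T (q, θ, y)) (ρ (q, θ, x)) x)
    (hρ : ∀ q ∈ O, ∀ θ x, 0 < ρ (q, θ, x))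
    (hp : ∀ q ∈ O, ∀ θ x, T (q, θ, x + 2 * π) = T (q, θ, x) + 2 * π) :
    ∃ τ : Z → ℝ, ContDiffOn ℝ ∞ τ (O ×ˢ univ) ∧
      ∀ q ∈ O, ∀ θ t x, τ (q, θ, t) = x ↔ T (q, θ, x) = t := by
  have hb : ∀ q ∈ O, ∀ θ, Function.Bijective fun y => T (q, θ, y) := fun q hq θ =>
    ⟨(strictMono_of_hasDerivAt_pos (hd q hq θ) (hρ q hq θ)).injective,
      surj_of_per (continuous_iff_continuousAt.2 fun x => (hd q hq θ x).continuousAt) (hp q hq θ)⟩
  have h1 : ∀ q ∈ O, ∀ θ t x, Function.invFun (fun y => T (q, θ, y)) t = x ↔ T (q, θ, x) = t :=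
    fun q hq θ t x => ⟨fun h => h ▸ Function.rightInverse_invFun (hb q hq θ).2 t,
      fun h => h ▸ Function.leftInverse_invFun (hb q hq θ).1 x⟩
  refine ⟨fun z => Function.invFun (fun y => T (z.1, z.2.1, y)) z.2.2, ?_, h1⟩
  rintro ⟨q, θ, t⟩ ⟨hq, -⟩
  obtain ⟨x, rfl⟩ := (hb q hq θ).2 t
  have hf : ContDiffAt ℝ ∞ (fun v : Z × ℝ => T (v.1.1, v.1.2.1, v.2) - v.1.2.2)
      ((q, θ, T (q, θ, x)), x) :=
    ((cda hO hT (z := (q, θ, x)) hq).comp (f := fun v : Z × ℝ => (v.1.1, v.1.2.1, v.2))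
      ((q, θ, T (q, θ, x)), x) (by fun_prop)).sub (by fun_prop)
  have hi : (fderiv ℝ (fun v : Z × ℝ => T (v.1.1, v.1.2.1, v.2) - v.1.2.2)
      ((q, θ, T (q, θ, x)), x) ∘L ContinuousLinearMap.inr ℝ Z ℝ).IsInvertible := by
    have h2 := (hf.differentiableAt (by simp)).hasFDerivAt.comp x
      (hasFDerivAt_prodMk_right (q, θ, T (q, θ, x)) x)
    rw [h2.unique ((hd q hq θ x).sub_const _).hasFDerivAt]
    exact ⟨ContinuousLinearEquiv.unitsEquivAut ℝ (Units.mk0 _ (hρ q hq θ x).ne'), by ext; simp⟩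
  refine ((hf.contDiffAt_implicitFunction (by simp) hi).congr_of_eventuallyEq ?_).contDiffWithinAt
  filter_upwards [hf.eventually_apply_implicitFunction (by simp) hi,
    ev_mem hO (z := (q, θ, T (q, θ, x))) hq] with z h2 h3
  exact (h1 _ h3 _ _ _).2 (by simpa [sub_eq_zero] using h2)

theorem bdd_of_per {K : Set Q3} (hK : IsCompact K) (hKO : K ⊆ O) {f : Z → ℝ}
    (hf : ContinuousOn f (O ×ˢ univ)) (h1 : ∀ q ∈ O, ∀ θ t, f (q, θ + 2 * π, t) = f (q, θ, t))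
    (h2 : ∀ q ∈ O, ∀ θ t, f (q, θ, t + 2 * π) = f (q, θ, t)) :
    ∃ C, ∀ q ∈ K, ∀ θ t, f (q, θ, t) ≤ C := by
  obtain ⟨C, hC⟩ := (hK.prod ((isCompact_Icc (a := 0) (b := 2 * π)).prod
    (isCompact_Icc (a := 0) (b := 2 * π)))).bddAbove_image
    (hf.mono (prod_mono hKO (subset_univ _)))
  refine ⟨C, fun q hq θ t => ?_⟩
  obtain ⟨θ', h3, h4⟩ := Function.Periodic.exists_mem_Ico₀ (f := fun θ => f (q, θ, t))
    (fun θ => h1 q (hKO hq) θ t) two_pi_pos θ
  obtain ⟨t', h5, h6⟩ := Function.Periodic.exists_mem_Ico₀ (f := fun t => f (q, θ', t))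
    (h2 q (hKO hq) θ') two_pi_pos t
  exact (h4.trans h6).trans_le (hC ⟨_, ⟨hq, Ico_subset_Icc_self h3, Ico_subset_Icc_self h5⟩, rfl⟩)

theorem fderiv_shift (hO : IsOpen O) {f : Z → ℝ} {e : ℝ × ℝ} {c : ℝ}
    (h : ∀ q ∈ O, ∀ y, f (q, y + e) = f (q, y) + c) {q : Q3} (hq : q ∈ O) (y : ℝ × ℝ) :
    fderiv ℝ f (q, y + e) = fderiv ℝ f (q, y) := by
  have h1 : (fun z : Z => f (z + (0, e))) =ᶠ[𝓝 (q, y)] fun z => f z + c := by
    filter_upwards [ev_mem hO (z := (q, y)) hq] with z hz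
    rw [← h z.1 hz z.2, ← add_zero z.1]
    rfl
  have h2 := h1.fderiv_eq (𝕜 := ℝ)
  rw [fderiv_comp_add_right, fderiv_add_const] at h2
  simpa using h2

/-- the mixed second derivative -/
theorem deriv_mixed (hO : IsOpen O) {f g : Z → ℝ} (hf : ContDiffOn ℝ ∞ f (O ×ˢ univ))
    (hg : ∀ q ∈ O, ∀ θ t, HasDerivAt (fun s => f (q, θ, s)) (g (q, θ, t)) t) {q : Q3}
    (hq : q ∈ O) (θ t : ℝ) {y : ℝ} (hy : HasDerivAt (fun s => g (q, s, t)) y θ) :
    HasDerivAt (fun s => fderiv ℝ f (q, θ, s) (0, 1, 0)) y t := by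
  have h1 := cda hO hf (z := (q, θ, t)) hq
  have h2 : DifferentiableAt ℝ (fderiv ℝ f) (q, θ, t) :=
    (h1.fderiv_right (m := 1) (by norm_cast)).differentiableAt one_ne_zero
  have h3 : ∀ v : Z, DifferentiableAt ℝ (fun z => fderiv ℝ f z v) (q, θ, t) := fun v =>
    h2.clm_apply (differentiableAt_const v)
  have h4 : ∀ v w : Z, fderiv ℝ (fun z => fderiv ℝ f z v) (q, θ, t) w =
      fderiv ℝ (fderiv ℝ f) (q, θ, t) w v := fun v w => by
    rw [fderiv_clm_apply h2 (differentiableAt_const v)]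
    simp
  have h5 := deriv_θ (h3 (0, 0, 1))
  have h6 : (fun s => fderiv ℝ f (q, s, t) (0, 0, 1)) = fun s => g (q, s, t) := funext fun s =>
    (deriv_t ((cda hO hf (z := (q, s, t)) hq).differentiableAt (by simp))).unique (hg q hq s t)
  rw [h6] at h5
  rw [hy.unique h5, h4, (h1.isSymmSndFDerivAt (by simp; norm_cast)).eq, ← h4]
  exact deriv_t (h3 (0, 1, 0))

end Vale.Agent.P205.Pt
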