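import Vale.Agent.P205.PatA

/-! P205: from a density to the pattern. -/

open scoped ContDiff Topology
open Set Filter Real

noncomputable section
namespace Vale.Agent.P205.Pt

theorem cos_sq_add (w s : ℝ) : cos (w * s) ^ 2 + w ^ 2 * sn w s ^ 2 = 1 := by
  rw [← mul_pow, mul_sn, cos_sq_add_sin_sq]

theorem tang_pos {L : ℝ} {q : Q3} (hq : q ∈ Om L) (s : ℝ) :
    0 < cos (q.1 * s) * (q.2.2 - cn q.1 s) + sn q.1 s * (sn q.1 s - q.2.1) := by
  obtain ⟨w, γ1, γ2⟩ := q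
  obtain ⟨σ, -, h⟩ := hq (sn w s, -cos (w * s)) (fun h => by
    have := cos_sq_add w s
    simp only [Prod.mk_eq_zero, neg_eq_zero] at h
    simp [h.1, h.2] at this)
  have k : 0 ≤ sn w s * (sn w s - sn w (L * σ)) + cos (w * s) * (cn w (L * σ) - cn w s) := by
    rcases eq_or_ne w 0 with rfl | hw
    · simp only [sn_zero, cn_zero, zero_mul, cos_zero]
      nlinarith [sq_nonneg (s - L * σ)]
    · refine nonneg_of_mul_nonneg_right ?_ (sq_pos_of_ne_zero hw)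
      have h1 := cos_le_one (w * s - w * (L * σ))
      rw [cos_sub, ← mul_sn, ← mul_sn] at h1
      have h2 := sq_mul_cn w s
      have h3 := sq_mul_cn w (L * σ)
      have h4 := cos_sq_add w s
      have e : w ^ 2 * (sn w s * (sn w s - sn w (L * σ)) +
          cos (w * s) * (cn w (L * σ) - cn w s)) = 1 - (cos (w * s) * cos (w * (L * σ)) +
            w * sn w s * (w * sn w (L * σ))) := by
        linear_combination cos (w * s) * h3 - cos (w * s) * h2 + h4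
      linarith
  simp only at h ⊢
  linarith

theorem ind_core {w γ1 γ2 x y : ℝ} {Γ Γ' Γθ α β : ℝ → ℝ} (hΓ : ∀ t, HasDerivAt Γ (Γ' t) t)
    (hα : ∀ t, HasDerivAt α (x * (γ2 - cn w (Γ t)) + y * -(sn w (Γ t) * Γθ t)) t)
    (hβ : ∀ t, HasDerivAt β (x * (sn w (Γ t) - γ1) + y * (cos (w * Γ t) * Γθ t)) t)
    (H : ∀ t, cos (w * Γ t) * β t - w ^ 2 * sn w (Γ t) * α t = 0) (a0 : α 0 = 0) (b0 : β 0 = 0)
    (a1 : α (2 * π) = 0) (b1 : β (2 * π) = 0)
    (N : ∀ s, 0 < cos (w * s) * (γ2 - cn w s) + sn w s * (sn w s - γ1)) :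
    x = 0 ∧ ∀ t, y * Γθ t = 0 := by
  have hh : ∀ t, HasDerivAt (fun t => cos (w * Γ t) * α t + sn w (Γ t) * β t)
      (x * (cos (w * Γ t) * (γ2 - cn w (Γ t)) + sn w (Γ t) * (sn w (Γ t) - γ1))) t := fun t => by
    refine (((((hΓ t).const_mul w).cos).mul (hα t)).add
      (((hasDerivAt_sn w _).comp t (hΓ t)).mul (hβ t))).congr_deriv ?_
    rw [← mul_sn]
    simp only [Function.comp_apply]
    linear_combination Γ' t * H t
  obtain ⟨c, -, hc⟩ := exists_hasDerivAt_eq_zero two_pi_pos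
    (fun t _ => (hh t).continuousAt.continuousWithinAt) (by simp [a0, b0, a1, b1]) fun t _ => hh t
  have hx : x = 0 := (mul_eq_zero.1 hc).resolve_right (N _).ne'
  subst hx
  have h0 : ∀ t, cos (w * Γ t) * α t + sn w (Γ t) * β t = 0 := fun t =>
    (is_const_of_deriv_eq_zero (fun t => (hh t).differentiableAt)
      (fun t => (hh t).deriv.trans (zero_mul _)) t 0).trans (by simp [a0, b0])
  have h1 : α = fun _ => 0 := funext fun t => by
    linear_combination cos (w * Γ t) * h0 t - sn w (Γ t) * H t - α t * cos_sq_add w (Γ t)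
  have h2 : β = fun _ => 0 := funext fun t => by
    linear_combination w ^ 2 * sn w (Γ t) * h0 t + cos (w * Γ t) * H t - β t * cos_sq_add w (Γ t)
  subst h1 h2
  refine ⟨rfl, fun t => ?_⟩
  have h3 := (hα t).unique (hasDerivAt_const t 0)
  have h4 := (hβ t).unique (hasDerivAt_const t 0)
  linear_combination cos (w * Γ t) * h4 - w ^ 2 * sn w (Γ t) * h3 - y * Γθ t * cos_sq_add w (Γ t)

/-- primitives of a positive density -/
structure Pre (L : ℝ) (O : Set Q3) (T A B ρ : Z → ℝ) : Prop where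
  hO : IsOpen O
  hOm : O ⊆ Om L
  sT : ContDiffOn ℝ ∞ T (O ×ˢ univ)
  sA : ContDiffOn ℝ ∞ A (O ×ˢ univ)
  sB : ContDiffOn ℝ ∞ B (O ×ˢ univ)
  pos : ∀ q ∈ O, ∀ θ x, 0 < ρ (q, θ, x)
  dT : ∀ q ∈ O, ∀ θ x, HasDerivAt (fun y => T (q, θ, y)) (ρ (q, θ, x)) x
  dA : ∀ q ∈ O, ∀ θ x,
    HasDerivAt (fun y => A (q, θ, y)) (ρ (q, θ, x) * (q.2.2 - cn q.1 (L * cos x))) x
  dB : ∀ q ∈ O, ∀ θ x,
    HasDerivAt (fun y => B (q, θ, y)) (ρ (q, θ, x) * (sn q.1 (L * cos x) - q.2.1)) x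
  perθ : ∀ q ∈ O, ∀ θ x, T (q, θ + 2 * π, x) = T (q, θ, x) ∧ A (q, θ + 2 * π, x) = A (q, θ, x) ∧
    B (q, θ + 2 * π, x) = B (q, θ, x)
  perx : ∀ q ∈ O, ∀ θ x, T (q, θ, x + 2 * π) = T (q, θ, x) + 2 * π ∧
    A (q, θ, x + 2 * π) = A (q, θ, x) ∧ B (q, θ, x + 2 * π) = B (q, θ, x)
  odd : ∀ q ∈ O, ∀ θ x, T (q, θ, -x) = -T (q, θ, x) ∧ A (q, θ, -x) = -A (q, θ, x) ∧
    B (q, θ, -x) = -B (q, θ, x)
  nd : ∀ q ∈ O, ∀ θ, ∃ x y, sin x ≠ 0 ∧ y ≠ 0 ∧ HasDerivAt (fun s => T (q, s, x)) y θ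

theorem Pre.pat {L : ℝ} (hL : 0 < L) {O K : Set Q3} (hK : IsCompact K) (hKO : K ⊆ O)
    {T A B ρ : Z → ℝ} (h : Pre L O T A B ρ) : Nonempty (Pat L K) := by
  have hO := h.hO
  obtain ⟨τ, sτ, hτ⟩ := exists_inv hO h.sT h.dT h.pos fun q hq θ x => (h.perx q hq θ x).1
  have hT : ∀ q ∈ O, ∀ θ t, T (q, θ, τ (q, θ, t)) = t := fun q hq θ t => (hτ q hq θ t _).1 rfl
  have τθ : ∀ q ∈ O, ∀ θ t, τ (q, θ + 2 * π, t) = τ (q, θ, t) := fun q hq θ t =>
    (hτ q hq _ _ _).2 (by rw [(h.perθ q hq _ _).1, hT q hq])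
  have τt : ∀ q ∈ O, ∀ θ t, τ (q, θ, t + 2 * π) = τ (q, θ, t) + 2 * π := fun q hq θ t =>
    (hτ q hq _ _ _).2 (by rw [(h.perx q hq _ _).1, hT q hq])
  have τo : ∀ q ∈ O, ∀ θ t, τ (q, θ, -t) = -τ (q, θ, t) := fun q hq θ t =>
    (hτ q hq _ _ _).2 (by rw [(h.odd q hq _ _).1, hT q hq])
  have dτ : ∀ {z : Z}, z.1 ∈ O → DifferentiableAt ℝ τ z := fun hz =>
    (cda hO sτ hz).differentiableAt (by simp)
  have τd : ∀ q ∈ O, ∀ θ t, ρ (q, θ, τ (q, θ, t)) * fderiv ℝ τ (q, θ, t) (0, 0, 1) = 1 :=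
    fun q hq θ t => by
      have h1 := (h.dT q hq θ _).comp t (deriv_t (dτ (z := (q, θ, t)) hq))
      rw [show ((fun y => T (q, θ, y)) ∘ fun s => τ (q, θ, s)) = id from funext (hT q hq θ)] at h1
      exact h1.unique (hasDerivAt_id t)
  have τp : ∀ {z : Z}, z.1 ∈ O → 0 < fderiv ℝ τ z (0, 0, 1) := fun {z} hz =>
    (pos_iff_pos_of_mul_pos ((τd z.1 hz z.2.1 z.2.2).symm ▸ one_pos)).1 (h.pos _ hz _ _)
  have sσ : ContDiffOn ℝ ∞ (fun z : Z => (z.1, z.2.1, τ z)) (O ×ˢ univ) :=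
    contDiffOn_fst.prodMk (contDiff_snd.fst.contDiffOn.prodMk sτ)
  have mσ : MapsTo (fun z : Z => (z.1, z.2.1, τ z)) (O ×ˢ univ) (O ×ˢ univ) :=
    fun z hz => ⟨hz.1, trivial⟩
  obtain ⟨Γ, hΓ⟩ : ∃ Γ : Z → ℝ, Γ = fun z => L * cos (τ z) := ⟨_, rfl⟩
  obtain ⟨a, ha⟩ : ∃ a : Z → ℝ, a = fun z => A (z.1, z.2.1, τ z) := ⟨_, rfl⟩
  obtain ⟨b, hb⟩ : ∃ b : Z → ℝ, b = fun z => B (z.1, z.2.1, τ z) := ⟨_, rfl⟩
  have sΓ : ContDiffOn ℝ ∞ Γ (O ×ˢ univ) := hΓ ▸ contDiffOn_const.mul sτ.cos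
  have sa : ContDiffOn ℝ ∞ a (O ×ˢ univ) := ha ▸ h.sA.comp sσ mσ
  have sb : ContDiffOn ℝ ∞ b (O ×ˢ univ) := hb ▸ h.sB.comp sσ mσ
  have df : ∀ {f : Z → ℝ}, ContDiffOn ℝ ∞ f (O ×ˢ univ) → ∀ {z : Z}, z.1 ∈ O →
      DifferentiableAt ℝ f z := fun hf _ hz => (cda hO hf hz).differentiableAt (by simp)
  have fΓ : ∀ {z : Z}, z.1 ∈ O → ∀ v, fderiv ℝ Γ z v = -(L * sin (τ z)) * fderiv ℝ τ z v :=
    fun {z} hz v => by
      rw [hΓ, ((dτ hz).hasFDerivAt.cos.const_mul L).fderiv]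
      simp [mul_assoc]
  have ΓT : ∀ q ∈ O, ∀ θ x, Γ (q, θ, T (q, θ, x)) = L * cos x := fun q hq θ x => by
    simp only [hΓ, (hτ q hq θ _ x).2 rfl]
  have da : ∀ q ∈ O, ∀ θ t, HasDerivAt (fun s => a (q, θ, s)) (q.2.2 - cn q.1 (Γ (q, θ, t))) t :=
    fun q hq θ t => by
      rw [ha, hΓ]
      refine ((h.dA q hq θ _).comp t (deriv_t (dτ (z := (q, θ, t)) hq))).congr_deriv ?_
      rw [mul_right_comm, τd q hq, one_mul]
  have db : ∀ q ∈ O, ∀ θ t, HasDerivAt (fun s => b (q, θ, s)) (sn q.1 (Γ (q, θ, t)) - q.2.1) t :=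
    fun q hq θ t => by
      rw [hb, hΓ]
      refine ((h.dB q hq θ _).comp t (deriv_t (dτ (z := (q, θ, t)) hq))).congr_deriv ?_
      rw [mul_right_comm, τd q hq, one_mul]
  have pert : ∀ q ∈ O, ∀ θ t, Γ (q, θ, t + 2 * π) = Γ (q, θ, t) ∧
      a (q, θ, t + 2 * π) = a (q, θ, t) ∧ b (q, θ, t + 2 * π) = b (q, θ, t) := fun q hq θ t => by
    simp only [hΓ, ha, hb, τt q hq, cos_add_two_pi, h.perx q hq, and_self]
  have par : ∀ q ∈ O, ∀ θ t, Γ (q, θ, -t) = Γ (q, θ, t) ∧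
      a (q, θ, -t) = -a (q, θ, t) ∧ b (q, θ, -t) = -b (q, θ, t) := fun q hq θ t => by
    simp only [hΓ, ha, hb, τo q hq, cos_neg, h.odd q hq, and_self]
  refine ⟨⟨O, hO, hKO, Γ, a, b, sΓ, sa, sb, fun q hq θ t => ?_, pert, par, fun q hq θ t => ?_,
    da, db, fun q hq θ x y H => ?_, fun q hq θ x y H => ?_, ?_⟩⟩
  · simp only [hΓ, ha, hb, τθ q hq, h.perθ q hq, and_self]
  · rw [hΓ, abs_mul, abs_of_pos hL]
    exact mul_le_of_le_one_right hL.le (abs_cos_le_one _)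
  · have h1 : ∀ u, x * cos (q.1 * (L * cos u)) + y * sn q.1 (L * cos u) = 0 := fun u =>
      ΓT q hq θ u ▸ H _
    have hx : x = 0 := by simpa [sn] using h1 (π / 2)
    have h2 := ((hasDerivAt_sn q.1 _).comp (π / 2) ((hasDerivAt_cos (π / 2)).const_mul L)).const_mul y
    rw [show (fun u => y * (sn q.1 ∘ fun u => L * cos u) u) = fun _ => 0 from
      funext fun u => by simpa [hx] using h1 u] at h2
    exact ⟨hx, by simpa [hL.ne'] using h2.unique (hasDerivAt_const _ 0)⟩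
  · have z0 : ∀ {f : Z → ℝ}, ContDiffOn ℝ ∞ f (O ×ˢ univ) → (∀ θ t, f (q, θ, -t) = -f (q, θ, t)) →
        (∀ θ t, f (q, θ, t + 2 * π) = f (q, θ, t)) → ∀ t, t = 0 ∨ t = 2 * π →
        x * f (q, θ, t) + y * fderiv ℝ f (q, θ, t) (0, 1, 0) = 0 := fun {f} h1 h2 h3 t ht => by
      have h4 : ∀ s, f (q, s, t) = 0 := fun s => by
        have h5 := h2 s 0
        have h6 := h3 s 0
        rw [neg_zero] at h5
        rw [zero_add] at h6
        rcases ht with rfl | rfl <;> linarith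
      have h5 := deriv_θ (df h1 (z := (q, θ, t)) hq)
      rw [funext h4] at h5
      rw [h4, h5.unique (hasDerivAt_const _ 0), mul_zero, mul_zero, add_zero]
    have oa := fun θ t => (par q hq θ t).2.1
    have ob := fun θ t => (par q hq θ t).2.2
    have pa := fun θ t => (pert q hq θ t).2.1
    have pb := fun θ t => (pert q hq θ t).2.2
    obtain ⟨hx, hy⟩ := ind_core (w := q.1) (γ1 := q.2.1) (γ2 := q.2.2) (x := x) (y := y)
      (Γθ := fun t => fderiv ℝ Γ (q, θ, t) (0, 1, 0))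
      (fun t => deriv_t (df sΓ (z := (q, θ, t)) hq))
      (fun t => ((da q hq θ t).const_mul x).add ((deriv_mixed hO sa
        (g := fun z => z.1.2.2 - cn z.1.1 (Γ z)) da hq θ t (((hasDerivAt_cn q.1 _).comp θ
          (deriv_θ (df sΓ (z := (q, θ, t)) hq))).const_sub q.2.2)).const_mul y))
      (fun t => ((db q hq θ t).const_mul x).add ((deriv_mixed hO sb
        (g := fun z => sn z.1.1 (Γ z) - z.1.2.1) db hq θ t (((hasDerivAt_sn q.1 _).comp θ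
          (deriv_θ (df sΓ (z := (q, θ, t)) hq))).sub_const q.2.1)).const_mul y))
      (fun t => by simp only [Pi.add_apply]; linear_combination H t)
      (z0 sa oa pa 0 (.inl rfl)) (z0 sb ob pb 0 (.inl rfl))
      (z0 sa oa pa _ (.inr rfl)) (z0 sb ob pb _ (.inr rfl)) (tang_pos (h.hOm hq))
    obtain ⟨u, v, h1, h2, h3⟩ := h.nd q hq θ
    have h4 := (df sΓ (z := (q, θ, T (q, θ, u))) hq).hasFDerivAt.comp_hasDerivAt θ
      ((hasDerivAt_const θ q).prodMk ((hasDerivAt_id θ).prodMk h3))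
    rw [show (Γ ∘ fun s => (q, id s, T (q, s, u))) = fun _ => L * cos u from
      funext fun s => ΓT q hq s u] at h4
    have h5 := h4.unique (hasDerivAt_const _ _)
    rw [show ((0, 1, v) : Z) = (0, 1, 0) + v • (0, 0, 1) by simp, map_add, map_smul,
      fΓ hq (0, 0, 1), (hτ q hq θ _ u).2 rfl, smul_eq_mul] at h5
    refine ⟨hx, (mul_eq_zero.1 (hy (T (q, θ, u)))).resolve_right fun h6 => ?_⟩
    rw [h6, zero_add] at h5
    exact mul_ne_zero h2 (mul_ne_zero (neg_ne_zero.2 (mul_ne_zero hL.ne' h1)) (τp hq).ne') h5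
  · have c1 := sτ.continuousOn_fderiv_of_isOpen (hO.prod isOpen_univ) (by simp)
    obtain ⟨C, hC⟩ := bdd_of_per hK hKO (f := fun z => ‖fderiv ℝ τ z‖ / fderiv ℝ τ z (0, 0, 1))
      (c1.norm.div (c1.clm_apply continuousOn_const) fun z hz => (τp hz.1).ne')
      (fun q hq θ t => by
        have := fderiv_shift hO (f := τ) (e := (2 * π, 0)) (c := 0)
          (fun q hq ⟨u, v⟩ => by simpa using τθ q hq u v) hq (θ, t)
        simp only [Prod.mk_add_mk, add_zero] at this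
        simp only [this])
      (fun q hq θ t => by
        have := fderiv_shift hO (f := τ) (e := (0, 2 * π)) (c := 2 * π)
          (fun q hq ⟨u, v⟩ => by simpa using τt q hq u v) hq (θ, t)
        simp only [Prod.mk_add_mk, add_zero] at this
        simp only [this])
    refine ⟨C, fun q hq θ t δ => ?_⟩
    have h1 := τp (z := (q, θ, t)) (hKO hq)
    have h2 := (div_le_iff₀ h1).1 (hC q hq θ t)
    have h3 := (fderiv ℝ τ (q, θ, t)).le_opNorm (δ.1, δ.2, 0)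
    have h4 : ‖((δ.1, δ.2, 0) : Z)‖ = ‖δ‖ := by simp [Prod.norm_def]
    rw [fΓ (hKO hq), fΓ (hKO hq), abs_mul, abs_mul _ (fderiv ℝ τ _ _), abs_of_pos h1,
      mul_left_comm]
    refine mul_le_mul_of_nonneg_left (h3.trans ?_) (abs_nonneg _)
    rw [h4, mul_right_comm]
    exact mul_le_mul_of_nonneg_right h2 (norm_nonneg _)

end Vale.Agent.P205.Pt
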