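import Vale.Agent.P205.QSAux

/-! P205: the core step with cutoff, for smoothed input data. -/

open scoped ContDiff InnerProductSpace Topology
open Set Filter Real

noncomputable section
namespace Vale.Agent.P205

theorem qs_bd_compact {χ : P2 → ℝ} (hχ : ContDiff ℝ ∞ χ) (hc : HasCompactSupport χ) (j : ℕ) :
    ∃ C, ∀ x, ‖iteratedFDeriv ℝ j χ x‖ ≤ C :=
  (hχ.continuous_iteratedFDeriv (by exact_mod_cast le_top)).bounded_above_of_compact_support
    (hc.iteratedFDeriv j)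

theorem qs_errAt_congr {f g g' : P2 → R4} {a2 σ : ℝ} {x : P2} (h : ErrAt f g a2 x σ)
    (hg : g' =ᶠ[𝓝 x] g) : ErrAt f g' a2 x σ := by
  obtain ⟨h1, h2, -⟩ := jets_congr hg
  simpa only [ErrAt, fE, fF, fG, h1, h2] using h

theorem qs_errAt_mono {f g : P2 → R4} {a2 σ σ' : ℝ} {x : P2} (h : ErrAt f g a2 x σ)
    (hσ : σ ≤ σ') : ErrAt f g a2 x σ' :=
  ⟨h.1.trans hσ, h.2.1.trans hσ, h.2.2.trans hσ⟩

namespace QIn
variable {D : ℕ → ℝ} {c : ℝ} {m : ℕ}

/-- the cutoff -/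
def cut (i : QIn D c m) (x : P2) : ℝ := smoothTransition (8 * i.lam * Gram i.f x - 3)

theorem tcut : T (fam2 (U (D := D) (c := c) (m := m)) fun i => i.lam ^ 75) (fun _ _ => 1) cut := by
  have h1 : TT (U (D := D) (c := c) (m := m)) lam 2 1 fun i _ => i.lam :=
    T.const lam fun i _ _ => by rw [pow_one, norm_of_nonneg (by linarith [i.one_le])]
  have h2 : TT (U (D := D) (c := c) (m := m)) lam 2 (1 + 30) fun _ _ => (1 : ℝ) :=
    T.const (fun _ => (1 : ℝ)) fun i _ _ => by simpa using one_le_pow₀ i.one_le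
  have h3 : TT (U (D := D) (c := c) (m := m)) lam 2 (1 + 30)
      fun i x => 8 * i.lam * Gram i.f x - 3 :=
    T.congr (T.sub (T.const_mul (h1.mul tGram) 8) (T.const_mul h2 3)) fun i p _ =>
      Eventually.of_forall fun x => by simp only [mul_assoc, mul_one]
  exact h3.comp bdOn_smoothTransition one_le (by norm_num)

theorem cut_zero (i : QIn D c m) {x : P2} (hx : x ∉ i.U) : ∀ᶠ z in 𝓝 x, i.cut z = 0 := by
  have h1 : ¬ 1 < 4 * i.lam * Gram i.f x := hx
  have h2 : ∀ᶠ z in 𝓝 x, 8 * i.lam * Gram i.f z < 3 :=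
    (continuous_const.mul (qs_contDiff_Gram i.sf).continuous).continuousAt.eventually_lt
      continuousAt_const (show 8 * i.lam * Gram i.f x < 3 by linarith)
  filter_upwards [h2] with z hz
  exact smoothTransition.zero_of_nonpos (by linarith)

theorem cut_one (i : QIn D c m) {x : P2} (hx : 1 ≤ 2 * i.lam * Gram i.f x) : i.cut x = 1 :=
  smoothTransition.one_of_one_le (by linarith)

end QIn

theorem qs_mid : ∃ b : ℕ, 1 ≤ b ∧ ∀ (χ : P2 → ℝ), ContDiff ℝ ∞ χ → HasCompactSupport χ →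
    ∀ (D : ℕ → ℝ) (c : ℝ) (m M : ℕ), 0 < c → Even m →
    ∃ (lam0 C : ℝ) (Cs : ℕ → ℝ), 0 ≤ C ∧ (∀ j, 0 ≤ Cs j) ∧ ∀ i : QIn D c m, lam0 ≤ i.lam →
      ∃ y : P2 → R4, ContDiff ℝ ∞ y ∧ tsupport y ⊆ tsupport χ ∧
        (∀ j x, ‖iteratedFDeriv ℝ j y x‖ ≤ Cs j * i.a x * (i.lam ^ b) ^ j) ∧
        ∀ x, (∀ᶠ z in 𝓝 x, χ z = 1 ∧ 1 ≤ 2 * i.lam * Gram i.f z) →
          ErrAt i.f (fun x => i.f x + y x) (i.a x ^ 2) x (C * i.lam⁻¹ ^ M) := by
  obtain ⟨b, hb, H⟩ := core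
  refine ⟨75 * (b + 1), by omega, fun χ hχ hχc D c m M hc hm => ?_⟩
  obtain ⟨lam0, C, Cs, y, hC, hCs, hy⟩ := H 4 qsK (by norm_num) isCompact_qsK qsK_subset
    (QIn D c m) (QIn.core hc hm) (fun i => (i.lam ^ 75) ^ (b + 1))
    (fun i => pow_le_pow_right₀ (one_le_pow₀ i.one_le) b.le_succ) M
  have hy' : ∀ i : QIn D c m, lam0 ≤ i.lam → lam0 ≤ (QIn.core hc hm).lam i := fun i hi =>
    hi.trans (le_self_pow₀ i.one_le (by norm_num))
  have h0 : ∀ i : QIn D c m, 0 < i.lam := fun i => by linarith [i.one_le]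
  have hq : ∀ i : QIn D c m, (i.lam ^ 75) ^ b / (i.lam ^ 75) ^ (b + 1) ≤ i.lam⁻¹ := fun i => by
    have := h0 i
    rw [pow_succ _ b, div_mul_cancel_left₀ (by positivity)]
    exact inv_anti₀ this (le_self_pow₀ i.one_le (by norm_num))
  let J := {i : QIn D c m // lam0 ≤ i.lam}
  have hΘ : ∀ i : J, 0 < i.1.lam ^ (75 * (b + 1)) := fun i => pow_pos (h0 _) _
  have hsm : ∀ i : J, ∀ x ∈ i.1.U, ContDiffAt ℝ ∞ (y i.1) x := fun i x hx =>
    (hy i.1 (hy' _ i.2)).1.contDiffAt (i.1.isOpen_U.mem_nhds hx)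
  have t1 : T (fam2 (fun i : J => i.1.U) fun i => i.1.lam ^ (75 * (b + 1))) (fun i => i.1.a)
      fun i => y i.1 := by
    refine T.of_iter hΘ (fun i x _ => QIn.a_nonneg hm _ x) hsm fun j => ⟨Cs j, fun i x hx => ?_⟩
    refine ((hy i.1 (hy' _ i.2)).2.1 j x hx).trans ?_
    have h1 := h0 i.1
    have h2 := QIn.a_nonneg hm i.1 x
    have h3 := hCs j
    have h4 := (hq i.1).trans (inv_le_one_of_one_le₀ i.1.one_le)
    calc _ = Cs j * i.1.a x * (i.1.lam ^ (75 * (b + 1))) ^ j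
          * ((i.1.lam ^ 75) ^ b / (i.1.lam ^ 75) ^ (b + 1)) := by
          rw [pow_mul]
          show Cs j * i.1.a x * (i.1.lam ^ 75) ^ b * ((i.1.lam ^ 75) ^ (b + 1)) ^ j
            / (i.1.lam ^ 75) ^ (b + 1) = _
          ring
      _ ≤ _ := mul_le_of_le_one_right (by positivity) h4
  have t2 : T (fam2 (fun i : J => i.1.U) fun i => i.1.lam ^ (75 * (b + 1))) (fun _ _ => 1)
      fun i => i.1.cut :=
    T.fam2_mono (Θ := fun i : J => i.1.lam ^ 75) (QIn.tcut.reindex Subtype.val) fun i =>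
      ⟨pow_pos (h0 _) _, pow_le_pow_right₀ i.1.one_le (by omega)⟩
  have t3 : T (fam2 (fun i : J => i.1.U) fun i => i.1.lam ^ (75 * (b + 1))) (fun _ _ => 1)
      fun _ => χ := by
    refine T.of_iter hΘ (fun _ _ _ => zero_le_one) (fun _ _ _ => hχ.contDiffAt) fun j => ?_
    obtain ⟨B, hB⟩ := qs_bd_compact hχ hχc j
    refine ⟨B, fun i x _ => (hB x).trans ?_⟩
    rw [mul_one]
    exact le_mul_of_one_le_right ((norm_nonneg _).trans (hB x))
      (one_le_pow₀ (one_le_pow₀ i.1.one_le))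
  have t4 := (t2.mul t3).smul t1
  choose Cs' hCs' hb' using t4.to_iter hΘ
  refine ⟨lam0, C, Cs', hC, hCs', fun i hi => ⟨fun x => (i.cut x * χ x) • y i x, ?_⟩⟩
  have hz : ∀ x ∉ i.U, (fun x => (i.cut x * χ x) • y i x) =ᶠ[𝓝 x] fun _ => 0 := fun x hx => by
    filter_upwards [i.cut_zero hx] with z hz
    rw [hz, zero_mul, zero_smul]
  refine ⟨contDiff_iff_contDiffAt.2 fun x => ?_, closure_mono fun x hx h => hx ?_,
    fun j x => ?_, fun x hx => ?_⟩
  · by_cases hx : x ∈ i.U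
    · exact t4.smooth ⟨i, hi⟩ hx
    · exact contDiffAt_const.congr_of_eventuallyEq (hz x hx)
  · simp only [h, mul_zero, zero_smul]
  · by_cases hx : x ∈ i.U
    · simpa only [one_mul] using hb' j ⟨i, hi⟩ x hx
    · rw [((hz x hx).iteratedFDeriv ℝ j).eq_of_nhds, iteratedFDeriv_fun_zero]
      have h1 := h0 i
      have h2 := QIn.a_nonneg hm i x
      have h3 := hCs' j
      simp only [Pi.zero_apply, norm_zero]
      positivity
  · have hU : x ∈ i.U := by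
      have := hx.self_of_nhds.2
      show 1 < 4 * i.lam * Gram i.f x
      linarith
    refine qs_errAt_mono (qs_errAt_congr ((hy i (hy' i hi)).2.2.1 x hU) ?_) ?_
    · filter_upwards [hx] with z hz
      rw [hz.1, i.cut_one hz.2, one_mul, one_smul]
      rfl
    · have h1 := h0 i
      exact mul_le_mul_of_nonneg_left (pow_le_pow_left₀ (by
        show 0 ≤ (i.lam ^ 75) ^ b / (i.lam ^ 75) ^ (b + 1)
        positivity) (hq i) M) hC

end Vale.Agent.P205
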