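import Vale.Agent.P205.Defs

/-! P205: smoothing operators in the plane. With a fixed smooth bump `ρ ≥ 0` of integral one
supported in the unit ball, `A f = ρ_θ ⋆ f` (`ρ_θ x = θ ^ 2 ρ (θ x)`), `R = I - A`,
`S = I - R ^ K = A ∘ ∑_{j < K} R ^ j`. `R` commutes with derivatives, the sup norm of `R g` is at
most twice that of `g` and at most `θ⁻¹` times that of `fderiv g`. -/

open scoped ContDiff InnerProductSpace Topology
open Set Filter Real

noncomputable section
namespace Vale.Agent.P205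

namespace SmoothAux

open MeasureTheory ContinuousLinearMap Metric
open scoped Convolution

theorem nat_le (n : ℕ) : (n : WithTop ℕ∞) ≤ ∞ := by exact_mod_cast le_top

/-- all derivatives of a convolution with a smooth compactly supported kernel -/
theorem conv_bound (m : ℕ) : ∀ (E : Type) [NormedAddCommGroup E] [NormedSpace ℝ E] (ρ : P2 → E),
    HasCompactSupport ρ → ContDiff ℝ ∞ ρ → ∃ c : ℝ, 0 ≤ c ∧
      ∀ (F G : Type) [NormedAddCommGroup F] [NormedSpace ℝ F] [NormedAddCommGroup G]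
        [NormedSpace ℝ G] (L : E →L[ℝ] F →L[ℝ] G) (h : P2 → F) (σ : ℝ), Continuous h →
        (∀ x, ‖h x‖ ≤ σ) → ∀ x, ‖iteratedFDeriv ℝ m (ρ ⋆[L, volume] h) x‖ ≤ c * ‖L‖ * σ := by
  induction m with
  | zero =>
    intro E _ _ ρ hc hs
    refine ⟨∫ t, ‖ρ t‖, integral_nonneg fun _ => norm_nonneg _, ?_⟩
    intro F G _ _ _ _ L h σ _ hb x
    rw [norm_iteratedFDeriv_zero, convolution_def, mul_assoc, ← integral_mul_const]
    refine norm_integral_le_of_norm_le
      (((hs.continuous.integrable_of_hasCompactSupport hc).norm).mul_const _)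
      (Eventually.of_forall fun t => ?_)
    refine (L.le_opNorm₂ _ _).trans ?_
    rw [mul_comm ‖L‖, mul_assoc]
    exact mul_le_mul_of_nonneg_left (mul_le_mul_of_nonneg_left (hb _) L.opNorm_nonneg)
      (norm_nonneg _)
  | succ m ih =>
    intro E _ _ ρ hc hs
    obtain ⟨c, hc0, h1⟩ := ih _ (fderiv ℝ ρ) (hc.fderiv ℝ) (hs.fderiv_right (by simp))
    refine ⟨c, hc0, ?_⟩
    intro F G _ _ _ _ L h σ hh hb x
    have e : fderiv ℝ (ρ ⋆[L, volume] h) = fderiv ℝ ρ ⋆[L.precompL P2, volume] h :=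
      funext fun y => (hc.hasFDerivAt_convolution_left L (hs.of_le (by simp))
        hh.locallyIntegrable y).fderiv
    rw [← norm_iteratedFDeriv_fderiv, e]
    refine (h1 _ _ _ h σ hh hb x).trans ?_
    exact mul_le_mul_of_nonneg_right (mul_le_mul_of_nonneg_left (L.norm_precompL_le P2) hc0)
      ((norm_nonneg _).trans (hb 0))

/-- a fixed bump function -/
def bump : ContDiffBump (0 : P2) := ⟨1 / 2, 1, by norm_num, by norm_num⟩

variable {F : Type} [NormedAddCommGroup F] [NormedSpace ℝ F]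

/-- averaging over the unit ball -/
def avg (h : P2 → F) : P2 → F := bump.normed volume ⋆[lsmul ℝ ℝ, volume] h

theorem avg_smooth {h : P2 → F} (hh : Continuous h) : ContDiff ℝ ∞ (avg h) :=
  bump.hasCompactSupport_normed.contDiff_convolution_left _ bump.contDiff_normed
    hh.locallyIntegrable

theorem avg_eq (h : P2 → F) : avg h = fun x => ∫ t, bump.normed volume t • h (x - t) := rfl

theorem fderiv_avg {h : P2 → F} (hh : ContDiff ℝ ∞ h) : fderiv ℝ (avg h) = avg (fderiv ℝ h) := by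
  funext x
  have hd : Continuous (fderiv ℝ h) := hh.continuous_fderiv (by simp)
  have hρ : Continuous (bump.normed (volume : Measure P2)) := bump.continuous_normed
  obtain ⟨M, hM⟩ := (isCompact_closedBall x 2).exists_bound_of_continuousOn hd.continuousOn
  rw [avg_eq, avg_eq]
  refine (hasFDerivAt_integral_of_dominated_of_fderiv_le (𝕜 := ℝ) (μ := volume)
    (F := fun y t => bump.normed volume t • h (y - t))
    (F' := fun y t => bump.normed volume t • fderiv ℝ h (y - t)) (s := ball x 1)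
    (bound := fun t => ‖bump.normed volume t‖ * M) (ball_mem_nhds x one_pos)
    (Eventually.of_forall fun y => ?_) ?_ ?_ (Eventually.of_forall fun t y hy => ?_) ?_
    (Eventually.of_forall fun t y _ => ?_)).fderiv
  · exact (hρ.smul (hh.continuous.comp (continuous_const.sub continuous_id))).aestronglyMeasurable
  · exact Continuous.integrable_of_hasCompactSupport
      (hρ.smul (hh.continuous.comp (continuous_const.sub continuous_id)))
      bump.hasCompactSupport_normed.smul_right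
  · exact (hρ.smul (hd.comp (continuous_const.sub continuous_id))).aestronglyMeasurable
  · rw [norm_smul]
    by_cases h0 : bump.normed volume t = 0
    · rw [h0, norm_zero, zero_mul, zero_mul]
    · have ht : t ∈ ball (0 : P2) 1 := by
        have : t ∈ Function.support (bump.normed (volume : Measure P2)) := h0
        rwa [bump.support_normed_eq] at this
      refine mul_le_mul_of_nonneg_left (hM _ ?_) (norm_nonneg _)
      rw [mem_ball_zero_iff] at ht
      rw [mem_ball_iff_norm] at hy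
      rw [mem_closedBall_iff_norm, sub_right_comm]
      exact (norm_sub_le _ _).trans (by linarith)
  · exact bump.integrable_normed.norm.mul_const M
  · have h1 : HasFDerivAt (fun y : P2 => h (y - t)) (fderiv ℝ h (y - t)) y :=
      (hasFDerivAt_comp_sub t).2
        (hh.differentiable (by simp) (y - t)).hasFDerivAt
    exact h1.const_smul _

theorem avg_bound (m : ℕ) : ∃ c : ℝ, 0 ≤ c ∧ ∀ (j : ℕ) (F : Type) [NormedAddCommGroup F]
    [NormedSpace ℝ F] (h : P2 → F) (σ : ℝ), ContDiff ℝ ∞ h →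
      (∀ x, ‖iteratedFDeriv ℝ j h x‖ ≤ σ) → ∀ x, ‖iteratedFDeriv ℝ (j + m) (avg h) x‖ ≤ c * σ := by
  obtain ⟨c, hc0, h1⟩ := conv_bound m ℝ (bump.normed volume) bump.hasCompactSupport_normed
    bump.contDiff_normed
  refine ⟨c, hc0, fun j => ?_⟩
  induction j with
  | zero =>
    intro F _ _ h σ hh hb x
    simp only [norm_iteratedFDeriv_zero] at hb
    rw [zero_add]
    refine (h1 F F (lsmul ℝ ℝ) h σ hh.continuous hb x).trans ?_
    exact mul_le_mul_of_nonneg_right (mul_le_of_le_one_right hc0 opNorm_lsmul_le)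
      ((norm_nonneg _).trans (hb 0))
  | succ j ih =>
    intro F _ _ h σ hh hb x
    rw [Nat.add_right_comm, ← norm_iteratedFDeriv_fderiv, fderiv_avg hh]
    refine ih _ _ σ (hh.fderiv_right (by simp)) (fun y => ?_) x
    rw [norm_iteratedFDeriv_fderiv]
    exact hb y

theorem avg_err (j : ℕ) : ∀ (F : Type) [NormedAddCommGroup F] [NormedSpace ℝ F] [CompleteSpace F]
    (h : P2 → F) (σ : ℝ), ContDiff ℝ ∞ h → (∀ x, ‖iteratedFDeriv ℝ (j + 1) h x‖ ≤ σ) →
      ∀ x, ‖iteratedFDeriv ℝ j (fun y => h y - avg h y) x‖ ≤ σ := by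
  induction j with
  | zero =>
    intro F _ _ _ h σ hh hb x
    replace hb : ∀ y, ‖fderiv ℝ h y‖ ≤ σ := fun y =>
      (norm_iteratedFDeriv_one (𝕜 := ℝ) (x := y) h).symm.trans_le (hb y)
    rw [norm_iteratedFDeriv_zero, ← dist_eq_norm, dist_comm]
    refine bump.dist_normed_convolution_le hh.continuous.aestronglyMeasurable fun y hy => ?_
    rw [dist_eq_norm]
    refine (convex_univ.norm_image_sub_le_of_norm_fderiv_le
      (fun z _ => hh.differentiable (by simp) z) (fun z _ => hb z) (mem_univ x)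
      (mem_univ y)).trans ?_
    exact mul_le_of_le_one_right ((norm_nonneg _).trans (hb 0)) (mem_ball_iff_norm.1 hy).le
  | succ j ih =>
    intro F _ _ _ h σ hh hb x
    have e : fderiv ℝ (fun y => h y - avg h y) = fun y => fderiv ℝ h y - avg (fderiv ℝ h) y := by
      funext y
      rw [fderiv_fun_sub (hh.differentiable (by simp) y)
        ((avg_smooth hh.continuous).differentiable (by simp) y), fderiv_avg hh]
    rw [← norm_iteratedFDeriv_fderiv, e]
    refine ih _ _ σ (hh.fderiv_right (by simp)) (fun y => ?_) x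
    rw [norm_iteratedFDeriv_fderiv]
    exact hb y

/-- the case of unit scale -/
theorem unit_scale (F : Type) [NormedAddCommGroup F] [NormedSpace ℝ F] [CompleteSpace F]
    (K : ℕ) : ∃ C : ℕ → ℝ, (∀ m, 1 ≤ C m) ∧ ∀ f : P2 → F, ContDiff ℝ ∞ f →
      ∃ g : P2 → F, ContDiff ℝ ∞ g ∧
        (∀ (j m : ℕ) (σ : ℝ), (∀ x, ‖iteratedFDeriv ℝ j f x‖ ≤ σ) →
          ∀ x, ‖iteratedFDeriv ℝ (j + m) g x‖ ≤ C m * σ) ∧
        (∀ (j : ℕ) (σ : ℝ), (∀ x, ‖iteratedFDeriv ℝ (j + K) f x‖ ≤ σ) →
          ∀ x, ‖iteratedFDeriv ℝ j (fun y => f y - g y) x‖ ≤ σ) := by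
  induction K with
  | zero =>
    refine ⟨fun _ => 1, fun _ => le_rfl, fun f _ => ⟨fun _ => 0, contDiff_const, ?_, ?_⟩⟩
    · intro j m σ hb x
      rw [iteratedFDeriv_fun_zero, Pi.zero_apply, norm_zero, one_mul]
      exact (norm_nonneg _).trans (hb 0)
    · intro j σ hb x
      simp only [sub_zero]
      exact hb x
  | succ K ih =>
    obtain ⟨C, hC, h1⟩ := ih
    choose c hc0 hc using avg_bound
    refine ⟨fun m => C m + c m * (1 + C 0), fun m => ?_, fun f hf => ?_⟩
    · have := mul_nonneg (hc0 m) (by linarith [hC 0] : 0 ≤ 1 + C 0)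
      linarith [hC m]
    · obtain ⟨g, hg, h2, h3⟩ := h1 f hf
      have hr : ContDiff ℝ ∞ fun y => f y - g y := hf.sub hg
      have ha := avg_smooth hr.continuous
      refine ⟨fun y => g y + avg (fun y => f y - g y) y, hg.add ha, ?_, ?_⟩
      · intro j m σ hb x
        have b1 : ∀ y, ‖iteratedFDeriv ℝ j (fun y => f y - g y) y‖ ≤ (1 + C 0) * σ := fun y => by
          rw [fun_iteratedFDeriv_sub_apply (hf.contDiffAt.of_le (nat_le _))
            (hg.contDiffAt.of_le (nat_le _))]
          refine (norm_sub_le _ _).trans ?_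
          have := h2 j 0 σ hb y
          rw [add_zero] at this
          linarith [hb y]
        rw [fun_iteratedFDeriv_add_apply (hg.contDiffAt.of_le (nat_le _))
          (ha.contDiffAt.of_le (nat_le _))]
        refine (norm_add_le _ _).trans ?_
        have b2 := hc m j F _ _ hr b1 x
        have b3 := h2 j m σ hb x
        linarith
      · intro j σ hb x
        simp only [← sub_sub]
        refine avg_err j F _ σ hr (h3 (j + 1) σ fun y => ?_) x
        rw [Nat.add_right_comm]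
        exact hb y

theorem norm_scale {f : P2 → F} (hf : ContDiff ℝ ∞ f) {a : ℝ} (ha : 0 < a) (n : ℕ) (x : P2) :
    ‖iteratedFDeriv ℝ n (fun z => f (a • z)) x‖ = a ^ n * ‖iteratedFDeriv ℝ n f (a • x)‖ := by
  rw [iteratedFDeriv_comp_const_smul a (hf.of_le (nat_le _)), norm_smul, Real.norm_eq_abs,
    abs_of_pos (pow_pos ha n)]

end SmoothAux

open SmoothAux in
theorem exists_smoothing (F : Type) [NormedAddCommGroup F] [NormedSpace ℝ F] [CompleteSpace F]
    (K : ℕ) : ∃ C : ℕ → ℝ, (∀ m, 1 ≤ C m) ∧ ∀ θ : ℝ, 0 < θ → ∀ f : P2 → F, ContDiff ℝ ∞ f →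
      ∃ g : P2 → F, ContDiff ℝ ∞ g ∧
        (∀ (j m : ℕ) (σ : ℝ), (∀ x, ‖iteratedFDeriv ℝ j f x‖ ≤ σ) →
          ∀ x, ‖iteratedFDeriv ℝ (j + m) g x‖ ≤ C m * θ ^ m * σ) ∧
        (∀ (j : ℕ) (σ : ℝ), (∀ x, ‖iteratedFDeriv ℝ (j + K) f x‖ ≤ σ) →
          ∀ x, ‖iteratedFDeriv ℝ j (fun y => f y - g y) x‖ ≤ σ / θ ^ K) := by
  obtain ⟨C, hC, h1⟩ := unit_scale F K
  refine ⟨C, hC, fun θ hθ f hf => ?_⟩
  have hθ' : 0 < θ⁻¹ := inv_pos.2 hθ
  have hf' : ContDiff ℝ ∞ fun z : P2 => f (θ⁻¹ • z) := hf.comp (contDiff_const_smul _)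
  obtain ⟨g, hg, h2, h3⟩ := h1 _ hf'
  have hb' : ∀ (n : ℕ) (σ : ℝ), (∀ x, ‖iteratedFDeriv ℝ n f x‖ ≤ σ) →
      ∀ x, ‖iteratedFDeriv ℝ n (fun z : P2 => f (θ⁻¹ • z)) x‖ ≤ θ⁻¹ ^ n * σ := fun n σ hb x => by
    rw [norm_scale hf hθ']
    exact mul_le_mul_of_nonneg_left (hb _) (pow_pos hθ' n).le
  refine ⟨fun z => g (θ • z), hg.comp (contDiff_const_smul _), fun j m σ hb x => ?_,
    fun j σ hb x => ?_⟩
  · rw [norm_scale hg hθ]
    refine (mul_le_mul_of_nonneg_left (h2 j m _ (hb' j σ hb) _) (pow_pos hθ _).le).trans_eq ?_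
    rw [pow_add, inv_pow]
    field_simp
  · have e : (fun y => f y - g (θ • y)) =
        fun y => (fun z : P2 => f (θ⁻¹ • z) - g z) (θ • y) := by
      funext y
      simp only [inv_smul_smul₀ hθ.ne']
    rw [e, norm_scale (hf'.sub hg) hθ]
    refine (mul_le_mul_of_nonneg_left (h3 j _ (hb' (j + K) σ hb) _) (pow_pos hθ _).le).trans_eq ?_
    rw [inv_pow, pow_add]
    field_simp

end Vale.Agent.P205
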