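import Vale.Agent.P205.Core
import Vale.Agent.P205.Smooth
import Vale.Agent.P205.QSMid

/-! P205: the quantitative small step in the plane (see BLUEPRINT, module G). -/

open scoped ContDiff InnerProductSpace Topology
open Set Filter Real

noncomputable section
namespace Vale.Agent.P205

theorem qs_gram_cmp {a b c a' b' c' : R4} {P η : ℝ} (hb : ‖b‖ ≤ P) (hc : ‖c‖ ≤ P)
    (ha' : ‖a'‖ ≤ P) (hb' : ‖b'‖ ≤ P) (h1 : ‖a - a'‖ ≤ η) (h2 : ‖b - b'‖ ≤ η) (h3 : ‖c - c'‖ ≤ η) :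
    gram3 a b c ≤ 4 / 3 * gram3 a' b' c' + 4 * (3 * P ^ 2 * η) ^ 2 := by
  obtain ⟨B, hB⟩ := exists_cross3_clm
  have key : ∀ (u v w : R4) (p q r : ℝ), ‖u‖ ≤ p → ‖v‖ ≤ q → ‖w‖ ≤ r →
      ‖B u v w‖ ≤ p * q * r := fun u v w p q r hu hv hw => by
    have hp := (norm_nonneg _).trans hu
    have hq := (norm_nonneg _).trans hv
    have hr := (norm_nonneg _).trans hw
    refine (pow_le_pow_iff_left₀ (norm_nonneg _) (by positivity) two_ne_zero).1 ?_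
    rw [hB, norm_cross3_sq, mul_pow, mul_pow]
    refine (gram3_le _ _ _).trans ?_
    gcongr
    exact (gram2_le _ _).trans (by gcongr)
  have e : B a b c = B a' b' c' + (B (a - a') b c + B a' (b - b') c + B a' b' (c - c')) := by
    simp only [map_sub, sub_apply]
    abel
  have h4 : ‖B a b c‖ ≤ ‖B a' b' c'‖ + 3 * P ^ 2 * η := by
    rw [e]
    refine (norm_add_le _ _).trans (add_le_add le_rfl (norm_add₃_le.trans ?_))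
    have k1 := key _ _ _ _ _ _ h1 hb hc
    have k2 := key _ _ _ _ _ _ ha' h2 hc
    have k3 := key _ _ _ _ _ _ ha' hb' h3
    linarith
  rw [← norm_cross3_sq, ← norm_cross3_sq, ← hB, ← hB]
  refine (pow_le_pow_left₀ (norm_nonneg _) h4 2).trans ?_
  nlinarith [sq_nonneg (‖B a' b' c'‖ - 3 * (3 * P ^ 2 * η))]

theorem qs_vec {A B A0 B0 u v : R4} {η s σ t t' τ : ℝ}
    (h : |⟪A0 + u, B0 + v⟫_ℝ - ⟪A0, B0⟫_ℝ - t| ≤ σ) (hA : ‖A - A0‖ ≤ η) (hB : ‖B - B0‖ ≤ η)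
    (hu : ‖u‖ ≤ s) (hv : ‖v‖ ≤ s) (ht : |t - t'| ≤ τ) :
    |⟪A + u, B + v⟫_ℝ - ⟪A, B⟫_ℝ - t'| ≤ σ + 2 * η * s + τ := by
  have hη : 0 ≤ η := (norm_nonneg _).trans hA
  have h1 : |⟪A - A0, v⟫_ℝ| ≤ η * s := (abs_real_inner_le_norm _ _).trans (by gcongr)
  have h2 : |⟪B - B0, u⟫_ℝ| ≤ η * s := (abs_real_inner_le_norm _ _).trans (by gcongr)
  have e : ⟪A + u, B + v⟫_ℝ - ⟪A, B⟫_ℝ - t' = ⟪A0 + u, B0 + v⟫_ℝ - ⟪A0, B0⟫_ℝ - t
      + ⟪A - A0, v⟫_ℝ + ⟪B - B0, u⟫_ℝ + (t - t') := by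
    simp only [inner_add_left, inner_add_right, inner_sub_left, inner_sub_right, real_inner_comm u]
    ring
  rw [e]
  rw [abs_le] at *
  constructor <;> linarith [h.1, h.2, h1.1, h1.2, h2.1, h2.2, ht.1, ht.2]

theorem qs_du_add {f y : P2 → R4} (hf : ContDiff ℝ ∞ f) (hy : ContDiff ℝ ∞ y) (x : P2) :
    du (fun x => f x + y x) x = du f x + du y x ∧ dv (fun x => f x + y x) x = dv f x + dv y x := by
  simp only [du, dv, fderiv_fun_add (hf.differentiable (by simp) x) (hy.differentiable (by simp) x),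
    add_apply, and_self]

theorem qs_du_sub {f y : P2 → R4} (hf : ContDiff ℝ ∞ f) (hy : ContDiff ℝ ∞ y) (x : P2) :
    du (fun x => f x - y x) x = du f x - du y x ∧ dv (fun x => f x - y x) x = dv f x - dv y x := by
  simp only [du, dv, fderiv_fun_sub (hf.differentiable (by simp) x) (hy.differentiable (by simp) x),
    sub_apply, and_self]

theorem qs_err {f g y : P2 → R4} (hf : ContDiff ℝ ∞ f) (hg : ContDiff ℝ ∞ g) (hy : ContDiff ℝ ∞ y)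
    {x : P2} {η s σ t t' τ : ℝ} (h : ErrAt g (fun x => g x + y x) t x σ)
    (hA : ‖du f x - du g x‖ ≤ η) (hB : ‖dv f x - dv g x‖ ≤ η)
    (hs : ‖iteratedFDeriv ℝ 1 y x‖ ≤ s) (ht : |t - t'| ≤ τ) :
    ErrAt f (fun x => f x + y x) t' x (σ + 2 * η * s + τ) := by
  have hu := (norm_du_le y x).trans hs
  have hv := (norm_dv_le y x).trans hs
  have h0 : |(0 : ℝ) - 0| ≤ τ := by simpa using (abs_nonneg _).trans ht
  simp only [ErrAt, fE, fF, fG, qs_du_add hf hy x, qs_du_add hg hy x] at h ⊢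
  refine ⟨?_, ?_, qs_vec h.2.2 hB hB hv hv ht⟩
  · simpa only [sub_zero] using qs_vec (t := 0) (by simpa only [sub_zero] using h.1) hA hA hu hu h0
  · simpa only [sub_zero] using
      qs_vec (t := 0) (by simpa only [sub_zero] using h.2.1) hA hB hu hv h0

theorem qs_err_zero {y : P2 → R4} {x : P2} {s : ℝ}
    (hs : ‖iteratedFDeriv ℝ 1 y x‖ ≤ s) :
    ErrAt (fun _ => 0) (fun x => (fun _ => (0 : R4)) x + y x) 0 x (s * s) := by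
  have hu := (norm_du_le y x).trans hs
  have hv := (norm_dv_le y x).trans hs
  have h0 := (norm_nonneg _).trans hs
  have h1 : du (fun _ : P2 => (0 : R4)) x = 0 := by simp [du]
  have h2 : dv (fun _ : P2 => (0 : R4)) x = 0 := by simp [dv]
  simp only [ErrAt, fE, fF, fG, h1, h2, zero_add, inner_zero_left, sub_zero]
  refine ⟨?_, ?_, ?_⟩ <;> exact (abs_real_inner_le_norm _ _).trans (by gcongr)

theorem qs_amp (m : ℕ) (Qb : ℝ) : ∃ W : ℝ, 0 ≤ W ∧ ∀ δ β β0 ρ ρ0 τ s : ℝ, 0 ≤ δ → δ ≤ 1 →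
    |ρ| ≤ 1 → |ρ - ρ0| ≤ s → |β - β0| ≤ s → 0 ≤ β0 → β0 ≤ Qb → 0 ≤ τ → τ ≤ s → s ≤ 1 →
    |(√δ * √β0 * (ρ0 ^ m + τ)) ^ 2 - δ * ρ ^ (2 * m) * β| ≤ W * s := by
  refine ⟨|Qb| * ((m * 2 ^ (m - 1) + 1) * (m * 2 ^ (m - 1) + 3)) + 1, by positivity,
    fun δ β β0 ρ ρ0 τ s hδ hδ1 hρ h1 h2 hβ hβ1 hτ hτ1 hs1 => ?_⟩
  have hs := hτ.trans hτ1
  have h3 : |ρ0| ≤ 2 := by
    rw [abs_le] at *
    constructor <;> linarith [hρ.1, hρ.2, h1.1, h1.2]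
  have h4 : |ρ0 ^ m - ρ ^ m| ≤ s * m * 2 ^ (m - 1) := by
    refine (abs_pow_sub_pow_le ..).trans ?_
    rw [abs_sub_comm]
    gcongr
    exact max_le h3 (by linarith)
  have hv : |ρ ^ m| ≤ 1 := by
    rw [abs_pow]
    exact pow_le_one₀ (abs_nonneg _) hρ
  have h5 : |ρ0 ^ m + τ - ρ ^ m| ≤ (m * 2 ^ (m - 1) + 1) * s := by
    rw [abs_le] at *
    constructor <;> linarith [h4.1, h4.2]
  have h6 : |ρ0 ^ m + τ + ρ ^ m| ≤ m * 2 ^ (m - 1) + 3 := by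
    have : (m * 2 ^ (m - 1) + 1 : ℝ) * s ≤ m * 2 ^ (m - 1) + 1 :=
      mul_le_of_le_one_right (by positivity) hs1
    rw [abs_le] at *
    constructor <;> linarith [h5.1, h5.2, hv.1, hv.2]
  have e : (√δ * √β0 * (ρ0 ^ m + τ)) ^ 2 - δ * ρ ^ (2 * m) * β
      = δ * (β0 * ((ρ0 ^ m + τ - ρ ^ m) * (ρ0 ^ m + τ + ρ ^ m)) - (β - β0) * (ρ ^ m * ρ ^ m)) := by
    rw [mul_pow, mul_pow, sq_sqrt hδ, sq_sqrt hβ]
    ring
  rw [e, abs_mul, abs_of_nonneg hδ]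
  refine (mul_le_of_le_one_left (abs_nonneg _) hδ1).trans ((abs_sub _ _).trans ?_)
  simp only [abs_mul, abs_of_nonneg hβ]
  calc _ ≤ |Qb| * ((m * 2 ^ (m - 1) + 1) * s * (m * 2 ^ (m - 1) + 3)) + s * (1 * 1) := by
        gcongr
        exact hβ1.trans (le_abs_self _)
    _ = _ := by ring

theorem qs_pow {lam : ℝ} (h : 1 ≤ lam) {p L K : ℕ} (hp : p + L ≤ 2 * K) :
    lam ^ p / (lam ^ 2) ^ K ≤ lam⁻¹ ^ L := by
  have h0 : 0 < lam := by linarith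
  rw [inv_pow, ← pow_mul, div_le_iff₀ (by positivity), le_inv_mul_iff₀ (by positivity), ← pow_add]
  exact pow_le_pow_right₀ h (by omega)

theorem qs_pow' {lam : ℝ} (h : 1 ≤ lam) {p L n : ℕ} (hp : p + n ≤ L) :
    lam ^ p * lam⁻¹ ^ L ≤ lam⁻¹ ^ n := by
  have h0 : 0 < lam := by linarith
  rw [inv_pow, inv_pow, mul_inv_le_iff₀ (by positivity), le_inv_mul_iff₀ (by positivity), ← pow_add]
  exact pow_le_pow_right₀ h (by omega)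

theorem qs_norm_duu {f : P2 → R4} (hf : ContDiff ℝ ∞ f) (x : P2) :
    ‖du (du f) x‖ ≤ ‖iteratedFDeriv ℝ 2 f x‖ :=
  (norm_du_le _ x).trans (norm_iter_du_le hf.contDiffAt 1)

theorem qs_smooth {c0 : ℝ} (hc0 : 0 < c0) (N L m : ℕ) (hL : 10 ≤ L) :
    ∃ (K : ℕ) (D : ℕ → ℝ) (lam1 : ℝ), 1 ≤ K ∧
      ∀ (lam δ : ℝ) (f : P2 → R4) (ρ β : P2 → ℝ), lam1 ≤ lam → 0 < δ → δ ≤ (lam ^ 8)⁻¹ →
        ContDiff ℝ ∞ f → ContDiff ℝ ∞ ρ → ContDiff ℝ ∞ β →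
        (∀ j ≤ K, ∀ x, ‖iteratedFDeriv ℝ j f x‖ ≤ lam ^ (j + 1)) →
        (∀ j ≤ K, ∀ x, ‖iteratedFDeriv ℝ j ρ x‖ ≤ lam ^ (j + 1)) →
        (∀ j ≤ K, ∀ x, ‖iteratedFDeriv ℝ j β x‖ ≤ lam ^ (j + N)) →
        (∀ x, |ρ x| ≤ 1) → (∀ x, c0 ≤ β x ∧ β x ≤ c0⁻¹) →
        ∃ i : QIn D (c0 / 2) m, i.lam = lam ∧ i.δ = δ ∧ ∀ x,
          ‖du f x - du i.f x‖ ≤ lam⁻¹ ^ L ∧ ‖dv f x - dv i.f x‖ ≤ lam⁻¹ ^ L ∧
          |ρ x - i.ρ x| ≤ lam⁻¹ ^ L ∧ |β x - i.β x| ≤ lam⁻¹ ^ L ∧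
          (lam⁻¹ ≤ Gram f x → 1 ≤ 2 * lam * Gram i.f x) := by
  obtain ⟨C1, hC1, H1⟩ := exists_smoothing R4 (L + N + 3)
  obtain ⟨C2, hC2, H2⟩ := exists_smoothing ℝ (L + N + 3)
  obtain ⟨lam1, hlam1⟩ := ((eventually_ge_atTop (12 : ℝ)).and ((eventually_ge_atTop (2 / c0)).and
    (eventually_ge_atTop (√(c0⁻¹ + 1) * (2 ^ m + 1))))).exists_forall_of_atTop
  refine ⟨L + N + 3 + 2, fun j => C1 j + C2 j + C2 j * c0⁻¹, lam1, by omega,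
    fun lam δ f ρ β hl hδ hδ1 hf hρ hβ bf bρ bβ hρ1 hβ1 => ?_⟩
  obtain ⟨l1, l2, l3⟩ := hlam1 lam hl
  have h1 : 1 ≤ lam := by linarith
  have h0 : 0 < lam := by linarith
  have ht : lam⁻¹ ≤ 1 := inv_le_one_of_one_le₀ h1
  have ht0 : 0 < lam⁻¹ := inv_pos.2 h0
  have hη : lam⁻¹ ^ L ≤ lam⁻¹ := pow_le_of_le_one ht0.le ht (by omega)
  obtain ⟨g, hg, bg, eg⟩ := H1 (lam ^ 2) (by positivity) f hf
  obtain ⟨ρ0, hρ0, bρ0, eρ⟩ := H2 (lam ^ 2) (by positivity) ρ hρ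
  obtain ⟨β0, hβ0, bβ0, eβ⟩ := H2 (lam ^ 2) (by positivity) β hβ
  have e1 : ∀ j ≤ 2, ∀ x, ‖iteratedFDeriv ℝ j (fun y => f y - g y) x‖ ≤ lam⁻¹ ^ L := fun j hj x =>
    (eg j _ (bf _ (by omega)) x).trans (qs_pow h1 (by omega))
  have e2 : ∀ x, |ρ x - ρ0 x| ≤ lam⁻¹ ^ L := fun x => by
    simpa using (eρ 0 _ (bρ _ (by omega)) x).trans (qs_pow h1 (L := L) (by omega))
  have e3 : ∀ x, |β x - β0 x| ≤ lam⁻¹ ^ L := fun x => by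
    simpa using (eβ 0 _ (bβ _ (by omega)) x).trans (qs_pow h1 (L := L) (by omega))
  have sd : ∀ {h : P2 → R4}, ContDiff ℝ ∞ h → ContDiff ℝ ∞ (du h) := fun hh =>
    contDiff_iff_contDiffAt.2 fun _ => contDiffAt_du hh.contDiffAt
  have eA : ∀ x, ‖du f x - du g x‖ ≤ lam⁻¹ ^ L := fun x => by
    rw [← (qs_du_sub hf hg x).1]
    exact (norm_du_le _ x).trans (e1 1 (by norm_num) x)
  have eB : ∀ x, ‖dv f x - dv g x‖ ≤ lam⁻¹ ^ L := fun x => by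
    rw [← (qs_du_sub hf hg x).2]
    exact (norm_dv_le _ x).trans (e1 1 (by norm_num) x)
  have eK : ∀ x, ‖du (du f) x - du (du g) x‖ ≤ lam⁻¹ ^ L := fun x => by
    rw [← (qs_du_sub (sd hf) (sd hg) x).1, ← funext fun z => (qs_du_sub hf hg z).1]
    exact (qs_norm_duu (hf.sub hg) x).trans (e1 2 le_rfl x)
  have up : ∀ {v w : R4} {n : ℕ}, ‖v‖ ≤ lam ^ n → ‖v - w‖ ≤ lam⁻¹ ^ L → ‖w‖ ≤ lam ^ (n + 1) :=
    fun {v w n} hv hw => by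
      have k1 := norm_le_norm_add_norm_sub v w
      have k2 : 1 ≤ lam ^ n := one_le_pow₀ h1
      rw [pow_succ]
      nlinarith
  have fA : ∀ x, ‖du f x‖ ≤ lam ^ 2 := fun x => (norm_du_le f x).trans (bf 1 (by omega) x)
  have fB : ∀ x, ‖dv f x‖ ≤ lam ^ 2 := fun x => (norm_dv_le f x).trans (bf 1 (by omega) x)
  have fK : ∀ x, ‖du (du f) x‖ ≤ lam ^ 3 := fun x => (qs_norm_duu hf x).trans (bf 2 (by omega) x)
  have hc : 0 < c0⁻¹ := inv_pos.2 hc0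
  have p24 : lam ^ 2 ≤ lam ^ 4 := pow_le_pow_right₀ h1 (by norm_num)
  have p34 : lam ^ 3 ≤ lam ^ 4 := pow_le_pow_right₀ h1 (by norm_num)
  refine ⟨⟨lam, δ, g, ρ0, β0, by linarith, hδ, hg, hρ0, hβ0, fun j x => ?_, fun j x => ?_,
    fun j x => ?_, fun x => ?_, fun x => up (fA x) (eA x), fun x => up (fB x) (eB x),
    fun x => up (fK x) (eK x), fun x => ?_⟩, rfl, rfl, fun x => ⟨eA x, eB x, e2 x, e3 x, fun hG => ?_⟩⟩
  · have k := bg 0 j _ (bf 0 (by omega)) x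
    have k2 := hC2 j
    rw [zero_add, zero_add, mul_right_comm] at k
    refine k.trans ?_
    gcongr
    nlinarith
  · have k := bρ0 0 j 1 (by simpa using hρ1) x
    have k1 := hC1 j
    have k2 := hC2 j
    rw [zero_add, mul_right_comm] at k
    refine k.trans ?_
    gcongr
    nlinarith
  · have k := bβ0 0 j c0⁻¹ (fun z => by
      rw [norm_iteratedFDeriv_zero, norm_of_nonneg (hc0.le.trans (hβ1 z).1)]
      exact (hβ1 z).2) x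
    have k1 := hC1 j
    have k2 := hC2 j
    rw [zero_add, mul_right_comm] at k
    rw [mul_one]
    refine k.trans ?_
    gcongr
    linarith
  · have k1 : lam⁻¹ ≤ c0 / 2 := by
      rw [inv_le_comm₀ h0 (by positivity), inv_div]
      exact l2
    linarith [(abs_le.1 (e3 x)).2, (hβ1 x).1]
  · have k1 : √δ ≤ lam⁻¹ := by
      refine sqrt_le_iff.2 ⟨ht0.le, hδ1.trans ?_⟩
      rw [← inv_pow]
      exact pow_le_pow_of_le_one ht0.le ht (by norm_num)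
    have k2 : √(β0 x) ≤ √(c0⁻¹ + 1) :=
      sqrt_le_sqrt (by linarith [(abs_le.1 (e3 x)).1, (hβ1 x).2])
    have k3 : |ρ0 x| ≤ 2 := by
      have := abs_le.1 (e2 x)
      have := abs_le.1 (hρ1 x)
      rw [abs_le]
      constructor <;> linarith
    have k4 : ρ0 x ^ m + lam⁻¹ ^ m ≤ 2 ^ m + 1 := add_le_add ((le_abs_self _).trans (by
      rw [abs_pow]
      gcongr)) (pow_le_one₀ ht0.le ht)
    calc √δ * √(β0 x) * (ρ0 x ^ m + lam⁻¹ ^ m) ≤ √δ * √(β0 x) * (2 ^ m + 1) := by gcongr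
      _ ≤ lam⁻¹ * √(c0⁻¹ + 1) * (2 ^ m + 1) := by gcongr
      _ ≤ 1 := by
        rw [mul_assoc, inv_mul_le_iff₀ h0, mul_one]
        exact l3
  · have k := qs_gram_cmp ((fB x).trans p24) ((fK x).trans p34) ((up (fA x) (eA x)).trans p34)
      ((up (fB x) (eB x)).trans p34) (eA x) (eB x) (eK x)
    have k1 : (lam ^ 4) ^ 2 * lam⁻¹ ^ L ≤ lam⁻¹ ^ 2 := by
      rw [← pow_mul]
      exact qs_pow' h1 (by omega)
    have k2 : lam⁻¹ ≤ 12⁻¹ := inv_anti₀ (by norm_num) l1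
    have k3 : 3 * (lam ^ 4) ^ 2 * lam⁻¹ ^ L ≤ lam⁻¹ / 4 := by nlinarith
    have k4 : (3 * (lam ^ 4) ^ 2 * lam⁻¹ ^ L) ^ 2 ≤ (lam⁻¹ / 4) ^ 2 := by gcongr
    have k5 : lam⁻¹ ≤ 2 * Gram g x := by
      have k6 : Gram f x ≤ 4 / 3 * Gram g x + 4 * (3 * (lam ^ 4) ^ 2 * lam⁻¹ ^ L) ^ 2 := k
      nlinarith
    rw [inv_le_iff_one_le_mul₀' h0] at k5
    show 1 ≤ 2 * lam * Gram g x
    linarith

theorem small_step : ∃ b : ℕ, 1 ≤ b ∧ ∀ (χ : P2 → ℝ), ContDiff ℝ ∞ χ → HasCompactSupport χ →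
    ∀ c0 : ℝ, 0 < c0 → ∀ N : ℕ, ∃ (K m : ℕ) (C : ℕ → ℝ) (lam0 : ℝ), 1 ≤ m ∧ (∀ j, 0 ≤ C j) ∧
      ∀ (lam δ : ℝ) (f : P2 → R4) (ρ β : P2 → ℝ), lam0 ≤ lam → 0 < δ → δ ≤ (lam ^ 8)⁻¹ →
        ContDiff ℝ ∞ f → ContDiff ℝ ∞ ρ → ContDiff ℝ ∞ β →
        (∀ j ≤ K, ∀ x, ‖iteratedFDeriv ℝ j f x‖ ≤ lam ^ (j + 1)) →
        (∀ j ≤ K, ∀ x, ‖iteratedFDeriv ℝ j ρ x‖ ≤ lam ^ (j + 1)) →
        (∀ j ≤ K, ∀ x, ‖iteratedFDeriv ℝ j β x‖ ≤ lam ^ (j + N)) →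
        (∀ x, |ρ x| ≤ 1) → (∀ x, c0 ≤ β x ∧ β x ≤ c0⁻¹) →
        (∀ x, ρ x ≠ 0 → χ x = 1 ∧ lam⁻¹ ≤ Gram f x) →
        ∃ y : P2 → R4, ContDiff ℝ ∞ y ∧ tsupport y ⊆ tsupport χ ∧
          (∀ j x, ‖iteratedFDeriv ℝ j y x‖ ≤ C j * √δ * lam ^ (b * (j + 1))) ∧
          ∀ x, ErrAt f (fun x => f x + y x) (δ * ρ x ^ (2 * m) * β x) x (lam ^ N)⁻¹ := by
  obtain ⟨b, hb, H⟩ := qs_mid
  refine ⟨b, hb, fun χ hχ hχc c0 hc0 N => ?_⟩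
  obtain ⟨m, hm⟩ : ∃ m, m = 2 * (N + b + 4) := ⟨_, rfl⟩
  have hme : Even m := hm ▸ even_two_mul _
  obtain ⟨K, D, lam1, hK, H1⟩ := qs_smooth hc0 N (N + b + 10) m (by omega)
  obtain ⟨lam2, C, Cs, hC, hCs, H2⟩ := H χ hχ hχc D (c0 / 2) m (N + 1) (by positivity) hme
  obtain ⟨W, hW, H3⟩ := qs_amp m (c0⁻¹ + 1)
  obtain ⟨Q, hQ⟩ : ∃ Q, Q = √(c0⁻¹ + 1) := ⟨_, rfl⟩
  have hQ0 : 0 ≤ Q := hQ ▸ sqrt_nonneg _
  obtain ⟨lam0, hlam0⟩ := ((eventually_ge_atTop lam1).and ((eventually_ge_atTop lam2).and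
    ((eventually_ge_atTop (C + 2 * Cs 1 + W)).and
    (eventually_ge_atTop (6 * Cs 1 * Q))))).exists_forall_of_atTop
  refine ⟨K, m, fun j => Cs j * (Q * (2 ^ m + 1)), lam0, by omega,
    fun j => mul_nonneg (hCs j) (by positivity),
    fun lam δ f ρ β hl hδ hδ1 hf hρ hβ bf bρ bβ hρ1 hβ1 hχ1 => ?_⟩
  obtain ⟨l1, l2, l3, l4⟩ := hlam0 lam hl
  obtain ⟨i, rfl, rfl, hi⟩ := H1 lam δ f ρ β l1 hδ hδ1 hf hρ hβ bf bρ bβ hρ1 hβ1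
  obtain ⟨y, hy, hys, by', ey⟩ := H2 i l2
  have h1 := i.one_le
  have h0 : 0 < i.lam := by linarith
  have ht : i.lam⁻¹ ≤ 1 := inv_le_one_of_one_le₀ h1
  have ht0 : 0 < i.lam⁻¹ := inv_pos.2 h0
  have hη : ∀ {n k : ℕ}, n ≤ k → i.lam⁻¹ ^ k ≤ i.lam⁻¹ ^ n := fun h =>
    pow_le_pow_of_le_one ht0.le ht h
  have hη1 : i.lam⁻¹ ^ (N + b + 10) ≤ 1 := pow_le_one₀ ht0.le ht
  have hδ2 : i.δ ≤ 1 := hδ1.trans (inv_le_one_of_one_le₀ (one_le_pow₀ h1))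
  have hβ2 : ∀ x, i.β x ≤ c0⁻¹ + 1 := fun x => by
    linarith [(abs_le.1 (hi x).2.2.2.1).1, (hβ1 x).2]
  have ha : ∀ x s, |i.ρ x| ≤ s → i.a x ≤ √i.δ * Q * (s ^ m + i.lam⁻¹ ^ m) := fun x s hs => by
    have k1 : √(i.β x) ≤ Q := hQ ▸ sqrt_le_sqrt (hβ2 x)
    have k2 := hme.pow_nonneg (i.ρ x)
    have k3 : i.ρ x ^ m ≤ s ^ m := by
      rw [← hme.pow_abs]
      gcongr
    unfold QIn.a
    gcongr
  have hC1 := hCs 1
  refine ⟨y, hy, hys, fun j x => (by' j x).trans ?_, fun x => ?_⟩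
  · have k1 : |i.ρ x| ≤ 2 := by
      have := abs_le.1 (hi x).2.2.1
      have := abs_le.1 (hρ1 x)
      rw [abs_le]
      constructor <;> linarith
    have k2 := hCs j
    have k3 : i.lam⁻¹ ^ m ≤ 1 := pow_le_one₀ ht0.le ht
    calc _ ≤ Cs j * (√i.δ * Q * (2 ^ m + 1)) * i.lam ^ (b * (j + 1)) := by
          rw [← pow_mul]
          gcongr
          · exact (ha x 2 k1).trans (by gcongr)
          · omega
      _ = _ := by ring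
  rw [← inv_pow]
  have fin : ∀ A : ℝ, A ≤ i.lam → A * i.lam⁻¹ ^ (N + 1) ≤ i.lam⁻¹ ^ N := fun A hA =>
    (mul_le_mul_of_nonneg_right hA (by positivity)).trans (by
      simpa only [pow_one] using qs_pow' h1 (p := 1) (n := N) (L := N + 1) (by omega))
  by_cases hx : ρ x = 0
  · have k1 : |i.ρ x| ≤ i.lam⁻¹ := by
      have := ((hi x).2.2.1).trans (hη (show 1 ≤ N + b + 10 by omega))
      rwa [hx, zero_sub, abs_neg, pow_one] at this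
    have k2 : ‖iteratedFDeriv ℝ 1 y x‖ ≤ 2 * Cs 1 * Q * i.lam⁻¹ ^ (N + 3) := by
      refine (by' 1 x).trans ?_
      have k3 : √i.δ ≤ 1 := sqrt_le_one.2 hδ2
      have k4 : i.lam ^ b * i.lam⁻¹ ^ m ≤ i.lam⁻¹ ^ (N + 3) := qs_pow' h1 (by omega)
      calc _ ≤ Cs 1 * (1 * Q * (i.lam⁻¹ ^ m + i.lam⁻¹ ^ m)) * (i.lam ^ b) ^ 1 := by
            gcongr
            exact (ha x _ k1).trans (by gcongr)
        _ = 2 * Cs 1 * Q * (i.lam ^ b * i.lam⁻¹ ^ m) := by ring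
        _ ≤ _ := by gcongr
    have k3 : du (fun _ : P2 => (0 : R4)) x = 0 ∧ dv (fun _ : P2 => (0 : R4)) x = 0 := by
      simp [du, dv]
    refine qs_errAt_mono (qs_err hf contDiff_const hy (qs_err_zero k2) (η := i.lam ^ 2) (τ := 0)
      ?_ ?_ k2 ?_) ?_
    · rw [k3.1, sub_zero]
      exact (norm_du_le f x).trans (bf 1 hK x)
    · rw [k3.2, sub_zero]
      exact (norm_dv_le f x).trans (bf 1 hK x)
    · rw [hx, zero_pow (by omega)]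
      simp
    · have k4 : 2 * Cs 1 * Q * i.lam⁻¹ ^ (N + 3) ≤ i.lam ^ 2 := by
        have k5 : i.lam⁻¹ ^ (N + 3) ≤ 1 := pow_le_one₀ ht0.le ht
        have k6 : 0 ≤ Cs 1 * Q := by positivity
        have k7 : i.lam ≤ i.lam ^ 2 := le_self_pow₀ h1 two_ne_zero
        refine (mul_le_of_le_one_right (by positivity) k5).trans ?_
        linarith
      have k5 : i.lam ^ 2 * i.lam⁻¹ ^ (N + 3) ≤ i.lam⁻¹ ^ (N + 1) := qs_pow' h1 (by omega)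
      refine le_trans ?_ (fin _ l4)
      calc _ ≤ i.lam ^ 2 * (2 * Cs 1 * Q * i.lam⁻¹ ^ (N + 3))
            + 2 * i.lam ^ 2 * (2 * Cs 1 * Q * i.lam⁻¹ ^ (N + 3)) + 0 := by gcongr
        _ = 6 * Cs 1 * Q * (i.lam ^ 2 * i.lam⁻¹ ^ (N + 3)) := by ring
        _ ≤ _ := by gcongr
  · have k1 : ∀ᶠ z in 𝓝 x, χ z = 1 ∧ 1 ≤ 2 * i.lam * Gram i.f z := by
      filter_upwards [hρ.continuous.continuousAt.eventually_ne hx] with z hz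
      exact ⟨(hχ1 z hz).1, (hi z).2.2.2.2 (hχ1 z hz).2⟩
    have k2 : ‖iteratedFDeriv ℝ 1 y x‖ ≤ Cs 1 * 1 * (i.lam ^ b) ^ 1 := (by' 1 x).trans (by
      gcongr
      exact i.ha x)
    have k3 := hη (show N + 1 ≤ N + b + 10 by omega)
    refine qs_errAt_mono (qs_err hf i.sf hy (ey x k1) (hi x).1 (hi x).2.1 k2
      (H3 i.δ (β x) (i.β x) (ρ x) (i.ρ x) _ _ hδ.le hδ2 (hρ1 x) ((hi x).2.2.1.trans k3)
        ((hi x).2.2.2.1.trans k3) (by linarith [i.lβ x]) (hβ2 x) (by positivity)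
        (hη (by omega)) (pow_le_one₀ ht0.le ht))) (le_trans ?_ (fin _ l3))
    have k4 : i.lam ^ b * i.lam⁻¹ ^ (N + b + 10) ≤ i.lam⁻¹ ^ (N + 1) := qs_pow' h1 (by omega)
    calc _ = C * i.lam⁻¹ ^ (N + 1) + 2 * Cs 1 * (i.lam ^ b * i.lam⁻¹ ^ (N + b + 10))
          + W * i.lam⁻¹ ^ (N + 1) := by ring
      _ ≤ C * i.lam⁻¹ ^ (N + 1) + 2 * Cs 1 * i.lam⁻¹ ^ (N + 1) + W * i.lam⁻¹ ^ (N + 1) := by gcongr
      _ = _ := by ring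

end Vale.Agent.P205
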