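import Vale.Agent.P205.Core
import Vale.Agent.P205.Om

/-! P205: the input of the core step built from smoothed data. -/

open scoped ContDiff InnerProductSpace Topology
open Set Filter Real

noncomputable section
namespace Vale.Agent.P205

section TT
variable {F G H : Type} [NormedAddCommGroup F] [NormedSpace ℝ F] [NormedAddCommGroup G]
  [NormedSpace ℝ G] [NormedAddCommGroup H] [NormedSpace ℝ H] {ι : Type} {U : ι → Set P2}
  {l : ι → ℝ} {k k' n n' : ℕ}

/-- tame of weight `l ^ n` at scale `l ^ k` -/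
def TT (U : ι → Set P2) (l : ι → ℝ) (k n : ℕ) (f : ι → P2 → F) : Prop :=
  T (fam2 U fun i => l i ^ k) (fun i _ => l i ^ n) f

theorem TT.mono {f : ι → P2 → F} (h : TT U l k n f) (hl : ∀ i, 1 ≤ l i) (hk : k ≤ k')
    (hn : n ≤ n') : TT U l k' n' f :=
  (T.fam2_mono h fun i => ⟨pow_pos (one_pos.trans_le (hl i)) _, pow_le_pow_right₀ (hl i) hk⟩).mono
    1 zero_le_one fun i _ _ => by rw [one_mul]; exact pow_le_pow_right₀ (hl i) hn

theorem TT.bilin {f : ι → P2 → F} {g : ι → P2 → G} (B : F →L[ℝ] G →L[ℝ] H) (hf : TT U l k n f)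
    (hg : TT U l k n' g) : TT U l k (n + n') fun i p => B (f i p) (g i p) :=
  (T.bilin B hf hg).mono 1 zero_le_one fun i _ _ => by rw [one_mul, pow_add]

theorem TT.inner {f g : ι → P2 → R4} (hf : TT U l k n f) (hg : TT U l k n' g) :
    TT U l k (n + n') fun i p => ⟪f i p, g i p⟫_ℝ :=
  (T.inner hf hg).mono 1 zero_le_one fun i _ _ => by rw [one_mul, pow_add]

theorem TT.mul {f g : ι → P2 → ℝ} (hf : TT U l k n f) (hg : TT U l k n' g) :
    TT U l k (n + n') fun i p => f i p * g i p :=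
  (T.mul hf hg).mono 1 zero_le_one fun i _ _ => by rw [one_mul, pow_add]

theorem TT.smul {f : ι → P2 → ℝ} {g : ι → P2 → F} (hf : TT U l k n f) (hg : TT U l k n' g) :
    TT U l k (n + n') fun i p => f i p • g i p :=
  (T.smul hf hg).mono 1 zero_le_one fun i _ _ => by rw [one_mul, pow_add]

theorem TT.du {f : ι → P2 → F} (h : TT U l k n f) (hl : ∀ i, 1 ≤ l i) :
    TT U l k (k + n) fun i => du (f i) :=
  (T.du h fun i => pow_pos (one_pos.trans_le (hl i)) _).mono 1 zero_le_one fun i _ _ => by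
    rw [one_mul, pow_add]

theorem TT.dv {f : ι → P2 → F} (h : TT U l k n f) (hl : ∀ i, 1 ≤ l i) :
    TT U l k (k + n) fun i => dv (f i) :=
  (T.dv h fun i => pow_pos (one_pos.trans_le (hl i)) _).mono 1 zero_le_one fun i _ _ => by
    rw [one_mul, pow_add]

theorem TT.inv {g : ι → P2 → ℝ} (hg : LT (fam2 U fun i => l i ^ k) g)
    (h : ∀ i, ∀ x ∈ U i, 1 ≤ l i ^ n * g i x) : TT U l k n fun i p => (g i p)⁻¹ :=
  hg.inv.2.mono 1 zero_le_one fun i x hx => by
    rw [one_mul, inv_le_iff_one_le_mul₀ (hg.pos i hx)]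
    exact h i x hx

theorem TT.lt {f : ι → P2 → ℝ} (h : TT U l k n f) (hl : ∀ i, 1 ≤ l i)
    (h1 : ∀ i, ∀ x ∈ U i, 1 ≤ l i ^ n' * f i x) (hk : k + (n + n') ≤ k') :
    LT (fam2 U fun i => l i ^ k') f := by
  refine LT.of_lower h (fun i => l i ^ (n + n')) (fun i => one_le_pow₀ (hl i))
    (fun i => ⟨pow_pos (one_pos.trans_le (hl i)) _, ?_⟩) fun i x hx => ?_
  · rw [← pow_add]
    exact pow_le_pow_right₀ (hl i) (by omega)
  · have h0 : 0 < l i := one_pos.trans_le (hl i)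
    refine ⟨(mul_pos_iff_of_pos_left (pow_pos h0 _)).1 (one_pos.trans_le (h1 i x hx)), ?_⟩
    rw [pow_add, mul_assoc]
    exact le_mul_of_one_le_right (by positivity) (h1 i x hx)

theorem TT.gain {f : ι → P2 → F} (h : TT U l k n f) (hl : ∀ i, 1 ≤ l i)
    (h1 : ∀ i, ∀ x ∈ U i, ‖f i x‖ ≤ 1) (hk : k + n ≤ k') :
    T (fam2 U fun i => l i ^ k') (fun _ _ => 1) f := by
  refine T.fam2_gain h (fun i => l i ^ n) (fun i => one_le_pow₀ (hl i))
    (fun i => ⟨pow_pos (one_pos.trans_le (hl i)) _, ?_⟩) 1 zero_le_one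
    (fun i x hx => by simpa using h1 i x hx) (fun _ _ _ => zero_le_one) fun i _ _ => by simp
  rw [← pow_add]
  exact pow_le_pow_right₀ (hl i) (by omega)

theorem TT.comp {Φ : F → G} (hΦ : BdOn Φ univ) {g : ι → P2 → F} (h : TT U l k n g)
    (hl : ∀ i, 1 ≤ l i) (hk : k + n ≤ k') :
    T (fam2 U fun i => l i ^ k') (fun _ _ => 1) fun i x => Φ (g i x) := by
  have h0 : ∀ i, 0 < l i ^ k' := fun i => pow_pos (one_pos.trans_le (hl i)) _
  have key : ∀ {w : ι → P2 → F}, TT U l k (k + n) w →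
      T (fam2 U fun i => l i ^ k') (fun _ _ => 1) fun i x => (l i ^ k')⁻¹ • w i x := fun hw =>
    ((hw.mono hl (by omega) hk).fam_smul fun i => (l i ^ k')⁻¹).mono 1 zero_le_one fun i _ _ => by
      rw [abs_of_pos (inv_pos.2 (h0 i)), inv_mul_cancel₀ (h0 i).ne', one_mul]
  refine T.comp hΦ (fun _ _ _ => trivial) (fun i p hp => T.smooth h i hp) fun d => ?_
  fin_cases d
  · refine (key (h.du hl)).congr fun i p _ => Eventually.of_forall fun x => ?_
    simp [fam2, fderiv_eq_du_dv]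
  · refine (key (h.dv hl)).congr fun i p _ => Eventually.of_forall fun x => ?_
    simp [fam2, fderiv_eq_du_dv]

end TT

/-- smoothed input data -/
structure QIn (D : ℕ → ℝ) (c : ℝ) (m : ℕ) where
  lam : ℝ
  δ : ℝ
  f : P2 → R4
  ρ : P2 → ℝ
  β : P2 → ℝ
  hlam : 4 ≤ lam
  hδ : 0 < δ
  sf : ContDiff ℝ ∞ f
  sρ : ContDiff ℝ ∞ ρ
  sβ : ContDiff ℝ ∞ β
  bf : ∀ j x, ‖iteratedFDeriv ℝ j f x‖ ≤ D j * lam ^ 1 * (lam ^ 2) ^ j
  bρ : ∀ j x, ‖iteratedFDeriv ℝ j ρ x‖ ≤ D j * 1 * (lam ^ 2) ^ j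
  bβ : ∀ j x, ‖iteratedFDeriv ℝ j β x‖ ≤ D j * 1 * (lam ^ 2) ^ j
  lβ : ∀ x, c ≤ β x
  nA : ∀ x, ‖du f x‖ ≤ lam ^ 3
  nB : ∀ x, ‖dv f x‖ ≤ lam ^ 3
  nK : ∀ x, ‖du (du f) x‖ ≤ lam ^ 4
  ha : ∀ x, √δ * √(β x) * (ρ x ^ m + lam⁻¹ ^ m) ≤ 1

theorem qs_contDiff_Gram {f : P2 → R4} (hf : ContDiff ℝ ∞ f) : ContDiff ℝ ∞ (Gram f) := by
  have h1 : ∀ {g : P2 → R4}, ContDiff ℝ ∞ g → ContDiff ℝ ∞ (du g) := fun hg =>
    contDiff_iff_contDiffAt.2 fun _ => contDiffAt_du hg.contDiffAt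
  have h2 : ContDiff ℝ ∞ (dv f) := contDiff_iff_contDiffAt.2 fun _ => contDiffAt_dv hf.contDiffAt
  have h3 := contDiff_gram3.comp ((h1 hf).prodMk (h2.prodMk (h1 (h1 hf))))
  rw [Function.comp_def] at h3
  exact h3

/-- the curve of parameters -/
def qsK : Set Q3 := (fun w : ℝ => (w, (0 : ℝ), (1 + √(1 - w ^ 2))⁻¹)) '' Icc 0 1

theorem isCompact_qsK : IsCompact qsK :=
  isCompact_Icc.image (continuous_id.prodMk (continuous_const.prodMk
    (Continuous.inv₀ (by fun_prop) fun _ => by positivity)))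

theorem qsK_subset : qsK ⊆ Om 4 := by
  rintro _ ⟨w, hw, rfl⟩
  exact mem_Om_center hw.1 hw.2 le_rfl

namespace QIn
variable {D : ℕ → ℝ} {c : ℝ} {m : ℕ} (i : QIn D c m)

def U : Set P2 := {x | 1 < 4 * i.lam * Gram i.f x}
def a (x : P2) : ℝ := √i.δ * √(i.β x) * (i.ρ x ^ m + i.lam⁻¹ ^ m)
def n (x : P2) : ℝ := √(Gram i.f x / G2 i.f x)
def p (x : P2) : R4 := perp (du i.f x) (du (du i.f) x) (dv i.f x)
def q (x : P2) : R4 := cross3 (du i.f x) (du (du i.f) x) (dv i.f x)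
def r (x : P2) : ℝ := √(i.n x ^ 2 + i.a x ^ 2)

theorem one_le : 1 ≤ i.lam := by linarith [i.hlam]

theorem isOpen_U : IsOpen i.U :=
  isOpen_lt continuous_const (continuous_const.mul (qs_contDiff_Gram i.sf).continuous)

theorem norm_q (x : P2) : ‖i.q x‖ ^ 2 = Gram i.f x := by
  rw [q, norm_cross3_sq, Gram, gram3_swap23]

variable {i} {x : P2}

theorem low_Gram (hx : x ∈ i.U) : 1 ≤ i.lam ^ 2 * Gram i.f x := by
  have h1 : 1 < 4 * i.lam * Gram i.f x := hx
  have h2 := i.hlam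
  have h3 : 0 ≤ i.lam * Gram i.f x := by linarith [mul_assoc 4 i.lam (Gram i.f x)]
  nlinarith

theorem low_G2 (hx : x ∈ i.U) : 1 ≤ i.lam ^ 8 * G2 i.f x := by
  have h0 := i.one_le
  have h1 : Gram i.f x ≤ G2 i.f x * (i.lam ^ 3) ^ 2 := by
    rw [Gram, gram3_swap23]
    exact (gram3_le _ _ _).trans (mul_le_mul_of_nonneg_left
      (pow_le_pow_left₀ (norm_nonneg _) (i.nB x) 2) (gram2_nonneg _ _))
  calc 1 ≤ i.lam ^ 2 * Gram i.f x := low_Gram hx
    _ ≤ i.lam ^ 2 * (G2 i.f x * (i.lam ^ 3) ^ 2) := by gcongr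
    _ = _ := by ring

theorem G2_pos (hx : x ∈ i.U) : 0 < G2 i.f x :=
  (mul_pos_iff_of_pos_left (pow_pos (by linarith [i.one_le]) _)).1 (one_pos.trans_le (low_G2 hx))

theorem Gram_pos (hx : x ∈ i.U) : 0 < Gram i.f x :=
  (mul_pos_iff_of_pos_left (pow_pos (by linarith [i.one_le]) _)).1
    (one_pos.trans_le (low_Gram hx))

theorem norm_p (hx : x ∈ i.U) : ‖i.p x‖ = i.n x := by
  have h : 0 < gram2 (du i.f x) (du (du i.f) x) := G2_pos hx
  rw [n, Gram, gram3_swap23, gram3_eq h.ne', G2, mul_div_cancel_left₀ _ h.ne',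
    sqrt_sq (norm_nonneg _), p]

theorem low_n (hx : x ∈ i.U) : 1 ≤ i.lam ^ 8 * i.n x := by
  have h0 := i.one_le
  have h1 : G2 i.f x ≤ (i.lam ^ 3) ^ 2 * (i.lam ^ 4) ^ 2 := (gram2_le _ _).trans (by
    gcongr
    exacts [i.nA x, i.nK x])
  have h2 : Gram i.f x = G2 i.f x * i.n x ^ 2 := by
    rw [n, sq_sqrt (div_pos (Gram_pos hx) (G2_pos hx)).le, mul_div_cancel₀ _ (G2_pos hx).ne']
  have h3 : 0 ≤ i.n x := sqrt_nonneg _
  refine (one_le_sq_iff₀ (mul_nonneg (by positivity) h3)).1 ?_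
  calc 1 ≤ i.lam ^ 2 * Gram i.f x := low_Gram hx
    _ ≤ i.lam ^ 2 * ((i.lam ^ 3) ^ 2 * (i.lam ^ 4) ^ 2 * i.n x ^ 2) := by
      rw [h2]
      gcongr
    _ = _ := by ring

theorem n_pos (hx : x ∈ i.U) : 0 < i.n x :=
  (mul_pos_iff_of_pos_left (pow_pos (by linarith [i.one_le]) _)).1 (one_pos.trans_le (low_n hx))

theorem low_sqrt (hx : x ∈ i.U) : 1 ≤ i.lam ^ 1 * √(Gram i.f x) := by
  have h0 := i.one_le
  refine (one_le_sq_iff₀ (mul_nonneg (by positivity) (sqrt_nonneg _))).1 ?_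
  rw [mul_pow, sq_sqrt (Gram_pos hx).le, pow_one]
  exact low_Gram hx

theorem a_nonneg (hm : Even m) (i : QIn D c m) (x : P2) : 0 ≤ i.a x := by
  have h0 := i.one_le
  have h1 := hm.pow_nonneg (i.ρ x)
  unfold a
  positivity

theorem sq_r (i : QIn D c m) (x : P2) : i.r x ^ 2 = i.n x ^ 2 + i.a x ^ 2 :=
  sq_sqrt (by positivity)

theorem n_le_r (i : QIn D c m) (x : P2) : i.n x ≤ i.r x :=
  le_sqrt_of_sq_le (le_add_of_nonneg_right (sq_nonneg _))

theorem a_le_r (i : QIn D c m) (x : P2) : i.a x ≤ i.r x :=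
  le_sqrt_of_sq_le (le_add_of_nonneg_left (sq_nonneg _))

theorem r_le (hm : Even m) (hx : x ∈ i.U) : i.r x ≤ i.lam ^ 75 := by
  have h0 := i.one_le
  have h1 : i.n x ≤ i.lam ^ 3 := (norm_p hx).symm.trans_le
    ((norm_perp_le (G2_pos hx).ne' _).trans (i.nB x))
  have h2 : i.a x ≤ i.lam ^ 3 := (i.ha x).trans (one_le_pow₀ h0)
  have h3 : i.r x ≤ i.n x + i.a x := sqrt_le_iff.2 ⟨add_nonneg (n_pos hx).le (a_nonneg hm i x), by
    nlinarith [mul_nonneg (n_pos hx).le (a_nonneg hm i x)]⟩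
  have h4 : i.lam ^ 4 ≤ i.lam ^ 75 := pow_le_pow_right₀ h0 (by norm_num)
  have h5 : 0 ≤ i.lam ^ 3 := by positivity
  nlinarith [i.hlam]

theorem tf : TT (U (D := D) (c := c) (m := m)) lam 2 1 f :=
  T.of_iter (fun i => pow_pos (by linarith [i.one_le]) _)
    (fun i _ _ => pow_nonneg (by linarith [i.one_le]) _) (fun i _ _ => i.sf.contDiffAt)
    fun j => ⟨D j, fun i x _ => i.bf j x⟩

theorem tA : TT (U (D := D) (c := c) (m := m)) lam 2 5 fun i => du i.f :=
  (tf.du one_le).mono one_le le_rfl (by norm_num)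

theorem tB : TT (U (D := D) (c := c) (m := m)) lam 2 5 fun i => dv i.f :=
  (tf.dv one_le).mono one_le le_rfl (by norm_num)

theorem tK : TT (U (D := D) (c := c) (m := m)) lam 2 5 fun i => du (du i.f) :=
  (tf.du one_le).du one_le

theorem tq : TT (U (D := D) (c := c) (m := m)) lam 2 15 q := by
  obtain ⟨B, hB⟩ := exists_cross3_clm
  have h := TT.bilin (ContinuousLinearMap.id ℝ (R4 →L[ℝ] R4))
    (TT.bilin B (tA (D := D) (c := c) (m := m)) tK) tB
  exact T.congr h fun i p _ => Eventually.of_forall fun x => (hB _ _ _).symm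

theorem tGram : TT (U (D := D) (c := c) (m := m)) lam 2 30 fun i => Gram i.f :=
  T.congr (TT.inner tq tq) fun i p _ => Eventually.of_forall fun x => by
    show Gram i.f x = ⟪i.q x, i.q x⟫_ℝ
    rw [real_inner_self_eq_norm_sq, norm_q]

theorem tG2 : TT (U (D := D) (c := c) (m := m)) lam 2 20 fun i => G2 i.f :=
  T.congr (T.sub ((tA.inner tA).mul (tK.inner tK)) ((tA.inner tK).mul (tA.inner tK)))
    fun i p _ => Eventually.of_forall fun x => by simp only [G2, gram2, sq]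

theorem lGram : LT (fam2 (U (D := D) (c := c) (m := m)) fun i => i.lam ^ 34) fun i => Gram i.f :=
  tGram.lt one_le (fun _ _ => low_Gram) (by norm_num)

theorem lG2 : LT (fam2 (U (D := D) (c := c) (m := m)) fun i => i.lam ^ 34) fun i => G2 i.f :=
  tG2.lt one_le (fun _ _ => low_G2) (by norm_num)

theorem ln : LT (fam2 (U (D := D) (c := c) (m := m)) fun i => i.lam ^ 34) n :=
  (lGram.div lG2).sqrt

theorem tp : TT (U (D := D) (c := c) (m := m)) lam 34 33 p := by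
  have hA := (tA (D := D) (c := c) (m := m)).mono one_le (show 2 ≤ 34 by norm_num) le_rfl
  have hB := (tB (D := D) (c := c) (m := m)).mono one_le (show 2 ≤ 34 by norm_num) le_rfl
  have hK := (tK (D := D) (c := c) (m := m)).mono one_le (show 2 ≤ 34 by norm_num) le_rfl
  have hG := TT.inv (lG2 (D := D) (c := c) (m := m)) fun _ _ => low_G2
  have h1 : TT _ _ 34 (5 + 5 + (5 + 5)) _ :=
    T.sub ((hK.inner hK).mul (hB.inner hA)) ((hA.inner hK).mul (hB.inner hK))
  have h2 : TT _ _ 34 (5 + 5 + (5 + 5)) _ :=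
    T.sub ((hA.inner hA).mul (hB.inner hK)) ((hA.inner hK).mul (hB.inner hA))
  exact T.sub (T.sub (hB.mono one_le le_rfl (show 5 ≤ 33 by norm_num)) ((h1.mul hG).smul hA))
    ((h2.mul hG).smul hK)

theorem la (hc : 0 < c) (hm : Even m) :
    LT (fam2 (U (D := D) (c := c) (m := m)) fun i => i.lam ^ 34) a := by
  have h0 : ∀ i : QIn D c m, 0 < i.lam ^ 2 := fun i => pow_pos (by linarith [i.one_le]) _
  have hρ : T (fam2 (U (D := D) (c := c) (m := m)) fun i => i.lam ^ 2) (fun _ _ => 1) ρ :=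
    T.of_iter h0 (fun _ _ _ => zero_le_one) (fun i _ _ => i.sρ.contDiffAt)
      fun j => ⟨D j, fun i x _ => i.bρ j x⟩
  have hβ : T (fam2 (U (D := D) (c := c) (m := m)) fun i => i.lam ^ 2) (fun _ _ => 1) β :=
    T.of_iter h0 (fun _ _ _ => zero_le_one) (fun i _ _ => i.sβ.contDiffAt)
      fun j => ⟨D j, fun i x _ => i.bβ j x⟩
  have h1 := (LT.of_T hβ (fun i x _ => hc.trans_le (i.lβ x)) c⁻¹ (by positivity) fun i x _ => by
    rw [le_inv_mul_iff₀ hc, mul_one]
    exact i.lβ x).fam2_mono (Θ' := fun i => i.lam ^ 34) fun i =>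
      ⟨h0 i, pow_le_pow_right₀ i.one_le (by norm_num)⟩
  exact ((LT.const (fun i : QIn D c m => √i.δ) fun i => sqrt_pos.2 i.hδ).mul h1.sqrt).mul
    (LT.fam2_flat hρ m hm lam (fun i => i.lam⁻¹ ^ m) one_le (fun i => ⟨h0 i, by
      rw [← pow_succ']
      exact pow_le_pow_right₀ i.one_le (by norm_num)⟩) fun _ => le_rfl)

theorem unit_e (hx : x ∈ i.U) : ‖(i.n x)⁻¹ • i.p x‖ = 1 := by
  rw [norm_smul, norm_p hx, norm_inv, norm_of_nonneg (n_pos hx).le, inv_mul_cancel₀ (n_pos hx).ne']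

theorem unit_e' (hx : x ∈ i.U) : ‖(√(Gram i.f x))⁻¹ • i.q x‖ = 1 := by
  have h := Gram_pos hx
  rw [← norm_q] at h ⊢
  rw [sqrt_sq (norm_nonneg _), norm_smul, norm_inv, norm_norm,
    inv_mul_cancel₀ (pow_ne_zero_iff two_ne_zero |>.1 h.ne')]

theorem inner_e (hx : x ∈ i.U) : ⟪dv i.f x, (i.n x)⁻¹ • i.p x⟫_ℝ = i.n x := by
  rw [inner_smul_right, real_inner_comm, p, ← inner_perp_perp (G2_pos hx).ne', ← p,
    real_inner_self_eq_norm_sq, norm_p hx, sq, inv_mul_cancel_left₀ (n_pos hx).ne']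

theorem inner_e' (i : QIn D c m) (x : P2) : ⟪dv i.f x, (√(Gram i.f x))⁻¹ • i.q x⟫_ℝ = 0 := by
  rw [inner_smul_right, real_inner_comm, q, inner_cross3_3, mul_zero]

/-- the input of the core step -/
def core (hc : 0 < c) (hm : Even m) : Core (QIn D c m) qsK :=
  have hs : ∀ i : QIn D c m, 0 < i.lam ^ 34 ∧ i.lam ^ 34 ≤ i.lam ^ 75 := fun i =>
    ⟨pow_pos (by linarith [i.one_le]) _, pow_le_pow_right₀ i.one_le (by norm_num)⟩
  have hn := (ln (D := D) (c := c) (m := m)).fam2_mono hs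
  have ha := (la (D := D) hc hm).fam2_mono hs
  have hr : LT _ r := ((hn.pow 2).add (ha.pow 2)).sqrt
  have hinv : ∀ (i : QIn D c m) (y : ℝ), 1 ≤ i.lam ^ 8 * y → (i.lam ^ 75)⁻¹ ≤ y := fun i y h => by
    have h0 := i.one_le
    have h1 : 0 < y := (mul_pos_iff_of_pos_left (by positivity)).1 (one_pos.trans_le h)
    rw [inv_le_iff_one_le_mul₀' (by positivity)]
    exact h.trans (mul_le_mul_of_nonneg_right (pow_le_pow_right₀ h0 (by norm_num)) h1.le)
  { U := U, lam := fun i => i.lam ^ 75, f := f, a := a, r := r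
    e := fun i x => (i.n x)⁻¹ • i.p x
    e' := fun i x => (√(Gram i.f x))⁻¹ • i.q x
    γ1 := fun _ _ => 0
    γ2 := fun i x => i.r x / (i.r x + i.n x)
    hU := isOpen_U
    hlam := fun i => one_le_pow₀ i.one_le
    hf := fun i => i.sf.contDiffOn
    hA := tA.mono one_le (show 2 ≤ 75 by norm_num) (show 5 ≤ 75 by norm_num)
    hB := tB.mono one_le (show 2 ≤ 75 by norm_num) (show 5 ≤ 75 by norm_num)
    hG := fun i _ hx => hinv i _ (low_G2 hx)
    he := ((TT.inv ln fun _ _ => low_n).smul tp).gain one_le (fun _ _ hx => (unit_e hx).le)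
      (by norm_num)
    he' := ((TT.inv lGram.sqrt fun _ _ => low_sqrt).smul
      (tq.mono one_le (by norm_num) le_rfl)).gain one_le (fun _ _ hx => (unit_e' hx).le)
      (by norm_num)
    unit := fun i x hx => ⟨unit_e hx, unit_e' hx, by
      rw [inner_smul_left, inner_smul_right, p, q,
        inner_perp_of_orth _ (inner_cross3_1 _ _ _) (inner_cross3_2 _ _ _), real_inner_comm,
        inner_cross3_3, mul_zero, mul_zero]⟩
    orth := fun i x hx => by
      simp only [inner_smul_left, p, q, inner_perp_left (G2_pos hx).ne',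
        inner_perp_right (G2_pos hx).ne', inner_cross3_1, inner_cross3_2, mul_zero, and_self]
    ha := ha
    hr := hr
    hrl := fun i x hx => ⟨(hinv i _ (low_n hx)).trans (n_le_r i x), r_le hm hx⟩
    hr2 := fun i x hx => by rw [inner_e hx, inner_e', sq_r]; ring
    hγ := fun i x hx => by
      have h1 := n_pos hx
      have h2 := h1.trans_le (n_le_r i x)
      have h3 := sq_r i x
      refine ⟨?_, by rw [inner_e', mul_zero]⟩
      rw [inner_e hx]
      field_simp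
      linear_combination (-1 : ℝ) * h3
    hK := fun i x hx => by
      have h1 := n_pos hx
      have h2 := h1.trans_le (n_le_r i x)
      have h3 := sq_r i x
      refine ⟨i.a x / i.r x, ⟨div_nonneg (a_nonneg hm i x) h2.le,
        (div_le_one h2).2 (a_le_r i x)⟩, ?_⟩
      have h4 : 1 - (i.a x / i.r x) ^ 2 = (i.n x / i.r x) ^ 2 := by
        field_simp
        linear_combination h3
      simp only [h4, sqrt_sq (div_pos h1 h2).le]
      refine Prod.ext rfl (Prod.ext rfl ?_)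
      field_simp
    hγ1 := T.const (fun _ => (0 : ℝ)) fun _ _ _ => by simp
    hγ2 := (hr.div (hr.add hn)).2.mono 1 zero_le_one fun i x hx => by
      have h1 := n_pos hx
      have h2 := h1.trans_le (n_le_r i x)
      rw [one_mul, div_le_one (by positivity)]
      linarith }

end QIn

end Vale.Agent.P205
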