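import Vale.Agent.P205.SDefs

/-! P205, I1: auxiliary facts for the construction of the atlas. -/

open scoped ContDiff InnerProductSpace Topology Manifold
open Set Filter Real

noncomputable section
namespace Vale.Agent.P205
namespace S1Aux

/-- the quadratic form with vector coefficients -/
def qd (a b c : R4) (X : P2) : R4 := X.1 ^ 2 • a + (2 * X.1 * X.2) • b + X.2 ^ 2 • c

def dt (X Y : P2) : ℝ := X.1 * Y.2 - X.2 * Y.1

theorem lagr {X Y Z : P2} (hXY : dt X Y ≠ 0) (hXZ : dt X Z ≠ 0) (hYZ : dt Y Z ≠ 0) (W : P2) :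
    ∃ C : ℝ, 0 ≤ C ∧ ∀ a b c : R4,
      ‖qd a b c W‖ ≤ C * (‖qd a b c X‖ + ‖qd a b c Y‖ + ‖qd a b c Z‖) := by
  obtain ⟨α, β, γ, h⟩ : ∃ α β γ : ℝ, ∀ a b c : R4,
      qd a b c W = α • qd a b c X + β • qd a b c Y + γ • qd a b c Z := by
    refine ⟨dt W Y * dt W Z / (dt X Y * dt X Z), -(dt W X * dt W Z / (dt X Y * dt Y Z)),
      dt W X * dt W Y / (dt X Z * dt Y Z), fun a b c => ?_⟩
    unfold qd
    match_scalars <;> field_simp <;> unfold dt <;> ring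
  refine ⟨|α| + |β| + |γ|, by positivity, fun a b c => ?_⟩
  rw [h]
  have h1 := norm_add₃_le (a := α • qd a b c X) (b := β • qd a b c Y) (c := γ • qd a b c Z)
  simp only [norm_smul, Real.norm_eq_abs] at h1
  have := norm_nonneg (qd a b c X)
  have := norm_nonneg (qd a b c Y)
  have := norm_nonneg (qd a b c Z)
  have := abs_nonneg α
  have := abs_nonneg β
  have := abs_nonneg γ
  nlinarith [mul_nonneg (abs_nonneg α) (norm_nonneg (qd a b c Y)),
    mul_nonneg (abs_nonneg α) (norm_nonneg (qd a b c Z)),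
    mul_nonneg (abs_nonneg β) (norm_nonneg (qd a b c X)),
    mul_nonneg (abs_nonneg β) (norm_nonneg (qd a b c Z)),
    mul_nonneg (abs_nonneg γ) (norm_nonneg (qd a b c X)),
    mul_nonneg (abs_nonneg γ) (norm_nonneg (qd a b c Y))]

theorem three {X Y Z : P2} (hXY : dt X Y ≠ 0) (hXZ : dt X Z ≠ 0) (hYZ : dt Y Z ≠ 0) :
    ∃ C : ℝ, 0 ≤ C ∧ ∀ a b c : R4,
      ‖a‖ + ‖b‖ + ‖c‖ ≤ C * (‖qd a b c X‖ + ‖qd a b c Y‖ + ‖qd a b c Z‖) := by
  obtain ⟨C1, p1, h1⟩ := lagr hXY hXZ hYZ (1, 0)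
  obtain ⟨C2, p2, h2⟩ := lagr hXY hXZ hYZ (0, 1)
  obtain ⟨C3, p3, h3⟩ := lagr hXY hXZ hYZ (1, 1)
  refine ⟨2 * C1 + 2 * C2 + C3, by positivity, fun a b c => ?_⟩
  have e1 : qd a b c (1, 0) = a := by simp [qd]
  have e2 : qd a b c (0, 1) = c := by simp [qd]
  have e3 : (2 : ℝ) • b = qd a b c (1, 1) - a - c := by
    simp only [qd]
    module
  have h4 : ‖(2 : ℝ) • b‖ ≤ ‖qd a b c (1, 1)‖ + ‖a‖ + ‖c‖ := by
    rw [e3]
    exact (norm_sub_le _ _).trans (add_le_add (norm_sub_le _ _) le_rfl)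
  rw [norm_smul, Real.norm_two] at h4
  have h5 := h1 a b c
  have h6 := h2 a b c
  have h7 := h3 a b c
  rw [e1] at h5
  rw [e2] at h6
  have := norm_nonneg b
  linarith

theorem norm_qd_le (a b c : R4) {X : P2} {C : ℝ} (h : ‖X‖ ≤ C) :
    ‖qd a b c X‖ ≤ 2 * C ^ 2 * (‖a‖ + ‖b‖ + ‖c‖) := by
  have h1 : |X.1| ≤ C := (norm_fst_le X).trans h
  have h2 : |X.2| ≤ C := (norm_snd_le X).trans h
  have h3 := norm_add₃_le (a := X.1 ^ 2 • a) (b := (2 * X.1 * X.2) • b) (c := X.2 ^ 2 • c)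
  simp only [norm_smul, Real.norm_eq_abs, abs_pow, abs_mul, abs_two] at h3
  have a1 : |X.1| ^ 2 ≤ C ^ 2 := pow_le_pow_left₀ (abs_nonneg _) h1 2
  have a2 : |X.2| ^ 2 ≤ C ^ 2 := pow_le_pow_left₀ (abs_nonneg _) h2 2
  have a3 : |X.1| * |X.2| ≤ C * C := mul_le_mul h1 h2 (abs_nonneg _) ((abs_nonneg _).trans h1)
  unfold qd
  nlinarith [mul_le_mul_of_nonneg_right a1 (norm_nonneg a),
    mul_le_mul_of_nonneg_right a2 (norm_nonneg c), mul_le_mul_of_nonneg_right a3 (norm_nonneg b),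
    mul_nonneg (sq_nonneg C) (norm_nonneg a), mul_nonneg (sq_nonneg C) (norm_nonneg c)]

theorem II_qd {f : P2 → R4} {x : P2} (h : ContDiffAt ℝ ∞ f x) (X : P2) :
    II f x X X = qd (II f x (1, 0) (1, 0)) (II f x (1, 0) (0, 1)) (II f x (0, 1) (0, 1)) X := by
  rw [II_eq h]
  unfold qd
  module

/-- the linear map with the given matrix -/
theorem exists_lin (p q r s : ℝ) (h : p * s - q * r ≠ 0) : ∃ L : P2 ≃L[ℝ] P2,
    ∀ X, L X = (p * X.1 + q * X.2, r * X.1 + s * X.2) := by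
  obtain ⟨d, hd⟩ : ∃ d : ℝ, d * (p * s - q * r) = 1 := ⟨_, inv_mul_cancel₀ h⟩
  let f : P2 →L[ℝ] P2 :=
    (p • ContinuousLinearMap.fst ℝ ℝ ℝ + q • ContinuousLinearMap.snd ℝ ℝ ℝ).prod
      (r • ContinuousLinearMap.fst ℝ ℝ ℝ + s • ContinuousLinearMap.snd ℝ ℝ ℝ)
  let g : P2 →L[ℝ] P2 :=
    ((d * s) • ContinuousLinearMap.fst ℝ ℝ ℝ + (-(d * q)) • ContinuousLinearMap.snd ℝ ℝ ℝ).prod
      ((-(d * r)) • ContinuousLinearMap.fst ℝ ℝ ℝ + (d * p) • ContinuousLinearMap.snd ℝ ℝ ℝ)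
  have hf : ∀ X : P2, f X = (p * X.1 + q * X.2, r * X.1 + s * X.2) := fun X => rfl
  have hg : ∀ X : P2, g X = (d * s * X.1 + -(d * q) * X.2, -(d * r) * X.1 + d * p * X.2) :=
    fun X => rfl
  refine ⟨ContinuousLinearEquiv.equivOfInverse f g (fun X => ?_) (fun X => ?_), fun X => rfl⟩
  · rw [hf, hg]
    ext
    · simp only
      linear_combination X.1 * hd
    · simp only
      linear_combination X.2 * hd
  · rw [hg, hf]
    ext
    · simp only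
      linear_combination X.1 * hd
    · simp only
      linear_combination X.2 * hd

variable {M : Type*} [TopologicalSpace M] [ChartedSpace E2 M] [IsManifold 𝓘(ℝ, E2) ∞ M]

/-- composition of a chart with an affine map -/
theorem exists_aff (b : Ch M) (L : P2 ≃L[ℝ] P2) (x0 : P2) : ∃ c : Ch M,
    c.e.source = b.e.source ∧ (∀ p, c.e p = L (b.e p - x0)) ∧
      ∀ p ∈ b.e.source, ∀ X, tr b c p X = L X ∧ tr c b p X = L.symm X := by
  obtain ⟨c, h1, -, h3, -⟩ := b.exists_comp_homeo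
    ((Homeomorph.subRight x0).trans L.toHomeomorph)
    (L.contDiff.comp (contDiff_id.sub contDiff_const))
    (L.symm.contDiff.add contDiff_const)
  have key : ∀ p ∈ b.e.source, ∀ X, tr b c p X = L X := by
    intro p hp X
    have e : trans b c =ᶠ[𝓝 (b.e p)] fun x => L (x - x0) := by
      filter_upwards [b.e.open_target.mem_nhds (b.e.map_source hp)] with x hx
      unfold trans
      rw [h3, b.e.right_inv hx]
      rfl
    have d : HasFDerivAt (fun x => L (x - x0)) (L : P2 →L[ℝ] P2) (b.e p) := by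
      have := (L : P2 →L[ℝ] P2).hasFDerivAt.comp (b.e p) ((hasFDerivAt_id (b.e p)).sub_const x0)
      rw [ContinuousLinearMap.comp_id] at this
      exact this
    unfold tr
    rw [e.fderiv_eq, d.fderiv]
    rfl
  refine ⟨c, h1, h3, fun p hp X => ⟨key p hp X, ?_⟩⟩
  have hp' : p ∈ c.e.source := h1 ▸ hp
  have h4 := tr_tr c b c hp' hp hp' X
  rw [key p hp, tr_self c hp'] at h4
  rw [← h4, L.symm_apply_apply, h4]

/-- a functional of the components expressed in another chart -/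
theorem exists_l (L : P2 → P2) (μ : Q3) : ∃ l : Q3, ∀ (b c : Ch M) (k : Ten M), Symm k →
    ∀ p ∈ b.e.source, p ∈ c.e.source → (∀ X, tr b c p X = L X) →
      Lf c l k (c.e p) = Lf b μ k (b.e p) := by
  refine ⟨(μ.1 * ((L (1, 0)).1 * (L (1, 0)).1) + μ.2.1 * ((L (1, 0)).1 * (L (0, 1)).1) +
      μ.2.2 * ((L (0, 1)).1 * (L (0, 1)).1),
    μ.1 * ((L (1, 0)).1 * (L (1, 0)).2 + (L (1, 0)).2 * (L (1, 0)).1) +
      μ.2.1 * ((L (1, 0)).1 * (L (0, 1)).2 + (L (1, 0)).2 * (L (0, 1)).1) +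
      μ.2.2 * ((L (0, 1)).1 * (L (0, 1)).2 + (L (0, 1)).2 * (L (0, 1)).1),
    μ.1 * ((L (1, 0)).2 * (L (1, 0)).2) + μ.2.1 * ((L (1, 0)).2 * (L (0, 1)).2) +
      μ.2.2 * ((L (0, 1)).2 * (L (0, 1)).2)), fun b c k hk p hb hc h => ?_⟩
  have e : ∀ X Y, cmp b k (b.e p) X Y = (L X).1 * (L Y).1 * cE c k (c.e p) +
      ((L X).1 * (L Y).2 + (L X).2 * (L Y).1) * cF c k (c.e p) +
      (L X).2 * (L Y).2 * cG c k (c.e p) := fun X Y => by
    rw [cmp_trans b c k hb hc, h, h, cmp_expand c hk]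
  have e1 : cE b k (b.e p) = _ := e (1, 0) (1, 0)
  have e2 : cF b k (b.e p) = _ := e (1, 0) (0, 1)
  have e3 : cG b k (b.e p) = _ := e (0, 1) (0, 1)
  unfold Lf
  rw [e1, e2, e3]
  ring

/-- the nine covectors -/
def vv : Fin 3 → Fin 3 → P2 :=
  ![![(1, 0), (1, 2), (1, -2)], ![(0, 1), (2, 1), (2, -1)], ![(1, 1), (3, -1), (1, -3)]]

/-- the coefficient functionals -/
def mu : Fin 3 → Fin 3 → Q3 :=
  ![![(1, 0, -1 / 4), (0, 1 / 4, 1 / 8), (0, -1 / 4, 1 / 8)],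
    ![(-1 / 4, 0, 1), (1 / 8, 1 / 4, 0), (1 / 8, -1 / 4, 0)],
    ![(3 / 16, 10 / 16, 3 / 16), (3 / 32, -2 / 32, -1 / 32), (-1 / 32, -2 / 32, 3 / 32)]]

theorem mu_pos (s i : Fin 3) : 1 / 32 < (mu s i).1 + (mu s i).2.2 := by
  fin_cases s <;> fin_cases i <;> simp [mu] <;> norm_num

theorem vv_ind (s i s' i' : Fin 3) (h : (s, i) ≠ (s', i')) :
    (vv s i).1 * (vv s' i').2 - (vv s i).2 * (vv s' i').1 ≠ 0 := by
  fin_cases s <;> fin_cases i <;> fin_cases s' <;> fin_cases i' <;> simp [vv] at h ⊢ <;> norm_num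

theorem vv_ne (s i : Fin 3) : (vv s i).1 ^ 2 + (vv s i).2 ^ 2 ≠ 0 := by
  fin_cases s <;> fin_cases i <;> simp [vv] <;> norm_num

theorem mu_vv (s : Fin 3) (E F G : ℝ) (X Y : P2) :
    ∑ i, ((mu s i).1 * E + (mu s i).2.1 * F + (mu s i).2.2 * G) *
      (((vv s i).1 * X.1 + (vv s i).2 * X.2) * ((vv s i).1 * Y.1 + (vv s i).2 * Y.2)) =
      X.1 * Y.1 * E + (X.1 * Y.2 + X.2 * Y.1) * F + X.2 * Y.2 * G := by
  fin_cases s <;> simp [Fin.sum_univ_three, mu, vv] <;> ring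

theorem exists_L (s i : Fin 3) : ∃ L : P2 ≃L[ℝ] P2,
    (∀ X, (L X).2 = (vv s i).1 * X.1 + (vv s i).2 * X.2) ∧
      L.symm (1, 0) = ((vv s i).2, -(vv s i).1) := by
  have h := vv_ne s i
  obtain ⟨L, hL⟩ := exists_lin ((vv s i).2 / ((vv s i).1 ^ 2 + (vv s i).2 ^ 2))
    (-(vv s i).1 / ((vv s i).1 ^ 2 + (vv s i).2 ^ 2)) (vv s i).1 (vv s i).2 (by
      have : (vv s i).2 / ((vv s i).1 ^ 2 + (vv s i).2 ^ 2) * (vv s i).2 -
          -(vv s i).1 / ((vv s i).1 ^ 2 + (vv s i).2 ^ 2) * (vv s i).1 = 1 := by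
        field_simp
        ring
      rw [this]
      exact one_ne_zero)
  refine ⟨L, fun X => by rw [hL], ?_⟩
  rw [ContinuousLinearEquiv.symm_apply_eq, hL]
  ext
  · simp only
    field_simp
    ring
  · simp only
    ring

end S1Aux
end Vale.Agent.P205
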