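import Vale.Agent.P205.Tame2

/-! P205: scales, the plane and the cylinder, conversion to `iteratedFDeriv`. -/

open scoped ContDiff InnerProductSpace Topology
open Set Filter Real

noncomputable section
namespace Vale.Agent.P205

section General
variable {E F : Type} [NormedAddCommGroup E] [NormedSpace ℝ E]
  [NormedAddCommGroup F] [NormedSpace ℝ F] {k : ℕ} {ι : Type} {X : Fam ι E k}
  {σ σ' : ι → E → ℝ}

theorem t3_head {v : Fin k → E} {S : Set E} {s : E → ℝ} {n : ℕ} {f : E → F} (h : Bd v S s n f) :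
    ∀ p ∈ S, ContDiffAt ℝ ∞ f p ∧ ‖f p‖ ≤ s p := by
  cases n
  exacts [h, h.1]

theorem t3_bd {v : Fin k → E} {S : Set E} {s s' : E → ℝ} (hs : ∀ p ∈ S, s p ≤ s' p) {n : ℕ}
    {f g : E → F} (h : Bd v S s n f) (hg : ∀ p ∈ S, g =ᶠ[𝓝 p] f) : Bd v S s' n g := by
  have h0 : ∀ {f g : E → F}, (∀ p ∈ S, g =ᶠ[𝓝 p] f) → (∀ p ∈ S, ContDiffAt ℝ ∞ f p ∧ ‖f p‖ ≤ s p) →
      ∀ p ∈ S, ContDiffAt ℝ ∞ g p ∧ ‖g p‖ ≤ s' p := fun hg h p hp =>
    ⟨(h p hp).1.congr_of_eventuallyEq (hg p hp),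
      ((hg p hp).eq_of_nhds ▸ (h p hp).2).trans (hs p hp)⟩
  induction n generalizing f g with
  | zero => exact h0 hg h
  | succ n ih =>
    exact ⟨h0 hg h.1, fun d => ih (h.2 d) fun p hp =>
      (hg p hp).fderiv.mono fun q hq => congrArg (fun L : E →L[ℝ] F => L (v d)) hq⟩

theorem t3_coind (P : (ι → E → F) → Prop) (hσ : ∀ i, ∀ p ∈ X.S i, 0 ≤ σ i p)
    (h0 : ∀ f, P f → ∃ C : ℝ, 0 ≤ C ∧
      ∀ i, ∀ p ∈ X.S i, ContDiffAt ℝ ∞ (f i) p ∧ ‖f i p‖ ≤ C * σ i p)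
    (hd : ∀ f, P f → ∀ d, ∃ g, P g ∧
      ∀ i, ∀ p ∈ X.S i, (fun q => fderiv ℝ (f i) q (X.v i d)) =ᶠ[𝓝 p] g i)
    {f : ι → E → F} (hf : P f) : T X σ f := by
  intro n
  induction n generalizing f with
  | zero => exact h0 f hf
  | succ n ih =>
    obtain ⟨C, hC, h1⟩ := h0 f hf
    choose g hg h2 using hd f hf
    choose D hD h3 using fun d => ih (hg d)
    have h4 : 0 ≤ ∑ d, D d := Finset.sum_nonneg fun d _ => hD d
    refine ⟨C + ∑ d, D d, by linarith, fun i => ⟨fun p hp => ⟨(h1 i p hp).1, (h1 i p hp).2.trans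
      (mul_le_mul_of_nonneg_right (by linarith) (hσ i p hp))⟩, fun d => t3_bd (fun p hp =>
        mul_le_mul_of_nonneg_right ?_ (hσ i p hp)) (h3 d i) (h2 d i)⟩⟩
    linarith [Finset.single_le_sum (fun d _ => hD d) (Finset.mem_univ d)]

theorem t3_cases {f : ι → E → F} (h : T X σ f) :
    (∀ i, ∀ p ∈ X.S i, 0 ≤ σ i p) ∨ T X (fun _ _ => 0) f := by
  refine or_iff_not_imp_left.2 fun h1 n => ?_
  simp only [not_forall, not_le] at h1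
  obtain ⟨j, q, hq, h1⟩ := h1
  obtain ⟨C, hC, h2⟩ := h n
  have h3 : C = 0 := hC.antisymm' (nonpos_of_mul_nonneg_left
    ((norm_nonneg _).trans (t3_head (h2 j) q hq).2) h1)
  exact ⟨0, le_rfl, fun i => t3_bd (fun p _ => by simp [h3]) (h2 i) fun _ _ => .rfl⟩

theorem t3_pull {E' : Type} [NormedAddCommGroup E'] [NormedSpace ℝ E'] {k' : ℕ} {Y : Fam ι E' k'}
    {f : ι → E → F} (h : T X σ f) (L : ι → E' →L[ℝ] E) (hS : ∀ i, ∀ p ∈ Y.S i, L i p ∈ X.S i)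
    (a : ι → Fin k' → Fin k → ℝ) (ha : ∀ i d e, |a i d e| ≤ 1)
    (hv : ∀ i d, L i (Y.v i d) = ∑ e, a i d e • X.v i e) :
    T Y (fun i p => σ i (L i p)) (fun i p => f i (L i p)) := by
  wlog hσ : ∀ i, ∀ p ∈ X.S i, 0 ≤ σ i p generalizing σ
  · exact (this ((t3_cases h).resolve_left hσ) fun _ _ _ => le_rfl).mono 0 le_rfl
      fun _ _ _ => by simp
  refine t3_coind (fun g => ∃ f : ι → E → F, T X σ f ∧ g = fun i p => f i (L i p))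
    (fun i p hp => hσ i _ (hS i p hp)) ?_ ?_ ⟨f, h, rfl⟩
  · rintro _ ⟨f, h, rfl⟩
    obtain ⟨C, hC, h1⟩ := h.bound
    exact ⟨C, hC, fun i p hp => ⟨(h.smooth i (hS i p hp)).comp p (L i).contDiff.contDiffAt,
      h1 i _ (hS i p hp)⟩⟩
  · rintro _ ⟨f, h, rfl⟩ d
    refine ⟨_, ⟨_, T.sum Finset.univ (fun e _ => ((h.deriv e).fam_smul fun i => a i d e).mono 1
      zero_le_one fun i p hp => mul_le_mul_of_nonneg_right (ha i d e) (hσ i p hp)) hσ, rfl⟩,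
      fun i p hp => ?_⟩
    have h1 := ((h.smooth i (hS i p hp)).of_le (m := 1) (by simp)).eventually (by simp)
    filter_upwards [(L i).continuous.continuousAt.eventually h1] with q hq
    have h2 := ((hq.differentiableAt one_ne_zero).hasFDerivAt.comp q (L i).hasFDerivAt).fderiv
    rw [show fderiv ℝ (fun p => f i (L i p)) q = _ from h2, ContinuousLinearMap.comp_apply, hv]
    simp only [map_sum, map_smul]

theorem T.rescale {f : ι → E → F} (h : T X σ f) (κ : ι → Fin k → ℝ)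
    (hκ : ∀ i d, |κ i d| ≤ 1) : T ⟨fun i d => κ i d • X.v i d, X.S⟩ σ f := by
  refine t3_pull (Y := ⟨fun i d => κ i d • X.v i d, X.S⟩) h (fun _ => .id ℝ E) (fun _ _ hp => hp)
    (fun i d e => if e = d then κ i d else 0) (fun i d e => ?_) fun i d => by simp
  split_ifs
  exacts [hκ i d, by simp]

/-- after slowing all directions by `κ`, every derivative of positive order gains `κ` -/
theorem T.gain {f : ι → E → F} (h : T X σ' f) (κ : ι → ℝ) (hκ : ∀ i, 0 ≤ κ i ∧ κ i ≤ 1)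
    (C : ℝ) (hC : 0 ≤ C) (h0 : ∀ i, ∀ p ∈ X.S i, ‖f i p‖ ≤ C * σ i p)
    (hσ0 : ∀ i, ∀ p ∈ X.S i, 0 ≤ σ i p)
    (hσ : ∀ i, ∀ p ∈ X.S i, κ i * σ' i p ≤ σ i p) :
    T ⟨fun i d => κ i • X.v i d, X.S⟩ σ f := by
  refine T.of_deriv C hC (fun i p hp => ⟨h.smooth i hp, h0 i p hp⟩) hσ0 fun d => ?_
  have h1 := (((h.deriv d).fam_smul κ).mono (σ' := σ) 1 zero_le_one fun i p hp => by
    rw [one_mul, abs_of_nonneg (hκ i).1]
    exact hσ i p hp).rescale (fun i _ => κ i) fun i _ => by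
      rw [abs_of_nonneg (hκ i).1]
      exact (hκ i).2
  simpa only [map_smul] using h1

/-- a high even power of a tame function plus a small constant is logarithmically tame at a
slower scale -/
theorem LT.flat {ρ : ι → E → ℝ} (h : T X (fun _ _ => 1) ρ) (m : ℕ) (hm : Even m)
    (κ τ : ι → ℝ) (hκ : ∀ i, 0 < κ i ∧ κ i ≤ 1) (hτ : ∀ i, κ i ^ m ≤ τ i) :
    LT ⟨fun i d => κ i • X.v i d, X.S⟩ (fun i p => ρ i p ^ m + τ i) := by
  have h0 : ∀ i p, 0 ≤ ρ i p ^ m := fun i p => hm.pow_nonneg _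
  have h1 : ∀ i, 0 < τ i := fun i => (pow_pos (hκ i).1 m).trans_le (hτ i)
  refine ⟨fun i p _ => add_pos_of_nonneg_of_pos (h0 i p) (h1 i), T.add (((h.gain
    (σ := fun i p => |ρ i p| + κ i) κ (fun i => ⟨(hκ i).1.le, (hκ i).2⟩) 1 zero_le_one
    (fun i p _ => by simpa using (hκ i).1.le) (fun i p _ => add_nonneg (abs_nonneg _) (hκ i).1.le)
    fun i p _ => by simp).pow m).mono (2 ^ (m - 1)) (by positivity) fun i p _ => ?_)
    (T.const τ fun i p _ => ?_)⟩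
  · refine (add_pow_le (abs_nonneg _) (hκ i).1.le m).trans ?_
    rw [hm.pow_abs]
    gcongr
    exact hτ i
  · rw [Real.norm_of_nonneg (h1 i).le]
    linarith [h0 i p]
end General

variable {F : Type} [NormedAddCommGroup F] [NormedSpace ℝ F] {ι : Type} {U : ι → Set P2}
  {Θ Θ' : ι → ℝ}

theorem t3_fam2 (hΘ : ∀ i, 0 < Θ i) :
    fam2 U Θ' = ⟨fun i d => (Θ i / Θ' i) • (fam2 U Θ).v i d, (fam2 U Θ).S⟩ := by
  simp only [fam2, Fam.mk.injEq, and_true]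
  funext i d
  have := (hΘ i).ne'
  fin_cases d <;> simp <;> field_simp

theorem t3_div (s : ι → ℝ) (hs : ∀ i, 1 ≤ s i) (hΘ : ∀ i, 0 < Θ i ∧ s i * Θ i ≤ Θ' i) (i : ι) :
    (0 < Θ i / Θ' i ∧ Θ i / Θ' i ≤ 1) ∧ Θ i / Θ' i * s i ≤ 1 := by
  have h1 : Θ i ≤ Θ' i := (le_mul_of_one_le_left (hΘ i).1.le (hs i)).trans (hΘ i).2
  have h2 := (hΘ i).1.trans_le h1
  refine ⟨⟨div_pos (hΘ i).1 h2, (div_le_one h2).2 h1⟩, ?_⟩
  rw [div_mul_eq_mul_div, div_le_one h2, mul_comm]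
  exact (hΘ i).2

theorem t3_abs (hΘ : ∀ i, 0 < Θ i ∧ Θ i ≤ Θ' i) (i : ι) : |Θ i / Θ' i| ≤ 1 := by
  have h := (t3_div (fun _ => 1) (fun _ => le_rfl) (by simpa using hΘ) i).1
  rw [abs_of_pos h.1]
  exact h.2

theorem T.fam2_mono {σ : ι → P2 → ℝ} {f : ι → P2 → F} (h : T (fam2 U Θ) σ f)
    (hΘ : ∀ i, 0 < Θ i ∧ Θ i ≤ Θ' i) : T (fam2 U Θ') σ f := by
  rw [t3_fam2 fun i => (hΘ i).1]
  exact h.rescale (fun i _ => Θ i / Θ' i) fun i _ => t3_abs hΘ i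

theorem T.fam3_mono {σ : ι → P3 → ℝ} {f : ι → P3 → F} (h : T (fam3 U Θ) σ f)
    (hΘ : ∀ i, 0 < Θ i ∧ Θ i ≤ Θ' i) : T (fam3 U Θ') σ f := by
  have e : fam3 U Θ' = ⟨fun i d => ![Θ i / Θ' i, Θ i / Θ' i, 1] d • (fam3 U Θ).v i d,
      (fam3 U Θ).S⟩ := by
    simp only [fam3, Fam.mk.injEq, and_true]
    funext i d
    have := (hΘ i).1.ne'
    fin_cases d <;> simp <;> field_simp
  rw [e]
  refine h.rescale _ fun i d => ?_
  fin_cases d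
  exacts [t3_abs hΘ i, t3_abs hΘ i, abs_one.le]

theorem LT.fam2_mono {f : ι → P2 → ℝ} (h : LT (fam2 U Θ) f)
    (hΘ : ∀ i, 0 < Θ i ∧ Θ i ≤ Θ' i) : LT (fam2 U Θ') f := by
  exact ⟨h.1, h.2.fam2_mono hΘ⟩

theorem T.fam2_gain {σ σ' : ι → P2 → ℝ} {f : ι → P2 → F} (h : T (fam2 U Θ) σ' f)
    (s : ι → ℝ) (hs : ∀ i, 1 ≤ s i) (hΘ : ∀ i, 0 < Θ i ∧ s i * Θ i ≤ Θ' i)
    (C : ℝ) (hC : 0 ≤ C) (h0 : ∀ i, ∀ x ∈ U i, ‖f i x‖ ≤ C * σ i x)
    (hσ0 : ∀ i, ∀ x ∈ U i, 0 ≤ σ i x)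
    (hσ : ∀ i, ∀ x ∈ U i, σ' i x ≤ s i * σ i x) : T (fam2 U Θ') σ f := by
  rw [t3_fam2 fun i => (hΘ i).1]
  have h1 := t3_div s hs hΘ
  refine h.gain _ (fun i => ⟨(h1 i).1.1.le, (h1 i).1.2⟩) C hC h0 hσ0 fun i x hx => ?_
  refine (mul_le_mul_of_nonneg_left (hσ i x hx) (h1 i).1.1.le).trans ?_
  rw [← mul_assoc]
  exact mul_le_of_le_one_left (hσ0 i x hx) (h1 i).2

/-- a tame function with a lower bound is logarithmically tame at a faster scale -/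
theorem LT.of_lower {σ : ι → P2 → ℝ} {f : ι → P2 → ℝ} (h : T (fam2 U Θ) σ f)
    (s : ι → ℝ) (hs : ∀ i, 1 ≤ s i) (hΘ : ∀ i, 0 < Θ i ∧ s i * Θ i ≤ Θ' i)
    (hp : ∀ i, ∀ x ∈ U i, 0 < f i x ∧ σ i x ≤ s i * f i x) : LT (fam2 U Θ') f := by
  exact ⟨fun i x hx => (hp i x hx).1, h.fam2_gain s hs hΘ 1 zero_le_one
    (fun i x hx => by rw [one_mul, Real.norm_of_nonneg (hp i x hx).1.le])
    (fun i x hx => (hp i x hx).1.le) fun i x hx => (hp i x hx).2⟩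

theorem LT.fam2_flat {ρ : ι → P2 → ℝ} (h : T (fam2 U Θ) (fun _ _ => 1) ρ) (m : ℕ) (hm : Even m)
    (s τ : ι → ℝ) (hs : ∀ i, 1 ≤ s i) (hΘ : ∀ i, 0 < Θ i ∧ s i * Θ i ≤ Θ' i)
    (hτ : ∀ i, (s i)⁻¹ ^ m ≤ τ i) : LT (fam2 U Θ') (fun i x => ρ i x ^ m + τ i) := by
  rw [t3_fam2 fun i => (hΘ i).1]
  have h1 := t3_div s hs hΘ
  refine LT.flat h m hm _ τ (fun i => (h1 i).1) fun i =>
    (pow_le_pow_left₀ (h1 i).1.1.le ?_ m).trans (hτ i)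
  rw [inv_eq_one_div, le_div_iff₀ (one_pos.trans_le (hs i))]
  exact (h1 i).2

theorem t3_dir {E : Type} [NormedAddCommGroup E] [NormedSpace ℝ E] {k : ℕ} {X : Fam ι E k}
    {σ : ι → E → ℝ} {f : ι → E → F} (h : T X σ f) (hΘ : ∀ i, 0 < Θ i) (d : Fin k) (w : E)
    (hw : ∀ i, Θ i • X.v i d = w) :
    T X (fun i x => Θ i * σ i x) (fun i x => fderiv ℝ (f i) x w) := by
  have h1 := (h.deriv d).fam_smul Θ
  simpa only [← map_smul, hw, abs_of_pos (hΘ _)] using h1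

theorem T.du {σ : ι → P2 → ℝ} {f : ι → P2 → F} (h : T (fam2 U Θ) σ f) (hΘ : ∀ i, 0 < Θ i) :
    T (fam2 U Θ) (fun i x => Θ i * σ i x) (fun i => du (f i)) := by
  exact t3_dir h hΘ 0 _ fun i => by simp [fam2, (hΘ i).ne']

theorem T.dv {σ : ι → P2 → ℝ} {f : ι → P2 → F} (h : T (fam2 U Θ) σ f) (hΘ : ∀ i, 0 < Θ i) :
    T (fam2 U Θ) (fun i x => Θ i * σ i x) (fun i => dv (f i)) := by
  exact t3_dir h hΘ 1 _ fun i => by simp [fam2, (hΘ i).ne']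

theorem T.pu {σ : ι → P3 → ℝ} {f : ι → P3 → F} (h : T (fam3 U Θ) σ f) (hΘ : ∀ i, 0 < Θ i) :
    T (fam3 U Θ) (fun i z => Θ i * σ i z) (fun i => pu (f i)) := by
  exact t3_dir h hΘ 0 _ fun i => by simp [fam3, (hΘ i).ne']

theorem T.pv {σ : ι → P3 → ℝ} {f : ι → P3 → F} (h : T (fam3 U Θ) σ f) (hΘ : ∀ i, 0 < Θ i) :
    T (fam3 U Θ) (fun i z => Θ i * σ i z) (fun i => pv (f i)) := by
  exact t3_dir h hΘ 1 _ fun i => by simp [fam3, (hΘ i).ne']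

theorem T.pt {σ : ι → P3 → ℝ} {f : ι → P3 → F} (h : T (fam3 U Θ) σ f) :
    T (fam3 U Θ) σ (fun i => pt (f i)) := by
  exact h.deriv 2

theorem T.lift {σ : ι → P2 → ℝ} {f : ι → P2 → F} (h : T (fam2 U Θ) σ f) :
    T (fam3 U Θ) (fun i z => σ i z.1) (fun i z => f i z.1) := by
  refine t3_pull (Y := fam3 U Θ) h (fun _ => .fst ℝ P2 ℝ) (fun _ _ hp => hp.1)
    (fun _ => ![![1, 0], ![0, 1], ![0, 0]]) (fun i d e => ?_) fun i d => ?_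
  · fin_cases d <;> fin_cases e <;> simp
  · fin_cases d <;> simp [fam2, fam3]

theorem LT.lift {f : ι → P2 → ℝ} (h : LT (fam2 U Θ) f) :
    LT (fam3 U Θ) (fun i z => f i z.1) := by
  exact ⟨fun i z hz => h.1 i z.1 hz.1, h.2.lift⟩

/-- evaluation at the fast phase -/
theorem T.eval {σ : ι → P2 → ℝ} {Z : ι → P3 → F} (h : T (fam3 U Θ) (fun i z => σ i z.1) Z)
    (μ : ι → ℝ) (hμ : ∀ i, 0 < Θ i ∧ Θ i ≤ μ i) :
    T (fam2 U μ) σ (fun i x => Z i (x, μ i * x.2)) := by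
  refine t3_pull (Y := fam2 U μ) h (fun i => (ContinuousLinearMap.id ℝ P2).prod
    (μ i • ContinuousLinearMap.snd ℝ ℝ ℝ)) (fun _ _ hp => ⟨hp, trivial⟩)
    (fun i => ![![Θ i / μ i, 0, 0], ![0, Θ i / μ i, 1]]) (fun i d e => ?_) fun i d => ?_
  · have := t3_abs hμ i
    fin_cases d <;> fin_cases e <;> first | exact this | simp
  · have := (hμ i).1.ne'
    have := ((hμ i).1.trans_le (hμ i).2).ne'
    fin_cases d <;> simp [fam2, fam3, Fin.sum_univ_three, *] <;> field_simp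

theorem T.to_iter {σ : ι → P2 → ℝ} {f : ι → P2 → F} (h : T (fam2 U Θ) σ f) (hΘ : ∀ i, 0 < Θ i)
    (m : ℕ) : ∃ C : ℝ, 0 ≤ C ∧ ∀ i, ∀ x ∈ U i,
      ‖iteratedFDeriv ℝ m (f i) x‖ ≤ C * σ i x * Θ i ^ m := by
  induction m generalizing F σ with
  | zero => simpa [fam2] using h.bound
  | succ m ih =>
    have h1 := ((h.du hΘ).clm (ContinuousLinearMap.smulRightL ℝ P2 F (.fst ℝ ℝ ℝ))).add
      ((h.dv hΘ).clm (ContinuousLinearMap.smulRightL ℝ P2 F (.snd ℝ ℝ ℝ)))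
    have e : ∀ i x, ContinuousLinearMap.smulRightL ℝ P2 F (.fst ℝ ℝ ℝ) (P205.du (f i) x) +
        ContinuousLinearMap.smulRightL ℝ P2 F (.snd ℝ ℝ ℝ) (P205.dv (f i) x) = fderiv ℝ (f i) x := by
      intro i x
      ext <;> simp [P205.du, P205.dv]
    simp only [e] at h1
    obtain ⟨C, hC, h2⟩ := ih h1
    refine ⟨C, hC, fun i x hx => ?_⟩
    rw [← norm_iteratedFDeriv_fderiv]
    exact (h2 i x hx).trans_eq (by ring)

theorem T.of_iter {σ : ι → P2 → ℝ} {f : ι → P2 → F} (hΘ : ∀ i, 0 < Θ i)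
    (hσ : ∀ i, ∀ x ∈ U i, 0 ≤ σ i x) (hs : ∀ i, ∀ x ∈ U i, ContDiffAt ℝ ∞ (f i) x)
    (h : ∀ m : ℕ, ∃ C : ℝ, ∀ i, ∀ x ∈ U i, ‖iteratedFDeriv ℝ m (f i) x‖ ≤ C * σ i x * Θ i ^ m) :
    T (fam2 U Θ) σ f := by
  refine t3_coind (fun f => (∀ i, ∀ x ∈ U i, ContDiffAt ℝ ∞ (f i) x) ∧ ∀ m : ℕ, ∃ C : ℝ,
    ∀ i, ∀ x ∈ U i, ‖iteratedFDeriv ℝ m (f i) x‖ ≤ C * σ i x * Θ i ^ m) hσ ?_ ?_ ⟨hs, h⟩
  · rintro f ⟨hs, h⟩
    obtain ⟨C, hC⟩ := h 0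
    refine ⟨|C|, abs_nonneg C, fun i x hx => ⟨hs i x hx, le_trans (by simpa using hC i x hx)
      (mul_le_mul_of_nonneg_right (le_abs_self C) (hσ i x hx))⟩⟩
  · rintro f ⟨hs, h⟩ d
    have h1 : ∀ i, ∀ x ∈ U i, ContDiffAt ℝ ∞ (fderiv ℝ (f i)) x := fun i x hx =>
      (hs i x hx).fderiv_right (by simp)
    refine ⟨fun i q => fderiv ℝ (f i) q ((fam2 U Θ).v i d), ⟨fun i x hx =>
      (h1 i x hx).clm_apply contDiffAt_const, fun m => ?_⟩, fun _ _ _ => .rfl⟩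
    obtain ⟨C, hC⟩ := h (m + 1)
    refine ⟨C, fun i x hx => (norm_iteratedFDeriv_clm_apply_const (h1 i x hx)
      (by exact_mod_cast le_top)).trans ?_⟩
    have h2 : ‖(fam2 U Θ).v i d‖ = (Θ i)⁻¹ := by
      fin_cases d <;> simp [fam2, abs_of_pos (hΘ i), (hΘ i).le]
    rw [h2, norm_iteratedFDeriv_fderiv, inv_mul_le_iff₀ (hΘ i)]
    exact (hC i x hx).trans_eq (by ring)

/-- a fixed smooth function on a compact set -/
theorem T.fixed {Φ : P2 → F} {K : Set P2} (hK : IsCompact K)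
    (hΦ : ∀ x ∈ K, ContDiffAt ℝ ∞ Φ x) (hU : ∀ i, U i ⊆ K) (hΘ : ∀ i, 1 ≤ Θ i) :
    T (fam2 U Θ) (fun _ _ => 1) (fun _ => Φ) := by
  refine T.of_iter (fun i => one_pos.trans_le (hΘ i)) (fun _ _ _ => zero_le_one)
    (fun i x hx => hΦ x (hU i hx)) fun m => ?_
  obtain ⟨C, hC⟩ := BdOn.of_compact hK hΦ m
  refine ⟨|C|, fun i x hx => ((hC x (hU i hx)).2.trans (le_abs_self C)).trans ?_⟩
  rw [mul_one]
  exact le_mul_of_one_le_right (abs_nonneg C) (one_le_pow₀ (hΘ i))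

end Vale.Agent.P205
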