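import Vale.Agent.P205.S1
import Vale.Agent.P205.Tame3

/-! P205, I2: the weights. -/

open scoped ContDiff InnerProductSpace Topology Manifold
open Set Filter Real

noncomputable section
namespace Vale.Agent.P205

variable {M : Type*} [TopologicalSpace M] [ChartedSpace E2 M] [IsManifold 𝓘(ℝ, E2) ∞ M]
  [T2Space M] [CompactSpace M]

namespace S2Aux

theorem glue_le_one (x : ℝ) : expNegInvGlue x ≤ 1 := by
  unfold expNegInvGlue
  split_ifs with h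
  · exact zero_le_one
  · exact Real.exp_le_one_iff.2 (neg_nonpos.2 (inv_nonneg.2 (le_of_not_ge h)))

theorem glue_pow {m : ℕ} (hm : 1 ≤ m) (x : ℝ) :
    expNegInvGlue (m * x) ^ m = expNegInvGlue ((1 : ℕ) * x) := by
  have hm' : (0 : ℝ) < m := by exact_mod_cast hm
  rw [Nat.cast_one, one_mul]
  rcases le_or_gt x 0 with h | h
  · rw [expNegInvGlue.zero_of_nonpos h,
      expNegInvGlue.zero_of_nonpos (mul_nonpos_of_nonneg_of_nonpos hm'.le h), zero_pow (by omega)]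
  · unfold expNegInvGlue
    rw [if_neg (not_le.2 h), if_neg (not_le.2 (mul_pos hm' h)), ← Real.exp_nat_mul]
    congr 1
    field_simp

theorem glue_pos {m : ℕ} {x : ℝ} (h : expNegInvGlue (m * x) ≠ 0) : 0 < x := by
  by_contra hx
  exact h (expNegInvGlue.zero_of_nonpos
    (mul_nonpos_of_nonneg_of_nonpos (Nat.cast_nonneg m) (not_lt.1 hx)))

theorem contDiffAt_Gram {f : P2 → R4} {x : P2} (h : ContDiffAt ℝ ∞ f x) :
    ContDiffAt ℝ ∞ (Gram f) x :=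
  contDiff_gram3.contDiffAt.comp x (f := fun y => (du f y, dv f y, du (du f) y))
    ((contDiffAt_du h).prodMk ((contDiffAt_dv h).prodMk (contDiffAt_du (contDiffAt_du h))))

theorem exists_unif {J : Type*} [Finite J] {P : J → ℝ → Prop}
    (mono : ∀ j C C', P j C → C ≤ C' → P j C') (h : ∀ j, ∃ C, P j C) :
    ∃ C, 0 ≤ C ∧ ∀ j, P j C := by
  choose C hC using h
  obtain ⟨B, hB⟩ := (Set.finite_range C).bddAbove
  exact ⟨max B 0, le_max_right _ _, fun j =>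
    mono j _ _ (hC j) ((hB ⟨j, rfl⟩).trans (le_max_left _ _))⟩

theorem exists_low {J : Type*} [Finite J] {P : J → ℝ → Prop}
    (mono : ∀ j C C', P j C → 0 < C' → C' ≤ C → P j C') (h : ∀ j, ∃ C, 0 < C ∧ P j C) :
    ∃ C, 0 < C ∧ ∀ j, P j C := by
  choose C hC0 hC using h
  obtain ⟨B, hB0, hB⟩ := exists_unif (P := fun j B => (C j)⁻¹ ≤ B) (fun _ _ _ h h' => h.trans h')
    fun j => ⟨_, le_rfl⟩
  refine ⟨(B + 1)⁻¹, ?_, fun j => mono j _ _ (hC j) ?_ ?_⟩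
  · positivity
  · positivity
  · exact inv_le_of_inv_le₀ (hC0 j) (by linarith [hB j])

section Tame
variable {ι V : Type} [NormedAddCommGroup V] [NormedSpace ℝ V] {U : ι → Set P2} {Θ : ι → ℝ}

theorem to_iter_le {σ : ι → ℝ} {f : ι → P2 → V} (h : T (fam2 U Θ) (fun i _ => σ i) f)
    (hΘ : ∀ i, 1 ≤ Θ i) (hσ : ∀ i, 0 ≤ σ i) (m : ℕ) : ∃ C : ℝ, 0 ≤ C ∧ ∀ i, ∀ x ∈ U i, ∀ j ≤ m,
      ‖iteratedFDeriv ℝ j (f i) x‖ ≤ C * (σ i * Θ i ^ m) := by
  have h0 : ∀ i, 0 < Θ i := fun i => lt_of_lt_of_le one_pos (hΘ i)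
  obtain ⟨C, hC0, hC⟩ := exists_unif (J := Fin (m + 1))
    (P := fun j C => ∀ i, ∀ x ∈ U i, ‖iteratedFDeriv ℝ j (f i) x‖ ≤ C * (σ i * Θ i ^ m))
    (fun j C C' h h' i x hx => (h i x hx).trans
      (mul_le_mul_of_nonneg_right h' (mul_nonneg (hσ i) (pow_pos (h0 i) m).le))) fun j => by
      obtain ⟨C, hC0, hC⟩ := h.to_iter h0 j
      refine ⟨C, fun i x hx => (hC i x hx).trans ?_⟩
      rw [mul_assoc]
      exact mul_le_mul_of_nonneg_left (mul_le_mul_of_nonneg_left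
        (pow_le_pow_right₀ (hΘ i) (Nat.lt_succ_iff.1 j.2)) (hσ i)) hC0
  exact ⟨C, hC0, fun i x hx j hj => hC ⟨j, Nat.lt_succ_iff.2 hj⟩ i x hx⟩

theorem tame_Gram {f : ι → P2 → R4} (h : T (fam2 U Θ) (fun i _ => Θ i) f) (hΘ : ∀ i, 0 < Θ i) :
    T (fam2 U Θ) (fun i _ => Θ i ^ 14) fun i => Gram (f i) := by
  have a := h.du hΘ
  have b := h.dv hΘ
  have c := a.du hΘ
  have k : ∀ {σ : ι → P2 → ℝ} {u : ι → P2 → ℝ}, T (fam2 U Θ) σ u →
      (∀ i x, σ i x = Θ i ^ 14) → T (fam2 U Θ) (fun i _ => Θ i ^ 14) u := fun h e =>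
    h.mono 1 zero_le_one fun i x _ => by rw [e, one_mul]
  exact ((((k (((a.inner a).mul (b.inner b)).mul (c.inner c)) fun i x => by ring).add
    (k ((((a.inner b).const_mul 2).mul (b.inner c)).mul (a.inner c)) fun i x => by ring)).sub
    (k ((a.inner a).mul ((b.inner c).pow 2)) fun i x => by ring)).sub
    (k ((b.inner b).mul ((a.inner c).pow 2)) fun i x => by ring)).sub
    (k ((c.inner c).mul ((a.inner b).pow 2)) fun i x => by ring)

theorem comp_gain {G : ι → P2 → ℝ} (h : T (fam2 U Θ) (fun i _ => Θ i ^ 14) G) (hΘ : ∀ i, 1 ≤ Θ i)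
    {Φ : ℝ → ℝ} (hΦ : BdOn Φ univ) :
    T (fam2 U fun i => Θ i ^ 15) (fun _ _ => 1) fun i x => Φ (G i x) := by
  have h0 : ∀ i, 0 < Θ i := fun i => lt_of_lt_of_le one_pos (hΘ i)
  refine T.comp hΦ (fun _ _ _ => mem_univ _) (fun i p hp => h.smooth i hp) fun d => ?_
  have h1 := ((h.deriv d).fam_smul fun i => (Θ i ^ 14)⁻¹).fam2_mono (Θ' := fun i => Θ i ^ 15)
    fun i => ⟨h0 i, le_self_pow₀ (hΘ i) (by norm_num)⟩
  refine (h1.mono 1 zero_le_one fun i x _ => ?_).congr fun i x _ => Eventually.of_forall fun y => ?_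
  · rw [abs_of_pos (inv_pos.2 (pow_pos (h0 i) _)), inv_mul_cancel₀ (pow_pos (h0 i) _).ne', one_mul]
  · have e : (fam2 U fun i => Θ i ^ 15).v i d = (Θ i ^ 14)⁻¹ • (fam2 U Θ).v i d := by
      have := (h0 i).ne'
      fin_cases d <;> simp [fam2] <;> field_simp
    simp only [e, map_smul]

theorem transfer (c d : Ch M) {K : Set M} (hK : IsCompact K) (hc : K ⊆ c.e.source)
    (hd : K ⊆ d.e.source) {σ : ι → ℝ} {G : ι → M → V} (hΘ : ∀ i, 1 ≤ Θ i) (hσ : ∀ i, 0 ≤ σ i)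
    (h : T (fam2 (fun _ => c.e '' K) Θ) (fun i _ => σ i) fun i => loc c (G i)) :
    T (fam2 (fun _ => d.e '' K) Θ) (fun i _ => σ i) fun i => loc d (G i) := by
  refine T.of_iter (fun i => lt_of_lt_of_le one_pos (hΘ i)) (fun i _ _ => hσ i) ?_ fun m => ?_
  · rintro i _ ⟨p, hp, rfl⟩
    have h1 : ContDiffAt ℝ ∞ (loc c (G i)) (trans d c (d.e p)) := by
      rw [trans_apply d c (hd hp)]
      exact h.smooth i ⟨p, hp, rfl⟩
    exact (h1.comp _ (contDiffAt_trans d c (hd hp) (hc hp))).congr_of_eventuallyEq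
      (loc_eventuallyEq d c (G i) (hd hp) (hc hp))
  · obtain ⟨C, -, hC⟩ := to_iter_le h hΘ hσ m
    obtain ⟨C', -, hC'⟩ := trans_bound (V := V) c d hK hc hd m
    refine ⟨C' * C, ?_⟩
    rintro i _ ⟨p, hp, rfl⟩
    refine (hC' (G i) _ p hp (h.smooth i ⟨p, hp, rfl⟩) (hC i _ ⟨p, hp, rfl⟩) m le_rfl).trans
      (le_of_eq (by ring))

end Tame

theorem det_alg {E F G e f g B d τ : ℝ} (hE : |E| ≤ B) (hF : |F| ≤ B) (hG : |G| ≤ B)
    (he : |e - E| ≤ τ) (hf : |f - F| ≤ τ) (hg : |g - G| ≤ τ) (hτ : τ ≤ 1)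
    (hd : d ≤ E * G - F ^ 2) :
    d - (4 * B + 2) * τ ≤ e * g - f ^ 2 ∧ e * g - f ^ 2 ≤ (B + 1) ^ 2 := by
  have hB := (abs_nonneg _).trans hE
  have h0 := (abs_nonneg _).trans he
  have k : ∀ {x y a b : ℝ}, |x| ≤ a → |y| ≤ b → |x * y| ≤ a * b := fun h h' => by
    rw [abs_mul]
    exact mul_le_mul h h' (abs_nonneg _) ((abs_nonneg _).trans h)
  have h1 := abs_le.1 (k hE hg)
  have h2 := abs_le.1 (k hG he)
  have h3 := abs_le.1 (k he hg)
  have h4 := abs_le.1 (k hF hf)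
  have h5 := abs_le.1 (k hf hf)
  have h6 : τ * τ ≤ τ := mul_le_of_le_one_left h0 hτ
  have h7 : |e| ≤ B + 1 := by linarith [abs_sub_abs_le_abs_sub e E]
  have h8 : |g| ≤ B + 1 := by linarith [abs_sub_abs_le_abs_sub g G]
  have h9 := abs_le.1 (k h7 h8)
  constructor <;> nlinarith [sq_nonneg f]

theorem det_bounds {g : Ten M} (hg : Good g) (hp : PosD g) (c : Ch M) {K : Set P2}
    (hK : IsCompact K) (hKc : K ⊆ c.e.target) : ∃ a b σ : ℝ, 0 < a ∧ 0 < b ∧ 0 < σ ∧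
      ∀ F : M → R4, Sm F → Small g (pull F - g) σ →
        ∀ x ∈ K, a ≤ det2 (loc c F) x ∧ det2 (loc c F) x ≤ b := by
  have h1 : ContinuousOn (cE c g) K := fun x hx =>
    (hg.cEFG c (hKc hx)).1.continuousAt.continuousWithinAt
  have h2 : ContinuousOn (cF c g) K := fun x hx =>
    (hg.cEFG c (hKc hx)).2.1.continuousAt.continuousWithinAt
  have h3 : ContinuousOn (cG c g) K := fun x hx =>
    (hg.cEFG c (hKc hx)).2.2.continuousAt.continuousWithinAt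
  obtain ⟨B, hB⟩ := hK.exists_bound_of_continuousOn (h1.prodMk (h2.prodMk h3))
  obtain ⟨d, hd0, hd⟩ := hK.exists_forall_le' ((h1.mul h3).sub (h2.pow 2))
    fun x hx => (hp.chart hg.1 c (hKc hx)).2
  obtain ⟨C, hC0, hC⟩ := chart_of_small hg hp c hK hKc
  have hB' : 0 < 4 * |B| + 2 := by positivity
  obtain ⟨τ, hτ0, hτ1, hτ⟩ : ∃ τ : ℝ, 0 < τ ∧ τ ≤ 1 ∧ (4 * |B| + 2) * τ ≤ d / 2 :=
    ⟨min 1 (d / 2 / (4 * |B| + 2)), by positivity, min_le_left _ _,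
      (le_div_iff₀' hB').1 (min_le_right _ _)⟩
  refine ⟨d / 2, (|B| + 1) ^ 2, τ / C, by positivity, by positivity, by positivity,
    fun F hF hs x hx => ?_⟩
  have h4 := hC (pull F - g) (fun p X Y => by
    simp only [Pi.sub_apply, ContinuousLinearMap.sub_apply, symm_pull F p X Y, hg.1 p X Y]) x hx _
    (by positivity) (hs _)
  obtain ⟨e1, e2, e3⟩ := cEFG_pull c hF (hKc hx)
  rw [mul_div_cancel₀ _ hC0.ne'] at h4
  simp only [cE, cF, cG, cmp_sub] at h4 e1 e2 e3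
  rw [e1, e2, e3] at h4
  have h5 := (hB x hx).trans (le_abs_self B)
  simp only [Prod.norm_def, max_le_iff, Real.norm_eq_abs] at h5
  have h6 := det_alg h5.1 h5.2.1 h5.2.2 h4.1 h4.2.1 h4.2.2 hτ1 (hd x hx)
  rw [det2_eq]
  exact ⟨by linarith [h6.1], h6.2⟩

end S2Aux

open S2Aux

namespace SAt
variable {g : Ten M} (A : SAt g)

omit [IsManifold 𝓘(ℝ, E2) ∞ M] [T2Space M] [CompactSpace M] in
theorem s2_mem (γ : A.Γ) (i : Fin 3) {p : M} (hp : p ∈ A.A γ) :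
    (A.c γ i).e p ∈ tsupport (A.χ' γ i) := by
  have h1 : (A.c γ i).e p ∈ tsupport (A.χ γ i) :=
    subset_tsupport _ (by rw [Function.mem_support, A.χA γ i p hp]; exact one_ne_zero)
  exact subset_tsupport _ (by
    rw [Function.mem_support, (A.χχ' γ i).self_of_nhdsSet _ h1]; exact one_ne_zero)

omit [IsManifold 𝓘(ℝ, E2) ∞ M] [CompactSpace M] in
theorem s2_zero (F : M → R4) (c' : ℝ) (m : ℕ) (γ : A.Γ) {p : M} (hp : p ∉ A.A γ) :
    A.wroot F c' m γ =ᶠ[𝓝 p] fun _ => 0 := by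
  filter_upwards [(A.cptA γ).isClosed.isOpen_compl.mem_nhds hp] with q hq
  rw [wroot, expNegInvGlue.zero_of_nonpos (mul_nonpos_of_nonneg_of_nonpos (Nat.cast_nonneg m)
    (not_lt.1 fun h => hq (A.hA γ q h))), zero_mul]

theorem sm_wroot {F : M → R4} (hF : Sm F) (c' : ℝ) (m : ℕ) (γ : A.Γ) : Sm (A.wroot F c' m γ) := by
  refine sm_of_loc fun p => ?_
  obtain ⟨d, hd⟩ := exists_ch p
  refine ⟨d, hd, ?_⟩
  by_cases hp : p ∈ A.A γ
  · have h1 : ∀ i, ContDiffAt ℝ ∞ (fun x => Gram (loc (A.c γ i) F) (trans d (A.c γ i) x))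
        (d.e p) := fun i => by
      have h2 : ContDiffAt ℝ ∞ (Gram (loc (A.c γ i) F)) (trans d (A.c γ i) (d.e p)) := by
        rw [trans_apply d _ hd]
        exact contDiffAt_Gram (hF.locAt _ ((A.c γ i).e.map_source (A.subA γ i hp)))
      exact h2.comp _ (contDiffAt_trans d _ hd (A.subA γ i hp))
    have h3 := (A.smh γ).locAt d (d.e.map_source hd)
    exact (expNegInvGlue.contDiff.contDiffAt.comp _ (contDiffAt_const.mul h3)).mul
      (contDiffAt_prod fun i _ => expNegInvGlue.contDiff.contDiffAt.comp _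
        (contDiffAt_const.mul (((contDiffAt_const.mul (h1 i)).div_const c').sub contDiffAt_const)))
  · exact contDiffAt_const.congr_of_eventuallyEq (loc_congr d hd (A.s2_zero F c' m γ hp))

theorem wroot_mem (F : M → R4) (c' : ℝ) (m : ℕ) (γ : A.Γ) (p : M) :
    0 ≤ A.wroot F c' m γ p ∧ A.wroot F c' m γ p ≤ 1 := by
  have h := Finset.prod_nonneg (s := Finset.univ) fun i _ =>
    expNegInvGlue.nonneg (m * (2 * A.gr F γ i p / c' - 1))
  exact ⟨mul_nonneg (expNegInvGlue.nonneg _) h, mul_le_one₀ (glue_le_one _) h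
    (Finset.prod_le_one (fun _ _ => expNegInvGlue.nonneg _) fun _ _ => glue_le_one _)⟩

theorem wroot_pow (F : M → R4) (c' : ℝ) {m : ℕ} (hm : 1 ≤ m) (γ : A.Γ) (p : M) :
    A.wroot F c' m γ p ^ m = A.wroot F c' 1 γ p := by
  simp only [wroot, mul_pow, ← Finset.prod_pow, glue_pow hm]

theorem wroot_ne_zero {F : M → R4} {c' : ℝ} (hc : 0 < c') {m : ℕ} {γ : A.Γ} {p : M}
    (h : A.wroot F c' m γ p ≠ 0) : p ∈ A.A γ ∧ ∀ i, c' / 2 ≤ A.gr F γ i p := by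
  refine ⟨A.hA γ p (glue_pos (left_ne_zero_of_mul h)), fun i => ?_⟩
  have h1 := glue_pos (Finset.prod_ne_zero_iff.1 (right_ne_zero_of_mul h) i (Finset.mem_univ i))
  rw [sub_pos, lt_div_iff₀ hc] at h1
  linarith

theorem wnorm_bounds : ∃ c0 : ℝ, 0 < c0 ∧ ∀ (F : M → R4) (c' : ℝ), 0 < c' → A.Sel F c' →
    ∀ p, c0 ≤ A.wnorm F c' p ∧ A.wnorm F c' p ≤ c0⁻¹ := by
  have he := expNegInvGlue.pos_of_pos one_pos
  obtain ⟨s, hs⟩ : ∃ s, s = (expNegInvGlue 1 ^ 4) ^ 2 := ⟨_, rfl⟩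
  have hs0 : 0 < s := by rw [hs]; positivity
  refine ⟨min s ((Fintype.card A.Γ : ℝ) + 1)⁻¹, by positivity, fun F c' hc hS p => ?_⟩
  obtain ⟨γ, h1, h2⟩ := hS p
  have h3 : expNegInvGlue 1 ^ 4 ≤ A.wroot F c' 1 γ p := by
    have h4 : ∏ _i : Fin 3, expNegInvGlue 1 ≤
        ∏ i, expNegInvGlue ((1 : ℕ) * (2 * A.gr F γ i p / c' - 1)) :=
      Finset.prod_le_prod (fun _ _ => he.le) fun i _ => expNegInvGlue.monotone (by
        rw [Nat.cast_one, one_mul, le_sub_iff_add_le, le_div_iff₀ hc]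
        linarith [h2 i])
    rw [Finset.prod_const, Finset.card_fin] at h4
    rw [pow_succ']
    exact mul_le_mul (expNegInvGlue.monotone (by rwa [Nat.cast_one, one_mul])) h4 (by positivity)
      (expNegInvGlue.nonneg _)
  have h5 : s ≤ ∑ γ, A.wroot F c' 1 γ p ^ 2 := by
    rw [hs]
    exact (pow_le_pow_left₀ (by positivity) h3 2).trans
      (Finset.single_le_sum (f := fun γ => A.wroot F c' 1 γ p ^ 2) (fun _ _ => sq_nonneg _)
        (Finset.mem_univ γ))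
  have h6 : ∑ γ, A.wroot F c' 1 γ p ^ 2 ≤ (Fintype.card A.Γ : ℝ) + 1 := by
    have := Finset.sum_le_card_nsmul Finset.univ (fun γ => A.wroot F c' 1 γ p ^ 2) 1 fun γ _ =>
      pow_le_one₀ (A.wroot_mem F c' 1 γ p).1 (A.wroot_mem F c' 1 γ p).2
    rw [nsmul_eq_mul, mul_one, Finset.card_univ] at this
    linarith
  exact ⟨(min_le_right _ _).trans (inv_anti₀ (hs0.trans_le h5) h6),
    inv_anti₀ (by positivity) ((min_le_left _ _).trans h5)⟩

theorem sm_wnorm {F : M → R4} (hF : Sm F) {c' : ℝ} (hc : 0 < c') (hs : A.Sel F c') :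
    Sm (A.wnorm F c') := by
  obtain ⟨c0, h0, h⟩ := A.wnorm_bounds
  refine (Sm.sum Finset.univ (F := fun γ p => A.wroot F c' 1 γ p ^ 2) fun γ _ =>
    (A.sm_wroot hF c' 1 γ).comp (Φ := fun t => t ^ 2) fun _ => by fun_prop).comp
    (Φ := fun t => t⁻¹) fun p => contDiffAt_inv ℝ fun h1 => ?_
  have h2 := (h F c' hc hs p).1
  rw [wnorm, h1, inv_zero] at h2
  linarith

theorem wsum {F : M → R4} {c' : ℝ} (hc : 0 < c') (hs : A.Sel F c') {m : ℕ} (hm : 1 ≤ m) (p : M) :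
    ∑ γ, A.wroot F c' m γ p ^ (2 * m) * A.wnorm F c' p = 1 := by
  obtain ⟨c0, h0, h⟩ := A.wnorm_bounds
  have h2 := (h F c' hc hs p).1
  simp only [mul_comm 2 m, pow_mul, A.wroot_pow F c' hm]
  rw [← Finset.sum_mul]
  refine mul_inv_cancel₀ fun h1 => ?_
  rw [wnorm, h1, inv_zero] at h2
  linarith

theorem s2_tame {ι : Type} {F : ι → M → R4} {μ : ι → ℝ} (hμ : ∀ n, 1 ≤ μ n)
    (hF : ∀ j, ∃ C : ℝ, ∀ n, A.NB j (F n) (C * μ n ^ (j + 1))) (c' : ℝ) (m : ℕ) (γ : A.Γ)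
    (d : Ch M) {K' : Set P2} (hK' : IsCompact K') (hd : K' ⊆ d.e.target) :
    T (fam2 (fun _ => K') fun n => μ n ^ 15) (fun _ _ => 1)
      fun n => loc d (A.wroot (F n) c' m γ) := by
  have h0 : ∀ n, 0 < μ n := fun n => lt_of_lt_of_le one_pos (hμ n)
  have h15 : ∀ n, 1 ≤ μ n ^ 15 := fun n => one_le_pow₀ (hμ n)
  have hK : IsCompact (A.A γ ∩ d.e.symm '' K') := (A.cptA γ).inter_right
    (hK'.image_of_continuousOn (d.e.continuousOn_symm.mono hd)).isClosed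
  have hKd : A.A γ ∩ d.e.symm '' K' ⊆ d.e.source := by
    rintro _ ⟨-, x, hx, rfl⟩
    exact d.e.map_target (hd hx)
  have hKA : A.A γ ∩ d.e.symm '' K' ⊆ A.A γ := inter_subset_left
  have hmem : ∀ x ∈ K', d.e.symm x ∈ A.A γ → x ∈ d.e '' (A.A γ ∩ d.e.symm '' K') := fun x hx h =>
    ⟨_, ⟨h, x, hx, rfl⟩, d.e.right_inv (hd hx)⟩
  generalize A.A γ ∩ d.e.symm '' K' = K at hK hKd hKA hmem
  have hi : ∀ i, T (fam2 (fun _ => d.e '' K) fun n => μ n ^ 15) (fun _ _ => 1) fun n =>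
      loc d fun p => expNegInvGlue (m * (2 * A.gr (F n) γ i p / c' - 1)) := fun i => by
    have hc : K ⊆ (A.c γ i).e.source := hKA.trans (A.subA γ i)
    refine transfer (A.c γ i) d hK hc hKd h15 (fun _ => zero_le_one) ?_
    have h1 : T (fam2 (fun _ => (A.c γ i).e '' K) μ) (fun n _ => μ n)
        fun n => loc (A.c γ i) (F n) := by
      refine T.of_iter h0 (fun n _ _ => (h0 n).le) ?_ fun j => ?_
      · rintro n _ ⟨p, hp, rfl⟩
        obtain ⟨C, hC⟩ := hF 0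
        exact (hC n).1.locAt _ ((A.c γ i).e.map_source (hc hp))
      · obtain ⟨C, hC⟩ := hF j
        refine ⟨C, ?_⟩
        rintro n _ ⟨p, hp, rfl⟩
        exact ((hC n).2 γ i j le_rfl _ (A.s2_mem γ i (hKA hp))).trans (le_of_eq (by ring))
    have h2 := (tame_Gram h1 h0).const_mul (m * 2 / c')
    have h3 : T (fam2 (fun _ => (A.c γ i).e '' K) μ) (fun n _ => μ n ^ 14 * m)
        fun _ _ => (m : ℝ) := T.const _ fun n _ _ => by
      rw [Real.norm_natCast]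
      exact le_mul_of_one_le_left (Nat.cast_nonneg m) (one_le_pow₀ (hμ n))
    have h4 := comp_gain (h2.sub (h3.mono m (Nat.cast_nonneg m) fun _ _ _ =>
      le_of_eq (mul_comm _ _))) hμ bdOn_expNegInvGlue
    refine h4.congr ?_
    rintro n _ ⟨p, hp, rfl⟩
    filter_upwards [(A.c γ i).e.open_target.mem_nhds ((A.c γ i).e.map_source (hc hp))] with x hx
    simp only [loc, gr, (A.c γ i).e.right_inv hx]
    congr 1
    ring
  have hh : T (fam2 (fun _ : ι => d.e '' K) fun n => μ n ^ 15) (fun _ _ => 1) fun _ =>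
      loc d fun p => expNegInvGlue (m * A.h γ p) :=
    T.fixed (hK.image_of_continuousOn (d.e.continuousOn.mono hKd)) (by
      rintro _ ⟨p, hp, rfl⟩
      exact expNegInvGlue.contDiff.contDiffAt.comp _ (contDiffAt_const.mul
        ((A.smh γ).locAt d (d.e.map_source (hKd hp))))) (fun _ => subset_rfl) h15
  have h5 := (hh.mul (((hi 0).mul (hi 1)).mul (hi 2))).mono (σ' := fun _ _ => 1) 1 zero_le_one
    fun _ _ _ => by norm_num
  refine T.union (fun _ => d.e '' K) (fun _ => {x | x ∈ K' ∧ d.e.symm x ∉ A.A γ})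
    (h5.congr fun n x _ => Eventually.of_forall fun y => ?_)
    ((T.const (fun _ => (0 : ℝ)) fun _ _ _ => by simp).congr fun n x hx => ?_)
    (fun n x hx => ?_) fun _ _ _ => zero_le_one
  · simp only [loc, wroot, Fin.prod_univ_three]
  · have := loc_congr d (d.e.map_target (hd hx.1)) (A.s2_zero (F n) c' m γ hx.2)
    rwa [d.e.right_inv (hd hx.1)] at this
  · by_cases h : d.e.symm x ∈ A.A γ
    · exact Or.inl (hmem x hx h)
    · exact Or.inr ⟨hx, h⟩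

omit [IsManifold 𝓘(ℝ, E2) ∞ M] [T2Space M] [CompactSpace M] in
theorem s2_NB {ι : Type} {G : ι → M → ℝ} {μ : ι → ℝ} (hμ : ∀ n, 1 ≤ μ n) (j : ℕ)
    (h : ∀ γ i, T (fam2 (fun _ => tsupport (A.χ' γ i)) fun n => μ n ^ 15) (fun _ _ => 1)
      fun n => loc (A.c γ i) (G n)) :
    ∃ C : ℝ, ∀ n γ i, LB (A.c γ i) (tsupport (A.χ' γ i)) j (G n) (C * μ n ^ (15 * j)) := by
  obtain ⟨C, -, hC⟩ := exists_unif (J := A.Γ × Fin 3) (P := fun a C => ∀ n,
    LB (A.c a.1 a.2) (tsupport (A.χ' a.1 a.2)) j (G n) (C * μ n ^ (15 * j)))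
    (fun a C C' h h' n l hl x hx => (h n l hl x hx).trans
      (mul_le_mul_of_nonneg_right h' (pow_nonneg (zero_le_one.trans (hμ n)) _))) fun a => by
      obtain ⟨C, -, hC⟩ := to_iter_le (h a.1 a.2) (fun n => one_le_pow₀ (hμ n))
        (fun _ => zero_le_one) j
      exact ⟨C, fun n l hl x hx => (hC n x hx l hl).trans (le_of_eq (by rw [one_mul, ← pow_mul]))⟩
  exact ⟨C, fun n γ i => hC (γ, i) n⟩

/-- polynomial bounds for the weights of a tame family -/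
theorem weights_tame {F : ℕ → M → R4} {μ : ℕ → ℝ} (hμ : ∀ n, 1 ≤ μ n)
    (hF : ∀ j, ∃ C : ℝ, ∀ n, A.NB j (F n) (C * μ n ^ (j + 1))) {c' : ℝ} (hc : 0 < c') (m j : ℕ) :
    ∃ C : ℝ, ∀ n, A.Sel (F n) c' →
      (∀ γ, A.NB j (A.wroot (F n) c' m γ) (C * μ n ^ (15 * j))) ∧
        A.NB j (A.wnorm (F n) c') (C * μ n ^ (15 * j)) := by
  have hS : ∀ n, Sm (F n) := fun n => by
    obtain ⟨C, hC⟩ := hF 0
    exact (hC n).1
  have hp : ∀ n, 0 ≤ μ n ^ (15 * j) := fun n => pow_nonneg (zero_le_one.trans (hμ n)) _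
  obtain ⟨C1, -, h1⟩ := exists_unif (P := fun γ C => ∀ n,
    A.NB j (A.wroot (F n) c' m γ) (C * μ n ^ (15 * j)))
    (fun γ C C' h h' n => (h n).mono A (mul_le_mul_of_nonneg_right h' (hp n))) fun γ => by
      obtain ⟨C, hC⟩ := A.s2_NB hμ j fun γ' i => A.s2_tame hμ hF c' m γ (A.c γ' i)
        (A.smχ' γ' i).2.1 (A.smχ' γ' i).2.2.1
      exact ⟨C, fun n => ⟨A.sm_wroot (hS n) c' m γ, hC n⟩⟩
  obtain ⟨c0, hc0, hb⟩ := A.wnorm_bounds
  obtain ⟨C2, h2⟩ := A.s2_NB (ι := {n // A.Sel (F n) c'}) (μ := fun n => μ n.1)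
    (G := fun n => A.wnorm (F n.1) c') (fun n => hμ n.1) j fun γ' i => by
      have h3 := T.sum Finset.univ (fun γ _ => ((A.s2_tame (ι := {n // A.Sel (F n) c'})
        (F := fun n => F n.1) (μ := fun n => μ n.1) (fun n => hμ n.1)
        (fun j => (hF j).imp fun C h n => h n.1) c' 1 γ (A.c γ' i) (A.smχ' γ' i).2.1
        (A.smχ' γ' i).2.2.1).pow 2).mono (σ' := fun _ _ => 1) 1 zero_le_one fun _ _ _ => by norm_num)
        fun _ _ _ => zero_le_one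
      refine T.comp' (Φ := fun t : ℝ => t⁻¹) (BdOn.of_compact (isCompact_Icc (a := c0) (b := c0⁻¹))
        fun y hy => contDiffAt_inv ℝ (hc0.trans_le hy.1).ne') (fun n x _ => ?_) h3
      obtain ⟨h4, h5⟩ := hb (F n.1) c' hc n.2 ((A.c γ' i).e.symm x)
      have h6 := hc0.trans_le h4
      exact ⟨(inv_le_inv₀ (inv_pos.1 h6) hc0).1 h5, le_inv_of_le_inv₀ hc0 h4⟩
  refine ⟨max C1 C2, fun n hn => ⟨fun γ => (h1 γ n).mono A
    (mul_le_mul_of_nonneg_right (le_max_left _ _) (hp n)), NB.mono A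
      ⟨A.sm_wnorm (hS n) hc hn, h2 ⟨n, hn⟩⟩ (mul_le_mul_of_nonneg_right (le_max_right _ _) (hp n))⟩⟩

/-- uniform selection for a family whose metrics converge to `g` -/
theorem sel_family (hg : Good g) (hp : PosD g) {F : ℕ → M → R4} (hF : ∀ n, Sm (F n))
    (hnd : ∀ p, ∃ (c : Ch M) (W : Set M) (c0 : ℝ), W ∈ 𝓝 p ∧ W ⊆ c.e.source ∧ 0 < c0 ∧
      ∀ᶠ n in atTop, ∀ q ∈ W, c0 ≤ Gram (loc c (F n)) (c.e q))
    (herr : ∀ σ : ℝ, 0 < σ → ∀ᶠ n in atTop, Small g (pull (F n) - g) σ) :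
    ∃ c' : ℝ, 0 < c' ∧ ∀ᶠ n in atTop, A.Sel (F n) c' := by
  obtain ⟨a, ha, hA⟩ := exists_low (J := A.Γ × Fin 3) (P := fun z a => ∀ᶠ n in atTop,
    ∀ q ∈ A.A z.1, a ≤ det2 (loc (A.c z.1 z.2) (F n)) ((A.c z.1 z.2).e q))
    (fun _ _ _ h _ h' => h.mono fun n hn q hq => h'.trans (hn q hq)) fun z => by
      obtain ⟨a, b, σ, ha, -, hσ, h⟩ := det_bounds hg hp (A.c z.1 z.2)
        ((A.cptA z.1).image_of_continuousOn ((A.c z.1 z.2).e.continuousOn.mono (A.subA z.1 z.2)))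
        (by
          rintro _ ⟨q, hq, rfl⟩
          exact (A.c z.1 z.2).e.map_source (A.subA z.1 z.2 hq))
      exact ⟨a, ha, (herr σ hσ).mono fun n hn q hq => (h _ (hF n) hn _ ⟨q, hq, rfl⟩).1⟩
  have hA' := eventually_all.2 hA
  have key : ∀ p, ∃ K ∈ 𝓝 p, ∃ c' : ℝ, 0 < c' ∧ ∀ᶠ n in atTop, ∀ q ∈ K,
      ∃ γ, 1 ≤ A.h γ q ∧ ∀ i, c' ≤ A.gr (F n) γ i q := fun p => by
    obtain ⟨c, W, c0, hW, hWc, hc0, h⟩ := hnd p
    obtain ⟨K, hK, hKW, hKc⟩ := local_compact_nhds hW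
    have hKs := hKW.trans hWc
    obtain ⟨c2, hc2, hsel⟩ := A.sel c K hKc hKs
    obtain ⟨a', b, σ, ha', hb, hσ, h'⟩ := det_bounds hg hp c
      (hKc.image_of_continuousOn (c.e.continuousOn.mono hKs)) (by
        rintro _ ⟨q, hq, rfl⟩
        exact c.e.map_source (hKs hq))
    refine ⟨K, hK, a * (c2 ^ 2 * (c0 / b)), by positivity, ?_⟩
    filter_upwards [h, herr σ hσ, hA'] with n h1 h2 h3 q hq
    obtain ⟨h4, h5⟩ := h' _ (hF n) h2 _ ⟨q, hq, rfl⟩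
    have h6 := ha'.trans_le h4
    obtain ⟨γ, h7, h8⟩ := hsel (F n) (hF n) q hq ((imm_iff (hF n) c (hKs hq)).2 h6)
    refine ⟨γ, h7, fun i => ?_⟩
    have hqA := A.hA γ q (one_pos.trans_le h7)
    have hqs := A.subA γ i hqA
    have h9 := h3 (γ, i) q hqA
    have h10 := h1 q (hKW hq)
    have h11 := h8 i
    rw [IIm, IIm, tr_self _ (hKs hq), tr_self _ hqs] at h11
    rw [Gram_eq ((hF n).locAt c (c.e.map_source (hKs hq))) h6.ne'] at h10
    rw [gr, Gram_eq ((hF n).locAt _ ((A.c γ i).e.map_source hqs)) (ha.trans_le h9).ne']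
    refine mul_le_mul h9 ?_ (by positivity) (ha.trans_le h9).le
    refine le_trans ?_ (pow_le_pow_left₀ (by positivity) h11 2)
    rw [mul_pow]
    refine mul_le_mul_of_nonneg_left ((div_le_iff₀' hb).2 (h10.trans ?_)) (by positivity)
    exact mul_le_mul_of_nonneg_right h5 (by positivity)
  choose K hK hc using key
  obtain ⟨t, -, ht⟩ := isCompact_univ.elim_nhds_subcover K fun p _ => hK p
  obtain ⟨c', hc', h⟩ := exists_low (J := t) (P := fun p c' => ∀ᶠ n in atTop, ∀ q ∈ K p,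
      ∃ γ, 1 ≤ A.h γ q ∧ ∀ i, c' ≤ A.gr (F n) γ i q)
    (fun _ _ _ h _ h' => h.mono fun n hn q hq => (hn q hq).imp fun γ hγ =>
      ⟨hγ.1, fun i => h'.trans (hγ.2 i)⟩) fun p => hc p
  refine ⟨c', hc', (eventually_all.2 h).mono fun n hn q => ?_⟩
  obtain ⟨p, hp, hq⟩ := mem_iUnion₂.1 (ht (mem_univ q))
  exact hn ⟨p, hp⟩ q hq
end SAt

end Vale.Agent.P205
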