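import Vale.Agent.P205.S2
import Vale.Agent.P205.QS

/-! P205, I3: one small step on the surface. Apply `small_step` with `lam ^ 2`, `N + 1`,
`f = χ' • loc c F`, `ρ = χ' • loc c ρ`, `β = χ' β0 + (1 - χ') c0`, and extend `y` by zero. -/

open scoped ContDiff InnerProductSpace Topology Manifold
open Set Filter Real

noncomputable section
namespace Vale.Agent.P205

variable {M : Type*} [TopologicalSpace M] [ChartedSpace E2 M] [IsManifold 𝓘(ℝ, E2) ∞ M]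
  [T2Space M] [CompactSpace M]

namespace S3Aux

open S2Aux

theorem pow_bound (k n : ℕ) : ∃ D : ℝ, 0 ≤ D ∧ ∀ (ρ : P2 → ℝ) (E : ℝ) (x : P2), ContDiff ℝ ∞ ρ →
    |ρ x| ≤ 1 → (∀ i, 1 ≤ i → i ≤ n → ‖iteratedFDeriv ℝ i ρ x‖ ≤ E ^ i) →
    ‖iteratedFDeriv ℝ n (fun y => ρ y ^ k) x‖ ≤ D * E ^ n := by
  have h := BdOn.of_compact (Φ := fun t : ℝ => t ^ k) (isCompact_Icc (a := -1) (b := 1))
    fun _ _ => by fun_prop
  obtain ⟨C, hC0, hC⟩ := exists_unif (J := Fin (n + 1)) (P := fun i C => ∀ y ∈ Icc (-1 : ℝ) 1,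
    ‖iteratedFDeriv ℝ i (fun t : ℝ => t ^ k) y‖ ≤ C) (fun _ _ _ h h' y hy => (h y hy).trans h')
    fun i => (h i).imp fun C h y hy => (h y hy).2
  exact ⟨n.factorial * C, by positivity, fun ρ E x hρ h1 h2 =>
    norm_iteratedFDeriv_comp_le (g := fun t : ℝ => t ^ k) (N := ∞) (by fun_prop) hρ
      (by exact_mod_cast le_top) x (fun i hi => hC ⟨i, Nat.lt_succ_iff.2 hi⟩ _ (abs_le.1 h1)) h2⟩

variable {g : Ten M} (A : SAt g)

theorem cut_unif (V : Type) [NormedAddCommGroup V] [NormedSpace ℝ V] (γ : A.Γ) (i : Fin 3)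
    (K : ℕ) : ∃ C : ℝ, 1 ≤ C ∧ ∀ j ≤ K, ∀ (f : P2 → V) (σ : ℝ), 0 ≤ σ →
      ContDiffOn ℝ ∞ f (A.c γ i).e.target →
      (∀ l ≤ j, ∀ x ∈ tsupport (A.χ' γ i), ‖iteratedFDeriv ℝ l f x‖ ≤ σ) →
      ∀ x, ‖iteratedFDeriv ℝ j (fun y => A.χ' γ i y • f y) x‖ ≤ C * σ := by
  obtain ⟨C, hC0, hC⟩ := exists_unif (J := Fin (K + 1)) (P := fun j C => ∀ (f : P2 → V) (σ : ℝ),
    0 ≤ σ → ContDiffOn ℝ ∞ f (A.c γ i).e.target →
      (∀ l ≤ j.1, ∀ x ∈ tsupport (A.χ' γ i), ‖iteratedFDeriv ℝ l f x‖ ≤ σ) →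
      ∀ x, ‖iteratedFDeriv ℝ j (fun y => A.χ' γ i y • f y) x‖ ≤ C * σ)
    (fun _ _ _ h h' f σ h0 h1 h2 x => (h f σ h0 h1 h2 x).trans (mul_le_mul_of_nonneg_right h' h0))
    fun j => (A.cut_bound (V := V) γ i j).imp fun C h f σ h0 h1 h2 => h.2 f σ h0 h1 h2 j le_rfl
  exact ⟨C + 1, by linarith, fun j hj f σ h0 h1 h2 x =>
    (hC ⟨j, Nat.lt_succ_iff.2 hj⟩ f σ h0 h1 h2 x).trans
      (mul_le_mul_of_nonneg_right (by linarith) h0)⟩

omit [IsManifold 𝓘(ℝ, E2) ∞ M] [T2Space M] [CompactSpace M] in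
theorem supp_sub (γ : A.Γ) (i : Fin 3) : tsupport (A.χ γ i) ⊆ (A.c γ i).e.target := fun x hx =>
  (A.smχ' γ i).2.2.1 (subset_tsupport _ (by
    rw [Function.mem_support, (A.χχ' γ i).self_of_nhdsSet _ hx]; exact one_ne_zero))

theorem ext_NB (γ : A.Γ) (i : Fin 3) (j : ℕ) : ∃ C : ℝ, 0 ≤ C ∧ ∀ (y : P2 → R4) (σ : ℝ), 0 ≤ σ →
    ContDiff ℝ ∞ y → tsupport y ⊆ tsupport (A.χ γ i) →
    (∀ l ≤ j, ∀ x, ‖iteratedFDeriv ℝ l y x‖ ≤ σ) → A.NB j (ext (A.c γ i) y) (C * σ) := by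
  obtain ⟨C, hC0, hC⟩ := exists_unif (J := A.Γ × Fin 3) (P := fun a C => ∀ (y : P2 → R4) (σ : ℝ),
    0 ≤ σ → ContDiff ℝ ∞ y → (∀ x, x ∉ tsupport (A.χ γ i) → y x = 0) →
    (∀ l ≤ j, ∀ x, ‖iteratedFDeriv ℝ l y x‖ ≤ σ) →
      LB (A.c a.1 a.2) (tsupport (A.χ' a.1 a.2)) j (ext (A.c γ i) y) (C * σ))
    (fun _ _ _ h h' y σ h0 h1 h2 h3 l hl x hx => (h y σ h0 h1 h2 h3 l hl x hx).trans
      (mul_le_mul_of_nonneg_right h' h0)) fun a =>
    (ext_bound (V := R4) (A.c γ i) (A.c a.1 a.2) (A.smχ γ i).2 (supp_sub A γ i)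
      (A.smχ' a.1 a.2).2.1 (A.smχ' a.1 a.2).2.2.1 j).imp fun C h y σ h0 h1 h2 h3 l hl x hx =>
      h.2 y h1.contDiffOn h2 x hx σ h0 (fun _ l hl => h3 l hl _) l hl
  refine ⟨C, hC0, fun y σ h0 h1 h2 h3 => ?_⟩
  have h4 : ∀ x, x ∉ tsupport (A.χ γ i) → y x = 0 := fun x hx =>
    image_eq_zero_of_notMem_tsupport fun h => hx (h2 h)
  exact ⟨sm_ext _ (A.smχ γ i).2 (supp_sub A γ i) h4 h1.contDiffOn,
    fun γ' i' => hC (γ', i') y σ h0 h1 h4 h3⟩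

theorem ext_small (hg : Good g) (hp : PosD g) (γ : A.Γ) (i : Fin 3) : ∃ C : ℝ, 0 < C ∧
    ∀ (F : M → R4) (y : P2 → R4) (a : M → ℝ) (a' : P2 → ℝ) (σ : ℝ), 0 ≤ σ → Sm F →
      ContDiff ℝ ∞ y → tsupport y ⊆ tsupport (A.χ γ i) → (∀ p, p ∉ A.A γ → a p = 0) →
      (∀ x ∈ tsupport (A.χ γ i), a' x = a ((A.c γ i).e.symm x)) →
      (∀ x, ErrAt (fun x => A.χ' γ i x • loc (A.c γ i) F x)
        (fun x => A.χ' γ i x • loc (A.c γ i) F x + y x) (a' x) x σ) →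
      Small g (pull (F + ext (A.c γ i) y) - pull F - fun p =>
        a p • prim (fun _ => 1) (vco (A.c γ i)) p) (C * σ) := by
  have hK := supp_sub A γ i
  obtain ⟨C, hC0, hC⟩ := small_of_chart hg hp (A.c γ i) (A.smχ γ i).2 hK
  refine ⟨C, hC0, fun F y a a' σ h0 hF hy hs ha ha' he p => ?_⟩
  have h4 : ∀ x, x ∉ tsupport (A.χ γ i) → y x = 0 := fun x hx =>
    image_eq_zero_of_notMem_tsupport fun h => hx (hs h)
  have hY := sm_ext _ (A.smχ γ i).2 hK h4 hy.contDiffOn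
  by_cases h : p ∈ (A.c γ i).e.symm '' tsupport (A.χ γ i)
  · obtain ⟨x, hx, rfl⟩ := h
    have h1 : ∀ᶠ z in 𝓝 x, A.χ' γ i z = 1 := (A.χχ' γ i).filter_mono (nhds_le_nhdsSet hx)
    have e1 : (fun x => A.χ' γ i x • loc (A.c γ i) F x) =ᶠ[𝓝 x] loc (A.c γ i) F :=
      h1.mono fun z hz => by simp only [hz, one_smul]
    have e2 : (fun x => A.χ' γ i x • loc (A.c γ i) F x + y x) =ᶠ[𝓝 x]
        loc (A.c γ i) (F + ext (A.c γ i) y) := by
      filter_upwards [e1, loc_ext (A.c γ i) y (hK hx)] with z h1 h2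
      rw [h1, ← h2]
      rfl
    obtain ⟨a1, a2, -⟩ := jets_congr e1
    obtain ⟨b1, b2, -⟩ := jets_congr e2
    obtain ⟨c1, c2, c3⟩ := he x
    simp only [fE, fF, fG, a1, a2, b1, b2, ha' x hx] at c1 c2 c3
    obtain ⟨d1, d2, d3⟩ := cEFG_pull (A.c γ i) hF (hK hx)
    obtain ⟨f1, f2, f3⟩ := cEFG_pull (A.c γ i) (F := F + ext (A.c γ i) y) (hF.add hY) (hK hx)
    have k : ∀ X Y, cmp (A.c γ i) (fun p => a p • prim (fun _ => 1) (vco (A.c γ i)) p) x X Y =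
        a ((A.c γ i).e.symm x) * (X.2 * Y.2) := fun X Y => by
      have := cmp_prim_self (A.c γ i) (fun _ => 1) (hK hx) X Y
      rw [one_pow, one_mul] at this
      rw [← this]
      rfl
    simp only [cE, cF, cG, fE, fF, fG] at d1 d2 d3 f1 f2 f3
    refine hC _ (fun p X Y => ?_) x hx σ ?_ ?_ ?_
    · simp only [Pi.sub_apply, ContinuousLinearMap.sub_apply, ContinuousLinearMap.smul_apply,
        symm_pull _ p X Y, symm_prim _ _ p X Y]
    · simpa only [cE, cmp_sub, k, d1, f1, mul_zero, sub_zero] using c1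
    · simpa only [cF, cmp_sub, k, d2, f2, zero_mul, mul_zero, sub_zero] using c2
    · simpa only [cG, cmp_sub, k, d3, f3, mul_one] using c3
  · have h1 : pull (F + ext (A.c γ i) y) p = pull F p := pull_congr
      ((ext_eventually_zero _ (A.smχ γ i).2 hK h4 h).mono fun q hq => by
        simp only [Pi.add_apply, hq, add_zero])
    have h2 : a p = 0 := ha p fun hA => h ⟨_, subset_tsupport _ (by
      rw [Function.mem_support, A.χA γ i p hA]; exact one_ne_zero),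
        (A.c γ i).e.left_inv (A.subA γ i hA)⟩
    intro X
    have h3 : 0 ≤ g p X X := by
      rcases eq_or_ne X 0 with rfl | hX
      · simp
      · exact (hp p X hX).le
    have h5 : (pull (F + ext (A.c γ i) y) - pull F - fun p =>
        a p • prim (fun _ => 1) (vco (A.c γ i)) p : Ten M) p X X = 0 := by
      simp [h1, h2]
    rw [h5, abs_zero]
    positivity

/-- the conclusion for one chart -/
def Step (b : ℕ) (c0 : ℝ) (N K m : ℕ) (C : ℕ → ℝ) (lam0 : ℝ) (γ : A.Γ) (i : Fin 3) : Prop :=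
  ∀ (lam δ : ℝ) (F : M → R4) (ρ : M → ℝ) (β : P2 → ℝ),
    lam0 ≤ lam → 0 < δ → δ ≤ (lam ^ 16)⁻¹ →
    (∀ j ≤ K, A.NB j F (lam ^ (j + 1))) → (∀ j ≤ K, A.NB j ρ (lam ^ (j + 1))) →
    ContDiffOn ℝ ∞ β (A.c γ i).e.target →
    (∀ j ≤ K, ∀ x ∈ tsupport (A.χ' γ i), ‖iteratedFDeriv ℝ j β x‖ ≤ lam ^ (j + N)) →
    (∀ p, |ρ p| ≤ 1) → (∀ x ∈ tsupport (A.χ' γ i), c0 ≤ β x ∧ β x ≤ c0⁻¹) →
    (∀ p, ρ p ≠ 0 → p ∈ A.A γ ∧ lam⁻¹ ≤ A.gr F γ i p) →
    ∃ Y : M → R4, (∀ j, A.NB j Y (C j * √δ * lam ^ (b * (j + 1)))) ∧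
      Small g (pull (F + Y) - pull F - fun p =>
        (δ * ρ p ^ (2 * m) * β ((A.c γ i).e p)) • prim (fun _ => 1) (vco (A.c γ i)) p)
        (lam ^ N)⁻¹

theorem add_const_le {u : P2 → ℝ} {x : P2} (hu : ContDiffAt ℝ ∞ u x) (c : ℝ) (l : ℕ) :
    ‖iteratedFDeriv ℝ l (fun y => u y + c) x‖ ≤ ‖iteratedFDeriv ℝ l u x‖ + |c| := by
  rw [fun_iteratedFDeriv_add_apply (hu.of_le (by exact_mod_cast le_top)) contDiffAt_const]
  exact (norm_add_le _ _).trans (add_le_add le_rfl (Tame2Aux.norm_const_le c l x))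

theorem absorb {lam C : ℝ} {a b : ℕ} (h1 : 1 ≤ lam) (hC : C ≤ lam) (h : a + 1 ≤ 2 * b) :
    C * lam ^ a ≤ (lam ^ 2) ^ b := by
  rw [← pow_mul]
  refine (mul_le_mul_of_nonneg_right hC (by positivity)).trans ?_
  rw [← pow_succ']
  exact pow_le_pow_right₀ h1 h

theorem chart_step (hg : Good g) (hp : PosD g) : ∃ b : ℕ, 1 ≤ b ∧ ∀ c0 : ℝ, 0 < c0 → c0 ≤ 1 →
    ∀ (N : ℕ) (γ : A.Γ) (i : Fin 3), ∃ m : ℕ, 1 ≤ m ∧ ∀ k, 1 ≤ k →
      ∃ (K : ℕ) (C : ℕ → ℝ) (lam0 : ℝ), (∀ j, 0 ≤ C j) ∧ Step A b c0 N K (k * m) C lam0 γ i := by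
  obtain ⟨b, hb, H⟩ := small_step
  refine ⟨2 * b, by omega, fun c0 hc0 hc1 N γ i => ?_⟩
  obtain ⟨K, m, C, lam0, hm, hC, H⟩ := H _ (A.smχ γ i).1 (A.smχ γ i).2 c0 hc0 (N + 1)
  refine ⟨m, hm, fun k hk => ?_⟩
  obtain ⟨Cf, hCf, hf⟩ := cut_unif A R4 γ i K
  obtain ⟨Cr, hCr, hr⟩ := cut_unif A ℝ γ i K
  choose D hD0 hD using pow_bound k
  obtain ⟨D', hD', hDD⟩ := exists_unif (J := Fin (K + 1)) (P := fun n B => D n * Cr ^ n.1 ≤ B)
    (fun _ _ _ h h' => h.trans h') fun _ => ⟨_, le_rfl⟩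
  obtain ⟨Cs, hCs, hs⟩ := ext_small A hg hp γ i
  choose Ce hCe he using ext_NB A γ i
  have hS : ∀ j, 0 ≤ ∑ l ∈ Finset.range (j + 1), C l := fun j => Finset.sum_nonneg fun l _ => hC l
  refine ⟨K, fun j => Ce j * ∑ l ∈ Finset.range (j + 1), C l, |lam0| + Cf + (2 * Cr + 1) + D' + Cs,
    fun j => mul_nonneg (hCe j) (hS j), fun lam δ F ρ β hl hδ hδ' hF hρ hβ hβ' hρ1 hβc hne => ?_⟩
  have ha := abs_nonneg lam0
  have h1 : 1 ≤ lam := by linarith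
  have h0 : 0 < lam := by linarith
  have hl2 : lam ≤ lam ^ 2 := le_self_pow₀ h1 two_ne_zero
  obtain ⟨χs, -, χt, χb⟩ := A.smχ' γ i
  have sF := (hF 0 K.zero_le).1
  have sρ := (hρ 0 K.zero_le).1
  have sρ1 := contDiff_cut _ χs χt (sρ.loc (A.c γ i))
  have sβ : ContDiffOn ℝ ∞ (fun x => β x + -c0) (A.c γ i).e.target := hβ.add contDiffOn_const
  have sβ1 := contDiff_cut _ χs χt sβ
  have bρ : ∀ x, |A.χ' γ i x • loc (A.c γ i) ρ x| ≤ 1 := fun x => by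
    rw [smul_eq_mul, abs_mul, abs_of_nonneg (χb x).1]
    exact mul_le_one₀ (χb x).2 (abs_nonneg _) (hρ1 _)
  obtain ⟨y, sy, ty, by1, ey⟩ := H (lam ^ 2) δ (fun x => A.χ' γ i x • loc (A.c γ i) F x)
    (fun x => (A.χ' γ i x • loc (A.c γ i) ρ x) ^ k) (fun x => A.χ' γ i x • (β x + -c0) + c0)
    (by linarith [le_abs_self lam0]) hδ (by rwa [← pow_mul])
    (contDiff_cut _ χs χt (sF.loc (A.c γ i))) (sρ1.pow k) (sβ1.add contDiff_const)
    (fun j hj x => (hf j hj _ _ (by positivity) (sF.loc _) ((hF j hj).2 γ i) x).trans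
      (absorb h1 (by linarith) (by omega)))
    (fun j hj x => by
      refine (hD j _ (Cr * lam ^ 2) x sρ1 (bρ x) fun l hl1 hl => ?_).trans ?_
      · refine (hr l (hl.trans hj) _ _ (by positivity) (sρ.loc _)
          ((hρ l (hl.trans hj)).2 γ i) x).trans ?_
        rw [mul_pow, ← pow_mul]
        exact mul_le_mul (le_self_pow₀ hCr (by omega)) (pow_le_pow_right₀ h1 (by omega))
          (by positivity) (by positivity)
      · rw [mul_pow, ← mul_assoc, ← pow_mul]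
        exact absorb h1 ((hDD ⟨j, Nat.lt_succ_iff.2 hj⟩).trans (by linarith)) (by omega))
    (fun j hj x => by
      have h2 : 1 ≤ lam ^ (j + N) := one_le_pow₀ h1
      have h3 := hr j hj _ (2 * lam ^ (j + N)) (by positivity) sβ (fun l hl x hx => by
        refine (add_const_le (hβ.contDiffAt ((A.c γ i).e.open_target.mem_nhds (χt hx))) _ l).trans ?_
        rw [abs_neg, abs_of_pos hc0]
        linarith [hβ' l (hl.trans hj) x hx, pow_le_pow_right₀ h1 (show l + N ≤ j + N by omega)]) x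
      refine (add_const_le sβ1.contDiffAt c0 j).trans (le_trans ?_
        (absorb (C := 2 * Cr + 1) (a := j + N) h1 (by linarith) (by omega)))
      rw [abs_of_pos hc0]
      linarith)
    (fun x => by
      rw [abs_pow]
      exact pow_le_one₀ (abs_nonneg _) (bρ x))
    (fun x => by
      have h2 : c0 ≤ c0⁻¹ := hc1.trans ((one_le_inv₀ hc0).2 hc1)
      by_cases hx : x ∈ tsupport (A.χ' γ i)
      · obtain ⟨h3, h4⟩ := hβc x hx
        obtain ⟨h5, h6⟩ := χb x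
        simp only [smul_eq_mul]
        constructor <;> nlinarith
      · simp only [image_eq_zero_of_notMem_tsupport hx, zero_smul, zero_add]
        exact ⟨le_rfl, h2⟩)
    (fun x hx => by
      have h2 := ne_zero_pow (by omega) hx
      have h3 : x ∈ (A.c γ i).e.target := χt (subset_tsupport _ (left_ne_zero_of_smul h2))
      obtain ⟨h4, h5⟩ := hne _ (right_ne_zero_of_smul h2)
      have h6 := A.χA γ i _ h4
      rw [SAt.gr] at h5
      rw [(A.c γ i).e.right_inv h3] at h5 h6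
      have h7 : ∀ᶠ z in 𝓝 x, A.χ' γ i z = 1 := (A.χχ' γ i).filter_mono
        (nhds_le_nhdsSet (subset_tsupport _ (by rw [Function.mem_support, h6]; exact one_ne_zero)))
      have e1 : (fun x => A.χ' γ i x • loc (A.c γ i) F x) =ᶠ[𝓝 x] loc (A.c γ i) F :=
        h7.mono fun z hz => by simp only [hz, one_smul]
      refine ⟨h6, ?_⟩
      rw [(jets_congr e1).2.2.2.2.2.2.2.2.1]
      exact (inv_anti₀ h0 hl2).trans h5)
  refine ⟨ext (A.c γ i) y, fun j => ?_, fun p => ?_⟩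
  · refine (he j y ((∑ l ∈ Finset.range (j + 1), C l) * √δ * lam ^ (2 * b * (j + 1)))
      (by have := hS j; positivity) sy ty fun l hl x => (by1 l x).trans ?_).mono A
      (le_of_eq (by ring))
    rw [← pow_mul]
    exact mul_le_mul (mul_le_mul_of_nonneg_right (Finset.single_le_sum (fun l _ => hC l)
      (Finset.mem_range.2 (Nat.lt_succ_iff.2 hl))) (Real.sqrt_nonneg _))
      (pow_le_pow_right₀ h1 (by nlinarith)) (by positivity) (by have := hS j; positivity)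
  · refine (hs F y (fun p => δ * ρ p ^ (2 * (k * m)) * β ((A.c γ i).e p)) _ _ (by positivity) sF sy
      ty (fun p hA => ?_) (fun x hx => ?_) ey p).mono hp ?_
    · have h2 : ρ p = 0 := by_contra fun h => hA (hne p h).1
      rw [h2, zero_pow (by positivity), mul_zero, zero_mul]
    · rw [(A.χχ' γ i).self_of_nhdsSet _ hx, (A.c γ i).e.right_inv (supp_sub A γ i hx), one_smul,
        one_smul, ← pow_mul, neg_add_cancel_right, mul_left_comm k]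
      rfl
    · rw [← div_eq_mul_inv, div_le_iff₀ (by positivity), ← div_eq_inv_mul,
        le_div_iff₀ (by positivity)]
      exact absorb h1 (by linarith) (by omega)

end S3Aux

theorem step_on {g : Ten M} (hg : Good g) (hp : PosD g) (A : SAt g) : ∃ b : ℕ, 1 ≤ b ∧
    ∀ c0 : ℝ, 0 < c0 → c0 ≤ 1 → ∀ N : ℕ, ∃ (K m : ℕ) (C : ℕ → ℝ) (lam0 : ℝ), 1 ≤ m ∧
      (∀ j, 0 ≤ C j) ∧ ∀ (γ : A.Γ) (i : Fin 3) (lam δ : ℝ) (F : M → R4) (ρ : M → ℝ) (β : P2 → ℝ),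
        lam0 ≤ lam → 0 < δ → δ ≤ (lam ^ 16)⁻¹ →
        (∀ j ≤ K, A.NB j F (lam ^ (j + 1))) → (∀ j ≤ K, A.NB j ρ (lam ^ (j + 1))) →
        ContDiffOn ℝ ∞ β (A.c γ i).e.target →
        (∀ j ≤ K, ∀ x ∈ tsupport (A.χ' γ i), ‖iteratedFDeriv ℝ j β x‖ ≤ lam ^ (j + N)) →
        (∀ p, |ρ p| ≤ 1) → (∀ x ∈ tsupport (A.χ' γ i), c0 ≤ β x ∧ β x ≤ c0⁻¹) →
        (∀ p, ρ p ≠ 0 → p ∈ A.A γ ∧ lam⁻¹ ≤ A.gr F γ i p) →
        ∃ Y : M → R4, (∀ j, A.NB j Y (C j * √δ * lam ^ (b * (j + 1)))) ∧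
          Small g (pull (F + Y) - pull F - fun p =>
            (δ * ρ p ^ (2 * m) * β ((A.c γ i).e p)) • prim (fun _ => 1) (vco (A.c γ i)) p)
            (lam ^ N)⁻¹ := by
  obtain ⟨b, hb, H⟩ := S3Aux.chart_step A hg hp
  refine ⟨b, hb, fun c0 hc0 hc1 N => ?_⟩
  choose m hm H using fun a : A.Γ × Fin 3 => H c0 hc0 hc1 N a.1 a.2
  classical
  have hk : ∀ a, 1 ≤ ∏ a' ∈ Finset.univ.erase a, m a' := fun a =>
    Finset.one_le_prod' fun a' _ => hm a'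
  choose K C lam0 hC H using fun a => H a _ (hk a)
  obtain ⟨L, -, hL⟩ := S2Aux.exists_unif (P := fun a L => lam0 a ≤ L)
    (fun _ _ _ h h' => h.trans h') fun _ => ⟨_, le_rfl⟩
  refine ⟨Finset.univ.sup K, ∏ a, m a, fun j => ∑ a, C a j, max L 0,
    Finset.one_le_prod' fun a _ => hm a, fun j => Finset.sum_nonneg fun a _ => hC a j,
    fun γ i lam δ F ρ β hl hδ hδ' hF hρ hβ hβ' hρ1 hβc hne => ?_⟩
  have hK : ∀ j ≤ K (γ, i), j ≤ Finset.univ.sup K := fun j hj =>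
    hj.trans (Finset.le_sup (Finset.mem_univ _))
  have h0 : 0 ≤ lam := (le_max_right _ _).trans hl
  obtain ⟨Y, h1, h2⟩ := H (γ, i) lam δ F ρ β ((hL _).trans ((le_max_left _ _).trans hl)) hδ hδ'
    (fun j hj => hF j (hK j hj)) (fun j hj => hρ j (hK j hj)) hβ (fun j hj => hβ' j (hK j hj)) hρ1
    hβc hne
  rw [Finset.prod_erase_mul _ _ (Finset.mem_univ _)] at h2
  refine ⟨Y, fun j => (h1 j).mono A ?_, h2⟩
  exact mul_le_mul_of_nonneg_right (mul_le_mul_of_nonneg_right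
    (Finset.single_le_sum (f := fun a => C a j) (fun a _ => hC a j) (Finset.mem_univ _))
    (Real.sqrt_nonneg _)) (pow_nonneg h0 _)

end Vale.Agent.P205
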