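import Vale.Agent.P205.Man2

/-! P205: data for the exact theorem (module I). -/

open scoped ContDiff InnerProductSpace Topology Manifold
open Set Filter Real

noncomputable section
namespace Vale.Agent.P205

variable {M : Type*} [TopologicalSpace M] [ChartedSpace E2 M]

/-- linear functional of the components of a tensor in a chart -/
def Lf (c : Ch M) (l : Q3) (h : Ten M) (x : P2) : ℝ :=
  l.1 * cE c h x + l.2.1 * cF c h x + l.2.2 * cG c h x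

/-- groups of three charts whose second coordinates decompose every symmetric tensor -/
structure SAt (g : Ten M) where
  Γ : Type
  fin : Fintype Γ
  c : Γ → Fin 3 → Ch M
  A : Γ → Set M
  h : Γ → M → ℝ
  χ : Γ → Fin 3 → P2 → ℝ
  χ' : Γ → Fin 3 → P2 → ℝ
  l : Γ → Fin 3 → Q3
  c1 : ℝ
  cptA : ∀ γ, IsCompact (A γ)
  subA : ∀ γ i, A γ ⊆ (c γ i).e.source
  smh : ∀ γ, Sm (h γ)
  hA : ∀ γ p, 0 < h γ p → p ∈ A γ
  cov : ∀ p, ∃ γ, 1 ≤ h γ p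
  smχ : ∀ γ i, ContDiff ℝ ∞ (χ γ i) ∧ HasCompactSupport (χ γ i)
  smχ' : ∀ γ i, ContDiff ℝ ∞ (χ' γ i) ∧ HasCompactSupport (χ' γ i) ∧
    tsupport (χ' γ i) ⊆ (c γ i).e.target ∧ ∀ x, 0 ≤ χ' γ i x ∧ χ' γ i x ≤ 1
  χA : ∀ γ i, ∀ p ∈ A γ, χ γ i ((c γ i).e p) = 1
  χχ' : ∀ γ i, ∀ᶠ x in 𝓝ˢ (tsupport (χ γ i)), χ' γ i x = 1
  decomp : ∀ γ (k : Ten M), Symm k → ∀ p ∈ A γ,
    k p = ∑ i, Lf (c γ i) (l γ i) k ((c γ i).e p) • prim (fun _ => 1) (vco (c γ i)) p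
  c1pos : 0 < c1
  Lpos : ∀ γ i, ∀ x ∈ tsupport (χ' γ i), c1 ≤ Lf (c γ i) (l γ i) g x
  sel : ∀ (d : Ch M) (K : Set M), IsCompact K → K ⊆ d.e.source → ∃ c2 : ℝ, 0 < c2 ∧
    ∀ F : M → R4, Sm F → ∀ p ∈ K, Function.Injective (dM F p) →
      ∃ γ, 1 ≤ h γ p ∧ ∀ i, c2 * ‖IIm F d d p‖ ≤ ‖IIm F (c γ i) (c γ i) p‖

attribute [instance] SAt.fin

namespace SAt
variable {g : Ten M} (A : SAt g)

/-- the `C^m` bound with respect to the atlas -/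
def NB {V : Type} [NormedAddCommGroup V] [NormedSpace ℝ V] (m : ℕ) (F : M → V) (σ : ℝ) : Prop :=
  Sm F ∧ ∀ γ i, LB (A.c γ i) (tsupport (A.χ' γ i)) m F σ

def gr (F : M → R4) (γ : A.Γ) (i : Fin 3) (p : M) : ℝ :=
  Gram (loc (A.c γ i) F) ((A.c γ i).e p)

/-- `m`-th root of the weight of the group `γ` -/
def wroot (F : M → R4) (c' : ℝ) (m : ℕ) (γ : A.Γ) (p : M) : ℝ :=
  expNegInvGlue (m * A.h γ p) * ∏ i, expNegInvGlue (m * (2 * A.gr F γ i p / c' - 1))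

def wnorm (F : M → R4) (c' : ℝ) (p : M) : ℝ := (∑ γ, A.wroot F c' 1 γ p ^ 2)⁻¹

/-- at every point some group is quantitatively nondegenerate -/
def Sel (F : M → R4) (c' : ℝ) : Prop := ∀ p, ∃ γ, 1 ≤ A.h γ p ∧ ∀ i, c' ≤ A.gr F γ i p
end SAt

end Vale.Agent.P205
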