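import Vale.Agent.P205.T1Aux

/-! P205, T1: a generic immersion (BLUEPRINT, module T). -/

open scoped ContDiff InnerProductSpace Topology Manifold
open Set Filter Real

noncomputable section
namespace Vale.Agent.P205

theorem T1_step {E Λ : Type} [NormedAddCommGroup E] [NormedSpace ℝ E] [FiniteDimensional ℝ E]
    [NormedAddCommGroup Λ] [NormedSpace ℝ Λ] [FiniteDimensional ℝ Λ] {G : E → Λ →L[ℝ] R4}
    (hG : ContDiff ℝ ∞ G) :
    ∃ (Λ' : Type) (_ : NormedAddCommGroup Λ') (_ : NormedSpace ℝ Λ') (_ : FiniteDimensional ℝ Λ')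
      (G' : E → Λ' →L[ℝ] R4), ContDiff ℝ ∞ G' ∧ ∀ (l : E →L[ℝ] ℝ) (B : Λ),
        ∃ B', ∀ e, G' e B' = l e • G e B :=
  ⟨E →L[ℝ] Λ, inferInstance, inferInstance, inferInstance,
    fun e => (G e).comp (ContinuousLinearMap.apply ℝ Λ e),
    hG.clm_comp (ContinuousLinearMap.contDiff _), fun l B => ⟨l.smulRight B, fun e => by simp⟩⟩

theorem T1_cubic (E : Type) [NormedAddCommGroup E] [NormedSpace ℝ E] [FiniteDimensional ℝ E] :
    ∃ (Λ : Type) (_ : NormedAddCommGroup Λ) (_ : NormedSpace ℝ Λ) (_ : FiniteDimensional ℝ Λ)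
      (G : E → Λ →L[ℝ] R4), ContDiff ℝ ∞ G ∧ ∀ (l1 l2 l3 : E →L[ℝ] ℝ) (v : R4),
        ∃ B, ∀ e, G e B = (l1 e * l2 e * l3 e) • v := by
  obtain ⟨Λ1, _, _, _, G1, s1, h1⟩ := T1_step (E := E)
    (contDiff_const (c := ContinuousLinearMap.id ℝ R4))
  obtain ⟨Λ2, _, _, _, G2, s2, h2⟩ := T1_step s1
  obtain ⟨Λ3, i1, i2, i3, G3, s3, h3⟩ := T1_step s2
  refine ⟨Λ3, i1, i2, i3, G3, s3, fun l1 l2 l3 v => ?_⟩
  obtain ⟨B1, e1⟩ := h1 l3 v
  obtain ⟨B2, e2⟩ := h2 l2 B1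
  exact (h3 l1 B2).imp fun B h e => by simp [h, e1, e2, smul_smul, mul_assoc]

theorem T1_prod {a b c : P2 → ℝ} {x : P2} (ha : DifferentiableAt ℝ a x)
    (hb : DifferentiableAt ℝ b x) (hc : DifferentiableAt ℝ c x) (v : R4) (X : P2) :
    fderiv ℝ (fun y => (a y * b y * c y) • v) x X = (fderiv ℝ a x X * b x * c x
      + a x * fderiv ℝ b x X * c x + a x * b x * fderiv ℝ c x X) • v := by
  have h := ((ha.hasFDerivAt.mul hb.hasFDerivAt).mul hc.hasFDerivAt).smul_const v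
  refine (congrArg (fun L : P2 →L[ℝ] R4 => L X) h.fderiv).trans ?_
  simp only [ContinuousLinearMap.smulRight_apply, add_apply, smul_apply, smul_eq_mul, Pi.mul_apply]
  module

theorem T1_sq {a c : P2 → ℝ} {x : P2} (ha : ContDiffAt ℝ ∞ a x) (hc : ContDiffAt ℝ ∞ c x)
    (h0 : a x = 0) (v : R4) (X Y : P2) : dd (fun y => (a y * a y * c y) • v) x X Y =
      (2 * fderiv ℝ a x X * fderiv ℝ a x Y * c x) • v := by
  have h1 : (fun y => fderiv ℝ (fun y => (a y * a y * c y) • v) y Y) =ᶠ[𝓝 x]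
      fun y => (a y * (2 * (fderiv ℝ a y Y * c y) + a y * fderiv ℝ c y Y) * 1) • v := by
    filter_upwards [surf_ev ha, surf_ev hc] with y e1 e2
    rw [T1_prod (e1.differentiableAt (by norm_num)) (e1.differentiableAt (by norm_num))
      (e2.differentiableAt (by norm_num))]
    module
  have da := ha.differentiableAt (by simp)
  have dc := hc.differentiableAt (by simp)
  rw [dd, h1.fderiv_eq, T1_prod da ((((surf_dapp (surf_two ha) Y).fun_mul dc).const_mul 2).fun_add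
    (da.fun_mul (surf_dapp (surf_two hc) Y))) (differentiableAt_const _), h0]
  module

variable {M : Type*} [TopologicalSpace M] [ChartedSpace E2 M] [IsManifold 𝓘(ℝ, E2) ∞ M]
  [T2Space M] [CompactSpace M]

theorem T1_family : ∃ (Λ : Type) (_ : NormedAddCommGroup Λ) (_ : NormedSpace ℝ Λ)
    (_ : FiniteDimensional ℝ Λ) (H : M → Λ →L[ℝ] R4) (S : Set (M → ℝ)), Sm H ∧ (∀ g ∈ S, Sm g) ∧
      (∀ g1 ∈ S, ∀ g2 ∈ S, ∀ g3 ∈ S, ∀ v, ∃ B, ∀ p, H p B = (g1 p * g2 p * g3 p) • v) ∧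
      (∀ c : Ch M, ∀ x ∈ c.e.target, ∀ a L, ∃ g ∈ S, loc c g x = a ∧ fderiv ℝ (loc c g) x = L) ∧
      ∀ p q, p ≠ q → ∃ g ∈ S, g p = 1 ∧ g q = 0 := by
  obtain ⟨n, ι, h1, h2, h3⟩ := exists_embedding_euclidean_of_compact (I := 𝓘(ℝ, E2)) (M := M)
  have h1 : Sm ι := h1
  obtain ⟨Λ, i1, i2, i3, G, hG, hB⟩ := T1_cubic (ℝ × EuclideanSpace ℝ (Fin n))
  have h4 : Sm fun p => ((1 : ℝ), ι p) := (sm_const _).pair h1
  have h5 : ∀ (a : ℝ) (l : EuclideanSpace ℝ (Fin n) →L[ℝ] ℝ), (fun p => a + l (ι p)) ∈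
      range fun (l : ℝ × EuclideanSpace ℝ (Fin n) →L[ℝ] ℝ) p => l (1, ι p) := fun a l =>
    ⟨a • ContinuousLinearMap.fst ℝ _ _ + l.comp (ContinuousLinearMap.snd ℝ _ _), by
      funext p
      simp⟩
  refine ⟨Λ, i1, i2, i3, fun p => G (1, ι p), range fun
    (l : ℝ × EuclideanSpace ℝ (Fin n) →L[ℝ] ℝ) p => l (1, ι p), h4.comp fun _ => hG.contDiffAt,
    ?_, ?_, fun c x hx a L => ?_, fun p q hpq => ?_⟩
  · rintro _ ⟨l, rfl⟩
    exact h4.comp fun _ => l.contDiff.contDiffAt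
  · rintro _ ⟨l1, rfl⟩ _ ⟨l2, rfl⟩ _ ⟨l3, rfl⟩ v
    exact (hB l1 l2 l3 v).imp fun B h p => h _
  · have h6 : Function.Injective (fderiv ℝ (loc c ι) x) := fun X Y h => by
      rw [fderiv_loc c hx (h1.mdifferentiableAt (by simp)),
        fderiv_loc c hx (h1.mdifferentiableAt (by simp))] at h
      exact (dsym_bijective c hx).1 (h3 _ h)
    obtain ⟨g, hg⟩ := ContinuousLinearMap.HasLeftInverse.of_injective_of_finiteDimensional h6
    refine ⟨_, h5 (a - L (g (loc c ι x))) (L.comp g), sub_add_cancel _ _, ?_⟩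
    have h7 := ((L.comp g).hasFDerivAt.comp x
      ((h1.locAt c hx).differentiableAt (by simp)).hasFDerivAt).const_add (a - L (g (loc c ι x)))
    refine h7.fderiv.trans (ContinuousLinearMap.ext fun X => ?_)
    exact congrArg L (hg X)
  · obtain ⟨l, hl⟩ := SeparatingDual.exists_eq_one (R := ℝ)
      (sub_ne_zero.2 fun h => hpq (h2.injective h))
    rw [map_sub] at hl
    exact ⟨_, h5 (-l (ι q)) l, by linarith, neg_add_cancel _⟩

theorem exists_genImm : ∃ F : M → R4, GenImm F := by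
  obtain ⟨Λ, _, _, _, H, S, hH, hS, hB, hJ, hsep⟩ := T1_family (M := M)
  have dS : ∀ g ∈ S, ∀ c : Ch M, ∀ x ∈ c.e.target, DifferentiableAt ℝ (loc c g) x :=
    fun g hg c x hx => ((hS g hg).locAt c hx).differentiableAt (by simp)
  have J0 : ∀ g1 ∈ S, ∀ g2 ∈ S, ∀ g3 ∈ S, ∀ v, ∃ B, (∀ p, H p B = (g1 p * g2 p * g3 p) • v) ∧
      ∀ c : Ch M, ∀ x ∈ c.e.target, ∀ X, fderiv ℝ (loc c H) x X B =
        (fderiv ℝ (loc c g1) x X * loc c g2 x * loc c g3 x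
          + loc c g1 x * fderiv ℝ (loc c g2) x X * loc c g3 x
          + loc c g1 x * loc c g2 x * fderiv ℝ (loc c g3) x X) • v := by
    intro g1 h1 g2 h2 g3 h3 v
    refine (hB g1 h1 g2 h2 g3 h3 v).imp fun B h => ⟨h, fun c x hx X => ?_⟩
    rw [← T1_d1 (surf_two (hH.locAt c hx)),
      ← T1_prod (dS _ h1 c x hx) (dS _ h2 c x hx) (dS _ h3 c x hx)]
    exact congrArg (fun f => fderiv ℝ f x X) (funext fun y => h _)
  have J1 : ∀ c : Ch M, ∀ x ∈ c.e.target, ∀ X ≠ 0, ∀ y, ∃ B, fderiv ℝ (loc c H) x X B = y := by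
    intro c x hx X hX y
    obtain ⟨L, hL⟩ := SeparatingDual.exists_eq_one (R := ℝ) hX
    obtain ⟨g, hg, -, e1⟩ := hJ c x hx 0 L
    obtain ⟨m, hm, e2, e3⟩ := hJ c x hx 1 0
    obtain ⟨B, -, h⟩ := J0 g hg m hm m hm y
    exact ⟨B, by simp [h c x hx, e1, e2, e3, hL]⟩
  have J2 : ∀ c : Ch M, ∀ x ∈ c.e.target, ∀ X ≠ 0, ∀ Y ≠ 0, ∀ W y1 y2, ∃ B,
      fderiv ℝ (loc c H) x X B = y1 ∧
        fderiv ℝ (fderiv ℝ (loc c H)) x X Y B - fderiv ℝ (loc c H) x W B = y2 := by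
    intro c x hx X hX Y hY W y1 y2
    obtain ⟨B1, h1⟩ := J1 c x hx X hX y1
    obtain ⟨L, hL, hL'⟩ := SeparatingDual.exists_eq_one_ne_zero_of_ne_zero_pair (R := ℝ) hX hY
    obtain ⟨g, hg, e0, e1⟩ := hJ c x hx 0 L
    obtain ⟨m, hm, e2, -⟩ := hJ c x hx (2 * L Y)⁻¹ 0
    obtain ⟨B2, h2, h3⟩ := J0 g hg g hg m hm
      (y2 - (fderiv ℝ (fderiv ℝ (loc c H)) x X Y B1 - fderiv ℝ (loc c H) x W B1))
    have h4 : ∀ Z, fderiv ℝ (loc c H) x Z B2 = 0 := fun Z => by simp [h3 c x hx, e0]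
    have h5 := T1_sq ((hS g hg).locAt c hx) ((hS m hm).locAt c hx) e0
      (y2 - (fderiv ℝ (fderiv ℝ (loc c H)) x X Y B1 - fderiv ℝ (loc c H) x W B1)) X Y
    rw [e1, e2, hL, mul_one, mul_inv_cancel₀ (mul_ne_zero two_ne_zero hL'), one_smul] at h5
    have h6 := (T1_d2 (hH.locAt c hx) B2 X Y).symm.trans
      ((congrArg (fun f => dd f x X Y) (funext fun y => h2 _)).trans h5)
    refine ⟨B1 + B2, by rw [map_add, h1, h4, add_zero], ?_⟩
    rw [map_add, map_add, h4, h6]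
    module
  have J3 : ∀ c c' : Ch M, ∀ x ∈ c.e.target, ∀ x' ∈ c'.e.target, c.e.symm x ≠ c'.e.symm x' →
      ∀ (a : ℝ) (L : P2 →L[ℝ] ℝ) (v : R4), ∃ B, loc c H x B = a • v ∧
        (∀ X, fderiv ℝ (loc c H) x X B = L X • v) ∧ loc c' H x' B = 0 ∧
        ∀ X, fderiv ℝ (loc c' H) x' X B = 0 := by
    intro c c' x hx x' hx' hne a L v
    obtain ⟨m, hm, e1, e2⟩ := hsep _ _ hne
    obtain ⟨g, hg, e3, e4⟩ := hJ c x hx a (L - (2 * a) • fderiv ℝ (loc c m) x)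
    obtain ⟨B, h1, h2⟩ := J0 m hm m hm g hg v
    have e5 : loc c m x = 1 := e1
    have e6 : loc c' m x' = 0 := e2
    refine ⟨B, (h1 _).trans ?_, fun X => ?_, (h1 _).trans ?_, fun X => ?_⟩
    · rw [e1, one_mul, one_mul, ← e3]
      rfl
    · rw [h2 c x hx, e3, e4, e5, sub_apply, smul_apply, smul_eq_mul]
      module
    · rw [e2, zero_mul, zero_mul, zero_smul]
    · simp [h2 c' x' hx', e6]
  obtain ⟨n, d, K, -, hcov⟩ := exists_cover (M := M)
  borelize Λ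
  have hU : ∀ c c' : Ch M, IsOpen ((c.e.target ×ˢ c'.e.target) ∩
      (fun x : P2 × P2 => (c.e.symm x.1, c'.e.symm x.2)) ⁻¹' (diagonal M)ᶜ) := fun c c' =>
    ((c.e.continuousOn_symm.comp continuousOn_fst fun _ h => h.1).prodMk
      (c'.e.continuousOn_symm.comp continuousOn_snd fun _ h => h.2)).isOpen_inter_preimage
      (c.e.open_target.prod c'.e.open_target) isClosed_diagonal.isOpen_compl
  have a1 := MeasureTheory.ae_all_iff.2 fun j => T1_imm (Module.finBasis ℝ Λ).addHaar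
    (d j).e.open_target (fun _ => hH.locAt _) (J1 (d j))
  have a2 := MeasureTheory.ae_all_iff.2 fun j => T1_nd (Module.finBasis ℝ Λ).addHaar
    (d j).e.open_target (fun _ => hH.locAt _) (J2 (d j))
  have a3 := MeasureTheory.ae_all_iff.2 fun j : Fin n × Fin n => T1_tv (Module.finBasis ℝ Λ).addHaar
    (hU (d j.1) (d j.2)) (fun _ h => hH.locAt _ h.1.1) (fun _ h => hH.locAt _ h.1.2) (by
      intro x hx y v L L'
      obtain ⟨B0, p1, p2, p3, p4⟩ := J3 _ _ _ hx.1.1 _ hx.1.2 hx.2 1 0 y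
      obtain ⟨B1, q1, q2, q3, q4⟩ := J3 _ _ _ hx.1.1 _ hx.1.2 hx.2 0 L v
      obtain ⟨B2, r1, r2, r3, r4⟩ := J3 _ _ _ hx.1.2 _ hx.1.1 (Ne.symm hx.2) 0 L' v
      exact ⟨B0 + B1 + B2, by simp [p1, p3, q1, q3, r1, r3], fun X => by simp [p2, q2, r4],
        fun X => by simp [p4, q4, r2]⟩)
  obtain ⟨A, b1, b2, b3⟩ := (a1.and (a2.and a3)).exists
  have hF : Sm fun p => H p A :=
    hH.comp (Φ := fun h => h A) fun _ => contDiffAt_id.clm_apply contDiffAt_const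
  have hd : ∀ c : Ch M, ∀ p ∈ c.e.source, ∀ X, fderiv ℝ (loc c fun p => H p A) (c.e p) X =
      dM (fun p => H p A) p (dsym c (c.e p) X) := fun c p hp X => by
    rw [fderiv_loc c (c.e.map_source hp) (hF.mdifferentiableAt (by simp)), c.e.left_inv hp]
  have hd' : ∀ c : Ch M, ∀ p ∈ c.e.source, ∀ X, fderiv ℝ (loc c fun p => H p A) (c.e p) X =
      fderiv ℝ (loc c H) (c.e p) X A := fun c p hp X =>
    T1_d1 (surf_two (hH.locAt c (c.e.map_source hp))) A X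
  have hi : Imm fun p => H p A := fun p => by
    obtain ⟨j, hj, -⟩ := hcov p
    rw [imm_iff hF (d j) hj, det2_pos_iff, injective_iff_map_eq_zero]
    exact fun Y hY => by_contra fun h => b1 j _ ((d j).e.map_source hj) Y h
      ((hd' _ p hj Y).symm.trans hY)
  refine ⟨fun p => H p A, hF, hi, fun c p hp X Y hX hY => ?_, fun p q hpq t h ξ h1 h2 h3 => ?_⟩
  · obtain ⟨j, hj, -⟩ := hcov p
    rw [hd c p hp, ← dsym_tr c (d j) hp hj, ← hd _ p hj, hd' _ p hj] at hX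
    rw [II_trans hF c (d j) hp hj (hi p), II, Ne,
      nrm_eq_zero_iff ((imm_iff hF (d j) hj).1 (hi p)).ne']
    rintro ⟨W, hW⟩
    exact b2 j _ ((d j).e.map_source hj) _ _ W hX (tr_ne_zero c (d j) hp hj hY)
      ((T1_d2 (hH.locAt _ ((d j).e.map_source hj)) A _ _).symm.trans (hW.trans (hd' _ p hj W)))
  · obtain ⟨i, hi, -⟩ := hcov p
    obtain ⟨j, hj, -⟩ := hcov q
    refine b3 (i, j) ((d i).e p, (d j).e q) ⟨⟨(d i).e.map_source hi, (d j).e.map_source hj⟩,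
      fun e => hpq ?_⟩ t ?_ ξ h1 (fun X => ?_) fun X => ?_
    · exact ((d i).e.left_inv hi).symm.trans (Eq.trans e ((d j).e.left_inv hj))
    · simp only [loc, (d i).e.left_inv hi, (d j).e.left_inv hj, h]
    · rw [← hd' _ p hi, hd _ p hi, h2]
    · rw [← hd' _ q hj, hd _ q hj, h3]

end Vale.Agent.P205
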