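import Vale.Agent.P205.TDefs
import Vale.Agent.P205.Generic

/-! P205, T1: genericity in the plane for a linear family of maps into four-space. -/

open scoped ContDiff InnerProductSpace Topology
open Set Filter Real MeasureTheory

noncomputable section
namespace Vale.Agent.P205

variable {Λ : Type} [NormedAddCommGroup Λ] [NormedSpace ℝ Λ]

theorem T1_polar (Y : P2) : ∃ r θ : ℝ, Y = r • (cos θ, sin θ) :=
  ⟨‖(⟨Y.1, Y.2⟩ : ℂ)‖, Complex.arg ⟨Y.1, Y.2⟩,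
    Prod.ext (Complex.norm_mul_cos_arg ⟨Y.1, Y.2⟩).symm (Complex.norm_mul_sin_arg ⟨Y.1, Y.2⟩).symm⟩

theorem T1_dir_ne (θ : ℝ) : ((cos θ, sin θ) : P2) ≠ 0 := fun h => by
  have h1 : cos θ = 0 := congrArg Prod.fst h
  have h2 : sin θ = 0 := congrArg Prod.snd h
  simpa [h1, h2] using sin_sq_add_cos_sq θ

def T1xi (s : P2) : R4 := !₂[cos s.2 * cos s.1, cos s.2 * sin s.1, sin s.2, 0]

theorem T1xi_smooth : ContDiff ℝ 1 T1xi := by
  refine contDiff_euclidean.2 fun i => ?_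
  fin_cases i
  exacts [contDiff_snd.cos.mul contDiff_fst.cos, contDiff_snd.cos.mul contDiff_fst.sin,
    contDiff_snd.sin, contDiff_const]

theorem T1xi_inner (s : P2) : ⟪T1xi s, T1xi s⟫_ℝ = 1 := by
  simp only [geoL_inner, T1xi]
  simp
  linear_combination cos s.2 ^ 2 * sin_sq_add_cos_sq s.1 + sin_sq_add_cos_sq s.2

theorem T1_polar3 {ξ : R4} (h : ⟪ξ, e4⟫_ℝ = 0) : ∃ (r : ℝ) (s : P2), ξ = r • T1xi s := by
  obtain ⟨r, θ, h1⟩ := T1_polar (ξ 0, ξ 1)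
  obtain ⟨ρ, φ, h2⟩ := T1_polar (r, ξ 2)
  simp only [Prod.ext_iff, Prod.smul_mk, smul_eq_mul] at h1 h2
  refine ⟨ρ, (θ, φ), ?_⟩
  ext i
  fin_cases i
  · simp [T1xi, h1.1, h2.1, mul_assoc]
  · simp [T1xi, h1.2, h2.1, mul_assoc]
  · simp [T1xi, h2.2]
  · simpa [T1xi, e4, EuclideanSpace.inner_single_right] using h

theorem T1_d1 {H : P2 → Λ →L[ℝ] R4} {x : P2} (hH : ContDiffAt ℝ 2 H x) (A : Λ) (X : P2) :
    fderiv ℝ (fun y => H y A) x X = fderiv ℝ H x X A := by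
  rw [fderiv_clm_apply (hH.differentiableAt (by norm_num)) (differentiableAt_const _)]
  simp

theorem T1_d2 {H : P2 → Λ →L[ℝ] R4} {x : P2} (hH : ContDiffAt ℝ ∞ H x) (A : Λ) (X Y : P2) :
    dd (fun y => H y A) x X Y = fderiv ℝ (fderiv ℝ H) x X Y A := by
  have h1 : (fun y => fderiv ℝ (fun y => H y A) y Y) =ᶠ[𝓝 x] fun y => fderiv ℝ H y Y A :=
    (surf_ev hH).mono fun y hy => T1_d1 hy A Y
  rw [dd, h1.fderiv_eq, fderiv_clm_apply (surf_dapp (surf_two hH) Y) (differentiableAt_const _),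
    ← surf_dd (surf_two hH)]
  simp [dd]

variable [FiniteDimensional ℝ Λ] [MeasurableSpace Λ] [BorelSpace Λ] (μ : Measure Λ)
  [μ.IsAddHaarMeasure]

theorem T1_avoid {X Y : Type} [NormedAddCommGroup X] [NormedSpace ℝ X] [FiniteDimensional ℝ X]
    [NormedAddCommGroup Y] [NormedSpace ℝ Y] [FiniteDimensional ℝ Y]
    (hd : Module.finrank ℝ X < Module.finrank ℝ Y) {U : Set X} (hU : IsOpen U)
    {Φ : X × Λ → Y} (hΦ : ∀ x ∈ U, ∀ A, ContDiffAt ℝ 1 Φ (x, A))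
    (hs : ∀ x ∈ U, ∀ y, ∃ B, ∀ A, ∀ t : ℝ, Φ (x, A + t • B) = Φ (x, A) + t • y) :
    ∀ᵐ A ∂μ, ∀ x ∈ U, Φ (x, A) ≠ 0 := by
  have h := generic_avoid μ hd (hU.prod isOpen_univ) (Φ := Φ)
    (fun z hz => (hΦ z.1 hz.1 z.2).contDiffWithinAt) (fun z hz _ y => ?_)
  · refine measure_mono_null (fun A hA => ?_) h
    by_contra hn
    exact hA fun x hx h0 => hn ⟨x, ⟨hx, trivial⟩, h0⟩
  · obtain ⟨B, hB⟩ := hs z.1 hz.1 y
    refine ⟨(0, B), ?_⟩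
    have h1 := ((hΦ z.1 hz.1 z.2).differentiableAt one_ne_zero).hasFDerivAt.hasLineDerivAt (0, B)
    have h2 : (fun t : ℝ => Φ ((z.1, z.2) + t • (0, B))) = fun t => Φ (z.1, z.2) + t • y := by
      funext t
      rw [← hB, Prod.smul_mk, Prod.mk_add_mk, smul_zero, add_zero]
    rw [HasLineDerivAt, h2] at h1
    simpa using h1.unique (((hasDerivAt_id' (0 : ℝ)).smul_const y).const_add _)

variable {T T' : Set P2} {H H' : P2 → Λ →L[ℝ] R4}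

theorem T1_imm (hT : IsOpen T) (hH : ∀ x ∈ T, ContDiffAt ℝ ∞ H x)
    (hs : ∀ x ∈ T, ∀ Y ≠ 0, ∀ y, ∃ B, fderiv ℝ H x Y B = y) :
    ∀ᵐ A ∂μ, ∀ x ∈ T, ∀ Y ≠ 0, fderiv ℝ H x Y A ≠ 0 := by
  have h := T1_avoid μ (X := P2 × ℝ) (Y := R4) (by simp) (hT.prod isOpen_univ)
    (Φ := fun z => fderiv ℝ H z.1.1 (cos z.1.2, sin z.1.2) z.2) (fun x hx A => ?_)
    (fun x hx y => ?_)
  · filter_upwards [h] with A hA x hx Y hY h0
    obtain ⟨r, θ, rfl⟩ := T1_polar Y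
    rw [map_smul, smul_apply, smul_eq_zero] at h0
    exact h0.elim (fun e => hY (by rw [e, zero_smul])) (hA (x, θ) ⟨hx, trivial⟩)
  · have h1 : ContDiffAt ℝ 1 (fderiv ℝ H) x.1 := (surf_two (hH _ hx.1)).fderiv_right (by norm_num)
    exact ((h1.comp (x, A) contDiffAt_fst.fst).clm_apply
      (contDiffAt_fst.snd.cos.prodMk contDiffAt_fst.snd.sin)).clm_apply contDiffAt_snd
  · obtain ⟨B, hB⟩ := hs x.1 hx.1 _ (T1_dir_ne x.2) y
    exact ⟨B, fun A t => by simp only [map_add, map_smul, hB]⟩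

theorem T1_nd (hT : IsOpen T) (hH : ∀ x ∈ T, ContDiffAt ℝ ∞ H x)
    (hs : ∀ x ∈ T, ∀ X ≠ 0, ∀ Y ≠ 0, ∀ W y1 y2, ∃ B, fderiv ℝ H x X B = y1 ∧
      fderiv ℝ (fderiv ℝ H) x X Y B - fderiv ℝ H x W B = y2) :
    ∀ᵐ A ∂μ, ∀ x ∈ T, ∀ X Y W, fderiv ℝ H x X A = e4 → Y ≠ 0 →
      fderiv ℝ (fderiv ℝ H) x X Y A ≠ fderiv ℝ H x W A := by
  have h := T1_avoid μ (X := (P2 × P2) × ℝ × P2) (Y := R4 × R4) (by simp)
    ((hT.prod (isOpen_compl_singleton (x := (0 : P2)))).prod isOpen_univ)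
    (Φ := fun z => (fderiv ℝ H z.1.1.1 z.1.1.2 z.2 - e4,
      fderiv ℝ (fderiv ℝ H) z.1.1.1 z.1.1.2 (cos z.1.2.1, sin z.1.2.1) z.2
        - fderiv ℝ H z.1.1.1 z.1.2.2 z.2)) (fun x hx A => ?_) (fun x hx y => ?_)
  · filter_upwards [h] with A hA x hx X Y W h1 hY h0
    obtain ⟨r, θ, rfl⟩ := T1_polar Y
    have hr : r ≠ 0 := fun e => hY (by rw [e, zero_smul])
    have hX : X ≠ 0 := fun e => by
      rw [e, map_zero, zero_apply] at h1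
      simpa [e4] using congrArg (fun v : R4 => v 3) h1
    refine hA ((x, X), θ, r⁻¹ • W) ⟨⟨hx, hX⟩, trivial⟩ (Prod.ext (sub_eq_zero.2 h1) ?_)
    rw [map_smul, smul_apply] at h0
    simp only [map_smul, smul_apply, ← h0, inv_smul_smul₀ hr, sub_self, Prod.snd_zero]
  · have h0 : ContDiffAt ℝ ∞ (fderiv ℝ H) x.1.1 := (hH _ hx.1.1).fderiv_right (by simp)
    have h1 := (h0.of_le (m := 1) (by simp)).comp (x, A) contDiffAt_fst.fst.fst
    have h2 := ((surf_two h0).fderiv_right (m := 1) (by norm_num)).comp (x, A)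
      contDiffAt_fst.fst.fst
    exact (((h1.clm_apply contDiffAt_fst.fst.snd).clm_apply contDiffAt_snd).sub
      contDiffAt_const).prodMk ((((h2.clm_apply contDiffAt_fst.fst.snd).clm_apply
        (contDiffAt_fst.snd.fst.cos.prodMk contDiffAt_fst.snd.fst.sin)).clm_apply
          contDiffAt_snd).sub ((h1.clm_apply contDiffAt_fst.snd.snd).clm_apply contDiffAt_snd))
  · obtain ⟨B, h1, h2⟩ := hs _ hx.1.1 _ hx.1.2 _ (T1_dir_ne x.2.1) x.2.2 y.1 y.2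
    refine ⟨B, fun A t => Prod.ext ?_ ?_⟩
    · simp only [map_add, map_smul, h1, Prod.fst_add, Prod.smul_fst]
      module
    · simp only [map_add, map_smul, ← h2, Prod.snd_add, Prod.smul_snd]
      module

theorem T1_tv {U : Set (P2 × P2)} (hU : IsOpen U) (hH : ∀ x ∈ U, ContDiffAt ℝ ∞ H x.1)
    (hH' : ∀ x ∈ U, ContDiffAt ℝ ∞ H' x.2)
    (hs : ∀ x ∈ U, ∀ (y v : R4) (L L' : P2 →L[ℝ] ℝ), ∃ B, H x.1 B - H' x.2 B = y ∧
      (∀ X, fderiv ℝ H x.1 X B = L X • v) ∧ ∀ X, fderiv ℝ H' x.2 X B = L' X • v) :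
    ∀ᵐ A ∂μ, ∀ x ∈ U, ∀ t : ℝ, H x.1 A - H' x.2 A = t • e4 → ∀ ξ : R4, ⟪ξ, e4⟫_ℝ = 0 →
      (∀ X, ⟪ξ, fderiv ℝ H x.1 X A⟫_ℝ = 0) → (∀ X, ⟪ξ, fderiv ℝ H' x.2 X A⟫_ℝ = 0) → ξ = 0 := by
  have h := T1_avoid μ (X := (P2 × P2) × ℝ × P2) (Y := R4 × P2 × P2) (by simp)
    (hU.prod isOpen_univ)
    (Φ := fun z => (H z.1.1.1 z.2 - H' z.1.1.2 z.2 - z.1.2.1 • e4,
      (⟪T1xi z.1.2.2, fderiv ℝ H z.1.1.1 (1, 0) z.2⟫_ℝ,
        ⟪T1xi z.1.2.2, fderiv ℝ H z.1.1.1 (0, 1) z.2⟫_ℝ),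
      (⟪T1xi z.1.2.2, fderiv ℝ H' z.1.1.2 (1, 0) z.2⟫_ℝ,
        ⟪T1xi z.1.2.2, fderiv ℝ H' z.1.1.2 (0, 1) z.2⟫_ℝ))) (fun x hx A => ?_) (fun x hx y => ?_)
  · filter_upwards [h] with A hA x hx t h1 ξ h2 h3 h4
    obtain ⟨r, s, rfl⟩ := T1_polar3 h2
    by_contra h0
    have hr : r ≠ 0 := fun e => h0 (by rw [e, zero_smul])
    simp only [real_inner_smul_left, mul_eq_zero, hr, false_or] at h3 h4
    exact hA (x, t, s) ⟨hx, trivial⟩ (Prod.ext (sub_eq_zero.2 h1)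
      (Prod.ext (Prod.ext (h3 _) (h3 _)) (Prod.ext (h4 _) (h4 _))))
  · have h1 := ((hH _ hx.1).of_le (m := 1) (by simp)).comp (x, A) contDiffAt_fst.fst.fst
    have h2 := ((hH' _ hx.1).of_le (m := 1) (by simp)).comp (x, A) contDiffAt_fst.fst.snd
    have h3 := ((surf_two (hH _ hx.1)).fderiv_right (m := 1) (by norm_num)).comp (x, A)
      contDiffAt_fst.fst.fst
    have h4 := ((surf_two (hH' _ hx.1)).fderiv_right (m := 1) (by norm_num)).comp (x, A)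
      contDiffAt_fst.fst.snd
    have h5 := T1xi_smooth.contDiffAt.comp (x, A) contDiffAt_fst.snd.snd
    have h6 := fun X => h5.inner ℝ ((h3.clm_apply (contDiffAt_const (c := X))).clm_apply
      contDiffAt_snd)
    have h7 := fun X => h5.inner ℝ ((h4.clm_apply (contDiffAt_const (c := X))).clm_apply
      contDiffAt_snd)
    exact (((h1.clm_apply contDiffAt_snd).sub (h2.clm_apply contDiffAt_snd)).sub
      (contDiffAt_fst.snd.fst.smul contDiffAt_const)).prodMk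
      (((h6 _).prodMk (h6 _)).prodMk ((h7 _).prodMk (h7 _)))
  · obtain ⟨B, h1, h2, h3⟩ := hs _ hx.1 y.1 (T1xi x.2.2)
      (y.2.1.1 • ContinuousLinearMap.fst ℝ ℝ ℝ + y.2.1.2 • ContinuousLinearMap.snd ℝ ℝ ℝ)
      (y.2.2.1 • ContinuousLinearMap.fst ℝ ℝ ℝ + y.2.2.2 • ContinuousLinearMap.snd ℝ ℝ ℝ)
    refine ⟨B, fun A t => Prod.ext ?_ ?_⟩
    · simp only [map_add, map_smul, ← h1, Prod.fst_add, Prod.smul_fst]
      module
    · simp only [map_add, map_smul, h2, h3, inner_add_right, real_inner_smul_right, T1xi_inner]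
      ext <;> simp

end Vale.Agent.P205
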