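import Vale.Agent.P205.TDefs

/-! P205, T3: planar lemmas on zeros of maps of the plane (BLUEPRINT, module T). -/

open scoped ContDiff InnerProductSpace Topology Manifold ComplexConjugate
open Set Filter Real

noncomputable section
namespace Vale.Agent.P205

/-- `ψ x = x + φ x • (z0 - z1)` with a bump `φ` of small Lipschitz constant -/
theorem planar_move (c : P2) {R : ℝ} (hR : 0 < R) : ∃ r : ℝ, 0 < r ∧ r < R ∧
    ∀ z0 ∈ Metric.ball c r, ∀ z1 ∈ Metric.ball c r, ∃ ψ : P2 → P2, ContDiff ℝ ∞ ψ ∧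
      Function.Bijective ψ ∧ (∀ x, x ∉ Metric.ball c R → ψ x = x) ∧ ψ z1 = z0 ∧
      ∀ x, 0 < jac ψ x := by
  let φ : ContDiffBump c := ⟨R / 2, R, by positivity, by linarith⟩
  have hφ : ContDiff ℝ ∞ φ := φ.contDiff
  obtain ⟨K, hK⟩ := ContDiff.lipschitzWith_of_hasCompactSupport φ.hasCompactSupport hφ (by simp)
  have hK0 : (0 : ℝ) ≤ K := K.2
  have hr : 0 < min (R / 2) (1 / (4 * (K + 1))) := lt_min (by positivity) (by positivity)
  refine ⟨min (R / 2) (1 / (4 * (K + 1))), hr, (min_le_left _ _).trans_lt (by linarith),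
    fun z0 h0 z1 h1 => ?_⟩
  have hv : K * ‖z0 - z1‖ ≤ 1 / 2 := by
    have h2 : ‖z0 - z1‖ ≤ 2 * (1 / (4 * (K + 1))) := by
      rw [← dist_eq_norm]
      linarith [dist_triangle_right z0 z1 c, Metric.mem_ball.1 h0, Metric.mem_ball.1 h1,
        min_le_right (R / 2) (1 / (4 * ((K : ℝ) + 1)))]
    refine (mul_le_mul_of_nonneg_left h2 hK0).trans ?_
    rw [mul_one_div, ← mul_div_assoc, div_le_iff₀ (by positivity)]
    linarith
  generalize hw : z0 - z1 = v at hv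
  refine ⟨fun x => x + φ x • v, contDiff_id.add (hφ.smul contDiff_const), ⟨fun x y hxy => ?_,
    fun y => ?_⟩, fun x hx => ?_, ?_, fun x => ?_⟩
  · have h2 : x - y = (φ y - φ x) • v := by
      rw [sub_smul]
      linear_combination (exp := 1) hxy
    have h3 := hK.dist_le_mul y x
    have h4 := congrArg norm h2
    rw [norm_smul, ← dist_eq_norm, ← dist_eq_norm, dist_comm x y] at h4
    have h5 : dist (φ y) (φ x) * ‖v‖ ≤ K * dist y x * ‖v‖ :=
      mul_le_mul_of_nonneg_right h3 (norm_nonneg _)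
    have h6 : K * ‖v‖ * dist y x ≤ 1 / 2 * dist y x := mul_le_mul_of_nonneg_right hv dist_nonneg
    exact (dist_le_zero.1 (by linarith)).symm
  · have hc : Continuous fun t : ℝ => t - φ (y - t • v) :=
      continuous_id.sub (hφ.continuous.comp (continuous_const.sub (continuous_id.smul continuous_const)))
    obtain ⟨t, -, ht⟩ := intermediate_value_Icc zero_le_one hc.continuousOn
      (show (0 : ℝ) ∈ Icc _ _ from ⟨by simpa using φ.nonneg, by simpa using φ.le_one⟩)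
    refine ⟨y - t • v, ?_⟩
    have h2 : φ (y - t • v) = t := by linarith [show t - φ (y - t • v) = 0 from ht]
    simp only [h2, sub_add_cancel]
  · have h2 : φ x = 0 := φ.zero_of_le_dist (not_lt.1 hx)
    simp only [h2, zero_smul, add_zero]
  · have h2 : φ z1 = 1 := φ.one_of_mem_closedBall
      ((Metric.mem_ball.1 h1).le.trans (min_le_left _ _))
    simp only [h2, one_smul, ← hw, add_sub_cancel]
  · have h2 := (hasFDerivAt_id x).add
      ((hφ.differentiable (by simp) x).hasFDerivAt.smul_const v)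
    have h3 : ∀ X, fderiv ℝ (fun x => x + φ x • v) x X = X + fderiv ℝ φ x X • v := fun X =>
      congrArg (fun L : P2 →L[ℝ] P2 => L X) h2.fderiv
    have h4 : |fderiv ℝ φ x v| ≤ K * ‖v‖ := ((fderiv ℝ φ x).le_opNorm v).trans
      (mul_le_mul_of_nonneg_right (norm_fderiv_le_of_lipschitz ℝ hK) (norm_nonneg _))
    rw [fderiv_eq_du_dv] at h4
    simp only [jac, du, dv, h3, Prod.fst_add, Prod.snd_add, Prod.smul_fst, Prod.smul_snd,
      smul_eq_mul] at h4 ⊢
    nlinarith [neg_abs_le (v.1 * fderiv ℝ φ x (1, 0) + v.2 * fderiv ℝ φ x (0, 1))]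

theorem jac_comp {s ψ : P2 → P2} {x : P2} (hψ : DifferentiableAt ℝ ψ x)
    (hs : DifferentiableAt ℝ s (ψ x)) : jac (s ∘ ψ) x = jac s (ψ x) * jac ψ x := by
  have h : ∀ X, fderiv ℝ (s ∘ ψ) x X =
      (fderiv ℝ ψ x X).1 • du s (ψ x) + (fderiv ℝ ψ x X).2 • dv s (ψ x) := fun X => by
    rw [← fderiv_eq_du_dv, fderiv_comp x hs hψ]
    rfl
  have h1 : du (s ∘ ψ) x = (du ψ x).1 • du s (ψ x) + (du ψ x).2 • dv s (ψ x) := h _
  have h2 : dv (s ∘ ψ) x = (dv ψ x).1 • du s (ψ x) + (dv ψ x).2 • dv s (ψ x) := h _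
  simp only [jac, h1, h2, Prod.fst_add, Prod.snd_add, Prod.smul_fst, Prod.smul_snd, smul_eq_mul]
  ring

/-- Jacobian of a complex valued function on the plane -/
def T3jc (S : P2 → ℂ) (x : P2) : ℝ := (du S x).re * (dv S x).im - (du S x).im * (dv S x).re

/-- the complex coordinate -/
def T3cz : P2 ≃L[ℝ] ℂ := Complex.equivRealProdCLM.symm

theorem T3cz_re (x : P2) : (T3cz x).re = x.1 := rfl
theorem T3cz_im (x : P2) : (T3cz x).im = x.2 := rfl

theorem T3jc_cz (s : P2 → P2) (x : P2) : T3jc (fun y => T3cz (s y)) x = jac s x := by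
  have h : fderiv ℝ (fun y => T3cz (s y)) x = _ := T3cz.comp_fderiv (f := s)
  simp only [T3jc, jac, du, dv, h]
  rfl

theorem T3jc_conj (S : P2 → ℂ) (x : P2) : T3jc (fun y => conj (S y)) x = -T3jc S x := by
  have h : fderiv ℝ (fun y => conj (S y)) x = _ := Complex.conjCLE.comp_fderiv (f := S)
  simp only [T3jc, du, dv, h]
  simp
  ring

theorem T3jc_mul {S g : P2 → ℂ} {x : P2} (hS : DifferentiableAt ℝ S x)
    (hg : DifferentiableAt ℝ g x) (h0 : S x = 0) :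
    T3jc (fun y => S y * g y) x = Complex.normSq (g x) * T3jc S x := by
  simp only [T3jc, du, dv, fderiv_fun_mul hS hg, h0]
  simp [Complex.normSq_apply]
  ring

theorem T3jc_congr {S S' : P2 → ℂ} {x : P2} (h : S =ᶠ[𝓝 x] S') : T3jc S x = T3jc S' x := by
  simp only [T3jc, du, dv, h.fderiv_eq]

theorem T3norm_le_cz (x : P2) : ‖x‖ ≤ ‖T3cz x‖ :=
  max_le (Complex.abs_re_le_norm (T3cz x)) (Complex.abs_im_le_norm (T3cz x))

/-- near a zero with positive Jacobian the quotient by the coordinate stays in a disc that misses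
the origin -/
theorem T3_disc {S : P2 → ℂ} {z : P2} (hS : DifferentiableAt ℝ S z) (h0 : S z = 0)
    (hj : 0 < T3jc S z) : ∃ a : ℂ, ∀ᶠ x in 𝓝[≠] z, ‖S x * (T3cz x - T3cz z)⁻¹ - a‖ < ‖a‖ := by
  obtain ⟨α, hα⟩ : ∃ α, α = (du S z - Complex.I * dv S z) / 2 := ⟨_, rfl⟩
  obtain ⟨β, hβ⟩ : ∃ β, β = (du S z + Complex.I * dv S z) / 2 := ⟨_, rfl⟩
  have h1 : ‖β‖ < ‖α‖ := by
    refine lt_of_pow_lt_pow_left₀ 2 (norm_nonneg _) ?_
    rw [Complex.sq_norm, Complex.sq_norm, hα, hβ]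
    simp only [T3jc] at hj
    simp [Complex.normSq_apply]
    nlinarith
  have h2 : ∀ X, fderiv ℝ S z X = α * T3cz X + β * conj (T3cz X) := fun X => by
    rw [fderiv_eq_du_dv, hα, hβ]
    apply Complex.ext <;> simp [T3cz_re, T3cz_im] <;> ring
  refine ⟨α, ?_⟩
  have h3 := hS.hasFDerivAt.isLittleO.bound (half_pos (sub_pos.2 h1))
  filter_upwards [mem_nhdsWithin_of_mem_nhds h3, self_mem_nhdsWithin] with x e1 e2
  have e3 : T3cz x - T3cz z ≠ 0 := sub_ne_zero.2 fun h => e2 (T3cz.injective h)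
  have e4 : 0 < ‖T3cz x - T3cz z‖ := norm_pos_iff.2 e3
  rw [h0, sub_zero, h2, map_sub] at e1
  have e5 := T3norm_le_cz (x - z)
  rw [map_sub] at e5
  generalize T3cz x - T3cz z = w at e1 e3 e4 e5
  have e6 : S x * w⁻¹ - α = (S x - (α * w + β * conj w) + β * conj w) * w⁻¹ := by
    field_simp
    ring
  rw [e6, norm_mul, norm_inv, ← div_eq_mul_inv, div_lt_iff₀ e4]
  refine (norm_add_le _ _).trans_lt ?_
  rw [norm_mul, Complex.norm_conj]
  nlinarith [mul_le_mul_of_nonneg_left e5 (half_pos (sub_pos.2 h1)).le,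
    mul_pos (sub_pos.2 h1) e4]

/-- filling in a puncture -/
theorem T3_fill {O : Set P2} {z : P2} {q : P2 → ℂ}
    (hq : ∀ x ∈ O, x ≠ z → ContDiffAt ℝ ∞ q x) {a : ℂ} (ha : ∀ᶠ x in 𝓝[≠] z, ‖q x - a‖ < ‖a‖)
    {ρ : ℝ} (hρ : 0 < ρ) : ∃ q' : P2 → ℂ, (∀ x ∈ O, ContDiffAt ℝ ∞ q' x) ∧
      (∀ x, ρ ≤ dist x z → q' =ᶠ[𝓝 x] q) ∧ q' z ≠ 0 ∧
      (∀ x, x ≠ z → q x = 0 → q' =ᶠ[𝓝 x] q) ∧ ∀ x, q' x = 0 → q x = 0 := by
  obtain ⟨ε, hε, hb⟩ := Metric.eventually_nhds_iff.1 (eventually_nhdsWithin_iff.1 ha)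
  have ha0 : 0 < ‖a‖ := (norm_nonneg _).trans_lt ha.exists.choose_spec
  have hm := lt_min hε hρ
  let φ : ContDiffBump z := ⟨min ε ρ / 4, min ε ρ / 2, by positivity, by linarith⟩
  have hφ : ContDiff ℝ ∞ φ := φ.contDiff
  have far : ∀ x, min ε ρ ≤ dist x z → (fun y => (1 - φ y) • q y + φ y • a) =ᶠ[𝓝 x] q := by
    intro x hx
    have h1 : ∀ᶠ y in 𝓝 x, min ε ρ / 2 < dist y z :=
      (continuous_id.dist continuous_const).continuousAt.eventually
        (lt_mem_nhds (show min ε ρ / 2 < dist x z by linarith))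
    filter_upwards [h1] with y hy
    rw [φ.zero_of_le_dist hy.le, sub_zero, one_smul, zero_smul, add_zero]
  have one : ∀ᶠ y in 𝓝 z, (1 - φ y) • q y + φ y • a = a := by
    filter_upwards [φ.eventuallyEq_one] with y hy
    rw [hy, Pi.one_apply, sub_self, zero_smul, zero_add, one_smul]
  refine ⟨fun y => (1 - φ y) • q y + φ y • a, fun x hx => ?_,
    fun x hx => far x ((min_le_right _ _).trans hx), ?_, fun x hx h0 => far x ?_, fun x hx => ?_⟩
  · by_cases hxz : x = z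
    · rw [hxz]
      exact contDiffAt_const.congr_of_eventuallyEq one
    · exact ((contDiff_const.sub hφ).contDiffAt.smul (hq x hx hxz)).add
        (hφ.contDiffAt.smul contDiffAt_const)
  · exact fun h => norm_pos_iff.1 ha0 (one.self_of_nhds.symm.trans h)
  · refine (min_le_left _ _).trans (not_lt.1 fun h => ?_)
    have h1 := hb h hx
    rw [h0, zero_sub, norm_neg] at h1
    exact lt_irrefl _ h1
  · by_cases h : min ε ρ ≤ dist x z
    · exact (far x h).self_of_nhds.symm.trans hx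
    · by_cases hxz : x = z
      · rw [hxz] at hx
        exact absurd (one.self_of_nhds.symm.trans hx) (norm_pos_iff.1 ha0)
      · have h1 := hb ((not_le.1 h).trans_le (min_le_left _ _)) hxz
        have h2 : (1 - φ x) • (q x - a) = -a := by
          rw [smul_sub, sub_smul 1 (φ x) a, one_smul]
          linear_combination (exp := 1) hx
        have h3 := congrArg norm h2
        rw [norm_smul, norm_neg, Real.norm_of_nonneg (sub_nonneg.2 φ.le_one)] at h3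
        nlinarith [φ.nonneg (x := x), norm_nonneg (q x - a)]

theorem T3_prod {t a b c R : ℝ} (ha : |a - c| < R / 4) (hb : |b - c| < R / 4) :
    -(R ^ 2 / 16) ≤ (t - a) * (t - b) ∧ (3 * R / 4 < |t - c| → R ^ 2 / 16 < (t - a) * (t - b)) := by
  rw [abs_lt] at ha hb
  have h0 := mul_pos (show 0 < R / 2 - (a - b) by linarith) (show 0 < R / 2 + (a - b) by linarith)
  refine ⟨by nlinarith [sq_nonneg (2 * t - a - b)], fun h => ?_⟩
  rcases lt_abs.1 h with h | h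
  · nlinarith [mul_pos (show 0 < t - a - R / 2 by linarith) (show 0 < t - b - R / 2 by linarith)]
  · nlinarith [mul_pos (show 0 < a - t - R / 2 by linarith) (show 0 < b - t - R / 2 by linarith)]

/-- two zeros of opposite sign cancel -/
theorem planar_cancel {O : Set P2} (hO : IsOpen O) (c : P2) {R : ℝ} (hR : 0 < R)
    (hRO : Metric.closedBall c R ⊆ O) {s : P2 → P2} (hs : ContDiffOn ℝ ∞ s O) {z1 z2 : P2}
    (h1 : z1 ∈ Metric.ball c (R / 4)) (h2 : z2 ∈ Metric.ball c (R / 4)) (hz1 : s z1 = 0)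
    (hz2 : s z2 = 0) (hj1 : 0 < jac s z1) (hj2 : jac s z2 < 0) :
    ∃ s' : P2 → P2, ContDiffOn ℝ ∞ s' O ∧ (∀ x, x ∉ Metric.ball c R → s' x = s x) ∧
      (∀ x ∈ O, s' x = 0 ↔ s x = 0 ∧ x ≠ z1 ∧ x ≠ z2) ∧
      ∀ x ∈ O, s' x = 0 → ∃ t : ℝ, 0 < t ∧ jac s' x = t * jac s x := by
  have hne : z1 ≠ z2 := fun h => by
    rw [h] at hj1
    linarith
  rw [Metric.mem_ball] at h1 h2
  have hO1 : z1 ∈ O := hRO (Metric.mem_closedBall.2 (by linarith))
  have hO2 : z2 ∈ O := hRO (Metric.mem_closedBall.2 (by linarith))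
  have hS : ∀ x ∈ O, ContDiffAt ℝ ∞ (fun y => T3cz (s y)) x := fun x hx =>
    T3cz.contDiff.contDiffAt.comp x (hs.contDiffAt (hO.mem_nhds hx))
  have hw : ∀ z, ContDiff ℝ ∞ fun y => T3cz y - T3cz z := fun z => T3cz.contDiff.sub contDiff_const
  have hw' : ∀ z, ContDiff ℝ ∞ fun y => conj (T3cz y - T3cz z) := fun z =>
    Complex.conjCLE.contDiff.comp (hw z)
  have hw0 : ∀ {x z}, x ≠ z → T3cz x - T3cz z ≠ 0 := fun h => sub_ne_zero.2 fun e => h (T3cz.injective e)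
  have hw0' : ∀ {x z}, x ≠ z → conj (T3cz x - T3cz z) ≠ 0 := fun h => (map_ne_zero _).2 (hw0 h)
  have hi : ∀ {x z}, x ≠ z → ContDiffAt ℝ ∞ (fun y => (T3cz y - T3cz z)⁻¹) x := fun h =>
    (hw _).contDiffAt.inv (hw0 h)
  have hi' : ∀ {x z}, x ≠ z → ContDiffAt ℝ ∞ (fun y => (conj (T3cz y - T3cz z))⁻¹) x := fun h =>
    (hw' _).contDiffAt.inv (hw0' h)
  have hd : ∀ {f : P2 → ℂ} {x}, ContDiffAt ℝ ∞ f x → DifferentiableAt ℝ f x := fun h =>
    h.differentiableAt (by simp)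
  obtain ⟨q, hq⟩ : ∃ q : P2 → ℂ,
    q = fun y => T3cz (s y) * (conj (T3cz y - T3cz z2))⁻¹ * (T3cz y - T3cz z1)⁻¹ := ⟨_, rfl⟩
  obtain ⟨a1, ha1⟩ : ∃ a, ∀ᶠ x in 𝓝[≠] z1, ‖q x - a‖ < ‖a‖ := by
    rw [hq]
    refine T3_disc (hd ((hS _ hO1).mul (hi' hne))) (by rw [hz1, map_zero, zero_mul]) ?_
    rw [T3jc_mul (hd (hS _ hO1)) (hd (hi' hne)) (by rw [hz1, map_zero]), T3jc_cz]
    exact mul_pos (Complex.normSq_pos.2 (inv_ne_zero (hw0' hne))) hj1
  obtain ⟨a2, ha2⟩ : ∃ a, ∀ᶠ x in 𝓝[≠] z2, ‖q x - a‖ < ‖a‖ := by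
    obtain ⟨a, ha⟩ := T3_disc (S := fun y => conj (T3cz (s y) * (T3cz y - T3cz z1)⁻¹)) (z := z2)
      (hd (Complex.conjCLE.contDiff.contDiffAt.comp _ ((hS _ hO2).mul (hi hne.symm))))
      (by rw [hz2, map_zero, zero_mul, map_zero]) (by
        rw [T3jc_conj, T3jc_mul (hd (hS _ hO2)) (hd (hi hne.symm)) (by rw [hz2, map_zero]), T3jc_cz]
        exact neg_pos.2 (mul_neg_of_pos_of_neg
          (Complex.normSq_pos.2 (inv_ne_zero (hw0 hne.symm))) hj2))
    refine ⟨conj a, ha.mono fun x hx => ?_⟩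
    rw [← Complex.norm_conj, map_sub, map_mul, Complex.conj_conj, map_inv₀] at hx
    rw [Complex.norm_conj, hq]
    rwa [mul_right_comm] at hx
  have hρ : 0 < min (dist z2 z1) (R / 2) := lt_min (dist_pos.2 hne.symm) (half_pos hR)
  obtain ⟨q1, s1, f1, n1, e1, k1⟩ := T3_fill (O := O \ {z2}) (z := z1)
    (q := q) (fun x hx hx1 => hq ▸ ((hS x hx.1).mul (hi' hx.2)).mul (hi hx1)) ha1 hρ
  obtain ⟨q2, s2, f2, n2, e2, k2⟩ := T3_fill (O := O) (z := z2) (q := q1)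
    (fun x hx hx2 => s1 x ⟨hx, hx2⟩) (a := a2) (by
      filter_upwards [ha2, mem_nhdsWithin_of_mem_nhds (f1 z2 (min_le_left _ _))] with x u1 u2
      rwa [show q1 x = q x from u2]) (half_pos hR)
  let χ : ContDiffBump c := ⟨3 * R / 4, R, by positivity, by linarith⟩
  obtain ⟨G, hG⟩ : ∃ G : P2 → ℂ,
    G = fun y => (T3cz y - T3cz z1) * conj (T3cz y - T3cz z2) + (R ^ 2 * χ y : ℝ) := ⟨_, rfl⟩
  have sG : ContDiff ℝ ∞ G := hG ▸ ((hw _).mul (hw' _)).add
    (Complex.ofRealCLM.contDiff.comp (contDiff_const.mul χ.contDiff))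
  have nG : ∀ x, G x ≠ 0 := fun x h => by
    have u1 : (x.1 - z1.1) * (x.1 - z2.1) + (x.2 - z1.2) * (x.2 - z2.2) + R ^ 2 * χ x = 0 := by
      have u := congrArg Complex.re h
      simp only [hG, Complex.add_re, Complex.mul_re, Complex.sub_re, Complex.sub_im,
        Complex.conj_re, Complex.conj_im, Complex.ofReal_re, T3cz_re, T3cz_im, Complex.zero_re] at u
      linarith
    rw [Prod.dist_eq, max_lt_iff, Real.dist_eq, Real.dist_eq] at h1 h2
    obtain ⟨p1, p2⟩ := T3_prod (t := x.1) h1.1 h2.1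
    obtain ⟨p3, p4⟩ := T3_prod (t := x.2) h1.2 h2.2
    have u2 := mul_nonneg (sq_nonneg R) (χ.nonneg (x := x))
    by_cases hx : dist x c ≤ 3 * R / 4
    · rw [χ.one_of_mem_closedBall hx] at u1
      nlinarith [sq_pos_of_pos hR]
    · rw [not_le, Prod.dist_eq, lt_max_iff, Real.dist_eq, Real.dist_eq] at hx
      rcases hx with hx | hx
      · linarith [p2 hx]
      · linarith [p4 hx]
  have zer : ∀ x, q2 x = 0 → x ≠ z1 ∧ x ≠ z2 ∧ s x = 0 ∧ q2 =ᶠ[𝓝 x] q := fun x hx => by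
    have u2 : x ≠ z2 := fun h => n2 (h ▸ hx)
    have u1 : x ≠ z1 := fun h => n1 (h ▸ k2 x hx)
    have u3 := k1 x (k2 x hx)
    refine ⟨u1, u2, ?_, (e2 x u2 (k2 x hx)).trans (e1 x u1 u3)⟩
    rw [hq] at u3
    exact T3cz.map_eq_zero_iff.1 ((mul_eq_zero.1 ((mul_eq_zero.1 u3).resolve_right
      (inv_ne_zero (hw0 u1)))).resolve_right (inv_ne_zero (hw0' u2)))
  have hz : ∀ x, T3cz.symm (q2 x * G x) = 0 ↔ q2 x = 0 := fun x => by
    rw [T3cz.symm.map_eq_zero_iff, mul_eq_zero, or_iff_left (nG x)]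
  refine ⟨fun y => T3cz.symm (q2 y * G y), fun x hx => (T3cz.symm.contDiff.contDiffAt.comp x
    ((s2 x hx).mul sG.contDiffAt)).contDiffWithinAt, fun x hx => ?_, fun x hx => ?_,
    fun x hx h0 => ?_⟩
  · rw [Metric.mem_ball, not_lt] at hx
    have u1 := dist_triangle x z1 c
    have u2 := dist_triangle x z2 c
    have u3 : x ≠ z1 := dist_pos.1 (by linarith)
    have u4 : x ≠ z2 := dist_pos.1 (by linarith)
    rw [T3cz.symm_apply_eq, (f2 x (by linarith)).self_of_nhds,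
      (f1 x ((min_le_right _ _).trans (by linarith))).self_of_nhds, hq, hG]
    simp only [χ.zero_of_le_dist hx, mul_zero, Complex.ofReal_zero, add_zero]
    have u5 := hw0 u3
    have u6 := hw0' u4
    field_simp
  · rw [hz]
    refine ⟨fun h => ⟨(zer x h).2.2.1, (zer x h).1, (zer x h).2.1⟩, fun ⟨u0, u1, u2⟩ => ?_⟩
    have u3 : q x = 0 := by rw [hq]; simp only [u0, map_zero, zero_mul]
    have u4 := (e1 x u1 u3).self_of_nhds.trans u3
    exact (e2 x u2 u4).self_of_nhds.trans u4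
  · obtain ⟨u1, u2, u3, u4⟩ := zer x ((hz x).1 h0)
    refine ⟨Complex.normSq ((conj (T3cz x - T3cz z2))⁻¹ * (T3cz x - T3cz z1)⁻¹ * G x),
      Complex.normSq_pos.2 (mul_ne_zero (mul_ne_zero (inv_ne_zero (hw0' u2))
        (inv_ne_zero (hw0 u1))) (nG x)), ?_⟩
    rw [← T3jc_cz, ← T3jc_cz, ← T3jc_mul (g := fun y => (conj (T3cz y - T3cz z2))⁻¹ * (T3cz y - T3cz z1)⁻¹ * G y)
      (hd (hS x hx)) (hd (((hi' u2).mul (hi u1)).mul sG.contDiffAt)) (by rw [u3, map_zero])]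
    refine T3jc_congr (u4.mono fun y hy => ?_)
    simp only [T3cz.apply_symm_apply, hy, hq, mul_assoc]

theorem T3_det (a b c d : R4) (t p q r s : ℝ) :
    det4 a b (-(t • c) - p • a - q • b) (-(t • d) - r • a - s • b) = t ^ 2 * det4 a b c d := by
  simp only [det4, geoL_inner, cross3]
  simp
  ring

/-- derivative of the normal part of a constant vector at a point where it is tangent -/
theorem T3_nrm {f : P2 → R4} {z : P2} (hf : ContDiffAt ℝ ∞ f z) (hd : det2 f z ≠ 0) {t : ℝ}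
    {ξ : R4} (hξ : ξ = t • du f z) :
    det4 (du f z) (dv f z) (du (fun y => nrm f y ξ) z) (dv (fun y => nrm f y ξ) z) =
      t ^ 2 * det4 (du f z) (dv f z) (du (du f) z) (dv (du f) z) := by
  have hu := (contDiffAt_du hf).differentiableAt (by simp)
  have hv := (contDiffAt_dv hf).differentiableAt (by simp)
  have hc := differentiableAt_const (𝕜 := ℝ) (x := z) ξ
  have hg : DifferentiableAt ℝ (fun y => (gram2 (du f y) (dv f y))⁻¹) z :=
    (((hu.inner ℝ hu).mul (hv.inner ℝ hv)).sub ((hu.inner ℝ hv).pow 2)).inv hd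
  obtain ⟨a, ha⟩ : ∃ a : P2 → ℝ, a = fun y => (⟪dv f y, dv f y⟫_ℝ * ⟪ξ, du f y⟫_ℝ
    - ⟪du f y, dv f y⟫_ℝ * ⟪ξ, dv f y⟫_ℝ) * (gram2 (du f y) (dv f y))⁻¹ := ⟨_, rfl⟩
  obtain ⟨b, hb⟩ : ∃ b : P2 → ℝ, b = fun y => (⟪du f y, du f y⟫_ℝ * ⟪ξ, dv f y⟫_ℝ
    - ⟪du f y, dv f y⟫_ℝ * ⟪ξ, du f y⟫_ℝ) * (gram2 (du f y) (dv f y))⁻¹ := ⟨_, rfl⟩
  have da : DifferentiableAt ℝ a z := ha ▸
    (((hv.inner ℝ hv).mul (hc.inner ℝ hu)).sub ((hu.inner ℝ hv).mul (hc.inner ℝ hv))).mul hg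
  have db : DifferentiableAt ℝ b z := hb ▸
    (((hu.inner ℝ hu).mul (hc.inner ℝ hv)).sub ((hu.inner ℝ hv).mul (hc.inner ℝ hu))).mul hg
  have a0 : a z = t := by
    rw [ha, hξ]
    simp only [real_inner_smul_left]
    rw [← div_eq_mul_inv, div_eq_iff (show gram2 _ _ ≠ 0 from hd), gram2]
    ring
  have b0 : b z = 0 := by
    rw [hb, hξ]
    simp only [real_inner_smul_left]
    ring
  have e : (fun y => nrm f y ξ) = fun y => ξ - a y • du f y - b y • dv f y := by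
    rw [ha, hb]
    rfl
  have key : ∀ X, fderiv ℝ (fun y => nrm f y ξ) z X = -(t • fderiv ℝ (du f) z X)
      - fderiv ℝ a z X • du f z - fderiv ℝ b z X • dv f z := fun X => by
    have h := ((hasFDerivAt_const ξ z).sub (da.hasFDerivAt.smul hu.hasFDerivAt)).sub
      (db.hasFDerivAt.smul hv.hasFDerivAt)
    rw [e]
    refine (congrArg (fun L : P2 →L[ℝ] R4 => L X) h.fderiv).trans ?_
    simp only [a0, b0, sub_apply, add_apply, smul_apply, ContinuousLinearMap.smulRight_apply,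
      zero_apply]
    module
  exact (congrArg₂ (det4 _ _) (key _) (key _)).trans (T3_det _ _ _ _ _ _ _ _ _)

theorem T3_vec {k0 k1 k2 k3 : P2 → ℝ} {x : P2} {L0 L1 L2 L3 : P2 →L[ℝ] ℝ}
    (h0 : HasFDerivAt k0 L0 x) (h1 : HasFDerivAt k1 L1 x) (h2 : HasFDerivAt k2 L2 x)
    (h3 : HasFDerivAt k3 L3 x) (X : P2) :
    fderiv ℝ (fun y => (!₂[k0 y, k1 y, k2 y, k3 y] : R4)) x X = !₂[L0 X, L1 X, L2 X, L3 X] := by
  have hd : DifferentiableAt ℝ (fun y => (!₂[k0 y, k1 y, k2 y, k3 y] : R4)) x := by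
    refine differentiableAt_euclidean.2 fun i => ?_
    fin_cases i
    exacts [h0.differentiableAt, h1.differentiableAt, h2.differentiableAt, h3.differentiableAt]
  ext i
  have h := (EuclideanSpace.proj i : R4 →L[ℝ] ℝ).hasFDerivAt.comp x hd.hasFDerivAt
  fin_cases i
  exacts [congrArg (fun L : P2 →L[ℝ] ℝ => L X) (h.unique h0),
    congrArg (fun L : P2 →L[ℝ] ℝ => L X) (h.unique h1),
    congrArg (fun L : P2 →L[ℝ] ℝ => L X) (h.unique h2),
    congrArg (fun L : P2 →L[ℝ] ℝ => L X) (h.unique h3)]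

theorem T3_sigma : ∃ σ : ℝ → ℝ, ContDiff ℝ ∞ σ ∧ (∀ t, t ≤ 0 → σ t = 0) ∧
    (∀ t, 1 < t → σ t = t / 3 ∧ deriv σ t = 1 / 3) ∧ (∀ t, t ≤ 1 → σ t ≤ 1 / 3) ∧
    ∀ t, 0 ≤ deriv σ t := by
  have hm : Monotone fun t => t / 3 * smoothTransition t := fun s t hst => by
    rcases le_total s 0 with h | h
    · rcases le_total t 0 with h' | h'
      · simp only [smoothTransition.zero_of_nonpos h, smoothTransition.zero_of_nonpos h', mul_zero,
          le_refl]
      · simp only [smoothTransition.zero_of_nonpos h, mul_zero]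
        exact mul_nonneg (by linarith) (smoothTransition.nonneg t)
    · exact mul_le_mul (by linarith) (smoothTransition.monotone hst) (smoothTransition.nonneg s)
        (by linarith)
  refine ⟨fun t => t / 3 * smoothTransition t,
    (contDiff_id.div_const 3).mul smoothTransition.contDiff, fun t ht => ?_, fun t ht => ?_,
    fun t ht => (hm ht).trans_eq (by simp), fun t => hm.deriv_nonneg⟩
  · simp only [smoothTransition.zero_of_nonpos ht, mul_zero]
  · have h : (fun t => t / 3 * smoothTransition t) =ᶠ[𝓝 t] fun t => t / 3 := by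
      filter_upwards [lt_mem_nhds ht] with s hs
      rw [smoothTransition.one_of_one_le hs.le, mul_one]
    exact ⟨h.self_of_nhds, h.deriv_eq.trans ((hasDerivAt_id' t).div_const 3).deriv⟩

/-- the kink: a compactly supported change of the plane `(x, 0, 0, y)` with exactly two points
where `e1 = (0, 1, 0, 0)` is tangent, both of the same sign -/
theorem exists_kink : ∃ (K : P2 → R4) (R : ℝ) (z1 z2 : P2) (b : Bool), ContDiff ℝ ∞ K ∧
    (∀ x, x ∉ Metric.ball (0 : P2) R → K x = !₂[x.1, 0, 0, x.2]) ∧ (∀ x, 0 < det2 K x) ∧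
    z1 ≠ z2 ∧ (∀ x, nrm K x !₂[0, 1, 0, 0] = 0 ↔ x = z1 ∨ x = z2) ∧
    ∀ x, x = z1 ∨ x = z2 → 0 < sgn b * det4 (du K x) (dv K x)
      (du (fun y => nrm K y !₂[0, 1, 0, 0]) x) (dv (fun y => nrm K y !₂[0, 1, 0, 0]) x) := by
  obtain ⟨σ, hσ, s0, s1, s2, s3⟩ := T3_sigma
  obtain ⟨τ, hτ⟩ : ∃ τ : P2 → ℝ, τ = fun x => 3 - 2 * (x.1 * x.1) - 2 * (x.2 * x.2) := ⟨_, rfl⟩
  have sτ : ContDiff ℝ ∞ τ := by rw [hτ]; fun_prop
  have sφ : ContDiff ℝ ∞ fun x => σ (τ x) := hσ.comp sτ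
  obtain ⟨K, hK⟩ : ∃ K : P2 → R4, K = fun x =>
    !₂[x.1 - 2 * (x.1 * σ (τ x)), σ (τ x), x.1 * x.2 * σ (τ x), x.2] := ⟨_, rfl⟩
  have sK : ContDiff ℝ ∞ K := by
    rw [hK]
    refine contDiff_euclidean.2 fun i => ?_
    fin_cases i
    exacts [contDiff_fst.sub (contDiff_const.mul (contDiff_fst.mul sφ)), sφ,
      (contDiff_fst.mul contDiff_snd).mul sφ, contDiff_snd]
  have d1 : ∀ x : P2, HasFDerivAt Prod.fst (ContinuousLinearMap.fst ℝ ℝ ℝ) x := fun _ =>
    hasFDerivAt_fst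
  have d2 : ∀ x : P2, HasFDerivAt Prod.snd (ContinuousLinearMap.snd ℝ ℝ ℝ) x := fun _ =>
    hasFDerivAt_snd
  have dK : ∀ x, du K x = !₂[1 - 2 * σ (τ x) + 8 * (x.1 * x.1) * deriv σ (τ x),
        -4 * x.1 * deriv σ (τ x), x.2 * σ (τ x) - 4 * (x.1 * x.1) * x.2 * deriv σ (τ x), 0] ∧
      dv K x = !₂[8 * (x.1 * x.2) * deriv σ (τ x), -4 * x.2 * deriv σ (τ x),
        x.1 * σ (τ x) - 4 * x.1 * (x.2 * x.2) * deriv σ (τ x), 1] := fun x => by
    have d3 : HasFDerivAt τ _ x := (((hasFDerivAt_const (3 : ℝ) x).sub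
      (((d1 x).mul (d1 x)).const_mul 2)).sub (((d2 x).mul (d2 x)).const_mul 2)).congr_of_eventuallyEq
      (Eventually.of_forall (congrFun hτ))
    have d4 := (hσ.differentiable (by simp) (τ x)).hasDerivAt.comp_hasFDerivAt x d3
    have d5 := T3_vec ((d1 x).sub (((d1 x).mul d4).const_mul 2)) d4 (((d1 x).mul (d2 x)).mul d4)
      (d2 x)
    rw [hK]
    refine ⟨(d5 _).trans ?_, (d5 _).trans ?_⟩ <;> ext i <;> fin_cases i <;> simp <;> ring
  have key : ∀ x : P2, x.2 = 0 → 1 - 2 * σ (τ x) + 8 * (x.1 * x.1) * deriv σ (τ x) = 0 →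
      x = (1 / 2, 0) ∨ x = (-1 / 2, 0) := fun x h2 h1 => by
    by_cases h : 1 < τ x
    · rw [(s1 _ h).1, (s1 _ h).2, hτ] at h1
      simp only [h2] at h1
      have h3 : (x.1 - 1 / 2) * (x.1 + 1 / 2) = 0 := by linarith
      rcases mul_eq_zero.1 h3 with h4 | h4
      · exact Or.inl (Prod.ext (by linarith) h2)
      · exact Or.inr (Prod.ext (by linarith) h2)
    · nlinarith [s2 _ (not_lt.1 h), mul_nonneg (mul_self_nonneg x.1) (s3 (τ x))]
  have pts : ∀ x : P2, x = (1 / 2, 0) ∨ x = (-1 / 2, 0) →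
      x.2 = 0 ∧ x.1 * x.1 = 1 / 4 ∧ τ x = 5 / 2 := by
    rintro x (rfl | rfl) <;> rw [hτ] <;> norm_num
  have tan : ∀ x (a : ℝ), a • du K x = !₂[0, 1, 0, 0] ∨ (a ≠ 0 ∧ a • du K x = 0) →
      (x = (1 / 2, 0) ∨ x = (-1 / 2, 0)) ∧ du K x 1 = -4 / 3 * x.1 := fun x a h => by
    have h0 : a ≠ 0 ∧ a * du K x 0 = 0 ∧ a * du K x 2 = 0 := by
      rcases h with h | ⟨h', h⟩
      · refine ⟨fun e => ?_, congrArg (fun v : R4 => v 0) h, congrArg (fun v : R4 => v 2) h⟩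
        simpa [e] using congrArg (fun v : R4 => v 1) h
      · exact ⟨h', congrArg (fun v : R4 => v 0) h, congrArg (fun v : R4 => v 2) h⟩
    have h1 := (mul_eq_zero.1 h0.2.1).resolve_left h0.1
    have h2 := (mul_eq_zero.1 h0.2.2).resolve_left h0.1
    rw [(dK x).1] at h1 h2
    have h3 : 1 - 2 * σ (τ x) + 8 * (x.1 * x.1) * deriv σ (τ x) = 0 := h1
    have h4 : x.2 * σ (τ x) - 4 * (x.1 * x.1) * x.2 * deriv σ (τ x) = 0 := h2
    have h5 := key x (by linear_combination 2 * h4 + x.2 * h3) h3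
    refine ⟨h5, ?_⟩
    rw [(dK x).1, (pts x h5).2.2, (s1 _ (by norm_num)).2]
    simp
    ring
  have last : ∀ x (a b : ℝ), (a • du K x + b • dv K x) 3 = b := fun x a b => by
    simp [(dK x).1, (dK x).2]
  have imm : ∀ x, 0 < det2 K x := fun x => by
    refine gram2_pos_iff.2 fun a b h => ?_
    have hb : b = 0 := (last x a b).symm.trans (congrArg (fun v : R4 => v 3) h)
    rw [hb, zero_smul, add_zero] at h
    refine ⟨by_contra fun ha => ?_, hb⟩
    obtain ⟨h1, h2⟩ := tan x a (Or.inr ⟨ha, h⟩)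
    have h3 : a * du K x 1 = 0 := congrArg (fun v : R4 => v 1) h
    rw [(mul_eq_zero.1 h3).resolve_left ha] at h2
    have h4 := (pts x h1).2.1
    rw [show x.1 = 0 by linarith] at h4
    norm_num at h4
  have tan' : ∀ x, x = (1 / 2, 0) ∨ x = (-1 / 2, 0) →
      (!₂[0, 1, 0, 0] : R4) = (-3 * x.1) • du K x := fun x h => by
    obtain ⟨h1, h2, h3⟩ := pts x h
    rw [(dK x).1, h3, (s1 _ (by norm_num)).1, (s1 _ (by norm_num)).2, h1, h2]
    ext i
    fin_cases i <;> simp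
    · norm_num
    · linarith
  refine ⟨K, 2, (1 / 2, 0), (-1 / 2, 0), true, sK, fun x hx => ?_, imm, by norm_num, fun x => ?_,
    fun x hx => ?_⟩
  · have h : τ x ≤ 0 := by
      rw [mem_ball_zero_iff, not_lt, Prod.norm_def, le_max_iff, Real.norm_eq_abs,
        Real.norm_eq_abs] at hx
      rw [hτ]
      rcases hx with hx | hx
      · nlinarith [abs_mul_abs_self x.1, mul_self_nonneg x.2]
      · nlinarith [abs_mul_abs_self x.2, mul_self_nonneg x.1]
    simp only [hK, s0 _ h, mul_zero, sub_zero]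
  · rw [nrm, perp_eq_zero_iff (imm x).ne']
    refine ⟨fun ⟨a, b, h⟩ => ?_, fun h =>
      ⟨-3 * x.1, 0, by rw [zero_smul, add_zero]; exact tan' x h⟩⟩
    have hb : b = 0 := (last x a b).symm.trans (congrArg (fun v : R4 => v 3) h.symm)
    rw [hb, zero_smul, add_zero] at h
    exact (tan x a (Or.inl h.symm)).1
  · obtain ⟨h1, h2, h3⟩ := pts x hx
    have ev : du K =ᶠ[𝓝 x] fun y => !₂[4 * (y.1 * y.1) + 4 / 3 * (y.2 * y.2) - 1, -4 / 3 * y.1,
        y.2 - 2 * (y.1 * y.1 * y.2) - 2 / 3 * (y.2 * y.2 * y.2), 0] := by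
      filter_upwards [sτ.continuous.continuousAt.eventually
        (lt_mem_nhds (show 1 < τ x by rw [h3]; norm_num))] with y hy
      rw [(dK y).1, (s1 _ hy).1, (s1 _ hy).2, hτ]
      ext i
      fin_cases i <;> simp <;> ring
    have d3 := T3_vec (((((d1 x).mul (d1 x)).const_mul 4).add
      (((d2 x).mul (d2 x)).const_mul (4 / 3))).sub_const 1) ((d1 x).const_mul (-4 / 3))
      (((d2 x).sub ((((d1 x).mul (d1 x)).mul (d2 x)).const_mul 2)).sub
        ((((d2 x).mul (d2 x)).mul (d2 x)).const_mul (2 / 3))) (hasFDerivAt_const 0 x)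
    have e1 : du (du K) x = _ := (surf_du_ev ev).self_of_nhds.trans (d3 _)
    have e2 : dv (du K) x = _ := (surf_dv_ev ev).self_of_nhds.trans (d3 _)
    rw [T3_nrm sK.contDiffAt (imm x).ne' (tan' x hx), e1, e2, (dK x).1, (dK x).2, h3,
      (s1 _ (by norm_num)).1, (s1 _ (by norm_num)).2]
    simp only [det4, geoL_inner, cross3, sgn]
    simp [h1, h2]
    rcases hx with h | h <;> rw [h] <;> norm_num

end Vale.Agent.P205
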