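import Vale.Agent.P205.Man2

/-! P205: definitions for the topological part (an immersion with a transversal field). -/

open scoped ContDiff InnerProductSpace Topology Manifold
open Set Filter Real

noncomputable section
namespace Vale.Agent.P205

variable {M : Type*} [TopologicalSpace M] [ChartedSpace E2 M]

def e4 : R4 := EuclideanSpace.single 3 1
def det4 (a b c d : R4) : ℝ := ⟪cross3 a b c, d⟫_ℝ
def jac (s : P2 → P2) (x : P2) : ℝ := (du s x).1 * (dv s x).2 - (du s x).2 * (dv s x).1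
def sgn (b : Bool) : ℝ := if b then 1 else -1

/-- an immersion in general position with respect to the projection along `e4` -/
structure GenImm (F : M → R4) : Prop where
  sm : Sm F
  imm : Imm F
  nd : ∀ (c : Ch M), ∀ p ∈ c.e.source, ∀ X Y : P2, fderiv ℝ (loc c F) (c.e p) X = e4 → Y ≠ 0 →
    II (loc c F) (c.e p) X Y ≠ 0
  tv : ∀ p q : M, p ≠ q → ∀ t : ℝ, F p - F q = t • e4 → ∀ ξ : R4, ⟪ξ, e4⟫_ℝ = 0 →
    (∀ X, ⟪ξ, dM F p X⟫_ℝ = 0) → (∀ X, ⟪ξ, dM F q X⟫_ℝ = 0) → ξ = 0

/-- points where `e4` is tangent -/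
def Umb (F : M → R4) : Set M := {p | ∃ X, dM F p X = e4}

/-- an immersion with a field that is transversal off a finite set of nondegenerate zeros -/
structure St (F ν : M → R4) (Z : Set M) (sg : M → Bool) : Prop where
  smF : Sm F
  smν : Sm ν
  imm : Imm F
  fin : Z.Finite
  off : ∀ p, p ∉ Z → ∀ X, ν p ≠ dM F p X
  on : ∀ p ∈ Z, ν p = 0 ∧ ∃ c : Ch M, p ∈ c.e.source ∧
    0 < sgn (sg p) * det4 (du (loc c F) (c.e p)) (dv (loc c F) (c.e p))
      (du (loc c ν) (c.e p)) (dv (loc c ν) (c.e p))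

def cnt (Z : Set M) (sg : M → Bool) (b : Bool) (C : Set M) : ℕ :=
  {p | p ∈ Z ∧ p ∈ C ∧ sg p = b}.ncard

end Vale.Agent.P205
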