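import Vale.Agent.P205.Defs

/-! P205: algebra of the tame class `T`. -/

open scoped ContDiff InnerProductSpace Topology
open Set Filter Real

noncomputable section
namespace Vale.Agent.P205

variable {E F G H : Type} [NormedAddCommGroup E] [NormedSpace ℝ E]
  [NormedAddCommGroup F] [NormedSpace ℝ F] [NormedAddCommGroup G] [NormedSpace ℝ G]
  [NormedAddCommGroup H] [NormedSpace ℝ H] {k : ℕ} {ι : Type} {X : Fam ι E k}
  {σ σ' : ι → E → ℝ}

section BdLevel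
variable {v : Fin k → E} {S S' : Set E} {τ τ' : E → ℝ}

theorem Bd.base {n : ℕ} {f : E → F} (h : Bd v S τ n f) :
    ∀ p ∈ S, ContDiffAt ℝ ∞ f p ∧ ‖f p‖ ≤ τ p := by
  cases n with
  | zero => exact h
  | succ n => exact h.1

theorem Bd.mono {n : ℕ} {f : E → F} (h : Bd v S τ n f) (hS : S' ⊆ S)
    (hτ : ∀ p ∈ S', τ p ≤ τ' p) : Bd v S' τ' n f := by
  induction n generalizing f with
  | zero => exact fun p hp => ⟨(h p (hS hp)).1, (h p (hS hp)).2.trans (hτ p hp)⟩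
  | succ n ih =>
    exact ⟨fun p hp => ⟨(h.1 p (hS hp)).1, (h.1 p (hS hp)).2.trans (hτ p hp)⟩, fun d => ih (h.2 d)⟩

theorem Bd.pred {n : ℕ} {f : E → F} (h : Bd v S τ (n + 1) f) : Bd v S τ n f := by
  induction n generalizing f with
  | zero => exact h.1
  | succ n ih => exact ⟨h.1, fun d => ih (h.2 d)⟩

theorem Bd.congr {n : ℕ} {f g : E → F} (h : Bd v S τ n f) (hg : ∀ p ∈ S, g =ᶠ[𝓝 p] f) :
    Bd v S τ n g := by
  have h0 : ∀ {f g : E → F}, (∀ p ∈ S, ContDiffAt ℝ ∞ f p ∧ ‖f p‖ ≤ τ p) →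
      (∀ p ∈ S, g =ᶠ[𝓝 p] f) → ∀ p ∈ S, ContDiffAt ℝ ∞ g p ∧ ‖g p‖ ≤ τ p :=
    fun h hg p hp => ⟨(h p hp).1.congr_of_eventuallyEq (hg p hp), by
      rw [(hg p hp).eq_of_nhds]
      exact (h p hp).2⟩
  induction n generalizing f g with
  | zero => exact h0 h hg
  | succ n ih =>
    refine ⟨h0 h.1 hg, fun d => ih (h.2 d) fun p hp => ?_⟩
    filter_upwards [(hg p hp).fderiv (𝕜 := ℝ)] with q hq
    rw [hq]

theorem Bd.union {n : ℕ} {f : E → F} {S1 S2 : Set E} (h1 : Bd v S1 τ n f) (h2 : Bd v S2 τ n f)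
    (hS : S ⊆ S1 ∪ S2) : Bd v S τ n f := by
  induction n generalizing f with
  | zero => exact fun p hp => (hS hp).elim (h1 p) (h2 p)
  | succ n ih => exact ⟨fun p hp => (hS hp).elim (h1.1 p) (h2.1 p), fun d => ih (h1.2 d) (h2.2 d)⟩

theorem Bd.const (n : ℕ) (c : F) (hc : ∀ p ∈ S, ‖c‖ ≤ τ p) : Bd v S τ n (fun _ => c) := by
  induction n generalizing c with
  | zero => exact fun p hp => ⟨contDiffAt_const, hc p hp⟩
  | succ n ih =>
    refine ⟨fun p hp => ⟨contDiffAt_const, hc p hp⟩, fun d => ?_⟩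
    simp only [fderiv_fun_const, Pi.zero_apply, zero_apply]
    exact ih 0 fun p hp => by
      rw [norm_zero]
      exact (norm_nonneg c).trans (hc p hp)

theorem Bd.ev_diff {f : E → F} {p : E} (h : ContDiffAt ℝ ∞ f p) :
    ∀ᶠ q in 𝓝 p, DifferentiableAt ℝ f q := by
  have h1 : ContDiffAt ℝ 1 f p := h.of_le (by exact_mod_cast le_top)
  filter_upwards [h1.eventually (by simp)] with q hq
  exact hq.differentiableAt one_ne_zero

theorem Bd.add {n : ℕ} {f g : E → F} (hf : Bd v S τ n f) (hg : Bd v S τ' n g) :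
    Bd v S (fun p => τ p + τ' p) n (fun p => f p + g p) := by
  have h0 : ∀ {n : ℕ} {f g : E → F}, Bd v S τ n f → Bd v S τ' n g →
      ∀ p ∈ S, ContDiffAt ℝ ∞ (fun p => f p + g p) p ∧ ‖f p + g p‖ ≤ τ p + τ' p :=
    fun hf hg p hp => ⟨(hf.base p hp).1.add (hg.base p hp).1,
      (norm_add_le _ _).trans (add_le_add (hf.base p hp).2 (hg.base p hp).2)⟩
  induction n generalizing f g with
  | zero => exact h0 hf hg
  | succ n ih =>
    refine ⟨h0 hf hg, fun d => (ih (hf.2 d) (hg.2 d)).congr fun p hp => ?_⟩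
    filter_upwards [Bd.ev_diff (hf.1 p hp).1, Bd.ev_diff (hg.1 p hp).1] with q h1 h2
    rw [fderiv_fun_add h1 h2, add_apply]

theorem Bd.clm {n : ℕ} {f : E → F} (hf : Bd v S τ n f) (L : F →L[ℝ] G) {c : ℝ} (hc : 0 ≤ c)
    (hL : ∀ x, ‖L x‖ ≤ c * ‖x‖) : Bd v S (fun p => c * τ p) n (fun p => L (f p)) := by
  have h0 : ∀ {n : ℕ} {f : E → F}, Bd v S τ n f →
      ∀ p ∈ S, ContDiffAt ℝ ∞ (fun p => L (f p)) p ∧ ‖L (f p)‖ ≤ c * τ p :=
    fun hf p hp => ⟨L.contDiff.contDiffAt.comp p (hf.base p hp).1,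
      (hL _).trans (mul_le_mul_of_nonneg_left (hf.base p hp).2 hc)⟩
  induction n generalizing f with
  | zero => exact h0 hf
  | succ n ih =>
    refine ⟨h0 hf, fun d => (ih (hf.2 d)).congr fun p hp => ?_⟩
    filter_upwards [Bd.ev_diff (hf.1 p hp).1] with q h1
    exact congrFun (congrArg _ (L.hasFDerivAt.comp q h1.hasFDerivAt).fderiv) _

theorem Bd.bilin {n : ℕ} {f : E → F} {g : E → G} (B : F →L[ℝ] G →L[ℝ] H) (hf : Bd v S τ n f)
    (hg : Bd v S τ' n g) :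
    Bd v S (fun p => 2 ^ n * ‖B‖ * (τ p * τ' p)) n (fun p => B (f p) (g p)) := by
  have h0 : ∀ {n : ℕ} {f : E → F} {g : E → G}, Bd v S τ n f → Bd v S τ' n g →
      ∀ p ∈ S, ContDiffAt ℝ ∞ (fun p => B (f p) (g p)) p ∧
        ‖B (f p) (g p)‖ ≤ 2 ^ n * ‖B‖ * (τ p * τ' p) := by
    intro n f g hf hg p hp
    obtain ⟨a1, a2⟩ := hf.base p hp
    obtain ⟨b1, b2⟩ := hg.base p hp
    refine ⟨(B.contDiff.contDiffAt.comp p a1).clm_apply b1, (B.le_opNorm₂ _ _).trans ?_⟩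
    rw [mul_assoc]
    exact mul_le_mul (le_mul_of_one_le_left B.opNorm_nonneg (one_le_pow₀ one_le_two))
      (mul_le_mul a2 b2 (norm_nonneg _) ((norm_nonneg _).trans a2)) (by positivity)
      (by positivity)
  induction n generalizing f g with
  | zero => exact h0 hf hg
  | succ n ih =>
    refine ⟨h0 hf hg, fun d => (((ih hf.pred (hg.2 d)).add (ih (hf.2 d) hg.pred)).mono
      subset_rfl fun p _ => le_of_eq (by ring)).congr fun p hp => ?_⟩
    filter_upwards [Bd.ev_diff (hf.1 p hp).1, Bd.ev_diff (hg.1 p hp).1] with q h1 h2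
    rw [B.fderiv_of_bilinear h1 h2]
    simp

end BdLevel

theorem T.smooth {f : ι → E → F} (h : T X σ f) (i : ι) {p : E} (hp : p ∈ X.S i) :
    ContDiffAt ℝ ∞ (f i) p := by
  obtain ⟨C, -, hC⟩ := h 0
  exact (hC i p hp).1

theorem T.bound {f : ι → E → F} (h : T X σ f) :
    ∃ C : ℝ, 0 ≤ C ∧ ∀ i, ∀ p ∈ X.S i, ‖f i p‖ ≤ C * σ i p := by
  obtain ⟨C, h0, hC⟩ := h 0
  exact ⟨C, h0, fun i p hp => (hC i p hp).2⟩

theorem T.mono {f : ι → E → F} (h : T X σ f) (C : ℝ) (hC : 0 ≤ C)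
    (hσ : ∀ i, ∀ p ∈ X.S i, σ i p ≤ C * σ' i p) : T X σ' f := by
  intro n
  obtain ⟨C', h0, h1⟩ := h n
  refine ⟨C' * C, mul_nonneg h0 hC, fun i => (h1 i).mono subset_rfl fun p hp => ?_⟩
  rw [mul_assoc]
  exact mul_le_mul_of_nonneg_left (hσ i p hp) h0

theorem T.congr {f g : ι → E → F} (h : T X σ f)
    (hg : ∀ i, ∀ p ∈ X.S i, g i =ᶠ[𝓝 p] f i) : T X σ g := by
  intro n
  obtain ⟨C, h0, h1⟩ := h n
  exact ⟨C, h0, fun i => (h1 i).congr (hg i)⟩

theorem T.congr_open {f g : ι → E → F} (h : T X σ f) (ho : ∀ i, IsOpen (X.S i))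
    (hg : ∀ i, ∀ p ∈ X.S i, g i p = f i p) : T X σ g := by
  refine h.congr fun i p hp => ?_
  filter_upwards [(ho i).mem_nhds hp] with q hq
  exact hg i q hq

theorem T.const (c : ι → F) (hc : ∀ i, ∀ p ∈ X.S i, ‖c i‖ ≤ σ i p) :
    T X σ (fun i _ => c i) := by
  exact fun n => ⟨1, zero_le_one, fun i => Bd.const n _ fun p hp => by
    rw [one_mul]
    exact hc i p hp⟩

theorem T.add {f g : ι → E → F} (hf : T X σ f) (hg : T X σ g) :
    T X σ (fun i p => f i p + g i p) := by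
  intro n
  obtain ⟨C, h0, h1⟩ := hf n
  obtain ⟨C', k0, k1⟩ := hg n
  exact ⟨C + C', add_nonneg h0 k0, fun i => ((h1 i).add (k1 i)).mono subset_rfl
    fun p _ => le_of_eq (by ring)⟩

theorem T.neg {f : ι → E → F} (hf : T X σ f) : T X σ (fun i p => -f i p) := by
  intro n
  obtain ⟨C, h0, h1⟩ := hf n
  exact ⟨C, h0, fun i => ((h1 i).clm (-ContinuousLinearMap.id ℝ F) zero_le_one
    (by simp)).mono subset_rfl fun p _ => le_of_eq (one_mul _)⟩

theorem T.sub {f g : ι → E → F} (hf : T X σ f) (hg : T X σ g) :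
    T X σ (fun i p => f i p - g i p) := by
  simpa only [sub_eq_add_neg] using hf.add hg.neg

theorem T.clm {f : ι → E → F} (hf : T X σ f) (L : F →L[ℝ] G) :
    T X σ (fun i p => L (f i p)) := by
  intro n
  obtain ⟨C, h0, h1⟩ := hf n
  exact ⟨‖L‖ * C, mul_nonneg (norm_nonneg _) h0, fun i => ((h1 i).clm L (norm_nonneg _)
    L.le_opNorm).mono subset_rfl fun p _ => le_of_eq (by ring)⟩

theorem T.const_smul {f : ι → E → F} (hf : T X σ f) (c : ℝ) :
    T X σ (fun i p => c • f i p) := by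
  exact hf.clm (c • ContinuousLinearMap.id ℝ F)

theorem T.const_mul {f : ι → E → ℝ} (hf : T X σ f) (c : ℝ) :
    T X σ (fun i p => c * f i p) := by
  exact hf.const_smul c

theorem T.sum {J : Type} (s : Finset J) {f : J → ι → E → F} (hf : ∀ j ∈ s, T X σ (f j))
    (hσ : ∀ i, ∀ p ∈ X.S i, 0 ≤ σ i p) : T X σ (fun i p => ∑ j ∈ s, f j i p) := by
  classical
  induction s using Finset.induction_on with
  | empty => exact T.const (fun _ => (0 : F)) fun i p hp => by simpa using hσ i p hp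
  | insert a s ha ih =>
    simp only [Finset.sum_insert ha]
    exact (hf a (Finset.mem_insert_self _ _)).add
      (ih fun j hj => hf j (Finset.mem_insert_of_mem hj))

theorem T.bilin {f : ι → E → F} {g : ι → E → G} (B : F →L[ℝ] G →L[ℝ] H)
    (hf : T X σ f) (hg : T X σ' g) :
    T X (fun i p => σ i p * σ' i p) (fun i p => B (f i p) (g i p)) := by
  intro n
  obtain ⟨C, h0, h1⟩ := hf n
  obtain ⟨C', k0, k1⟩ := hg n
  exact ⟨2 ^ n * ‖B‖ * (C * C'), by positivity, fun i => (Bd.bilin B (h1 i) (k1 i)).mono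
    subset_rfl fun p _ => le_of_eq (by ring)⟩

theorem T.mul {f g : ι → E → ℝ} (hf : T X σ f) (hg : T X σ' g) :
    T X (fun i p => σ i p * σ' i p) (fun i p => f i p * g i p) := by
  exact T.bilin (ContinuousLinearMap.mul ℝ ℝ) hf hg

theorem T.smul {f : ι → E → ℝ} {g : ι → E → F} (hf : T X σ f) (hg : T X σ' g) :
    T X (fun i p => σ i p * σ' i p) (fun i p => f i p • g i p) := by
  exact T.bilin (ContinuousLinearMap.lsmul ℝ ℝ) hf hg

theorem T.inner {f g : ι → E → R4} (hf : T X σ f) (hg : T X σ' g) :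
    T X (fun i p => σ i p * σ' i p) (fun i p => ⟪f i p, g i p⟫_ℝ) := by
  exact T.bilin (innerSL ℝ) hf hg

theorem T.pow {f : ι → E → ℝ} (hf : T X σ f) (n : ℕ) :
    T X (fun i p => σ i p ^ n) (fun i p => f i p ^ n) := by
  induction n with
  | zero => exact T.const (fun _ => (1 : ℝ)) fun i p _ => by simp
  | succ n ih =>
    simp only [pow_succ]
    exact ih.mul hf

theorem T.fam_smul {f : ι → E → F} (hf : T X σ f) (c : ι → ℝ) :
    T X (fun i p => |c i| * σ i p) (fun i p => c i • f i p) := by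
  intro n
  obtain ⟨C, h0, h1⟩ := hf n
  exact ⟨C, h0, fun i => ((h1 i).clm (c i • ContinuousLinearMap.id ℝ F) (abs_nonneg (c i))
    (fun x => by simp [norm_smul])).mono subset_rfl fun p _ => le_of_eq (by ring)⟩

theorem T.prod {f : ι → E → F} {g : ι → E → G} (hf : T X σ f) (hg : T X σ g) :
    T X σ (fun i p => (f i p, g i p)) := by
  simpa using (hf.clm (ContinuousLinearMap.inl ℝ F G)).add (hg.clm (ContinuousLinearMap.inr ℝ F G))

theorem T.deriv {f : ι → E → F} (hf : T X σ f) (d : Fin k) :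
    T X σ (fun i p => fderiv ℝ (f i) p (X.v i d)) := by
  intro n
  obtain ⟨C, h0, h1⟩ := hf (n + 1)
  exact ⟨C, h0, fun i => (h1 i).2 d⟩

theorem T.of_deriv {f : ι → E → F} (C : ℝ) (hC : 0 ≤ C)
    (h0 : ∀ i, ∀ p ∈ X.S i, ContDiffAt ℝ ∞ (f i) p ∧ ‖f i p‖ ≤ C * σ i p)
    (hσ : ∀ i, ∀ p ∈ X.S i, 0 ≤ σ i p)
    (hd : ∀ d, T X σ (fun i p => fderiv ℝ (f i) p (X.v i d))) : T X σ f := by
  intro n
  cases n with
  | zero => exact ⟨C, hC, h0⟩
  | succ n =>
    choose c c0 c1 using fun d => hd d n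
    have h1 : 0 ≤ ∑ d, c d := Finset.sum_nonneg fun d _ => c0 d
    refine ⟨C + ∑ d, c d, add_nonneg hC h1, fun i => ⟨fun p hp => ⟨(h0 i p hp).1,
      (h0 i p hp).2.trans (mul_le_mul_of_nonneg_right (by linarith) (hσ i p hp))⟩,
      fun d => (c1 d i).mono subset_rfl fun p hp => mul_le_mul_of_nonneg_right ?_ (hσ i p hp)⟩⟩
    have := Finset.single_le_sum (f := c) (fun d _ => c0 d) (Finset.mem_univ d)
    linarith

theorem T.subset {f : ι → E → F} (hf : T X σ f) (S' : ι → Set E) (hS : ∀ i, S' i ⊆ X.S i) :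
    T ⟨X.v, S'⟩ σ f := by
  intro n
  obtain ⟨C, h0, h1⟩ := hf n
  exact ⟨C, h0, fun i => (h1 i).mono (hS i) fun _ _ => le_rfl⟩

theorem T.union {f : ι → E → F} (S1 S2 : ι → Set E) (h1 : T ⟨X.v, S1⟩ σ f)
    (h2 : T ⟨X.v, S2⟩ σ f) (hS : ∀ i, X.S i ⊆ S1 i ∪ S2 i)
    (hσ : ∀ i, ∀ p ∈ X.S i, 0 ≤ σ i p) : T X σ f := by
  intro n
  obtain ⟨C, h0, h3⟩ := h1 n
  obtain ⟨C', k0, k3⟩ := h2 n
  refine ⟨C + C', add_nonneg h0 k0, fun i => Bd.union (S1 := X.S i ∩ S1 i) (S2 := X.S i ∩ S2 i)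
    ((h3 i).mono inter_subset_right fun p hp =>
      mul_le_mul_of_nonneg_right (by linarith) (hσ i p hp.1))
    ((k3 i).mono inter_subset_right fun p hp =>
      mul_le_mul_of_nonneg_right (by linarith) (hσ i p hp.1)) fun p hp => ?_⟩
  exact (hS i hp).imp (fun h => ⟨hp, h⟩) fun h => ⟨hp, h⟩

theorem T.reindex {ι' : Type} {f : ι → E → F} (hf : T X σ f) (φ : ι' → ι) :
    T ⟨fun j => X.v (φ j), fun j => X.S (φ j)⟩ (fun j => σ (φ j)) (fun j => f (φ j)) := by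
  intro n
  obtain ⟨C, h0, h1⟩ := hf n
  exact ⟨C, h0, fun j => h1 (φ j)⟩

end Vale.Agent.P205
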