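import Vale.Agent.P205.Tame1

/-! P205: composition, functions with bounded derivatives, logarithmically tame functions. -/

open scoped ContDiff InnerProductSpace Topology
open Set Filter Real

noncomputable section
namespace Vale.Agent.P205

variable {E F G H : Type} [NormedAddCommGroup E] [NormedSpace ℝ E]
  [NormedAddCommGroup F] [NormedSpace ℝ F] [NormedAddCommGroup G] [NormedSpace ℝ G]
  [NormedAddCommGroup H] [NormedSpace ℝ H] {k : ℕ} {ι : Type} {X : Fam ι E k}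
  {σ σ' : ι → E → ℝ}

namespace Tame2Aux

variable {v : Fin k → E} {S : Set E} {τ τ' : E → ℝ}

theorem base : ∀ {n : ℕ} {f : E → F}, Bd v S τ n f → ∀ p ∈ S, ContDiffAt ℝ ∞ f p ∧ ‖f p‖ ≤ τ p
  | 0, _, h => h
  | _ + 1, _, h => h.1

theorem mono (hτ : ∀ p ∈ S, τ p ≤ τ' p) : ∀ {n : ℕ} {f : E → F}, Bd v S τ n f → Bd v S τ' n f
  | 0, _, h => fun p hp => ⟨(h p hp).1, (h p hp).2.trans (hτ p hp)⟩
  | _ + 1, _, h => ⟨fun p hp => ⟨(h.1 p hp).1, (h.1 p hp).2.trans (hτ p hp)⟩,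
      fun d => mono hτ (h.2 d)⟩

theorem pred : ∀ {n : ℕ} {f : E → F}, Bd v S τ (n + 1) f → Bd v S τ n f
  | 0, _, h => h.1
  | _ + 1, _, h => ⟨h.1, fun d => pred (h.2 d)⟩

theorem congr : ∀ {n : ℕ} {f g : E → F}, Bd v S τ n f → (∀ p ∈ S, g =ᶠ[𝓝 p] f) → Bd v S τ n g
  | 0, _, _, h, e => fun p hp =>
      ⟨(h p hp).1.congr_of_eventuallyEq (e p hp), (e p hp).eq_of_nhds ▸ (h p hp).2⟩
  | _ + 1, _, _, h, e => ⟨fun p hp =>
      ⟨(h.1 p hp).1.congr_of_eventuallyEq (e p hp), (e p hp).eq_of_nhds ▸ (h.1 p hp).2⟩,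
      fun d => congr (h.2 d) fun p hp =>
        ((e p hp).fderiv (𝕜 := ℝ)).mono fun _ hq => congrArg (· (v d)) hq⟩

theorem ev_diff {f : E → F} {p : E} (h : ContDiffAt ℝ ∞ f p) :
    ∀ᶠ q in 𝓝 p, DifferentiableAt ℝ f q :=
  ((h.of_le (m := 1) (by exact_mod_cast le_top)).eventually (by simp)).mono fun _ hq =>
    hq.differentiableAt one_ne_zero

theorem add : ∀ {n : ℕ} {f g : E → F}, Bd v S τ n f → Bd v S τ' n g →
    Bd v S (fun p => τ p + τ' p) n fun p => f p + g p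
  | 0, _, _, h, h' => fun p hp => ⟨(h p hp).1.add (h' p hp).1,
      (norm_add_le _ _).trans (add_le_add (h p hp).2 (h' p hp).2)⟩
  | _ + 1, _, _, h, h' => ⟨fun p hp => ⟨(h.1 p hp).1.add (h'.1 p hp).1,
      (norm_add_le _ _).trans (add_le_add (h.1 p hp).2 (h'.1 p hp).2)⟩,
      fun d => congr (add (h.2 d) (h'.2 d)) fun p hp => by
        filter_upwards [ev_diff (h.1 p hp).1, ev_diff (h'.1 p hp).1] with q h1 h2
        rw [fderiv_fun_add h1 h2]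
        rfl⟩

theorem bilin0 (B : F →L[ℝ] G →L[ℝ] H) {f : E → F} {g : E → G} {p : E} {a b : ℝ}
    (h : ContDiffAt ℝ ∞ f p ∧ ‖f p‖ ≤ a) (h' : ContDiffAt ℝ ∞ g p ∧ ‖g p‖ ≤ b) (n : ℕ) :
    ContDiffAt ℝ ∞ (fun q => B (f q) (g q)) p ∧ ‖B (f p) (g p)‖ ≤ 2 ^ n * ‖B‖ * (a * b) := by
  refine ⟨(B.contDiff.contDiffAt.comp p h.1).clm_apply h'.1, (B.le_opNorm₂ _ _).trans ?_⟩
  have h1 : ‖f p‖ * ‖g p‖ ≤ a * b := mul_le_mul h.2 h'.2 (norm_nonneg _) ((norm_nonneg _).trans h.2)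
  have h2 : ‖B‖ ≤ 2 ^ n * ‖B‖ := le_mul_of_one_le_left B.opNorm_nonneg (one_le_pow₀ one_le_two)
  rw [mul_assoc]
  exact mul_le_mul h2 h1 (by positivity) (by positivity)

theorem bilin (B : F →L[ℝ] G →L[ℝ] H) : ∀ {n : ℕ} {f : E → F} {g : E → G}, Bd v S τ n f →
    Bd v S τ' n g → Bd v S (fun p => 2 ^ n * ‖B‖ * (τ p * τ' p)) n fun p => B (f p) (g p)
  | 0, _, _, h, h' => fun p hp => bilin0 B (h p hp) (h' p hp) 0
  | n + 1, _, _, h, h' => ⟨fun p hp => bilin0 B (h.1 p hp) (h'.1 p hp) (n + 1), fun d =>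
      congr (mono (fun p _ => le_of_eq (by ring))
        (add (bilin B (pred h) (h'.2 d)) (bilin B (h.2 d) (pred h')))) fun p hp => by
        filter_upwards [ev_diff (h.1 p hp).1, ev_diff (h'.1 p hp).1] with q h1 h2
        rw [B.fderiv_of_bilinear h1 h2]
        rfl⟩

/-- The tame class up to a given order. -/
def Tn (X : Fam ι E k) (σ : ι → E → ℝ) (n : ℕ) (f : ι → E → F) : Prop :=
  ∃ C : ℝ, 0 ≤ C ∧ ∀ i, Bd (X.v i) (X.S i) (fun p => C * σ i p) n (f i)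

theorem Tn.succ {n : ℕ} {f : ι → E → F} (h0 : Tn X σ 0 f) (hσ : ∀ i, ∀ p ∈ X.S i, 0 ≤ σ i p)
    (hd : ∀ d, Tn X σ n fun i p => fderiv ℝ (f i) p (X.v i d)) : Tn X σ (n + 1) f := by
  obtain ⟨C, hC, h0⟩ := h0
  choose D hD hd using hd
  have h1 : 0 ≤ ∑ d, D d := Finset.sum_nonneg fun d _ => hD d
  refine ⟨C + ∑ d, D d, by positivity, fun i => ⟨fun p hp => ⟨(h0 i p hp).1, (h0 i p hp).2.trans
    (mul_le_mul_of_nonneg_right (by linarith) (hσ i p hp))⟩, fun d => mono (fun p hp =>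
      mul_le_mul_of_nonneg_right ?_ (hσ i p hp)) (hd d i)⟩⟩
  linarith [Finset.single_le_sum (fun d _ => hD d) (Finset.mem_univ d)]

theorem Tn.bilin (B : F →L[ℝ] G →L[ℝ] H) {n : ℕ} {f : ι → E → F} {g : ι → E → G}
    {f' : ι → E → H} {σ'' : ι → E → ℝ} (h : Tn X σ n f) (h' : Tn X σ' n g)
    (hσ : ∀ i, ∀ p ∈ X.S i, σ i p * σ' i p = σ'' i p)
    (e : ∀ i, ∀ p ∈ X.S i, f' i =ᶠ[𝓝 p] fun q => B (f i q) (g i q)) : Tn X σ'' n f' := by
  obtain ⟨C, hC, h⟩ := h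
  obtain ⟨C', hC', h'⟩ := h'
  refine ⟨2 ^ n * ‖B‖ * (C * C'), by positivity, fun i => congr (mono (fun p hp => le_of_eq ?_)
    (Tame2Aux.bilin B (h i) (h' i))) (e i)⟩
  rw [← hσ i p hp]
  ring

theorem bdOn_fderiv {Φ : G → H} {K : Set G} (h : BdOn Φ K) : BdOn (fderiv ℝ Φ) K := fun n => by
  obtain ⟨C, hC⟩ := h (n + 1)
  refine ⟨C, fun y hy => ⟨(hC y hy).1.fderiv_right (m := ∞) (by simp), ?_⟩⟩
  rw [norm_iteratedFDeriv_fderiv]
  exact (hC y hy).2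

theorem comp0 {Φ : G → H} {K : Set G} (hΦ : BdOn Φ K) {g : ι → E → G}
    (hK : ∀ i, ∀ p ∈ X.S i, g i p ∈ K) (hs : ∀ i, ∀ p ∈ X.S i, ContDiffAt ℝ ∞ (g i) p) :
    Tn X (fun _ _ => 1) 0 fun i p => Φ (g i p) := by
  obtain ⟨C, hC⟩ := hΦ 0
  refine ⟨max C 0, le_max_right _ _, fun i p hp => ⟨(hC _ (hK i p hp)).1.comp p (hs i p hp), ?_⟩⟩
  have h := (hC _ (hK i p hp)).2
  rw [norm_iteratedFDeriv_zero] at h
  exact (h.trans (le_max_left _ _)).trans_eq (mul_one _).symm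

theorem comp {K : Set G} {g : ι → E → G}
    (hK : ∀ i, ∀ p ∈ X.S i, g i p ∈ K) (hs : ∀ i, ∀ p ∈ X.S i, ContDiffAt ℝ ∞ (g i) p)
    (hd : ∀ d, T X (fun _ _ => 1) (fun i p => fderiv ℝ (g i) p (X.v i d))) (n : ℕ) :
    ∀ {H : Type} [NormedAddCommGroup H] [NormedSpace ℝ H] {Φ : G → H}, BdOn Φ K →
      Tn X (fun _ _ => 1) n fun i p => Φ (g i p) := by
  induction n with
  | zero => exact fun hΦ => comp0 hΦ hK hs
  | succ n ih =>
    intro H _ _ Φ hΦ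
    refine (comp0 hΦ hK hs).succ (fun _ _ _ => zero_le_one) fun d =>
      (ih (bdOn_fderiv hΦ)).bilin (ContinuousLinearMap.id ℝ (G →L[ℝ] H)) (hd d n)
        (fun _ _ _ => mul_one _) fun i p hp => ?_
    obtain ⟨C, hC⟩ := hΦ 0
    filter_upwards [ev_diff (hs i p hp),
      (hs i p hp).continuousAt.eventually (ev_diff (hC _ (hK i p hp)).1)] with q h1 h2
    rw [fderiv_fun_comp q h2 h1]
    rfl

theorem rpow0 {f : ι → E → ℝ} (hf : LT X f) (s : ℝ) :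
    Tn X (fun i p => f i p ^ s) 0 fun i p => f i p ^ s :=
  ⟨1, zero_le_one, fun i p hp => ⟨(hf.2.smooth i hp).rpow_const_of_ne (hf.1 i p hp).ne',
    ((Real.norm_of_nonneg (rpow_nonneg (hf.1 i p hp).le s)).trans (one_mul _).symm).le⟩⟩

theorem rpow {f : ι → E → ℝ} (hf : LT X f) (n : ℕ) :
    ∀ s : ℝ, Tn X (fun i p => f i p ^ s) n fun i p => f i p ^ s := by
  induction n with
  | zero => exact rpow0 hf
  | succ n ih =>
    intro s
    refine (rpow0 hf s).succ (fun i p hp => rpow_nonneg (hf.1 i p hp).le s) fun d =>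
      (ih (s - 1)).bilin (s • ContinuousLinearMap.mul ℝ ℝ) (hf.2.deriv d n)
        (fun i p hp => ?_) fun i p hp => ?_
    · rw [rpow_sub_one (hf.1 i p hp).ne', div_mul_cancel₀ _ (hf.1 i p hp).ne']
    · filter_upwards [ev_diff (hf.2.smooth i hp),
        (hf.2.smooth i hp).continuousAt.eventually_ne (hf.1 i p hp).ne'] with q h1 h2
      rw [(h1.hasFDerivAt.rpow_const (p := s) (Or.inl h2)).fderiv]
      simp [mul_assoc]

theorem norm_const_le (c : H) (n : ℕ) (x : G) : ‖iteratedFDeriv ℝ n (fun _ : G => c) x‖ ≤ ‖c‖ := by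
  rcases eq_or_ne n 0 with rfl | h
  · exact norm_iteratedFDeriv_zero.le
  · rw [iteratedFDeriv_const_of_ne h]
    simp

open Polynomial in
theorem glue_deriv (n : ℕ) : ∃ p : ℝ[X],
    iteratedDeriv n expNegInvGlue = fun x => p.eval x⁻¹ * expNegInvGlue x := by
  induction n with
  | zero => exact ⟨1, by simp⟩
  | succ n ih =>
    obtain ⟨p, hp⟩ := ih
    refine ⟨Polynomial.X ^ 2 * (p - derivative p), funext fun x => ?_⟩
    rw [iteratedDeriv_succ, hp]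
    exact (expNegInvGlue.hasDerivAt_polynomial_eval_inv_mul p x).deriv

theorem shift {Φ : G → H} {y c : G} (h : ∀ᶠ z in 𝓝 y, Φ (z + c) = Φ z) (n : ℕ) :
    iteratedFDeriv ℝ n Φ (y + c) = iteratedFDeriv ℝ n Φ y := by
  rw [← iteratedFDeriv_comp_add_right]
  exact (Filter.EventuallyEq.iteratedFDeriv ℝ h n).eq_of_nhds

end Tame2Aux

/-- Induct on the order, generalizing `H` and `Φ`: the derivative of `Φ ∘ g` along `v` is
`(fderiv Φ ∘ g) (fderiv g v)` and `fderiv Φ` again satisfies `BdOn`. Note that `g` itself need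
not be bounded. -/
theorem T.comp {Φ : G → H} {K : Set G} (hΦ : BdOn Φ K) {g : ι → E → G}
    (hK : ∀ i, ∀ p ∈ X.S i, g i p ∈ K) (hs : ∀ i, ∀ p ∈ X.S i, ContDiffAt ℝ ∞ (g i) p)
    (hd : ∀ d, T X (fun _ _ => 1) (fun i p => fderiv ℝ (g i) p (X.v i d))) :
    T X (fun _ _ => 1) (fun i p => Φ (g i p)) := by
  exact fun n => Tame2Aux.comp hK hs hd n hΦ

theorem T.comp' {Φ : G → H} {K : Set G} (hΦ : BdOn Φ K) {g : ι → E → G}
    (hK : ∀ i, ∀ p ∈ X.S i, g i p ∈ K) (hg : T X (fun _ _ => 1) g) :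
    T X (fun _ _ => 1) (fun i p => Φ (g i p)) := by
  exact T.comp hΦ hK (fun i _ hp => hg.smooth i hp) hg.deriv

theorem BdOn.mono {Φ : G → H} {K K' : Set G} (h : BdOn Φ K) (hK : K' ⊆ K) : BdOn Φ K' := by
  exact fun n => (h n).imp fun _ hC y hy => hC y (hK hy)

theorem BdOn.fderiv {Φ : G → H} {K : Set G} (h : BdOn Φ K) : BdOn (fderiv ℝ Φ) K := by
  exact Tame2Aux.bdOn_fderiv h

theorem BdOn.of_compact {Φ : G → H} {K : Set G} (hK : IsCompact K)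
    (h : ∀ y ∈ K, ContDiffAt ℝ ∞ Φ y) : BdOn Φ K := by
  intro n
  obtain ⟨C, hC⟩ := hK.exists_bound_of_continuousOn (f := iteratedFDeriv ℝ n Φ) fun y hy =>
    ((h y hy).continuousAt_iteratedFDeriv (by exact_mod_cast le_top)).continuousWithinAt
  exact ⟨C, fun y hy => ⟨h y hy, hC y hy⟩⟩

theorem BdOn.periodic {Φ : G × ℝ × ℝ → H} {O K : Set G} (hO : IsOpen O) (hK : IsCompact K)
    (hKO : K ⊆ O) (hΦ : ContDiffOn ℝ ∞ Φ (O ×ˢ univ))
    (h1 : ∀ q ∈ O, ∀ θ t, Φ (q, θ + 2 * π, t) = Φ (q, θ, t))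
    (h2 : ∀ q ∈ O, ∀ θ t, Φ (q, θ, t + 2 * π) = Φ (q, θ, t)) : BdOn Φ (K ×ˢ univ) := by
  have ho : IsOpen (O ×ˢ (univ : Set (ℝ × ℝ))) := hO.prod isOpen_univ
  have hs : ∀ y : G × ℝ × ℝ, y.1 ∈ K → ContDiffAt ℝ ∞ Φ y := fun y hy =>
    hΦ.contDiffAt (ho.mem_nhds ⟨hKO hy, trivial⟩)
  intro n
  obtain ⟨C, hC⟩ := BdOn.of_compact (Φ := Φ) (hK.prod ((isCompact_Icc (a := 0) (b := 2 * π)).prod
    (isCompact_Icc (a := 0) (b := 2 * π)))) (fun y hy => hs y hy.1) n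
  refine ⟨C, ?_⟩
  rintro ⟨q, θ, t⟩ ⟨hq, -⟩
  refine ⟨hs _ hq, ?_⟩
  have p1 : Function.Periodic (fun θ => iteratedFDeriv ℝ n Φ (q, θ, t)) (2 * π) := fun θ => by
    have := Tame2Aux.shift (Φ := Φ) (y := (q, θ, t)) (c := (0, 2 * π, 0)) (by
      filter_upwards [ho.mem_nhds (show (q, θ, t) ∈ O ×ˢ univ from ⟨hKO hq, trivial⟩)] with z hz
      simpa [Prod.add_def] using h1 z.1 hz.1 z.2.1 z.2.2) n
    simpa using this
  obtain ⟨θ', hθ, e1⟩ := p1.exists_mem_Ico₀ two_pi_pos θ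
  have p2 : Function.Periodic (fun t => iteratedFDeriv ℝ n Φ (q, θ', t)) (2 * π) := fun t => by
    have := Tame2Aux.shift (Φ := Φ) (y := (q, θ', t)) (c := (0, 0, 2 * π)) (by
      filter_upwards [ho.mem_nhds (show (q, θ', t) ∈ O ×ˢ univ from ⟨hKO hq, trivial⟩)] with z hz
      simpa [Prod.add_def] using h2 z.1 hz.1 z.2.1 z.2.2) n
    simpa using this
  obtain ⟨t', ht, e2⟩ := p2.exists_mem_Ico₀ two_pi_pos t
  rw [e1.trans e2]
  exact (hC (q, θ', t') ⟨hq, Ico_subset_Icc_self hθ, Ico_subset_Icc_self ht⟩).2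

theorem bdOn_cos : BdOn Real.cos univ := by
  refine fun n => ⟨1, fun y _ => ⟨contDiff_cos.contDiffAt, ?_⟩⟩
  rw [norm_iteratedFDeriv_eq_norm_iteratedDeriv]
  exact abs_iteratedDeriv_cos_le_one n y

theorem bdOn_sin : BdOn Real.sin univ := by
  refine fun n => ⟨1, fun y _ => ⟨contDiff_sin.contDiffAt, ?_⟩⟩
  rw [norm_iteratedFDeriv_eq_norm_iteratedDeriv]
  exact abs_iteratedDeriv_sin_le_one n y

theorem bdOn_expNegInvGlue : BdOn expNegInvGlue univ := by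
  intro n
  obtain ⟨p, hp⟩ := Tame2Aux.glue_deriv n
  obtain ⟨C, hC⟩ := BdOn.of_compact (Φ := expNegInvGlue) (isCompact_Icc (a := 0) (b := 1))
    (fun y _ => expNegInvGlue.contDiff.contDiffAt) n
  obtain ⟨D, hD⟩ := (isCompact_Icc (a := (0 : ℝ)) (b := 1)).exists_bound_of_continuousOn
    p.continuous.continuousOn
  have hD0 : 0 ≤ D := (norm_nonneg _).trans (hD 0 ⟨le_rfl, zero_le_one⟩)
  refine ⟨max C D, fun y _ => ⟨expNegInvGlue.contDiff.contDiffAt, ?_⟩⟩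
  rcases le_total y 0 with h0 | h0
  · rw [norm_iteratedFDeriv_eq_norm_iteratedDeriv, hp]
    simp [expNegInvGlue.zero_of_nonpos h0, hD0]
  rcases le_total y 1 with h1 | h1
  · exact (hC y ⟨h0, h1⟩).2.trans (le_max_left _ _)
  · rw [norm_iteratedFDeriv_eq_norm_iteratedDeriv, hp, norm_mul]
    refine le_trans ?_ (le_max_right _ _)
    have h2 : ‖expNegInvGlue y‖ ≤ 1 := by
      rw [Real.norm_of_nonneg (expNegInvGlue.nonneg y), expNegInvGlue, if_neg (by linarith)]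
      exact exp_le_one_iff.2 (neg_nonpos.2 (inv_nonneg.2 h0))
    exact (mul_le_of_le_one_right (norm_nonneg _) h2).trans
      (hD _ ⟨inv_nonneg.2 h0, inv_le_one_of_one_le₀ h1⟩)

theorem bdOn_smoothTransition : BdOn Real.smoothTransition univ := by
  intro n
  obtain ⟨C, hC⟩ := BdOn.of_compact (Φ := smoothTransition) (isCompact_Icc (a := 0) (b := 1))
    (fun y _ => smoothTransition.contDiffAt) n
  refine ⟨max C 1, fun y _ => ⟨smoothTransition.contDiffAt, ?_⟩⟩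
  rcases lt_or_ge y 0 with h0 | h0
  · have e : smoothTransition =ᶠ[𝓝 y] fun _ => 0 :=
      (eventually_lt_nhds h0).mono fun _ hz => smoothTransition.zero_of_nonpos hz.le
    rw [(e.iteratedFDeriv ℝ n).eq_of_nhds]
    exact (Tame2Aux.norm_const_le _ n y).trans (by simp)
  rcases le_or_gt y 1 with h1 | h1
  · exact (hC y ⟨h0, h1⟩).2.trans (le_max_left _ _)
  · have e : smoothTransition =ᶠ[𝓝 y] fun _ => 1 :=
      (eventually_gt_nhds h1).mono fun _ hz => smoothTransition.one_of_one_le hz.le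
    rw [(e.iteratedFDeriv ℝ n).eq_of_nhds]
    exact (Tame2Aux.norm_const_le _ n y).trans (by simp)

theorem LT.pos {f : ι → E → ℝ} (h : LT X f) (i : ι) {p : E} (hp : p ∈ X.S i) : 0 < f i p :=
  h.1 i p hp

theorem LT.of_T {f : ι → E → ℝ} (h : T X σ f) (hp : ∀ i, ∀ p ∈ X.S i, 0 < f i p) (C : ℝ)
    (hC : 0 ≤ C) (hσ : ∀ i, ∀ p ∈ X.S i, σ i p ≤ C * f i p) : LT X f := by
  exact ⟨hp, h.mono C hC hσ⟩

theorem LT.const (c : ι → ℝ) (hc : ∀ i, 0 < c i) : LT X (fun i _ => c i) := by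
  exact ⟨fun i _ _ => hc i, T.const c fun i _ _ => (Real.norm_of_nonneg (hc i).le).le⟩

theorem LT.congr_open {f g : ι → E → ℝ} (h : LT X f) (ho : ∀ i, IsOpen (X.S i))
    (hg : ∀ i, ∀ p ∈ X.S i, g i p = f i p) : LT X g := by
  exact ⟨fun i p hp => hg i p hp ▸ h.1 i p hp, (h.2.congr_open ho hg).mono 1 zero_le_one
    fun i p hp => by rw [one_mul, hg i p hp]⟩

theorem LT.mul {f g : ι → E → ℝ} (hf : LT X f) (hg : LT X g) :
    LT X (fun i p => f i p * g i p) := by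
  exact ⟨fun i p hp => mul_pos (hf.1 i p hp) (hg.1 i p hp), hf.2.mul hg.2⟩

theorem LT.add {f g : ι → E → ℝ} (hf : LT X f) (hg : LT X g) :
    LT X (fun i p => f i p + g i p) := by
  exact ⟨fun i p hp => add_pos (hf.1 i p hp) (hg.1 i p hp),
    (hf.2.mono 1 zero_le_one fun i p hp => by linarith [hg.1 i p hp]).add
      (hg.2.mono 1 zero_le_one fun i p hp => by linarith [hf.1 i p hp])⟩

/-- Induct on the order for all exponents at once: the derivative of `f ^ s` is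
`s f ^ (s - 1) f'`. -/
theorem LT.rpow {f : ι → E → ℝ} (hf : LT X f) (s : ℝ) : LT X (fun i p => f i p ^ s) := by
  exact ⟨fun i p hp => rpow_pos_of_pos (hf.1 i p hp) s, fun n => Tame2Aux.rpow hf n s⟩

theorem LT.inv {f : ι → E → ℝ} (hf : LT X f) : LT X (fun i p => (f i p)⁻¹) := by
  simpa only [rpow_neg_one] using hf.rpow (-1)

theorem LT.sqrt {f : ι → E → ℝ} (hf : LT X f) : LT X (fun i p => √(f i p)) := by
  simpa only [sqrt_eq_rpow] using hf.rpow (1 / 2)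

theorem LT.div {f g : ι → E → ℝ} (hf : LT X f) (hg : LT X g) :
    LT X (fun i p => f i p / g i p) := by
  simpa only [div_eq_mul_inv] using hf.mul hg.inv

theorem LT.pow {f : ι → E → ℝ} (hf : LT X f) (n : ℕ) : LT X (fun i p => f i p ^ n) := by
  exact ⟨fun i p hp => pow_pos (hf.1 i p hp) n, hf.2.pow n⟩

theorem T.div_LT {f g : ι → E → ℝ} (hf : T X σ f) (hg : LT X g) :
    T X (fun i p => σ i p / g i p) (fun i p => f i p / g i p) := by
  simpa only [div_eq_mul_inv] using hf.mul hg.inv.2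

theorem T.inv_smul_LT {f : ι → E → F} {g : ι → E → ℝ} (hf : T X σ f) (hg : LT X g) :
    T X (fun i p => σ i p / g i p) (fun i p => (g i p)⁻¹ • f i p) := by
  simpa only [div_eq_inv_mul] using hg.inv.2.smul hf

end Vale.Agent.P205
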