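import Vale.Agent.P205.WKB4

/-! P205: the asymptotic expansion (see BLUEPRINT, module C). -/

open scoped ContDiff InnerProductSpace Topology
open Set Filter Real

noncomputable section
namespace Vale.Agent.P205
namespace WKB

variable {ι : Type} {X : WKB ι} {a b c d N j : ℕ} {Z Y : ι → P3 → R4}

theorem mean_ibp (hY : X.H a b c Y)
    (h0 : ∀ i, ∀ x ∈ X.U i, ∀ t, tmean (fun z => ⟪pt (Y i) z, X.W i z⟫_ℝ) (x, t) = 0)
    (i : ι) {x : P2} (hx : x ∈ X.U i) (t : ℝ) :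
    tmean (fun z => ⟪pu (Y i) z, pt (X.W i) z⟫_ℝ) (x, t)
      = tmean (fun z => ⟪pu (X.W i) z, pt (Y i) z⟫_ℝ) (x, t) := by
  have h1 := (hY.hu.inn X.HW).mean_pt i hx t
  have h2 := (hY.ht.inn X.HW).mean_pu i hx t
  rw [wpu_zero (X.hU i) (h0 i) (z := (x, t)) hx] at h2
  rw [tmean_congr (g := fun z => ⟪pu (Y i) z, pt (X.W i) z⟫_ℝ + ⟪pt (pu (Y i)) z, X.W i z⟫_ℝ)
    (fun s => wpt_inner (hY.hu.da i hx) (X.HW.da i hx)),
    (hY.hu.inn X.HW.ht).mean_add (hY.hu.ht.inn X.HW) i hx] at h1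
  rw [tmean_congr (g := fun z => ⟪pu (X.W i) z, pt (Y i) z⟫_ℝ + ⟪pt (pu (Y i)) z, X.W i z⟫_ℝ)
    (fun s => by
      rw [wpu_inner (hY.ht.da i hx) (X.HW.da i hx), pu_pt_comm (hY.cda i hx), real_inner_comm]),
    (X.HW.hu.inn hY.ht).mean_add (hY.hu.ht.inn X.HW) i hx] at h2
  linarith

theorem stepA (hN : 1 ≤ N) (habs : ∀ Y : ι → P3 → R4, X.H (j + 1) (d + 13) 1 Y → X.H 1 N 1 Y)
    (h : X.Inv j 1 d N Z) : ∃ Z', X.Inv (j + 1) 0 (d + N + 15) N Z' := by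
  have hy : X.HM (j + 1) (j + 1) d (fun i z => (1 / 2) * ((X.ε i)⁻¹ * X.E1 Z i z)) :=
    h.e1.ediv.cmul _
  have hφ : X.HM (j + 1) (j + 1) d (fun i z => (-1 / 2) * X.E3 Z i z) := h.e3.cmul _
  have hm := hy.smul_fst X.Hβ
  have hE : X.HM (j + 1) (j + 1) d (fun i z => (X.ε i)⁻¹ * X.E2 Z i z) := h.e2.ediv
  have hm1 := hm.hv.inner_fst X.HA
  have hm2 := hm.hu.inner_fst X.HB
  have hR := (((hE.neg.mono (d' := d + 3) le_rfl le_rfl (by omega)).sub hm1).sub hm2).cmul (1 / 2)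
  obtain ⟨Y, hY, eY⟩ := solver (hy.mono (d' := d + 3) le_rfl le_rfl (by omega)) (hφ.mono (by omega) (by omega) (by omega)) hR
  have hY' := habs _ hY.1
  have hAY : ∀ i, ∀ x ∈ X.U i, ∀ t, ⟪du (X.f i) x, Y i (x, t)⟫_ℝ = 0 :=
    fun i x hx t => (eY i x hx t).1
  refine ⟨fun i z => Z i z + Y i z, ?_, ?_, ?_, ?_⟩
  · exact (h.close.add hY').congr fun _ _ _ _ => by abel
  · refine HM.of_diff (HM.of_zero fun i x hx t => ?_) (pert1 hN h.close hY.1 hY') (by omega) (by omega) (by omega)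
    have := (X.epos i).ne'
    simp only [A_pu hY.1 hAY i hx t, (eY i x hx t).2.1]
    field_simp
    ring
  · have g1 := X.HA.inn hY.1.ht
    have g2 := X.HA.inn hY.1.hv
    have g3 := X.HW.hu.inn hY.1.ht
    have g4 := X.HB.inn hY.1.hu
    have g5 := hY.1.hu.inn X.HW.ht
    have g23 : X.H (j + 1) (d + 15) 1 _ := (g2.mono (by omega) (by omega) (by omega)).add (g3.mono (by omega) (by omega) (by omega))
    have g234 := g23.add (g4.mono (by omega) (by omega) (by omega))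
    have g2345 := g234.add (g5.mono (by omega) (by omega) (by omega))
    have g1' : X.H (j + 2) d 1 (fun i z => ⟪du (X.f i) z.1, pt (Y i) z⟫_ℝ) :=
      H.of_zero fun i x hx t => A_pt hY.1 hAY i hx t
    have g01 := h.e2.1.add g1'
    refine HM.of_diff (H.toHM0 ((g01.mono (by omega) (by omega) (by omega)).add (g2345.emul.mono (by omega) (by omega) (by omega))) fun i x hx t => ?_)
      (pert2 hN h.close hY.1 hY') (by omega) (by omega) (by omega)
    have hε := (X.epos i).ne'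
    have hmean : ∀ x ∈ X.U i, ∀ t, tmean (Y i) (x, t) = tmean (fun z =>
        ((1 / 2) * ((X.ε i)⁻¹ * X.E1 Z i z)) • X.β i z.1) (x, t) :=
      fun x hx t => (eY i x hx t).2.2.2.1
    rw [g01.mean_add g2345.emul i hx, h.e2.1.mean_add g1' i hx, wtmean_cmul,
      g234.mean_add g5 i hx, g23.mean_add g4 i hx, g2.mean_add g3 i hx,
      mean_ibp hY.1 (fun i x hx t => (eY i x hx t).2.2.2.2.1) i hx, (eY i x hx t).2.2.2.2.2,
      wtmean_cmul, ((hE.neg.mono (d' := d + 3) le_rfl le_rfl (by omega)).sub hm1).1.mean_sub hm2.1 i hx,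
      hE.neg.1.mean_sub hm1.1 i hx, tmean_neg, wtmean_cmul,
      hY.1.ht.mean_inner _ i hx, hY.1.hv.mean_inner _ i hx, hY.1.hu.mean_inner _ i hx,
      hm.1.hv.mean_inner _ i hx, hm.1.hu.mean_inner _ i hx, hY.1.mean_pt i hx,
      hY.1.mean_pv i hx, hY.1.mean_pu i hx, hm.1.mean_pv i hx, hm.1.mean_pu i hx,
      wpv_congr (X.hU i) hmean (z := (x, t)) hx, wpu_congr (X.hU i) hmean (z := (x, t)) hx,
      inner_zero_right]
    field_simp
    ring
  · refine HM.of_diff (((((hY.hv.inner_fst X.HB).emul.cmul 2).mono (by omega) (by omega) (by omega))).congr fun i x hx t => ?_)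
      (pert3 hN h.close hY.1 hY') (by omega) (by omega) (by omega)
    simp only [(eY i x hx t).2.2.1]
    ring

theorem inv_all (X : WKB ι) (hD : ∀ i, X.ε i * X.Θ i ^ 68 ≤ 1) (j : ℕ) :
    ∃ Z, X.Inv j 1 (12 + 68 * j) 25 Z := by
  induction j with
  | zero =>
    obtain ⟨Z, hZ⟩ := stepB (N := 5) (by norm_num) (fun Y h => h) (X.inv_start 5)
    exact ⟨Z, hZ.mono (by norm_num) (by norm_num)⟩
  | succ j ih =>
    obtain ⟨Z, hZ⟩ := ih
    obtain ⟨Z1, h1⟩ := stepA (by norm_num) (fun Y h => H.absorb hD j (h.mono (by omega) (by omega) (by omega))) hZ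
    obtain ⟨Z2, h2⟩ := stepB (by norm_num) (fun Y h => H.absorb hD (j + 1) (h.mono (by omega) (by omega) (by omega))) h1
    exact ⟨Z2, h2.mono (by omega) le_rfl⟩

end WKB

theorem wkb : ∃ D : ℕ, ∀ (ι : Type) (X : WKB ι), (∀ i, X.ε i * X.Θ i ^ D ≤ 1) → ∀ M : ℕ,
    ∃ Z : ι → P3 → R4, (∀ i, Per (X.U i) (Z i)) ∧ X.G 1 D 1 (fun i z => Z i z - X.W i z) ∧
      X.G M (D * M) 1 (X.E1 Z) ∧ X.G M (D * M) 1 (X.E2 Z) ∧ X.G M (D * M) 1 (X.E3 Z) := by
  refine ⟨68, fun ι X hD M => ?_⟩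
  obtain ⟨Z, hZ⟩ := X.inv_all hD M
  exact ⟨Z, (WKB.HZ (by norm_num) hZ.close).2, (hZ.close.mono (b' := 68) le_rfl (by omega) (by omega)).1,
    (WKB.H.absorb hD 1 (hZ.e1.1.mono (by omega) (by omega) (by omega))).1, (WKB.H.absorb hD 1 (hZ.e2.1.mono (by omega) (by omega) (by omega))).1,
    (WKB.H.absorb hD 1 (hZ.e3.1.mono (by omega) (by omega) (by omega))).1⟩

end Vale.Agent.P205
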