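import Vale.Agent.P205.Mean

/-! P205: graded classes of periodic tame functions for the asymptotic expansion. -/

open scoped ContDiff InnerProductSpace Topology
open Set Filter Real

noncomputable section
namespace Vale.Agent.P205
namespace WKB

variable {ι : Type} {X : WKB ι}
variable {F : Type} [NormedAddCommGroup F] [NormedSpace ℝ F]
variable {a b c a' b' c' d d' : ℕ}

/-- graded tame class together with periodicity in the fast variable -/
def H (X : WKB ι) (a b c : ℕ) (f : ι → P3 → F) : Prop :=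
  X.G a b c f ∧ ∀ i, Per (X.U i) (f i)

theorem wpos (X : WKB ι) (i : ι) {x : P2} (hx : x ∈ X.U i) : 0 < X.w i x :=
  X.hw.pos i (p := (x, 0)) ⟨hx, trivial⟩

theorem epos (X : WKB ι) (i : ι) : 0 < X.ε i := (X.hε i).1

theorem tpos (X : WKB ι) (i : ι) : 0 < X.Θ i := lt_of_lt_of_le one_pos (X.hΘ i)

theorem sopen (X : WKB ι) (i : ι) : IsOpen (X.U i ×ˢ (univ : Set ℝ)) :=
  (X.hU i).prod isOpen_univ

theorem wt_nonneg (X : WKB ι) (a b c : ℕ) (i : ι) {x : P2} (hx : x ∈ X.U i) :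
    0 ≤ X.ε i ^ a * X.Θ i ^ b * X.w i x ^ c := by
  have := X.wpos i hx; have := X.epos i; have := X.tpos i
  positivity

theorem H.cda {f : ι → P3 → F} (h : X.H a b c f) (i : ι) {z : P3} (hz : z.1 ∈ X.U i) :
    ContDiffAt ℝ ∞ (f i) z := T.smooth h.1 i ⟨hz, trivial⟩

theorem H.da {f : ι → P3 → F} (h : X.H a b c f) (i : ι) {z : P3} (hz : z.1 ∈ X.U i) :
    DifferentiableAt ℝ (f i) z := (h.cda i hz).differentiableAt (by simp)

theorem H.sm {f : ι → P3 → F} (h : X.H a b c f) (i : ι) :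
    ContDiffOn ℝ ∞ (f i) (X.U i ×ˢ univ) := fun _ hz => (h.cda i hz.1).contDiffWithinAt

theorem H.cont {f : ι → P3 → F} (h : X.H a b c f) (i : ι) {x : P2} (hx : x ∈ X.U i) :
    Continuous fun t => f i (x, t) := by
  refine continuous_iff_continuousAt.2 fun t => ?_
  have h1 : ContinuousAt (f i) (x, t) := (h.cda i (z := (x, t)) hx).continuousAt
  exact ContinuousAt.comp (f := fun t : ℝ => (x, t)) h1 (by fun_prop)

theorem H.da2 {g : ι → P2 → F} (h : X.H a b c (fun i z => g i z.1)) (i : ι) {x : P2}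
    (hx : x ∈ X.U i) : DifferentiableAt ℝ (g i) x := by
  have h1 := h.da i (z := (x, 0)) hx
  exact DifferentiableAt.comp (g := fun z : P3 => g i z.1) (f := fun x : P2 => (x, (0 : ℝ))) x h1
    (by fun_prop)

theorem H.mono {f : ι → P3 → F} (h : X.H a b c f) (ha : a' ≤ a)
    (hb : b ≤ b') (hc : c' ≤ c) : X.H a' b' c' f := by
  refine ⟨T.mono h.1 1 zero_le_one fun i p hp => ?_, h.2⟩
  have h1 := X.wpos i hp.1; have h2 := X.epos i; have h3 := X.tpos i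
  rw [one_mul]
  have e1 : X.ε i ^ a ≤ X.ε i ^ a' := pow_le_pow_of_le_one h2.le (X.hε i).2 ha
  have e2 : X.Θ i ^ b ≤ X.Θ i ^ b' := pow_le_pow_right₀ (X.hΘ i) hb
  have e3 : X.w i p.1 ^ c ≤ X.w i p.1 ^ c' := pow_le_pow_of_le_one h1.le (X.hw1 i _ hp.1) hc
  gcongr

theorem H.absorb {D : ℕ} (hD : ∀ i, X.ε i * X.Θ i ^ D ≤ 1) (n : ℕ) {f : ι → P3 → F}
    (h : X.H (a + n) (b + D * n) c f) : X.H a b c f := by
  refine ⟨T.mono h.1 1 zero_le_one fun i p hp => ?_, h.2⟩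
  have h1 := X.wpos i hp.1; have h2 := X.epos i; have h3 := X.tpos i
  have e : (X.ε i * X.Θ i ^ D) ^ n ≤ 1 := pow_le_one₀ (by positivity) (hD i)
  calc X.ε i ^ (a + n) * X.Θ i ^ (b + D * n) * X.w i p.1 ^ c
      = (X.ε i * X.Θ i ^ D) ^ n * (X.ε i ^ a * X.Θ i ^ b * X.w i p.1 ^ c) := by ring
    _ ≤ 1 * (X.ε i ^ a * X.Θ i ^ b * X.w i p.1 ^ c) := by gcongr

theorem H.congr {f g : ι → P3 → F} (h : X.H a b c f)
    (hg : ∀ i, ∀ x ∈ X.U i, ∀ t, g i (x, t) = f i (x, t)) : X.H a b c g := by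
  refine ⟨T.congr_open h.1 X.sopen fun i p hp => hg i p.1 hp.1 p.2, fun i x hx t => ?_⟩
  rw [hg i x hx, hg i x hx, h.2 i x hx]

theorem H.zero : X.H a b c (fun _ _ => (0 : F)) :=
  ⟨T.const (fun _ => (0 : F)) fun i p hp => by simpa using X.wt_nonneg a b c i hp.1,
    fun _ _ _ _ => rfl⟩

theorem H.of_zero {g : ι → P3 → F} (hg : ∀ i, ∀ x ∈ X.U i, ∀ t, g i (x, t) = 0) :
    X.H a b c g := H.zero.congr hg

theorem H.one : X.H 0 0 0 (fun _ _ => (1 : ℝ)) :=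
  ⟨T.const (fun _ => (1 : ℝ)) fun i p hp => by simp, fun _ _ _ _ => rfl⟩

theorem H.add {f g : ι → P3 → F} (hf : X.H a b c f) (hg : X.H a b c g) :
    X.H a b c (fun i z => f i z + g i z) :=
  ⟨T.add hf.1 hg.1, fun i x hx t => by simp only [hf.2 i x hx t, hg.2 i x hx t]⟩

theorem H.sub {f g : ι → P3 → F} (hf : X.H a b c f) (hg : X.H a b c g) :
    X.H a b c (fun i z => f i z - g i z) :=
  ⟨T.sub hf.1 hg.1, fun i x hx t => by simp only [hf.2 i x hx t, hg.2 i x hx t]⟩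

theorem H.neg {f : ι → P3 → F} (hf : X.H a b c f) : X.H a b c (fun i z => -f i z) :=
  ⟨T.neg hf.1, fun i x hx t => by simp only [hf.2 i x hx t]⟩

theorem H.cmul {f : ι → P3 → ℝ} (hf : X.H a b c f) (r : ℝ) :
    X.H a b c (fun i z => r * f i z) :=
  ⟨T.const_mul hf.1 r, fun i x hx t => by simp only [hf.2 i x hx t]⟩

theorem H.mul {f g : ι → P3 → ℝ} (hf : X.H a b c f) (hg : X.H a' b' c' g) :
    X.H (a + a') (b + b') (c + c') (fun i z => f i z * g i z) :=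
  ⟨T.mono (T.mul hf.1 hg.1) 1 zero_le_one fun i p _ => le_of_eq (by ring),
    fun i x hx t => by simp only [hf.2 i x hx t, hg.2 i x hx t]⟩

theorem H.smul {f : ι → P3 → ℝ} {g : ι → P3 → F} (hf : X.H a b c f) (hg : X.H a' b' c' g) :
    X.H (a + a') (b + b') (c + c') (fun i z => f i z • g i z) :=
  ⟨T.mono (T.smul hf.1 hg.1) 1 zero_le_one fun i p _ => le_of_eq (by ring),
    fun i x hx t => by simp only [hf.2 i x hx t, hg.2 i x hx t]⟩

theorem H.inn {f g : ι → P3 → R4} (hf : X.H a b c f) (hg : X.H a' b' c' g) :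
    X.H (a + a') (b + b') (c + c') (fun i z => ⟪f i z, g i z⟫_ℝ) :=
  ⟨T.mono (T.inner hf.1 hg.1) 1 zero_le_one fun i p _ => le_of_eq (by ring),
    fun i x hx t => by simp only [hf.2 i x hx t, hg.2 i x hx t]⟩

theorem H.esmul {f : ι → P3 → F} (hf : X.H a b c f) :
    X.H (a + 1) b c (fun i z => X.ε i • f i z) :=
  ⟨T.mono (T.fam_smul hf.1 X.ε) 1 zero_le_one fun i p _ =>
      le_of_eq (by rw [abs_of_pos (X.epos i)]; ring),
    fun i x hx t => by simp only [hf.2 i x hx t]⟩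

theorem H.emul {f : ι → P3 → ℝ} (hf : X.H a b c f) :
    X.H (a + 1) b c (fun i z => X.ε i * f i z) := hf.esmul

theorem H.ediv {f : ι → P3 → ℝ} (hf : X.H (a + 1) b c f) :
    X.H a b c (fun i z => (X.ε i)⁻¹ * f i z) :=
  ⟨T.mono (T.fam_smul hf.1 fun i => (X.ε i)⁻¹) 1 zero_le_one fun i p _ =>
      le_of_eq (by
        have := X.epos i
        rw [abs_of_pos (inv_pos.2 this)]; field_simp; ring),
    fun i x hx t => by simp only [hf.2 i x hx t]⟩

theorem H.wdiv {f : ι → P3 → ℝ} (hf : X.H a b (c + 1) f) :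
    X.H a b c (fun i z => f i z / X.w i z.1) :=
  ⟨T.mono (T.div_LT hf.1 X.hw) 1 zero_le_one fun i p hp =>
      le_of_eq (by
        have := X.wpos i hp.1
        field_simp; ring),
    fun i x hx t => by simp only [hf.2 i x hx t]⟩

section Complete
variable [CompleteSpace F]

theorem H.hu {f : ι → P3 → F} (hf : X.H a b c f) : X.H a (b + 1) c (fun i => pu (f i)) :=
  ⟨T.mono (T.pu hf.1 X.tpos) 1 zero_le_one fun i p _ => le_of_eq (by ring),
    fun i => (hf.2 i).pu (X.hU i)⟩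

theorem H.hv {f : ι → P3 → F} (hf : X.H a b c f) : X.H a (b + 1) c (fun i => pv (f i)) :=
  ⟨T.mono (T.pv hf.1 X.tpos) 1 zero_le_one fun i p _ => le_of_eq (by ring),
    fun i => (hf.2 i).pv (X.hU i)⟩

theorem H.ht {f : ι → P3 → F} (hf : X.H a b c f) : X.H a b c (fun i => pt (f i)) :=
  ⟨T.pt hf.1, fun i => (hf.2 i).pt (X.hU i)⟩

theorem H.hm {f : ι → P3 → F} (hf : X.H a b c f) : X.H a b c (fun i => tmean (f i)) :=
  ⟨T.tmean (σ := fun i x => X.ε i ^ a * X.Θ i ^ b * X.w i x ^ c) X.hU hf.1,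
    fun _ => per_tmean⟩

theorem H.hp {f : ι → P3 → F} (hf : X.H a b c f) : X.H a b c (fun i => tprim (f i)) :=
  ⟨T.tprim (σ := fun i x => X.ε i ^ a * X.Θ i ^ b * X.w i x ^ c) X.hU hf.1 hf.2,
    fun i => per_tprim (X.hU i) (hf.sm i) (hf.2 i)⟩
end Complete

/-! the data -/

theorem HA (X : WKB ι) : X.H 0 1 0 (fun i z => du (X.f i) z.1) := ⟨X.hA, fun _ _ _ _ => rfl⟩
theorem HB (X : WKB ι) : X.H 0 1 0 (fun i z => dv (X.f i) z.1) := ⟨X.hB, fun _ _ _ _ => rfl⟩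
theorem Hα (X : WKB ι) : X.H 0 1 0 (fun i z => X.α i z.1) := ⟨X.hα, fun _ _ _ _ => rfl⟩
theorem Hβ (X : WKB ι) : X.H 0 1 0 (fun i z => X.β i z.1) := ⟨X.hβ, fun _ _ _ _ => rfl⟩
theorem He (X : WKB ι) : X.H 0 1 0 (fun i z => X.e i z.1) := ⟨X.he, fun _ _ _ _ => rfl⟩
theorem He' (X : WKB ι) : X.H 0 1 0 (fun i z => X.e' i z.1) := ⟨X.he', fun _ _ _ _ => rfl⟩
theorem Hr (X : WKB ι) : X.H 0 1 0 (fun i z => (X.r i z.1)⁻¹) := ⟨X.hr, fun _ _ _ _ => rfl⟩
theorem HW (X : WKB ι) : X.H 0 1 1 X.W := ⟨X.hW, X.perW⟩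
theorem Hc1 (X : WKB ι) : X.H 0 1 1 (fun i z => X.c i z - 1) :=
  ⟨X.hc, fun i x hx t => by simp only [(X.perc i).1 x hx t]⟩
theorem Hsh (X : WKB ι) : X.H 0 1 0 X.sh := ⟨X.hsh, fun i => (X.perc i).2⟩
theorem Hk (X : WKB ι) (j : Fin 4) : X.H 0 1 0 (X.k j) := ⟨X.hk j, X.perk j⟩
theorem Hw (X : WKB ι) : X.H 0 0 1 (fun i z => X.w i z.1) :=
  ⟨T.mono X.hw.2 1 zero_le_one fun i p _ => le_of_eq (by ring), fun _ _ _ _ => rfl⟩
theorem Hc (X : WKB ι) : X.H 0 1 0 X.c :=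
  (((X.Hc1.mono (by omega) (by omega) (by omega))).add ((H.one.mono (by omega) (by omega) (by omega)))).congr fun i x _ t => by ring
theorem Hws (X : WKB ι) : X.H 0 1 1 (fun i z => X.w i z.1 * X.sh i z) := X.Hw.mul X.Hsh
theorem HV (X : WKB ι) : X.H 0 1 0 (fun i z => dv (X.f i) z.1 + pt (X.W i) z) :=
  X.HB.add (X.HW.ht.mono (by omega) (by omega) (by omega))
theorem Hpar (X : WKB ι) : X.H 0 2 0
    (fun i z => nPar (X.e i z.1) (X.e' i z.1) (X.c i z) (X.w i z.1 * X.sh i z)) :=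
  (X.Hc.smul X.He).add ((X.Hws.smul X.He').mono (by omega) (by omega) (by omega))
theorem Hper (X : WKB ι) : X.H 0 2 0
    (fun i z => nPer (X.e i z.1) (X.e' i z.1) (X.c i z) (X.w i z.1 * X.sh i z)) :=
  ((X.Hws.neg.smul X.He).mono (by omega) (by omega) (by omega)).add (X.Hc.smul X.He')

end WKB
end Vale.Agent.P205
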