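import Vale.Agent.P205.WKB1

/-! P205: calculus on the cylinder and classes with a gain in the mean. -/

open scoped ContDiff InnerProductSpace Topology
open Set Filter Real

noncomputable section
namespace Vale.Agent.P205

section Calc
variable {F : Type} [NormedAddCommGroup F] [NormedSpace ℝ F] {f g : P3 → F} {z v : P3}
  {U : Set P2}

theorem wfd_add (hf : DifferentiableAt ℝ f z) (hg : DifferentiableAt ℝ g z) :
    fderiv ℝ (fun z => f z + g z) z v = fderiv ℝ f z v + fderiv ℝ g z v := by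
  rw [fderiv_fun_add hf hg]; rfl

theorem wfd_sub (hf : DifferentiableAt ℝ f z) (hg : DifferentiableAt ℝ g z) :
    fderiv ℝ (fun z => f z - g z) z v = fderiv ℝ f z v - fderiv ℝ g z v := by
  rw [fderiv_fun_sub hf hg]; rfl

theorem wfd_smul {c : P3 → ℝ} (hc : DifferentiableAt ℝ c z) (hf : DifferentiableAt ℝ f z) :
    fderiv ℝ (fun z => c z • f z) z v = c z • fderiv ℝ f z v + fderiv ℝ c z v • f z := by
  rw [fderiv_fun_smul hc hf]; rfl

theorem wfd_inner {f g : P3 → R4} (hf : DifferentiableAt ℝ f z) (hg : DifferentiableAt ℝ g z) :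
    fderiv ℝ (fun z => ⟪f z, g z⟫_ℝ) z v = ⟪f z, fderiv ℝ g z v⟫_ℝ + ⟪fderiv ℝ f z v, g z⟫_ℝ :=
  fderiv_inner_apply ℝ hf hg v

theorem wfd_congr (hU : IsOpen U) (h : ∀ x ∈ U, ∀ t, f (x, t) = g (x, t)) (hz : z.1 ∈ U) :
    fderiv ℝ f z v = fderiv ℝ g z v := by
  have : f =ᶠ[𝓝 z] g := by
    filter_upwards [(hU.prod isOpen_univ).mem_nhds (show z ∈ U ×ˢ (univ : Set ℝ) from ⟨hz, trivial⟩)]
      with p hp using h p.1 hp.1 p.2
  rw [this.fderiv_eq]

theorem wfd_zero (hU : IsOpen U) (h : ∀ x ∈ U, ∀ t, f (x, t) = 0) (hz : z.1 ∈ U) :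
    fderiv ℝ f z v = 0 := by
  rw [wfd_congr (g := fun _ => 0) hU h hz]; simp

theorem wpu_add (hf : DifferentiableAt ℝ f z) (hg : DifferentiableAt ℝ g z) :
    pu (fun z => f z + g z) z = pu f z + pu g z := wfd_add hf hg
theorem wpv_add (hf : DifferentiableAt ℝ f z) (hg : DifferentiableAt ℝ g z) :
    pv (fun z => f z + g z) z = pv f z + pv g z := wfd_add hf hg
theorem wpt_add (hf : DifferentiableAt ℝ f z) (hg : DifferentiableAt ℝ g z) :
    pt (fun z => f z + g z) z = pt f z + pt g z := wfd_add hf hg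
theorem wpu_sub (hf : DifferentiableAt ℝ f z) (hg : DifferentiableAt ℝ g z) :
    pu (fun z => f z - g z) z = pu f z - pu g z := wfd_sub hf hg
theorem wpt_sub (hf : DifferentiableAt ℝ f z) (hg : DifferentiableAt ℝ g z) :
    pt (fun z => f z - g z) z = pt f z - pt g z := wfd_sub hf hg
theorem wpu_inner {f g : P3 → R4} (hf : DifferentiableAt ℝ f z) (hg : DifferentiableAt ℝ g z) :
    pu (fun z => ⟪f z, g z⟫_ℝ) z = ⟪f z, pu g z⟫_ℝ + ⟪pu f z, g z⟫_ℝ := wfd_inner hf hg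
theorem wpt_inner {f g : P3 → R4} (hf : DifferentiableAt ℝ f z) (hg : DifferentiableAt ℝ g z) :
    pt (fun z => ⟪f z, g z⟫_ℝ) z = ⟪f z, pt g z⟫_ℝ + ⟪pt f z, g z⟫_ℝ := wfd_inner hf hg
theorem wpu_congr (hU : IsOpen U) (h : ∀ x ∈ U, ∀ t, f (x, t) = g (x, t)) (hz : z.1 ∈ U) :
    pu f z = pu g z := wfd_congr hU h hz
theorem wpv_congr (hU : IsOpen U) (h : ∀ x ∈ U, ∀ t, f (x, t) = g (x, t)) (hz : z.1 ∈ U) :
    pv f z = pv g z := wfd_congr hU h hz
theorem wpt_congr (hU : IsOpen U) (h : ∀ x ∈ U, ∀ t, f (x, t) = g (x, t)) (hz : z.1 ∈ U) :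
    pt f z = pt g z := wfd_congr hU h hz
theorem wpu_zero (hU : IsOpen U) (h : ∀ x ∈ U, ∀ t, f (x, t) = 0) (hz : z.1 ∈ U) :
    pu f z = 0 := wfd_zero hU h hz
theorem wpv_zero (hU : IsOpen U) (h : ∀ x ∈ U, ∀ t, f (x, t) = 0) (hz : z.1 ∈ U) :
    pv f z = 0 := wfd_zero hU h hz
theorem wpt_zero (hU : IsOpen U) (h : ∀ x ∈ U, ∀ t, f (x, t) = 0) (hz : z.1 ∈ U) :
    pt f z = 0 := wfd_zero hU h hz

theorem wpt_smul_fst [CompleteSpace F] {c : P3 → ℝ} {h : P2 → F} (hc : DifferentiableAt ℝ c z)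
    (hh : DifferentiableAt ℝ h z.1) : pt (fun z => c z • h z.1) z = pt c z • h z.1 := by
  have h1 : DifferentiableAt ℝ (fun z : P3 => h z.1) z := hh.comp z differentiableAt_fst
  have h2 : pt (fun z => c z • h z.1) z = c z • pt (fun z : P3 => h z.1) z + pt c z • h z.1 :=
    wfd_smul hc h1
  rw [h2, pt_fst hh, smul_zero, zero_add]

theorem wpt_inner_fst {f : P3 → R4} {h : P2 → R4} (hh : DifferentiableAt ℝ h z.1)
    (hf : DifferentiableAt ℝ f z) : pt (fun z => ⟪h z.1, f z⟫_ℝ) z = ⟪h z.1, pt f z⟫_ℝ := by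
  have h1 : DifferentiableAt ℝ (fun z : P3 => h z.1) z := hh.comp z differentiableAt_fst
  rw [wpt_inner h1 hf, pt_fst hh, inner_zero_left, add_zero]

theorem wpu_inner_fst {f : P3 → R4} {h : P2 → R4} (hh : DifferentiableAt ℝ h z.1)
    (hf : DifferentiableAt ℝ f z) :
    pu (fun z => ⟪h z.1, f z⟫_ℝ) z = ⟪h z.1, pu f z⟫_ℝ + ⟪du h z.1, f z⟫_ℝ := by
  have h1 : DifferentiableAt ℝ (fun z : P3 => h z.1) z := hh.comp z differentiableAt_fst
  rw [wpu_inner h1 hf, pu_fst hh]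

theorem wtmean_tmean [CompleteSpace F] (f : P3 → F) (z : P3) : tmean (tmean f) z = tmean f z :=
  tmean_fst (fun x => tmean f (x, 0)) z

theorem wtmean_cmul (r : ℝ) (f : P3 → ℝ) (z : P3) :
    tmean (fun z => r * f z) z = r * tmean f z := tmean_fst_mul (fun _ => r) f z

theorem wtmean_zero [CompleteSpace F] {x : P2} (h : ∀ t, f (x, t) = 0) (t : ℝ) :
    tmean f (x, t) = 0 := by
  rw [tmean_congr (g := fun _ => 0) h]; exact tmean_fst (fun _ => 0) _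
end Calc

namespace WKB

variable {ι : Type} {X : WKB ι}
variable {F : Type} [NormedAddCommGroup F] [NormedSpace ℝ F] [CompleteSpace F]
variable {a b c a' b' c' d d' a1 a1' : ℕ}

theorem H.mean_add {f g : ι → P3 → F} (hf : X.H a b c f) (hg : X.H a' b' c' g) (i : ι) {x : P2}
    (hx : x ∈ X.U i) (t : ℝ) :
    tmean (fun z => f i z + g i z) (x, t) = tmean (f i) (x, t) + tmean (g i) (x, t) :=
  tmean_add (hf.cont i hx) (hg.cont i hx) t

theorem H.mean_sub {f g : ι → P3 → F} (hf : X.H a b c f) (hg : X.H a' b' c' g) (i : ι) {x : P2}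
    (hx : x ∈ X.U i) (t : ℝ) :
    tmean (fun z => f i z - g i z) (x, t) = tmean (f i) (x, t) - tmean (g i) (x, t) :=
  tmean_sub (hf.cont i hx) (hg.cont i hx) t

theorem H.mean_inner {f : ι → P3 → R4} (hf : X.H a b c f) (g : P2 → R4) (i : ι) {x : P2}
    (hx : x ∈ X.U i) (t : ℝ) :
    tmean (fun z => ⟪g z.1, f i z⟫_ℝ) (x, t) = ⟪g x, tmean (f i) (x, t)⟫_ℝ :=
  tmean_inner_fst g (hf.cont i hx) t

theorem H.mean_pt {f : ι → P3 → F} (hf : X.H a b c f) (i : ι) {x : P2} (hx : x ∈ X.U i) (t : ℝ) :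
    tmean (pt (f i)) (x, t) = 0 := tmean_pt (X.hU i) (hf.sm i) (hf.2 i) hx t

theorem H.mean_pu {f : ι → P3 → F} (hf : X.H a b c f) (i : ι) {x : P2} (hx : x ∈ X.U i) (t : ℝ) :
    tmean (pu (f i)) (x, t) = pu (tmean (f i)) (x, t) :=
  (pu_tmean (X.hU i) (hf.sm i) hx t).symm

theorem H.mean_pv {f : ι → P3 → F} (hf : X.H a b c f) (i : ι) {x : P2} (hx : x ∈ X.U i) (t : ℝ) :
    tmean (pv (f i)) (x, t) = pv (tmean (f i)) (x, t) :=
  (pv_tmean (X.hU i) (hf.sm i) hx t).symm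

/-- class `w`, with mean of class `w ^ 2` -/
def HM (X : WKB ι) (a a' d : ℕ) (f : ι → P3 → F) : Prop :=
  X.H a d 1 f ∧ X.H a' d 2 (fun i => tmean (f i))

theorem HM.mono {f : ι → P3 → F} (h : X.HM a a' d f) (ha : a1 ≤ a)
    (ha' : a1' ≤ a') (hd : d ≤ d') : X.HM a1 a1' d' f :=
  ⟨(h.1.mono (by omega) (by omega) (by omega)), (h.2.mono (by omega) (by omega) (by omega))⟩

theorem HM.congr {f g : ι → P3 → F} (h : X.HM a a' d f)
    (hg : ∀ i, ∀ x ∈ X.U i, ∀ t, g i (x, t) = f i (x, t)) : X.HM a a' d g :=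
  ⟨h.1.congr hg, h.2.congr fun i x hx t => tmean_congr (hg i x hx) t⟩

theorem HM.add {f g : ι → P3 → F} (hf : X.HM a a' d f) (hg : X.HM a a' d g) :
    X.HM a a' d (fun i z => f i z + g i z) :=
  ⟨hf.1.add hg.1, (hf.2.add hg.2).congr fun i _ hx t => hf.1.mean_add hg.1 i hx t⟩

theorem HM.sub {f g : ι → P3 → F} (hf : X.HM a a' d f) (hg : X.HM a a' d g) :
    X.HM a a' d (fun i z => f i z - g i z) :=
  ⟨hf.1.sub hg.1, (hf.2.sub hg.2).congr fun i _ hx t => hf.1.mean_sub hg.1 i hx t⟩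

theorem HM.neg {f : ι → P3 → F} (hf : X.HM a a' d f) : X.HM a a' d (fun i z => -f i z) :=
  ⟨hf.1.neg, hf.2.neg.congr fun _ _ _ _ => tmean_neg _⟩

theorem HM.cmul {f : ι → P3 → ℝ} (hf : X.HM a a' d f) (r : ℝ) :
    X.HM a a' d (fun i z => r * f i z) :=
  ⟨hf.1.cmul r, (hf.2.cmul r).congr fun _ _ _ _ => wtmean_cmul _ _ _⟩

theorem HM.emul {f : ι → P3 → ℝ} (hf : X.HM a a' d f) :
    X.HM (a + 1) (a' + 1) d (fun i z => X.ε i * f i z) :=
  ⟨hf.1.emul, hf.2.emul.congr fun _ _ _ _ => wtmean_cmul _ _ _⟩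

theorem HM.ediv {f : ι → P3 → ℝ} (hf : X.HM (a + 1) (a' + 1) d f) :
    X.HM a a' d (fun i z => (X.ε i)⁻¹ * f i z) :=
  ⟨hf.1.ediv, hf.2.ediv.congr fun _ _ _ _ => wtmean_cmul _ _ _⟩

theorem H.toHM {f : ι → P3 → F} (hf : X.H a d c f) (hc : 2 ≤ c) : X.HM a a d f :=
  ⟨(hf.mono (by omega) (by omega) (by omega)), (hf.hm.mono (by omega) (by omega) (by omega))⟩

theorem H.toHM0 {f : ι → P3 → F} (hf : X.H a d 1 f)
    (h0 : ∀ i, ∀ x ∈ X.U i, ∀ t, tmean (f i) (x, t) = 0) : X.HM a a' d f :=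
  ⟨hf, H.of_zero h0⟩

theorem HM.of_zero {f : ι → P3 → F} (h0 : ∀ i, ∀ x ∈ X.U i, ∀ t, f i (x, t) = 0) :
    X.HM a a' d f :=
  (H.of_zero h0).toHM0 fun i x hx t => wtmean_zero (h0 i x hx) t

theorem HM.hu {f : ι → P3 → F} (hf : X.HM a a' d f) : X.HM a a' (d + 1) (fun i => pu (f i)) :=
  ⟨hf.1.hu, hf.2.hu.congr fun i _ hx t => hf.1.mean_pu i hx t⟩

theorem HM.hv {f : ι → P3 → F} (hf : X.HM a a' d f) : X.HM a a' (d + 1) (fun i => pv (f i)) :=
  ⟨hf.1.hv, hf.2.hv.congr fun i _ hx t => hf.1.mean_pv i hx t⟩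

theorem H.ptHM {f : ι → P3 → F} (hf : X.H a d 1 f) : X.HM a a' d (fun i => pt (f i)) :=
  hf.ht.toHM0 fun i _ hx t => hf.mean_pt i hx t

theorem H.tprimHM {f : ι → P3 → F} (hf : X.H a d 1 f) :
    X.HM a a' d (fun i => tprim (f i)) :=
  hf.hp.toHM0 fun i _ hx t => tmean_tprim (X.hU i) (hf.sm i) hx t

theorem HM.inner_fst {f : ι → P3 → R4} {g : ι → P2 → R4} (hf : X.HM a a' d f)
    (hg : X.H 0 b 0 (fun i z => g i z.1)) :
    X.HM a a' (d + b) (fun i z => ⟪g i z.1, f i z⟫_ℝ) :=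
  ⟨((hg.inn hf.1).mono (by omega) (by omega) (by omega)), (((hg.inn hf.2).mono (by omega) (by omega) (by omega))).congr fun i _ hx t => hf.1.mean_inner _ i hx t⟩

theorem HM.smul_fst {f : ι → P3 → ℝ} {g : ι → P2 → F} (hf : X.HM a a' d f)
    (hg : X.H 0 b 0 (fun i z => g i z.1)) :
    X.HM a a' (d + b) (fun i z => f i z • g i z.1) :=
  ⟨((hf.1.smul hg).mono (by omega) (by omega) (by omega)), (((hf.2.smul hg).mono (by omega) (by omega) (by omega))).congr fun i _ _ _ => tmean_smul_fst _ _ _⟩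

theorem HM.fst_mul {f : ι → P3 → ℝ} {g : ι → P2 → ℝ} (hf : X.HM a a' d f)
    (hg : X.H 0 b 0 (fun i z => g i z.1)) :
    X.HM a a' (d + b) (fun i z => g i z.1 * f i z) :=
  ⟨((hg.mul hf.1).mono (by omega) (by omega) (by omega)), (((hg.mul hf.2).mono (by omega) (by omega) (by omega))).congr fun i _ _ _ => tmean_fst_mul _ _ _⟩

theorem HM.of_diff {f g : ι → P3 → F} (hg : X.HM a a' d g)
    (h : X.H b d' 2 (fun i z => f i z - g i z)) (ha : a ≤ b)
    (ha' : a' ≤ b) (hd : d' ≤ d) : X.HM a a' d f :=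
  (hg.add ((h.toHM (by omega)).mono (by omega) (by omega) (by omega))).congr fun _ _ _ _ => by simp

end WKB
end Vale.Agent.P205
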