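import Vale.Agent.P205.WKB2

/-! P205: perturbation identities, the start of the expansion and the correction of the mixed
error. -/

open scoped ContDiff InnerProductSpace Topology
open Set Filter Real

noncomputable section
namespace Vale.Agent.P205

theorem walg1 (A Zu Yu : R4) (ε : ℝ) :
    ‖A + ε • (Zu + Yu)‖ ^ 2 - ‖A‖ ^ 2 - (‖A + ε • Zu‖ ^ 2 - ‖A‖ ^ 2 + 2 * (ε * ⟪A, Yu⟫_ℝ))
      = 2 * (ε * (ε * ⟪Zu, Yu⟫_ℝ)) + ε * (ε * ⟪Yu, Yu⟫_ℝ) := by
  simp only [← real_inner_self_eq_norm_sq, inner_add_left, inner_add_right, real_inner_smul_left,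
    real_inner_smul_right, smul_add, real_inner_comm]
  ring

theorem walg2 (A B Wu Ru Wt Rt Zv Yu Yv Yt : R4) (ε : ℝ) :
    ⟪A + ε • (Wu + Ru + Yu), B + ε • (Zv + Yv) + (Wt + Rt + Yt)⟫_ℝ - ⟪A, B⟫_ℝ
      - (⟪A + ε • (Wu + Ru), B + ε • Zv + (Wt + Rt)⟫_ℝ - ⟪A, B⟫_ℝ + ⟪A, Yt⟫_ℝ
        + ε * (⟪A, Yv⟫_ℝ + ⟪Wu, Yt⟫_ℝ + ⟪B, Yu⟫_ℝ + ⟪Yu, Wt⟫_ℝ))
      = ε * (ε * ⟪Wu + Ru, Yv⟫_ℝ) + ε * ⟪Ru, Yt⟫_ℝ + ε * (ε * ⟪Yu, Zv⟫_ℝ) + ε * ⟪Yu, Rt⟫_ℝ
        + ε * (ε * ⟪Yu, Yv⟫_ℝ) + ε * ⟪Yu, Yt⟫_ℝ := by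
  simp only [inner_add_left, inner_add_right, real_inner_smul_left,
    real_inner_smul_right, smul_add, real_inner_comm]
  ring

theorem walg3 (B Wt Rt Zv Yv Yt : R4) (ε a : ℝ) :
    ‖B + ε • (Zv + Yv) + (Wt + Rt + Yt)‖ ^ 2 - ‖B‖ ^ 2 - a
      - (‖B + ε • Zv + (Wt + Rt)‖ ^ 2 - ‖B‖ ^ 2 - a + 2 * ⟪B + Wt, Yt⟫_ℝ + 2 * (ε * ⟪B, Yv⟫_ℝ))
      = 2 * (ε * ⟪Wt + Rt, Yv⟫_ℝ) + 2 * (ε * (ε * ⟪Zv, Yv⟫_ℝ)) + 2 * (ε * ⟪Zv, Yt⟫_ℝ)
        + 2 * ⟪Rt, Yt⟫_ℝ + ε * (ε * ⟪Yv, Yv⟫_ℝ) + 2 * (ε * ⟪Yv, Yt⟫_ℝ) + ⟪Yt, Yt⟫_ℝ := by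
  simp only [← real_inner_self_eq_norm_sq, inner_add_left, inner_add_right, real_inner_smul_left,
    real_inner_smul_right, smul_add, real_inner_comm]
  ring

namespace WKB

variable {ι : Type} {X : WKB ι} {a b c d N j : ℕ} {Z Y : ι → P3 → R4}

theorem HZ (hN : 1 ≤ N) (hR : X.H 1 N 1 (fun i z => Z i z - X.W i z)) : X.H 0 N 1 Z :=
  ((hR.mono (by omega) (by omega) (by omega)).add (X.HW.mono (by omega) (by omega) (by omega))).congr fun _ _ _ _ => by simp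

theorem pert1 (hN : 1 ≤ N) (hR : X.H 1 N 1 (fun i z => Z i z - X.W i z)) (hY : X.H a d 1 Y)
    (hY' : X.H 1 N 1 Y) :
    X.H (a + 2) (d + N + 2) 2 (fun i z => X.E1 (fun i z => Z i z + Y i z) i z
      - (X.E1 Z i z + 2 * (X.ε i * ⟪du (X.f i) z.1, pu (Y i) z⟫_ℝ))) := by
  have hZ := HZ hN hR
  refine (H.add ((((hZ.hu.inn hY.hu).emul.emul.cmul 2).mono (by omega) (by omega) (by omega)))
    (((hY.hu.inn hY'.hu).emul.emul.mono (by omega) (by omega) (by omega)))).congr fun i x hx t => ?_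
  simp only [E1]
  rw [wpu_add (hZ.da i hx) (hY.da i hx)]
  exact walg1 _ _ _ _

theorem pert2 (hN : 1 ≤ N) (hR : X.H 1 N 1 (fun i z => Z i z - X.W i z)) (hY : X.H a d 1 Y)
    (hY' : X.H 1 N 1 Y) :
    X.H (a + 2) (d + N + 2) 2 (fun i z => X.E2 (fun i z => Z i z + Y i z) i z
      - (X.E2 Z i z + ⟪du (X.f i) z.1, pt (Y i) z⟫_ℝ
        + X.ε i * (⟪du (X.f i) z.1, pv (Y i) z⟫_ℝ + ⟪pu (X.W i) z, pt (Y i) z⟫_ℝ
          + ⟪dv (X.f i) z.1, pu (Y i) z⟫_ℝ + ⟪pu (Y i) z, pt (X.W i) z⟫_ℝ))) := by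
  have hZ := HZ hN hR
  refine (H.add (H.add (H.add (H.add (H.add (((hZ.hu.inn hY.hv).emul.emul.mono (by omega) (by omega) (by omega)))
    (((hR.hu.inn hY.ht).emul.mono (by omega) (by omega) (by omega)))) (((hY.hu.inn hZ.hv).emul.emul.mono (by omega) (by omega) (by omega))))
    (((hY.hu.inn hR.ht).emul.mono (by omega) (by omega) (by omega)))) (((hY.hu.inn hY'.hv).emul.emul.mono (by omega) (by omega) (by omega))))
    (((hY.hu.inn hY'.ht).emul.mono (by omega) (by omega) (by omega)))).congr fun i x hx t => ?_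
  simp only [E2]
  have e1 : pu (Z i) (x, t) = pu (X.W i) (x, t) + pu (fun z => Z i z - X.W i z) (x, t) := by
    rw [wpu_sub (hZ.da i hx) (X.HW.da i hx)]; simp
  have e2 : pt (Z i) (x, t) = pt (X.W i) (x, t) + pt (fun z => Z i z - X.W i z) (x, t) := by
    rw [wpt_sub (hZ.da i hx) (X.HW.da i hx)]; simp
  rw [wpu_add (hZ.da i hx) (hY.da i hx), wpv_add (hZ.da i hx) (hY.da i hx),
    wpt_add (hZ.da i hx) (hY.da i hx), e1, e2]
  exact walg2 _ _ _ _ _ _ _ _ _ _ _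

theorem pert3 (hN : 1 ≤ N) (hR : X.H 1 N 1 (fun i z => Z i z - X.W i z)) (hY : X.H a d 1 Y)
    (hY' : X.H 1 N 1 Y) :
    X.H (a + 1) (d + N + 2) 2 (fun i z => X.E3 (fun i z => Z i z + Y i z) i z
      - (X.E3 Z i z + 2 * ⟪dv (X.f i) z.1 + pt (X.W i) z, pt (Y i) z⟫_ℝ
        + 2 * (X.ε i * ⟪dv (X.f i) z.1, pv (Y i) z⟫_ℝ))) := by
  have hZ := HZ hN hR
  refine (H.add (H.add (H.add (H.add (H.add (H.add ((((hZ.ht.inn hY.hv).emul.cmul 2).mono (by omega) (by omega) (by omega)))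
    ((((hZ.hv.inn hY.hv).emul.emul.cmul 2).mono (by omega) (by omega) (by omega)))) ((((hZ.hv.inn hY.ht).emul.cmul 2).mono (by omega) (by omega) (by omega))))
    ((((hR.ht.inn hY.ht).cmul 2).mono (by omega) (by omega) (by omega)))) (((hY.hv.inn hY'.hv).emul.emul.mono (by omega) (by omega) (by omega))))
    ((((hY.hv.inn hY'.ht).emul.cmul 2).mono (by omega) (by omega) (by omega)))) (((hY.ht.inn hY'.ht).mono (by omega) (by omega) (by omega)))).congr fun i x hx t => ?_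
  simp only [E3]
  have e2 : pt (Z i) (x, t) = pt (X.W i) (x, t) + pt (fun z => Z i z - X.W i z) (x, t) := by
    rw [wpt_sub (hZ.da i hx) (X.HW.da i hx)]; simp
  rw [wpv_add (hZ.da i hx) (hY.da i hx), wpt_add (hZ.da i hx) (hY.da i hx), e2]
  exact walg3 _ _ _ _ _ _ _ _

theorem A_pt (hY : X.H a b c Y) (h0 : ∀ i, ∀ x ∈ X.U i, ∀ t, ⟪du (X.f i) x, Y i (x, t)⟫_ℝ = 0)
    (i : ι) {x : P2} (hx : x ∈ X.U i) (t : ℝ) : ⟪du (X.f i) x, pt (Y i) (x, t)⟫_ℝ = 0 := by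
  have h1 := wpt_inner_fst (z := (x, t)) (X.HA.da2 i hx) (hY.da i hx)
  rw [← h1]
  exact wpt_zero (X.hU i) (h0 i) hx

theorem A_pu (hY : X.H a b c Y) (h0 : ∀ i, ∀ x ∈ X.U i, ∀ t, ⟪du (X.f i) x, Y i (x, t)⟫_ℝ = 0)
    (i : ι) {x : P2} (hx : x ∈ X.U i) (t : ℝ) :
    ⟪du (X.f i) x, pu (Y i) (x, t)⟫_ℝ = -⟪du (du (X.f i)) x, Y i (x, t)⟫_ℝ := by
  have h1 := wpu_inner_fst (z := (x, t)) (X.HA.da2 i hx) (hY.da i hx)
  have h2 : pu (fun z : P3 => ⟪du (X.f i) z.1, Y i z⟫_ℝ) (x, t) = 0 := wpu_zero (X.hU i) (h0 i) hx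
  rw [h2] at h1
  linarith

/-- the invariant of the expansion -/
structure Inv (X : WKB ι) (j s d N : ℕ) (Z : ι → P3 → R4) : Prop where
  close : X.H 1 N 1 (fun i z => Z i z - X.W i z)
  e1 : X.HM (j + 2) (j + 2) d (X.E1 Z)
  e2 : X.HM (j + 1 + s) (j + 2) d (X.E2 Z)
  e3 : X.HM (j + 1) (j + 1) d (X.E3 Z)

theorem Inv.mono {s d' N' : ℕ} (h : X.Inv j s d N Z) (hd : d ≤ d') (hN : N ≤ N') :
    X.Inv j s d' N' Z := ⟨(h.close.mono (by omega) (by omega) (by omega)), (h.e1.mono (by omega) (by omega) (by omega)), (h.e2.mono (by omega) (by omega) (by omega)), (h.e3.mono (by omega) (by omega) (by omega))⟩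

theorem inv_start (X : WKB ι) (N : ℕ) : X.Inv 0 0 4 N X.W := by
  have hW := X.HW
  have hWM : X.HM 0 1 1 X.W := hW.toHM0 X.meanW
  have hAW : ∀ i, ∀ x ∈ X.U i, ∀ t, ⟪du (X.f i) x, X.W i (x, t)⟫_ℝ = 0 := fun i x hx t => by
    rw [real_inner_comm]; exact (X.orthW i x hx t).1
  refine ⟨H.of_zero fun _ _ _ _ => sub_self _, ?_, ?_, ?_⟩
  · refine ((((hW.hu.inn hW.hu).emul.emul.toHM (by omega)).mono (by omega) (by omega) (by omega))).congr fun i x hx t => ?_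
    have h1 := A_pu hW hAW i hx t
    rw [real_inner_comm (X.W i (x, t)), (X.orthW i x hx t).2, neg_zero] at h1
    simp only [E1, ← real_inner_self_eq_norm_sq, inner_add_left, inner_add_right,
      real_inner_smul_left, real_inner_smul_right]
    rw [real_inner_comm (du (X.f i) x) (pu (X.W i) (x, t)), h1]
    ring
  · refine (HM.add (HM.add (HM.add (((hWM.hv.inner_fst X.HA).emul.mono (by omega) (by omega) (by omega)))
      (((hWM.hu.inner_fst X.HB).emul.mono (by omega) (by omega) (by omega))))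
      (((H.toHM0 (a' := 1) ((hW.hu.inn hW.ht).mono (c' := 1) le_rfl le_rfl (by omega)) X.meanWW).emul.mono (by omega) (by omega) (by omega))))
      ((((hW.hu.inn hW.hv).emul.emul.toHM (by omega)).mono (by omega) (by omega) (by omega)))).congr fun i x hx t => ?_
    have h1 := A_pt hW hAW i hx t
    simp only [E2, inner_add_left, inner_add_right, real_inner_smul_left, real_inner_smul_right]
    rw [real_inner_comm (dv (X.f i) x) (pu (X.W i) (x, t)), h1]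
    ring
  · refine (HM.add (HM.add ((((hWM.hv.inner_fst X.HB).emul.cmul 2).mono (by omega) (by omega) (by omega)))
      (((((hW.ht.inn hW.hv).emul.cmul 2).toHM (by omega)).mono (by omega) (by omega) (by omega))))
      ((((hW.hv.inn hW.hv).emul.emul.toHM (by omega)).mono (by omega) (by omega) (by omega)))).congr fun i x hx t => ?_
    have h1 := X.normV i x hx t
    simp only [E3, ← real_inner_self_eq_norm_sq, inner_add_left, inner_add_right,
      real_inner_smul_left, real_inner_smul_right, real_inner_comm] at h1 ⊢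
    linarith

theorem stepB (hN : 1 ≤ N) (habs : ∀ Y : ι → P3 → R4, X.H (j + 1) (d + 1) 1 Y → X.H 1 N 1 Y)
    (h : X.Inv j 0 d N Z) : ∃ Z', X.Inv j 1 (d + N + 3) N Z' := by
  have hE : X.H (j + 1) d 1 (fun i z => -X.E2 Z i z) := h.e2.1.neg
  have hg : X.HM (j + 1) (j + 1) d (fun i => tprim fun z => -X.E2 Z i z) := hE.tprimHM
  have hY := hg.smul_fst X.Hα
  have hY' := habs _ hY.1
  refine ⟨fun i z => Z i z + tprim (fun z => -X.E2 Z i z) z • X.α i z.1, ?_, ?_, ?_, ?_⟩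
  · exact (h.close.add hY').congr fun _ _ _ _ => by abel
  · exact HM.of_diff ((h.e1.mono (by omega) (by omega) (by omega)).add (((hY.hu.inner_fst X.HA).emul.cmul 2).mono (by omega) (by omega) (by omega)))
      (pert1 hN h.close hY.1 hY') (by omega) (by omega) (by omega)
  · refine HM.of_diff ?_ (pert2 hN h.close hY.1 hY') (by omega) (by omega) (by omega)
    refine (HM.add ((h.e2.2.toHM (by omega)).mono (by omega) (by omega) (by omega)) (HM.mono (HM.emul (HM.add (HM.add (HM.add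
      ((hY.hv.inner_fst X.HA).mono (d' := d + 3) le_rfl le_rfl (by omega))
      ((((X.HW.hu.inn hY.1.ht).toHM (by omega)).mono (by omega) (by omega) (by omega)))) (((hY.hu.inner_fst X.HB).mono (by omega) (by omega) (by omega))))
      ((((hY.1.hu.inn X.HW.ht).toHM (by omega)).mono (by omega) (by omega) (by omega))))) (by omega) (by omega) (by omega))).congr fun i x hx t => ?_
    have e1 : pt (fun z => tprim (fun z => -X.E2 Z i z) z • X.α i z.1) (x, t)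
        = (-X.E2 Z i (x, t) + tmean (X.E2 Z i) (x, t)) • X.α i x := by
      rw [wpt_smul_fst (hg.1.da i hx) (X.Hα.da2 i hx), pt_tprim (X.hU i) (hE.sm i) hx, tmean_neg,
        sub_neg_eq_add]
    have e2 : ⟪du (X.f i) x, X.α i x⟫_ℝ = 1 := by
      rw [real_inner_comm]; exact (X.dual i x hx).1
    have e3 : ⟪du (X.f i) x, pt (fun z => tprim (fun z => -X.E2 Z i z) z • X.α i z.1) (x, t)⟫_ℝ
        = -X.E2 Z i (x, t) + tmean (X.E2 Z i) (x, t) := by
      rw [e1, real_inner_smul_right, e2, mul_one]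
    simp only [e3]
    ring
  · refine HM.of_diff ?_ (pert3 hN h.close hY.1 hY') (by omega) (by omega) (by omega)
    refine (HM.add (HM.add (h.e3.mono (by omega) (by omega) (by omega)) (HM.cmul (HM.add
      ((((hY.1.ptHM (a' := j + 1)).inner_fst X.HB).mono (by omega) (by omega) (by omega)))
      ((((X.HW.ht.inn hY.1.ht).toHM (by omega)).mono (by omega) (by omega) (by omega)))) 2)) (((hY.hv.inner_fst X.HB).emul.cmul 2).mono (by omega) (by omega) (by omega))).congr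
      fun i x hx t => ?_
    simp only [inner_add_left]

end WKB
end Vale.Agent.P205
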