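import Vale.Agent.P205.WKB3

/-! P205: the linear solver of the expansion. -/

open scoped ContDiff InnerProductSpace Topology
open Set Filter Real

noncomputable section
namespace Vale.Agent.P205
namespace WKB

variable {ι : Type} {X : WKB ι} {a b c d N j : ℕ} {Z Y : ι → P3 → R4}

/-- the rotating normal -/
def nper (X : WKB ι) (i : ι) (z : P3) : R4 :=
  nPer (X.e i z.1) (X.e' i z.1) (X.c i z) (X.w i z.1 * X.sh i z)
def npar (X : WKB ι) (i : ι) (z : P3) : R4 :=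
  nPar (X.e i z.1) (X.e' i z.1) (X.c i z) (X.w i z.1 * X.sh i z)
/-- the test functions dual to `k` -/
def tst (X : WKB ι) (l : Fin 4) (i : ι) (z : P3) : ℝ :=
  ![X.c i z, X.sh i z, ⟪X.nper i z, X.W i z⟫_ℝ / X.w i z.1,
    ⟪X.nper i z, pu (X.W i) z⟫_ℝ / X.w i z.1] l

theorem Hnper (X : WKB ι) : X.H 0 2 0 X.nper := X.Hper
theorem Hnpar (X : WKB ι) : X.H 0 2 0 X.npar := X.Hpar

theorem Htst (X : WKB ι) (l : Fin 4) : X.H 0 4 0 (X.tst l) := by
  fin_cases l
  · exact (X.Hc.mono (by omega) (by omega) (by omega))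
  · exact (X.Hsh.mono (by omega) (by omega) (by omega))
  · exact ((X.Hnper.inn X.HW).wdiv.mono (by omega) (by omega) (by omega))
  · exact ((X.Hnper.inn X.HW.hu).wdiv.mono (by omega) (by omega) (by omega))

theorem dual_tst (X : WKB ι) (j l : Fin 4) (i : ι) {x : P2} (hx : x ∈ X.U i) (t : ℝ) :
    tmean (fun z => X.k j i z * X.tst l i z) (x, t) = if j = l then 1 else 0 :=
  X.dualk j l i x hx t

theorem dual0 (A : Fin 4 → ι → P2 → ℝ) (hA : ∀ j, X.H a d 1 (fun i z => A j i z.1)) :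
    ∃ k : ι → P3 → ℝ, X.H a (d + 1) 1 k ∧ ∀ l i, ∀ x ∈ X.U i, ∀ t,
      tmean (fun z => k i z * X.tst l i z) (x, t) = A l i x := by
  refine ⟨fun i z => A 0 i z.1 * X.k 0 i z + A 1 i z.1 * X.k 1 i z + A 2 i z.1 * X.k 2 i z
    + A 3 i z.1 * X.k 3 i z, ((((hA 0).mul (X.Hk 0)).add ((hA 1).mul (X.Hk 1))).add
      ((hA 2).mul (X.Hk 2))).add ((hA 3).mul (X.Hk 3)), fun l i x hx t => ?_⟩
  have h (j : Fin 4) := (hA j).mul ((X.Hk j).mul (X.Htst l))
  have e (j : Fin 4) : tmean (fun z => A j i z.1 * (X.k j i z * X.tst l i z)) (x, t)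
      = A j i x * if j = l then 1 else 0 := by
    rw [tmean_fst_mul (A j i), X.dual_tst j l i hx t]
  rw [tmean_congr (g := fun z => A 0 i z.1 * (X.k 0 i z * X.tst l i z)
    + A 1 i z.1 * (X.k 1 i z * X.tst l i z) + A 2 i z.1 * (X.k 2 i z * X.tst l i z)
    + A 3 i z.1 * (X.k 3 i z * X.tst l i z)) (fun t => by ring),
    (((h 0).add (h 1)).add (h 2)).mean_add (h 3) i hx, ((h 0).add (h 1)).mean_add (h 2) i hx,
    (h 0).mean_add (h 1) i hx, e, e, e, e]
  fin_cases l <;> simp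

theorem dualsolve {g0 g1 g2 g3 : ι → P3 → ℝ} (h0 : X.H a d 2 (fun i => tmean (g0 i)))
    (h1 : X.H a d 2 (fun i => tmean (g1 i))) (h2 : X.H a d 2 (fun i => tmean (g2 i)))
    (h3 : X.H a d 2 (fun i => tmean (g3 i))) :
    ∃ k : ι → P3 → ℝ, X.H a (d + 1) 1 k ∧ ∀ i, ∀ x ∈ X.U i, ∀ t,
      tmean (fun z => k i z * X.c i z) (x, t) = tmean (g0 i) (x, t) ∧
      tmean (fun z => k i z * (X.w i z.1 * X.sh i z)) (x, t) = tmean (g1 i) (x, t) ∧
      tmean (fun z => k i z * ⟪X.nper i z, X.W i z⟫_ℝ) (x, t) = tmean (g2 i) (x, t) ∧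
      tmean (fun z => k i z * ⟪X.nper i z, pu (X.W i) z⟫_ℝ) (x, t) = tmean (g3 i) (x, t) := by
  obtain ⟨k, hk, hm⟩ := dual0 (X := X) (a := a) (d := d)
    ![fun i x => tmean (g0 i) (x, 0), fun i x => tmean (g1 i) (x, 0) / X.w i x,
      fun i x => tmean (g2 i) (x, 0) / X.w i x, fun i x => tmean (g3 i) (x, 0) / X.w i x]
    (fun j => by
      fin_cases j
      · exact (h0.mono (by omega) (by omega) (by omega))
      · exact h1.wdiv
      · exact h2.wdiv
      · exact h3.wdiv)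
  refine ⟨k, hk, fun i x hx t => ?_⟩
  have hw := (X.wpos i hx).ne'
  have key (l : Fin 4) (τ : P3 → ℝ) (hτ : ∀ s, τ (x, s) = X.w i x * X.tst l i (x, s)) :
      tmean (fun z => k i z * τ z) (x, t)
        = X.w i x * tmean (fun z => k i z * X.tst l i z) (x, t) := by
    rw [tmean_congr (g := fun z => X.w i z.1 * (k i z * X.tst l i z))
      (fun s => by rw [hτ]; ring), tmean_fst_mul (X.w i)]
  refine ⟨hm 0 i x hx t, ?_, ?_, ?_⟩
  · rw [key 1 _ (fun s => rfl), hm 1 i x hx t]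
    show X.w i x * (tmean (g1 i) (x, t) / X.w i x) = _
    field_simp
  · rw [key 2 _ (fun s => by
      show _ = X.w i x * (⟪X.nper i (x, s), X.W i (x, s)⟫_ℝ / X.w i x)
      field_simp), hm 2 i x hx t]
    show X.w i x * (tmean (g2 i) (x, t) / X.w i x) = _
    field_simp
  · rw [key 3 _ (fun s => by
      show _ = X.w i x * (⟪X.nper i (x, s), pu (X.W i) (x, s)⟫_ℝ / X.w i x)
      field_simp), hm 3 i x hx t]
    show X.w i x * (tmean (g3 i) (x, t) / X.w i x) = _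
    field_simp

theorem solver {y φ R : ι → P3 → ℝ} (hy : X.HM a a d y) (hφ : X.HM a a d φ)
    (hR : X.HM a a d R) : ∃ Y : ι → P3 → R4, X.HM a a (d + 10) Y ∧ ∀ i, ∀ x ∈ X.U i, ∀ t,
      ⟪du (X.f i) x, Y i (x, t)⟫_ℝ = 0 ∧ ⟪du (du (X.f i)) x, Y i (x, t)⟫_ℝ = y i (x, t) ∧
      ⟪dv (X.f i) x + pt (X.W i) (x, t), pt (Y i) (x, t)⟫_ℝ = φ i (x, t) ∧
      tmean (Y i) (x, t) = tmean (fun z => y i z • X.β i z.1) (x, t) ∧
      tmean (fun z => ⟪pt (Y i) z, X.W i z⟫_ℝ) (x, t) = 0 ∧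
      tmean (fun z => ⟪pu (X.W i) z, pt (Y i) z⟫_ℝ) (x, t) = tmean (R i) (x, t) := by
  have hyt : X.HM a a d (fun i => pt (y i)) := hy.1.ptHM
  obtain ⟨ψ, hψ, eψ⟩ : ∃ ψ : ι → P3 → ℝ, X.HM a a (d + 3) ψ ∧ ∀ i, ∀ x ∈ X.U i, ∀ t,
      ψ i (x, t) * X.r i x
        = φ i (x, t) - pt (y i) (x, t) * ⟪dv (X.f i) x + pt (X.W i) (x, t), X.β i x⟫_ℝ := by
    refine ⟨fun i z => (X.r i z.1)⁻¹ * (φ i z - (⟪dv (X.f i) z.1, X.β i z.1⟫_ℝ * pt (y i) z
      + pt (y i) z * ⟪pt (X.W i) z, X.β i z.1⟫_ℝ)), ?_, fun i x hx t => ?_⟩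
    · exact HM.fst_mul (d := d + 2) (g := fun i x => (X.r i x)⁻¹) (HM.sub (hφ.mono (d' := d + 2) le_rfl le_rfl (by omega))
        (HM.add (hyt.fst_mul (g := fun i x => ⟪dv (X.f i) x, X.β i x⟫_ℝ) (X.HB.inn X.Hβ))
          (((hyt.1.mul (X.HW.ht.inn X.Hβ)).toHM (by omega)).mono (by omega) (by omega) (by omega)))) X.Hr
    · have := X.hr0 i x hx
      rw [inner_add_left]
      field_simp
  have hP : X.H a (d + 5) 1 (fun i z => pt (y i) z • X.β i z.1 + ψ i z • X.npar i z) :=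
    ((hyt.1.smul X.Hβ).mono (by omega) (by omega) (by omega)).add ((hψ.1.smul X.Hnpar).mono (by omega) (by omega) (by omega))
  have hψc : X.HM a a (d + 4) (fun i z => ψ i z * X.c i z) :=
    (HM.add (hψ.mono (by omega) (by omega) (by omega)) (((hψ.1.mul X.Hc1).toHM (by omega)).mono (by omega) (by omega) (by omega))).congr fun i x _ t => by ring
  have hψs : X.H a (d + 4) 2 (fun i z => ψ i z * (X.w i z.1 * X.sh i z)) := hψ.1.mul X.Hws
  have hPW := hP.inn X.HW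
  have hWP := X.HW.hu.inn hP
  obtain ⟨k, hk, ek⟩ := dualsolve (X := X) (a := a) (d := d + 7) (hψs.neg.hm.mono (by omega) (by omega) (by omega)) (hψc.2.mono (by omega) (by omega) (by omega))
    (hPW.neg.hm.mono (by omega) (by omega) (by omega)) (HM.sub (hR.mono (d' := d + 7) le_rfl le_rfl (by omega)) ((hWP.toHM (by omega)).mono (by omega) (by omega) (by omega))).2
  have hks : X.H a (d + 9) 1 (fun i z => k i z * (X.w i z.1 * X.sh i z)) := ((hk.mul X.Hws).mono (by omega) (by omega) (by omega))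
  have hkc : X.H a (d + 9) 1 (fun i z => k i z * X.c i z) := ((hk.mul X.Hc).mono (by omega) (by omega) (by omega))
  have hp1 : X.H a (d + 9) 1 (fun i z => ψ i z * X.c i z - k i z * (X.w i z.1 * X.sh i z)) :=
    (hψc.1.mono (by omega) (by omega) (by omega)).sub hks
  have hp2 : X.H a (d + 9) 1 (fun i z => ψ i z * (X.w i z.1 * X.sh i z) + k i z * X.c i z) :=
    (hψs.mono (by omega) (by omega) (by omega)).add hkc
  have hq1 := hp1.tprimHM (a' := a)
  have hq2 := hp2.tprimHM (a' := a)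
  have hY1 := hy.smul_fst X.Hβ
  have hY2 := hq1.smul_fst X.He
  have hY3 := hq2.smul_fst X.He'
  have hY := HM.add (HM.add (hY1.mono (d' := d + 10) le_rfl le_rfl (by omega)) hY2) hY3
  refine ⟨_, hY, fun i x hx t => ?_⟩
  have hd := X.dual i x hx
  have ho := X.orth i x hx
  have et (t : ℝ) : pt (fun z => y i z • X.β i z.1
      + tprim (fun z => ψ i z * X.c i z - k i z * (X.w i z.1 * X.sh i z)) z • X.e i z.1
      + tprim (fun z => ψ i z * (X.w i z.1 * X.sh i z) + k i z * X.c i z) z • X.e' i z.1) (x, t)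
      = (pt (y i) (x, t) • X.β i x + ψ i (x, t) • X.npar i (x, t))
        + k i (x, t) • X.nper i (x, t) := by
    have m1 : tmean (fun z => ψ i z * X.c i z - k i z * (X.w i z.1 * X.sh i z)) (x, t) = 0 := by
      rw [hψc.1.mean_sub hks i hx, (ek i x hx t).2.1, sub_self]
    have m2 : tmean (fun z => ψ i z * (X.w i z.1 * X.sh i z) + k i z * X.c i z) (x, t) = 0 := by
      rw [hψs.mean_add hkc i hx, (ek i x hx t).1, tmean_neg, add_neg_cancel]
    rw [wpt_add ((hY1.1.da i hx).fun_add (hY2.1.da i hx)) (hY3.1.da i hx),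
      wpt_add (hY1.1.da i hx) (hY2.1.da i hx), wpt_smul_fst (hy.1.da i hx) (X.Hβ.da2 i hx),
      wpt_smul_fst (hq1.1.da i hx) (X.He.da2 i hx), wpt_smul_fst (hq2.1.da i hx) (X.He'.da2 i hx),
      pt_tprim (X.hU i) (hp1.sm i) hx, pt_tprim (X.hU i) (hp2.sm i) hx, m1, m2]
    simp only [npar, nper, nPar, nPer]
    module
  refine ⟨?_, ?_, ?_, ?_, ?_, ?_⟩
  · rw [real_inner_comm]
    simp only [inner_add_left, real_inner_smul_left, hd.2.2.1, ho.1, ho.2.2.1]
    ring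
  · rw [real_inner_comm]
    simp only [inner_add_left, real_inner_smul_left, hd.2.2.2, ho.2.1, ho.2.2.2]
    ring
  · have hv := X.Vpar i x hx t
    rw [et, inner_add_right, inner_add_right, real_inner_smul_right, real_inner_smul_right,
      real_inner_smul_right, npar, nper, hv.1, hv.2, eψ i x hx t]
    ring
  · rw [(hY1.1.mono (b' := d + 10) le_rfl (by omega) (by omega)).add hY2.1 |>.mean_add hY3.1 i hx,
      hY1.1.mean_add hY2.1 i hx, tmean_smul_fst (X.e i), tmean_smul_fst (X.e' i),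
      tmean_tprim (X.hU i) (hp1.sm i) hx, tmean_tprim (X.hU i) (hp2.sm i) hx]
    simp
  · rw [tmean_congr (g := fun z => ⟪pt (y i) z • X.β i z.1 + ψ i z • X.npar i z, X.W i z⟫_ℝ
        + k i z * ⟪X.nper i z, X.W i z⟫_ℝ)
      (fun s => by rw [et, inner_add_left _ (k i (x, s) • _), real_inner_smul_left]),
      hPW.mean_add (hk.mul (X.Hnper.inn X.HW)) i hx, (ek i x hx t).2.2.1, tmean_neg,
      add_neg_cancel]
  · rw [tmean_congr (g := fun z => ⟪pu (X.W i) z, pt (y i) z • X.β i z.1 + ψ i z • X.npar i z⟫_ℝ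
        + k i z * ⟪X.nper i z, pu (X.W i) z⟫_ℝ)
      (fun s => by
        rw [et, inner_add_right _ _ (k i (x, s) • _), real_inner_smul_right,
          real_inner_comm (X.nper i (x, s))]),
      hWP.mean_add (hk.mul (X.Hnper.inn X.HW.hu)) i hx, (ek i x hx t).2.2.2,
      hR.1.mean_sub hWP i hx]
    ring

end WKB
end Vale.Agent.P205
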